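import Vale.Agent.P232.Defs

open MeasureTheory Set Filter Topology
open scoped Convolution

namespace Vale.Agent.P232

theorem mc_integrable {ρ : (Fin 3 → ℝ) → ℝ} (hρ : Kern ρ) {E : Set (Fin 3 → ℝ)}
    (hE : MeasurableSet E) (x : Fin 3 → ℝ) :
    Integrable (fun y => ρ y * E.indicator (fun _ => (1 : ℝ)) (x + y)) := by
  have hi : Integrable ρ := hρ.smooth.continuous.integrable_of_hasCompactSupport hρ.supp
  refine hi.mul_bdd (c := 1) ?_ ?_
  · have h1 : Measurable (fun y : Fin 3 → ℝ => E.indicator (fun _ => (1 : ℝ)) (x + y)) :=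
      (measurable_const.indicator hE).comp (measurable_const_add x)
    exact h1.aestronglyMeasurable
  · refine Filter.Eventually.of_forall fun y => ?_
    rw [Real.norm_eq_abs]
    by_cases h : x + y ∈ E
    · simp [Set.indicator_of_mem h]
    · simp [Set.indicator_of_notMem h]

theorem mc_range {ρ : (Fin 3 → ℝ) → ℝ} (hρ : Kern ρ) {E : Set (Fin 3 → ℝ)}
    (hE : MeasurableSet E) (x : Fin 3 → ℝ) : 0 ≤ moll ρ E x ∧ moll ρ E x ≤ 1 := by
  have hi : Integrable ρ := hρ.smooth.continuous.integrable_of_hasCompactSupport hρ.supp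
  unfold moll
  constructor
  · refine integral_nonneg fun y => mul_nonneg (hρ.nonneg y) ?_
    exact Set.indicator_nonneg (fun _ _ => zero_le_one) _
  · refine (integral_mono (mc_integrable hρ hE x) hi fun y => ?_).trans hρ.int_one.le
    refine mul_le_of_le_one_right (hρ.nonneg y) ?_
    exact Set.indicator_le_self' (fun _ _ => zero_le_one) _

/-- bump function number `n` -/
noncomputable def mcBump (n : ℕ) : ContDiffBump (0 : Fin 3 → ℝ) where
  rIn := 1 / ((n : ℝ) + 1)
  rOut := 2 / ((n : ℝ) + 1)
  rIn_pos := by positivity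
  rIn_lt_rOut := by
    have : (0 : ℝ) < (n : ℝ) + 1 := by positivity
    gcongr
    norm_num

theorem mc_kern (n : ℕ) : Kern ((mcBump n).normed (volume : Measure (Fin 3 → ℝ))) where
  smooth := (mcBump n).contDiff_normed (n := 3)
  supp := (mcBump n).hasCompactSupport_normed
  nonneg := (mcBump n).nonneg_normed
  int_one := (mcBump n).integral_normed

theorem mc_eq (n : ℕ) (E : Set (Fin 3 → ℝ)) (x : Fin 3 → ℝ) :
    moll ((mcBump n).normed (volume : Measure (Fin 3 → ℝ))) E x =
      (((mcBump n).normed (volume : Measure (Fin 3 → ℝ))) ⋆[ContinuousLinearMap.lsmul ℝ ℝ, volume]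
        (E.indicator fun _ => (1 : ℝ))) x := by
  unfold moll
  rw [convolution_def]
  rw [← integral_neg_eq_self]
  refine integral_congr_ae (Filter.Eventually.of_forall fun y => ?_)
  simp only [ContinuousLinearMap.lsmul_apply, smul_eq_mul]
  rw [(mcBump n).normed_neg, sub_eq_add_neg]

theorem mc_locInt {E : Set (Fin 3 → ℝ)} (hE : MeasurableSet E) :
    LocallyIntegrable (E.indicator fun _ => (1 : ℝ)) (volume : Measure (Fin 3 → ℝ)) :=
  (locallyIntegrable_const (1 : ℝ)).indicator hE

theorem moll_close {E : Set (Fin 3 → ℝ)} (hE : MeasurableSet E) (hper : IsPerSet E) {η : ℝ}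
    (hη : 0 < η) : ∃ ρ : (Fin 3 → ℝ) → ℝ, Kern ρ ∧
      ∫ x in cell 3, moll ρ E x * (1 - moll ρ E x) ≤ η := by
  have hae := ContDiffBump.ae_convolution_tendsto_right_of_locallyIntegrable
    (φ := mcBump) (l := atTop) (K := 2) (μ := (volume : Measure (Fin 3 → ℝ)))
    (g := E.indicator fun _ => (1 : ℝ)) (by
      have h : Tendsto (fun n : ℕ => 2 / ((n : ℝ) + 1)) atTop (𝓝 0) := by
        have h1 := (tendsto_one_div_add_atTop_nhds_zero_nat (𝕜 := ℝ)).const_mul 2
        rw [mul_zero] at h1
        refine h1.congr fun n => ?_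
        ring
      exact h) (Filter.Eventually.of_forall fun n => by
        show 2 / ((n : ℝ) + 1) ≤ 2 * (1 / ((n : ℝ) + 1))
        apply le_of_eq
        ring) (mc_locInt hE)
  have hvol : volume (cell 3) = 1 := by
    unfold cell
    rw [volume_pi_pi]
    simp
  have hcont : ∀ n, Continuous
      (moll ((mcBump n).normed (volume : Measure (Fin 3 → ℝ))) E) := by
    intro n
    have h1 : moll ((mcBump n).normed (volume : Measure (Fin 3 → ℝ))) E =
      (((mcBump n).normed (volume : Measure (Fin 3 → ℝ))) ⋆[ContinuousLinearMap.lsmul ℝ ℝ, volume]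
        (E.indicator fun _ => (1 : ℝ))) := funext fun x => mc_eq n E x
    rw [h1]
    exact (mcBump n).hasCompactSupport_normed.continuous_convolution_left _
      (mcBump n).continuous_normed (mc_locInt hE)
  have hlim : Tendsto (fun n : ℕ => ∫ x in cell 3,
      moll ((mcBump n).normed (volume : Measure (Fin 3 → ℝ))) E x *
        (1 - moll ((mcBump n).normed (volume : Measure (Fin 3 → ℝ))) E x)) atTop (𝓝 (∫ x in cell 3,
          E.indicator (fun _ => (1 : ℝ)) x * (1 - E.indicator (fun _ => (1 : ℝ)) x))) := by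
    refine tendsto_integral_of_dominated_convergence (fun _ => (1 : ℝ)) ?_ ?_ ?_ ?_
    · intro n
      exact ((hcont n).mul (continuous_const.sub (hcont n))).aestronglyMeasurable
    · rw [integrable_const_iff]
      right
      rw [isFiniteMeasure_restrict, hvol]
      exact ENNReal.one_ne_top
    · intro n
      refine Filter.Eventually.of_forall fun x => ?_
      obtain ⟨h1, h2⟩ := mc_range (mc_kern n) hE x
      rw [Real.norm_eq_abs, abs_le]
      constructor <;> nlinarith
    · refine ae_restrict_of_ae ?_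
      filter_upwards [hae] with x hx
      have hx' : Tendsto (fun n => moll ((mcBump n).normed (volume : Measure (Fin 3 → ℝ))) E x)
          atTop (𝓝 (E.indicator (fun _ => (1 : ℝ)) x)) := by
        refine hx.congr fun n => ?_
        rw [mc_eq]
      exact hx'.mul (tendsto_const_nhds.sub hx')
  have hzero : ∫ x in cell 3,
      E.indicator (fun _ => (1 : ℝ)) x * (1 - E.indicator (fun _ => (1 : ℝ)) x) = 0 := by
    have : ∀ x : Fin 3 → ℝ, E.indicator (fun _ => (1 : ℝ)) x *
        (1 - E.indicator (fun _ => (1 : ℝ)) x) = 0 := by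
      intro x
      by_cases h : x ∈ E
      · simp [Set.indicator_of_mem h]
      · simp [Set.indicator_of_notMem h]
    simp [this]
  rw [hzero] at hlim
  obtain ⟨n, hn⟩ := (hlim.eventually (gt_mem_nhds hη)).exists
  exact ⟨_, mc_kern n, hn.le⟩

end Vale.Agent.P232
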