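import Vale.Agent.P232.Defs

/-! # P232, F3: the mollified indicator tested against a divergence (helper78) -/

open MeasureTheory Set Filter
open scoped Topology Pointwise

namespace Vale.Agent.P232

theorem F3_lattice (n : ℕ)
    (g : (Submodule.span ℤ (Set.range (Pi.basisFun ℝ (Fin n)))).toAddSubgroup) :
    ∃ k : Fin n → ℤ, (g : Fin n → ℝ) = fun i => (k i : ℝ) := by
  have h := ((Pi.basisFun ℝ (Fin n)).mem_span_iff_repr_mem ℤ (g : Fin n → ℝ)).1 g.2
  choose k hk using h
  refine ⟨k, ?_⟩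
  funext i
  have := hk i
  simp only [algebraMap_int_eq, eq_intCast, Pi.basisFun_repr] at this
  exact this.symm

/-- integrals of periodic functions over the cell are translation invariant -/
theorem F3_translate {n : ℕ} {F : (Fin n → ℝ) → ℝ} (hF : IsPer F) (y : Fin n → ℝ) :
    ∫ x in cell n, F (x + y) = ∫ x in cell n, F x := by
  have hfd : IsAddFundamentalDomain
      (Submodule.span ℤ (Set.range (Pi.basisFun ℝ (Fin n)))).toAddSubgroup (cell n) volume := by
    have := ZSpan.isAddFundamentalDomain' (Pi.basisFun ℝ (Fin n)) volume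
    rwa [ZSpan.fundamentalDomain_pi_basisFun] at this
  have hcnt : Countable (Submodule.span ℤ (Set.range (Pi.basisFun ℝ (Fin n)))).toAddSubgroup :=
    inferInstanceAs (Countable (Submodule.span ℤ (Set.range (Pi.basisFun ℝ (Fin n)))))
  have h2 := hfd.vadd_of_comm y
  have h3 := h2.setIntegral_eq hfd (f := F) (fun g x => by
    obtain ⟨k, hk⟩ := F3_lattice n g
    have h : g +ᵥ x = x + fun i => (k i : ℝ) := by
      rw [← hk, add_comm]
      rfl
    rw [h]
    exact hF x k)
  rw [← h3]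
  have h4 := (measurePreserving_add_right (volume : Measure (Fin n → ℝ)) y).setIntegral_preimage_emb
    (measurableEmbedding_addRight y) F (y +ᵥ cell n)
  rw [← h4]
  congr 2
  ext x
  simp [Set.mem_vadd_set_iff_neg_vadd_mem, add_comm]

/-- continuous periodic maps are bounded -/
theorem F3_bdd {n : ℕ} {Y : Type} [NormedAddCommGroup Y] {g : (Fin n → ℝ) → Y} (hg : Continuous g)
    (hp : IsPer g) : ∃ M : ℝ, ∀ x, ‖g x‖ ≤ M := by
  obtain ⟨M, hM⟩ := (isCompact_Icc (a := (0 : Fin n → ℝ)) (b := 1)).exists_bound_of_continuousOn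
    hg.continuousOn
  refine ⟨M, fun x => ?_⟩
  have h := hp (fun i => Int.fract (x i)) (fun i => ⌊x i⌋)
  have h1 : ((fun i => Int.fract (x i)) + fun i => ((⌊x i⌋ : ℤ) : ℝ)) = x := by
    funext i
    exact Int.fract_add_floor (x i)
  rw [h1] at h
  rw [h]
  apply hM
  constructor
  · intro i
    exact Int.fract_nonneg _
  · intro i
    exact (Int.fract_lt_one _).le

/-- the divergence as a linear functional of the derivative -/
noncomputable def F3_L : ((Fin 3 → ℝ) →L[ℝ] (Fin 3 → ℝ)) →L[ℝ] ℝ :=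
  ∑ i, (ContinuousLinearMap.proj (R := ℝ) (φ := fun _ : Fin 3 => ℝ) i).comp
    (ContinuousLinearMap.apply ℝ (Fin 3 → ℝ) (Pi.single i (1 : ℝ)))

theorem F3_L_apply (φ : (Fin 3 → ℝ) → (Fin 3 → ℝ)) (x : Fin 3 → ℝ) :
    diverg φ x = F3_L (fderiv ℝ φ x) := by
  simp [diverg, F3_L]

theorem F3_per_fderiv {φ : (Fin 3 → ℝ) → (Fin 3 → ℝ)} (hp : IsPer φ) : IsPer (fderiv ℝ φ) := by
  intro x k
  have h : (fun z => φ (z + fun i => (k i : ℝ))) = φ := by
    funext z
    exact hp z k
  have h2 := fderiv_comp_add_right (𝕜 := ℝ) (f := φ) (x := x) (fun i => (k i : ℝ))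
  rw [h] at h2
  exact h2.symm

variable {ρ : (Fin 3 → ℝ) → ℝ}

theorem F3_int (hρ : Kern ρ) : Integrable ρ :=
  hρ.smooth.continuous.integrable_of_hasCompactSupport hρ.supp

/-- `ρ y • g (x - y)` is integrable for bounded continuous `g` -/
theorem F3_integrable (hρ : Kern ρ) {Y : Type} [NormedAddCommGroup Y] [NormedSpace ℝ Y]
    {g : (Fin 3 → ℝ) → Y} (hg : Continuous g) (x : Fin 3 → ℝ) :
    Integrable (fun y => ρ y • g (x - y)) := by
  apply Continuous.integrable_of_hasCompactSupport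
  · exact hρ.smooth.continuous.smul (hg.comp (continuous_const.sub continuous_id))
  · exact hρ.supp.smul_right

/-- the averaged vector field -/
noncomputable def F3_avg (ρ : (Fin 3 → ℝ) → ℝ) (φ : (Fin 3 → ℝ) → (Fin 3 → ℝ)) (x : Fin 3 → ℝ) :
    Fin 3 → ℝ := ∫ y, ρ y • φ (x - y)

theorem F3_deriv (hρ : Kern ρ) {φ : (Fin 3 → ℝ) → (Fin 3 → ℝ)} (hφ : ContDiff ℝ 1 φ)
    (hφp : IsPer φ) (x : Fin 3 → ℝ) :
    HasFDerivAt (F3_avg ρ φ) (∫ y, ρ y • fderiv ℝ φ (x - y)) x := by
  have hc : Continuous (fderiv ℝ φ) := hφ.continuous_fderiv (by norm_num)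
  obtain ⟨M, hM⟩ := F3_bdd hc (F3_per_fderiv hφp)
  refine hasFDerivAt_integral_of_dominated_of_fderiv_le (F := fun x y => ρ y • φ (x - y))
    (F' := fun x y => ρ y • fderiv ℝ φ (x - y)) (bound := fun y => |ρ y| * M) (s := Set.univ)
    univ_mem ?_ ?_ ?_ ?_ ?_ ?_
  · exact Eventually.of_forall fun z => (F3_integrable hρ hφ.continuous z).aestronglyMeasurable
  · exact F3_integrable hρ hφ.continuous x
  · exact (F3_integrable hρ hc x).aestronglyMeasurable
  · refine Eventually.of_forall fun y z _ => ?_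
    rw [norm_smul, Real.norm_eq_abs]
    exact mul_le_mul_of_nonneg_left (hM _) (abs_nonneg _)
  · exact (F3_int hρ).abs.mul_const M
  · refine Eventually.of_forall fun y z _ => ?_
    have h1 : HasFDerivAt φ (fderiv ℝ φ (z - y)) (z - y) :=
      (hφ.differentiable (by norm_num) (z - y)).hasFDerivAt
    have h2 : HasFDerivAt (fun z : Fin 3 → ℝ => z - y) (ContinuousLinearMap.id ℝ _) z :=
      (hasFDerivAt_id z).sub_const y
    have h3 := (h1.comp z h2).const_smul (ρ y)
    simpa using h3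

theorem F3_cont (hρ : Kern ρ) {φ : (Fin 3 → ℝ) → (Fin 3 → ℝ)} (hφ : ContDiff ℝ 1 φ)
    (hφp : IsPer φ) : Continuous fun x => ∫ y, ρ y • fderiv ℝ φ (x - y) := by
  have hc : Continuous (fderiv ℝ φ) := hφ.continuous_fderiv (by norm_num)
  obtain ⟨M, hM⟩ := F3_bdd hc (F3_per_fderiv hφp)
  refine continuous_of_dominated (F := fun x y => ρ y • fderiv ℝ φ (x - y))
    (bound := fun y => |ρ y| * M) ?_ ?_ ?_ ?_
  · exact fun z => (F3_integrable hρ hc z).aestronglyMeasurable
  · intro z
    refine Eventually.of_forall fun y => ?_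
    rw [norm_smul, Real.norm_eq_abs]
    exact mul_le_mul_of_nonneg_left (hM _) (abs_nonneg _)
  · exact (F3_int hρ).abs.mul_const M
  · refine Eventually.of_forall fun y => ?_
    exact (hc.comp (continuous_id.sub continuous_const)).const_smul (ρ y)

theorem F3_avg_contDiff (hρ : Kern ρ) {φ : (Fin 3 → ℝ) → (Fin 3 → ℝ)} (hφ : ContDiff ℝ 1 φ)
    (hφp : IsPer φ) : ContDiff ℝ 1 (F3_avg ρ φ) :=
  contDiff_one_iff_hasFDerivAt.2 ⟨_, F3_cont hρ hφ hφp, F3_deriv hρ hφ hφp⟩

theorem F3_avg_per {φ : (Fin 3 → ℝ) → (Fin 3 → ℝ)} (hφp : IsPer φ) : IsPer (F3_avg ρ φ) := by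
  intro x k
  unfold F3_avg
  congr 1
  funext y
  have : x + (fun i => (k i : ℝ)) - y = (x - y) + fun i => (k i : ℝ) := by
    funext i
    simp
    ring
  rw [this, hφp]

theorem F3_avg_apply (hρ : Kern ρ) {φ : (Fin 3 → ℝ) → (Fin 3 → ℝ)} (hφ : Continuous φ)
    (x : Fin 3 → ℝ) (i : Fin 3) : F3_avg ρ φ x i = ∫ y, ρ y * φ (x - y) i := by
  have h := (ContinuousLinearMap.proj (R := ℝ) (φ := fun _ : Fin 3 => ℝ) i).integral_comp_comm
    (F3_integrable hρ hφ x)
  simp only [ContinuousLinearMap.proj_apply, Pi.smul_apply, smul_eq_mul] at h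
  exact h.symm

theorem F3_avg_norm (hρ : Kern ρ) {φ : (Fin 3 → ℝ) → (Fin 3 → ℝ)} (hφ : Continuous φ)
    (hφ1 : ∀ x, ∑ i, (φ x i) ^ 2 ≤ 1) (x : Fin 3 → ℝ) : ∑ i, (F3_avg ρ φ x i) ^ 2 ≤ 1 := by
  set v := F3_avg ρ φ x with hv
  have hI : ∀ i, Integrable (fun y => ρ y * φ (x - y) i) := fun i =>
    F3_integrable hρ ((continuous_apply i).comp hφ) x
  have h1 : ∑ i, (v i) ^ 2 = ∫ y, ρ y * ∑ i, v i * φ (x - y) i := by
    have h2 : ∀ i, v i ^ 2 = ∫ y, v i * (ρ y * φ (x - y) i) := by
      intro i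
      rw [integral_const_mul, ← F3_avg_apply hρ hφ, ← hv]
      ring
    simp_rw [h2]
    rw [← integral_finsetSum _ (fun i _ => (hI i).const_mul _)]
    congr 1
    funext y
    rw [Finset.mul_sum]
    refine Finset.sum_congr rfl fun i _ => ?_
    ring
  have h3 : ∫ y, ρ y * ∑ i, v i * φ (x - y) i ≤ ∫ y, ρ y * ((∑ i, (v i) ^ 2 + 1) / 2) := by
    apply integral_mono
    · have : (fun y => ρ y * ∑ i, v i * φ (x - y) i) =
          fun y => ∑ i, v i * (ρ y * φ (x - y) i) := by
        funext y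
        rw [Finset.mul_sum]
        refine Finset.sum_congr rfl fun i _ => ?_
        ring
      rw [this]
      exact integrable_finsetSum _ fun i _ => (hI i).const_mul _
    · exact (F3_int hρ).mul_const _
    · intro y
      apply mul_le_mul_of_nonneg_left _ (hρ.nonneg y)
      have h4 : ∑ i, v i * φ (x - y) i ≤ ∑ i, ((v i) ^ 2 + (φ (x - y) i) ^ 2) / 2 := by
        apply Finset.sum_le_sum
        intro i _
        nlinarith [sq_nonneg (v i - φ (x - y) i)]
      have h5 : ∑ i, ((v i) ^ 2 + (φ (x - y) i) ^ 2) / 2 =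
          (∑ i, (v i) ^ 2 + ∑ i, (φ (x - y) i) ^ 2) / 2 := by
        rw [← Finset.sum_add_distrib, Finset.sum_div]
      have h6 := hφ1 (x - y)
      linarith
  rw [integral_mul_const, hρ.int_one, one_mul] at h3
  rw [h1]
  rw [h1] at h3
  linarith

theorem F3_div_avg (hρ : Kern ρ) {φ : (Fin 3 → ℝ) → (Fin 3 → ℝ)} (hφ : ContDiff ℝ 1 φ)
    (hφp : IsPer φ) (x : Fin 3 → ℝ) : diverg (F3_avg ρ φ) x = ∫ y, ρ y * diverg φ (x - y) := by
  have hc : Continuous (fderiv ℝ φ) := hφ.continuous_fderiv (by norm_num)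
  rw [F3_L_apply, (F3_deriv hρ hφ hφp x).fderiv,
    ← F3_L.integral_comp_comm (F3_integrable hρ hc x)]
  congr 1
  funext y
  rw [map_smul, F3_L_apply, smul_eq_mul]

theorem moll_div_le {ρ : (Fin 3 → ℝ) → ℝ} (hρ : Kern ρ) {E : Set (Fin 3 → ℝ)}
    (hE : MeasurableSet E) (hper : IsPerSet E) (hfin : perimeter E ≠ ⊤)
    {φ : (Fin 3 → ℝ) → (Fin 3 → ℝ)} (hφ : ContDiff ℝ 1 φ) (hφp : IsPer φ)
    (hφ1 : ∀ x, ∑ i, (φ x i) ^ 2 ≤ 1) :
    ∫ x in cell 3, moll ρ E x * diverg φ x ≤ (perimeter E).toReal := by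
  have hc : Continuous (fderiv ℝ φ) := hφ.continuous_fderiv (by norm_num)
  have hD : Continuous (diverg φ) := by
    have : diverg φ = fun x => F3_L (fderiv ℝ φ x) := funext (F3_L_apply φ)
    rw [this]
    exact F3_L.continuous.comp hc
  have hDp : IsPer (diverg φ) := by
    intro x k
    rw [F3_L_apply, F3_L_apply, F3_per_fderiv hφp]
  obtain ⟨M, hM⟩ := F3_bdd hD hDp
  set ind : (Fin 3 → ℝ) → ℝ := E.indicator (fun _ => (1 : ℝ)) with hind
  have hindm : Measurable ind := measurable_const.indicator hE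
  have hind1 : ∀ x, ‖ind x‖ ≤ 1 := by
    intro x
    rw [hind]
    by_cases h : x ∈ E <;> simp [h]
  have hindp : ∀ (x : Fin 3 → ℝ) (k : Fin 3 → ℤ), ind (x + fun i => (k i : ℝ)) = ind x := by
    intro x k
    rw [hind]
    by_cases h : x ∈ E
    · simp [h, (hper x k).2 h]
    · have h' : ¬ (x + fun i => (k i : ℝ)) ∈ E := fun h' => h ((hper x k).1 h')
      simp [h, h']
  have hcell : MeasurableSet (cell 3) := MeasurableSet.univ_pi fun _ => measurableSet_Ico
  have : IsFiniteMeasure (volume.restrict (cell 3)) := ⟨by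
    rw [Measure.restrict_apply_univ]
    have : cell 3 ⊆ Icc (0 : Fin 3 → ℝ) 1 := by
      intro x hx
      exact ⟨fun i => (hx i (mem_univ i)).1, fun i => (hx i (mem_univ i)).2.le⟩
    exact (measure_mono this).trans_lt (isCompact_Icc.measure_lt_top)⟩
  have hρc := hρ.smooth.continuous
  -- the bound on the product
  have hb : Integrable (fun z : (Fin 3 → ℝ) × (Fin 3 → ℝ) => M * |ρ z.2|)
      ((volume.restrict (cell 3)).prod volume) :=
    (integrable_const M).mul_prod (F3_int hρ).abs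
  have hM0 : 0 ≤ M := (norm_nonneg _).trans (hM 0)
  have hI1 : Integrable (Function.uncurry fun (x y : Fin 3 → ℝ) => ρ y * ind (x + y) * diverg φ x)
      ((volume.restrict (cell 3)).prod volume) := by
    refine hb.mono' ?_ (Eventually.of_forall ?_)
    · apply Measurable.aestronglyMeasurable
      exact ((hρc.measurable.comp measurable_snd).mul
        (hindm.comp (measurable_fst.add measurable_snd))).mul (hD.measurable.comp measurable_fst)
    · rintro ⟨x, y⟩
      simp only [Function.uncurry_apply_pair, norm_mul]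
      rw [Real.norm_eq_abs (ρ y)]
      calc |ρ y| * ‖ind (x + y)‖ * ‖diverg φ x‖ ≤ |ρ y| * 1 * M := by
            gcongr
            · exact hind1 _
            · exact hM _
        _ = M * |ρ y| := by ring
  have hI2 : Integrable (Function.uncurry fun (x y : Fin 3 → ℝ) => ρ y * ind x * diverg φ (x - y))
      ((volume.restrict (cell 3)).prod volume) := by
    refine hb.mono' ?_ (Eventually.of_forall ?_)
    · apply Measurable.aestronglyMeasurable
      exact ((hρc.measurable.comp measurable_snd).mul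
        (hindm.comp measurable_fst)).mul (hD.measurable.comp (measurable_fst.sub measurable_snd))
    · rintro ⟨x, y⟩
      simp only [Function.uncurry_apply_pair, norm_mul]
      rw [Real.norm_eq_abs (ρ y)]
      calc |ρ y| * ‖ind x‖ * ‖diverg φ (x - y)‖ ≤ |ρ y| * 1 * M := by
            gcongr
            · exact hind1 _
            · exact hM _
        _ = M * |ρ y| := by ring
  have e1 : ∫ x in cell 3, moll ρ E x * diverg φ x =
      ∫ x in cell 3, ∫ y, ρ y * ind (x + y) * diverg φ x := by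
    congr 1
    funext x
    rw [integral_mul_const]
    rfl
  have e2 : ∫ x in cell 3, ∫ y, ρ y * ind (x + y) * diverg φ x =
      ∫ y, ∫ x in cell 3, ρ y * ind (x + y) * diverg φ x := integral_integral_swap hI1
  have e3 : ∫ y, ∫ x in cell 3, ρ y * ind (x + y) * diverg φ x =
      ∫ y, ∫ x in cell 3, ρ y * ind x * diverg φ (x - y) := by
    congr 1
    funext y
    have := F3_translate (F := fun x => ρ y * ind x * diverg φ (x - y)) (by
      intro x k
      have h : x + (fun i => (k i : ℝ)) - y = (x - y) + fun i => (k i : ℝ) := by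
        funext i
        simp
        ring
      simp only
      rw [hindp, h, hDp]) y
    rw [← this]
    congr 1
    funext x
    simp
  have e4 : ∫ y, ∫ x in cell 3, ρ y * ind x * diverg φ (x - y) =
      ∫ x in cell 3, ∫ y, ρ y * ind x * diverg φ (x - y) := (integral_integral_swap hI2).symm
  have e5 : ∫ x in cell 3, ∫ y, ρ y * ind x * diverg φ (x - y) =
      ∫ x in cell 3, E.indicator (diverg (F3_avg ρ φ)) x := by
    congr 1
    funext x
    by_cases h : x ∈ E
    · simp only [hind, Set.indicator_of_mem h, mul_one]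
      rw [F3_div_avg hρ hφ hφp]
    · simp [hind, Set.indicator_of_notMem h]
  have e6 : ∫ x in cell 3, E.indicator (diverg (F3_avg ρ φ)) x =
      ∫ x in E ∩ cell 3, diverg (F3_avg ρ φ) x := by
    rw [setIntegral_indicator hE, inter_comm]
  rw [e1, e2, e3, e4, e5, e6]
  rw [← ENNReal.ofReal_le_iff_le_toReal hfin]
  unfold perimeter
  exact le_iSup_of_le (F3_avg ρ φ) (le_iSup_of_le (F3_avg_contDiff hρ hφ hφp)
    (le_iSup_of_le (F3_avg_per hφp) (le_iSup_of_le (F3_avg_norm hρ hφ.continuous hφ1) le_rfl)))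

end Vale.Agent.P232
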