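import Vale.Agent.P232.IBP

open MeasureTheory Set

namespace Vale.Agent.P232

/-- the field `-∇u / sqrt(ε² + |∇u|²)` -/
noncomputable def tvField (u : (Fin 3 → ℝ) → ℝ) (ε : ℝ) (x : Fin 3 → ℝ) : Fin 3 → ℝ := fun i =>
  -(fderiv ℝ u x (Pi.single i 1)) /
    Real.sqrt (ε ^ 2 + ∑ j, (fderiv ℝ u x (Pi.single j 1)) ^ 2)

theorem tv_per_fderiv {u : (Fin 3 → ℝ) → ℝ} (hup : IsPer u) (x : Fin 3 → ℝ) (k : Fin 3 → ℤ) :
    fderiv ℝ u (x + fun i => (k i : ℝ)) = fderiv ℝ u x := by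
  have h := fderiv_comp_add_right (𝕜 := ℝ) (f := u) (x := x) (fun i => (k i : ℝ))
  rw [← h]
  congr 1
  funext y
  exact hup y k

theorem tvField_contDiff {u : (Fin 3 → ℝ) → ℝ} (hu : ContDiff ℝ 2 u) {ε : ℝ} (hε : 0 < ε) :
    ContDiff ℝ 1 (tvField u ε) := by
  have h1 : ContDiff ℝ 1 (fderiv ℝ u) := hu.fderiv_right (by norm_num)
  have h2 : ∀ i : Fin 3, ContDiff ℝ 1 fun x => fderiv ℝ u x (Pi.single i 1) := fun i =>
    h1.clm_apply contDiff_const
  have h3 : ContDiff ℝ 1 fun x => ε ^ 2 + ∑ j, (fderiv ℝ u x (Pi.single j 1)) ^ 2 :=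
    contDiff_const.add (ContDiff.sum fun j _ => (h2 j).pow 2)
  have h4 : ∀ x, 0 < ε ^ 2 + ∑ j, (fderiv ℝ u x (Pi.single j 1)) ^ 2 := fun x => by positivity
  rw [contDiff_pi]
  intro i
  exact (h2 i).neg.div (h3.sqrt fun x => (h4 x).ne') fun x => (Real.sqrt_pos.mpr (h4 x)).ne'

theorem tvField_per {u : (Fin 3 → ℝ) → ℝ} (hup : IsPer u) (ε : ℝ) : IsPer (tvField u ε) := by
  intro x k
  funext i
  unfold tvField
  rw [tv_per_fderiv hup x k]

theorem tvField_norm (u : (Fin 3 → ℝ) → ℝ) {ε : ℝ} (hε : 0 < ε) (x : Fin 3 → ℝ) :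
    ∑ i, (tvField u ε x i) ^ 2 ≤ 1 := by
  unfold tvField
  set S := ∑ j, (fderiv ℝ u x (Pi.single j 1)) ^ 2 with hS
  have hS0 : 0 ≤ S := Finset.sum_nonneg fun j _ => sq_nonneg _
  have hpos : 0 < ε ^ 2 + S := by positivity
  have : ∑ i, (-(fderiv ℝ u x (Pi.single i 1)) / Real.sqrt (ε ^ 2 + S)) ^ 2 =
      S / (ε ^ 2 + S) := by
    rw [hS, Finset.sum_div]
    refine Finset.sum_congr rfl fun i _ => ?_
    rw [div_pow, neg_sq, Real.sq_sqrt hpos.le]
  rw [this, div_le_one hpos]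
  nlinarith [sq_nonneg ε]

theorem tvField_dot (u : (Fin 3 → ℝ) → ℝ) {ε : ℝ} (hε : 0 < ε) (x : Fin 3 → ℝ) :
    gradN u x - ε ≤ - ∑ i, fderiv ℝ u x (Pi.single i 1) * tvField u ε x i := by
  unfold tvField gradN
  set S := ∑ j, (fderiv ℝ u x (Pi.single j 1)) ^ 2 with hS
  have hS0 : 0 ≤ S := Finset.sum_nonneg fun j _ => sq_nonneg _
  have hpos : 0 < ε ^ 2 + S := by positivity
  have hr : 0 < Real.sqrt (ε ^ 2 + S) := Real.sqrt_pos.mpr hpos
  have h1 : - ∑ i, fderiv ℝ u x (Pi.single i 1) *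
      (-(fderiv ℝ u x (Pi.single i 1)) / Real.sqrt (ε ^ 2 + S)) =
      S / Real.sqrt (ε ^ 2 + S) := by
    rw [hS, Finset.sum_div, ← Finset.sum_neg_distrib]
    refine Finset.sum_congr rfl fun i _ => ?_
    ring
  rw [h1, le_div_iff₀ hr]
  have h2 : Real.sqrt (ε ^ 2 + S) ^ 2 = ε ^ 2 + S := Real.sq_sqrt hpos.le
  have h3 : Real.sqrt S ^ 2 = S := Real.sq_sqrt hS0
  have h4 : Real.sqrt S ≤ Real.sqrt (ε ^ 2 + S) := Real.sqrt_le_sqrt (by nlinarith [sq_nonneg ε])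
  have h5 : ε ≤ Real.sqrt (ε ^ 2 + S) := Real.le_sqrt_of_sq_le (by linarith)
  have h6 : 0 ≤ Real.sqrt S := Real.sqrt_nonneg _
  nlinarith [mul_nonneg (sub_nonneg.mpr h4) hr.le, mul_nonneg (sub_nonneg.mpr h5) hε.le]

theorem tv_le {u : (Fin 3 → ℝ) → ℝ} (hu : ContDiff ℝ 2 u) (hup : IsPer u) {K : ℝ}
    (hK : ∀ φ : (Fin 3 → ℝ) → (Fin 3 → ℝ), ContDiff ℝ 1 φ → IsPer φ →
      (∀ x, ∑ i, (φ x i) ^ 2 ≤ 1) → ∫ x in cell 3, u x * diverg φ x ≤ K) :
    ∫ x in cell 3, gradN u x ≤ K := by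
  refine le_of_forall_pos_le_add fun ε hε => ?_
  have hC := tvField_contDiff hu hε
  have h1 := hK (tvField u ε) hC (tvField_per hup ε) (tvField_norm u hε)
  rw [ibp (hu.of_le (by norm_num)) hup hC (tvField_per hup ε)] at h1
  have hfd : Continuous (fderiv ℝ u) := (hu.continuous_fderiv (by norm_num))
  have hc1 : Continuous fun x => gradN u x := by
    unfold gradN
    refine Real.continuous_sqrt.comp (continuous_finsetSum _ fun i _ => ?_)
    exact (hfd.clm_apply continuous_const).pow 2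
  have hc2 : Continuous fun x =>
      - ∑ i, fderiv ℝ u x (Pi.single i 1) * tvField u ε x i := by
    refine (continuous_finsetSum _ fun i _ => ?_).neg
    exact (hfd.clm_apply continuous_const).mul ((continuous_apply i).comp hC.continuous)
  have hKc : IsCompact (Set.pi Set.univ fun _ : Fin 3 => Set.Icc (0 : ℝ) 1) :=
    isCompact_univ_pi fun _ => isCompact_Icc
  have hsub : cell 3 ⊆ (Set.pi Set.univ fun _ : Fin 3 => Set.Icc (0 : ℝ) 1) :=
    Set.pi_mono fun _ _ => Set.Ico_subset_Icc_self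
  have hI : ∀ F : (Fin 3 → ℝ) → ℝ, Continuous F → IntegrableOn F (cell 3) := fun F hF =>
    (hF.continuousOn.integrableOn_compact hKc).mono_set hsub
  have hvol : volume (cell 3) = 1 := by
    unfold cell
    rw [volume_pi_pi]
    simp
  have h2 : ∫ x in cell 3, (gradN u x - ε) ≤
      ∫ x in cell 3, - ∑ i, fderiv ℝ u x (Pi.single i 1) * tvField u ε x i := by
    refine setIntegral_mono (hI _ (hc1.sub continuous_const)) (hI _ hc2) fun x => ?_
    exact tvField_dot u hε x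
  rw [integral_neg, integral_sub (hI _ hc1) (hI _ continuous_const)] at h2
  have h3 : ∫ _ in cell 3, ε = ε := by
    rw [setIntegral_const, measureReal_def, hvol]
    simp
  rw [h3] at h2
  linarith

end Vale.Agent.P232
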