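import Vale.Agent.P232.MollBasic
import Vale.Agent.P232.MollDiv
import Vale.Agent.P232.MollClose
import Vale.Agent.P232.TVle

open MeasureTheory Set

namespace Vale.Agent.P232

/-- F6: smooth approximation of a periodic set of finite perimeter -/
theorem approx_perimeter {E : Set (Fin 3 → ℝ)} (hE : MeasurableSet E) (hper : IsPerSet E)
    (hfin : perimeter E ≠ ⊤) {η : ℝ} (hη : 0 < η) :
    ∃ f : (Fin 3 → ℝ) → ℝ, Nice f ∧ (∫ x in cell 3, f x) = (volume (E ∩ cell 3)).toReal ∧
      (∫ x in cell 3, f x * (1 - f x)) ≤ η ∧ 2 * hTV f ≤ (perimeter E).toReal := by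
  obtain ⟨ρ, hρ, hclose⟩ := moll_close hE hper hη
  refine ⟨moll ρ E, moll_nice hρ hE hper, moll_integral hρ hE hper, hclose, ?_⟩
  have h := tv_le (moll_contDiff hρ hE) (moll_nice hρ hE hper).per (K := (perimeter E).toReal)
    (fun φ h1 h2 h3 => moll_div_le hρ hE hper hfin h1 h2 h3)
  unfold hTV
  linarith

end Vale.Agent.P232
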