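import Vale.Agent.P232.Defs

/-!
# P232, module E1: variation of a periodic function over a full period
-/

open MeasureTheory Set

namespace Vale.Agent.P232

theorem arc_var {a : ℝ → ℝ} (ha : ContDiff ℝ 1 a) (hper : ∀ x, a (x + 1) = a x) {S : ℝ → ℝ}
    (hS : Continuous S) (hS0 : ∀ x, 0 ≤ S x) {z₁ z₂ : ℝ} (hle : a z₁ ≤ a z₂) :
    2 * ∫ x in (a z₁)..(a z₂), S x ≤ ∫ z in (0:ℝ)..1, S (a z) * |deriv a z| := by
  have hp : Function.Periodic a 1 := hper
  have hda : Continuous (deriv a) := ha.continuous_deriv le_rfl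
  have hac : Continuous a := ha.continuous
  have hdp : ∀ x, deriv a (x + 1) = deriv a x := by
    intro x
    have h1 := deriv_comp_add_const a 1 x
    have h2 : (fun x => a (x + 1)) = a := funext hper
    rw [h2] at h1
    exact h1.symm
  have hd : ∀ x, HasDerivAt a (deriv a x) x := fun x =>
    (ha.differentiable (by norm_num) x).hasDerivAt
  set H : ℝ → ℝ := fun z => S (a z) * deriv a z with hH
  set G : ℝ → ℝ := fun z => S (a z) * |deriv a z| with hG
  have hHc : Continuous H := (hS.comp hac).mul hda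
  have hGc : Continuous G := (hS.comp hac).mul hda.abs
  have hGp : Function.Periodic G 1 := by
    intro x
    simp only [hG, hper x, hdp x]
  have hHG : ∀ z, H z ≤ G z := fun z => mul_le_mul_of_nonneg_left (le_abs_self _) (hS0 _)
  have hHG' : ∀ z, -H z ≤ G z := fun z => by
    simp only [hH, hG]
    rw [← mul_neg]
    exact mul_le_mul_of_nonneg_left (neg_le_abs _) (hS0 _)
  have hFTC : ∀ u v : ℝ, ∫ z in u..v, H z = ∫ x in (a u)..(a v), S x := fun u v =>
    intervalIntegral.integral_comp_mul_deriv (fun x _ => hd x) hda.continuousOn hS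
  -- move `z₂` to the period starting in `z₁`
  set n : ℤ := ⌊z₂ - z₁⌋ with hn
  set w : ℝ := z₂ - n with hw
  have hw1 : z₁ ≤ w := by
    have := Int.floor_le (z₂ - z₁)
    rw [hw, hn]
    linarith
  have hw2 : w ≤ z₁ + 1 := by
    have := Int.lt_floor_add_one (z₂ - z₁)
    rw [hw, hn]
    linarith
  have haw : a w = a z₂ := by
    have := hp.sub_zsmul_eq (x := z₂) n
    simpa [hw] using this
  have h1 : ∫ z in z₁..w, H z = ∫ x in (a z₁)..(a z₂), S x := by rw [hFTC, haw]
  have h2 : ∫ z in w..(z₁ + 1), H z = -∫ x in (a z₁)..(a z₂), S x := by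
    rw [hFTC, haw, hper, intervalIntegral.integral_symm]
  have h3 : ∫ z in z₁..w, H z ≤ ∫ z in z₁..w, G z :=
    intervalIntegral.integral_mono_on hw1 (hHc.intervalIntegrable _ _)
      (hGc.intervalIntegrable _ _) fun z _ => hHG z
  have h4 : ∫ z in w..(z₁ + 1), -H z ≤ ∫ z in w..(z₁ + 1), G z :=
    intervalIntegral.integral_mono_on hw2 (hHc.neg.intervalIntegrable _ _)
      (hGc.intervalIntegrable _ _) fun z _ => hHG' z
  rw [intervalIntegral.integral_neg, h2] at h4
  rw [h1] at h3
  have h5 : (∫ z in z₁..w, G z) + ∫ z in w..(z₁ + 1), G z = ∫ z in z₁..(z₁ + 1), G z :=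
    intervalIntegral.integral_add_adjacent_intervals (hGc.intervalIntegrable _ _)
      (hGc.intervalIntegrable _ _)
  have h6 : ∫ z in z₁..(z₁ + 1), G z = ∫ z in (0:ℝ)..1, G z := by
    have := hGp.intervalIntegral_add_eq z₁ 0
    rwa [zero_add] at this
  have h7 : ∫ z in (0:ℝ)..1, G z = ∫ z in (0:ℝ)..1, S (a z) * |deriv a z| := rfl
  linarith

end Vale.Agent.P232
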