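import Vale.Agent.P232.Defs
import Vale.Agent.P074.PL

/-!
# P232, module A1: the Brunn-Minkowski inequality in the plane with a disc (Bonnesen form)
-/

open MeasureTheory Set
open scoped Pointwise ENNReal

namespace Vale.Agent.P232

private theorem A1_bm {U V W : Set ℝ} (hU : MeasurableSet U) (hV : MeasurableSet V)
    (hUn : U.Nonempty) (hVn : V.Nonempty) (h : ∀ a ∈ U, ∀ b ∈ V, a + b ∈ W) :
    volume U + volume V ≤ volume W := by
  have h1 := Vale.Agent.P074.bm1 hU hV hUn hVn (C := (fun t : ℝ => 2 * t) ⁻¹' W)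
    (fun a ha b hb => by
      change 2 * ((a + b) / 2) ∈ W
      rw [mul_div_cancel₀ _ (by norm_num : (2 : ℝ) ≠ 0)]
      exact h a ha b hb)
  have h2 : volume ((fun t : ℝ => 2 * t) ⁻¹' W) = ENNReal.ofReal |(2 : ℝ)⁻¹| * volume W :=
    Real.volume_preimage_mul_left (by norm_num) W
  have h3 : (2 : ℝ≥0∞) * ENNReal.ofReal |(2 : ℝ)⁻¹| = 1 := by
    rw [show (2 : ℝ≥0∞) = ENNReal.ofReal 2 by norm_num, ← ENNReal.ofReal_mul (by norm_num)]
    rw [abs_of_pos (by norm_num : (0 : ℝ) < 2⁻¹)]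
    norm_num
  rw [h2, ← mul_assoc, h3, one_mul] at h1
  exact h1

private theorem A1_layer {f g h : ℝ → ℝ} (hf : Measurable f) (hg : Measurable g)
    (hh : Measurable h) (hf0 : ∀ x, 0 ≤ f x) (hg0 : ∀ x, 0 ≤ g x) (hh0 : ∀ x, 0 ≤ h x)
    (hf1 : ∀ x, f x ≤ 1) (hg1 : ∀ x, g x ≤ 1) (hfs : ∀ s < 1, ∃ x, s < f x)
    (hgs : ∀ s < 1, ∃ x, s < g x) (H : ∀ x y, min (f x) (g y) ≤ h (x + y)) :
    (∫⁻ x, ENNReal.ofReal (f x)) + (∫⁻ x, ENNReal.ofReal (g x)) ≤ ∫⁻ x, ENNReal.ofReal (h x) := by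
  rw [lintegral_eq_lintegral_meas_lt _ (Filter.Eventually.of_forall hf0) hf.aemeasurable,
    lintegral_eq_lintegral_meas_lt _ (Filter.Eventually.of_forall hg0) hg.aemeasurable,
    lintegral_eq_lintegral_meas_lt _ (Filter.Eventually.of_forall hh0) hh.aemeasurable]
  have hmeas : ∀ {u : ℝ → ℝ}, Measurable fun t : ℝ => volume {a : ℝ | t < u a} := fun {u} =>
    Antitone.measurable fun s t hst => measure_mono fun a (ha : t < u a) => lt_of_le_of_lt hst ha
  rw [← lintegral_add_left hmeas]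
  refine setLIntegral_mono' measurableSet_Ioi fun t ht => ?_
  rcases lt_or_ge t 1 with ht1 | ht1
  · refine A1_bm (measurableSet_lt measurable_const hf) (measurableSet_lt measurable_const hg)
      (hfs t ht1) (hgs t ht1) fun a ha b hb => ?_
    exact lt_of_lt_of_le (lt_min ha hb) (H a b)
  · have e1 : {a : ℝ | t < f a} = ∅ := by
      rw [eq_empty_iff_forall_notMem]
      exact fun a (ha : t < f a) => absurd (hf1 a) (not_le.2 (lt_of_le_of_lt ht1 ha))
    have e2 : {a : ℝ | t < g a} = ∅ := by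
      rw [eq_empty_iff_forall_notMem]
      exact fun a (ha : t < g a) => absurd (hg1 a) (not_le.2 (lt_of_le_of_lt ht1 ha))
    rw [e1, e2]
    simp

private theorem A1_prod {A B C : Set (ℝ × ℝ)} (hA : MeasurableSet A) (hB : MeasurableSet B)
    (hC : MeasurableSet C) (h : ∀ a ∈ A, ∀ b ∈ B, a + b ∈ C) {MA MB : ℝ≥0∞}
    (eA : (⨆ x : ℝ, volume (Prod.mk x ⁻¹' A)) = MA) (eB : (⨆ x : ℝ, volume (Prod.mk x ⁻¹' B)) = MB)
    (hA0 : MA ≠ 0) (hAt : MA ≠ ∞) (hB0 : MB ≠ 0) (hBt : MB ≠ ∞) :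
    (volume A / MA + volume B / MB) * (MA + MB) ≤ volume C := by
  have mA : Measurable fun x : ℝ => volume (Prod.mk x ⁻¹' A) := measurable_measure_prodMk_left hA
  have mB : Measurable fun x : ℝ => volume (Prod.mk x ⁻¹' B) := measurable_measure_prodMk_left hB
  have mC : Measurable fun x : ℝ => volume (Prod.mk x ⁻¹' C) := measurable_measure_prodMk_left hC
  have iA : volume A = ∫⁻ x : ℝ, volume (Prod.mk x ⁻¹' A) := by
    rw [Measure.volume_eq_prod, Measure.prod_apply hA]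
  have iB : volume B = ∫⁻ x : ℝ, volume (Prod.mk x ⁻¹' B) := by
    rw [Measure.volume_eq_prod, Measure.prod_apply hB]
  have iC : volume C = ∫⁻ x : ℝ, volume (Prod.mk x ⁻¹' C) := by
    rw [Measure.volume_eq_prod, Measure.prod_apply hC]
  have hfa : ∀ x : ℝ, volume (Prod.mk x ⁻¹' A) ≤ MA := fun x => by
    rw [← eA]; exact le_iSup (fun x : ℝ => volume (Prod.mk x ⁻¹' A)) x
  have hgb : ∀ x : ℝ, volume (Prod.mk x ⁻¹' B) ≤ MB := fun x => by
    rw [← eB]; exact le_iSup (fun x : ℝ => volume (Prod.mk x ⁻¹' B)) x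
  have hfs : ∀ s < 1, ∃ x : ℝ, s < (volume (Prod.mk x ⁻¹' A) / MA).toReal := fun s hs => by
    have h0 := Vale.Agent.P074.exists_lt_div_iSup
      (f := fun x : ℝ => volume (Prod.mk x ⁻¹' A)) (by rw [eA]; exact hA0) (by rw [eA]; exact hAt) hs
    rwa [eA] at h0
  have hgs : ∀ s < 1, ∃ x : ℝ, s < (volume (Prod.mk x ⁻¹' B) / MB).toReal := fun s hs => by
    have h0 := Vale.Agent.P074.exists_lt_div_iSup
      (f := fun x : ℝ => volume (Prod.mk x ⁻¹' B)) (by rw [eB]; exact hB0) (by rw [eB]; exact hBt) hs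
    rwa [eB] at h0
  have f1 : ∀ x : ℝ, volume (Prod.mk x ⁻¹' A) / MA ≤ 1 :=
    fun x => ENNReal.div_le_of_le_mul (by rw [one_mul]; exact hfa x)
  have g1 : ∀ x : ℝ, volume (Prod.mk x ⁻¹' B) / MB ≤ 1 :=
    fun x => ENNReal.div_le_of_le_mul (by rw [one_mul]; exact hgb x)
  have hS0 : MA + MB ≠ 0 := fun h0 => hA0 (add_eq_zero.1 h0).1
  have hSt : MA + MB ≠ ∞ := ENNReal.add_ne_top.2 ⟨hAt, hBt⟩
  have h1 : ∀ x : ℝ, min (volume (Prod.mk x ⁻¹' C) / (MA + MB)) 1 ≠ ∞ :=
    fun x => ne_top_of_le_ne_top ENNReal.one_ne_top (min_le_right _ _)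
  have key := A1_layer (f := fun x : ℝ => (volume (Prod.mk x ⁻¹' A) / MA).toReal)
    (g := fun x : ℝ => (volume (Prod.mk x ⁻¹' B) / MB).toReal)
    (h := fun x : ℝ => (min (volume (Prod.mk x ⁻¹' C) / (MA + MB)) 1).toReal)
    (mA.div_const MA).ennreal_toReal (mB.div_const MB).ennreal_toReal
    ((mC.div_const (MA + MB)).min measurable_const).ennreal_toReal
    (fun _ => ENNReal.toReal_nonneg) (fun _ => ENNReal.toReal_nonneg)
    (fun _ => ENNReal.toReal_nonneg)
    (fun x => ENNReal.toReal_le_of_le_ofReal zero_le_one (by simpa using f1 x))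
    (fun x => ENNReal.toReal_le_of_le_ofReal zero_le_one (by simpa using g1 x)) hfs hgs
    (by
      intro x y
      set t : ℝ := min (volume (Prod.mk x ⁻¹' A) / MA).toReal
        (volume (Prod.mk y ⁻¹' B) / MB).toReal with ht
      have ht0 : 0 ≤ t := le_min ENNReal.toReal_nonneg ENNReal.toReal_nonneg
      rcases eq_or_lt_of_le ht0 with ht0' | htpos
      · rw [← ht0']
        exact ENNReal.toReal_nonneg
      have ta : ENNReal.ofReal t ≤ volume (Prod.mk x ⁻¹' A) / MA :=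
        ENNReal.ofReal_le_of_le_toReal (min_le_left _ _)
      have tb : ENNReal.ofReal t ≤ volume (Prod.mk y ⁻¹' B) / MB :=
        ENNReal.ofReal_le_of_le_toReal (min_le_right _ _)
      have ta' : ENNReal.ofReal t * MA ≤ volume (Prod.mk x ⁻¹' A) :=
        (ENNReal.le_div_iff_mul_le (Or.inl hA0) (Or.inl hAt)).1 ta
      have tb' : ENNReal.ofReal t * MB ≤ volume (Prod.mk y ⁻¹' B) :=
        (ENNReal.le_div_iff_mul_le (Or.inl hB0) (Or.inl hBt)).1 tb
      have htp : ENNReal.ofReal t ≠ 0 := (ENNReal.ofReal_pos.2 htpos).ne'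
      have neA : (Prod.mk x ⁻¹' A).Nonempty := by
        rw [nonempty_iff_ne_empty]
        intro h0
        rw [h0, measure_empty] at ta'
        exact (mul_ne_zero htp hA0) (le_antisymm ta' zero_le)
      have neB : (Prod.mk y ⁻¹' B).Nonempty := by
        rw [nonempty_iff_ne_empty]
        intro h0
        rw [h0, measure_empty] at tb'
        exact (mul_ne_zero htp hB0) (le_antisymm tb' zero_le)
      have hbm : volume (Prod.mk x ⁻¹' A) + volume (Prod.mk y ⁻¹' B) ≤
          volume (Prod.mk (x + y) ⁻¹' C) :=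
        A1_bm (measurable_prodMk_left hA) (measurable_prodMk_left hB) neA neB
          (fun a ha b hb => h (x, a) ha (y, b) hb)
      rw [← ENNReal.ofReal_le_iff_le_toReal (h1 _)]
      refine le_min ?_ (ta.trans (f1 x))
      rw [ENNReal.le_div_iff_mul_le (Or.inl hS0) (Or.inl hSt), mul_add]
      exact (add_le_add ta' tb').trans hbm)
  have k1 : ∫⁻ x : ℝ, ENNReal.ofReal (volume (Prod.mk x ⁻¹' A) / MA).toReal = volume A / MA := by
    rw [iA, div_eq_mul_inv, ← lintegral_mul_const _ mA]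
    refine lintegral_congr fun x => ?_
    rw [ENNReal.ofReal_toReal (ne_top_of_le_ne_top ENNReal.one_ne_top (f1 x)), div_eq_mul_inv]
  have k2 : ∫⁻ x : ℝ, ENNReal.ofReal (volume (Prod.mk x ⁻¹' B) / MB).toReal = volume B / MB := by
    rw [iB, div_eq_mul_inv, ← lintegral_mul_const _ mB]
    refine lintegral_congr fun x => ?_
    rw [ENNReal.ofReal_toReal (ne_top_of_le_ne_top ENNReal.one_ne_top (g1 x)), div_eq_mul_inv]
  have k3 : ∫⁻ x : ℝ, ENNReal.ofReal (min (volume (Prod.mk x ⁻¹' C) / (MA + MB)) 1).toReal ≤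
      volume C / (MA + MB) := by
    rw [iC, div_eq_mul_inv, ← lintegral_mul_const _ mC]
    refine lintegral_mono fun x => ?_
    rw [ENNReal.ofReal_toReal (h1 x), ← div_eq_mul_inv]
    exact min_le_left _ _
  rw [k1, k2] at key
  exact (ENNReal.le_div_iff_mul_le (Or.inl hS0) (Or.inl hSt)).1 (key.trans k3)

/-- the open disc -/
private def A1_od (r : ℝ) : Set (Fin 2 → ℝ) := {y | (y 0) ^ 2 + (y 1) ^ 2 < r ^ 2}

private theorem A1_od_open (r : ℝ) : IsOpen (A1_od r) := by
  unfold A1_od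
  exact isOpen_lt (by fun_prop) continuous_const

private theorem A1_od_sub (r : ℝ) : A1_od r ⊆ disc r := by
  intro y hy
  have hy' : (y 0) ^ 2 + (y 1) ^ 2 < r ^ 2 := hy
  exact hy'.le

private theorem A1_od_vol {r : ℝ} (hr : 0 < r) :
    volume (A1_od r) = ENNReal.ofReal (Real.pi * r ^ 2) := by
  have h1 : volume (Metric.ball (0 : EuclideanSpace ℝ (Fin 2)) r) =
      ENNReal.ofReal r ^ 2 * ENNReal.ofReal Real.pi := EuclideanSpace.volume_ball_fin_two _ r
  have h2 := (PiLp.volume_preserving_toLp (Fin 2)).measure_preimage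
    (Metric.isOpen_ball (x := (0 : EuclideanSpace ℝ (Fin 2)))
      (ε := r)).measurableSet.nullMeasurableSet
  have h3 : (WithLp.toLp 2 : (Fin 2 → ℝ) → EuclideanSpace ℝ (Fin 2)) ⁻¹'
      (Metric.ball (0 : EuclideanSpace ℝ (Fin 2)) r) = A1_od r := by
    rw [EuclideanSpace.ball_zero_eq r hr.le]
    ext y
    simp only [mem_preimage, mem_setOf_eq, Fin.sum_univ_two, A1_od]
  rw [h3, h1] at h2
  rw [h2, ← ENNReal.ofReal_pow hr.le, ← ENNReal.ofReal_mul (by positivity), mul_comm]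

private theorem A1_real {a b α β s t : ℝ} (hα : 0 < α) (hβ : 0 < β) (hs : s ^ 2 = a)
    (ht : t ^ 2 = b) : (s + t) ^ 2 ≤ (a / α + b / β) * (α + β) := by
  have h1 : (a / α + b / β) * (α + β) - (s + t) ^ 2 = (s * β - t * α) ^ 2 / (α * β) := by
    rw [← hs, ← ht]
    field_simp
    ring
  have h2 : 0 ≤ (s * β - t * α) ^ 2 / (α * β) := by positivity
  linarith

/-- module A1 -/
theorem bm_disc {A : Set (Fin 2 → ℝ)} (hA : IsOpen A) (hne : A.Nonempty)
    (hfin : volume A ≠ ⊤) {r : ℝ} (hr : 0 < r) :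
    ENNReal.ofReal ((Real.sqrt (volume A).toReal + r * Real.sqrt Real.pi) ^ 2) ≤
      volume (A + disc r) := by
  set C : Set (Fin 2 → ℝ) := A + disc r with hC
  have hCo : IsOpen C := hA.add_right
  set B : Set (Fin 2 → ℝ) := A1_od r with hB
  have hBo : IsOpen B := A1_od_open r
  set φ : ℝ × ℝ → (Fin 2 → ℝ) := fun p => ![p.1, p.2] with hφ
  have hφc : Continuous φ := by
    rw [hφ]
    refine continuous_pi fun i => ?_
    fin_cases i
    · exact continuous_fst
    · exact continuous_snd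
  have hφadd : ∀ p q, φ (p + q) = φ p + φ q := by
    intro p q
    funext i
    fin_cases i <;> rfl
  have hvol : ∀ S : Set (Fin 2 → ℝ), IsOpen S → volume (φ ⁻¹' S) = volume S := by
    intro S hS
    have h := (volume_preserving_finTwoArrow ℝ).symm.measure_preimage
      hS.measurableSet.nullMeasurableSet
    exact h
  set A' : Set (ℝ × ℝ) := φ ⁻¹' A with hA'
  set B' : Set (ℝ × ℝ) := φ ⁻¹' B with hB'
  set C' : Set (ℝ × ℝ) := φ ⁻¹' C with hC'
  have mA' : MeasurableSet A' := (hA.preimage hφc).measurableSet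
  have mB' : MeasurableSet B' := (hBo.preimage hφc).measurableSet
  have mC' : MeasurableSet C' := (hCo.preimage hφc).measurableSet
  have hsum : ∀ a ∈ A', ∀ b ∈ B', a + b ∈ C' := by
    intro a ha b hb
    change φ (a + b) ∈ C
    rw [hφadd]
    exact Set.add_mem_add ha (A1_od_sub r hb)
  have vA : volume A' = volume A := hvol A hA
  have vB : volume B' = ENNReal.ofReal (Real.pi * r ^ 2) := by rw [hvol B hBo, A1_od_vol hr]
  have vC : volume C' = volume C := hvol C hCo
  have hApos : 0 < volume A := hA.measure_pos volume hne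
  set MA : ℝ≥0∞ := ⨆ x : ℝ, volume (Prod.mk x ⁻¹' A') with hMA
  set MB : ℝ≥0∞ := ⨆ x : ℝ, volume (Prod.mk x ⁻¹' B') with hMB
  have hMA0 : MA ≠ 0 := by
    intro h0
    have h1 : ∀ x : ℝ, volume (Prod.mk x ⁻¹' A') = 0 := fun x =>
      le_antisymm ((le_iSup (fun x : ℝ => volume (Prod.mk x ⁻¹' A')) x).trans h0.le) zero_le
    have h2 : volume A' = 0 := by
      rw [Measure.volume_eq_prod, Measure.prod_apply mA']
      simp only [h1, lintegral_zero]
    rw [vA] at h2
    exact hApos.ne' h2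
  have hMB0 : MB ≠ 0 := by
    intro h0
    have h1 : ∀ x : ℝ, volume (Prod.mk x ⁻¹' B') = 0 := fun x =>
      le_antisymm ((le_iSup (fun x : ℝ => volume (Prod.mk x ⁻¹' B')) x).trans h0.le) zero_le
    have h2 : volume B' = 0 := by
      rw [Measure.volume_eq_prod, Measure.prod_apply mB']
      simp only [h1, lintegral_zero]
    rw [vB] at h2
    have h3 : (0 : ℝ) < Real.pi * r ^ 2 := by positivity
    exact (ENNReal.ofReal_pos.2 h3).ne' h2
  have hMBt : MB ≠ ∞ := by
    refine ne_top_of_le_ne_top (ENNReal.ofReal_ne_top (r := r - -r)) (iSup_le fun x => ?_)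
    rw [← Real.volume_Icc]
    refine measure_mono fun y hy => ?_
    have hy' : x ^ 2 + y ^ 2 < r ^ 2 := hy
    have hy2 : y ^ 2 ≤ r ^ 2 := by nlinarith [sq_nonneg x]
    exact ⟨by nlinarith [abs_le_of_sq_le_sq' hy2 hr.le], by nlinarith [abs_le_of_sq_le_sq' hy2 hr.le]⟩
  rcases eq_or_ne MA ∞ with hMAt | hMAt
  · -- infinite slices
    have h1 : ∀ x0 : ℝ, volume (Prod.mk x0 ⁻¹' A') * ENNReal.ofReal (2 * r) ≤ volume C' := by
      intro x0
      have h2 : ∀ x ∈ Ioo (x0 - r) (x0 + r),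
          volume (Prod.mk x0 ⁻¹' A') ≤ volume (Prod.mk x ⁻¹' C') := by
        intro x hx
        refine measure_mono fun y hy => ?_
        have h3 : ((x - x0, 0) : ℝ × ℝ) ∈ B' := by
          change (x - x0) ^ 2 + (0 : ℝ) ^ 2 < r ^ 2
          nlinarith [hx.1, hx.2]
        have h4 := hsum (x0, y) hy _ h3
        have h5 : ((x0, y) + (x - x0, 0) : ℝ × ℝ) = (x, y) := by
          ext <;> simp
        rw [h5] at h4
        exact h4
      calc volume (Prod.mk x0 ⁻¹' A') * ENNReal.ofReal (2 * r)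
          = ∫⁻ _ in Ioo (x0 - r) (x0 + r), volume (Prod.mk x0 ⁻¹' A') := by
            rw [setLIntegral_const, Real.volume_Ioo]
            congr 2
            ring
        _ ≤ ∫⁻ x in Ioo (x0 - r) (x0 + r), volume (Prod.mk x ⁻¹' C') :=
            setLIntegral_mono' measurableSet_Ioo h2
        _ ≤ ∫⁻ x, volume (Prod.mk x ⁻¹' C') := setLIntegral_le_lintegral _ _
        _ = volume C' := by rw [Measure.volume_eq_prod, Measure.prod_apply mC']
    have h6 : MA * ENNReal.ofReal (2 * r) ≤ volume C' := by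
      rw [hMA, ENNReal.iSup_mul]
      exact iSup_le h1
    have h7 : (0 : ℝ≥0∞) < ENNReal.ofReal (2 * r) := ENNReal.ofReal_pos.2 (by linarith)
    rw [hMAt, ENNReal.top_mul h7.ne', top_le_iff] at h6
    rw [← vC, h6]
    exact le_top
  · have hkey := A1_prod mA' mB' mC' hsum rfl rfl hMA0 hMAt hMB0 hMBt
    rw [← hMA, ← hMB, vA, vB, vC] at hkey
    refine le_trans ?_ hkey
    set a : ℝ := (volume A).toReal with ha
    have eA : volume A = ENNReal.ofReal a := (ENNReal.ofReal_toReal hfin).symm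
    set α : ℝ := MA.toReal with hα
    set β : ℝ := MB.toReal with hβ
    have eα : MA = ENNReal.ofReal α := (ENNReal.ofReal_toReal hMAt).symm
    have eβ : MB = ENNReal.ofReal β := (ENNReal.ofReal_toReal hMBt).symm
    have hα0 : 0 < α := ENNReal.toReal_pos hMA0 hMAt
    have hβ0 : 0 < β := ENNReal.toReal_pos hMB0 hMBt
    have ha0 : 0 ≤ a := ENNReal.toReal_nonneg
    have hb0 : (0 : ℝ) ≤ Real.pi * r ^ 2 := by positivity
    rw [eA, eα, eβ, ← ENNReal.ofReal_div_of_pos hα0, ← ENNReal.ofReal_div_of_pos hβ0,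
      ← ENNReal.ofReal_add (by positivity) (by positivity),
      ← ENNReal.ofReal_add hα0.le hβ0.le, ← ENNReal.ofReal_mul (by positivity)]
    refine ENNReal.ofReal_le_ofReal (A1_real hα0 hβ0 (Real.sq_sqrt ha0) ?_)
    rw [mul_pow, Real.sq_sqrt Real.pi_pos.le]
    ring

end Vale.Agent.P232
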