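import Vale.Agent.P232.Defs

open MeasureTheory Set

namespace Vale.Agent.P232

theorem fub_cell_subset (n : ℕ) : cell n ⊆ Set.pi Set.univ fun _ => Set.Icc (0 : ℝ) 1 :=
  Set.pi_mono fun _ _ => Set.Ico_subset_Icc_self

theorem fub_isCompact (n : ℕ) :
    IsCompact (Set.pi Set.univ fun _ : Fin n => Set.Icc (0 : ℝ) 1) :=
  isCompact_univ_pi fun _ => isCompact_Icc

theorem fub_measurableSet_cell (n : ℕ) : MeasurableSet (cell n) :=
  MeasurableSet.univ_pi fun _ => measurableSet_Ico

theorem fub_insertNth_continuous {n : ℕ} (i : Fin (n + 1)) :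
    Continuous fun p : ℝ × (Fin n → ℝ) => (i.insertNth p.1 p.2 : Fin (n + 1) → ℝ) := by
  refine continuous_pi fun j => ?_
  refine i.succAboveCases ?_ (fun k => ?_) j
  · simp only [Fin.insertNth_apply_same]
    exact continuous_fst
  · simp only [Fin.insertNth_apply_succAbove]
    exact (continuous_apply k).comp continuous_snd

theorem fub_insertNth_mem_cell {n : ℕ} (i : Fin (n + 1)) (z : ℝ) (y : Fin n → ℝ) :
    (i.insertNth z y : Fin (n + 1) → ℝ) ∈ cell (n + 1) ↔ z ∈ Set.Ico (0 : ℝ) 1 ∧ y ∈ cell n := by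
  simp only [cell, Set.mem_univ_pi]
  constructor
  · intro h
    refine ⟨?_, fun k => ?_⟩
    · have := h i
      simpa using this
    · have := h (i.succAbove k)
      simpa using this
  · rintro ⟨h1, h2⟩ j
    refine i.succAboveCases ?_ (fun k => ?_) j
    · simpa using h1
    · simpa using h2 k

theorem fub_gen {n : ℕ} {F : (Fin (n + 1) → ℝ) → ℝ} (hF : Continuous F) (i : Fin (n + 1)) :
    ∫ x in cell (n + 1), F x = ∫ z in (0:ℝ)..1, ∫ y in cell n, F (i.insertNth z y) := by
  have hmp := MeasureTheory.volume_preserving_piFinSuccAbove (fun _ : Fin (n + 1) => ℝ) i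
  have hmp' := hmp.symm
  have h1 := hmp'.setIntegral_preimage_emb
    (MeasurableEquiv.piFinSuccAbove (fun _ : Fin (n + 1) => ℝ) i).symm.measurableEmbedding F
    (cell (n + 1))
  have hpre : (MeasurableEquiv.piFinSuccAbove (fun _ : Fin (n + 1) => ℝ) i).symm ⁻¹'
      cell (n + 1) = Set.Ico (0 : ℝ) 1 ×ˢ cell n := by
    ext p
    rw [Set.mem_preimage, Set.mem_prod]
    exact fub_insertNth_mem_cell i p.1 p.2
  rw [hpre] at h1
  rw [← h1]
  have h2 : ∀ p : ℝ × (Fin n → ℝ),
      (MeasurableEquiv.piFinSuccAbove (fun _ : Fin (n + 1) => ℝ) i).symm p =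
        (i.insertNth p.1 p.2 : Fin (n + 1) → ℝ) := fun p => rfl
  simp only [h2]
  have hcont : Continuous fun p : ℝ × (Fin n → ℝ) => F (i.insertNth p.1 p.2) :=
    hF.comp (fub_insertNth_continuous i)
  have hint : IntegrableOn (fun p : ℝ × (Fin n → ℝ) => F (i.insertNth p.1 p.2))
      (Set.Ico (0 : ℝ) 1 ×ˢ cell n) ((volume : Measure ℝ).prod volume) := by
    have hK : IsCompact (Set.Icc (0 : ℝ) 1 ×ˢ
        (Set.pi Set.univ fun _ : Fin n => Set.Icc (0 : ℝ) 1)) :=
      isCompact_Icc.prod (fub_isCompact n)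
    refine (hcont.continuousOn.integrableOn_compact hK).mono_set ?_
    exact Set.prod_mono Set.Ico_subset_Icc_self (fub_cell_subset n)
  have h3 : ∫ p in Set.Ico (0 : ℝ) 1 ×ˢ cell n, F (i.insertNth p.1 p.2) =
      ∫ z in Set.Ico (0 : ℝ) 1, ∫ y in cell n, F (i.insertNth z y) :=
    setIntegral_prod _ hint
  rw [h3, intervalIntegral.integral_of_le zero_le_one, integral_Ico_eq_integral_Ioc]

theorem fubini_slice {F : (Fin 3 → ℝ) → ℝ} (hF : Continuous F) (i : Fin 3) :
    ∫ x in cell 3, F x = ∫ z in (0:ℝ)..1, ∫ y in cell 2, F (i.insertNth z y) :=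
  fub_gen hF i

theorem fub_cell_two {G : (Fin 2 → ℝ) → ℝ} (hG : Continuous G) :
    (∫ w in cell 2, G w = ∫ a in (0:ℝ)..1, ∫ b in (0:ℝ)..1, G ![a, b]) ∧
    (∫ w in cell 2, G w = ∫ b in (0:ℝ)..1, ∫ a in (0:ℝ)..1, G ![a, b]) := by
  have hmp := (MeasureTheory.volume_preserving_finTwoArrow ℝ).symm
  have h1 := hmp.setIntegral_preimage_emb
    (MeasurableEquiv.finTwoArrow (α := ℝ)).symm.measurableEmbedding G (cell 2)
  have h2 : ∀ p : ℝ × ℝ, (MeasurableEquiv.finTwoArrow (α := ℝ)).symm p = ![p.1, p.2] :=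
    fun p => rfl
  have hpre : (MeasurableEquiv.finTwoArrow (α := ℝ)).symm ⁻¹' cell 2 =
      Set.Ico (0 : ℝ) 1 ×ˢ Set.Ico (0 : ℝ) 1 := by
    ext p
    rw [Set.mem_preimage, Set.mem_prod, h2]
    simp [cell]
  rw [hpre] at h1
  simp only [h2] at h1
  have hcont : Continuous fun p : ℝ × ℝ => G ![p.1, p.2] := by
    refine hG.comp (continuous_pi fun j => ?_)
    fin_cases j
    · exact continuous_fst
    · exact continuous_snd
  have hint : IntegrableOn (fun p : ℝ × ℝ => G ![p.1, p.2])
      (Set.Ico (0 : ℝ) 1 ×ˢ Set.Ico (0 : ℝ) 1) ((volume : Measure ℝ).prod volume) := by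
    have hK : IsCompact (Set.Icc (0 : ℝ) 1 ×ˢ Set.Icc (0 : ℝ) 1) :=
      isCompact_Icc.prod isCompact_Icc
    refine (hcont.continuousOn.integrableOn_compact hK).mono_set ?_
    exact Set.prod_mono Set.Ico_subset_Icc_self Set.Ico_subset_Icc_self
  have h3 : ∫ p in Set.Ico (0 : ℝ) 1 ×ˢ Set.Ico (0 : ℝ) 1, G ![p.1, p.2] =
      ∫ a in Set.Ico (0 : ℝ) 1, ∫ b in Set.Ico (0 : ℝ) 1, G ![a, b] := setIntegral_prod _ hint
  have h4 : ∫ a in Set.Ico (0 : ℝ) 1, ∫ b in Set.Ico (0 : ℝ) 1, G ![a, b] =
      ∫ b in Set.Ico (0 : ℝ) 1, ∫ a in Set.Ico (0 : ℝ) 1, G ![a, b] := by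
    refine integral_integral_swap (μ := volume.restrict (Set.Ico (0 : ℝ) 1))
      (ν := volume.restrict (Set.Ico (0 : ℝ) 1)) (f := fun a b => G ![a, b]) ?_
    rw [Measure.prod_restrict]
    exact hint
  have h5 : ∀ H : ℝ → ℝ, ∫ a in Set.Ico (0 : ℝ) 1, H a = ∫ a in (0:ℝ)..1, H a := by
    intro H
    rw [intervalIntegral.integral_of_le zero_le_one, integral_Ico_eq_integral_Ioc]
  rw [← h1]
  constructor
  · rw [h3, h5]
    exact intervalIntegral.integral_congr fun a _ => h5 _
  · rw [h3, h4, h5]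
    exact intervalIntegral.integral_congr fun a _ => h5 _

theorem slice_swap {f : (Fin 3 → ℝ) → ℝ} (hf : Nice f) (i : Fin 3) (t : ℝ) :
    (∫ z in (0:ℝ)..1, ∫ y in (0:ℝ)..1, slice f i z ![t, y]) = sArea f (i.succAbove 0) t ∧
    (∫ z in (0:ℝ)..1, ∫ x in (0:ℝ)..1, slice f i z ![x, t]) = sArea f (i.succAbove 1) t := by
  have hc : ∀ j : Fin 3, Continuous (slice f j t) := fun j =>
    hf.smooth.continuous.comp ((fub_insertNth_continuous j).comp (by fun_prop : Continuous
      fun y : Fin 2 → ℝ => ((t, y) : ℝ × (Fin 2 → ℝ))))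
  have key : ∀ (j : Fin 3), _ := fun j => fub_cell_two (hc j)
  unfold sArea
  fin_cases i
  · constructor
    · rw [(key _).1]
      refine intervalIntegral.integral_congr fun a _ => intervalIntegral.integral_congr fun b _ => ?_
      unfold slice
      dsimp only
      congr 1
      ext k
      fin_cases k <;> rfl
    · rw [(key _).1]
      refine intervalIntegral.integral_congr fun a _ => intervalIntegral.integral_congr fun b _ => ?_
      unfold slice
      dsimp only
      congr 1
      ext k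
      fin_cases k <;> rfl
  · constructor
    · rw [(key _).1]
      refine intervalIntegral.integral_congr fun a _ => intervalIntegral.integral_congr fun b _ => ?_
      unfold slice
      dsimp only
      congr 1
      ext k
      fin_cases k <;> rfl
    · rw [(key _).2]
      refine intervalIntegral.integral_congr fun a _ => intervalIntegral.integral_congr fun b _ => ?_
      unfold slice
      dsimp only
      congr 1
      ext k
      fin_cases k <;> rfl
  · constructor
    · rw [(key _).2]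
      refine intervalIntegral.integral_congr fun a _ => intervalIntegral.integral_congr fun b _ => ?_
      unfold slice
      dsimp only
      congr 1
      ext k
      fin_cases k <;> rfl
    · rw [(key _).2]
      refine intervalIntegral.integral_congr fun a _ => intervalIntegral.integral_congr fun b _ => ?_
      unfold slice
      dsimp only
      congr 1
      ext k
      fin_cases k <;> rfl

end Vale.Agent.P232
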