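import Vale.Agent.P232.Defs

/-! # P232, module E2b: the area function of the slices -/

open MeasureTheory Set

namespace Vale.Agent.P232

private theorem e2b_cell_ae : (cell 2 : Set (Fin 2 → ℝ)) =ᵐ[volume] Set.Icc 0 1 := by
  unfold cell
  exact Measure.univ_pi_Ico_ae_eq_Icc (μ := fun _ : Fin 2 => (volume : Measure ℝ))
    (f := fun _ => (0 : ℝ)) (g := fun _ => (1 : ℝ))

private theorem e2b_int (g : (Fin 2 → ℝ) → ℝ) :
    ∫ y in cell 2, g y = ∫ y in Set.Icc (0 : Fin 2 → ℝ) 1, g y :=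
  setIntegral_congr_set e2b_cell_ae

private theorem e2b_insert_cont (i : Fin 3) :
    Continuous (fun p : ℝ × (Fin 2 → ℝ) => (i.insertNth p.1 p.2 : Fin 3 → ℝ)) := by
  rw [continuous_pi_iff]
  intro j
  refine Fin.succAboveCases i ?_ (fun k => ?_) j
  · simp only [Fin.insertNth_apply_same]
    exact continuous_fst
  · simp only [Fin.insertNth_apply_succAbove]
    exact (continuous_apply k).comp continuous_snd

private theorem e2b_insert_deriv (i : Fin 3) (y : Fin 2 → ℝ) (z : ℝ) :
    HasDerivAt (fun t : ℝ => (i.insertNth t y : Fin 3 → ℝ)) (Pi.single i 1) z := by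
  rw [hasDerivAt_pi]
  intro j
  refine Fin.succAboveCases i ?_ (fun k => ?_) j
  · simp only [Fin.insertNth_apply_same, Pi.single_eq_same]
    exact hasDerivAt_id z
  · simp only [Fin.insertNth_apply_succAbove]
    rw [Pi.single_eq_of_ne (Fin.succAbove_ne i k)]
    exact hasDerivAt_const z _

private theorem e2b_deriv {f : (Fin 3 → ℝ) → ℝ} (hf : Nice f) (i : Fin 3) (y : Fin 2 → ℝ)
    (z : ℝ) : HasDerivAt (fun t : ℝ => f (i.insertNth t y))
      (fderiv ℝ f (i.insertNth z y) (Pi.single i 1)) z :=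
  ((hf.smooth.differentiable (by norm_num)) _).hasFDerivAt.comp_hasDerivAt z
    (e2b_insert_deriv i y z)

private theorem e2b_fd_cont {f : (Fin 3 → ℝ) → ℝ} (hf : Nice f) (i : Fin 3) :
    Continuous (fun p : ℝ × (Fin 2 → ℝ) =>
      fderiv ℝ f (i.insertNth p.1 p.2) (Pi.single i 1)) :=
  ((hf.smooth.continuous_fderiv (by norm_num)).comp (e2b_insert_cont i)).clm_apply
    continuous_const

private theorem e2b_f_cont {f : (Fin 3 → ℝ) → ℝ} (hf : Nice f) (i : Fin 3) (z : ℝ) :
    Continuous (fun y : Fin 2 → ℝ => f (i.insertNth z y)) :=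
  hf.smooth.continuous.comp ((e2b_insert_cont i).comp (continuous_const.prodMk continuous_id))

private theorem e2b_sArea {f : (Fin 3 → ℝ) → ℝ} (i : Fin 3) :
    sArea f i = fun z => ∫ y in Set.Icc (0 : Fin 2 → ℝ) 1, f (i.insertNth z y) := by
  funext z
  exact e2b_int _

private theorem e2b_hasDeriv {f : (Fin 3 → ℝ) → ℝ} (hf : Nice f) (i : Fin 3) (z : ℝ) :
    HasDerivAt (sArea f i)
      (∫ y in Set.Icc (0 : Fin 2 → ℝ) 1, fderiv ℝ f (i.insertNth z y) (Pi.single i 1)) z := by
  rw [e2b_sArea i]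
  have hK : IsCompact (Set.Icc (z - 1) (z + 1) ×ˢ Set.Icc (0 : Fin 2 → ℝ) 1) :=
    isCompact_Icc.prod isCompact_Icc
  obtain ⟨C, hC⟩ := hK.exists_bound_of_continuousOn (e2b_fd_cont hf i).continuousOn
  have hmeas : ∀ t : ℝ, AEStronglyMeasurable (fun y : Fin 2 → ℝ => f (i.insertNth t y))
      (volume.restrict (Set.Icc (0 : Fin 2 → ℝ) 1)) := fun t =>
    (e2b_f_cont hf i t).aestronglyMeasurable
  have hfdz : Continuous (fun y : Fin 2 → ℝ =>
      fderiv ℝ f (i.insertNth z y) (Pi.single i 1)) :=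
    (e2b_fd_cont hf i).comp (continuous_const.prodMk continuous_id)
  refine (hasDerivAt_integral_of_dominated_loc_of_deriv_le
    (μ := volume.restrict (Set.Icc (0 : Fin 2 → ℝ) 1))
    (F := fun t y => f (i.insertNth t y))
    (F' := fun t y => fderiv ℝ f (i.insertNth t y) (Pi.single i 1))
    (bound := fun _ => C) (s := Set.Icc (z - 1) (z + 1))
    (Icc_mem_nhds (by linarith) (by linarith))
    (Filter.Eventually.of_forall hmeas) ?_ hfdz.aestronglyMeasurable ?_ ?_ ?_).2
  · exact (e2b_f_cont hf i z).continuousOn.integrableOn_compact isCompact_Icc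
  · refine (ae_restrict_iff' measurableSet_Icc).2 (Filter.Eventually.of_forall ?_)
    intro y hy t ht
    exact hC (t, y) ⟨ht, hy⟩
  · exact continuous_const.continuousOn.integrableOn_compact isCompact_Icc
  · exact Filter.Eventually.of_forall fun y t _ => e2b_deriv hf i y t

theorem sArea_contDiff {f : (Fin 3 → ℝ) → ℝ} (hf : Nice f) (i : Fin 3) :
    ContDiff ℝ 1 (sArea f i) := by
  rw [contDiff_one_iff_deriv]
  refine ⟨fun z => (e2b_hasDeriv hf i z).differentiableAt, ?_⟩
  have h : deriv (sArea f i) = fun z => ∫ y in Set.Icc (0 : Fin 2 → ℝ) 1,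
      fderiv ℝ f (i.insertNth z y) (Pi.single i 1) := by
    funext z
    exact (e2b_hasDeriv hf i z).deriv
  rw [h]
  exact continuous_parametric_integral_of_continuous
    (f := fun (z : ℝ) (y : Fin 2 → ℝ) => fderiv ℝ f (i.insertNth z y) (Pi.single i 1))
    (e2b_fd_cont hf i) isCompact_Icc

theorem sArea_deriv_le {f : (Fin 3 → ℝ) → ℝ} (hf : Nice f) (i : Fin 3) (z : ℝ) :
    |deriv (sArea f i) z| ≤ ∫ y in cell 2, |fderiv ℝ f (i.insertNth z y) (Pi.single i 1)| := by
  rw [(e2b_hasDeriv hf i z).deriv, e2b_int]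
  exact norm_integral_le_integral_norm (μ := volume.restrict (Set.Icc (0 : Fin 2 → ℝ) 1))
    (fun y : Fin 2 → ℝ => fderiv ℝ f (i.insertNth z y) (Pi.single i 1))

theorem sArea_per {f : (Fin 3 → ℝ) → ℝ} (hf : Nice f) (i : Fin 3) (z : ℝ) :
    sArea f i (z + 1) = sArea f i z := by
  unfold sArea slice
  refine integral_congr_ae (Filter.Eventually.of_forall fun y => ?_)
  have h : (i.insertNth (z + 1) y : Fin 3 → ℝ)
      = (i.insertNth z y : Fin 3 → ℝ) + fun j => (((Pi.single i 1 : Fin 3 → ℤ) j : ℤ) : ℝ) := by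
    funext j
    refine Fin.succAboveCases i ?_ (fun l => ?_) j
    · simp
    · simp
  show f (i.insertNth (z + 1) y) = f (i.insertNth z y)
  rw [h]
  exact hf.per _ _

private theorem e2b_vol : volume (Set.Icc (0 : Fin 2 → ℝ) 1) = 1 := by
  rw [Real.volume_Icc_pi]
  simp

theorem sArea_mem {f : (Fin 3 → ℝ) → ℝ} (hf : Nice f) (i : Fin 3) (z : ℝ) :
    0 ≤ sArea f i z ∧ sArea f i z ≤ 1 := by
  rw [e2b_sArea i]
  constructor
  · exact integral_nonneg fun y => hf.nonneg _
  · calc ∫ y in Set.Icc (0 : Fin 2 → ℝ) 1, f (i.insertNth z y)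
        ≤ ∫ _y in Set.Icc (0 : Fin 2 → ℝ) 1, (1 : ℝ) := by
          refine integral_mono
            ((e2b_f_cont hf i z).continuousOn.integrableOn_compact isCompact_Icc)
            (continuous_const.continuousOn.integrableOn_compact isCompact_Icc)
            fun y => hf.le_one _
      _ = 1 := by
          rw [setIntegral_const, smul_eq_mul, mul_one, measureReal_def, e2b_vol]
          rfl

end Vale.Agent.P232
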