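import Vale.Agent.P232.Defs

/-! # P232, module E2a: slices of nice functions -/

open MeasureTheory Set

namespace Vale.Agent.P232

private theorem e2a_insert_contDiff (i : Fin 3) (z : ℝ) :
    ContDiff ℝ 1 (fun y : Fin 2 → ℝ => (i.insertNth z y : Fin 3 → ℝ)) := by
  rw [contDiff_pi]
  intro j
  refine Fin.succAboveCases i ?_ (fun k => ?_) j
  · simp only [Fin.insertNth_apply_same]
    exact contDiff_const
  · simp only [Fin.insertNth_apply_succAbove]
    exact contDiff_apply ℝ ℝ k

theorem slice_nice {f : (Fin 3 → ℝ) → ℝ} (hf : Nice f) (i : Fin 3) (z : ℝ) :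
    Nice (slice f i z) where
  smooth := hf.smooth.comp (e2a_insert_contDiff i z)
  per := by
    intro y k
    unfold slice
    have h : (i.insertNth z (y + fun j => (k j : ℝ)) : Fin 3 → ℝ)
        = (i.insertNth z y : Fin 3 → ℝ)
          + fun j => (((i.insertNth 0 k : Fin 3 → ℤ) j : ℤ) : ℝ) := by
      funext j
      refine Fin.succAboveCases i ?_ (fun l => ?_) j
      · simp
      · simp
    rw [h]
    exact hf.per _ _
  nonneg := fun y => hf.nonneg _
  le_one := fun y => hf.le_one _

private theorem e2a_fderiv_slice {f : (Fin 3 → ℝ) → ℝ} (hf : Nice f) (i : Fin 3) (z : ℝ)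
    (y : Fin 2 → ℝ) (k : Fin 2) :
    fderiv ℝ (slice f i z) y (Pi.single k 1)
      = fderiv ℝ f (i.insertNth z y) (Pi.single (i.succAbove k) 1) := by
  have h1 : DifferentiableAt ℝ (slice f i z) y :=
    ((slice_nice hf i z).smooth.differentiable (by norm_num)) y
  have h2 : DifferentiableAt ℝ f (i.insertNth z y) :=
    (hf.smooth.differentiable (by norm_num)) _
  rw [← h1.lineDeriv_eq_fderiv, ← h2.lineDeriv_eq_fderiv]
  unfold lineDeriv
  congr 1
  funext t
  unfold slice
  congr 1
  funext j
  refine Fin.succAboveCases i ?_ (fun l => ?_) j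
  · simp
  · rcases eq_or_ne l k with h | h
    · subst h
      simp
    · simp [Pi.single_eq_of_ne h, Pi.single_eq_of_ne
        (fun h' => h (Fin.succAbove_right_injective h') : i.succAbove l ≠ i.succAbove k)]

theorem gradN_slice {f : (Fin 3 → ℝ) → ℝ} (hf : Nice f) (i : Fin 3) (z : ℝ) (y : Fin 2 → ℝ) :
    gradN f (i.insertNth z y) ^ 2 =
      gradN (slice f i z) y ^ 2 + (fderiv ℝ f (i.insertNth z y) (Pi.single i 1)) ^ 2 := by
  unfold gradN
  rw [Real.sq_sqrt (Finset.sum_nonneg fun _ _ => sq_nonneg _),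
    Real.sq_sqrt (Finset.sum_nonneg fun _ _ => sq_nonneg _), Fin.sum_univ_succAbove _ i, add_comm]
  congr 1
  exact Finset.sum_congr rfl (fun k _ => by rw [e2a_fderiv_slice hf i z y k])

end Vale.Agent.P232
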