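import Vale.Agent.P232.Fubini
import Vale.Agent.P232.SliceBasic

/-! # P232: common lemmas for E4 and E5 (helper29) -/

open MeasureTheory Set Filter Topology

namespace Vale.Agent.P232

theorem sl_cell_meas (n : ℕ) : MeasurableSet (cell n) :=
  MeasurableSet.univ_pi fun _ => measurableSet_Ico

theorem sl_cell_vol (n : ℕ) : volume (cell n) = 1 := by
  unfold cell
  rw [MeasureTheory.volume_pi_pi]
  simp

instance sl_cell_fin (n : ℕ) : IsFiniteMeasure (volume.restrict (cell n)) :=
  ⟨by rw [Measure.restrict_apply_univ, sl_cell_vol]; exact ENNReal.one_lt_top⟩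

theorem sl_ins_cont (i : Fin 3) : Continuous (fun p : ℝ × (Fin 2 → ℝ) => (i.insertNth p.1 p.2 : Fin 3 → ℝ)) := by
  refine continuous_pi fun j => ?_
  rcases Fin.eq_self_or_eq_succAbove i j with rfl | ⟨k, rfl⟩
  · simpa using continuous_fst
  · simp only [Fin.insertNth_apply_succAbove]
    exact (continuous_apply k).comp continuous_snd

/-- the error of a slice -/
noncomputable def slErr (f : (Fin 3 → ℝ) → ℝ) (i : Fin 3) (z : ℝ) : ℝ :=
  ∫ y in cell 2, slice f i z y * (1 - slice f i z y)

theorem slErr_cont {f : (Fin 3 → ℝ) → ℝ} (hf : Nice f) (i : Fin 3) : Continuous (slErr f i) := by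
  have hc : Continuous (fun p : ℝ × (Fin 2 → ℝ) => slice f i p.1 p.2) :=
    hf.smooth.continuous.comp (sl_ins_cont i)
  unfold slErr
  refine continuous_of_dominated (bound := fun _ => 1) (fun z => ?_) (fun z => ?_)
    (integrable_const _) ?_
  · have : Continuous (fun y => slice f i z y * (1 - slice f i z y)) := by
      have h1 : Continuous (fun y : Fin 2 → ℝ => slice f i z y) :=
        hc.comp (continuous_const.prodMk continuous_id)
      fun_prop
    exact this.aestronglyMeasurable
  · refine Eventually.of_forall fun y => ?_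
    have h0 : 0 ≤ slice f i z y := hf.nonneg _
    have h1 : slice f i z y ≤ 1 := hf.le_one _
    rw [Real.norm_eq_abs, abs_le]
    constructor <;> nlinarith
  · refine Eventually.of_forall fun y => ?_
    have h1 : Continuous (fun z : ℝ => slice f i z y) :=
      hc.comp (continuous_id.prodMk continuous_const)
    fun_prop

theorem slErr_nonneg {f : (Fin 3 → ℝ) → ℝ} (hf : Nice f) (i : Fin 3) (z : ℝ) : 0 ≤ slErr f i z :=
  integral_nonneg fun y => mul_nonneg (hf.nonneg _) (by
    have : slice f i z y ≤ 1 := hf.le_one _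
    show 0 ≤ 1 - slice f i z y
    linarith)

theorem sl_area_mem {f : (Fin 3 → ℝ) → ℝ} (hf : Nice f) (i : Fin 3) (z : ℝ) :
    0 ≤ sArea f i z ∧ sArea f i z ≤ 1 := by
  have hc : Continuous (fun p : ℝ × (Fin 2 → ℝ) => slice f i p.1 p.2) :=
    hf.smooth.continuous.comp (sl_ins_cont i)
  have h1 : Continuous (fun y : Fin 2 → ℝ => slice f i z y) :=
    hc.comp (continuous_const.prodMk continuous_id)
  constructor
  · exact integral_nonneg fun y => hf.nonneg _
  · unfold sArea
    have h2 : ∫ y in cell 2, slice f i z y ≤ ∫ _ in cell 2, (1 : ℝ) := by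
      refine integral_mono_of_nonneg (Eventually.of_forall fun y => hf.nonneg _)
        (integrable_const _) (Eventually.of_forall fun y => hf.le_one _)
    refine h2.trans ?_
    rw [setIntegral_const]
    simp [Measure.real, sl_cell_vol]

/-- Cauchy-Schwarz -/
theorem sl_cs {g : ℝ → ℝ} (hg : Continuous g) (h0 : ∀ z, 0 ≤ g z) :
    ∫ z in (0:ℝ)..1, Real.sqrt (g z) ≤ Real.sqrt (∫ z in (0:ℝ)..1, g z) := by
  have hc : Continuous (fun z => Real.sqrt (g z)) := hg.sqrt
  set m := ∫ z in (0:ℝ)..1, Real.sqrt (g z) with hm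
  refine Real.le_sqrt_of_sq_le ?_
  have h1 : 0 ≤ ∫ z in (0:ℝ)..1, (Real.sqrt (g z) - m) ^ 2 :=
    intervalIntegral.integral_nonneg zero_le_one fun z _ => sq_nonneg _
  have h2 : ∫ z in (0:ℝ)..1, (Real.sqrt (g z) - m) ^ 2 =
      (∫ z in (0:ℝ)..1, g z) - 2 * m * m + m ^ 2 := by
    have e : ∀ z, (Real.sqrt (g z) - m) ^ 2 = g z - 2 * m * Real.sqrt (g z) + m ^ 2 := by
      intro z
      rw [sub_sq, Real.sq_sqrt (h0 z)]; ring
    simp_rw [e]
    rw [intervalIntegral.integral_add, intervalIntegral.integral_sub,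
      intervalIntegral.integral_const_mul, ← hm]
    · simp
    · exact hg.intervalIntegrable _ _
    · exact (continuous_const.mul hc).intervalIntegrable _ _
    · exact (hg.sub (continuous_const.mul hc)).intervalIntegrable _ _
    · exact continuous_const.intervalIntegrable _ _
  nlinarith

theorem sl_err_int {f : (Fin 3 → ℝ) → ℝ} (hf : Nice f) (i : Fin 3) :
    ∫ z in (0:ℝ)..1, Real.sqrt (2 * Real.pi * slErr f i z) ≤
      Real.sqrt (2 * Real.pi * ∫ x in cell 3, f x * (1 - f x)) := by
  have hc : Continuous (fun x => f x * (1 - f x)) := by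
    have := hf.smooth.continuous
    fun_prop
  have h1 := sl_cs (g := fun z => 2 * Real.pi * slErr f i z) (continuous_const.mul (slErr_cont hf i))
    (fun z => mul_nonneg (by positivity) (slErr_nonneg hf i z))
  rw [intervalIntegral.integral_const_mul] at h1
  have h2 := fubini_slice hc i
  rw [h2]
  exact h1

theorem I2_cont : Continuous I2 := by
  unfold I2
  fun_prop

theorem I2_ge {a : ℝ} (h0 : 0 ≤ a) (h1 : a ≤ 1) : Real.sqrt (a * (1 - a)) ≤ I2 a := by
  have hpi : (1 : ℝ) ≤ Real.pi := by linarith [Real.pi_gt_three]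
  unfold I2
  refine le_min (le_min ?_ ?_) ?_
  · exact Real.sqrt_le_sqrt (by nlinarith)
  · rw [Real.sqrt_le_one]
    nlinarith
  · exact Real.sqrt_le_sqrt (by nlinarith)


/-- continuity of the quotient at the left end -/
theorem sl_q_zero {Iso : ℝ → ℝ} {κ b c : ℝ} (hb : 0 ≤ b) (_hc1 : c ≤ 1)
    (hge : ∀ a ∈ Set.Icc b c, Real.sqrt (a * (1 - a)) ≤ Iso a) (h0 : Iso 0 = 0) :
    ContinuousWithinAt (fun a => (0 + κ * a) / Iso a) (Set.Icc b c) 0 := by
  unfold ContinuousWithinAt
  simp only [h0, zero_add, mul_zero, div_zero]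
  have hlim : Tendsto (fun a : ℝ => |κ| * (Real.sqrt a / Real.sqrt (1 - a)))
      (𝓝[Set.Icc b c] 0) (𝓝 0) := by
    have h1 : ContinuousAt (fun a : ℝ => |κ| * (Real.sqrt a / Real.sqrt (1 - a))) 0 := by
      refine continuousAt_const.mul (ContinuousAt.div ?_ ?_ ?_)
      · exact Real.continuous_sqrt.continuousAt
      · exact (Real.continuous_sqrt.comp (continuous_const.sub continuous_id)).continuousAt
      · simp
    have h2 : Tendsto (fun a : ℝ => |κ| * (Real.sqrt a / Real.sqrt (1 - a))) (𝓝 0)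
        (𝓝 (|κ| * (Real.sqrt 0 / Real.sqrt (1 - 0)))) := h1
    simp only [Real.sqrt_zero, zero_div, mul_zero] at h2
    exact h2.mono_left nhdsWithin_le_nhds
  refine squeeze_zero_norm' ?_ hlim
  have hlt : ∀ᶠ a : ℝ in 𝓝[Set.Icc b c] 0, a < 1 :=
    nhdsWithin_le_nhds (Iio_mem_nhds zero_lt_one)
  filter_upwards [hlt, self_mem_nhdsWithin] with a ha1 ha
  have ha0 : 0 ≤ a := hb.trans ha.1
  rcases ha0.eq_or_lt with rfl | hap
  · simp [h0]
  · have hs : 0 < Real.sqrt (a * (1 - a)) := Real.sqrt_pos.2 (mul_pos hap (by linarith))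
    have hI := hge a ha
    have hIpos : 0 < Iso a := hs.trans_le hI
    rw [Real.norm_eq_abs, abs_div, abs_mul, abs_of_pos hap, abs_of_pos hIpos]
    have h1a : 0 < Real.sqrt (1 - a) := Real.sqrt_pos.2 (by linarith)
    calc |κ| * a / Iso a ≤ |κ| * a / Real.sqrt (a * (1 - a)) := by
          gcongr
      _ = |κ| * (Real.sqrt a / Real.sqrt (1 - a)) := by
          rw [Real.sqrt_mul ha0]
          have hsa : 0 < Real.sqrt a := Real.sqrt_pos.2 hap
          field_simp
          rw [Real.sq_sqrt ha0]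

theorem sl_hq {Iso : ℝ → ℝ} {α κ b c : ℝ} (hIc : Continuous Iso) (hb : 0 ≤ b) (hc1 : c ≤ 1)
    (hge : ∀ a ∈ Set.Icc b c, Real.sqrt (a * (1 - a)) ≤ Iso a) (h0 : Iso 0 = 0)
    (h1 : Iso 1 = 0 ∨ 0 < Iso 1)
    (hl0 : ∀ a ∈ Set.Icc b c, 0 ≤ α + κ * a) (hl : ∀ a ∈ Set.Icc b c, α + κ * a ≤ Iso a) :
    ContinuousOn (fun a => (α + κ * a) / Iso a) (Set.Icc b c) := by
  have hpos : ∀ a ∈ Set.Icc b c, 0 < Iso a →
      ContinuousWithinAt (fun a => (α + κ * a) / Iso a) (Set.Icc b c) a := by
    intro a _ ha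
    refine ContinuousAt.continuousWithinAt (ContinuousAt.div ?_ hIc.continuousAt ha.ne')
    fun_prop
  intro a ha
  have ha0 : 0 ≤ a := hb.trans ha.1
  have ha1 : a ≤ 1 := ha.2.trans hc1
  rcases ha0.eq_or_lt with rfl | hap
  · have hα : α = 0 := by
      have e1 := hl0 0 ha
      have e2 := hl 0 ha
      rw [h0] at e2
      simp only [mul_zero, add_zero] at e1 e2
      linarith
    subst hα
    exact sl_q_zero hb hc1 hge h0
  rcases ha1.eq_or_lt with rfl | ha1'
  · rcases h1 with h1 | h1
    · -- reflect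
      have hα : α = -κ := by
        have e1 := hl0 1 ha
        have e2 := hl 1 ha
        rw [h1] at e2
        simp only [mul_one] at e1 e2
        linarith
      have hz := sl_q_zero (Iso := fun a => Iso (1 - a)) (κ := -κ) (b := 1 - c) (c := 1 - b)
        (by linarith) (by linarith) (fun a ha => by
          have := hge (1 - a) ⟨by linarith [ha.2], by linarith [ha.1]⟩
          have e : (1 - a) * (1 - (1 - a)) = a * (1 - a) := by ring
          rwa [e] at this) (by simpa using h1)
      have hmap : MapsTo (fun a : ℝ => 1 - a) (Set.Icc b c) (Set.Icc (1 - c) (1 - b)) :=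
        fun a ha => ⟨by linarith [ha.2], by linarith [ha.1]⟩
      have hg : ContinuousWithinAt (fun a : ℝ => 1 - a) (Set.Icc b c) 1 := by
        apply Continuous.continuousWithinAt
        fun_prop
      have hz' : ContinuousWithinAt (fun a => (0 + -κ * a) / Iso (1 - a))
          (Set.Icc (1 - c) (1 - b)) ((fun a : ℝ => 1 - a) 1) := by
        simpa using hz
      have hcomp := ContinuousWithinAt.comp hz' hg hmap
      refine hcomp.congr (fun a _ => ?_) ?_
      · simp only [Function.comp]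
        rw [hα]
        congr 1
        · ring
        · congr 1; ring
      · simp only [Function.comp]
        rw [hα]
        congr 1
        · ring
        · congr 1; ring
    · exact hpos 1 ha h1
  · refine hpos a ha ((Real.sqrt_pos.2 (mul_pos hap (by linarith))).trans_le (hge a ha))

theorem sl_bc {f : (Fin 3 → ℝ) → ℝ} (hf : Nice f) (i : Fin 3) {b c : ℝ}
    (hb' : ∃ z, sArea f i z = b) (hc' : ∃ z, sArea f i z = c) : 0 ≤ b ∧ c ≤ 1 := by
  obtain ⟨z, rfl⟩ := hb'
  obtain ⟨w, rfl⟩ := hc'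
  exact ⟨(sl_area_mem hf i z).1, (sl_area_mem hf i w).2⟩

/-- the two boundary terms -/
noncomputable def slBd (f : (Fin 3 → ℝ) → ℝ) (i : Fin 3) (t0 t1 : ℝ) (z : ℝ) : ℝ :=
  (∫ y in (0:ℝ)..1, slice f i z ![t0, y]) + ∫ x in (0:ℝ)..1, slice f i z ![x, t1]

theorem slBd_cont1 {f : (Fin 3 → ℝ) → ℝ} (hf : Nice f) (i : Fin 3) (t0 : ℝ) :
    Continuous (fun z => ∫ y in (0:ℝ)..1, slice f i z ![t0, y]) := by
  have hc : Continuous (fun p : ℝ × (Fin 2 → ℝ) => slice f i p.1 p.2) :=
    hf.smooth.continuous.comp (sl_ins_cont i)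
  refine intervalIntegral.continuous_parametric_intervalIntegral_of_continuous' ?_ _ _
  have h1 : Continuous (fun p : ℝ × ℝ => ((p.1, ![t0, p.2]) : ℝ × (Fin 2 → ℝ))) := by
    refine continuous_fst.prodMk (continuous_pi fun j => ?_)
    fin_cases j
    · simpa using continuous_const
    · simpa using continuous_snd
  exact hc.comp h1

theorem slBd_cont2 {f : (Fin 3 → ℝ) → ℝ} (hf : Nice f) (i : Fin 3) (t1 : ℝ) :
    Continuous (fun z => ∫ x in (0:ℝ)..1, slice f i z ![x, t1]) := by
  have hc : Continuous (fun p : ℝ × (Fin 2 → ℝ) => slice f i p.1 p.2) :=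
    hf.smooth.continuous.comp (sl_ins_cont i)
  refine intervalIntegral.continuous_parametric_intervalIntegral_of_continuous' ?_ _ _
  have h1 : Continuous (fun p : ℝ × ℝ => ((p.1, ![p.2, t1]) : ℝ × (Fin 2 → ℝ))) := by
    refine continuous_fst.prodMk (continuous_pi fun j => ?_)
    fin_cases j
    · simpa using continuous_snd
    · simpa using continuous_const
  exact hc.comp h1

theorem slBd_nonneg {f : (Fin 3 → ℝ) → ℝ} (hf : Nice f) (i : Fin 3) (t0 t1 z : ℝ) :
    0 ≤ slBd f i t0 t1 z :=
  add_nonneg (intervalIntegral.integral_nonneg zero_le_one fun _ _ => hf.nonneg _)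
    (intervalIntegral.integral_nonneg zero_le_one fun _ _ => hf.nonneg _)

end Vale.Agent.P232
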