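import Mathlib
import Vale.Agent.P232.ArcVar
import Vale.Agent.P232.SliceBasic
import Vale.Agent.P232.SliceArea
import Vale.Agent.P232.Fubini

/-! # P232, module E3: the slicing inequality (helper95)

`hTV f` is bounded below by slicing in one coordinate direction: the gradient is split into
the part along the slice and the transversal part with the weights `C` and `√(1-C²)`. -/

open MeasureTheory Set

namespace Vale.Agent.P232

/-- the half open and the closed unit cube agree up to a null set -/
theorem e3_cell_ae (n : ℕ) : cell n =ᵐ[volume] Set.Icc (0 : Fin n → ℝ) 1 :=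
  Measure.univ_pi_Ico_ae_eq_Icc (f := fun _ : Fin n => (0 : ℝ)) (g := fun _ => 1)

/-- the half open cube lies in the closed one -/
theorem e3_cell_sub (n : ℕ) : cell n ⊆ Set.Icc (0 : Fin n → ℝ) 1 := by
  intro x hx
  exact ⟨fun i => (hx i trivial).1, fun i => (hx i trivial).2.le⟩

/-- continuous functions are integrable on the cell -/
theorem e3_int {n : ℕ} {F : (Fin n → ℝ) → ℝ} (hF : Continuous F) : IntegrableOn F (cell n) :=
  (hF.integrableOn_Icc (a := (0 : Fin n → ℝ)) (b := 1)).mono_set (e3_cell_sub n)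

/-- continuity of integrals over the cell with a parameter -/
theorem e3_cont_param {F : ℝ → (Fin 2 → ℝ) → ℝ} (hF : Continuous (Function.uncurry F)) :
    Continuous fun z => ∫ y in cell 2, F z y := by
  have h : (fun z => ∫ y in cell 2, F z y) =
      fun z => ∫ y in Set.Icc (0 : Fin 2 → ℝ) 1, F z y := by
    funext z
    exact setIntegral_congr_set (e3_cell_ae 2)
  rw [h]
  exact continuous_parametric_integral_of_continuous hF isCompact_Icc

/-- continuity of `insertNth` -/
theorem e3_ins (i : Fin 3) :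
    Continuous (fun p : ℝ × (Fin 2 → ℝ) => (i.insertNth p.1 p.2 : Fin 3 → ℝ)) :=
  Continuous.finInsertNth (A := fun _ => ℝ) i continuous_fst continuous_snd

/-- the gradient length is continuous -/
theorem e3_gradN {n : ℕ} {f : (Fin n → ℝ) → ℝ} (hf : ContDiff ℝ 1 f) : Continuous (gradN f) := by
  unfold gradN
  refine Real.continuous_sqrt.comp (continuous_finsetSum _ fun i _ => ?_)
  exact ((hf.continuous_fderiv one_ne_zero).clm_apply continuous_const).pow 2

/-- the slice areas are periodic -/
theorem e3_per {f : (Fin 3 → ℝ) → ℝ} (hf : Nice f) (i : Fin 3) (z : ℝ) :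
    sArea f i (z + 1) = sArea f i z := by
  unfold sArea
  congr 1
  funext y
  unfold slice
  have h := hf.per (i.insertNth z y) (Pi.single i 1)
  rw [← h]
  congr 1
  funext j
  refine Fin.succAboveCases i ?_ (fun k => ?_) j
  · simp
  · simp

/-- the pointwise Cauchy-Schwarz inequality -/
theorem e3_cs {N G d C S : ℝ} (hN : 0 ≤ N) (hG : 0 ≤ G) (hC : 0 ≤ C) (hS : 0 ≤ S)
    (h1 : N ^ 2 = G ^ 2 + d ^ 2) (h2 : C ^ 2 + S ^ 2 = 1) : C * G + S * |d| ≤ N := by
  have h3 : (C * G + S * |d|) ^ 2 ≤ N ^ 2 := by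
    have h4 : (C * G + S * |d|) ^ 2 + (C * |d| - S * G) ^ 2 = (C ^ 2 + S ^ 2) * (G ^ 2 + |d| ^ 2) := by
      ring
    rw [h1, ← sq_abs d]
    rw [h2, one_mul] at h4
    nlinarith [sq_nonneg (C * |d| - S * G)]
  exact (sq_le_sq₀ (by positivity) hN).mp h3

/-- E3 : abstract slicing inequality -/
theorem slicing {f : (Fin 3 → ℝ) → ℝ} (hf : Nice f) (i : Fin 3) {Iso r e : ℝ → ℝ} {α κ b c : ℝ}
    (hr : Continuous r) (hr0 : ∀ z, 0 ≤ r z) (he : Continuous e) (he0 : ∀ z, 0 ≤ e z)
    (hiso : ∀ z, Iso (sArea f i z) - e z ≤ hTV (slice f i z) + r z)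
    (hb : ∀ z, b ≤ sArea f i z) (hc : ∀ z, sArea f i z ≤ c)
    (hb' : ∃ z, sArea f i z = b) (hc' : ∃ z, sArea f i z = c)
    (hI : ContinuousOn Iso (Set.Icc b c))
    (hq : ContinuousOn (fun a => (α + κ * a) / Iso a) (Set.Icc b c))
    (hl0 : ∀ a ∈ Set.Icc b c, 0 ≤ α + κ * a) (hl : ∀ a ∈ Set.Icc b c, α + κ * a ≤ Iso a) :
    α + κ * (∫ x in cell 3, f x) + cal Iso α κ b c ≤
      hTV f + (∫ z in (0:ℝ)..1, r z) + ∫ z in (0:ℝ)..1, e z := by
  obtain ⟨z₁, hz₁⟩ := hb'
  obtain ⟨z₂, hz₂⟩ := hc'
  have hbc : b ≤ c := by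
    rw [← hz₁]
    exact hc z₁
  -- the extended weight
  let cl : ℝ → ℝ := fun x => max b (min x c)
  have hclc : Continuous cl := continuous_const.max (continuous_id.min continuous_const)
  have hclm : ∀ x, cl x ∈ Set.Icc b c := fun x => ⟨le_max_left _ _, max_le hbc (min_le_right _ _)⟩
  have hcle : ∀ x ∈ Set.Icc b c, cl x = x := by
    intro x hx
    change max b (min x c) = x
    rw [min_eq_left hx.2, max_eq_right hx.1]
  let C : ℝ → ℝ := fun x => (α + κ * cl x) / Iso (cl x)
  have hCc : Continuous C := hq.comp_continuous hclc hclm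
  let S : ℝ → ℝ := fun x => Real.sqrt (1 - C x ^ 2)
  have hSc : Continuous S := Real.continuous_sqrt.comp (continuous_const.sub (hCc.pow 2))
  have hS0 : ∀ x, 0 ≤ S x := fun x => Real.sqrt_nonneg _
  have hC0 : ∀ x, 0 ≤ C x := fun x =>
    div_nonneg (hl0 _ (hclm x)) ((hl0 _ (hclm x)).trans (hl _ (hclm x)))
  have hC1 : ∀ x, C x ≤ 1 := fun x =>
    div_le_one_of_le₀ (hl _ (hclm x)) ((hl0 _ (hclm x)).trans (hl _ (hclm x)))
  have hCS : ∀ x, C x ^ 2 + S x ^ 2 = 1 := by
    intro x
    have h1 : C x ^ 2 ≤ 1 := pow_le_one₀ (hC0 x) (hC1 x)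
    change C x ^ 2 + Real.sqrt (1 - C x ^ 2) ^ 2 = 1
    rw [Real.sq_sqrt (by linarith)]
    ring
  let p : ℝ → ℝ := sArea f i
  have hpm : ∀ z, p z ∈ Set.Icc b c := fun z => ⟨hb z, hc z⟩
  have hpC : ContDiff ℝ 1 p := sArea_contDiff hf i
  have hpc : Continuous p := hpC.continuous
  have hpd : Continuous (deriv p) := hpC.continuous_deriv le_rfl
  have hCI : ∀ z, C (p z) * Iso (p z) = α + κ * p z := by
    intro z
    have h1 : C (p z) = (α + κ * p z) / Iso (p z) := by
      change (α + κ * cl (p z)) / Iso (cl (p z)) = _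
      rw [hcle _ (hpm z)]
    rw [h1]
    by_cases h2 : Iso (p z) = 0
    · rw [h2, mul_zero]
      have h3 := hl0 _ (hpm z)
      have h4 := hl _ (hpm z)
      rw [h2] at h4
      exact (le_antisymm h4 h3).symm
    · exact div_mul_cancel₀ _ h2
  -- the inner integrals
  have hgc : Continuous (gradN f) := e3_gradN hf.smooth
  let G : ℝ → ℝ := fun z => ∫ y in cell 2, gradN f (i.insertNth z y)
  have hGc : Continuous G := by
    refine e3_cont_param (F := fun z y => gradN f (i.insertNth z y)) ?_
    exact hgc.comp (e3_ins i)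
  have hpt : ∀ z, α + κ * p z - e z - r z + (1 / 2) * (S (p z) * |deriv p z|) ≤
      (1 / 2) * G z := by
    intro z
    have hs := slice_nice hf i z
    have h1 : Continuous fun y : Fin 2 → ℝ => gradN (slice f i z) y := e3_gradN hs.smooth
    have hins : Continuous fun y : Fin 2 → ℝ => (i.insertNth z y : Fin 3 → ℝ) :=
      (e3_ins i).comp (continuous_const.prodMk continuous_id)
    have h2 : Continuous fun y : Fin 2 → ℝ => |fderiv ℝ f (i.insertNth z y) (Pi.single i 1)| :=
      (((hf.smooth.continuous_fderiv one_ne_zero).comp hins).clm_apply continuous_const).abs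
    have h3 : C (p z) * (∫ y in cell 2, gradN (slice f i z) y) +
        S (p z) * (∫ y in cell 2, |fderiv ℝ f (i.insertNth z y) (Pi.single i 1)|) ≤ G z := by
      rw [← integral_const_mul, ← integral_const_mul, ← integral_add
        ((e3_int h1).const_mul _) ((e3_int h2).const_mul _)]
      refine setIntegral_mono (((e3_int h1).const_mul _).add ((e3_int h2).const_mul _))
        (e3_int (hgc.comp hins)) fun y => ?_
      exact e3_cs (Real.sqrt_nonneg _) (Real.sqrt_nonneg _) (hC0 _) (hS0 _)
        (gradN_slice hf i z y) (hCS _)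
    have h4 := sArea_deriv_le hf i z
    have h5 : S (p z) * |deriv p z| ≤
        S (p z) * (∫ y in cell 2, |fderiv ℝ f (i.insertNth z y) (Pi.single i 1)|) :=
      mul_le_mul_of_nonneg_left h4 (hS0 _)
    have h6 := hiso z
    have h7 : C (p z) * (Iso (p z) - e z - r z) ≤ C (p z) * hTV (slice f i z) :=
      mul_le_mul_of_nonneg_left (by linarith) (hC0 _)
    have h8 : hTV (slice f i z) = (1 / 2) * ∫ y in cell 2, gradN (slice f i z) y := rfl
    rw [h8] at h7
    have h9 : C (p z) * (e z + r z) ≤ e z + r z :=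
      mul_le_of_le_one_left (add_nonneg (he0 z) (hr0 z)) (hC1 _)
    have h10 := hCI z
    nlinarith
  -- integrate in z
  have hLc : Continuous fun z => α + κ * p z - e z - r z + (1 / 2) * (S (p z) * |deriv p z|) :=
    (((continuous_const.add (continuous_const.mul hpc)).sub he).sub hr).add
      (continuous_const.mul ((hSc.comp hpc).mul hpd.abs))
  have hint : ∫ z in (0:ℝ)..1, (α + κ * p z - e z - r z + (1 / 2) * (S (p z) * |deriv p z|)) ≤
      ∫ z in (0:ℝ)..1, (1 / 2) * G z :=
    intervalIntegral.integral_mono_on zero_le_one (hLc.intervalIntegrable _ _)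
      ((continuous_const.mul hGc).intervalIntegrable _ _) fun z _ => hpt z
  have hright : ∫ z in (0:ℝ)..1, (1 / 2) * G z = hTV f := by
    rw [intervalIntegral.integral_const_mul, hTV, fubini_slice hgc i]
  have hcp : Continuous fun z => κ * p z := continuous_const.mul hpc
  have hc1 : Continuous fun z => α + κ * p z := continuous_const.add hcp
  have hc2 : Continuous fun z => α + κ * p z - e z := hc1.sub he
  have hc3 : Continuous fun z => α + κ * p z - e z - r z := hc2.sub hr
  have hc4 : Continuous fun z => S (p z) * |deriv p z| := (hSc.comp hpc).mul hpd.abs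
  have hc5 : Continuous fun z => (1 / 2) * (S (p z) * |deriv p z|) := continuous_const.mul hc4
  have hleft : ∫ z in (0:ℝ)..1, (α + κ * p z - e z - r z + (1 / 2) * (S (p z) * |deriv p z|)) =
      α + κ * (∫ z in (0:ℝ)..1, p z) - (∫ z in (0:ℝ)..1, e z) - (∫ z in (0:ℝ)..1, r z) +
        (1 / 2) * ∫ z in (0:ℝ)..1, S (p z) * |deriv p z| := by
    rw [intervalIntegral.integral_add (hc3.intervalIntegrable _ _)
      (hc5.intervalIntegrable _ _),
      intervalIntegral.integral_sub (hc2.intervalIntegrable _ _) (hr.intervalIntegrable _ _),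
      intervalIntegral.integral_sub (hc1.intervalIntegrable _ _) (he.intervalIntegrable _ _),
      intervalIntegral.integral_add (continuous_const.intervalIntegrable _ _)
        (hcp.intervalIntegrable _ _),
      intervalIntegral.integral_const_mul, intervalIntegral.integral_const_mul,
      intervalIntegral.integral_const]
    simp
  have hfub : ∫ z in (0:ℝ)..1, p z = ∫ x in cell 3, f x := by
    rw [fubini_slice hf.smooth.continuous i]
    rfl
  have harc := arc_var hpC (e3_per hf i) hSc hS0 (z₁ := z₁) (z₂ := z₂)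
    (by rw [show p z₁ = b from hz₁, show p z₂ = c from hz₂]; exact hbc)
  rw [show p z₁ = b from hz₁, show p z₂ = c from hz₂] at harc
  have hcal : cal Iso α κ b c = ∫ x in b..c, S x := by
    unfold cal
    refine intervalIntegral.integral_congr fun x hx => ?_
    rw [Set.uIcc_of_le hbc] at hx
    change Real.sqrt (1 - ((α + κ * x) / Iso x) ^ 2) =
      Real.sqrt (1 - ((α + κ * cl x) / Iso (cl x)) ^ 2)
    rw [hcle x hx]
  rw [hleft, hright, hfub] at hint
  rw [hcal]
  linarith

end Vale.Agent.P232
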