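import Vale.Agent.P232.SliceSym
import Vale.Agent.P232.SliceCommon
import Vale.Agent.P232.SliceArea
import Vale.Agent.P232.Fubini
import Vale.Agent.P232.Slicing

/-! # P232, module 2CC: auxiliary lemmas for claim C (helper21) -/

open MeasureTheory Set

namespace Vale.Agent.P232

/-- a symmetric decreasing function is monotone in all `|x_m|` -/
theorem cc_mono {n : ℕ} {u : (Fin n → ℝ) → ℝ} (hu : SymN u) {x y : Fin n → ℝ}
    (h : ∀ m, |x m| ≤ |y m|) (h' : ∀ m, |y m| ≤ 1 / 2) : u y ≤ u x := by
  classical
  have habs : ∀ (v : Fin n → ℝ) (m : Fin n) (t : ℝ),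
      u (Function.update v m |t|) = u (Function.update v m t) := by
    intro v m t
    rcases le_total 0 t with ht | ht
    · rw [abs_of_nonneg ht]
    · rw [abs_of_nonpos ht]
      have h1 := hu.even (Function.update v m t) m
      rwa [Function.update_self, Function.update_idem] at h1
  have hstep : ∀ (v : Fin n → ℝ) (m : Fin n), u (Function.update v m (y m)) ≤
      u (Function.update v m (x m)) := by
    intro v m
    rw [← habs v m (y m), ← habs v m (x m)]
    exact hu.anti v m _ _ (abs_nonneg _) (h m) (h' m)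
  have key : ∀ s : Finset (Fin n), u (fun m => if m ∈ s then y m else x m) ≤ u x := by
    intro s
    induction s using Finset.induction_on with
    | empty => simp
    | insert a s ha ih =>
      refine le_trans ?_ ih
      have e1 : (fun m => if m ∈ insert a s then y m else x m) =
          Function.update (fun m => if m ∈ s then y m else x m) a (y a) := by
        funext m
        by_cases hm : m = a
        · subst hm
          simp
        · simp [hm]
      have e2 : (fun m => if m ∈ s then y m else x m) =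
          Function.update (fun m => if m ∈ s then y m else x m) a (x a) := by
        funext m
        by_cases hm : m = a
        · subst hm
          simp [ha]
        · simp [Function.update_of_ne hm]
      rw [e1]
      conv_rhs => rw [e2]
      exact hstep _ a
  have := key Finset.univ
  simpa using this

/-- zeros propagate outwards -/
theorem cc_zero {n : ℕ} {u : (Fin n → ℝ) → ℝ} (hu : SymN u) {p x : Fin n → ℝ} (hp : u p = 0)
    (h : ∀ m, ∀ N : ℤ, |p m| ≤ |x m - N|) : u x = 0 := by
  have h1 : u x = u (fun m => x m - round (x m)) := by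
    have h2 := hu.per (fun m => x m - round (x m)) (fun m => round (x m))
    rw [← h2]
    congr 1
    funext m
    simp
  have h3 : u (fun m => x m - round (x m)) ≤ u p :=
    cc_mono hu (fun m => h m _) (fun m => abs_sub_round (x m))
  rw [hp] at h3
  rw [h1]
  exact le_antisymm h3 (hu.nonneg _)

theorem cc_dist {a t : ℝ} (h1 : a ≤ t) (h2 : t ≤ 1 - a) (N : ℤ) : a ≤ |t - N| := by
  rcases le_or_gt N 0 with hN | hN
  · have hN' : (N : ℝ) ≤ 0 := by exact_mod_cast hN
    exact le_trans (by linarith) (le_abs_self _)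
  · have hN' : (1 : ℝ) ≤ N := by exact_mod_cast hN
    refine le_trans ?_ (neg_le_abs _)
    linarith

theorem cc_dist' {a t : ℝ} (h1 : a ≤ |t|) (h2 : |t| ≤ 1 - a) (N : ℤ) : a ≤ |t - N| := by
  rcases le_total 0 t with ht | ht
  · rw [abs_of_nonneg ht] at h1 h2
    exact cc_dist h1 h2 N
  · rw [abs_of_nonpos ht] at h1 h2
    have h := cc_dist h1 h2 (-N)
    rwa [show (-t - ((-N : ℤ) : ℝ)) = -(t - N) by push_cast; ring, abs_neg] at h

theorem cc_cases : ∀ i j k : Fin 3, i ≠ j → j ≠ k → i ≠ k →
    (i.succAbove 0 = j ∧ i.succAbove 1 = k) ∨ (i.succAbove 0 = k ∧ i.succAbove 1 = j) := by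
  decide

theorem cc_all : ∀ i j k : Fin 3, i ≠ j → j ≠ k → i ≠ k → ∀ m, m = i ∨ m = j ∨ m = k := by
  decide

/-- the zero set of a slice -/
theorem cc_slice_zero {w : (Fin 3 → ℝ) → ℝ} (hw : SymN w) {i j k : Fin 3} (hij : i ≠ j)
    (hjk : j ≠ k) (hik : i ≠ k) {p : Fin 3 → ℝ} (hp : w p = 0) {z : ℝ} {y : Fin 2 → ℝ}
    {a b : Fin 2} (ha : i.succAbove a = j) (hb : i.succAbove b = k)
    (h1 : ∀ N : ℤ, |p i| ≤ |z - N|) (h2 : ∀ N : ℤ, |p j| ≤ |y a - N|)
    (h3 : ∀ N : ℤ, |p k| ≤ |y b - N|) : slice w i z y = 0 := by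
  unfold slice
  refine cc_zero hw hp fun m N => ?_
  rcases cc_all i j k hij hjk hik m with rfl | rfl | rfl
  · rw [Fin.insertNth_apply_same]
    exact h1 N
  · rw [← ha, Fin.insertNth_apply_succAbove, ha]
    exact h2 N
  · rw [← hb, Fin.insertNth_apply_succAbove, hb]
    exact h3 N

theorem cc_pt1 {j k : Fin 3} (hjk : j ≠ k) (t : ℝ) : pt j k t j = 1 / 2 := by
  unfold pt
  rw [Function.update_of_ne hjk, Function.update_self]

theorem cc_pt2 {j k : Fin 3} (t : ℝ) : pt j k t k = t := by
  unfold pt
  rw [Function.update_self]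

theorem cc_pt3 {j k m : Fin 3} (hj : m ≠ j) (hk : m ≠ k) (t : ℝ) : pt j k t m = 0 := by
  unfold pt
  rw [Function.update_of_ne hk, Function.update_of_ne hj]

theorem cc_FA_cont : Continuous FA := by
  unfold FA
  fun_prop

theorem cc_FA_ge {a : ℝ} (h0 : 0 ≤ a) (h1 : a ≤ 1) : Real.sqrt (a * (1 - a)) ≤ FA a := by
  have hpi : (1 : ℝ) ≤ Real.pi := by linarith [Real.pi_gt_three]
  unfold FA
  refine le_min (Real.sqrt_le_sqrt (by nlinarith)) ?_
  have : Real.sqrt (a * (1 - a)) ≤ 1 := by
    rw [Real.sqrt_le_one]
    nlinarith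
  linarith

theorem cc_sArea_le {w : (Fin 3 → ℝ) → ℝ} (hw : SymN w) (i : Fin 3) (z : ℝ) :
    sArea w i z ≤ sArea w i 0 := by
  have hper : Function.Periodic (sArea w i) 1 := fun z => e3_per hw.toNice i z
  have h1 : sArea w i z = sArea w i (z - round z) := by
    have := hper.sub_zsmul_eq (x := z) (round z)
    simpa using this.symm
  have h2 : |z - round z| ≤ 1 / 2 := abs_sub_round z
  rw [h1]
  rcases le_total 0 (z - round z) with h | h
  · rw [abs_of_nonneg h] at h2
    exact sArea_anti hw i le_rfl h h2
  · rw [abs_of_nonpos h] at h2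
    rw [← sArea_even hw i (z - round z)]
    exact sArea_anti hw i le_rfl (by linarith) h2

theorem cc_int_le {w : (Fin 3 → ℝ) → ℝ} (hw : SymN w) (i : Fin 3) :
    ∫ x in cell 3, w x ≤ sArea w i 0 := by
  rw [fubini_slice hw.smooth.continuous i]
  have hc : Continuous (sArea w i) := (sArea_contDiff hw.toNice i).continuous
  have h : ∫ z in (0:ℝ)..1, sArea w i z ≤ ∫ _z in (0:ℝ)..1, sArea w i 0 :=
    intervalIntegral.integral_mono_on zero_le_one (hc.intervalIntegrable _ _)
      intervalIntegrable_const fun z _ => cc_sArea_le hw i z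
  rw [intervalIntegral.integral_const, sub_zero, one_smul] at h
  exact h

/-- the slice at the wall is small -/
theorem cc_wall {w : (Fin 3 → ℝ) → ℝ} (hw : SymN w) {i j k : Fin 3} (hij : i ≠ j)
    (hjk : j ≠ k) (hik : i ≠ k) (h3 : w (pt i k 0.065) = 0) :
    sArea w i (1 / 2) ≤ 0.13 := by
  obtain ⟨a, b, ha, hb⟩ : ∃ a b : Fin 2, i.succAbove a = j ∧ i.succAbove b = k := by
    rcases cc_cases i j k hij hjk hik with h | h
    · exact ⟨0, 1, h⟩
    · exact ⟨1, 0, h.2, h.1⟩
  have hz : ∀ y : Fin 2 → ℝ, (0.065 : ℝ) ≤ y b → y b ≤ 1 - 0.065 → slice w i (1 / 2) y = 0 := by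
    intro y h4 h5
    refine cc_slice_zero hw hij hjk hik h3 ha hb (fun N => ?_) (fun N => ?_) (fun N => ?_)
    · rw [cc_pt1 hik, abs_of_nonneg (by norm_num)]
      exact cc_dist le_rfl (by norm_num) N
    · rw [cc_pt3 hij.symm hjk, abs_zero]
      exact abs_nonneg _
    · rw [cc_pt2, abs_of_nonneg (by norm_num)]
      exact cc_dist h4 h5 N
  set B : Fin 2 → Set ℝ := fun m => if m = b then Ico 0 0.065 ∪ Ico (1 - 0.065) 1 else Ico 0 1
    with hB
  set A : Set (Fin 2 → ℝ) := Set.pi Set.univ B with hA
  have hBm : ∀ m, MeasurableSet (B m) := by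
    intro m
    rw [hB]
    dsimp only
    split_ifs
    · exact measurableSet_Ico.union measurableSet_Ico
    · exact measurableSet_Ico
  have hAm : MeasurableSet A := MeasurableSet.univ_pi hBm
  have hvol : volume A ≤ ENNReal.ofReal 0.13 := by
    rw [hA, volume_pi_pi]
    have h1 : ∀ m, volume (B m) ≤ if m = b then ENNReal.ofReal 0.13 else 1 := by
      intro m
      rw [hB]
      dsimp only
      split_ifs with hm
      · refine (measure_union_le _ _).trans ?_
        rw [Real.volume_Ico, Real.volume_Ico, ← ENNReal.ofReal_add (by norm_num) (by norm_num)]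
        refine ENNReal.ofReal_le_ofReal (by norm_num)
      · rw [Real.volume_Ico]
        simp
    refine (Finset.prod_le_prod' fun m _ => h1 m).trans ?_
    rw [Finset.prod_ite_eq' Finset.univ b]
    simp
  have hle : ∀ y ∈ cell 2, slice w i (1 / 2) y ≤ A.indicator (fun _ => (1 : ℝ)) y := by
    intro y hy
    by_cases hyA : y ∈ A
    · rw [indicator_of_mem hyA]
      exact hw.le_one _
    · rw [indicator_of_notMem hyA]
      refine (hz y ?_ ?_).le
      · by_contra hcon
        apply hyA
        rw [hA, Set.mem_univ_pi]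
        intro m
        rw [hB]
        dsimp only
        split_ifs with hm
        · subst hm
          exact Or.inl ⟨(hy m trivial).1, not_le.mp hcon⟩
        · exact hy m trivial
      · by_contra hcon
        apply hyA
        rw [hA, Set.mem_univ_pi]
        intro m
        rw [hB]
        dsimp only
        split_ifs with hm
        · subst hm
          exact Or.inr ⟨(not_le.mp hcon).le, (hy m trivial).2⟩
        · exact hy m trivial
  have hci : IntegrableOn (slice w i (1 / 2)) (cell 2) :=
    e3_int (slice_nice hw.toNice i (1 / 2)).smooth.continuous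
  have hAi : IntegrableOn (A.indicator (fun _ => (1 : ℝ))) (cell 2) :=
    (integrable_const (1 : ℝ)).indicator hAm
  unfold sArea
  refine (setIntegral_mono_on hci hAi (sl_cell_meas 2) hle).trans ?_
  rw [integral_indicator hAm, integral_const, smul_eq_mul, mul_one]
  unfold Measure.real
  rw [Measure.restrict_restrict hAm, Measure.restrict_apply_univ]
  refine ENNReal.toReal_le_of_le_ofReal (by norm_num) ?_
  exact (measure_mono inter_subset_left).trans hvol

end Vale.Agent.P232
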