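import Vale.Agent.P232.SliceCommon

/-! # P232, module 2CC: continuity of the positive part of the ratio (helper21) -/

open MeasureTheory Set Filter Topology

namespace Vale.Agent.P232

theorem cc_I2_nonneg (a : ℝ) : 0 ≤ I2 a := by
  unfold I2
  exact le_min (le_min (Real.sqrt_nonneg _) zero_le_one) (Real.sqrt_nonneg _)

theorem cc_hq1 {α κ b c : ℝ} (hb : 0 ≤ b) (hc1 : c ≤ 1)
    (hl : ∀ a ∈ Set.Icc b c, α + κ * a ≤ I2 a) :
    ContinuousOn (fun a => max 0 ((α + κ * a) / I2 a)) (Set.Icc b c) := by
  have hge : ∀ a ∈ Set.Icc b c, Real.sqrt (a * (1 - a)) ≤ I2 a := fun a ha =>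
    I2_ge (hb.trans ha.1) (ha.2.trans hc1)
  have hI0 : I2 0 = 0 := by unfold I2; simp
  have hI1 : I2 1 = 0 := by unfold I2; simp
  -- where the line is negative
  have hneg : ∀ a ∈ Set.Icc b c, α + κ * a < 0 →
      ContinuousWithinAt (fun a => max 0 ((α + κ * a) / I2 a)) (Set.Icc b c) a := by
    intro a _ ha
    have hcont : ContinuousAt (fun x : ℝ => α + κ * x) a := by fun_prop
    have hev : ∀ᶠ x in 𝓝[Set.Icc b c] a, α + κ * x < 0 :=
      nhdsWithin_le_nhds (hcont.eventually_lt continuousAt_const ha)
    have hval : ∀ x, α + κ * x < 0 → max 0 ((α + κ * x) / I2 x) = 0 := fun x hx =>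
      max_eq_left (div_nonpos_of_nonpos_of_nonneg hx.le (cc_I2_nonneg x))
    refine (continuousWithinAt_const (b := (0 : ℝ))).congr_of_eventuallyEq ?_ (hval a ha)
    filter_upwards [hev] with x hx
    exact hval x hx
  intro a ha
  have ha0 : 0 ≤ a := hb.trans ha.1
  have ha1 : a ≤ 1 := ha.2.trans hc1
  rcases ha0.eq_or_lt with rfl | hap
  · have e2 := hl 0 ha
    rw [hI0, mul_zero, add_zero] at e2
    rcases e2.lt_or_eq with h | rfl
    · exact hneg 0 ha (by rw [mul_zero, add_zero]; exact h)
    · exact continuousWithinAt_const.max (sl_q_zero hb hc1 hge hI0)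
  rcases ha1.eq_or_lt with rfl | ha1'
  · have e2 := hl 1 ha
    rw [hI1] at e2
    rcases e2.lt_or_eq with h | h
    · exact hneg 1 ha h
    · have hα : α = -κ := by
        rw [mul_one] at h
        linarith
      have hz := sl_q_zero (Iso := fun a => I2 (1 - a)) (κ := -κ) (b := 1 - c) (c := 1 - b)
        (by linarith) (by linarith) (fun a ha => by
          have := hge (1 - a) ⟨by linarith [ha.2], by linarith [ha.1]⟩
          have e : (1 - a) * (1 - (1 - a)) = a * (1 - a) := by ring
          rwa [e] at this) (by simpa using hI1)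
      have hmap : MapsTo (fun a : ℝ => 1 - a) (Set.Icc b c) (Set.Icc (1 - c) (1 - b)) :=
        fun a ha => ⟨by linarith [ha.2], by linarith [ha.1]⟩
      have hg : ContinuousWithinAt (fun a : ℝ => 1 - a) (Set.Icc b c) 1 := by
        apply Continuous.continuousWithinAt
        fun_prop
      have hz' : ContinuousWithinAt (fun a => (0 + -κ * a) / I2 (1 - a))
          (Set.Icc (1 - c) (1 - b)) ((fun a : ℝ => 1 - a) 1) := by
        simpa using hz
      have hcomp := ContinuousWithinAt.comp hz' hg hmap
      refine continuousWithinAt_const.max (hcomp.congr (fun a _ => ?_) ?_)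
      · simp only [Function.comp]
        rw [hα]
        congr 1
        · ring
        · congr 1; ring
      · simp only [Function.comp]
        rw [hα]
        congr 1
        · ring
        · congr 1; ring
  · have hpos : 0 < I2 a :=
      (Real.sqrt_pos.2 (mul_pos hap (by linarith))).trans_le (hge a ha)
    refine ContinuousAt.continuousWithinAt (continuousAt_const.max
      (ContinuousAt.div ?_ I2_cont.continuousAt hpos.ne'))
    fun_prop

end Vale.Agent.P232
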