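import Vale.Agent.P232.Crossing

/-!
# P232, module C3v: all vertical (horizontal) lines cross a strip of levels
-/

open MeasureTheory Set

namespace Vale.Agent.P232

namespace CrossVH

theorem cell_two (F : (Fin 2 → ℝ) → ℝ) :
    ∫ z in cell 2, F z = ∫ w in (Ico (0 : ℝ) 1) ×ˢ (Ico (0 : ℝ) 1), F ![w.1, w.2] := by
  have h := (MeasureTheory.volume_preserving_finTwoArrow ℝ).setIntegral_preimage_emb
    (MeasurableEquiv.finTwoArrow (α := ℝ)).measurableEmbedding
    (fun w : ℝ × ℝ => F ![w.1, w.2]) ((Ico (0 : ℝ) 1) ×ˢ (Ico (0 : ℝ) 1))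
  have h1 : (MeasurableEquiv.finTwoArrow (α := ℝ)) ⁻¹' ((Ico (0 : ℝ) 1) ×ˢ (Ico (0 : ℝ) 1))
      = cell 2 := by
    ext z
    simp [cell, MeasurableEquiv.finTwoArrow, Fin.forall_fin_two]
  rw [h1] at h
  rw [← h]
  refine integral_congr_ae (Filter.Eventually.of_forall fun z => ?_)
  simp only []
  congr 1
  ext i
  fin_cases i <;> rfl

theorem gradN_cont {g : (Fin 2 → ℝ) → ℝ} (hg : ContDiff ℝ 1 g) : Continuous (gradN g) := by
  unfold gradN
  have h := hg.continuous_fderiv one_ne_zero
  fun_prop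

theorem abs_le_gradN (g : (Fin 2 → ℝ) → ℝ) (x : Fin 2 → ℝ) (i : Fin 2) :
    |fderiv ℝ g x (Pi.single i 1)| ≤ gradN g x := by
  unfold gradN
  rw [← Real.sqrt_sq_eq_abs]
  refine Real.sqrt_le_sqrt ?_
  exact Finset.single_le_sum (f := fun i => (fderiv ℝ g x (Pi.single i 1)) ^ 2)
    (fun _ _ => sq_nonneg _) (Finset.mem_univ i)

theorem pair_cont : Continuous (fun w : ℝ × ℝ => (![w.1, w.2] : Fin 2 → ℝ)) := by
  refine continuous_pi fun i => ?_
  fin_cases i
  · exact continuous_fst
  · exact continuous_snd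

theorem vert_deriv {g : (Fin 2 → ℝ) → ℝ} (hg : ContDiff ℝ 1 g) (x y : ℝ) :
    HasDerivAt (fun t => g ![x, t]) (fderiv ℝ g ![x, y] (Pi.single 1 1)) y := by
  have h1 : HasDerivAt (fun t : ℝ => (![x, t] : Fin 2 → ℝ)) (Pi.single 1 1) y := by
    rw [hasDerivAt_pi]
    intro i
    fin_cases i
    · simpa using hasDerivAt_const y x
    · simpa using hasDerivAt_id' y
  exact ((hg.differentiable one_ne_zero).differentiableAt (x := ![x, y])).hasFDerivAt.comp_hasDerivAt
    y h1

theorem horiz_deriv {g : (Fin 2 → ℝ) → ℝ} (hg : ContDiff ℝ 1 g) (x y : ℝ) :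
    HasDerivAt (fun t => g ![t, y]) (fderiv ℝ g ![x, y] (Pi.single 0 1)) x := by
  have h1 : HasDerivAt (fun t : ℝ => (![t, y] : Fin 2 → ℝ)) (Pi.single 0 1) x := by
    rw [hasDerivAt_pi]
    intro i
    fin_cases i
    · simpa using hasDerivAt_id' x
    · simpa using hasDerivAt_const x y
  exact ((hg.differentiable one_ne_zero).differentiableAt (x := ![x, y])).hasFDerivAt.comp_hasDerivAt
    x h1

theorem per_vert {g : (Fin 2 → ℝ) → ℝ} (hg : IsPer g) (x y : ℝ) : g ![x, y + 1] = g ![x, y] := by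
  have := hg ![x, y] ![0, 1]
  rw [← this]
  congr 1
  ext i
  fin_cases i <;> simp

theorem per_horiz {g : (Fin 2 → ℝ) → ℝ} (hg : IsPer g) (x y : ℝ) : g ![x + 1, y] = g ![x, y] := by
  have := hg ![x, y] ![1, 0]
  rw [← this]
  congr 1
  ext i
  fin_cases i <;> simp

/-- the integral over the strip, as an integral of an indicator over the square -/
theorem strip_eq {g : (Fin 2 → ℝ) → ℝ} (hg : Nice g) (p r : ℝ) :
    ∫ x in cell 2 ∩ {x | p < g x ∧ g x < r}, gradN g x
      = ∫ w in (Ico (0 : ℝ) 1) ×ˢ (Ico (0 : ℝ) 1),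
          ({w : ℝ × ℝ | p < g ![w.1, w.2] ∧ g ![w.1, w.2] < r}.indicator
            (fun w => gradN g ![w.1, w.2])) w := by
  have hm : MeasurableSet {x : Fin 2 → ℝ | p < g x ∧ g x < r} :=
    ((isOpen_lt continuous_const hg.smooth.continuous).inter
      (isOpen_lt hg.smooth.continuous continuous_const)).measurableSet
  rw [← setIntegral_indicator hm, cell_two]
  refine integral_congr_ae (Filter.Eventually.of_forall fun w => ?_)
  show {x | p < g x ∧ g x < r}.indicator (gradN g) ![w.1, w.2] = _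
  by_cases hw : p < g ![w.1, w.2] ∧ g ![w.1, w.2] < r
  · rw [Set.indicator_of_mem (by exact hw), Set.indicator_of_mem (by exact hw)]
  · rw [Set.indicator_of_notMem (by exact hw), Set.indicator_of_notMem (by exact hw)]

theorem strip_int {g : (Fin 2 → ℝ) → ℝ} (hg : Nice g) (p r : ℝ) :
    IntegrableOn ({w : ℝ × ℝ | p < g ![w.1, w.2] ∧ g ![w.1, w.2] < r}.indicator
            (fun w => gradN g ![w.1, w.2])) ((Ico (0 : ℝ) 1) ×ˢ (Ico (0 : ℝ) 1)) := by
  have hc : Continuous (fun w : ℝ × ℝ => g ![w.1, w.2]) := hg.smooth.continuous.comp pair_cont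
  have hm : MeasurableSet {w : ℝ × ℝ | p < g ![w.1, w.2] ∧ g ![w.1, w.2] < r} :=
    ((isOpen_lt continuous_const hc).inter (isOpen_lt hc continuous_const)).measurableSet
  refine IntegrableOn.indicator ?_ hm
  have hG : Continuous (fun w : ℝ × ℝ => gradN g ![w.1, w.2]) :=
    (gradN_cont hg.smooth).comp pair_cont
  refine (hG.continuousOn.integrableOn_compact (K := (Icc (0 : ℝ) 1) ×ˢ (Icc (0 : ℝ) 1))
    (isCompact_Icc.prod isCompact_Icc)).mono_set ?_
  exact Set.prod_mono Ico_subset_Icc_self Ico_subset_Icc_self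

end CrossVH

open CrossVH

theorem cross_vert {g : (Fin 2 → ℝ) → ℝ} (hg : Nice g) {p r : ℝ} (hpr : p ≤ r)
    (h1 : ∀ x, ∃ y, g ![x, y] ≤ p) (h2 : ∀ x, ∃ y, r ≤ g ![x, y]) :
    r - p ≤ (1 / 2) * ∫ x in cell 2 ∩ {x | p < g x ∧ g x < r}, gradN g x := by
  have hint := strip_int hg p r
  rw [strip_eq hg]
  have hint' := hint
  unfold IntegrableOn at hint'
  rw [Measure.volume_eq_prod, ← Measure.prod_restrict] at hint'
  rw [Measure.volume_eq_prod, ← Measure.prod_restrict, integral_prod _ hint']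
  have key : ∀ x : ℝ, 2 * (r - p) ≤ ∫ y in Ico (0 : ℝ) 1,
      ({w : ℝ × ℝ | p < g ![w.1, w.2] ∧ g ![w.1, w.2] < r}.indicator
            (fun w => gradN g ![w.1, w.2])) (x, y) := by
    intro x
    obtain ⟨y₁, hy₁⟩ := h1 x
    obtain ⟨y₂, hy₂⟩ := h2 x
    have hu : ContDiff ℝ 1 (fun t => g ![x, t]) := by
      refine hg.smooth.comp ?_
      rw [contDiff_pi]
      intro i
      fin_cases i
      · exact contDiff_const
      · exact contDiff_id
    have hc := crossing hu (fun y => per_vert hg.per x y) hpr hy₁ hy₂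
    refine hc.trans ?_
    have hm : MeasurableSet {y : ℝ | p < g ![x, y] ∧ g ![x, y] < r} :=
      ((isOpen_lt continuous_const hu.continuous).inter
        (isOpen_lt hu.continuous continuous_const)).measurableSet
    rw [← setIntegral_indicator hm]
    have hG : Continuous (fun y : ℝ => gradN g ![x, y]) :=
      (gradN_cont hg.smooth).comp (pair_cont.comp (Continuous.prodMk_right x))
    have hD : Continuous (deriv (fun t => g ![x, t])) := hu.continuous_deriv le_rfl
    refine setIntegral_mono ?_ ?_ ?_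
    · refine IntegrableOn.indicator ?_ hm
      exact (hD.abs.continuousOn.integrableOn_compact isCompact_Icc).mono_set Ico_subset_Icc_self
    · have : (fun y : ℝ => ({w : ℝ × ℝ | p < g ![w.1, w.2] ∧ g ![w.1, w.2] < r}.indicator
            (fun w => gradN g ![w.1, w.2])) (x, y))
          = {y : ℝ | p < g ![x, y] ∧ g ![x, y] < r}.indicator (fun y => gradN g ![x, y]) := by
        ext y; simp only [Set.indicator, Set.mem_ofPred_eq]
      rw [this]
      refine IntegrableOn.indicator ?_ hm
      exact (hG.continuousOn.integrableOn_compact isCompact_Icc).mono_set Ico_subset_Icc_self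
    · intro y
      simp only [Set.indicator, Set.mem_ofPred_eq]
      split_ifs
      · rw [(vert_deriv hg.smooth x y).deriv]
        exact abs_le_gradN g _ 1
      · exact le_rfl
  have h3 : ∫ x in Ico (0 : ℝ) 1, (2 * (r - p)) ≤ ∫ x in Ico (0 : ℝ) 1, ∫ y in Ico (0 : ℝ) 1,
      ({w : ℝ × ℝ | p < g ![w.1, w.2] ∧ g ![w.1, w.2] < r}.indicator
            (fun w => gradN g ![w.1, w.2])) (x, y) := by
    refine integral_mono ?_ hint'.integral_prod_left key
    exact integrable_const _
  rw [integral_const] at h3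
  simp at h3
  linarith

theorem cross_horiz {g : (Fin 2 → ℝ) → ℝ} (hg : Nice g) {p r : ℝ} (hpr : p ≤ r)
    (h1 : ∀ y, ∃ x, g ![x, y] ≤ p) (h2 : ∀ y, ∃ x, r ≤ g ![x, y]) :
    r - p ≤ (1 / 2) * ∫ x in cell 2 ∩ {x | p < g x ∧ g x < r}, gradN g x := by
  have hint := strip_int hg p r
  rw [strip_eq hg]
  have hint' := hint
  unfold IntegrableOn at hint'
  rw [Measure.volume_eq_prod, ← Measure.prod_restrict] at hint'
  rw [Measure.volume_eq_prod, ← Measure.prod_restrict, integral_prod_symm _ hint']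
  have key : ∀ y : ℝ, 2 * (r - p) ≤ ∫ x in Ico (0 : ℝ) 1,
      ({w : ℝ × ℝ | p < g ![w.1, w.2] ∧ g ![w.1, w.2] < r}.indicator
            (fun w => gradN g ![w.1, w.2])) (x, y) := by
    intro y
    obtain ⟨y₁, hy₁⟩ := h1 y
    obtain ⟨y₂, hy₂⟩ := h2 y
    have hu : ContDiff ℝ 1 (fun t => g ![t, y]) := by
      refine hg.smooth.comp ?_
      rw [contDiff_pi]
      intro i
      fin_cases i
      · exact contDiff_id
      · exact contDiff_const
    have hc := crossing hu (fun x => per_horiz hg.per x y) hpr hy₁ hy₂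
    refine hc.trans ?_
    have hm : MeasurableSet {x : ℝ | p < g ![x, y] ∧ g ![x, y] < r} :=
      ((isOpen_lt continuous_const hu.continuous).inter
        (isOpen_lt hu.continuous continuous_const)).measurableSet
    rw [← setIntegral_indicator hm]
    have hG : Continuous (fun x : ℝ => gradN g ![x, y]) :=
      (gradN_cont hg.smooth).comp (pair_cont.comp (Continuous.prodMk_left y))
    have hD : Continuous (deriv (fun t => g ![t, y])) := hu.continuous_deriv le_rfl
    refine setIntegral_mono ?_ ?_ ?_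
    · refine IntegrableOn.indicator ?_ hm
      exact (hD.abs.continuousOn.integrableOn_compact isCompact_Icc).mono_set Ico_subset_Icc_self
    · have : (fun x : ℝ => ({w : ℝ × ℝ | p < g ![w.1, w.2] ∧ g ![w.1, w.2] < r}.indicator
            (fun w => gradN g ![w.1, w.2])) (x, y))
          = {x : ℝ | p < g ![x, y] ∧ g ![x, y] < r}.indicator (fun x => gradN g ![x, y]) := by
        ext x; simp only [Set.indicator, Set.mem_ofPred_eq]
      rw [this]
      refine IntegrableOn.indicator ?_ hm
      exact (hG.continuousOn.integrableOn_compact isCompact_Icc).mono_set Ico_subset_Icc_self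
    · intro x
      simp only [Set.indicator, Set.mem_ofPred_eq]
      split_ifs
      · rw [(horiz_deriv hg.smooth x y).deriv]
        exact abs_le_gradN g _ 0
      · exact le_rfl
  have h3 : ∫ y in Ico (0 : ℝ) 1, (2 * (r - p)) ≤ ∫ y in Ico (0 : ℝ) 1, ∫ x in Ico (0 : ℝ) 1,
      ({w : ℝ × ℝ | p < g ![w.1, w.2] ∧ g ![w.1, w.2] < r}.indicator
            (fun w => gradN g ![w.1, w.2])) (x, y) := by
    refine integral_mono ?_ hint'.integral_prod_right key
    exact integrable_const _
  rw [integral_const] at h3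
  simp at h3
  linarith

end Vale.Agent.P232
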