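import Vale.Agent.P232.Defs2
import Vale.Agent.P232.CrossVH

/-!
# P232, module 2CALD: the diagonal calibration of a region with two thin arms
-/

open MeasureTheory Set

namespace Vale.Agent.P232

open CrossVH

private theorem cd_int {g : (Fin 2 → ℝ) → ℝ} (hg : Nice g) (p r : ℝ) (i : Fin 2) :
    IntegrableOn ({w : ℝ × ℝ | p < g ![w.1, w.2] ∧ g ![w.1, w.2] < r}.indicator
            (fun w => |fderiv ℝ g ![w.1, w.2] (Pi.single i 1)|))
              ((Ico (0 : ℝ) 1) ×ˢ (Ico (0 : ℝ) 1)) := by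
  have hc : Continuous (fun w : ℝ × ℝ => g ![w.1, w.2]) := hg.smooth.continuous.comp pair_cont
  have hm : MeasurableSet {w : ℝ × ℝ | p < g ![w.1, w.2] ∧ g ![w.1, w.2] < r} :=
    ((isOpen_lt continuous_const hc).inter (isOpen_lt hc continuous_const)).measurableSet
  refine IntegrableOn.indicator ?_ hm
  have hD : Continuous (fderiv ℝ g) := hg.smooth.continuous_fderiv one_ne_zero
  have hG : Continuous (fun w : ℝ × ℝ => |fderiv ℝ g ![w.1, w.2] (Pi.single i 1)|) :=
    ((hD.comp pair_cont).clm_apply continuous_const).abs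
  refine (hG.continuousOn.integrableOn_compact (K := (Icc (0 : ℝ) 1) ×ˢ (Icc (0 : ℝ) 1))
    (isCompact_Icc.prod isCompact_Icc)).mono_set ?_
  exact Set.prod_mono Ico_subset_Icc_self Ico_subset_Icc_self

private theorem cd_low {c a b : ℝ} (ha : 0 ≤ a) (hab : a ≤ b) (hb : b ≤ 1) {F : ℝ → ℝ}
    (hF : IntegrableOn F (Ico (0 : ℝ) 1)) (hF0 : ∀ y, 0 ≤ F y)
    (hFc : ∀ y, a < y → y < b → c ≤ F y) :
    c * (b - a) ≤ ∫ y in Ico (0 : ℝ) 1, F y := by
  have hsub : Ioo a b ⊆ Ico (0 : ℝ) 1 := fun y hy => ⟨ha.trans hy.1.le, hy.2.trans_le hb⟩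
  have h1 : ∫ y in Ioo a b, c ≤ ∫ y in Ioo a b, F y := by
    refine setIntegral_mono_on (integrableOn_const (by simp)) (hF.mono_set hsub)
      measurableSet_Ioo fun y hy => hFc y hy.1 hy.2
  have h2 : ∫ y in Ioo a b, F y ≤ ∫ y in Ico (0 : ℝ) 1, F y :=
    setIntegral_mono_set hF (Filter.Eventually.of_forall fun y => hF0 y)
      (Filter.Eventually.of_forall hsub)
  rw [setIntegral_const] at h1
  have h3 : (volume : Measure ℝ).real (Ioo a b) = b - a := by
    rw [Measure.real, Real.volume_Ioo, ENNReal.toReal_ofReal (by linarith)]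
  rw [h3, smul_eq_mul] at h1
  linarith

private theorem cd_vert {g : (Fin 2 → ℝ) → ℝ} (hg : Nice g) {r a b : ℝ} (hr : 0 ≤ r)
    (ha : 0 ≤ a) (hab : a ≤ b) (hb : b ≤ 1)
    (h1 : ∀ x, a < x → x < b → ∃ y, g ![x, y] ≤ 0)
    (h2 : ∀ x, a < x → x < b → ∃ y, r ≤ g ![x, y]) :
    2 * r * (b - a) ≤ ∫ w in (Ico (0 : ℝ) 1) ×ˢ (Ico (0 : ℝ) 1),
          ({w : ℝ × ℝ | 0 < g ![w.1, w.2] ∧ g ![w.1, w.2] < r}.indicator
            (fun w => |fderiv ℝ g ![w.1, w.2] (Pi.single 1 1)|)) w := by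
  have hint := cd_int hg 0 r 1
  have hint' := hint
  unfold IntegrableOn at hint'
  rw [Measure.volume_eq_prod, ← Measure.prod_restrict] at hint'
  rw [Measure.volume_eq_prod, ← Measure.prod_restrict, integral_prod _ hint']
  refine cd_low ha hab hb hint'.integral_prod_left ?_ ?_
  · intro x
    refine integral_nonneg fun y => ?_
    exact Set.indicator_nonneg (fun _ _ => abs_nonneg _) _
  · intro x hxa hxb
    obtain ⟨y₁, hy₁⟩ := h1 x hxa hxb
    obtain ⟨y₂, hy₂⟩ := h2 x hxa hxb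
    have hu : ContDiff ℝ 1 (fun t => g ![x, t]) := by
      refine hg.smooth.comp ?_
      rw [contDiff_pi]
      intro i
      fin_cases i
      · exact contDiff_const
      · exact contDiff_id
    have hc := crossing hu (fun y => per_vert hg.per x y) hr hy₁ hy₂
    rw [sub_zero] at hc
    refine hc.trans (le_of_eq ?_)
    have hm : MeasurableSet {y : ℝ | 0 < g ![x, y] ∧ g ![x, y] < r} :=
      ((isOpen_lt continuous_const hu.continuous).inter
        (isOpen_lt hu.continuous continuous_const)).measurableSet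
    rw [← setIntegral_indicator hm]
    refine integral_congr_ae (Filter.Eventually.of_forall fun y => ?_)
    simp only [Set.indicator, Set.mem_ofPred_eq]
    split_ifs
    · rw [(vert_deriv hg.smooth x y).deriv]
    · rfl

private theorem cd_horiz {g : (Fin 2 → ℝ) → ℝ} (hg : Nice g) {r a b : ℝ} (hr : 0 ≤ r)
    (ha : 0 ≤ a) (hab : a ≤ b) (hb : b ≤ 1)
    (h1 : ∀ y, a < y → y < b → ∃ x, g ![x, y] ≤ 0)
    (h2 : ∀ y, a < y → y < b → ∃ x, r ≤ g ![x, y]) :
    2 * r * (b - a) ≤ ∫ w in (Ico (0 : ℝ) 1) ×ˢ (Ico (0 : ℝ) 1),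
          ({w : ℝ × ℝ | 0 < g ![w.1, w.2] ∧ g ![w.1, w.2] < r}.indicator
            (fun w => |fderiv ℝ g ![w.1, w.2] (Pi.single 0 1)|)) w := by
  have hint := cd_int hg 0 r 0
  have hint' := hint
  unfold IntegrableOn at hint'
  rw [Measure.volume_eq_prod, ← Measure.prod_restrict] at hint'
  rw [Measure.volume_eq_prod, ← Measure.prod_restrict, integral_prod_symm _ hint']
  refine cd_low ha hab hb hint'.integral_prod_right ?_ ?_
  · intro x
    refine integral_nonneg fun y => ?_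
    exact Set.indicator_nonneg (fun _ _ => abs_nonneg _) _
  · intro y hya hyb
    obtain ⟨x₁, hx₁⟩ := h1 y hya hyb
    obtain ⟨x₂, hx₂⟩ := h2 y hya hyb
    have hu : ContDiff ℝ 1 (fun t => g ![t, y]) := by
      refine hg.smooth.comp ?_
      rw [contDiff_pi]
      intro i
      fin_cases i
      · exact contDiff_id
      · exact contDiff_const
    have hc := crossing hu (fun x => per_horiz hg.per x y) hr hx₁ hx₂
    rw [sub_zero] at hc
    refine hc.trans (le_of_eq ?_)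
    have hm : MeasurableSet {x : ℝ | 0 < g ![x, y] ∧ g ![x, y] < r} :=
      ((isOpen_lt continuous_const hu.continuous).inter
        (isOpen_lt hu.continuous continuous_const)).measurableSet
    rw [← setIntegral_indicator hm]
    refine integral_congr_ae (Filter.Eventually.of_forall fun x => ?_)
    simp only [Set.indicator, Set.mem_ofPred_eq]
    split_ifs
    · rw [(horiz_deriv hg.smooth x y).deriv]
    · rfl

private theorem cd_grad (g : (Fin 2 → ℝ) → ℝ) (x : Fin 2 → ℝ) :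
    |fderiv ℝ g x (Pi.single 0 1)| + |fderiv ℝ g x (Pi.single 1 1)|
      ≤ Real.sqrt 2 * gradN g x := by
  unfold gradN
  rw [← Real.sqrt_mul (by norm_num), Fin.sum_univ_two]
  refine Real.le_sqrt_of_sq_le ?_
  have := sq_abs (fderiv ℝ g x (Pi.single 0 1))
  have := sq_abs (fderiv ℝ g x (Pi.single 1 1))
  nlinarith [sq_nonneg (|fderiv ℝ g x (Pi.single 0 1)| - |fderiv ℝ g x (Pi.single 1 1)|)]

private theorem cd_update0 (x y z : ℝ) : Function.update (![x, y] : Fin 2 → ℝ) 0 z = ![z, y] := by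
  ext i; fin_cases i <;> rfl

private theorem cd_update1 (x y z : ℝ) : Function.update (![x, y] : Fin 2 → ℝ) 1 z = ![x, z] := by
  ext i; fin_cases i <;> rfl

theorem cal_diag {h : (Fin 2 → ℝ) → ℝ} (hh : SymN h) {r T : ℝ} (hr0 : 0 ≤ r)
    (hT0 : 0 ≤ T) (hT1 : T ≤ 1) (h1 : r ≤ h ![1 / 2, 0]) (h2 : r ≤ h ![0, 1 / 2])
    (ht1 : ∀ t, T / 2 < t → t ≤ 1 / 2 → h ![1 / 2, t] = 0)
    (ht2 : ∀ t, T / 2 < t → t ≤ 1 / 2 → h ![t, 1 / 2] = 0) :
    Real.sqrt 2 * (1 - T) * r ≤ (1 / 2) * ∫ x in cell 2 ∩ {x | h x < r}, gradN h x := by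
  have hg : Nice h := hh.toNice
  have e0 : ∀ x y, h ![-x, y] = h ![x, y] := by
    intro x y
    have := hh.even ![x, y] 0
    rw [cd_update0] at this
    exact this
  have e1 : ∀ x y, h ![x, -y] = h ![x, y] := by
    intro x y
    have := hh.even ![x, y] 1
    rw [cd_update1] at this
    exact this
  have a0 : ∀ x s y, 0 ≤ s → s ≤ x → x ≤ 1 / 2 → h ![x, y] ≤ h ![s, y] := by
    intro x s y h0 hs hx
    have := hh.anti ![0, y] 0 s x h0 hs hx
    rwa [cd_update0, cd_update0] at this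
  have a1 : ∀ x s y, 0 ≤ s → s ≤ y → y ≤ 1 / 2 → h ![x, y] ≤ h ![x, s] := by
    intro x s y h0 hs hy
    have := hh.anti ![x, 0] 1 s y h0 hs hy
    rwa [cd_update1, cd_update1] at this
  -- reflection
  have r1 : ∀ x y, h ![x, y] = h ![x, 1 - y] := by
    intro x y
    rw [← e1 x y, ← per_vert hg.per x (-y), show -y + 1 = 1 - y by ring]
  have r0 : ∀ x y, h ![x, y] = h ![1 - x, y] := by
    intro x y
    rw [← e0 x y, ← per_horiz hg.per (-x) y, show -x + 1 = 1 - x by ring]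
  have z1 : ∀ y, T / 2 < y → y < 1 - T / 2 → h ![1 / 2, y] = 0 := by
    intro y hy1 hy2
    rcases le_total y (1 / 2) with hy | hy
    · exact ht1 y hy1 hy
    · rw [r1]; exact ht1 (1 - y) (by linarith) (by linarith)
  have z0 : ∀ x, T / 2 < x → x < 1 - T / 2 → h ![x, 1 / 2] = 0 := by
    intro x hx1 hx2
    rcases le_total x (1 / 2) with hx | hx
    · exact ht2 x hx1 hx
    · rw [r0]; exact ht2 (1 - x) (by linarith) (by linarith)
  have u1 : ∀ y, T / 2 < y → y < 1 - T / 2 → r ≤ h ![0, y] := by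
    intro y hy1 hy2
    rcases le_total y (1 / 2) with hy | hy
    · exact h2.trans (a1 0 y (1 / 2) (by linarith) hy le_rfl)
    · rw [r1]; exact h2.trans (a1 0 (1 - y) (1 / 2) (by linarith) (by linarith) le_rfl)
  have u0 : ∀ x, T / 2 < x → x < 1 - T / 2 → r ≤ h ![x, 0] := by
    intro x hx1 hx2
    rcases le_total x (1 / 2) with hx | hx
    · exact h1.trans (a0 (1 / 2) x 0 (by linarith) hx le_rfl)
    · rw [r0]; exact h1.trans (a0 (1 / 2) (1 - x) 0 (by linarith) (by linarith) le_rfl)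
  have H := cd_horiz hg hr0 (a := T / 2) (b := 1 - T / 2) (by linarith) (by linarith)
    (by linarith) (fun y hy1 hy2 => ⟨1 / 2, (z1 y hy1 hy2).le⟩) (fun y hy1 hy2 => ⟨0, u1 y hy1 hy2⟩)
  have V := cd_vert hg hr0 (a := T / 2) (b := 1 - T / 2) (by linarith) (by linarith)
    (by linarith) (fun x hx1 hx2 => ⟨1 / 2, (z0 x hx1 hx2).le⟩) (fun x hx1 hx2 => ⟨0, u0 x hx1 hx2⟩)
  have S : (∫ w in (Ico (0 : ℝ) 1) ×ˢ (Ico (0 : ℝ) 1),
          ({w : ℝ × ℝ | 0 < h ![w.1, w.2] ∧ h ![w.1, w.2] < r}.indicator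
            (fun w => |fderiv ℝ h ![w.1, w.2] (Pi.single 0 1)|)) w)
      + (∫ w in (Ico (0 : ℝ) 1) ×ˢ (Ico (0 : ℝ) 1),
          ({w : ℝ × ℝ | 0 < h ![w.1, w.2] ∧ h ![w.1, w.2] < r}.indicator
            (fun w => |fderiv ℝ h ![w.1, w.2] (Pi.single 1 1)|)) w)
      ≤ Real.sqrt 2 * ∫ x in cell 2 ∩ {x | 0 < h x ∧ h x < r}, gradN h x := by
    rw [strip_eq hg, ← integral_const_mul, ← integral_add (cd_int hg 0 r 0) (cd_int hg 0 r 1)]
    refine integral_mono ((cd_int hg 0 r 0).add (cd_int hg 0 r 1))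
      ((strip_int hg 0 r).const_mul _) fun w => ?_
    simp only [Set.indicator, Set.mem_ofPred_eq]
    split_ifs
    · exact cd_grad h _
    · simp
  have hgn : ∀ x, 0 ≤ gradN h x := fun x => (abs_nonneg _).trans (abs_le_gradN h x 0)
  have M : ∫ x in cell 2 ∩ {x | 0 < h x ∧ h x < r}, gradN h x
      ≤ ∫ x in cell 2 ∩ {x | h x < r}, gradN h x := by
    refine setIntegral_mono_set ?_ (Filter.Eventually.of_forall hgn)
      (Filter.Eventually.of_forall fun x hx => ⟨hx.1, hx.2.2⟩)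
    have hK : IsCompact (Set.pi Set.univ fun _ : Fin 2 => Icc (0 : ℝ) 1) :=
      isCompact_univ_pi fun _ => isCompact_Icc
    refine ((gradN_cont hg.smooth).continuousOn.integrableOn_compact hK).mono_set ?_
    intro x hx i _
    have h3 := hx.1 i (Set.mem_univ i)
    exact ⟨h3.1, h3.2.le⟩
  have hs : Real.sqrt 2 * Real.sqrt 2 = 2 := Real.mul_self_sqrt (by norm_num)
  have hs0 : 0 < Real.sqrt 2 := Real.sqrt_pos.mpr (by norm_num)
  have h4 : 4 * r * (1 - T) ≤ Real.sqrt 2 * ∫ x in cell 2 ∩ {x | h x < r}, gradN h x := by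
    have := mul_le_mul_of_nonneg_left M hs0.le
    linarith
  have h5 : Real.sqrt 2 * (Real.sqrt 2 * (1 - T) * r)
      ≤ Real.sqrt 2 * ((1 / 2) * ∫ x in cell 2 ∩ {x | h x < r}, gradN h x) := by
    have e5 : Real.sqrt 2 * (Real.sqrt 2 * (1 - T) * r)
        = (Real.sqrt 2 * Real.sqrt 2) * ((1 - T) * r) := by ring
    have e6 : Real.sqrt 2 * ((1 / 2) * ∫ x in cell 2 ∩ {x | h x < r}, gradN h x)
        = (Real.sqrt 2 * ∫ x in cell 2 ∩ {x | h x < r}, gradN h x) / 2 := by ring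
    rw [e5, e6, hs]
    linarith
  exact le_of_mul_le_mul_left h5 hs0

end Vale.Agent.P232
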