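import Vale.Agent.P232.Defs2
import Vale.Agent.P232.CrossVH
import Vale.Agent.P232.Fubini

/-!
# P232, wave 2, module CAL1 (helper25)
-/

open MeasureTheory Set

namespace Vale.Agent.P232

namespace CalOne

/-- truncation of the value -/
noncomputable def cl (p r y : ℝ) : ℝ := max p (min y r)

theorem cl_cont (p r : ℝ) : Continuous (cl p r) := by
  unfold cl
  fun_prop

theorem cl_top {p r y : ℝ} (hpr : p ≤ r) (hy : r ≤ y) : cl p r y = r := by
  unfold cl
  rw [min_eq_right hy, max_eq_right hpr]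

theorem cl_bot {p r y : ℝ} (hy : y ≤ p) : cl p r y = p := by
  unfold cl
  exact max_eq_left ((min_le_left _ _).trans hy)

theorem cl_mid {p r y : ℝ} (h1 : p ≤ y) (h2 : y ≤ r) : cl p r y = y := by
  unfold cl
  rw [min_eq_left h2, max_eq_right h1]

theorem cl_ge (p r y : ℝ) : p ≤ cl p r y := le_max_left _ _

theorem cl_le {p r y : ℝ} (hpr : p ≤ r) : cl p r y ≤ r := max_le hpr (min_le_right _ _)

theorem ind_int {u : ℝ → ℝ} (hu : Continuous u) (p r a b : ℝ) {g : ℝ → ℝ} (hg : Continuous g) :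
    IntervalIntegrable ({x : ℝ | p < u x ∧ u x < r}.indicator g) volume a b := by
  have h := hg.intervalIntegrable (μ := volume) a b
  rw [intervalIntegrable_iff] at h ⊢
  exact h.indicator ((isOpen_lt continuous_const hu).inter
    (isOpen_lt hu continuous_const)).measurableSet

/-- the level is crossed once by an antitone function -/
theorem split {u : ℝ → ℝ} (hu : Continuous u) (ha : AntitoneOn u (Icc 0 (1 / 2))) (r : ℝ) :
    ∃ α ∈ Icc (0 : ℝ) (1 / 2), (α = 0 ∨ ∀ x ∈ Icc 0 α, r ≤ u x) ∧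
      (α = 1 / 2 ∨ ∀ x ∈ Icc α (1 / 2), u x ≤ r) := by
  have h0 : (0 : ℝ) ∈ Icc (0 : ℝ) (1 / 2) := ⟨le_rfl, by norm_num⟩
  have h1 : (1 / 2 : ℝ) ∈ Icc (0 : ℝ) (1 / 2) := ⟨by norm_num, le_rfl⟩
  by_cases c0 : u 0 ≤ r
  · exact ⟨0, h0, Or.inl rfl, Or.inr fun x hx => (ha h0 hx hx.1).trans c0⟩
  by_cases c1 : r ≤ u (1 / 2)
  · exact ⟨1 / 2, h1, Or.inr fun x hx => c1.trans (ha hx h1 hx.2), Or.inl rfl⟩
  rw [not_le] at c0 c1
  obtain ⟨α, hα, hαr⟩ := intermediate_value_Icc' (by norm_num : (0 : ℝ) ≤ 1 / 2) hu.continuousOn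
    ⟨c1.le, c0.le⟩
  refine ⟨α, hα, Or.inr fun x hx => ?_, Or.inr fun x hx => ?_⟩
  · rw [← hαr]
    exact ha ⟨hx.1, hx.2.trans hα.2⟩ hα hx.2
  · rw [← hαr]
    exact ha hα ⟨hα.1.trans hx.1, hx.2⟩ hx.1

/-- integration by parts formula on a piece -/
def Pc (u : ℝ → ℝ) (p r : ℝ) (φ φ' : ℝ → ℝ) (α β : ℝ) : Prop :=
  ∫ x in α..β, {x : ℝ | p < u x ∧ u x < r}.indicator (fun x => -(deriv u x) * φ x) x =
    cl p r (u α) * φ α - cl p r (u β) * φ β + ∫ x in α..β, cl p r (u x) * φ' x

theorem Pc_self (u : ℝ → ℝ) (p r : ℝ) (φ φ' : ℝ → ℝ) (α : ℝ) : Pc u p r φ φ' α α := by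
  unfold Pc
  rw [intervalIntegral.integral_same, intervalIntegral.integral_same]
  ring

theorem Pc_const {u : ℝ → ℝ} {p r : ℝ} {φ φ' : ℝ → ℝ} (hφ : ∀ x, HasDerivAt φ (φ' x) x)
    (hφc : Continuous φ') {α β k : ℝ} (hαβ : α ≤ β) (hk : ∀ x ∈ Icc α β, cl p r (u x) = k)
    (ho : ∀ x ∈ Icc α β, ¬ (p < u x ∧ u x < r)) : Pc u p r φ φ' α β := by
  unfold Pc
  rw [hk α ⟨le_rfl, hαβ⟩, hk β ⟨hαβ, le_rfl⟩]
  have h1 : ∫ x in α..β, {x : ℝ | p < u x ∧ u x < r}.indicator (fun x => -(deriv u x) * φ x) x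
      = ∫ x in α..β, (0 : ℝ) := by
    refine intervalIntegral.integral_congr fun x hx => ?_
    rw [uIcc_of_le hαβ] at hx
    exact Set.indicator_of_notMem (show x ∉ {x : ℝ | p < u x ∧ u x < r} from ho x hx) _
  have h2 : ∫ x in α..β, cl p r (u x) * φ' x = ∫ x in α..β, k * φ' x := by
    refine intervalIntegral.integral_congr fun x hx => ?_
    rw [uIcc_of_le hαβ] at hx
    show cl p r (u x) * φ' x = k * φ' x
    rw [hk x hx]
  rw [h1, h2, intervalIntegral.integral_zero, intervalIntegral.integral_const_mul,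
    intervalIntegral.integral_eq_sub_of_hasDerivAt (fun x _ => hφ x)
      (hφc.intervalIntegrable _ _)]
  ring

theorem Pc_mid {u : ℝ → ℝ} (hu : ContDiff ℝ 1 u) {p r : ℝ} {φ φ' : ℝ → ℝ}
    (hφ : ∀ x, HasDerivAt φ (φ' x) x)
    (hφc : Continuous φ') {α β : ℝ} (hαβ : α ≤ β) (h1 : ∀ x ∈ Icc α β, p ≤ u x)
    (h2 : ∀ x ∈ Icc α β, u x ≤ r) : Pc u p r φ φ' α β := by
  unfold Pc
  rw [cl_mid (h1 α ⟨le_rfl, hαβ⟩) (h2 α ⟨le_rfl, hαβ⟩),
    cl_mid (h1 β ⟨hαβ, le_rfl⟩) (h2 β ⟨hαβ, le_rfl⟩)]
  have e1 : ∫ x in α..β, {x : ℝ | p < u x ∧ u x < r}.indicator (fun x => -(deriv u x) * φ x) x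
      = ∫ x in α..β, -(deriv u x * φ x) := by
    rw [intervalIntegral.integral_of_le hαβ, intervalIntegral.integral_of_le hαβ,
      integral_Ioc_eq_integral_Ioo, integral_Ioc_eq_integral_Ioo]
    refine setIntegral_congr_fun measurableSet_Ioo fun x hx => ?_
    have hx' : x ∈ Icc α β := ⟨hx.1.le, hx.2.le⟩
    by_cases hm : p < u x ∧ u x < r
    · rw [Set.indicator_of_mem (show x ∈ {x : ℝ | p < u x ∧ u x < r} from hm)]
      ring
    · rw [Set.indicator_of_notMem (show x ∉ {x : ℝ | p < u x ∧ u x < r} from hm)]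
      have hd : deriv u x = 0 := by
        by_cases hp : p < u x
        · have hr : u x = r := le_antisymm (h2 x hx') (not_lt.1 fun h => hm ⟨hp, h⟩)
          have hl : IsLocalMax u x := by
            filter_upwards [Ioo_mem_nhds hx.1 hx.2] with y hy
            rw [hr]
            exact h2 y ⟨hy.1.le, hy.2.le⟩
          exact hl.deriv_eq_zero
        · have hr : u x = p := le_antisymm (not_lt.1 hp) (h1 x hx')
          have hl : IsLocalMin u x := by
            filter_upwards [Ioo_mem_nhds hx.1 hx.2] with y hy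
            rw [hr]
            exact h1 y ⟨hy.1.le, hy.2.le⟩
          exact hl.deriv_eq_zero
      rw [hd]
      ring
  have e2 : ∫ x in α..β, cl p r (u x) * φ' x = ∫ x in α..β, u x * φ' x := by
    refine intervalIntegral.integral_congr fun x hx => ?_
    rw [uIcc_of_le hαβ] at hx
    show cl p r (u x) * φ' x = u x * φ' x
    rw [cl_mid (h1 x hx) (h2 x hx)]
  have e3 := intervalIntegral.integral_mul_deriv_eq_deriv_mul (a := α) (b := β) (u := u)
    (v := φ) (u' := deriv u) (v' := φ')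
    (fun x _ => (hu.differentiable one_ne_zero x).hasDerivAt) (fun x _ => hφ x)
    ((hu.continuous_deriv le_rfl).intervalIntegrable _ _) (hφc.intervalIntegrable _ _)
  rw [e1, e2, intervalIntegral.integral_neg, e3]
  ring

theorem Pc_add {u : ℝ → ℝ} (hu : ContDiff ℝ 1 u) {p r : ℝ} {φ φ' : ℝ → ℝ}
    (hφ : ∀ x, HasDerivAt φ (φ' x) x) (hφc : Continuous φ') {α β γ : ℝ}
    (h1 : Pc u p r φ φ' α β) (h2 : Pc u p r φ φ' β γ) : Pc u p r φ φ' α γ := by
  unfold Pc at h1 h2 ⊢
  have hφ0 : Continuous φ := continuous_iff_continuousAt.2 fun x => (hφ x).continuousAt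
  have hc : Continuous fun x => -(deriv u x) * φ x := (hu.continuous_deriv le_rfl).neg.mul hφ0
  have hc2 : Continuous fun x => cl p r (u x) * φ' x := ((cl_cont p r).comp hu.continuous).mul hφc
  rw [← intervalIntegral.integral_add_adjacent_intervals
    (ind_int hu.continuous p r α β hc) (ind_int hu.continuous p r β γ hc),
    ← intervalIntegral.integral_add_adjacent_intervals
    (hc2.intervalIntegrable α β) (hc2.intervalIntegrable β γ), h1, h2]
  ring

theorem parts {u : ℝ → ℝ} (hu : ContDiff ℝ 1 u) (ha : AntitoneOn u (Icc 0 (1 / 2))) {p r : ℝ}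
    (hpr : p ≤ r) {φ φ' : ℝ → ℝ} (hφ : ∀ x, HasDerivAt φ (φ' x) x) (hφc : Continuous φ') :
    Pc u p r φ φ' 0 (1 / 2) := by
  rcases hpr.eq_or_lt with rfl | hlt
  · refine Pc_const hφ hφc (k := p) (by norm_num) (fun x _ => ?_) (fun x _ h => ?_)
    · rcases le_total (u x) p with h | h
      · exact cl_bot h
      · exact cl_top le_rfl h
    · exact lt_asymm h.1 h.2
  obtain ⟨α, hα, ha1, ha2⟩ := split hu.continuous ha r
  obtain ⟨β, hβ, hb1, hb2⟩ := split hu.continuous ha p
  have hab : α ≤ β := by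
    by_contra hcon
    rw [not_le] at hcon
    have h1 : r ≤ u α := by
      rcases ha1 with h | h
      · exact absurd hβ.1 (by rw [← h]; exact not_le.2 hcon)
      · exact h α ⟨hα.1, le_rfl⟩
    have h2 : u α ≤ p := by
      rcases hb2 with h | h
      · exact absurd hα.2 (by rw [← h]; exact not_le.2 hcon)
      · exact h α ⟨hcon.le, hα.2⟩
    linarith
  have p1 : Pc u p r φ φ' 0 α := by
    rcases ha1 with h | h
    · rw [h]
      exact Pc_self _ _ _ _ _ _
    · exact Pc_const hφ hφc hα.1 (fun x hx => cl_top hpr (h x hx))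
        (fun x hx h' => absurd h'.2 (not_lt.2 (h x hx)))
  have p3 : Pc u p r φ φ' β (1 / 2) := by
    rcases hb2 with h | h
    · rw [h]
      exact Pc_self _ _ _ _ _ _
    · exact Pc_const hφ hφc hβ.2 (fun x hx => cl_bot (h x hx))
        (fun x hx h' => absurd h'.1 (not_lt.2 (h x hx)))
  have p2 : Pc u p r φ φ' α β := by
    rcases hab.eq_or_lt with h | h
    · rw [h]
      exact Pc_self _ _ _ _ _ _
    · have h1 : ∀ x ∈ Icc α β, u x ≤ r := by
        intro x hx
        rcases ha2 with h' | h'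
        · exact absurd hβ.2 (not_le.2 (by rw [← h']; exact h))
        · exact h' x ⟨hx.1, hx.2.trans hβ.2⟩
      have h2 : ∀ x ∈ Icc α β, p ≤ u x := by
        intro x hx
        rcases hb1 with h' | h'
        · exact absurd hα.1 (not_le.2 (by rw [← h']; exact h))
        · exact h' x ⟨hα.1.trans hx.1, hx.2⟩
      exact Pc_mid hu hφ hφc hab h2 h1
  exact Pc_add hu hφ hφc (Pc_add hu hφ hφc p1 p2) p3

/-- integral of a function symmetric about `1/2` -/
theorem sym_half {G : ℝ → ℝ} (hG : ∀ t, G (1 - t) = G t)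
    (hi : ∀ a b, IntervalIntegrable G volume a b) :
    ∫ t in (0:ℝ)..1, G t = 2 * ∫ t in (0:ℝ)..(1 / 2), G t := by
  rw [← intervalIntegral.integral_add_adjacent_intervals (hi 0 (1 / 2)) (hi (1 / 2) 1)]
  have h1 : ∫ t in (1 / 2 : ℝ)..1, G t = ∫ t in (0:ℝ)..(1 / 2), G t := by
    have h2 := intervalIntegral.integral_comp_sub_left (a := 0) (b := 1 / 2) G 1
    rw [show (1 : ℝ) - 1 / 2 = 1 / 2 by norm_num, sub_zero] at h2
    rw [← h2]
    exact intervalIntegral.integral_congr fun t _ => hG t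
  rw [h1]
  ring

/-- one-dimensional profile of a line -/
structure Ln (v : ℝ → ℝ) : Prop where
  smooth : ContDiff ℝ 1 v
  refl : ∀ t, v (1 - t) = v t
  anti : AntitoneOn v (Icc 0 (1 / 2))

theorem Ln.deriv_refl {v : ℝ → ℝ} (hv : Ln v) (t : ℝ) : deriv v (1 - t) = -deriv v t := by
  have h1 : HasDerivAt (fun s => v (1 - s)) (deriv v (1 - t) * (-1)) t :=
    ((hv.smooth.differentiable one_ne_zero (1 - t)).hasDerivAt).comp t
      ((hasDerivAt_id t).const_sub 1)
  have h2 : (fun s => v (1 - s)) = v := funext hv.refl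
  rw [h2] at h1
  rw [h1.deriv]
  ring

theorem Ln.deriv_nonpos {v : ℝ → ℝ} (hv : Ln v) {t : ℝ} (ht : t ∈ Ioo (0 : ℝ) (1 / 2)) :
    deriv v t ≤ 0 := by
  have h1 : derivWithin v (Icc 0 (1 / 2)) t = deriv v t :=
    derivWithin_of_mem_nhds (Icc_mem_nhds ht.1 ht.2)
  rw [← h1]
  exact hv.anti.derivWithin_nonpos

/-- distance weight -/
noncomputable def dw (t : ℝ) : ℝ := min t (1 - t)

theorem dw_refl (t : ℝ) : dw (1 - t) = dw t := by
  unfold dw
  rw [sub_sub_cancel, min_comm]

theorem dw_cont : Continuous dw := by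
  unfold dw
  fun_prop

theorem dw_half {t : ℝ} (ht : t ≤ 1 / 2) : dw t = t := min_eq_left (by linarith)

theorem dw_le (t : ℝ) : dw t ≤ 1 / 2 := by
  unfold dw
  rcases le_total t (1 / 2) with h | h
  · exact (min_le_left _ _).trans h
  · exact (min_le_right _ _).trans (by linarith)

theorem dw_nonneg {t : ℝ} (h0 : 0 ≤ t) (h1 : t ≤ 1) : 0 ≤ dw t := le_min h0 (by linarith)

theorem Ln.int_gen {v : ℝ → ℝ} (hv : Ln v) {p r : ℝ} (hpr : p ≤ r) {φ φ' : ℝ → ℝ}
    (hφ : ∀ x, HasDerivAt φ (φ' x) x) (hφc : Continuous φ') :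
    ∫ t in (0:ℝ)..1, {t : ℝ | p < v t ∧ v t < r}.indicator (fun t => |deriv v t| * φ (dw t)) t =
      2 * (cl p r (v 0) * φ 0 - cl p r (v (1 / 2)) * φ (1 / 2) +
        ∫ t in (0:ℝ)..(1 / 2), cl p r (v t) * φ' t) := by
  have hφ0 : Continuous φ := continuous_iff_continuousAt.2 fun x => (hφ x).continuousAt
  rw [sym_half]
  · congr 1
    have h1 := parts hv.smooth hv.anti hpr hφ hφc
    unfold Pc at h1
    rw [← h1, intervalIntegral.integral_of_le (by norm_num), intervalIntegral.integral_of_le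
      (by norm_num), integral_Ioc_eq_integral_Ioo, integral_Ioc_eq_integral_Ioo]
    refine setIntegral_congr_fun measurableSet_Ioo fun t ht => ?_
    by_cases hm : p < v t ∧ v t < r
    · rw [Set.indicator_of_mem (show t ∈ {t : ℝ | p < v t ∧ v t < r} from hm),
        Set.indicator_of_mem (show t ∈ {t : ℝ | p < v t ∧ v t < r} from hm)]
      show |deriv v t| * φ (dw t) = -(deriv v t) * φ t
      rw [abs_of_nonpos (hv.deriv_nonpos ht), dw_half ht.2.le]
    · rw [Set.indicator_of_notMem (show t ∉ {t : ℝ | p < v t ∧ v t < r} from hm),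
        Set.indicator_of_notMem (show t ∉ {t : ℝ | p < v t ∧ v t < r} from hm)]
  · intro t
    by_cases hm : p < v t ∧ v t < r
    · rw [Set.indicator_of_mem (show t ∈ {t : ℝ | p < v t ∧ v t < r} from hm),
        Set.indicator_of_mem (show 1 - t ∈ {t : ℝ | p < v t ∧ v t < r} by
          rw [Set.mem_ofPred_eq, hv.refl t]; exact hm)]
      show |deriv v (1 - t)| * φ (dw (1 - t)) = |deriv v t| * φ (dw t)
      rw [hv.deriv_refl, abs_neg, dw_refl]
    · rw [Set.indicator_of_notMem (show t ∉ {t : ℝ | p < v t ∧ v t < r} from hm),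
        Set.indicator_of_notMem (show 1 - t ∉ {t : ℝ | p < v t ∧ v t < r} by
          rw [Set.mem_ofPred_eq, hv.refl t]; exact hm)]
  · intro a b
    exact ind_int hv.smooth.continuous p r a b
      ((hv.smooth.continuous_deriv le_rfl).abs.mul (hφ0.comp dw_cont))

theorem Ln.int_one {v : ℝ → ℝ} (hv : Ln v) {p r : ℝ} (hpr : p ≤ r) :
    ∫ t in (0:ℝ)..1, {t : ℝ | p < v t ∧ v t < r}.indicator (fun t => |deriv v t|) t =
      2 * (cl p r (v 0) - cl p r (v (1 / 2))) := by
  have h := hv.int_gen hpr (φ := fun _ => 1) (φ' := fun _ => 0) (fun x => hasDerivAt_const x 1)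
    continuous_const
  simpa using h

theorem Ln.int_lin {v : ℝ → ℝ} (hv : Ln v) {p r : ℝ} (hpr : p ≤ r) (R : ℝ) :
    ∫ t in (0:ℝ)..1, {t : ℝ | p < v t ∧ v t < r}.indicator
        (fun t => |deriv v t| * (2 * dw t / R)) t =
      (2 / R) * ((∫ t in (0:ℝ)..1, cl p r (v t)) - cl p r (v (1 / 2))) := by
  have h := hv.int_gen hpr (φ := fun t => 2 * t / R) (φ' := fun _ => 2 / R)
    (fun x => by
      have := ((hasDerivAt_id x).const_mul 2).div_const R
      simpa using this)
    continuous_const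
  have h2 : ∫ t in (0:ℝ)..1, cl p r (v t) = 2 * ∫ t in (0:ℝ)..(1 / 2), cl p r (v t) := by
    refine sym_half (fun t => by rw [hv.refl]) fun a b => ?_
    exact ((cl_cont p r).comp hv.smooth.continuous).intervalIntegrable _ _
  rw [h, h2, intervalIntegral.integral_mul_const]
  ring


open CrossVH

/-- the lines of a symmetric function -/
theorem ln_vert {h : (Fin 2 → ℝ) → ℝ} (hh : SymN h) (x : ℝ) : Ln fun t => h ![x, t] := by
  have he : ∀ t, h ![x, -t] = h ![x, t] := by
    intro t
    have := hh.even ![x, t] 1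
    rw [← this]
    congr 1
    funext i
    fin_cases i <;> simp
  refine ⟨?_, fun t => ?_, ?_⟩
  · refine hh.smooth.comp ?_
    rw [contDiff_pi]
    intro i
    fin_cases i
    · exact contDiff_const
    · exact contDiff_id
  · show h ![x, 1 - t] = h ![x, t]
    have h1 := per_vert hh.per x (-t)
    rw [show -t + 1 = 1 - t by ring] at h1
    rw [h1, he]
  · intro s hs t ht hst
    have h1 := hh.anti ![x, s] 1 s t hs.1 hst ht.2
    have e : ∀ z : ℝ, Function.update ![x, s] 1 z = (![x, z] : Fin 2 → ℝ) := by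
      intro z
      funext i
      fin_cases i <;> simp
    rw [e, e] at h1
    exact h1

theorem ln_horiz {h : (Fin 2 → ℝ) → ℝ} (hh : SymN h) (y : ℝ) : Ln fun t => h ![t, y] := by
  have he : ∀ t, h ![-t, y] = h ![t, y] := by
    intro t
    have := hh.even ![t, y] 0
    rw [← this]
    congr 1
    funext i
    fin_cases i <;> simp
  refine ⟨?_, fun t => ?_, ?_⟩
  · refine hh.smooth.comp ?_
    rw [contDiff_pi]
    intro i
    fin_cases i
    · exact contDiff_id
    · exact contDiff_const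
  · show h ![1 - t, y] = h ![t, y]
    have h1 := per_horiz hh.per (-t) y
    rw [show -t + 1 = 1 - t by ring] at h1
    rw [h1, he]
  · intro s hs t ht hst
    have h1 := hh.anti ![s, y] 0 s t hs.1 hst ht.2
    have e : ∀ z : ℝ, Function.update ![s, y] 0 z = (![z, y] : Fin 2 → ℝ) := by
      intro z
      funext i
      fin_cases i <;> simp
    rw [e, e] at h1
    exact h1

/-- layer cake for the truncation on the unit square -/
theorem layer {h : (Fin 2 → ℝ) → ℝ} (hc : Continuous h) {p r : ℝ} (hpr : p ≤ r) :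
    ∫ x in cell 2, cl p r (h x) = p + ∫ s in p..r, lev h s := by
  have hmc : MeasurableSet (cell 2) := MeasurableSet.univ_pi fun _ => measurableSet_Ico
  have hvol : volume (cell 2) = 1 := by
    unfold cell
    rw [Real.volume_pi_Ico] <;> simp
  haveI : IsFiniteMeasure (volume.restrict (cell 2)) := ⟨by
    rw [Measure.restrict_apply_univ, hvol]
    exact ENNReal.one_lt_top⟩
  haveI : IsFiniteMeasure (volume.restrict (Ioc p r)) := ⟨by
    rw [Measure.restrict_apply_univ]
    exact measure_Ioc_lt_top⟩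
  set S : Set ((Fin 2 → ℝ) × ℝ) := {z | z.2 < h z.1} with hS
  have hSm : MeasurableSet S :=
    (isOpen_lt continuous_snd (hc.comp continuous_fst)).measurableSet
  have hpt : ∀ x, ∫ s in Ioc p r, S.indicator (fun _ => (1 : ℝ)) (x, s) = cl p r (h x) - p := by
    intro x
    have h1 : (fun s => S.indicator (fun _ => (1 : ℝ)) (x, s)) =
        (Iio (h x)).indicator fun _ => (1 : ℝ) := by
      funext s
      by_cases hs : s < h x
      · rw [Set.indicator_of_mem (show (x, s) ∈ S from hs),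
          Set.indicator_of_mem (show s ∈ Iio (h x) from hs)]
      · rw [Set.indicator_of_notMem (show (x, s) ∉ S from hs),
          Set.indicator_of_notMem (show s ∉ Iio (h x) from hs)]
    rw [h1, setIntegral_indicator measurableSet_Iio, setIntegral_const, smul_eq_mul, mul_one]
    rcases le_total (h x) p with hx | hx
    · have h2 : Ioc p r ∩ Iio (h x) = ∅ := by
        ext s
        simp only [mem_inter_iff, mem_Ioc, mem_Iio, mem_empty_iff_false, iff_false]
        rintro ⟨⟨h3, _⟩, h4⟩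
        linarith
      rw [h2, cl_bot hx]
      simp
    · rcases le_or_gt (h x) r with hx2 | hx2
      · have h2 : Ioc p r ∩ Iio (h x) = Ioo p (h x) := by
          ext s
          simp only [mem_inter_iff, mem_Ioc, mem_Iio, mem_Ioo]
          constructor
          · rintro ⟨⟨h3, _⟩, h4⟩
            exact ⟨h3, h4⟩
          · rintro ⟨h3, h4⟩
            exact ⟨⟨h3, by linarith⟩, h4⟩
        rw [h2, cl_mid hx hx2, Measure.real, Real.volume_Ioo, ENNReal.toReal_ofReal (by linarith)]
      · have h2 : Ioc p r ∩ Iio (h x) = Ioc p r := by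
          ext s
          simp only [mem_inter_iff, mem_Ioc, mem_Iio]
          constructor
          · rintro ⟨h3, _⟩
            exact h3
          · rintro ⟨h3, h4⟩
            exact ⟨⟨h3, h4⟩, by linarith⟩
        rw [h2, cl_top hpr hx2.le, Measure.real, Real.volume_Ioc, ENNReal.toReal_ofReal (by linarith)]
  have hsl : ∀ s, ∫ x in cell 2, S.indicator (fun _ => (1 : ℝ)) (x, s) = lev h s := by
    intro s
    have h1 : (fun x => S.indicator (fun _ => (1 : ℝ)) (x, s)) =
        {x | s < h x}.indicator fun _ => (1 : ℝ) := by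
      funext x
      by_cases hs : s < h x
      · rw [Set.indicator_of_mem (show (x, s) ∈ S from hs),
          Set.indicator_of_mem (show x ∈ {x | s < h x} from hs)]
      · rw [Set.indicator_of_notMem (show (x, s) ∉ S from hs),
          Set.indicator_of_notMem (show x ∉ {x | s < h x} from hs)]
    rw [h1, setIntegral_indicator (isOpen_lt continuous_const hc).measurableSet,
      setIntegral_const, smul_eq_mul, mul_one]
    unfold lev
    rw [Set.inter_comm]
    rfl
  have hint : Integrable (Function.uncurry fun (x : Fin 2 → ℝ) (s : ℝ) =>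
      S.indicator (fun _ => (1 : ℝ)) (x, s))
      ((volume.restrict (cell 2)).prod (volume.restrict (Ioc p r))) := by
    have : (Function.uncurry fun (x : Fin 2 → ℝ) (s : ℝ) => S.indicator (fun _ => (1 : ℝ)) (x, s))
        = S.indicator fun _ => (1 : ℝ) := rfl
    rw [this]
    exact (integrable_const 1).indicator hSm
  have h1 := integral_integral_swap hint
  simp only [hpt, hsl] at h1
  rw [intervalIntegral.integral_of_le hpr, ← h1, integral_sub]
  · rw [setIntegral_const, Measure.real, hvol]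
    simp
  · have hb : ∀ x, ‖cl p r (h x)‖ ≤ max |p| |r| := fun x => by
      rw [Real.norm_eq_abs]
      exact abs_le_max_abs_abs (cl_ge _ _ _) (cl_le hpr)
    exact Integrable.of_bound ((cl_cont p r).comp hc).aestronglyMeasurable (max |p| |r|)
      (Filter.Eventually.of_forall hb)
  · exact integrable_const _

theorem ico_eq (F : ℝ → ℝ) : ∫ t in Ico (0:ℝ) 1, F t = ∫ t in (0:ℝ)..1, F t := by
  rw [intervalIntegral.integral_of_le zero_le_one, integral_Ioc_eq_integral_Ioo,
    integral_Ico_eq_integral_Ioo]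

/-- the strip -/
def St (h : (Fin 2 → ℝ) → ℝ) (p r : ℝ) : Set (ℝ × ℝ) :=
  {w : ℝ × ℝ | p < h ![w.1, w.2] ∧ h ![w.1, w.2] < r}

theorem st_meas {h : (Fin 2 → ℝ) → ℝ} (hc : Continuous h) (p r : ℝ) : MeasurableSet (St h p r) :=
  ((isOpen_lt continuous_const (hc.comp pair_cont)).inter
    (isOpen_lt (hc.comp pair_cont) continuous_const)).measurableSet

theorem st_int {h : (Fin 2 → ℝ) → ℝ} (hc : Continuous h) (p r : ℝ) {g : ℝ × ℝ → ℝ}
    (hg : Continuous g) : Integrable ((St h p r).indicator g)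
      ((volume.restrict (Ico (0 : ℝ) 1)).prod (volume.restrict (Ico (0 : ℝ) 1))) := by
  rw [Measure.prod_restrict]
  refine Integrable.indicator ?_ (st_meas hc p r)
  exact (hg.continuousOn.integrableOn_compact (K := (Icc (0 : ℝ) 1) ×ˢ (Icc (0 : ℝ) 1))
    (isCompact_Icc.prod isCompact_Icc)).mono_set
    (Set.prod_mono Ico_subset_Icc_self Ico_subset_Icc_self)

theorem cs {A B a b : ℝ} (ha : 0 ≤ a) (hb : 0 ≤ b) (hab : a ^ 2 + b ^ 2 ≤ 1) :
    |A| * a + |B| * b ≤ Real.sqrt (A ^ 2 + B ^ 2) := by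
  apply Real.le_sqrt_of_sq_le
  have h1 : (|A| * a + |B| * b) ^ 2 ≤ (|A| ^ 2 + |B| ^ 2) * (a ^ 2 + b ^ 2) := by
    nlinarith [sq_nonneg (|A| * b - |B| * a)]
  rw [sq_abs, sq_abs] at h1
  have h2 : (A ^ 2 + B ^ 2) * (a ^ 2 + b ^ 2) ≤ (A ^ 2 + B ^ 2) * 1 :=
    mul_le_mul_of_nonneg_left hab (by positivity)
  linarith

theorem lev_anti {h : (Fin 2 → ℝ) → ℝ} : Antitone (lev h) := by
  intro s t hst
  unfold lev
  have hvol : volume (cell 2) = 1 := by
    unfold cell
    rw [Real.volume_pi_Ico]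
    simp
  refine ENNReal.toReal_mono ?_ (measure_mono ?_)
  · exact ne_top_of_le_ne_top (by rw [hvol]; exact ENNReal.one_ne_top)
      (measure_mono Set.inter_subset_right)
  · exact Set.inter_subset_inter_left _ fun x hx => lt_of_le_of_lt hst hx

theorem main {h : (Fin 2 → ℝ) → ℝ} (hh : SymN h) {p r : ℝ} (hpr : p ≤ r)
    (hr : r ≤ h ![1 / 2, 0]) (hp : h ![0, 1 / 2] ≤ p) {R : ℝ} (hR : 1 ≤ R) :
    (2 / R) * ((∫ x in cell 2, cl p r (h x)) - ∫ y in (0:ℝ)..1, cl p r (h ![1 / 2, y])) +
        2 * (r - p) * ∫ v in (0:ℝ)..1, Real.sqrt (1 - v ^ 2 / R ^ 2) ≤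
      ∫ x in cell 2 ∩ {x | p < h x ∧ h x < r}, gradN h x := by
  have hR0 : 0 < R := by linarith
  have hc := hh.smooth.continuous
  have hfd := hh.smooth.continuous_fderiv one_ne_zero
  rw [strip_eq hh.toNice, Measure.volume_eq_prod, ← Measure.prod_restrict]
  change _ ≤ ∫ w, (St h p r).indicator (fun w => gradN h ![w.1, w.2]) w
    ∂((volume.restrict (Ico (0 : ℝ) 1)).prod (volume.restrict (Ico (0 : ℝ) 1)))
  set g0 : ℝ × ℝ → ℝ := fun w => |fderiv ℝ h ![w.1, w.2] (Pi.single 0 1)| * (2 * dw w.1 / R)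
    with hg0
  set bb : ℝ → ℝ := fun t => Real.sqrt (1 - (2 * dw t / R) ^ 2) with hbb
  set g1 : ℝ × ℝ → ℝ := fun w => |fderiv ℝ h ![w.1, w.2] (Pi.single 1 1)| * bb w.1 with hg1
  have hdwc := dw_cont
  have hbbc : Continuous bb := by
    rw [hbb]
    fun_prop
  have hpc := pair_cont
  have hf0 : Continuous fun w : ℝ × ℝ => fderiv ℝ h ![w.1, w.2] := hfd.comp hpc
  have hg0c : Continuous g0 := by
    rw [hg0]
    exact ((hf0.clm_apply continuous_const).abs).mul
      (((continuous_const.mul (hdwc.comp continuous_fst))).div_const R)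
  have hg1c : Continuous g1 := by
    rw [hg1]
    exact ((hf0.clm_apply continuous_const).abs).mul (hbbc.comp continuous_fst)
  have hGc : Continuous fun w : ℝ × ℝ => gradN h ![w.1, w.2] := (gradN_cont hh.smooth).comp hpc
  have i0 := st_int hc p r hg0c
  have i1 := st_int hc p r hg1c
  have iG := st_int hc p r hGc
  have hle : ∫ w, ((St h p r).indicator g0 w + (St h p r).indicator g1 w)
      ∂((volume.restrict (Ico (0 : ℝ) 1)).prod (volume.restrict (Ico (0 : ℝ) 1))) ≤
      ∫ w, (St h p r).indicator (fun w => gradN h ![w.1, w.2]) w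
      ∂((volume.restrict (Ico (0 : ℝ) 1)).prod (volume.restrict (Ico (0 : ℝ) 1))) := by
    have hae : ∀ᵐ w ∂((volume.restrict (Ico (0 : ℝ) 1)).prod
        (volume.restrict (Ico (0 : ℝ) 1))), w ∈ (Ico (0 : ℝ) 1) ×ˢ (Ico (0 : ℝ) 1) := by
      rw [Measure.prod_restrict]
      exact ae_restrict_mem (measurableSet_Ico.prod measurableSet_Ico)
    refine integral_mono_ae (i0.add i1) iG ?_
    filter_upwards [hae] with w hw
    show (St h p r).indicator g0 w + (St h p r).indicator g1 w ≤
      (St h p r).indicator (fun w => gradN h ![w.1, w.2]) w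
    by_cases hm : w ∈ St h p r
    · rw [Set.indicator_of_mem hm, Set.indicator_of_mem hm, Set.indicator_of_mem hm]
      show |fderiv ℝ h ![w.1, w.2] (Pi.single 0 1)| * (2 * dw w.1 / R) +
        |fderiv ℝ h ![w.1, w.2] (Pi.single 1 1)| * bb w.1 ≤ gradN h ![w.1, w.2]
      unfold gradN
      rw [Fin.sum_univ_two]
      have ha0 : 0 ≤ 2 * dw w.1 / R :=
        div_nonneg (mul_nonneg (by norm_num) (dw_nonneg hw.1.1 hw.1.2.le)) hR0.le
      have ha1 : 2 * dw w.1 / R ≤ 1 := by
        rw [div_le_one hR0]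
        have := dw_le w.1
        linarith
      refine cs ha0 (Real.sqrt_nonneg _) ?_
      rw [hbb]
      simp only []
      rw [Real.sq_sqrt (by nlinarith)]
      linarith
    · rw [Set.indicator_of_notMem hm, Set.indicator_of_notMem hm, Set.indicator_of_notMem hm]
      simp
  refine le_trans (le_of_eq ?_) hle
  rw [integral_add i0 i1, integral_prod_symm _ i0, integral_prod _ i1]
  have e0 : ∫ y in Ico (0:ℝ) 1, ∫ x in Ico (0:ℝ) 1, (St h p r).indicator g0 (x, y) =
      (2 / R) * ((∫ x in cell 2, cl p r (h x)) - ∫ y in (0:ℝ)..1, cl p r (h ![1 / 2, y])) := by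
    have hin : ∀ y, ∫ x in Ico (0:ℝ) 1, (St h p r).indicator g0 (x, y) =
        (2 / R) * ((∫ t in (0:ℝ)..1, cl p r (h ![t, y])) - cl p r (h ![1 / 2, y])) := by
      intro y
      have h1 := (ln_horiz hh y).int_lin hpr R
      rw [ico_eq, ← h1]
      refine intervalIntegral.integral_congr fun x _ => ?_
      show (St h p r).indicator g0 (x, y) = _
      by_cases hm : p < h ![x, y] ∧ h ![x, y] < r
      · rw [Set.indicator_of_mem (show (x, y) ∈ St h p r from hm),
          Set.indicator_of_mem (show x ∈ {t : ℝ | p < h ![t, y] ∧ h ![t, y] < r} from hm)]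
        show |fderiv ℝ h ![x, y] (Pi.single 0 1)| * (2 * dw x / R) = _
        rw [(horiz_deriv hh.smooth x y).deriv]
      · rw [Set.indicator_of_notMem (show (x, y) ∉ St h p r from hm),
          Set.indicator_of_notMem (show x ∉ {t : ℝ | p < h ![t, y] ∧ h ![t, y] < r} from hm)]
    have hcc : Continuous fun x => cl p r (h x) := (cl_cont p r).comp hc
    have hy1 : Continuous fun y : ℝ => cl p r (h ![1 / 2, y]) :=
      hcc.comp (hpc.comp (Continuous.prodMk_right (1 / 2 : ℝ)))
    have hy0 : Continuous fun y : ℝ => ∫ t in (0:ℝ)..1, cl p r (h ![t, y]) :=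
      intervalIntegral.continuous_parametric_intervalIntegral_of_continuous'
        (f := fun y t => cl p r (h ![t, y])) (hcc.comp (hpc.comp continuous_swap)) 0 1
    simp only [hin]
    rw [ico_eq, intervalIntegral.integral_const_mul, intervalIntegral.integral_sub
      (hy0.intervalIntegrable _ _) (hy1.intervalIntegrable _ _), (fub_cell_two hcc).2]
  have e1 : ∫ x in Ico (0:ℝ) 1, ∫ y in Ico (0:ℝ) 1, (St h p r).indicator g1 (x, y) =
      2 * (r - p) * ∫ v in (0:ℝ)..1, Real.sqrt (1 - v ^ 2 / R ^ 2) := by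
    have hin : ∀ x ∈ Ico (0:ℝ) 1, ∫ y in Ico (0:ℝ) 1, (St h p r).indicator g1 (x, y) =
        (2 * (r - p)) * bb x := by
      intro x hx
      have h1 := (ln_vert hh x).int_one hpr
      have hx0 : cl p r (h ![x, 0]) = r := by
        refine cl_top hpr (hr.trans ?_)
        have hl := ln_horiz hh 0
        rcases le_total x (1 / 2) with h2 | h2
        · exact hl.anti ⟨hx.1, h2⟩ ⟨by norm_num, le_rfl⟩ h2
        · have h3 := hl.refl x
          rw [← h3]
          exact hl.anti ⟨by linarith [hx.2], by linarith⟩ ⟨by norm_num, le_rfl⟩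
            (by linarith)
      have hx1 : cl p r (h ![x, 1 / 2]) = p := by
        refine cl_bot (le_trans ?_ hp)
        have hl := ln_horiz hh (1 / 2)
        rcases le_total x (1 / 2) with h2 | h2
        · exact hl.anti ⟨le_rfl, by norm_num⟩ ⟨hx.1, h2⟩ hx.1
        · have h3 := hl.refl x
          rw [← h3]
          exact hl.anti ⟨le_rfl, by norm_num⟩ ⟨by linarith [hx.2], by linarith⟩
            (by linarith [hx.2])
      rw [hx0, hx1] at h1
      rw [← h1, ico_eq, ← intervalIntegral.integral_mul_const]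
      refine intervalIntegral.integral_congr fun y _ => ?_
      show (St h p r).indicator g1 (x, y) = _ * bb x
      by_cases hm : p < h ![x, y] ∧ h ![x, y] < r
      · rw [Set.indicator_of_mem (show (x, y) ∈ St h p r from hm),
          Set.indicator_of_mem (show y ∈ {t : ℝ | p < h ![x, t] ∧ h ![x, t] < r} from hm)]
        show |fderiv ℝ h ![x, y] (Pi.single 1 1)| * bb x = _
        rw [(vert_deriv hh.smooth x y).deriv]
      · rw [Set.indicator_of_notMem (show (x, y) ∉ St h p r from hm),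
          Set.indicator_of_notMem (show y ∉ {t : ℝ | p < h ![x, t] ∧ h ![x, t] < r} from hm),
          zero_mul]
    rw [setIntegral_congr_fun measurableSet_Ico hin, ico_eq,
      intervalIntegral.integral_const_mul, sym_half (G := bb)]
    · have h2 : ∫ t in (0:ℝ)..(1 / 2), bb t =
          ∫ t in (0:ℝ)..(1 / 2), Real.sqrt (1 - (2 * t) ^ 2 / R ^ 2) := by
        refine intervalIntegral.integral_congr fun t ht => ?_
        rw [uIcc_of_le (by norm_num)] at ht
        show Real.sqrt (1 - (2 * dw t / R) ^ 2) = _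
        rw [dw_half ht.2, div_pow]
      have h3 := intervalIntegral.integral_comp_mul_left (a := (0:ℝ)) (b := 1 / 2)
        (fun v => Real.sqrt (1 - v ^ 2 / R ^ 2)) (two_ne_zero (α := ℝ))
      rw [h2, h3, mul_zero, smul_eq_mul, show (2 : ℝ) * (1 / 2) = 1 by norm_num]
      ring
    · intro t
      show Real.sqrt (1 - (2 * dw (1 - t) / R) ^ 2) = Real.sqrt (1 - (2 * dw t / R) ^ 2)
      rw [dw_refl]
    · intro a b
      exact hbbc.intervalIntegrable _ _
  rw [e0, e1]

end CalOne

open CalOne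

theorem cal_one {h : (Fin 2 → ℝ) → ℝ} (hh : SymN h) {p r T : ℝ} (h0 : 0 ≤ p) (hpr : p ≤ r)
    (hT0 : 0 ≤ T) (hT1 : T ≤ 1) (hr : r ≤ h ![1 / 2, 0]) (hp : h ![0, 1 / 2] ≤ p)
    (htr : ∀ t, T / 2 < t → t ≤ 1 / 2 → h ![1 / 2, t] ≤ p) {R : ℝ} (hR : 1 ≤ R) :
    ∫ s in p..r, ((lev h s - T) / R + ∫ v in (0:ℝ)..1, Real.sqrt (1 - v ^ 2 / R ^ 2)) ≤
      (1 / 2) * ∫ x in cell 2 ∩ {x | p < h x ∧ h x < r}, gradN h x := by
  have hR0 : 0 < R := by linarith
  have hc := hh.smooth.continuous
  have h1 := main hh hpr hr hp hR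
  have h2 := layer hc hpr
  set G0 := ∫ v in (0:ℝ)..1, Real.sqrt (1 - v ^ 2 / R ^ 2) with hG0
  have hli : IntervalIntegrable (lev h) volume p r := lev_anti.intervalIntegrable
  have h3 : ∫ s in p..r, ((lev h s - T) / R + G0) =
      ((∫ s in p..r, lev h s) - T * (r - p)) / R + G0 * (r - p) := by
    rw [intervalIntegral.integral_add ((hli.sub intervalIntegrable_const).div_const R)
      intervalIntegrable_const, intervalIntegral.integral_div, intervalIntegral.integral_sub hli
      intervalIntegrable_const, intervalIntegral.integral_const, intervalIntegral.integral_const,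
      smul_eq_mul, smul_eq_mul]
    ring
  have h4 : ∫ y in (0:ℝ)..1, cl p r (h ![1 / 2, y]) ≤ T * r + (1 - T) * p := by
    have hl := ln_vert hh (1 / 2)
    have hcy : Continuous fun y : ℝ => cl p r (h ![1 / 2, y]) :=
      (cl_cont p r).comp hl.smooth.continuous
    rw [sym_half (G := fun y => cl p r (h ![1 / 2, y]))]
    · rw [← intervalIntegral.integral_add_adjacent_intervals
        (hcy.intervalIntegrable 0 (T / 2)) (hcy.intervalIntegrable (T / 2) (1 / 2))]
      have a1 : ∫ y in (0:ℝ)..(T / 2), cl p r (h ![1 / 2, y]) ≤ ∫ y in (0:ℝ)..(T / 2), r :=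
        intervalIntegral.integral_mono_on (by linarith) (hcy.intervalIntegrable _ _)
          intervalIntegrable_const fun y _ => cl_le hpr
      have a2 : ∫ y in (T / 2)..(1 / 2), cl p r (h ![1 / 2, y]) =
          ∫ y in (T / 2)..(1 / 2), p := by
        rw [intervalIntegral.integral_of_le (by linarith), intervalIntegral.integral_of_le
          (by linarith)]
        refine setIntegral_congr_fun measurableSet_Ioc fun y hy => ?_
        exact cl_bot (htr y hy.1 hy.2)
      rw [a2]
      rw [intervalIntegral.integral_const, smul_eq_mul] at a1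
      rw [intervalIntegral.integral_const, smul_eq_mul]
      nlinarith
    · intro t
      have := hl.refl t
      show cl p r (h ![1 / 2, 1 - t]) = cl p r (h ![1 / 2, t])
      rw [this]
    · intro a b
      exact hcy.intervalIntegrable _ _
  rw [h3]
  rw [h2] at h1
  have h5 : (2 / R) * ((p + ∫ s in p..r, lev h s) - (T * r + (1 - T) * p)) ≤
      (2 / R) * ((p + ∫ s in p..r, lev h s) - ∫ y in (0:ℝ)..1, cl p r (h ![1 / 2, y])) :=
    mul_le_mul_of_nonneg_left (by linarith) (by positivity)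
  have h6 : (2 / R) * ((p + ∫ s in p..r, lev h s) - (T * r + (1 - T) * p)) =
      2 * (((∫ s in p..r, lev h s) - T * (r - p)) / R) := by ring
  rw [h6] at h5
  linarith

end Vale.Agent.P232
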