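import Vale.Agent.P232.Defs

/-!
# P232, module C1: the upper part of the two-torus inequality (helper53)
-/

open MeasureTheory Set

namespace Vale.Agent.P232

namespace UpperPart

/-- the slope of the truncation -/
noncomputable def w (s₀ δ t : ℝ) : ℝ := min 1 (max 0 ((t - s₀) / δ))

/-- a `C^1` truncation from below at `s₀` -/
noncomputable def tr (s₀ δ s : ℝ) : ℝ := ∫ t in s₀..s, w s₀ δ t

variable {s₀ δ : ℝ}

theorem w_cont : Continuous (w s₀ δ) := by
  unfold w
  fun_prop

theorem w_nonneg (t : ℝ) : 0 ≤ w s₀ δ t := le_min zero_le_one (le_max_left _ _)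

theorem w_le_one (t : ℝ) : w s₀ δ t ≤ 1 := min_le_left _ _

theorem w_eq_zero (hδ : 0 < δ) {t : ℝ} (ht : t ≤ s₀) : w s₀ δ t = 0 := by
  unfold w
  have : (t - s₀) / δ ≤ 0 := div_nonpos_of_nonpos_of_nonneg (by linarith) hδ.le
  rw [max_eq_left this]
  exact min_eq_right zero_le_one

theorem w_eq_one (hδ : 0 < δ) {t : ℝ} (ht : s₀ + δ ≤ t) : w s₀ δ t = 1 := by
  unfold w
  have : 1 ≤ (t - s₀) / δ := by
    rw [le_div_iff₀ hδ]
    linarith
  exact min_eq_left (this.trans (le_max_right _ _))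

theorem tr_hasDeriv (s : ℝ) : HasDerivAt (tr s₀ δ) (w s₀ δ s) s :=
  (w_cont.integral_hasStrictDerivAt s₀ s).hasDerivAt

theorem tr_contDiff : ContDiff ℝ 1 (tr s₀ δ) := by
  rw [contDiff_one_iff_deriv]
  refine ⟨fun s => (tr_hasDeriv s).differentiableAt, ?_⟩
  have : deriv (tr s₀ δ) = w s₀ δ := funext fun s => (tr_hasDeriv s).deriv
  rw [this]
  exact w_cont

theorem tr_eq_zero (hδ : 0 < δ) {s : ℝ} (hs : s ≤ s₀) : tr s₀ δ s = 0 := by
  unfold tr
  rw [intervalIntegral.integral_symm]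
  have : ∫ t in s..s₀, w s₀ δ t = ∫ t in s..s₀, (0 : ℝ) := by
    apply intervalIntegral.integral_congr
    intro t ht
    rw [uIcc_of_le hs] at ht
    exact w_eq_zero hδ ht.2
  rw [this]
  simp

theorem tr_nonneg (hδ : 0 < δ) (s : ℝ) : 0 ≤ tr s₀ δ s := by
  rcases le_total s s₀ with h | h
  · rw [tr_eq_zero hδ h]
  · exact intervalIntegral.integral_nonneg h fun t _ => w_nonneg t

theorem tr_le (hδ : 0 < δ) {s : ℝ} (h0 : 0 ≤ s₀) (hs : 0 ≤ s) : tr s₀ δ s ≤ s := by
  rcases le_total s s₀ with h | h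
  · rw [tr_eq_zero hδ h]
    exact hs
  · have h1 : tr s₀ δ s ≤ ∫ t in s₀..s, (1 : ℝ) :=
      intervalIntegral.integral_mono_on h (w_cont.intervalIntegrable _ _)
        (continuous_const.intervalIntegrable _ _) fun t _ => w_le_one t
    simp only [intervalIntegral.integral_const, smul_eq_mul, mul_one] at h1
    linarith

theorem le_tr (hδ : 0 < δ) (s : ℝ) : s - s₀ - δ ≤ tr s₀ δ s := by
  rcases le_total s (s₀ + δ) with h | h
  · have := tr_nonneg (s₀ := s₀) hδ s
    linarith
  · have h1 : tr s₀ δ s = (∫ t in s₀..(s₀ + δ), w s₀ δ t) + ∫ t in (s₀ + δ)..s, w s₀ δ t :=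
      (intervalIntegral.integral_add_adjacent_intervals (w_cont.intervalIntegrable _ _)
        (w_cont.intervalIntegrable _ _)).symm
    have h2 : 0 ≤ ∫ t in s₀..(s₀ + δ), w s₀ δ t :=
      intervalIntegral.integral_nonneg (by linarith) fun t _ => w_nonneg t
    have h3 : ∫ t in (s₀ + δ)..s, w s₀ δ t = ∫ t in (s₀ + δ)..s, (1 : ℝ) := by
      apply intervalIntegral.integral_congr
      intro t ht
      rw [uIcc_of_le h] at ht
      exact w_eq_one hδ ht.1
    rw [h1, h3]
    simp only [intervalIntegral.integral_const, smul_eq_mul, mul_one]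
    linarith

/-! ### the composition -/

variable {n : ℕ} {g : (Fin n → ℝ) → ℝ}

theorem comp_nice (hg : Nice g) (hδ : 0 < δ) (h0 : 0 ≤ s₀) : Nice (fun x => tr s₀ δ (g x)) where
  smooth := tr_contDiff.comp hg.smooth
  per := fun x k => by
    show tr s₀ δ (g (x + fun i => (k i : ℝ))) = tr s₀ δ (g x)
    rw [hg.per x k]
  nonneg := fun x => tr_nonneg hδ _
  le_one := fun x => (tr_le hδ h0 (hg.nonneg x)).trans (hg.le_one x)

theorem gradN_comp (hg : Nice g) (x : Fin n → ℝ) :
    gradN (fun x => tr s₀ δ (g x)) x = w s₀ δ (g x) * gradN g x := by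
  unfold gradN
  have hd : DifferentiableAt ℝ g x := (hg.smooth.differentiable (by norm_num)) x
  have h1 : HasFDerivAt (fun x => tr s₀ δ (g x)) (w s₀ δ (g x) • fderiv ℝ g x) x :=
    (tr_hasDeriv (g x)).comp_hasFDerivAt x hd.hasFDerivAt
  rw [h1.fderiv]
  have h2 : ∑ i, ((w s₀ δ (g x) • fderiv ℝ g x) (Pi.single i 1)) ^ 2
      = (w s₀ δ (g x)) ^ 2 * ∑ i, (fderiv ℝ g x (Pi.single i 1)) ^ 2 := by
    rw [Finset.mul_sum]
    refine Finset.sum_congr rfl fun i _ => ?_
    rw [smul_apply, smul_eq_mul]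
    ring
  rw [h2, Real.sqrt_mul (sq_nonneg _), Real.sqrt_sq (w_nonneg _)]

theorem gradN_cont (hg : ContDiff ℝ 1 g) : Continuous (gradN g) := by
  unfold gradN
  apply Real.continuous_sqrt.comp
  apply continuous_finsetSum
  intro i _
  exact ((hg.continuous_fderiv (by norm_num)).clm_apply continuous_const).pow 2

theorem gradN_nonneg (x : Fin n → ℝ) : 0 ≤ gradN g x := Real.sqrt_nonneg _

theorem cell_meas : MeasurableSet (cell n) :=
  MeasurableSet.univ_pi fun _ => measurableSet_Ico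

theorem cell_sub : cell n ⊆ Set.Icc (fun _ => (0 : ℝ)) (fun _ => 1) := by
  intro x hx
  exact ⟨fun i => (hx i trivial).1, fun i => (hx i trivial).2.le⟩

theorem cell_vol : volume (cell n) = 1 := by
  unfold cell
  rw [Real.volume_pi_Ico]
  simp

theorem cont_int {F : (Fin n → ℝ) → ℝ} (hF : Continuous F) : IntegrableOn F (cell n) :=
  (hF.continuousOn.integrableOn_compact isCompact_Icc).mono_set cell_sub

theorem lev_nonneg (s : ℝ) : 0 ≤ lev g s := ENNReal.toReal_nonneg

theorem lev_ne_top (s : ℝ) : volume ({x | s < g x} ∩ cell n) ≠ ⊤ :=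
  ne_top_of_le_ne_top (by rw [cell_vol]; exact ENNReal.one_ne_top) (measure_mono inter_subset_right)

theorem lev_le_one (s : ℝ) : lev g s ≤ 1 := by
  unfold lev
  have : volume ({x | s < g x} ∩ cell n) ≤ 1 := by
    rw [← cell_vol (n := n)]
    exact measure_mono inter_subset_right
  exact ENNReal.toReal_le_of_le_ofReal zero_le_one (by simpa using this)

theorem lev_mono {g h : (Fin n → ℝ) → ℝ} {s t : ℝ} (H : ∀ x, s < g x → t < h x) :
    lev g s ≤ lev h t := by
  unfold lev
  exact ENNReal.toReal_mono (lev_ne_top t) (measure_mono fun x hx => ⟨H x hx.1, hx.2⟩)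

theorem lev_antitone : Antitone (lev g) := fun s t hst =>
  lev_mono fun x hx => lt_of_le_of_lt hst hx

theorem sqrt_lev_antitone : Antitone (fun s => Real.sqrt (lev g s)) := fun s t hst =>
  Real.sqrt_le_sqrt (lev_antitone hst)

theorem sqrt_lev_ii (a b : ℝ) : IntervalIntegrable (fun s => Real.sqrt (lev g s)) volume a b :=
  sqrt_lev_antitone.intervalIntegrable

theorem sqrt_lev_le_one (s : ℝ) : Real.sqrt (lev g s) ≤ 1 := by
  rw [← Real.sqrt_one]
  exact Real.sqrt_le_sqrt (lev_le_one s)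

end UpperPart

open UpperPart in
/-- C1 from the statement of B1 -/
theorem upper_part_of_cut (cut_plane : ∀ {g : (Fin 2 → ℝ) → ℝ} (_ : Nice g) (t : Fin 2 → ℝ),
      Real.sqrt Real.pi * ∫ s in (0:ℝ)..1, Real.sqrt (lev g s) ≤
        hTV g + (∫ y in (0:ℝ)..1, g ![t 0, y]) + ∫ x in (0:ℝ)..1, g ![x, t 1])
    {g : (Fin 2 → ℝ) → ℝ} (hg : Nice g) {s₀ x₀ y₀ : ℝ} (hs0 : 0 ≤ s₀)
    (hx : ∀ y, g ![x₀, y] ≤ s₀) (hy : ∀ x, g ![x, y₀] ≤ s₀) :
    Real.sqrt Real.pi * ∫ s in s₀..1, Real.sqrt (lev g s) ≤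
      (1 / 2) * ∫ x in cell 2 ∩ {x | s₀ < g x}, gradN g x := by
  have hpi : 0 ≤ Real.sqrt Real.pi := Real.sqrt_nonneg _
  have hR : 0 ≤ (1 / 2 : ℝ) * ∫ x in cell 2 ∩ {x | s₀ < g x}, gradN g x :=
    mul_nonneg (by norm_num) (integral_nonneg fun x => gradN_nonneg x)
  rcases le_or_gt 1 s₀ with h1 | h1
  · refine le_trans ?_ hR
    rw [intervalIntegral.integral_symm]
    have : 0 ≤ ∫ s in (1 : ℝ)..s₀, Real.sqrt (lev g s) :=
      intervalIntegral.integral_nonneg h1 fun s _ => Real.sqrt_nonneg _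
    nlinarith
  -- the main case
  have key : ∀ δ : ℝ, 0 < δ → δ < 1 - s₀ →
      Real.sqrt Real.pi * ∫ s in s₀..1, Real.sqrt (lev g s) ≤
        (1 / 2) * (∫ x in cell 2 ∩ {x | s₀ < g x}, gradN g x) + Real.sqrt Real.pi * δ := by
    intro δ hδ hδ1
    set h : (Fin 2 → ℝ) → ℝ := fun x => tr s₀ δ (g x) with hh
    have hn : Nice h := comp_nice hg hδ hs0
    have hcut := cut_plane hn ![x₀, y₀]
    have b1 : (∫ y in (0:ℝ)..1, h ![(![x₀, y₀] : Fin 2 → ℝ) 0, y]) = 0 := by
      have : ∀ y : ℝ, h ![(![x₀, y₀] : Fin 2 → ℝ) 0, y] = 0 := fun y => tr_eq_zero hδ (hx y)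
      simp only [this]
      simp
    have b2 : (∫ x in (0:ℝ)..1, h ![x, (![x₀, y₀] : Fin 2 → ℝ) 1]) = 0 := by
      have : ∀ x : ℝ, h ![x, (![x₀, y₀] : Fin 2 → ℝ) 1] = 0 := fun x => tr_eq_zero hδ (hy x)
      simp only [this]
      simp
    rw [b1, b2, add_zero, add_zero] at hcut
    -- the total variation of `h`
    have htv : hTV h ≤ (1 / 2) * ∫ x in cell 2 ∩ {x | s₀ < g x}, gradN g x := by
      unfold hTV
      refine mul_le_mul_of_nonneg_left ?_ (by norm_num)
      have hmeas : MeasurableSet {x | s₀ < g x} :=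
        measurableSet_lt measurable_const hg.smooth.continuous.measurable
      rw [← setIntegral_indicator hmeas]
      refine setIntegral_mono_on (cont_int (gradN_cont hn.smooth))
        ((cont_int (gradN_cont hg.smooth)).indicator hmeas) cell_meas fun x _ => ?_
      rw [hh, gradN_comp hg]
      by_cases hxs : s₀ < g x
      · rw [indicator_of_mem (show x ∈ {x | s₀ < g x} from hxs)]
        have := w_le_one (s₀ := s₀) (δ := δ) (g x)
        have := gradN_nonneg (g := g) x
        nlinarith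
      · rw [indicator_of_notMem (show x ∉ {x | s₀ < g x} from hxs),
          w_eq_zero hδ (not_lt.1 hxs), zero_mul]
    -- the levels
    have hlev : ∫ s in (s₀ + δ)..1, Real.sqrt (lev g s) ≤
        ∫ s in (0:ℝ)..1, Real.sqrt (lev h s) := by
      have e1 : ∫ s in (s₀ + δ)..1, Real.sqrt (lev g s)
          = ∫ s in (0:ℝ)..(1 - (s₀ + δ)), Real.sqrt (lev g (s + (s₀ + δ))) := by
        rw [intervalIntegral.integral_comp_add_right (fun s => Real.sqrt (lev g s)) (s₀ + δ)]
        simp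
      have e2 : ∫ s in (0:ℝ)..(1 - (s₀ + δ)), Real.sqrt (lev g (s + (s₀ + δ))) ≤
          ∫ s in (0:ℝ)..(1 - (s₀ + δ)), Real.sqrt (lev h s) := by
        refine intervalIntegral.integral_mono_on (by linarith) ?_ (sqrt_lev_ii _ _) ?_
        · have : Antitone (fun s => Real.sqrt (lev g (s + (s₀ + δ)))) := fun s t hst =>
            sqrt_lev_antitone (by simpa using hst)
          exact this.intervalIntegrable
        · intro s hs
          refine Real.sqrt_le_sqrt (lev_mono fun x hxs => ?_)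
          have := le_tr (s₀ := s₀) hδ (g x)
          show s < tr s₀ δ (g x)
          linarith
      have e3 : ∫ s in (0:ℝ)..(1 - (s₀ + δ)), Real.sqrt (lev h s) ≤
          ∫ s in (0:ℝ)..1, Real.sqrt (lev h s) := by
        rw [← intervalIntegral.integral_add_adjacent_intervals (sqrt_lev_ii 0 (1 - (s₀ + δ)))
          (sqrt_lev_ii (1 - (s₀ + δ)) 1)]
        have : 0 ≤ ∫ s in (1 - (s₀ + δ))..1, Real.sqrt (lev h s) :=
          intervalIntegral.integral_nonneg (by linarith) fun s _ => Real.sqrt_nonneg _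
        linarith
      linarith
    have hsplit : ∫ s in s₀..1, Real.sqrt (lev g s)
        = (∫ s in s₀..(s₀ + δ), Real.sqrt (lev g s)) + ∫ s in (s₀ + δ)..1, Real.sqrt (lev g s) :=
      (intervalIntegral.integral_add_adjacent_intervals (sqrt_lev_ii _ _) (sqrt_lev_ii _ _)).symm
    have hsmall : ∫ s in s₀..(s₀ + δ), Real.sqrt (lev g s) ≤ δ := by
      have : ∫ s in s₀..(s₀ + δ), Real.sqrt (lev g s) ≤ ∫ s in s₀..(s₀ + δ), (1 : ℝ) :=
        intervalIntegral.integral_mono_on (by linarith) (sqrt_lev_ii _ _)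
          (continuous_const.intervalIntegrable _ _) fun s _ => sqrt_lev_le_one s
      simpa using this
    rw [hsplit]
    have h5 := mul_le_mul_of_nonneg_left hlev hpi
    have h6 := mul_le_mul_of_nonneg_left hsmall hpi
    rw [mul_add]
    linarith
  -- let `δ → 0`
  refine le_of_forall_pos_le_add fun ε hε => ?_
  have hp : 0 < Real.sqrt Real.pi := Real.sqrt_pos.2 Real.pi_pos
  have hd : 0 < min (ε / Real.sqrt Real.pi) ((1 - s₀) / 2) :=
    lt_min (div_pos hε hp) (by linarith)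
  refine (key _ hd (lt_of_le_of_lt (min_le_right _ _) (by linarith))).trans ?_
  have : Real.sqrt Real.pi * min (ε / Real.sqrt Real.pi) ((1 - s₀) / 2) ≤ ε := by
    calc Real.sqrt Real.pi * min (ε / Real.sqrt Real.pi) ((1 - s₀) / 2)
        ≤ Real.sqrt Real.pi * (ε / Real.sqrt Real.pi) :=
          mul_le_mul_of_nonneg_left (min_le_left _ _) hpi
      _ = ε := by field_simp
  linarith

end Vale.Agent.P232
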