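import Vale.Agent.P232.Defs2
import Vale.Agent.P232.Fubini
import Vale.Agent.P232.UpperAux

/-! # P232, second wave, CAL2: calibration of sections with full lines (helper78) -/

open MeasureTheory Set Filter
open scoped Topology

namespace Vale.Agent.P232

/-! ### one-dimensional tools -/

theorem C2_half {g : ℝ → ℝ} (hg : Continuous g) (hs : ∀ t, g (1 - t) = g t) :
    ∫ t in (0:ℝ)..1, g t = 2 * ∫ t in (0:ℝ)..(1/2), g t := by
  have h1 : ∫ t in (0:ℝ)..1, g t = (∫ t in (0:ℝ)..(1/2), g t) + ∫ t in (1/2:ℝ)..1, g t :=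
    (intervalIntegral.integral_add_adjacent_intervals (hg.intervalIntegrable _ _)
      (hg.intervalIntegrable _ _)).symm
  have h2 : ∫ t in (1/2:ℝ)..1, g t = ∫ t in (0:ℝ)..(1/2), g t := by
    have := intervalIntegral.integral_comp_sub_left (a := 0) (b := 1/2) g 1
    simp only [hs] at this
    rw [this]
    norm_num
  rw [h1, h2]
  ring

/-- the ramp -/
noncomputable def C2_th (p r ε t : ℝ) : ℝ := min 1 (max 0 (min ((t - p) / ε) ((r - t) / ε)))

theorem C2_th_cont (p r ε : ℝ) : Continuous (C2_th p r ε) := by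
  unfold C2_th
  fun_prop

theorem C2_th_nonneg (p r ε t : ℝ) : 0 ≤ C2_th p r ε t := le_min zero_le_one (le_max_left _ _)

theorem C2_th_le (p r ε t : ℝ) : C2_th p r ε t ≤ 1 := min_le_left _ _

theorem C2_th_lo {p r ε t : ℝ} (hε : 0 < ε) (ht : t ≤ p) : C2_th p r ε t = 0 := by
  unfold C2_th
  have h1 : (t - p) / ε ≤ 0 := div_nonpos_of_nonpos_of_nonneg (by linarith) hε.le
  rw [max_eq_left ((min_le_left _ _).trans h1)]
  norm_num

theorem C2_th_hi {p r ε t : ℝ} (hε : 0 < ε) (ht : r ≤ t) : C2_th p r ε t = 0 := by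
  unfold C2_th
  have h1 : (r - t) / ε ≤ 0 := div_nonpos_of_nonpos_of_nonneg (by linarith) hε.le
  rw [max_eq_left ((min_le_right _ _).trans h1)]
  norm_num

theorem C2_th_mid {p r ε t : ℝ} (hε : 0 < ε) (h1 : p + ε ≤ t) (h2 : t ≤ r - ε) :
    C2_th p r ε t = 1 := by
  unfold C2_th
  have h3 : 1 ≤ (t - p) / ε := by rw [le_div_iff₀ hε]; linarith
  have h4 : 1 ≤ (r - t) / ε := by rw [le_div_iff₀ hε]; linarith
  rw [min_eq_left]
  exact (le_min h3 h4).trans (le_max_right _ _)

/-- the truncation -/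
noncomputable def C2_ps (p r ε y : ℝ) : ℝ := p + ∫ t in p..y, C2_th p r ε t

theorem C2_ps_deriv (p r ε y : ℝ) : HasDerivAt (C2_ps p r ε) (C2_th p r ε y) y := by
  have h := (intervalIntegral.integral_hasDerivAt_right
    ((C2_th_cont p r ε).intervalIntegrable p y)
    ((C2_th_cont p r ε).stronglyMeasurableAtFilter _ _) (C2_th_cont p r ε).continuousAt)
  exact h.const_add p

theorem C2_ps_contDiff (p r ε : ℝ) : ContDiff ℝ 1 (C2_ps p r ε) := by
  rw [contDiff_one_iff_deriv]
  refine ⟨fun y => (C2_ps_deriv p r ε y).differentiableAt, ?_⟩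
  have : deriv (C2_ps p r ε) = C2_th p r ε := funext fun y => (C2_ps_deriv p r ε y).deriv
  rw [this]
  exact C2_th_cont p r ε

theorem C2_ps_mono (p r ε : ℝ) : Monotone (C2_ps p r ε) :=
  monotone_of_deriv_nonneg (fun y => (C2_ps_deriv p r ε y).differentiableAt) fun y => by
    rw [(C2_ps_deriv p r ε y).deriv]
    exact C2_th_nonneg _ _ _ _

theorem C2_ps_lo {p r ε y : ℝ} (hε : 0 < ε) (hy : y ≤ p) : C2_ps p r ε y = p := by
  unfold C2_ps
  rw [intervalIntegral.integral_symm, intervalIntegral.integral_zero_ae]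
  · simp
  · refine Eventually.of_forall fun t ht => ?_
    rw [uIoc_of_le hy] at ht
    exact C2_th_lo hε ht.2

theorem C2_ps_hi {p r ε y : ℝ} (hε : 0 < ε) (hy : r ≤ y) : C2_ps p r ε y = C2_ps p r ε r := by
  unfold C2_ps
  rw [← intervalIntegral.integral_add_adjacent_intervals
    ((C2_th_cont p r ε).intervalIntegrable p r) ((C2_th_cont p r ε).intervalIntegrable r y)]
  have : ∫ t in r..y, C2_th p r ε t = 0 := by
    apply intervalIntegral.integral_zero_ae
    refine Eventually.of_forall fun t ht => ?_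
    rw [uIoc_of_le hy] at ht
    exact C2_th_hi hε ht.1.le
  rw [this, add_zero]

/-- total defect of the ramp -/
theorem C2_defect {p r ε : ℝ} (hε : 0 < ε) (h2 : 2 * ε ≤ r - p) :
    ∫ t in p..r, (1 - C2_th p r ε t) ≤ 2 * ε := by
  have hc : Continuous fun t => 1 - C2_th p r ε t := continuous_const.sub (C2_th_cont p r ε)
  have e1 := intervalIntegral.integral_add_adjacent_intervals
    (hc.intervalIntegrable p (p + ε)) (hc.intervalIntegrable (μ := volume) (p + ε) (r - ε))
  have e2 := intervalIntegral.integral_add_adjacent_intervals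
    (hc.intervalIntegrable p (r - ε)) (hc.intervalIntegrable (μ := volume) (r - ε) r)
  have b1 : ∫ t in p..(p + ε), (1 - C2_th p r ε t) ≤ ε := by
    have := intervalIntegral.integral_mono_on (a := p) (b := p + ε) (by linarith)
      (hc.intervalIntegrable _ _) (continuous_const.intervalIntegrable (μ := volume) _ _)
      (g := fun _ => (1 : ℝ)) (fun t _ => by linarith [C2_th_nonneg p r ε t])
    simpa using this
  have b2 : ∫ t in (p + ε)..(r - ε), (1 - C2_th p r ε t) = 0 := by
    apply intervalIntegral.integral_zero_ae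
    refine Eventually.of_forall fun t ht => ?_
    rw [uIoc_of_le (by linarith)] at ht
    rw [C2_th_mid hε ht.1.le ht.2, sub_self]
  have b3 : ∫ t in (r - ε)..r, (1 - C2_th p r ε t) ≤ ε := by
    have := intervalIntegral.integral_mono_on (a := r - ε) (b := r) (by linarith)
      (hc.intervalIntegrable _ _) (continuous_const.intervalIntegrable (μ := volume) _ _)
      (g := fun _ => (1 : ℝ)) (fun t _ => by linarith [C2_th_nonneg p r ε t])
    simpa using this
  linarith

theorem C2_ps_gap {p r ε y : ℝ} (hε : 0 < ε) (h2 : 2 * ε ≤ r - p) (hpr : p ≤ r) :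
    r - max p (min r y) ≤ C2_ps p r ε r - C2_ps p r ε y + 2 * ε := by
  set y' := max p (min r y) with hy'
  have h3 : C2_ps p r ε y = C2_ps p r ε y' := by
    rcases le_total y p with h | h
    · have : y' = p := by
        rw [hy', min_eq_right (h.trans hpr), max_eq_left h]
      rw [this, C2_ps_lo hε h, C2_ps_lo hε le_rfl]
    · rcases le_total y r with h' | h'
      · rw [hy', min_eq_right h', max_eq_right h]
      · have : y' = r := by
          rw [hy', min_eq_left h', max_eq_right hpr]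
        rw [this, C2_ps_hi hε h']
  have hp : p ≤ y' := le_max_left _ _
  have hr : y' ≤ r := max_le hpr (min_le_left _ _)
  rw [h3]
  have hc : Continuous fun t => 1 - C2_th p r ε t := continuous_const.sub (C2_th_cont p r ε)
  have e1 : C2_ps p r ε r - C2_ps p r ε y' = ∫ t in y'..r, C2_th p r ε t := by
    unfold C2_ps
    rw [← intervalIntegral.integral_add_adjacent_intervals
      ((C2_th_cont p r ε).intervalIntegrable p y') ((C2_th_cont p r ε).intervalIntegrable y' r)]
    ring
  have e2 : ∫ t in y'..r, (1 - C2_th p r ε t) = (r - y') - ∫ t in y'..r, C2_th p r ε t := by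
    rw [intervalIntegral.integral_sub (by simp) ((C2_th_cont p r ε).intervalIntegrable _ _)]
    simp
  have e3 : ∫ t in y'..r, (1 - C2_th p r ε t) ≤ ∫ t in p..r, (1 - C2_th p r ε t) := by
    have := intervalIntegral.integral_add_adjacent_intervals
      (hc.intervalIntegrable p y') (hc.intervalIntegrable (μ := volume) y' r)
    have h0 : 0 ≤ ∫ t in p..y', (1 - C2_th p r ε t) :=
      intervalIntegral.integral_nonneg hp fun t _ => by linarith [C2_th_le p r ε t]
    linarith
  have := C2_defect hε h2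
  linarith

/-! ### two-dimensional tools -/

theorem C2_quad {F : ℝ → ℝ → ℝ} (hF : Continuous fun q : ℝ × ℝ => F q.1 q.2)
    (h0 : ∀ a b, F (1 - a) b = F a b) (h1 : ∀ a b, F a (1 - b) = F a b) :
    ∫ a in (0:ℝ)..1, ∫ b in (0:ℝ)..1, F a b =
      4 * ∫ a in (0:ℝ)..(1/2), ∫ b in (0:ℝ)..(1/2), F a b := by
  have e1 : ∀ a, ∫ b in (0:ℝ)..1, F a b = 2 * ∫ b in (0:ℝ)..(1/2), F a b := fun a =>
    C2_half (hF.comp (continuous_const.prodMk continuous_id)) (h1 a)
  simp only [e1]
  have hc : Continuous fun a => ∫ b in (0:ℝ)..(1/2), F a b :=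
    intervalIntegral.continuous_parametric_intervalIntegral_of_continuous' hF _ _
  rw [C2_half (hc.const_mul 2 |>.congr fun a => rfl) (fun a => by simp only [h0])]
  rw [intervalIntegral.integral_const_mul]
  ring

variable {h : (Fin 2 → ℝ) → ℝ}

theorem C2_even0 (hh : SymN h) (a b : ℝ) : h ![-a, b] = h ![a, b] := by
  have := hh.even ![a, b] 0
  have e : Function.update ![a, b] 0 (-(![a, b] 0)) = ![-a, b] := by
    funext i
    fin_cases i <;> simp
  rwa [e] at this

theorem C2_even1 (hh : SymN h) (a b : ℝ) : h ![a, -b] = h ![a, b] := by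
  have := hh.even ![a, b] 1
  have e : Function.update ![a, b] 1 (-(![a, b] 1)) = ![a, -b] := by
    funext i
    fin_cases i <;> simp
  rwa [e] at this

theorem C2_anti0 (hh : SymN h) (b : ℝ) {s r : ℝ} (h0 : 0 ≤ s) (h1 : s ≤ r) (h2 : r ≤ 1 / 2) :
    h ![r, b] ≤ h ![s, b] := by
  have := hh.anti ![0, b] 0 s r h0 h1 h2
  have e : ∀ t : ℝ, Function.update ![0, b] 0 t = ![t, b] := by
    intro t
    funext i
    fin_cases i <;> simp
  rwa [e, e] at this

theorem C2_anti1 (hh : SymN h) (a : ℝ) {s r : ℝ} (h0 : 0 ≤ s) (h1 : s ≤ r) (h2 : r ≤ 1 / 2) :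
    h ![a, r] ≤ h ![a, s] := by
  have := hh.anti ![a, 0] 1 s r h0 h1 h2
  have e : ∀ t : ℝ, Function.update ![a, 0] 1 t = ![a, t] := by
    intro t
    funext i
    fin_cases i <;> simp
  rwa [e, e] at this

theorem C2_refl0 (hh : SymN h) (a b : ℝ) : h ![1 - a, b] = h ![a, b] := by
  have := hh.per ![-a, b] ![1, 0]
  have e : (![-a, b] + fun i => ((![1, 0] : Fin 2 → ℤ) i : ℝ)) = ![1 - a, b] := by
    funext i
    fin_cases i
    · simp
      ring
    · simp
  rw [e] at this
  rw [this, C2_even0 hh]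

theorem C2_refl1 (hh : SymN h) (a b : ℝ) : h ![a, 1 - b] = h ![a, b] := by
  have := hh.per ![a, -b] ![0, 1]
  have e : (![a, -b] + fun i => ((![0, 1] : Fin 2 → ℤ) i : ℝ)) = ![a, 1 - b] := by
    funext i
    fin_cases i
    · simp
    · simp
      ring
  rw [e] at this
  rw [this, C2_even1 hh]

/-- partial derivatives -/
noncomputable def C2_D (h : (Fin 2 → ℝ) → ℝ) (i : Fin 2) (a b : ℝ) : ℝ :=
  fderiv ℝ h ![a, b] (Pi.single i 1)

theorem C2_vec_cont : Continuous fun q : ℝ × ℝ => (![q.1, q.2] : Fin 2 → ℝ) := by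
  apply continuous_pi
  intro i
  fin_cases i
  · exact continuous_fst
  · exact continuous_snd

theorem C2_D_cont (hh : ContDiff ℝ 1 h) (i : Fin 2) :
    Continuous fun q : ℝ × ℝ => C2_D h i q.1 q.2 := by
  have h1 : Continuous (fderiv ℝ h) := hh.continuous_fderiv (by norm_num)
  exact (h1.comp C2_vec_cont).clm_apply continuous_const

theorem C2_deriv0 (hh : ContDiff ℝ 1 h) (a b : ℝ) :
    HasDerivAt (fun t => h ![t, b]) (C2_D h 0 a b) a := by
  have h1 : HasFDerivAt h (fderiv ℝ h ![a, b]) ![a, b] :=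
    (hh.differentiable (by norm_num) _).hasFDerivAt
  have h2 : HasDerivAt (fun t : ℝ => (![t, b] : Fin 2 → ℝ)) (Pi.single 0 1) a := by
    rw [hasDerivAt_pi]
    intro i
    fin_cases i
    · simpa using hasDerivAt_id' a
    · simpa using hasDerivAt_const a b
  exact h1.comp_hasDerivAt a h2

theorem C2_deriv1 (hh : ContDiff ℝ 1 h) (a b : ℝ) :
    HasDerivAt (fun t => h ![a, t]) (C2_D h 1 a b) b := by
  have h1 : HasFDerivAt h (fderiv ℝ h ![a, b]) ![a, b] :=
    (hh.differentiable (by norm_num) _).hasFDerivAt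
  have h2 : HasDerivAt (fun t : ℝ => (![a, t] : Fin 2 → ℝ)) (Pi.single 1 1) b := by
    rw [hasDerivAt_pi]
    intro i
    fin_cases i
    · simpa using hasDerivAt_const b a
    · simpa using hasDerivAt_id' b
  exact h1.comp_hasDerivAt b h2

theorem C2_gradN (a b : ℝ) :
    gradN h ![a, b] = Real.sqrt ((C2_D h 0 a b) ^ 2 + (C2_D h 1 a b) ^ 2) := by
  unfold gradN C2_D
  rw [Fin.sum_univ_two]

theorem C2_D0_refl0 (hh : SymN h) (a b : ℝ) : C2_D h 0 (1 - a) b = -C2_D h 0 a b := by
  have h1 := C2_deriv0 hh.smooth (1 - a) b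
  have h2 : HasDerivAt (fun t : ℝ => 1 - t) (-1) a := by
    simpa using (hasDerivAt_id a).const_sub 1
  have h3 := h1.comp a h2
  have h4 : ((fun t => h ![t, b]) ∘ fun t : ℝ => 1 - t) = fun t => h ![t, b] := by
    funext t
    exact C2_refl0 hh t b
  rw [h4] at h3
  have := h3.unique (C2_deriv0 hh.smooth a b)
  linarith

theorem C2_D1_refl0 (hh : SymN h) (a b : ℝ) : C2_D h 1 (1 - a) b = C2_D h 1 a b := by
  have h1 := C2_deriv1 hh.smooth (1 - a) b
  have h4 : (fun t => h ![1 - a, t]) = fun t => h ![a, t] := by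
    funext t
    exact C2_refl0 hh a t
  rw [h4] at h1
  exact h1.unique (C2_deriv1 hh.smooth a b)

theorem C2_D0_refl1 (hh : SymN h) (a b : ℝ) : C2_D h 0 a (1 - b) = C2_D h 0 a b := by
  have h1 := C2_deriv0 hh.smooth a (1 - b)
  have h4 : (fun t => h ![t, 1 - b]) = fun t => h ![t, b] := by
    funext t
    exact C2_refl1 hh t b
  rw [h4] at h1
  exact h1.unique (C2_deriv0 hh.smooth a b)

theorem C2_D1_refl1 (hh : SymN h) (a b : ℝ) : C2_D h 1 a (1 - b) = -C2_D h 1 a b := by
  have h1 := C2_deriv1 hh.smooth a (1 - b)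
  have h2 : HasDerivAt (fun t : ℝ => 1 - t) (-1) b := by
    simpa using (hasDerivAt_id b).const_sub 1
  have h3 := h1.comp b h2
  have h4 : ((fun t => h ![a, t]) ∘ fun t : ℝ => 1 - t) = fun t => h ![a, t] := by
    funext t
    exact C2_refl1 hh a t
  rw [h4] at h3
  have := h3.unique (C2_deriv1 hh.smooth a b)
  linarith

theorem C2_gradN_cont (hh : ContDiff ℝ 1 h) : Continuous (gradN h) := by
  unfold gradN
  have h1 : Continuous (fderiv ℝ h) := hh.continuous_fderiv (by norm_num)
  apply Real.continuous_sqrt.comp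
  apply continuous_finsetSum
  intro i _
  exact (h1.clm_apply continuous_const).pow 2

/-- The truncated gradient integral over the cell. -/
theorem C2_cell_grad (hh : SymN h) (p r ε : ℝ) :
    ∫ x in cell 2, C2_th p r ε (h x) * gradN h x =
      4 * ∫ a in (0:ℝ)..(1/2), ∫ b in (0:ℝ)..(1/2),
        C2_th p r ε (h ![a, b]) * gradN h ![a, b] := by
  have hc : Continuous fun x => C2_th p r ε (h x) * gradN h x :=
    ((C2_th_cont p r ε).comp hh.smooth.continuous).mul (C2_gradN_cont hh.smooth)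
  rw [(fub_cell_two hc).1]
  apply C2_quad (F := fun a b => C2_th p r ε (h ![a, b]) * gradN h ![a, b])
    (hc.comp C2_vec_cont)
  · intro a b
    simp only [C2_refl0 hh, C2_gradN, C2_D0_refl0 hh, C2_D1_refl0 hh, neg_sq]
  · intro a b
    simp only [C2_refl1 hh, C2_gradN, C2_D0_refl1 hh, C2_D1_refl1 hh, neg_sq]

theorem C2_cell_fun (hh : SymN h) {f : ℝ → ℝ} (hf : Continuous f) :
    ∫ x in cell 2, f (h x) =
      4 * ∫ a in (0:ℝ)..(1/2), ∫ b in (0:ℝ)..(1/2), f (h ![a, b]) := by
  have hc : Continuous fun x => f (h x) := hf.comp hh.smooth.continuous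
  rw [(fub_cell_two hc).1]
  apply C2_quad (F := fun a b => f (h ![a, b])) (hc.comp C2_vec_cont)
  · intro a b
    simp only [C2_refl0 hh]
  · intro a b
    simp only [C2_refl1 hh]


/-! ### the calibration -/

noncomputable def C2_sn (e b : ℝ) : ℝ := (1 - 2 * b) / e

noncomputable def C2_cs (e b : ℝ) : ℝ := Real.sqrt (1 - (C2_sn e b) ^ 2)

theorem C2_sn_cont (e : ℝ) : Continuous (C2_sn e) := by
  unfold C2_sn
  fun_prop

theorem C2_cs_cont (e : ℝ) : Continuous (C2_cs e) := by
  unfold C2_cs C2_sn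
  fun_prop

theorem C2_cs_nonneg (e b : ℝ) : 0 ≤ C2_cs e b := Real.sqrt_nonneg _

theorem C2_cs_le (e b : ℝ) : C2_cs e b ≤ 1 := by
  unfold C2_cs
  exact Real.sqrt_le_iff.2 ⟨zero_le_one, by nlinarith [sq_nonneg (C2_sn e b)]⟩

theorem C2_sn_sq {e b : ℝ} (he : 0 < e) (h1 : (1 - e) / 2 ≤ b) (h2 : b ≤ 1 / 2) :
    (C2_sn e b) ^ 2 ≤ 1 := by
  have h3 : 0 ≤ C2_sn e b := div_nonneg (by linarith) he.le
  have h4 : C2_sn e b ≤ 1 := by
    unfold C2_sn
    rw [div_le_one he]
    linarith
  nlinarith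

/-- pointwise inequality -/
theorem C2_point {e b x y : ℝ} (h : (C2_sn e b) ^ 2 ≤ 1) :
    -x * C2_cs e b - y * C2_sn e b ≤ Real.sqrt (x ^ 2 + y ^ 2) := by
  apply Real.le_sqrt_of_sq_le
  have h1 : (C2_cs e b) ^ 2 = 1 - (C2_sn e b) ^ 2 := Real.sq_sqrt (by linarith)
  nlinarith [sq_nonneg (x * C2_sn e b - y * C2_cs e b)]

theorem C2_quarter : ∫ x in (0:ℝ)..1, Real.sqrt (1 - x ^ 2) = Real.pi / 4 := by
  have h := integral_sqrt_one_sub_sq
  have hc : Continuous fun x : ℝ => Real.sqrt (1 - x ^ 2) := by fun_prop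
  rw [← intervalIntegral.integral_add_adjacent_intervals (hc.intervalIntegrable (-1) 0)
    (hc.intervalIntegrable 0 1)] at h
  have h2 : ∫ x in (-1:ℝ)..0, Real.sqrt (1 - x ^ 2) = ∫ x in (0:ℝ)..1, Real.sqrt (1 - x ^ 2) := by
    have := intervalIntegral.integral_comp_neg (a := 0) (b := 1)
      (fun x : ℝ => Real.sqrt (1 - x ^ 2))
    simp only [neg_sq, neg_zero] at this
    exact this.symm
  rw [h2] at h
  linarith

theorem C2_cs_int {e : ℝ} (he : 0 < e) :
    ∫ b in ((1 - e) / 2)..(1/2), C2_cs e b = e * Real.pi / 8 := by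
  have h := intervalIntegral.integral_comp_sub_mul (a := (1 - e) / 2) (b := 1/2)
    (fun x : ℝ => Real.sqrt (1 - x ^ 2)) (c := 2 / e) (by positivity) (1 / e)
  have h1 : (fun b : ℝ => Real.sqrt (1 - (1 / e - 2 / e * b) ^ 2)) = C2_cs e := by
    funext b
    unfold C2_cs C2_sn
    congr 3
    ring
  have h2 : 1 / e - 2 / e * (1 / 2) = 0 := by field_simp; ring
  have h3 : 1 / e - 2 / e * ((1 - e) / 2) = 1 := by field_simp; ring
  rw [h2, h3, C2_quarter] at h
  have h4 : ∫ b in ((1 - e) / 2)..(1/2), C2_cs e b =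
      ∫ b in ((1 - e) / 2)..(1/2), Real.sqrt (1 - (1 / e - 2 / e * b) ^ 2) := by
    rw [← h1]
  rw [h4, h, smul_eq_mul, inv_div]
  ring

theorem C2_cs_int' {e e' : ℝ} (he : 0 < e) (hee : e' ≤ e) :
    (e * Real.pi / 4 - (e - e')) / 2 ≤ ∫ b in ((1 - e') / 2)..(1/2), C2_cs e b := by
  have h1 := intervalIntegral.integral_add_adjacent_intervals
    ((C2_cs_cont e).intervalIntegrable ((1 - e) / 2) ((1 - e') / 2))
    ((C2_cs_cont e).intervalIntegrable (μ := volume) ((1 - e') / 2) (1/2))
  rw [C2_cs_int he] at h1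
  have h2 := intervalIntegral.integral_mono_on (a := (1 - e) / 2) (b := (1 - e') / 2)
    (by linarith) ((C2_cs_cont e).intervalIntegrable _ _)
    (continuous_const.intervalIntegrable (μ := volume) _ _) (g := fun _ => (1 : ℝ))
    (fun t _ => C2_cs_le e t)
  rw [intervalIntegral.integral_const] at h2
  simp only [smul_eq_mul, mul_one] at h2
  linarith

theorem C2_comp (f g : ℝ → ℝ) {f' g' x : ℝ} (hf : HasDerivAt f f' (g x))
    (hg : HasDerivAt g g' x) : HasDerivAt (fun t => f (g t)) (f' * g') x := hf.comp x hg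

/-- swapping for continuous functions -/
theorem C2_swap {F : ℝ → ℝ → ℝ} (hF : Continuous fun q : ℝ × ℝ => F q.1 q.2) (a b c d : ℝ) :
    ∫ x in a..b, ∫ y in c..d, F x y = ∫ y in c..d, ∫ x in a..b, F x y := by
  apply intervalIntegral_intervalIntegral_swap
  have hk : IsCompact (uIcc a b ×ˢ uIcc c d) := isCompact_uIcc.prod isCompact_uIcc
  have h1 : IntegrableOn F.uncurry (uIcc a b ×ˢ uIcc c d) :=
    hF.continuousOn.integrableOn_compact hk
  exact h1.mono_set (Set.prod_mono uIoc_subset_uIcc uIoc_subset_uIcc)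

/-- the main inequality for the truncated function -/
theorem C2_main (hh : SymN h) {p r e e' ε : ℝ} (hε : 0 < ε) (hpr : p ≤ r)
    (he' : 0 ≤ e') (hee : e' ≤ e) (he : 0 < e) (he1 : e ≤ 1)
    (h1 : r ≤ h ![1 / 2, (1 - e) / 2]) (h2 : r ≤ h ![0, 1 / 2])
    (h3 : ∀ t, (1 - e') / 2 < t → t ≤ 1 / 2 → h ![1 / 2, t] ≤ p) :
    (1 / (2 * e)) * (4 * ∫ a in (0:ℝ)..(1/2), ∫ b in (0:ℝ)..(1/2),
        (C2_ps p r ε r - C2_ps p r ε (h ![a, b]))) +
      (C2_ps p r ε r - p) * ((e * Real.pi / 4 - (e - e')) / 2) ≤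
      ∫ a in (0:ℝ)..(1/2), ∫ b in (0:ℝ)..(1/2), C2_th p r ε (h ![a, b]) * gradN h ![a, b] := by
  set ρ := C2_ps p r ε r with hρ
  set b0 := (1 - e) / 2 with hb0
  set b1 := (1 - e') / 2 with hb1
  have hb00 : 0 ≤ b0 := by rw [hb0]; linarith
  have hb01 : b0 ≤ b1 := by rw [hb0, hb1]; linarith
  have hb02 : b0 ≤ 1 / 2 := by rw [hb0]; linarith
  have hb12 : b1 ≤ 1 / 2 := by rw [hb1]; linarith
  have hhc : Continuous h := hh.smooth.continuous
  have hpsc : Continuous (C2_ps p r ε) := (C2_ps_contDiff p r ε).continuous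
  have hthc := C2_th_cont p r ε
  have hUc : Continuous fun q : ℝ × ℝ => C2_ps p r ε (h ![q.1, q.2]) :=
    hpsc.comp (hhc.comp C2_vec_cont)
  have hTc : Continuous fun q : ℝ × ℝ => C2_th p r ε (h ![q.1, q.2]) :=
    hthc.comp (hhc.comp C2_vec_cont)
  have hD0 := C2_D_cont hh.smooth 0
  have hD1 := C2_D_cont hh.smooth 1
  have hGc : Continuous fun q : ℝ × ℝ => C2_th p r ε (h ![q.1, q.2]) * gradN h ![q.1, q.2] :=
    hTc.mul ((C2_gradN_cont hh.smooth).comp C2_vec_cont)
  have hG0 : ∀ a b, 0 ≤ C2_th p r ε (h ![a, b]) * gradN h ![a, b] := fun a b =>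
    mul_nonneg (C2_th_nonneg _ _ _ _) (Real.sqrt_nonneg _)
  -- U facts
  have hU1 : ∀ a b, 0 ≤ a → a ≤ 1 / 2 → 0 ≤ b → b ≤ b0 → C2_ps p r ε (h ![a, b]) = ρ := by
    intro a b ha0 ha1 hb0' hb1'
    apply C2_ps_hi hε
    calc r ≤ h ![1 / 2, b0] := h1
      _ ≤ h ![a, b0] := C2_anti0 hh b0 ha0 ha1 le_rfl
      _ ≤ h ![a, b] := C2_anti1 hh a hb0' hb1' hb02
  have hU2 : ∀ b, 0 ≤ b → b ≤ 1 / 2 → C2_ps p r ε (h ![0, b]) = ρ := by
    intro b hb hb'
    apply C2_ps_hi hε
    exact h2.trans (C2_anti1 hh 0 hb hb' le_rfl)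
  have hU3 : ∀ b, b1 < b → b ≤ 1 / 2 → C2_ps p r ε (h ![1 / 2, b]) = p := fun b hb hb' =>
    C2_ps_lo hε (h3 b hb hb')
  have hU4 : ∀ y, C2_ps p r ε y ≤ ρ := by
    intro y
    rcases le_total y r with hy | hy
    · exact C2_ps_mono p r ε hy
    · rw [C2_ps_hi hε hy]
  have hρp : p ≤ ρ := by
    have := C2_ps_mono p r ε hpr
    rwa [C2_ps_lo hε le_rfl] at this
  have hUd0 : ∀ a b, HasDerivAt (fun t => C2_ps p r ε (h ![t, b]))
      (C2_th p r ε (h ![a, b]) * C2_D h 0 a b) a := fun a b =>
    C2_comp (C2_ps p r ε) (fun t => h ![t, b]) (C2_ps_deriv p r ε (h ![a, b]))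
      (C2_deriv0 hh.smooth a b)
  have hUd1 : ∀ a b, HasDerivAt (fun t => C2_ps p r ε (h ![a, t]))
      (C2_th p r ε (h ![a, b]) * C2_D h 1 a b) b := fun a b =>
    C2_comp (C2_ps p r ε) (fun t => h ![a, t]) (C2_ps_deriv p r ε (h ![a, b]))
      (C2_deriv1 hh.smooth a b)
  -- the two parts of the calibration
  set A : ℝ → ℝ → ℝ := fun a b => -(C2_th p r ε (h ![a, b]) * C2_D h 0 a b) * C2_cs e b with hA
  set B : ℝ → ℝ → ℝ := fun a b => -(C2_th p r ε (h ![a, b]) * C2_D h 1 a b) * C2_sn e b with hB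
  have hAc : Continuous fun q : ℝ × ℝ => A q.1 q.2 :=
    ((hTc.mul hD0).neg).mul ((C2_cs_cont e).comp continuous_snd)
  have hBc : Continuous fun q : ℝ × ℝ => B q.1 q.2 :=
    ((hTc.mul hD1).neg).mul ((C2_sn_cont e).comp continuous_snd)
  have hGs : ∀ a, Continuous fun b => C2_th p r ε (h ![a, b]) * gradN h ![a, b] := fun a =>
    hGc.comp (continuous_const.prodMk continuous_id)
  have hT1s : ∀ a, Continuous fun b => C2_th p r ε (h ![a, b]) * C2_D h 1 a b := fun a =>
    (hTc.mul hD1).comp (continuous_const.prodMk continuous_id)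
  have hT0s : ∀ b, Continuous fun a => C2_th p r ε (h ![a, b]) * C2_D h 0 a b := fun b =>
    (hTc.mul hD0).comp (continuous_id.prodMk continuous_const)
  have hUs : ∀ a, Continuous fun b => C2_ps p r ε (h ![a, b]) := fun a =>
    hUc.comp (continuous_const.prodMk continuous_id)
  have hAs : ∀ a, Continuous (A a) := fun a => hAc.comp (continuous_const.prodMk continuous_id)
  have hBs : ∀ a, Continuous (B a) := fun a => hBc.comp (continuous_const.prodMk continuous_id)
  have hAp : Continuous fun a => ∫ b in b0..(1/2), A a b :=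
    intervalIntegral.continuous_parametric_intervalIntegral_of_continuous' hAc _ _
  have hBp : Continuous fun a => ∫ b in b0..(1/2), B a b :=
    intervalIntegral.continuous_parametric_intervalIntegral_of_continuous' hBc _ _
  have hGp : Continuous fun a => ∫ b in (0:ℝ)..(1/2),
      C2_th p r ε (h ![a, b]) * gradN h ![a, b] :=
    intervalIntegral.continuous_parametric_intervalIntegral_of_continuous'
      (f := fun a b => C2_th p r ε (h ![a, b]) * gradN h ![a, b]) hGc _ _
  -- step 1
  have s1 : ∀ a, (∫ b in b0..(1/2), A a b) + (∫ b in b0..(1/2), B a b) ≤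
      ∫ b in (0:ℝ)..(1/2), C2_th p r ε (h ![a, b]) * gradN h ![a, b] := by
    intro a
    rw [← intervalIntegral.integral_add ((hAs a).intervalIntegrable _ _)
      ((hBs a).intervalIntegrable _ _)]
    have e1 := intervalIntegral.integral_add_adjacent_intervals
      ((hGs a).intervalIntegrable 0 b0)
      ((hGs a).intervalIntegrable (μ := volume) b0 (1/2))
    have e2 : 0 ≤ ∫ b in (0:ℝ)..b0, C2_th p r ε (h ![a, b]) * gradN h ![a, b] :=
      intervalIntegral.integral_nonneg hb00 fun b _ => hG0 a b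
    have e3 : ∫ b in b0..(1/2), (A a b + B a b) ≤
        ∫ b in b0..(1/2), C2_th p r ε (h ![a, b]) * gradN h ![a, b] := by
      apply intervalIntegral.integral_mono_on hb02
        (((hAs a).add (hBs a)).intervalIntegrable _ _)
        ((hGs a).intervalIntegrable _ _)
      intro b hb
      have h4 := C2_point (x := C2_D h 0 a b) (y := C2_D h 1 a b) (C2_sn_sq he hb.1 hb.2)
      rw [C2_gradN]
      have h5 := mul_le_mul_of_nonneg_left h4 (C2_th_nonneg p r ε (h ![a, b]))
      change A a b + B a b ≤ _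
      have h6 : A a b + B a b = C2_th p r ε (h ![a, b]) *
          (-C2_D h 0 a b * C2_cs e b - C2_D h 1 a b * C2_sn e b) := by
        simp only [hA, hB]
        ring
      rw [h6]
      exact h5
    linarith
  -- step 2 : the B part
  have s2 : ∀ a, 0 ≤ a → a ≤ 1 / 2 → ∫ b in b0..(1/2), B a b =
      (2 / e) * ∫ b in (0:ℝ)..(1/2), (ρ - C2_ps p r ε (h ![a, b])) := by
    intro a ha0 ha1
    have hsd : ∀ b, HasDerivAt (C2_sn e) (-2 / e) b := by
      intro b
      have := (((hasDerivAt_id' b).const_mul 2).const_sub 1).div_const e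
      simpa [C2_sn] using! this
    have ibp := intervalIntegral.integral_mul_deriv_eq_deriv_mul (a := b0) (b := 1/2)
      (u := C2_sn e) (v := fun t => C2_ps p r ε (h ![a, t])) (u' := fun _ => -2 / e)
      (v' := fun b => C2_th p r ε (h ![a, b]) * C2_D h 1 a b)
      (fun b _ => hsd b) (fun b _ => hUd1 a b)
      (continuous_const.intervalIntegrable _ _)
      ((hT1s a).intervalIntegrable _ _)
    have g1 : C2_sn e (1/2) = 0 := by unfold C2_sn; norm_num
    have g2 : C2_sn e b0 = 1 := by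
      unfold C2_sn
      rw [hb0]
      field_simp
      ring
    have g3 : C2_ps p r ε (h ![a, b0]) = ρ := hU1 a b0 ha0 ha1 hb00 le_rfl
    rw [g1, g2, g3, zero_mul, one_mul, intervalIntegral.integral_const_mul] at ibp
    have g4 : ∫ b in b0..(1/2), B a b =
        -∫ b in b0..(1/2), C2_sn e b * (C2_th p r ε (h ![a, b]) * C2_D h 1 a b) := by
      rw [← intervalIntegral.integral_neg]
      congr 1
      funext b
      simp only [hB]
      ring
    rw [g4, ibp]
    have hUs' : Continuous fun b => C2_ps p r ε (h ![a, b]) := hUs a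
    have hUr : Continuous fun b => ρ - C2_ps p r ε (h ![a, b]) := continuous_const.sub hUs'
    have g5 : ∫ b in (0:ℝ)..(1/2), (ρ - C2_ps p r ε (h ![a, b])) =
        ∫ b in b0..(1/2), (ρ - C2_ps p r ε (h ![a, b])) := by
      rw [← intervalIntegral.integral_add_adjacent_intervals
        (hUr.intervalIntegrable 0 b0)
        (hUr.intervalIntegrable (μ := volume) b0 (1/2))]
      have : ∫ b in (0:ℝ)..b0, (ρ - C2_ps p r ε (h ![a, b])) = 0 := by
        apply intervalIntegral.integral_zero_ae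
        refine Eventually.of_forall fun b hb => ?_
        rw [uIoc_of_le hb00] at hb
        rw [hU1 a b ha0 ha1 hb.1.le hb.2, sub_self]
      rw [this, zero_add]
    rw [g5, intervalIntegral.integral_sub (by simp) (hUs'.intervalIntegrable _ _),
      intervalIntegral.integral_const, smul_eq_mul]
    have g6 : 1 / 2 - b0 = e / 2 := by rw [hb0]; ring
    rw [g6]
    field_simp
    ring
  -- step 3 : the A part
  have s3 : (ρ - p) * ((e * Real.pi / 4 - (e - e')) / 2) ≤
      ∫ a in (0:ℝ)..(1/2), ∫ b in b0..(1/2), A a b := by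
    rw [C2_swap hAc]
    have k1 : ∀ b, ∫ a in (0:ℝ)..(1/2), A a b =
        C2_cs e b * (C2_ps p r ε (h ![0, b]) - C2_ps p r ε (h ![1 / 2, b])) := by
      intro b
      have ftc := intervalIntegral.integral_eq_sub_of_hasDerivAt (a := 0) (b := 1/2)
        (fun a _ => hUd0 a b) ((hT0s b).intervalIntegrable _ _)
      have : ∫ a in (0:ℝ)..(1/2), A a b =
          (-C2_cs e b) * ∫ a in (0:ℝ)..(1/2), C2_th p r ε (h ![a, b]) * C2_D h 0 a b := by
        rw [← intervalIntegral.integral_const_mul]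
        congr 1
        funext a
        simp only [hA]
        ring
      rw [this, ftc]
      ring
    simp only [k1]
    have hWc : Continuous fun b =>
        C2_cs e b * (C2_ps p r ε (h ![0, b]) - C2_ps p r ε (h ![1 / 2, b])) :=
      (C2_cs_cont e).mul ((hUs 0).sub (hUs (1/2)))
    rw [← intervalIntegral.integral_add_adjacent_intervals (hWc.intervalIntegrable b0 b1)
      (hWc.intervalIntegrable b1 (1/2))]
    have k2 : 0 ≤ ∫ b in b0..b1,
        C2_cs e b * (C2_ps p r ε (h ![0, b]) - C2_ps p r ε (h ![1 / 2, b])) := by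
      apply intervalIntegral.integral_nonneg hb01
      intro b hb
      apply mul_nonneg (C2_cs_nonneg _ _)
      rw [hU2 b (hb00.trans hb.1) (hb.2.trans hb12)]
      linarith [hU4 (h ![1 / 2, b])]
    have k3 : ∫ b in b1..(1/2),
        C2_cs e b * (C2_ps p r ε (h ![0, b]) - C2_ps p r ε (h ![1 / 2, b])) =
        (ρ - p) * ∫ b in b1..(1/2), C2_cs e b := by
      rw [← intervalIntegral.integral_const_mul]
      apply intervalIntegral.integral_congr_ae
      refine Eventually.of_forall fun b hb => ?_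
      rw [uIoc_of_le hb12] at hb
      rw [hU2 b ((hb00.trans hb01).trans hb.1.le) hb.2, hU3 b hb.1 hb.2]
      ring
    rw [k3]
    have k4 := mul_le_mul_of_nonneg_left (C2_cs_int' he hee) (sub_nonneg.2 hρp)
    linarith
  -- conclusion
  have s4 : ∫ a in (0:ℝ)..(1/2), ((∫ b in b0..(1/2), A a b) + (∫ b in b0..(1/2), B a b)) ≤
      ∫ a in (0:ℝ)..(1/2), ∫ b in (0:ℝ)..(1/2), C2_th p r ε (h ![a, b]) * gradN h ![a, b] :=
    intervalIntegral.integral_mono_on (by norm_num)
      ((hAp.add hBp).intervalIntegrable _ _)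
      (hGp.intervalIntegrable _ _) fun a _ => s1 a
  rw [intervalIntegral.integral_add (hAp.intervalIntegrable _ _)
    (hBp.intervalIntegrable _ _)] at s4
  have s5 : ∫ a in (0:ℝ)..(1/2), ∫ b in b0..(1/2), B a b =
      (2 / e) * ∫ a in (0:ℝ)..(1/2), ∫ b in (0:ℝ)..(1/2), (ρ - C2_ps p r ε (h ![a, b])) := by
    rw [← intervalIntegral.integral_const_mul]
    apply intervalIntegral.integral_congr
    intro a ha
    rw [uIcc_of_le (by norm_num)] at ha
    exact s2 a ha.1 ha.2
  rw [s5] at s4
  have s6 : (1 / (2 * e)) * (4 * ∫ a in (0:ℝ)..(1/2), ∫ b in (0:ℝ)..(1/2),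
        (ρ - C2_ps p r ε (h ![a, b]))) =
      (2 / e) * ∫ a in (0:ℝ)..(1/2), ∫ b in (0:ℝ)..(1/2), (ρ - C2_ps p r ε (h ![a, b])) := by
    field_simp
    ring
  rw [s6]
  linarith


/-! ### layer cake and conclusion -/

theorem C2_cell_meas : MeasurableSet (cell 2) := fub_measurableSet_cell 2

theorem C2_cell_vol : volume (cell 2) = 1 := UpperPart.cell_vol

theorem C2_inner {p r : ℝ} (hpr : p ≤ r) (y : ℝ) :
    ∫ s in p..r, (if s < y then (0:ℝ) else 1) = r - max p (min r y) := by
  set m := max p (min r y) with hm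
  have hp : p ≤ m := le_max_left _ _
  have hr : m ≤ r := max_le hpr (min_le_left _ _)
  have hmono : Monotone fun s : ℝ => if s < y then (0:ℝ) else 1 := by
    intro s t hst
    dsimp only
    by_cases h2 : t < y
    · have h1 : s < y := hst.trans_lt h2
      simp [h1, h2]
    · by_cases h1 : s < y <;> simp [h1, h2]
  rw [← intervalIntegral.integral_add_adjacent_intervals
    (hmono.intervalIntegrable (a := p) (b := m)) (hmono.intervalIntegrable (a := m) (b := r))]
  have e1 : ∫ s in p..m, (if s < y then (0:ℝ) else 1) = 0 := by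
    apply intervalIntegral.integral_zero_ae
    have : ∀ᵐ s : ℝ, s ≠ m := by
      rw [ae_iff]
      simp
    filter_upwards [this] with s hs hs'
    rw [uIoc_of_le hp] at hs'
    have h1 : s < m := lt_of_le_of_ne hs'.2 hs
    have h2 : m = min r y := by
      rcases max_choice p (min r y) with h | h
      · exfalso
        rw [← hm] at h
        linarith [hs'.1]
      · rw [hm, h]
    have h3 : s < y := h1.trans_le (h2 ▸ min_le_right _ _)
    simp [h3]
  have e2 : ∫ s in m..r, (if s < y then (0:ℝ) else 1) = ∫ s in m..r, (1:ℝ) := by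
    apply intervalIntegral.integral_congr_ae
    refine Eventually.of_forall fun s hs => ?_
    rw [uIoc_of_le hr] at hs
    have h1 : min r y < s := lt_of_le_of_lt (le_max_right _ _) hs.1
    have h2 : ¬ s < y := by
      intro h3
      rcases min_choice r y with h | h
      · rw [h] at h1
        linarith [hs.2]
      · rw [h] at h1
        linarith
    simp [h2]
  rw [e1, e2]
  simp

theorem C2_lev (hh : SymN h) (s : ℝ) :
    1 - lev h s = ∫ x in cell 2, (if s < h x then (0:ℝ) else 1) := by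
  have hms : MeasurableSet {x | s < h x} :=
    measurableSet_lt measurable_const hh.smooth.continuous.measurable
  have h1 : lev h s = ∫ x in cell 2, ({x | s < h x}.indicator (fun _ => (1:ℝ))) x := by
    change _ = ∫ x in cell 2, ({x | s < h x}.indicator (1 : (Fin 2 → ℝ) → ℝ)) x
    rw [integral_indicator_one hms, Measure.real, Measure.restrict_apply hms]
    rfl
  have h2 : (1:ℝ) = ∫ x in cell 2, (1:ℝ) := by
    rw [setIntegral_const, Measure.real, C2_cell_vol]
    simp
  have : IsFiniteMeasure (volume.restrict (cell 2)) := ⟨by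
    rw [Measure.restrict_apply_univ, C2_cell_vol]
    exact ENNReal.one_lt_top⟩
  rw [h1]
  nth_rewrite 1 [h2]
  rw [← integral_sub (integrable_const _) ((integrable_const (1:ℝ)).indicator hms)]
  congr 1
  funext x
  by_cases hx : s < h x
  · simp [hx]
  · simp [hx]

theorem C2_layer (hh : SymN h) {p r : ℝ} (hpr : p ≤ r) :
    ∫ s in p..r, (1 - lev h s) = ∫ x in cell 2, (r - max p (min r (h x))) := by
  simp only [C2_lev hh]
  have : IsFiniteMeasure (volume.restrict (cell 2)) := ⟨by
    rw [Measure.restrict_apply_univ, C2_cell_vol]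
    exact ENNReal.one_lt_top⟩
  have hms : MeasurableSet {q : ℝ × (Fin 2 → ℝ) | q.1 < h q.2} :=
    measurableSet_lt measurable_fst (hh.smooth.continuous.measurable.comp measurable_snd)
  rw [intervalIntegral_integral_swap]
  · congr 1
    funext x
    exact C2_inner hpr (h x)
  · have : IsFiniteMeasure (volume.restrict (uIoc p r)) := ⟨by
      rw [Measure.restrict_apply_univ, uIoc]
      exact measure_Ioc_lt_top⟩
    apply Integrable.of_bound (C := 1)
    · apply Measurable.aestronglyMeasurable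
      exact Measurable.ite hms measurable_const measurable_const
    · refine Eventually.of_forall fun q => ?_
      simp only [Function.uncurry]
      split_ifs <;> simp

theorem C2_grad_le (hh : SymN h) {p r ε : ℝ} (hε : 0 < ε) :
    ∫ x in cell 2, C2_th p r ε (h x) * gradN h x ≤
      ∫ x in cell 2 ∩ {x | p < h x ∧ h x < r}, gradN h x := by
  have hhc := hh.smooth.continuous
  have hm : MeasurableSet (cell 2 ∩ {x | p < h x ∧ h x < r}) :=
    C2_cell_meas.inter ((measurableSet_lt measurable_const hhc.measurable).inter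
      (measurableSet_lt hhc.measurable measurable_const))
  have hgi : IntegrableOn (gradN h) (cell 2) := UpperPart.cont_int (C2_gradN_cont hh.smooth)
  have hc : Continuous fun x => C2_th p r ε (h x) * gradN h x :=
    ((C2_th_cont p r ε).comp hhc).mul (C2_gradN_cont hh.smooth)
  have hti : IntegrableOn (fun x => C2_th p r ε (h x) * gradN h x) (cell 2) :=
    UpperPart.cont_int hc
  have e1 : ∫ x in cell 2, C2_th p r ε (h x) * gradN h x =
      ∫ x in cell 2 ∩ {x | p < h x ∧ h x < r}, C2_th p r ε (h x) * gradN h x := by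
    apply setIntegral_eq_of_subset_of_forall_sdiff_eq_zero C2_cell_meas inter_subset_left
    intro x hx
    have h1 : ¬ (p < h x ∧ h x < r) := fun h2 => hx.2 ⟨hx.1, h2⟩
    rw [not_and_or, not_lt, not_lt] at h1
    rcases h1 with h1 | h1
    · rw [C2_th_lo hε h1, zero_mul]
    · rw [C2_th_hi hε h1, zero_mul]
  rw [e1]
  apply setIntegral_mono_on (hti.mono_set inter_subset_left) (hgi.mono_set inter_subset_left) hm
  intro x _
  calc C2_th p r ε (h x) * gradN h x ≤ 1 * gradN h x :=
        mul_le_mul_of_nonneg_right (C2_th_le p r ε (h x)) (Real.sqrt_nonneg _)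
    _ = gradN h x := one_mul _

theorem cal_two {h : (Fin 2 → ℝ) → ℝ} (hh : SymN h) {p r e e' : ℝ} (h0 : 0 ≤ p) (hpr : p ≤ r)
    (he' : 0 ≤ e') (hee : e' ≤ e) (he : 0 < e) (he1 : e ≤ 1)
    (h1 : r ≤ h ![1 / 2, (1 - e) / 2]) (h2 : r ≤ h ![0, 1 / 2])
    (h3 : ∀ t, (1 - e') / 2 < t → t ≤ 1 / 2 → h ![1 / 2, t] ≤ p) :
    ∫ s in p..r, ((1 - lev h s) / e + Real.pi * e / 4 - (e - e')) ≤
      (1 / 2) * ∫ x in cell 2 ∩ {x | p < h x ∧ h x < r}, gradN h x := by
  rcases hpr.eq_or_lt with rfl | hlt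
  · rw [intervalIntegral.integral_same]
    apply mul_nonneg (by norm_num)
    exact integral_nonneg fun x => Real.sqrt_nonneg _
  set K := Real.pi * e / 4 - (e - e') with hK
  set X := ∫ x in cell 2 ∩ {x | p < h x ∧ h x < r}, gradN h x with hX
  have hli : IntervalIntegrable (fun s => 1 - lev h s) volume p r :=
    (UpperPart.lev_antitone (g := h)).neg.add_const 1 |>.intervalIntegrable.congr (by
      intro s _
      ring)
  have hL : ∫ s in p..r, ((1 - lev h s) / e + Real.pi * e / 4 - (e - e')) =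
      (1 / e) * (∫ x in cell 2, (r - max p (min r (h x)))) + (r - p) * K := by
    have e1 : (fun s => (1 - lev h s) / e + Real.pi * e / 4 - (e - e')) =
        fun s => (1 / e) * (1 - lev h s) + K := by
      funext s
      rw [hK]
      ring
    rw [e1, intervalIntegral.integral_add (hli.const_mul _) (by simp),
      intervalIntegral.integral_const_mul, C2_layer hh hpr]
    simp
  rw [hL]
  apply le_of_forall_pos_le_add
  intro δ hδ
  set M := 2 / e + 2 * |K| + 1 with hM
  have hMpos : 0 < M := by positivity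
  obtain ⟨ε, hε, hε1, hε2⟩ : ∃ ε : ℝ, 0 < ε ∧ 2 * ε ≤ r - p ∧ ε * M ≤ δ := by
    refine ⟨min ((r - p) / 2) (δ / M), lt_min (by linarith) (by positivity), ?_, ?_⟩
    · have := min_le_left ((r - p) / 2) (δ / M)
      linarith
    · have := min_le_right ((r - p) / 2) (δ / M)
      rwa [le_div_iff₀ hMpos] at this
  have hm := C2_main hh hε hpr he' hee he he1 h1 h2 h3
  set ρ := C2_ps p r ε r with hρ
  have hc1 := C2_cell_fun hh (f := fun y => ρ - C2_ps p r ε y)
    (continuous_const.sub (C2_ps_contDiff p r ε).continuous)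
  have hc2 := C2_cell_grad hh p r ε
  have hc3 := C2_grad_le hh (p := p) (r := r) hε
  have hc4 : ∫ x in cell 2, (r - max p (min r (h x))) ≤
      ∫ x in cell 2, ((ρ - C2_ps p r ε (h x)) + 2 * ε) := by
    have hhc := hh.smooth.continuous
    have q1 : Continuous fun x => r - max p (min r (h x)) := by fun_prop
    have q2 : Continuous fun x => (ρ - C2_ps p r ε (h x)) + 2 * ε :=
      (continuous_const.sub ((C2_ps_contDiff p r ε).continuous.comp hhc)).add continuous_const
    apply setIntegral_mono_on (UpperPart.cont_int q1) (UpperPart.cont_int q2) C2_cell_meas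
    intro x _
    exact C2_ps_gap hε hε1 hpr
  have hc5 : ∫ x in cell 2, ((ρ - C2_ps p r ε (h x)) + 2 * ε) =
      (∫ x in cell 2, (ρ - C2_ps p r ε (h x))) + 2 * ε := by
    have hhc := hh.smooth.continuous
    have q2 : Continuous fun x => (ρ - C2_ps p r ε (h x)) :=
      (continuous_const.sub ((C2_ps_contDiff p r ε).continuous.comp hhc))
    have q3 : Continuous fun _ : Fin 2 → ℝ => 2 * ε := continuous_const
    rw [integral_add (UpperPart.cont_int q2) (UpperPart.cont_int q3), setIntegral_const,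
      Measure.real, C2_cell_vol]
    simp
  have hρ1 : r - ρ ≤ 2 * ε := by
    have := C2_ps_gap (y := p) hε hε1 hpr
    rw [C2_ps_lo hε le_rfl, min_eq_right hpr, max_self] at this
    linarith
  have hρ2 : 0 ≤ r - ρ := by
    have h5 : ρ - p ≤ r - p := by
      have e1 : ρ - p = ∫ t in p..r, C2_th p r ε t := by
        rw [hρ]
        unfold C2_ps
        ring
      rw [e1]
      have := intervalIntegral.integral_mono_on hpr ((C2_th_cont p r ε).intervalIntegrable _ _)
        (continuous_const.intervalIntegrable (μ := volume) _ _) (g := fun _ => (1 : ℝ))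
        (fun t _ => C2_th_le p r ε t)
      simpa using this
    linarith
  have hKK : (r - ρ) * K ≤ 2 * ε * |K| := by
    calc (r - ρ) * K ≤ (r - ρ) * |K| := mul_le_mul_of_nonneg_left (le_abs_self K) hρ2
      _ ≤ 2 * ε * |K| := mul_le_mul_of_nonneg_right hρ1 (abs_nonneg K)
  rw [← hc1] at hm
  have hKe : e * Real.pi / 4 - (e - e') = K := by rw [hK]; ring
  rw [hKe] at hm
  set C := ∫ x in cell 2, (ρ - C2_ps p r ε (h x)) with hC
  have e3 : (1 / e) * (∫ x in cell 2, (r - max p (min r (h x)))) ≤ (1 / e) * (C + 2 * ε) :=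
    mul_le_mul_of_nonneg_left (hc4.trans_eq hc5) (by positivity)
  have e4 : (1 / (2 * e)) * C = (1 / e) * C / 2 := by
    field_simp
  rw [e4] at hm
  have e5 : ε * M = (1 / e) * (2 * ε) + 2 * ε * |K| + ε := by
    rw [hM]
    ring
  have e6 : (1 / e) * (C + 2 * ε) = (1 / e) * C + (1 / e) * (2 * ε) := by ring
  nlinarith [hm, hc2, hc3, e3, e5, e6, hKK, hε2]

end Vale.Agent.P232
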