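import Vale.Agent.P232.Defs

/-! # P232, D3: Hölder bounds for the planar profile -/

namespace Vale.Agent.P232

theorem D3_aux {u v : ℝ} (hv : 0 ≤ v) (huv : v ≤ u) :
    Real.sqrt u - Real.sqrt v ≤ Real.sqrt (u - v) := by
  have h1 : Real.sqrt u ≤ Real.sqrt v + Real.sqrt (u - v) := by
    rw [Real.sqrt_le_iff]
    refine ⟨by positivity, ?_⟩
    have e1 := Real.sq_sqrt hv
    have e2 := Real.sq_sqrt (sub_nonneg.mpr huv)
    have e3 : 0 ≤ Real.sqrt v * Real.sqrt (u - v) := by positivity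
    nlinarith
  linarith

theorem D3_abs {u v : ℝ} (hu : 0 ≤ u) (hv : 0 ≤ v) :
    |Real.sqrt u - Real.sqrt v| ≤ Real.sqrt |u - v| := by
  rcases le_total v u with h | h
  · rw [abs_of_nonneg (sub_nonneg.mpr (Real.sqrt_le_sqrt h)), abs_of_nonneg (sub_nonneg.mpr h)]
    exact D3_aux hv h
  · rw [abs_sub_comm, abs_sub_comm u v, abs_of_nonneg (sub_nonneg.mpr (Real.sqrt_le_sqrt h)),
      abs_of_nonneg (sub_nonneg.mpr h)]
    exact D3_aux hu h

theorem sqrt_holder (x y : ℝ) (hx : 0 ≤ x) (hx1 : x ≤ 1) (hy : 0 ≤ y) (hy1 : y ≤ 1) :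
    |Real.sqrt (Real.pi * x) - Real.sqrt (Real.pi * y)| ≤ Real.sqrt (Real.pi * |x - y|) := by
  have hp := Real.pi_pos
  have h1 := D3_abs (mul_nonneg hp.le hx) (mul_nonneg hp.le hy)
  rw [← mul_sub, abs_mul, abs_of_pos hp] at h1
  exact h1

theorem I2_holder (x y : ℝ) (hx : 0 ≤ x) (hx1 : x ≤ 1) (hy : 0 ≤ y) (hy1 : y ≤ 1) :
    |I2 x - I2 y| ≤ Real.sqrt (Real.pi * |x - y|) := by
  have h1 := sqrt_holder x y hx hx1 hy hy1
  have h2 := sqrt_holder (1 - x) (1 - y) (by linarith) (by linarith) (by linarith) (by linarith)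
  have e2 : (1 - x) - (1 - y) = y - x := by ring
  rw [e2, abs_sub_comm y x] at h2
  unfold I2
  refine (abs_min_sub_min_le_max _ _ _ _).trans (max_le ?_ h2)
  refine (abs_min_sub_min_le_max _ _ _ _).trans (max_le h1 ?_)
  rw [sub_self, abs_zero]
  exact Real.sqrt_nonneg _

end Vale.Agent.P232
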