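import Vale.Agent.P232.LevDev

/-!
# P232: D2, averages of Hölder functions of the level measure
-/

open MeasureTheory Set

namespace Vale.Agent.P232

private theorem ha_lev_mem {g : (Fin 2 → ℝ) → ℝ} (s : ℝ) : 0 ≤ lev g s ∧ lev g s ≤ 1 := by
  refine ⟨ENNReal.toReal_nonneg, ?_⟩
  unfold lev
  have h : volume ({x | s < g x} ∩ cell 2) ≤ 1 := by
    refine (measure_mono Set.inter_subset_right).trans ?_
    unfold cell
    rw [Real.volume_pi_Ico]
    simp
  exact ENNReal.toReal_le_of_le_ofReal zero_le_one (by simpa using h)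

private theorem ha_lev_anti {g : (Fin 2 → ℝ) → ℝ} : Antitone (lev g) := by
  intro s t hst
  unfold lev
  refine ENNReal.toReal_mono ?_ (measure_mono ?_)
  · refine ne_top_of_le_ne_top ?_ (measure_mono Set.inter_subset_right)
    unfold cell
    rw [Real.volume_pi_Ico]
    simp
  · rintro x ⟨h1, h2⟩
    exact ⟨lt_of_le_of_lt hst h1, h2⟩

/- D2 -/
theorem holder_avg {g : (Fin 2 → ℝ) → ℝ} (hg : Nice g) {F : ℝ → ℝ}
    (hF : ∀ x y, 0 ≤ x → x ≤ 1 → 0 ≤ y → y ≤ 1 → |F x - F y| ≤ Real.sqrt (Real.pi * |x - y|)) :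
    F (∫ x in cell 2, g x) - Real.sqrt (2 * Real.pi * ∫ x in cell 2, g x * (1 - g x)) ≤
      ∫ s in (0:ℝ)..1, F (lev g s) := by
  have hπ := Real.pi_pos
  set a : ℝ := ∫ x in cell 2, g x with ha
  set G : ℝ := ∫ x in cell 2, g x * (1 - g x) with hG
  have hdev := lev_dev hg
  rw [← ha, ← hG] at hdev
  have hgi : IntegrableOn g (cell 2) := by
    have hfin : IsFiniteMeasure (volume.restrict (cell 2)) := ⟨by
      rw [Measure.restrict_apply_univ]
      unfold cell
      rw [Real.volume_pi_Ico]
      simp⟩
    refine Integrable.of_bound (C := 1) hg.smooth.continuous.aestronglyMeasurable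
      (Filter.Eventually.of_forall fun x => ?_)
    rw [Real.norm_eq_abs, abs_of_nonneg (hg.nonneg x)]
    exact hg.le_one x
  have ha0 : 0 ≤ a := setIntegral_nonneg
    (MeasurableSet.univ_pi fun _ => measurableSet_Ico) fun x _ => hg.nonneg x
  have ha1 : a ≤ 1 := by
    have h1 : a ≤ ∫ _x in cell 2, (1 : ℝ) := by
      refine integral_mono hgi ?_ fun x => hg.le_one x
      refine integrable_const_iff.2 (Or.inr ⟨?_⟩)
      rw [Measure.restrict_apply_univ]
      unfold cell
      rw [Real.volume_pi_Ico]
      simp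
    refine h1.trans ?_
    rw [setIntegral_const, smul_eq_mul, mul_one, Measure.real]
    unfold cell
    rw [Real.volume_pi_Ico]
    simp
  -- the function s ↦ F (lev g s) is measurable and bounded
  have hFc : ContinuousOn F (Set.Icc 0 1) := by
    rw [Metric.continuousOn_iff]
    intro x hx ε hε
    refine ⟨ε ^ 2 / (2 * Real.pi), by positivity, fun y hy hxy => ?_⟩
    rw [Real.dist_eq] at hxy ⊢
    refine (hF y x hy.1 hy.2 hx.1 hx.2).trans_lt ?_
    rw [Real.sqrt_lt' hε]
    have : Real.pi * |y - x| < Real.pi * (ε ^ 2 / (2 * Real.pi)) :=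
      mul_lt_mul_of_pos_left hxy hπ
    have e : Real.pi * (ε ^ 2 / (2 * Real.pi)) = ε ^ 2 / 2 := by field_simp
    rw [e] at this
    have : 0 < ε ^ 2 := by positivity
    linarith
  have hF' : Continuous fun x => F (Set.projIcc (0 : ℝ) 1 zero_le_one x : ℝ) :=
    hFc.comp_continuous (continuous_subtype_val.comp continuous_projIcc) fun x => Subtype.coe_prop _
  have hFl : (fun s => F (lev g s)) =
      (fun x => F (Set.projIcc (0 : ℝ) 1 zero_le_one x : ℝ)) ∘ lev g := by
    funext s
    rw [Function.comp_apply, Set.projIcc_of_mem zero_le_one (ha_lev_mem s)]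
  have hFm : Measurable fun s => F (lev g s) := by
    rw [hFl]
    exact hF'.measurable.comp ha_lev_anti.measurable
  have hsm : Measurable fun s => Real.sqrt (Real.pi * |lev g s - a|) := by
    have h1 : Measurable fun s => |lev g s - a| := (ha_lev_anti.measurable.sub measurable_const).norm
    exact (h1.const_mul _).sqrt
  have habs : ∀ s, |lev g s - a| ≤ 1 := by
    intro s
    have h := ha_lev_mem (g := g) s
    rw [abs_le]
    constructor <;> linarith [h.1, h.2]
  have hpt : ∀ s, F a - Real.sqrt (Real.pi * |lev g s - a|) ≤ F (lev g s) := by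
    intro s
    have h := hF a (lev g s) ha0 ha1 (ha_lev_mem s).1 (ha_lev_mem s).2
    rw [abs_sub_comm a] at h
    linarith [le_abs_self (F a - F (lev g s))]
  have hsI : IntervalIntegrable (fun s => Real.sqrt (Real.pi * |lev g s - a|)) volume 0 1 := by
    rw [intervalIntegrable_iff_integrableOn_Ioc_of_le zero_le_one]
    refine Integrable.of_bound (C := Real.sqrt Real.pi) hsm.aestronglyMeasurable
      (Filter.Eventually.of_forall fun s => ?_)
    rw [Real.norm_eq_abs, abs_of_nonneg (Real.sqrt_nonneg _)]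
    exact Real.sqrt_le_sqrt (by nlinarith [habs s, abs_nonneg (lev g s - a)])
  have hFI : IntervalIntegrable (fun s => F (lev g s)) volume 0 1 := by
    rw [intervalIntegrable_iff_integrableOn_Ioc_of_le zero_le_one]
    refine Integrable.of_bound (C := |F a| + Real.sqrt Real.pi) hFm.aestronglyMeasurable
      (Filter.Eventually.of_forall fun s => ?_)
    rw [Real.norm_eq_abs]
    have h := hF (lev g s) a (ha_lev_mem s).1 (ha_lev_mem s).2 ha0 ha1
    have h2 : Real.sqrt (Real.pi * |lev g s - a|) ≤ Real.sqrt Real.pi :=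
      Real.sqrt_le_sqrt (by nlinarith [habs s, abs_nonneg (lev g s - a)])
    have h3 : |F (lev g s)| ≤ |F a| + |F (lev g s) - F a| := by
      have := abs_add_le (F a) (F (lev g s) - F a)
      simpa using this
    linarith
  have hdI : IntervalIntegrable (fun s => |lev g s - a|) volume 0 1 := by
    rw [intervalIntegrable_iff_integrableOn_Ioc_of_le zero_le_one]
    refine Integrable.of_bound (C := 1)
      (ha_lev_anti.measurable.sub measurable_const).norm.aestronglyMeasurable
      (Filter.Eventually.of_forall fun s => ?_)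
    rw [Real.norm_eq_abs, abs_abs]
    exact habs s
  have h1 : F a - ∫ s in (0:ℝ)..1, Real.sqrt (Real.pi * |lev g s - a|) ≤
      ∫ s in (0:ℝ)..1, F (lev g s) := by
    have h2 : ∫ s in (0:ℝ)..1, (F a - Real.sqrt (Real.pi * |lev g s - a|)) ≤
        ∫ s in (0:ℝ)..1, F (lev g s) :=
      intervalIntegral.integral_mono zero_le_one
        (intervalIntegrable_const.sub hsI) hFI hpt
    rw [intervalIntegral.integral_sub intervalIntegrable_const hsI] at h2
    simpa using h2
  have hG0 : 0 ≤ G := setIntegral_nonneg (MeasurableSet.univ_pi fun _ => measurableSet_Ico)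
    fun x _ => mul_nonneg (hg.nonneg x) (by linarith [hg.le_one x])
  -- Cauchy-Schwarz
  set B : ℝ := Real.sqrt (2 * Real.pi * G) with hB
  have hB2 : B ^ 2 = 2 * Real.pi * G := Real.sq_sqrt (by positivity)
  have hB0 : 0 ≤ B := Real.sqrt_nonneg _
  have hcs : ∀ l : ℝ, 0 < l → ∫ s in (0:ℝ)..1, Real.sqrt (Real.pi * |lev g s - a|) ≤
      (B ^ 2 / l + l) / 2 := by
    intro l hl
    have h3 : ∫ s in (0:ℝ)..1, Real.sqrt (Real.pi * |lev g s - a|) ≤
        ∫ s in (0:ℝ)..1, ((Real.pi / (2 * l)) * |lev g s - a| + l / 2) := by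
      refine intervalIntegral.integral_mono zero_le_one hsI
        ((hdI.const_mul _).add intervalIntegrable_const) fun s => ?_
      show Real.sqrt (Real.pi * |lev g s - a|) ≤ (Real.pi / (2 * l)) * |lev g s - a| + l / 2
      have h4 := Real.sq_sqrt (show 0 ≤ Real.pi * |lev g s - a| by positivity)
      have h5 := Real.sqrt_nonneg (Real.pi * |lev g s - a|)
      have h6 : 0 ≤ (Real.sqrt (Real.pi * |lev g s - a|) - l) ^ 2 := sq_nonneg _
      have e : (Real.pi / (2 * l)) * |lev g s - a| + l / 2 =
          (Real.sqrt (Real.pi * |lev g s - a|) ^ 2 + l ^ 2) / (2 * l) := by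
        rw [h4]; field_simp
      rw [e, le_div_iff₀ (by positivity)]
      nlinarith
    refine h3.trans ?_
    rw [intervalIntegral.integral_add (hdI.const_mul _) intervalIntegrable_const,
      intervalIntegral.integral_const_mul, intervalIntegral.integral_const]
    have h7 : (Real.pi / (2 * l)) * ∫ s in (0:ℝ)..1, |lev g s - a| ≤ (Real.pi / (2 * l)) * (2 * G) :=
      mul_le_mul_of_nonneg_left hdev (by positivity)
    have e2 : (Real.pi / (2 * l)) * (2 * G) = B ^ 2 / l / 2 := by
      rw [hB2]; field_simp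
    rw [e2] at h7
    simp only [sub_zero, one_smul]
    linarith
  have hfinal : ∫ s in (0:ℝ)..1, Real.sqrt (Real.pi * |lev g s - a|) ≤ B := by
    refine le_of_forall_pos_le_add fun ε hε => ?_
    have hl : 0 < B + ε := by linarith
    refine (hcs (B + ε) hl).trans ?_
    have : B ^ 2 / (B + ε) ≤ B + ε := by
      rw [div_le_iff₀ hl]
      nlinarith
    linarith
  linarith

end Vale.Agent.P232
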