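import Vale.Agent.P232.Defs2
import Vale.Agent.P232.HolderAvg
import Vale.Agent.P232.Holder

/-! # P232, 2HO: Hölder bounds with constant `12` -/

open MeasureTheory Set

namespace Vale.Agent.P232

private theorem HO2_sqrt_pi_pos : 0 < Real.sqrt Real.pi := Real.sqrt_pos.2 Real.pi_pos

private theorem HO2_sqrt_pi_le : Real.sqrt Real.pi ≤ 2 := by
  rw [Real.sqrt_le_left (by norm_num)]
  linarith [Real.pi_le_four]

private theorem HO2_sqrt_mul (d : ℝ) : Real.sqrt (Real.pi * d) ≤ 2 * Real.sqrt d := by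
  rw [Real.sqrt_mul Real.pi_pos.le]
  exact mul_le_mul_of_nonneg_right HO2_sqrt_pi_le (Real.sqrt_nonneg _)

private theorem HO2_lin {d : ℝ} (h0 : 0 ≤ d) (h1 : d ≤ 1) : d ≤ Real.sqrt d := by
  have e := Real.sq_sqrt h0
  have e0 := Real.sqrt_nonneg d
  have e1 : Real.sqrt d ≤ 1 := by
    rw [Real.sqrt_le_left zero_le_one]
    linarith
  nlinarith

private theorem HO2_abs_le {x y : ℝ} (hx : 0 ≤ x) (hx1 : x ≤ 1) (hy : 0 ≤ y) (hy1 : y ≤ 1) :
    |x - y| ≤ 1 := by
  rw [abs_le]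
  constructor <;> linarith

theorem holder_avg2 {g : (Fin 2 → ℝ) → ℝ} (hg : Nice g) {F : ℝ → ℝ}
    (hF : ∀ x y, 0 ≤ x → x ≤ 1 → 0 ≤ y → y ≤ 1 → |F x - F y| ≤ 12 * Real.sqrt |x - y|) :
    F (∫ x in cell 2, g x) - 12 * Real.sqrt (2 * ∫ x in cell 2, g x * (1 - g x)) ≤
      ∫ s in (0:ℝ)..1, F (lev g s) := by
  have hp := HO2_sqrt_pi_pos
  have h1 := holder_avg hg (F := fun x => Real.sqrt Real.pi / 12 * F x) (by
    intro x y hx hx1 hy hy1
    have h := hF x y hx hx1 hy hy1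
    rw [← mul_sub, abs_mul, abs_of_pos (by positivity), Real.sqrt_mul Real.pi_pos.le]
    have h2 : Real.sqrt Real.pi / 12 * |F x - F y| ≤
        Real.sqrt Real.pi / 12 * (12 * Real.sqrt |x - y|) :=
      mul_le_mul_of_nonneg_left h (by positivity)
    linarith)
  rw [intervalIntegral.integral_const_mul] at h1
  have e : Real.sqrt (2 * Real.pi * ∫ x in cell 2, g x * (1 - g x)) =
      Real.sqrt Real.pi / 12 * (12 * Real.sqrt (2 * ∫ x in cell 2, g x * (1 - g x))) := by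
    rw [show 2 * Real.pi * ∫ x in cell 2, g x * (1 - g x) =
      Real.pi * (2 * ∫ x in cell 2, g x * (1 - g x)) by ring, Real.sqrt_mul Real.pi_pos.le]
    ring
  rw [e, ← mul_sub] at h1
  exact le_of_mul_le_mul_left h1 (by positivity)

theorem FA_holder (x y : ℝ) (hx : 0 ≤ x) (hx1 : x ≤ 1) (hy : 0 ≤ y) (hy1 : y ≤ 1) :
    |FA x - FA y| ≤ 12 * Real.sqrt |x - y| := by
  have h1 := sqrt_holder x y hx hx1 hy hy1
  have h2 := HO2_sqrt_mul |x - y|
  have h3 := Real.sqrt_nonneg |x - y|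
  unfold FA
  refine (abs_min_sub_min_le_max _ _ _ _).trans (max_le (by linarith) ?_)
  rw [sub_self, abs_zero]
  positivity

theorem I2_holder2 (x y : ℝ) (hx : 0 ≤ x) (hx1 : x ≤ 1) (hy : 0 ≤ y) (hy1 : y ≤ 1) :
    |I2 x - I2 y| ≤ 12 * Real.sqrt |x - y| := by
  have h1 := I2_holder x y hx hx1 hy hy1
  have h2 := HO2_sqrt_mul |x - y|
  have h3 := Real.sqrt_nonneg |x - y|
  linarith

private theorem HO2_KT {T : ℝ} (hT1 : T ≤ 0.9) (a : ℝ) :
    KT T a = Real.sqrt (Real.pi * min (1 - a) (Real.pi * (1 - T) ^ 2 / 4)) +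
      max (1 - a - Real.pi * (1 - T) ^ 2 / 4) 0 / (1 - T) := by
  have hT : 0 < 1 - T := by linarith
  unfold KT
  split_ifs with h
  · rw [min_eq_left h, max_eq_right (by linarith), zero_div, add_zero]
  · have h' := (not_le.1 h).le
    rw [min_eq_right h', max_eq_left (by linarith)]
    have e : Real.pi * (Real.pi * (1 - T) ^ 2 / 4) = (Real.pi * (1 - T) / 2) ^ 2 := by ring
    rw [e, Real.sqrt_sq (by have := Real.pi_pos; positivity)]
    field_simp
    ring

theorem KT_holder {T : ℝ} (hT0 : 0 ≤ T) (hT1 : T ≤ 0.9)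
    (x y : ℝ) (hx : 0 ≤ x) (hx1 : x ≤ 1) (hy : 0 ≤ y) (hy1 : y ≤ 1) :
    |KT T x - KT T y| ≤ 12 * Real.sqrt |x - y| := by
  have hp := Real.pi_pos
  have hT : 0.1 ≤ 1 - T := by linarith
  have hTpos : 0 < 1 - T := by linarith
  rw [HO2_KT hT1, HO2_KT hT1]
  set m0 : ℝ := Real.pi * (1 - T) ^ 2 / 4 with hm0
  have hm0' : 0 ≤ m0 := by positivity
  have hd := HO2_abs_le hx hx1 hy hy1
  have h2 := HO2_sqrt_mul |x - y|
  have h3 := HO2_lin (abs_nonneg (x - y)) hd
  have a1 : |min (1 - x) m0 - min (1 - y) m0| ≤ |x - y| := by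
    refine (abs_min_sub_min_le_max _ _ _ _).trans (max_le (le_of_eq ?_) ?_)
    · rw [show 1 - x - (1 - y) = -(x - y) by ring, abs_neg]
    · rw [sub_self, abs_zero]
      exact abs_nonneg _
  have a2 : |max (1 - x - m0) 0 - max (1 - y - m0) 0| ≤ |x - y| := by
    refine (abs_max_sub_max_le_max _ _ _ _).trans (max_le (le_of_eq ?_) ?_)
    · rw [show 1 - x - m0 - (1 - y - m0) = -(x - y) by ring, abs_neg]
    · rw [sub_self, abs_zero]
      exact abs_nonneg _
  have b1 : |Real.sqrt (Real.pi * min (1 - x) m0) - Real.sqrt (Real.pi * min (1 - y) m0)| ≤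
      Real.sqrt (Real.pi * |x - y|) := by
    refine (D3_abs (mul_nonneg hp.le (le_min (by linarith) hm0'))
      (mul_nonneg hp.le (le_min (by linarith) hm0'))).trans ?_
    refine Real.sqrt_le_sqrt ?_
    rw [← mul_sub, abs_mul, abs_of_pos hp]
    exact mul_le_mul_of_nonneg_left a1 hp.le
  have b2 : |max (1 - x - m0) 0 / (1 - T) - max (1 - y - m0) 0 / (1 - T)| ≤ 10 * |x - y| := by
    rw [← sub_div, abs_div, abs_of_pos hTpos, div_le_iff₀ hTpos]
    have h5 : |x - y| ≤ 10 * |x - y| * (1 - T) := by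
      have h6 : 0 ≤ |x - y| := abs_nonneg _
      nlinarith
    exact a2.trans h5
  have e : Real.sqrt (Real.pi * min (1 - x) m0) + max (1 - x - m0) 0 / (1 - T) -
      (Real.sqrt (Real.pi * min (1 - y) m0) + max (1 - y - m0) 0 / (1 - T)) =
      (Real.sqrt (Real.pi * min (1 - x) m0) - Real.sqrt (Real.pi * min (1 - y) m0)) +
      (max (1 - x - m0) 0 / (1 - T) - max (1 - y - m0) 0 / (1 - T)) := by ring
  rw [e]
  refine (abs_add_le _ _).trans ?_
  linarith

theorem FB_holder {T : ℝ} (x y : ℝ) (hx : 0 ≤ x) (hx1 : x ≤ 1) (hy : 0 ≤ y) (hy1 : y ≤ 1) :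
    |FB T x - FB T y| ≤ 12 * Real.sqrt |x - y| := by
  have h1 := sqrt_holder x y hx hx1 hy hy1
  have h2 := sqrt_holder (1 - x) (1 - y) (by linarith) (by linarith) (by linarith) (by linarith)
  have e2 : (1 - x) - (1 - y) = y - x := by ring
  rw [e2, abs_sub_comm y x] at h2
  have h3 := HO2_sqrt_mul |x - y|
  have h4 := Real.sqrt_nonneg |x - y|
  have h5 := HO2_lin (abs_nonneg (x - y)) (HO2_abs_le hx hx1 hy hy1)
  unfold FB
  refine (abs_min_sub_min_le_max _ _ _ _).trans (max_le ?_ ?_)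
  · refine (abs_min_sub_min_le_max _ _ _ _).trans (max_le (by linarith) (by linarith))
  · refine (abs_max_sub_max_le_max _ _ _ _).trans (max_le ?_ ?_)
    · rw [sub_self, abs_zero]
      positivity
    · have e : (x - T) / 2.5 + 0.9726 - ((y - T) / 2.5 + 0.9726) = (x - y) / 2.5 := by ring
      rw [e, abs_div, abs_of_pos (by norm_num : (0:ℝ) < 2.5)]
      have h6 : |x - y| / 2.5 ≤ |x - y| := by
        rw [div_le_iff₀ (by norm_num)]
        nlinarith [abs_nonneg (x - y)]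
      linarith

end Vale.Agent.P232
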