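import Vale.Agent.P232.Defs

/-!
# P232, second part: symmetric decreasing functions on the torus
-/

open MeasureTheory Set

namespace Vale.Agent.P232

/-- `C^1`, periodic, `[0,1]`-valued, even and antitone on `[0,1/2]` in every variable -/
structure SymN {n : ℕ} (u : (Fin n → ℝ) → ℝ) : Prop extends Nice u where
  even : ∀ (x : Fin n → ℝ) (i : Fin n), u (Function.update x i (-(x i))) = u x
  anti : ∀ (x : Fin n → ℝ) (i : Fin n) (s r : ℝ), 0 ≤ s → s ≤ r → r ≤ 1 / 2 →
    u (Function.update x i r) ≤ u (Function.update x i s)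

/-- section profile when both traces are at most `0.13` -/
noncomputable def FA (a : ℝ) : ℝ := min (Real.sqrt (Real.pi * a)) 1.08

/-- section profile of sections containing full lines in both directions -/
noncomputable def KC (a : ℝ) : ℝ := Real.sqrt (Real.pi * (1 - a))

/-- the same when the missing region has extent at most `1 - T` in one direction -/
noncomputable def KT (T a : ℝ) : ℝ :=
  if 1 - a ≤ Real.pi * (1 - T) ^ 2 / 4 then Real.sqrt (Real.pi * (1 - a))
  else (1 - a) / (1 - T) + Real.pi * (1 - T) / 4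

/-- section profile when both traces are at most `T` -/
noncomputable def FB (T a : ℝ) : ℝ :=
  min (min (Real.sqrt (Real.pi * a)) (Real.sqrt (Real.pi * (1 - a))))
    (max 1 ((a - T) / 2.5 + 0.9726))

/-- the two-zone one-dimensional functional -/
noncomputable def cal2 (K1 K2 : ℝ → ℝ) (α1 α2 κ b c : ℝ) : ℝ :=
  ∫ a in b..c, Real.sqrt (1 - (max ((α1 + κ * a) / K1 a) ((α2 + κ * a) / K2 a)) ^ 2)

/-- the point with `j`-th coordinate `1/2`, `k`-th coordinate `t`, other coordinates `0` -/
noncomputable def pt (j k : Fin 3) (t : ℝ) : Fin 3 → ℝ :=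
  Function.update (Function.update (fun _ => (0 : ℝ)) j (1 / 2)) k t

/-- the point with `i`-th coordinate `1/2`, `j`-th coordinate `t`, `k`-th coordinate `z` -/
noncomputable def pt3 (i j k : Fin 3) (t z : ℝ) : Fin 3 → ℝ :=
  Function.update (Function.update (Function.update (fun _ => (0 : ℝ)) i (1 / 2)) j t) k z

/-- `τ` is, up to `ε`, the extent along axis `j` at `x_i = 1/2`, `x_k = 0.065`, at all levels -/
def Trace (w : (Fin 3 → ℝ) → ℝ) (i j k : Fin 3) (τ ε : ℝ) : Prop :=
  (∀ t z, 0 ≤ t → t < τ - ε → |z| ≤ 0.065 → w (pt3 i j k t z) = 1) ∧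
  (∀ t z, τ < t → t ≤ 1 / 2 → 0.065 ≤ z → z ≤ 1 / 2 → w (pt3 i j k t z) = 0)

end Vale.Agent.P232
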