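import Vale.Agent.P232.N1

/-!
# P232: near the diagonal, for a general isoperimetric function equal to `√(π a)` on `[b,c]`
(generalisation of `near_diag` of helper75)
-/

open MeasureTheory Set

namespace Vale.Agent.P232.G

theorem near_diag_gen {iso : ℝ → ℝ} {V b c : ℝ} (hb0 : 0 < b) (hbV : b ≤ V) (hc : V ≤ c)
    (hbc : b < c) (hiso : ∀ a ∈ Set.Icc b c, iso a = Real.sqrt (Real.pi * a))
    (hcond : 2 * Real.sqrt c ≤ Real.sqrt Real.pi * (Real.sqrt b + Real.sqrt c) ^ 2) :
    ∃ α κ : ℝ, (∀ a ∈ Set.Icc b c, 0 ≤ α + κ * a) ∧ (∀ a ∈ Set.Icc b c, α + κ * a ≤ iso a) ∧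
      Real.sqrt (Real.pi * V) ≤ α + κ * V + cal iso α κ b c := by
  have hV0 : 0 < V := hb0.trans_le hbV
  have hc0 : 0 < c := hV0.trans_le hc
  obtain ⟨P, hP⟩ : ∃ P, P = Real.sqrt Real.pi := ⟨_, rfl⟩
  obtain ⟨B, hB⟩ : ∃ B, B = Real.sqrt b := ⟨_, rfl⟩
  obtain ⟨C, hC⟩ : ∃ C, C = Real.sqrt c := ⟨_, rfl⟩
  obtain ⟨v, hv⟩ : ∃ v, v = Real.sqrt V := ⟨_, rfl⟩
  rw [← hP, ← hB, ← hC, add_comm B C] at hcond
  rw [add_comm C B] at hcond
  have hP2 : P ^ 2 = Real.pi := by rw [hP]; exact Real.sq_sqrt Real.pi_pos.le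
  have hB2 : B ^ 2 = b := by rw [hB]; exact Real.sq_sqrt (by linarith)
  have hC2 : C ^ 2 = c := by rw [hC]; exact Real.sq_sqrt (by linarith)
  have hv2 : v ^ 2 = V := by rw [hv]; exact Real.sq_sqrt (by linarith)
  have hB0 : 0 < B := by rw [hB]; exact Real.sqrt_pos.2 (by linarith)
  have hC0 : 0 < C := by rw [hC]; exact Real.sqrt_pos.2 (by linarith)
  have hP0 : 0 < P := by rw [hP]; exact Real.sqrt_pos.2 Real.pi_pos
  have hv0 : 0 < v := by rw [hv]; exact Real.sqrt_pos.2 (by linarith)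
  have hBv : B ≤ v := by rw [hB, hv]; exact Real.sqrt_le_sqrt hbV
  have hvC : v ≤ C := by rw [hC, hv]; exact Real.sqrt_le_sqrt hc
  have hS : 0 < B + C := by linarith
  refine ⟨P * (B * C) / (B + C), P / (B + C), ?_, ?_, ?_⟩
  · intro a ha
    have : 0 ≤ a := by linarith [ha.1]
    positivity
  · intro a ha
    have ha0 : 0 ≤ a := by linarith [ha.1]
    rw [hiso a ha, Real.sqrt_mul Real.pi_pos.le, ← hP]
    obtain ⟨w, hw⟩ : ∃ w, w = Real.sqrt a := ⟨_, rfl⟩
    have hw2 : w ^ 2 = a := by rw [hw]; exact Real.sq_sqrt ha0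
    have hBw : B ≤ w := by rw [hB, hw]; exact Real.sqrt_le_sqrt ha.1
    have hwC : w ≤ C := by rw [hC, hw]; exact Real.sqrt_le_sqrt ha.2
    rw [← hw, ← hw2]
    have : P * (B * C) / (B + C) + P / (B + C) * w ^ 2 = P * (B * C + w ^ 2) / (B + C) := by ring
    rw [this, div_le_iff₀ hS, mul_assoc]
    refine mul_le_mul_of_nonneg_left ?_ hP0.le
    nlinarith [mul_nonneg (sub_nonneg.2 hBw) (sub_nonneg.2 hwC)]
  · -- the integral
    have hint : ∀ a ∈ Set.Icc b c, Real.sqrt ((c - a) * (a - b)) / (C * (B + C)) ≤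
        Real.sqrt (1 - ((P * (B * C) / (B + C) + P / (B + C) * a) / iso a) ^ 2) := by
      intro a ha
      have ha0 : 0 < a := by linarith [ha.1]
      rw [hiso a ha, Real.sqrt_mul Real.pi_pos.le, ← hP]
      obtain ⟨w, hw⟩ : ∃ w, w = Real.sqrt a := ⟨_, rfl⟩
      have hw2 : w ^ 2 = a := by rw [hw]; exact Real.sq_sqrt ha0.le
      have hw0 : 0 < w := by rw [hw]; exact Real.sqrt_pos.2 ha0
      have hBw : B ≤ w := by rw [hB, hw]; exact Real.sqrt_le_sqrt ha.1
      have hwC : w ≤ C := by rw [hC, hw]; exact Real.sqrt_le_sqrt ha.2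
      rw [← hw]
      have e : 1 - ((P * (B * C) / (B + C) + P / (B + C) * a) / (P * w)) ^ 2 =
          ((c - a) * (a - b)) / (w * (B + C)) ^ 2 := by
        rw [← hw2, ← hC2, ← hB2]
        field_simp
        ring
      rw [e, Real.sqrt_div (mul_nonneg (sub_nonneg.2 ha.2) (sub_nonneg.2 ha.1)),
        Real.sqrt_sq (by positivity)]
      apply div_le_div_of_nonneg_left (Real.sqrt_nonneg _) (by positivity)
      exact mul_le_mul_of_nonneg_right hwC hS.le
    have hcontI : ContinuousOn iso (Set.Icc b c) := by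
      have h1 : ContinuousOn (fun a => Real.sqrt (Real.pi * a)) (Set.Icc b c) := by fun_prop
      exact h1.congr hiso
    have hcont : ContinuousOn (fun a => Real.sqrt (1 -
        ((P * (B * C) / (B + C) + P / (B + C) * a) / iso a) ^ 2)) (Set.Icc b c) := by
      apply ContinuousOn.sqrt
      apply ContinuousOn.sub continuousOn_const
      apply ContinuousOn.pow
      apply ContinuousOn.div (by fun_prop) hcontI
      intro a ha
      have ha0 : 0 < a := by linarith [ha.1]
      rw [hiso a ha]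
      have := Real.pi_pos
      exact (Real.sqrt_pos.2 (by positivity)).ne'
    have hcal : Real.pi * (c - b) ^ 2 / 8 / (C * (B + C)) ≤
        cal iso (P * (B * C) / (B + C)) (P / (B + C)) b c := by
      rw [← n1_int hbc.le, ← intervalIntegral.integral_div]
      unfold cal
      apply intervalIntegral.integral_mono_on hbc.le
      · apply ContinuousOn.intervalIntegrable
        fun_prop
      · apply ContinuousOn.intervalIntegrable
        rw [uIcc_of_le hbc.le]
        exact hcont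
      · exact hint
    have h1 : Real.sqrt (Real.pi * V) = P * v := by
      rw [Real.sqrt_mul Real.pi_pos.le, ← hP, ← hv]
    have h2 : P * v - (P * (B * C) / (B + C) + P / (B + C) * V) ≤
        P * (C - B) ^ 2 / (4 * (B + C)) := by
      rw [← hv2]
      have : P * v - (P * (B * C) / (B + C) + P / (B + C) * v ^ 2) =
          P * ((C - v) * (v - B)) / (B + C) := by
        field_simp
        ring
      rw [this, div_le_div_iff₀ hS (by positivity)]
      have h5 : 4 * ((C - v) * (v - B)) ≤ (C - B) ^ 2 := by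
        nlinarith [sq_nonneg (C + B - 2 * v)]
      nlinarith [mul_le_mul_of_nonneg_left h5 (mul_pos hP0 hS).le]
    have h3 : P * (C - B) ^ 2 / (4 * (B + C)) ≤ Real.pi * (c - b) ^ 2 / 8 / (C * (B + C)) := by
      rw [← hP2, ← hC2, ← hB2, div_div, div_le_div_iff₀ (by positivity) (by positivity)]
      have h10 : 0 ≤ P * (C - B) ^ 2 * (B + C) := by positivity
      have h13 : P ^ 2 * (C ^ 2 - B ^ 2) ^ 2 * (4 * (B + C)) -
          P * (C - B) ^ 2 * (8 * (C * (B + C))) =
          4 * (P * (C - B) ^ 2 * (B + C) * (P * (B + C) ^ 2 - 2 * C)) := by ring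
      have h14 := mul_nonneg h10 (sub_nonneg.2 hcond)
      linarith
    rw [h1]
    linarith

/-- explicit version: `c ≥ 0.26`, `b ≥ 0.25 c` -/
theorem near_diag_win {iso : ℝ → ℝ} {V b c : ℝ} (hV : 0.26 ≤ V) (hbV : b ≤ V) (hc : V ≤ c)
    (hbc : b < c) (hiso : ∀ a ∈ Set.Icc b c, iso a = Real.sqrt (Real.pi * a))
    (hb : 0.25 * c ≤ b) :
    ∃ α κ : ℝ, (∀ a ∈ Set.Icc b c, 0 ≤ α + κ * a) ∧ (∀ a ∈ Set.Icc b c, α + κ * a ≤ iso a) ∧
      Real.sqrt (Real.pi * V) ≤ α + κ * V + cal iso α κ b c := by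
  have hc0 : 0.26 ≤ c := hV.trans hc
  refine near_diag_gen (by linarith) hbV hc hbc hiso ?_
  have hPl : 1.772 ≤ Real.sqrt Real.pi := by
    apply Real.le_sqrt_of_sq_le
    have := Real.pi_gt_d2
    norm_num
    linarith
  have hC0 : 0 < Real.sqrt c := Real.sqrt_pos.2 (by linarith)
  have hCl : 0.5099 ≤ Real.sqrt c := by
    apply Real.le_sqrt_of_sq_le
    norm_num
    linarith
  have hBl : 0.5 * Real.sqrt c ≤ Real.sqrt b := by
    apply Real.le_sqrt_of_sq_le
    rw [mul_pow, Real.sq_sqrt (by linarith)]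
    norm_num
    linarith
  generalize Real.sqrt c = C at *
  generalize Real.sqrt b = B at *
  generalize Real.sqrt Real.pi = P at *
  have h7 : 1.5 * C ≤ B + C := by linarith
  have h8 : (1.5 * C) ^ 2 ≤ (B + C) ^ 2 := pow_le_pow_left₀ (by positivity) h7 2
  have h9 : 1.772 * (1.5 * C) ^ 2 ≤ P * (B + C) ^ 2 :=
    mul_le_mul hPl h8 (by positivity) (by linarith)
  have h11 : 0.5099 * C ≤ C * C := mul_le_mul_of_nonneg_right hCl hC0.le
  have h12 : 1.772 * (1.5 * C) ^ 2 = 3.987 * (C * C) := by ring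
  rw [h12] at h9
  linarith

end Vale.Agent.P232.G
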