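import Vale.Agent.P232.GDef

/-!
# P232, module 2NA: certified searches for `FA a = min (√(π a)) 1.08`
-/

namespace Vale.Agent.P232.G

/-- `10^10` times a lower bound of `FA ^ 2` -/
def wmA (X : ℕ) : ℕ := min (31415 * X) 11664000000

/-- final test: target `Jh V` by the slab or the tube bound -/
def ftJ (b1 _b2 _c1 c2 la mu T Va Vb : ℕ) : Bool :=
  N5.test2 b1 c2 la mu T Va Vb || N5.test0 b1 c2 la mu T Va Vb (N5.t0 b1 c2 la mu Va Vb)

/-- skip: near the diagonal -/
def skA (b1 _b2 _c1 c2 : ℕ) : Bool := Nat.ble c2 371200 && Nat.ble (25 * c2) (100 * b1)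

theorem runA1 : search wmA ftJ skA 263000 280000 14 0 280000 263000 1000000 = true := by
  decide +kernel

theorem runA2 : search wmA ftJ skA 280000 300000 14 0 300000 280000 1000000 = true := by
  decide +kernel

theorem runA3 : search wmA ftJ skA 300000 320000 14 0 320000 300000 1000000 = true := by
  decide +kernel

theorem runA4 : search wmA ftJ skA 320000 361000 14 0 361000 320000 1000000 = true := by
  decide +kernel

end Vale.Agent.P232.G
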