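import Vale.Agent.P232.GSound
import Vale.Agent.P232.GRunA
import Vale.Agent.P232.GNear
import Vale.Agent.P232.Defs2

/-!
# P232, module 2NA: the one-dimensional inequality for `FA`
-/

open MeasureTheory Set

namespace Vale.Agent.P232

namespace G

theorem ft_J : FT ftJ (fun V _ _ => Jh V) := by
  intro b1 b2 c1 c2 la mu T Va Vb hbc ha1 ha2 hb1 hb2 h v b c hv _ _ _ _ _ _
  unfold ftJ at h
  rcases Bool.or_eq_true_iff.mp h with h | h
  · have := N5.test_sound (mode := 2) (b2 := b2) (c1 := c1) hbc ha1 ha2 hb1 hb2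
      (by unfold N5.leafT; exact h) hv
    unfold N5.Tgt at this
    rw [if_pos rfl] at this
    exact (min_le_right _ _).trans this
  · have := N5.test_sound (mode := 0) (b2 := b2) (c1 := c1) hbc ha1 ha2 hb1 hb2
      (by unfold N5.leafT; rw [show Nat.beq 0 2 = false from rfl, cond_false, h]; rfl) hv
    unfold N5.Tgt at this
    rw [if_neg (by norm_num)] at this
    exact this

/-- the profile `FA` -/
noncomputable def profA : Prof where
  A := ![0, 1.1664, 1.1664]
  B := ![Real.pi, 0, 0]
  nn := by
    intro i a ha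
    have := Real.pi_pos
    fin_cases i
    · simpa using mul_nonneg this.le ha.1
    · norm_num [Matrix.cons_val_one]
    · norm_num [Matrix.cons_val_two]

theorem profA_iso : profA.iso = FA := by
  funext a
  unfold Prof.iso FA profA
  have h1 : Real.sqrt (1.1664 : ℝ) = 1.08 := by
    rw [show (1.1664 : ℝ) = 1.08 ^ 2 by norm_num, Real.sqrt_sq (by norm_num)]
  simp only [Matrix.cons_val_zero, Matrix.cons_val_one, Matrix.cons_val, zero_add, zero_mul,
    add_zero, h1]
  rw [min_assoc, min_self]

theorem profA_LB : profA.LB wmA := by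
  intro i X hX
  have hpi : (3.1415 : ℝ) ≤ Real.pi := Real.pi_gt_d4.le
  have hX0 : (0 : ℝ) ≤ X := Nat.cast_nonneg X
  unfold wmA profA
  rw [Nat.cast_min]
  have h1 : min ((31415 * X : ℕ) : ℝ) ((11664000000 : ℕ) : ℝ) ≤ ((31415 * X : ℕ) : ℝ) :=
    min_le_left _ _
  have h2 : min ((31415 * X : ℕ) : ℝ) ((11664000000 : ℕ) : ℝ) ≤ ((11664000000 : ℕ) : ℝ) :=
    min_le_right _ _
  generalize min ((31415 * X : ℕ) : ℝ) ((11664000000 : ℕ) : ℝ) = m at h1 h2
  push_cast at h1 h2
  have h3 : 3.1415 * ((X : ℝ) / 1000000) ≤ Real.pi * ((X : ℝ) / 1000000) :=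
    mul_le_mul_of_nonneg_right hpi (by positivity)
  fin_cases i
  · simp only [Fin.zero_eta, Matrix.cons_val_zero, zero_add]
    refine le_trans ?_ h3
    linarith
  · simp only [Fin.mk_one, Matrix.cons_val_one, Matrix.cons_val_zero, zero_mul, add_zero]
    norm_num at h2 ⊢
    linarith
  · simp only [Fin.reduceFinMk, Matrix.cons_val, zero_mul, add_zero]
    norm_num at h2 ⊢
    linarith

end G

open G

theorem num_A {V b c : ℝ} (hV : V ∈ Set.Icc (0.263 : ℝ) 0.361) (hb : 0 ≤ b) (hbV : b ≤ V)
    (hc : V ≤ c) (hc1 : c ≤ 1) :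
    ∃ α κ : ℝ, (∀ a ∈ Set.Icc b c, 0 ≤ α + κ * a ∧ α + κ * a ≤ FA a) ∧
      Jh V ≤ α + κ * V + cal FA α κ b c := by
  rcases (hbV.trans hc).eq_or_lt with hbc | hbc
  · -- degenerate case
    subst hbc
    have hVb : V = b := le_antisymm hc hbV
    subst hVb
    refine ⟨FA V, 0, fun a ha => ?_, ?_⟩
    · have : a = V := le_antisymm ha.2 ha.1
      subst this
      rw [zero_mul, add_zero]
      refine ⟨?_, le_rfl⟩
      unfold FA
      exact le_min (Real.sqrt_nonneg _) (by norm_num)
    · unfold cal
      rw [intervalIntegral.integral_same, add_zero, zero_mul, add_zero]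
      unfold FA
      refine le_min (N5.Jh_le_sqrt V) ?_
      exact (min_le_right _ _).trans (by norm_num)
  · have fin : ∀ (S : Prop), (S → 0.25 * c ≤ b ∧ c ≤ 0.3712) →
        S ∨ Good profA (fun V _ _ => Jh V) V b c →
        ∃ α κ : ℝ, (∀ a ∈ Set.Icc b c, 0 ≤ α + κ * a ∧ α + κ * a ≤ FA a) ∧
          Jh V ≤ α + κ * V + cal FA α κ b c := by
      intro S hS h
      rcases h with h | h
      · obtain ⟨h1, h2⟩ := hS h
        obtain ⟨α, κ, k1, k2, k3⟩ := near_diag_win (iso := FA) (by linarith [hV.1]) hbV hc hbc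
          (fun a ha => by
            unfold FA
            apply min_eq_left
            rw [Real.sqrt_le_left (by norm_num)]
            have := Real.pi_lt_d4
            have := Real.pi_pos
            have h5 : a ≤ 0.3712 := ha.2.trans h2
            nlinarith) h1
        exact ⟨α, κ, fun a ha => ⟨k1 a ha, k2 a ha⟩, (N5.Jh_le_sqrt V).trans k3⟩
      · obtain ⟨α, κ, k1, k2, k3⟩ := h
        rw [profA_iso] at k2 k3
        exact ⟨α, κ, fun a ha => ⟨k1 a ha, k2 a ha⟩, k3⟩
    have hskp : ∀ b1 b2 c1 c2 : ℕ, skA b1 b2 c1 c2 = true → (b1 : ℝ) ≤ b * 1000000 →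
      b * 1000000 ≤ (b2 : ℝ) → (c1 : ℝ) ≤ c * 1000000 → c * 1000000 ≤ (c2 : ℝ) →
      0.25 * c ≤ b ∧ c ≤ 0.3712 := by
      intro b1 b2 c1 c2 h e1 e2 e3 e4
      unfold skA at h
      simp only [Bool.and_eq_true, Nat.ble_eq] at h
      obtain ⟨h, h'⟩ := h
      have g1 : (c2 : ℝ) ≤ 371200 := by exact_mod_cast h
      have g2 : (25 : ℝ) * c2 ≤ 100 * b1 := by exact_mod_cast h'
      constructor <;> linarith
    have hV1 := hV.1
    have hV2 := hV.2
    rcases le_total V 0.28 with h | h
    · exact fin _ id (search_sound profA_LB ft_J hskp 263000 280000 (by norm_num; linarith)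
        (by norm_num; linarith) hbV hc hbc 14 0 280000 263000 1000000 runA1
        (by norm_num; linarith) (by norm_num; linarith) (by norm_num; linarith)
        (by norm_num; linarith))
    rcases le_total V 0.3 with h' | h'
    · exact fin _ id (search_sound profA_LB ft_J hskp 280000 300000 (by norm_num; linarith)
        (by norm_num; linarith) hbV hc hbc 14 0 300000 280000 1000000 runA2
        (by norm_num; linarith) (by norm_num; linarith) (by norm_num; linarith)
        (by norm_num; linarith))
    rcases le_total V 0.32 with h'' | h''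
    · exact fin _ id (search_sound profA_LB ft_J hskp 300000 320000 (by norm_num; linarith)
        (by norm_num; linarith) hbV hc hbc 14 0 320000 300000 1000000 runA3
        (by norm_num; linarith) (by norm_num; linarith) (by norm_num; linarith)
        (by norm_num; linarith))
    · exact fin _ id (search_sound profA_LB ft_J hskp 320000 361000 (by norm_num; linarith)
        (by norm_num; linarith) hbV hc hbc 14 0 361000 320000 1000000 runA4
        (by norm_num; linarith) (by norm_num; linarith) (by norm_num; linarith)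
        (by norm_num; linarith))

end Vale.Agent.P232
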