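import Vale.Agent.P232.Defs2

/-!
# P232, wave 2, module SWAP: exchanging the two coordinates (helper25)
-/

open MeasureTheory Set

namespace Vale.Agent.P232

/-- the coordinate swap -/
def swapL (x : Fin 2 → ℝ) : Fin 2 → ℝ := ![x 1, x 0]

theorem swapL_swapL (x : Fin 2 → ℝ) : swapL (swapL x) = x := by
  funext i
  fin_cases i <;> rfl

/-- the coordinate swap as a linear map -/
noncomputable def swapC : (Fin 2 → ℝ) →L[ℝ] (Fin 2 → ℝ) :=
  LinearMap.toContinuousLinearMap
    { toFun := swapL
      map_add' := fun x y => by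
        funext i
        fin_cases i <;> simp [swapL]
      map_smul' := fun c x => by
        funext i
        fin_cases i <;> simp [swapL] }

theorem swapC_apply (x : Fin 2 → ℝ) : swapC x = swapL x := rfl

theorem swapL_mp : MeasurePreserving swapL volume volume := by
  have h1 := MeasureTheory.volume_preserving_finTwoArrow ℝ
  have h2 : MeasurePreserving (Prod.swap : ℝ × ℝ → ℝ × ℝ) volume volume :=
    Measure.measurePreserving_swap
  have h3 := (h1.symm).comp (h2.comp h1)
  have h4 : (⇑(MeasurableEquiv.finTwoArrow (α := ℝ)).symm ∘ Prod.swap ∘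
      ⇑(MeasurableEquiv.finTwoArrow (α := ℝ))) = swapL := by
    funext x i
    fin_cases i <;> rfl
  rw [h4] at h3
  exact h3

theorem swapL_emb : MeasurableEmbedding swapL := by
  have hc : Continuous swapL := swapC.continuous
  let e : (Fin 2 → ℝ) ≃ᵐ (Fin 2 → ℝ) :=
    { toFun := swapL
      invFun := swapL
      left_inv := swapL_swapL
      right_inv := swapL_swapL
      measurable_toFun := hc.measurable
      measurable_invFun := hc.measurable }
  exact e.measurableEmbedding

theorem swapL_cell : swapL ⁻¹' cell 2 = cell 2 := by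
  ext x
  simp only [cell, Set.mem_preimage, Set.mem_univ_pi, Fin.forall_fin_two, swapL,
    Matrix.cons_val_zero, Matrix.cons_val_one]
  tauto

theorem swap_gradN {h : (Fin 2 → ℝ) → ℝ} (hh : ContDiff ℝ 1 h) (x : Fin 2 → ℝ) :
    gradN (fun x : Fin 2 → ℝ => h (swapL x)) x = gradN h (swapL x) := by
  have h1 : HasFDerivAt (fun x : Fin 2 → ℝ => h (swapL x))
      ((fderiv ℝ h (swapL x)).comp swapC) x :=
    ((hh.differentiable one_ne_zero) (swapL x)).hasFDerivAt.comp x swapC.hasFDerivAt
  unfold gradN
  congr 1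
  rw [h1.fderiv, Fin.sum_univ_two, Fin.sum_univ_two]
  have h2 : swapL (Pi.single 0 1) = (Pi.single 1 1 : Fin 2 → ℝ) := by
    funext i
    fin_cases i <;> simp [swapL]
  have h3 : swapL (Pi.single 1 1) = (Pi.single 0 1 : Fin 2 → ℝ) := by
    funext i
    fin_cases i <;> simp [swapL]
  rw [ContinuousLinearMap.comp_apply, ContinuousLinearMap.comp_apply, swapC_apply, swapC_apply,
    h2, h3, add_comm]

theorem swap_symN {h : (Fin 2 → ℝ) → ℝ} (hh : SymN h) :
    SymN (fun x : Fin 2 → ℝ => h ![x 1, x 0]) := by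
  refine ⟨⟨?_, ?_, fun x => hh.nonneg _, fun x => hh.le_one _⟩, ?_, ?_⟩
  · exact hh.smooth.comp swapC.contDiff
  · intro x k
    have h1 := hh.per ![x 1, x 0] ![k 1, k 0]
    refine Eq.trans ?_ h1
    show h ![x 1 + (k 1 : ℝ), x 0 + (k 0 : ℝ)] = h (![x 1, x 0] + fun i => ((![k 1, k 0] i : ℤ) : ℝ))
    congr 1
    funext i
    fin_cases i <;> rfl
  · intro x i
    fin_cases i
    · have h1 := hh.even ![x 1, x 0] 1
      refine Eq.trans ?_ h1
      congr 1
      funext j
      fin_cases j <;> simp
    · have h1 := hh.even ![x 1, x 0] 0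
      refine Eq.trans ?_ h1
      congr 1
      funext j
      fin_cases j <;> simp
  · intro x i s r h0 h1 h2
    fin_cases i
    · have h3 := hh.anti ![x 1, x 0] 1 s r h0 h1 h2
      have e1 : ∀ s : ℝ, (![(Function.update x 0 s) 1, (Function.update x 0 s) 0] : Fin 2 → ℝ) =
          Function.update ![x 1, x 0] 1 s := by
        intro s
        funext j
        fin_cases j <;> simp
      show h ![(Function.update x 0 r) 1, (Function.update x 0 r) 0] ≤
        h ![(Function.update x 0 s) 1, (Function.update x 0 s) 0]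
      rw [e1, e1]
      exact h3
    · have h3 := hh.anti ![x 1, x 0] 0 s r h0 h1 h2
      have e1 : ∀ s : ℝ, (![(Function.update x 1 s) 1, (Function.update x 1 s) 0] : Fin 2 → ℝ) =
          Function.update ![x 1, x 0] 0 s := by
        intro s
        funext j
        fin_cases j <;> simp
      show h ![(Function.update x 1 r) 1, (Function.update x 1 r) 0] ≤
        h ![(Function.update x 1 s) 1, (Function.update x 1 s) 0]
      rw [e1, e1]
      exact h3

theorem swap_lev {h : (Fin 2 → ℝ) → ℝ} (hh : SymN h) (s : ℝ) :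
    lev (fun x : Fin 2 → ℝ => h ![x 1, x 0]) s = lev h s := by
  unfold lev
  have h1 : {x : Fin 2 → ℝ | s < h ![x 1, x 0]} ∩ cell 2 =
      swapL ⁻¹' ({x | s < h x} ∩ cell 2) := by
    rw [Set.preimage_inter, swapL_cell]
    rfl
  rw [h1, swapL_mp.measure_preimage]
  refine (MeasurableSet.inter ?_ ?_).nullMeasurableSet
  · exact (isOpen_lt continuous_const hh.smooth.continuous).measurableSet
  · exact MeasurableSet.univ_pi fun _ => measurableSet_Ico

theorem swap_int {h : (Fin 2 → ℝ) → ℝ} (hh : SymN h) (p r : ℝ) :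
    ∫ x in cell 2 ∩ {x | p < h ![x 1, x 0] ∧ h ![x 1, x 0] < r},
        gradN (fun x : Fin 2 → ℝ => h ![x 1, x 0]) x =
      ∫ x in cell 2 ∩ {x | p < h x ∧ h x < r}, gradN h x := by
  rw [← swapL_mp.setIntegral_preimage_emb swapL_emb (gradN h)]
  rw [Set.preimage_inter, swapL_cell]
  refine integral_congr_ae (Filter.Eventually.of_forall fun x => ?_)
  exact swap_gradN hh.smooth x

theorem swap_hTV {h : (Fin 2 → ℝ) → ℝ} (hh : SymN h) :
    hTV (fun x : Fin 2 → ℝ => h ![x 1, x 0]) = hTV h := by
  unfold hTV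
  rw [← swapL_mp.setIntegral_preimage_emb swapL_emb (gradN h), swapL_cell]
  congr 1
  refine integral_congr_ae (Filter.Eventually.of_forall fun x => ?_)
  exact swap_gradN hh.smooth x

end Vale.Agent.P232
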