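import Vale.Agent.P232.Defs

/-!
# P232 module C4: the four critical levels
-/

open MeasureTheory Set

namespace Vale.Agent.P232

/-- a continuous function of two variables, 1-periodic in each, has a minimax level -/
theorem c4_minimax {F : ℝ → ℝ → ℝ} (hF : Continuous (fun p : ℝ × ℝ => F p.1 p.2))
    (h1 : ∀ x y (k : ℤ), F (x + k) y = F x y) (h2 : ∀ x y (k : ℤ), F x (y + k) = F x y) :
    ∃ s : ℝ, (∃ x₀, ∀ y, F x₀ y ≤ s) ∧ (∀ x, ∃ y, s ≤ F x y) := by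
  have hK : IsCompact (Set.Icc (0 : ℝ) 1) := isCompact_Icc
  have hne : (Set.Icc (0 : ℝ) 1).Nonempty := ⟨0, by simp⟩
  have hM : Continuous fun x => sSup (F x '' Set.Icc (0 : ℝ) 1) :=
    hK.continuous_sSup hF
  have hcy : ∀ x, Continuous (F x) := fun x => hF.comp (Continuous.prodMk continuous_const continuous_id)
  have hfr : ∀ t : ℝ, Int.fract t ∈ Set.Icc (0 : ℝ) 1 := fun t =>
    ⟨Int.fract_nonneg t, (Int.fract_lt_one t).le⟩
  have hx : ∀ x y, F (Int.fract x) y = F x y := by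
    intro x y
    have := h1 (Int.fract x) y ⌊x⌋
    rw [Int.fract_add_floor] at this
    exact this.symm
  have hy : ∀ x y, F x (Int.fract y) = F x y := by
    intro x y
    have := h2 x (Int.fract y) ⌊y⌋
    rw [Int.fract_add_floor] at this
    exact this.symm
  have hle : ∀ x y, F x y ≤ sSup (F x '' Set.Icc (0 : ℝ) 1) := by
    intro x y
    rw [← hy]
    exact le_csSup (hK.image (hcy x)).bddAbove (Set.mem_image_of_mem _ (hfr y))
  obtain ⟨x₀, hx₀, hmin⟩ := hK.exists_isMinOn hne hM.continuousOn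
  refine ⟨sSup (F x₀ '' Set.Icc (0 : ℝ) 1), ⟨x₀, hle x₀⟩, ?_⟩
  intro x
  obtain ⟨y, hy', hyeq⟩ := hK.exists_sSup_image_eq hne (hcy (Int.fract x)).continuousOn
  refine ⟨y, ?_⟩
  have := hmin (hfr x)
  simp only [Set.mem_ofPred_eq] at this
  rw [← hx, ← hyeq]
  exact this

/- C4 -/
theorem exists_levels {g : (Fin 2 → ℝ) → ℝ} (hg : Nice g) :
    ∃ sv sh tv th : ℝ, 0 ≤ sv ∧ sv ≤ 1 ∧ 0 ≤ sh ∧ sh ≤ 1 ∧ 0 ≤ tv ∧ tv ≤ 1 ∧ 0 ≤ th ∧ th ≤ 1 ∧
      (∃ x₀, ∀ y, g ![x₀, y] ≤ sv) ∧ (∀ x, ∃ y, sv ≤ g ![x, y]) ∧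
      (∃ y₀, ∀ x, g ![x, y₀] ≤ sh) ∧ (∀ y, ∃ x, sh ≤ g ![x, y]) ∧
      (∃ x₀, ∀ y, tv ≤ g ![x₀, y]) ∧ (∀ x, ∃ y, g ![x, y] ≤ tv) ∧
      (∃ y₀, ∀ x, th ≤ g ![x, y₀]) ∧ (∀ y, ∃ x, g ![x, y] ≤ th) := by
  have hgc : Continuous g := hg.smooth.continuous
  have hc1 : Continuous (fun p : ℝ × ℝ => g ![p.1, p.2]) := by
    refine hgc.comp ?_
    refine continuous_pi fun i => ?_
    fin_cases i
    · exact continuous_fst
    · exact continuous_snd
  have hc2 : Continuous (fun p : ℝ × ℝ => g ![p.2, p.1]) := by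
    refine hgc.comp ?_
    refine continuous_pi fun i => ?_
    fin_cases i
    · exact continuous_snd
    · exact continuous_fst
  have hp1 : ∀ (x y : ℝ) (k : ℤ), g ![x + k, y] = g ![x, y] := by
    intro x y k
    have := hg.per ![x, y] ![k, 0]
    rw [← this]
    congr 1
    funext i
    fin_cases i <;> simp
  have hp2 : ∀ (x y : ℝ) (k : ℤ), g ![x, y + k] = g ![x, y] := by
    intro x y k
    have := hg.per ![x, y] ![0, k]
    rw [← this]
    congr 1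
    funext i
    fin_cases i <;> simp
  obtain ⟨sv, ⟨x1, hsv1⟩, hsv2⟩ := c4_minimax (F := fun x y => g ![x, y]) hc1
    (fun x y k => hp1 x y k) (fun x y k => hp2 x y k)
  obtain ⟨sh, ⟨y1, hsh1⟩, hsh2⟩ := c4_minimax (F := fun y x => g ![x, y]) hc2
    (fun y x k => hp2 x y k) (fun y x k => hp1 x y k)
  obtain ⟨tv, ⟨x2, htv1⟩, htv2⟩ := c4_minimax (F := fun x y => - g ![x, y]) hc1.neg
    (fun x y k => by simp only [hp1]) (fun x y k => by simp only [hp2])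
  obtain ⟨th, ⟨y2, hth1⟩, hth2⟩ := c4_minimax (F := fun y x => - g ![x, y]) hc2.neg
    (fun y x k => by simp only [hp2]) (fun y x k => by simp only [hp1])
  obtain ⟨b1, hb1⟩ := hsv2 0
  obtain ⟨b2, hb2⟩ := hsh2 0
  obtain ⟨b3, hb3⟩ := htv2 0
  obtain ⟨b4, hb4⟩ := hth2 0
  refine ⟨sv, sh, -tv, -th, (hg.nonneg _).trans (hsv1 0), hb1.trans (hg.le_one _),
    (hg.nonneg _).trans (hsh1 0), hb2.trans (hg.le_one _), ?_, ?_, ?_, ?_,
    ⟨x1, hsv1⟩, hsv2, ⟨y1, hsh1⟩, hsh2, ⟨x2, fun y => ?_⟩, fun x => ?_, ⟨y2, fun x => ?_⟩, fun y => ?_⟩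
  · have := hg.nonneg ![0, b3]; linarith
  · have h := htv1 0; have := hg.le_one ![x2, 0]; linarith
  · have := hg.nonneg ![b4, 0]; linarith
  · have h := hth1 0; have := hg.le_one ![0, y2]; linarith
  · have := htv1 y; linarith
  · obtain ⟨y, hy⟩ := htv2 x
    exact ⟨y, by linarith⟩
  · have := hth1 x; linarith
  · obtain ⟨x, hx⟩ := hth2 y
    exact ⟨x, by linarith⟩

end Vale.Agent.P232
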