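import Vale.Agent.P232.UpperPart

/-!
# P232: lower part (module C2)

Apply `upper_part` to `1 - g` with level `1 - s₀`.
-/

open MeasureTheory Set

namespace Vale.Agent.P232

theorem lowerPart_nice {n : ℕ} {g : (Fin n → ℝ) → ℝ} (hg : Nice g) : Nice fun x => 1 - g x where
  smooth := contDiff_const.sub hg.smooth
  per x k := by
    show 1 - g _ = 1 - g x
    rw [hg.per x k]
  nonneg x := by have := hg.le_one x; linarith
  le_one x := by have := hg.nonneg x; linarith

theorem lowerPart_gradN {n : ℕ} (g : (Fin n → ℝ) → ℝ) (x : Fin n → ℝ) :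
    gradN (fun x => 1 - g x) x = gradN g x := by
  unfold gradN
  congr 1
  refine Finset.sum_congr rfl fun i _ => ?_
  rw [fderiv_const_sub, neg_apply, neg_sq]

theorem lowerPart_cell (n : ℕ) : MeasurableSet (cell n) :=
  MeasurableSet.univ_pi fun _ => measurableSet_Ico

theorem lowerPart_vol (n : ℕ) : volume (cell n) = 1 := by
  unfold cell
  rw [volume_pi_pi]
  simp

/-- almost all levels have measure zero -/
theorem lowerPart_ae {n : ℕ} {g : (Fin n → ℝ) → ℝ} (hg : Nice g) :
    ∀ᵐ s : ℝ, volume ({x | g x = s} ∩ cell n) = 0 := by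
  have h := Measure.countable_meas_level_set_pos (μ := volume.restrict (cell n))
    hg.smooth.continuous.measurable
  filter_upwards [h.ae_notMem volume] with s hs
  have h1 : ¬ 0 < (volume.restrict (cell n)) {x | g x = s} := hs
  rw [Measure.restrict_apply' (lowerPart_cell n)] at h1
  simpa using h1

theorem lowerPart_lev {n : ℕ} {g : (Fin n → ℝ) → ℝ} (hg : Nice g) {s : ℝ}
    (hs : volume ({x | g x = s} ∩ cell n) = 0) :
    lev (fun x => 1 - g x) (1 - s) = 1 - lev g s := by
  have hm : MeasurableSet {x : Fin n → ℝ | s < g x} :=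
    measurableSet_lt measurable_const hg.smooth.continuous.measurable
  have h1 : {x : Fin n → ℝ | 1 - s < 1 - g x} = {x | g x < s} := by
    ext x
    simp only [mem_ofPred_eq, sub_lt_sub_iff_left]
  unfold lev
  rw [h1]
  have h2 : volume ({x | g x < s} ∩ cell n) = volume (cell n \ {x | s < g x}) := by
    have e : cell n \ {x | s < g x} = ({x | g x < s} ∩ cell n) ∪ ({x | g x = s} ∩ cell n) := by
      ext x
      simp only [mem_sdiff, mem_ofPred_eq, mem_union, mem_inter_iff, not_lt]
      constructor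
      · rintro ⟨a, b⟩
        rcases lt_or_eq_of_le b with c | c
        · exact Or.inl ⟨c, a⟩
        · exact Or.inr ⟨c, a⟩
      · rintro (⟨a, b⟩ | ⟨a, b⟩)
        · exact ⟨b, a.le⟩
        · exact ⟨b, a.le⟩
    rw [e]
    refine le_antisymm (measure_mono subset_union_left) ?_
    refine (measure_union_le _ _).trans ?_
    rw [hs, add_zero]
  have h3 : volume ({x | s < g x} ∩ cell n) ≤ 1 := by
    rw [← lowerPart_vol n]
    exact measure_mono inter_subset_right
  have h4 : volume (cell n \ {x | s < g x}) = 1 - volume ({x | s < g x} ∩ cell n) := by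
    rw [← sdiff_inter_self_eq_sdiff, measure_sdiff inter_subset_right
      ((hm.inter (lowerPart_cell n)).nullMeasurableSet) (h3.trans_lt ENNReal.one_lt_top).ne,
      lowerPart_vol]
  rw [h2, h4, ENNReal.toReal_sub_of_le h3 ENNReal.one_ne_top, ENNReal.toReal_one]

theorem lower_part {g : (Fin 2 → ℝ) → ℝ} (hg : Nice g) {s₀ x₀ y₀ : ℝ} (hs1 : s₀ ≤ 1)
    (hx : ∀ y, s₀ ≤ g ![x₀, y]) (hy : ∀ x, s₀ ≤ g ![x, y₀]) :
    Real.sqrt Real.pi * ∫ s in (0:ℝ)..s₀, Real.sqrt (1 - lev g s) ≤
      (1 / 2) * ∫ x in cell 2 ∩ {x | g x < s₀}, gradN g x := by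
  have h := upper_part (lowerPart_nice hg) (s₀ := 1 - s₀) (x₀ := x₀) (y₀ := y₀) (by linarith)
    (fun y => by have := hx y; linarith) (fun x => by have := hy x; linarith)
  have e1 : {x : Fin 2 → ℝ | 1 - s₀ < 1 - g x} = {x | g x < s₀} := by
    ext x
    simp only [mem_ofPred_eq, sub_lt_sub_iff_left]
  rw [e1] at h
  simp only [lowerPart_gradN] at h
  refine le_trans (le_of_eq ?_) h
  congr 1
  have e2 := intervalIntegral.integral_comp_sub_left (a := (0 : ℝ)) (b := s₀)
    (fun s => Real.sqrt (lev (fun x => 1 - g x) s)) 1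
  rw [sub_zero] at e2
  rw [← e2]
  refine intervalIntegral.integral_congr_ae ?_
  filter_upwards [lowerPart_ae hg] with s hs _
  rw [lowerPart_lev hg hs]

end Vale.Agent.P232
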