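import Vale.Agent.P232.CutPlane
import Vale.Agent.P232.UpperAux

/-!
# P232, module C1: the upper part of the two-torus inequality (helper53)
-/

open MeasureTheory Set

namespace Vale.Agent.P232

/-- C1 -/
theorem upper_part {g : (Fin 2 → ℝ) → ℝ} (hg : Nice g) {s₀ x₀ y₀ : ℝ} (hs0 : 0 ≤ s₀)
    (hx : ∀ y, g ![x₀, y] ≤ s₀) (hy : ∀ x, g ![x, y₀] ≤ s₀) :
    Real.sqrt Real.pi * ∫ s in s₀..1, Real.sqrt (lev g s) ≤
      (1 / 2) * ∫ x in cell 2 ∩ {x | s₀ < g x}, gradN g x :=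
  upper_part_of_cut (fun hg t => cut_plane hg t) hg hs0 hx hy

end Vale.Agent.P232
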