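import Vale.Agent.P232.Defs
import Vale.Agent.P232.UpperPart
import Vale.Agent.P232.LowerPart
import Vale.Agent.P232.CrossVH
import Vale.Agent.P232.Levels

/-!
# P232, module C5: the two-torus inequality in integrated form (helper33)
-/

open MeasureTheory Set

namespace Vale.Agent.P232

theorem C5_cell_vol : volume (cell 2) = 1 := by
  unfold cell
  rw [Real.volume_pi_Ico]
  simp

theorem C5_cell_meas : MeasurableSet (cell 2) :=
  MeasurableSet.univ_pi fun _ => measurableSet_Ico

theorem C5_cell_sub : cell 2 ⊆ Icc (0 : Fin 2 → ℝ) 1 := by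
  intro x hx
  refine ⟨fun i => (hx i (mem_univ i)).1, fun i => (hx i (mem_univ i)).2.le⟩

theorem C5_lev_anti (g : (Fin 2 → ℝ) → ℝ) : Antitone (lev g) := by
  intro s t hst
  unfold lev
  refine ENNReal.toReal_mono ?_ (measure_mono ?_)
  · refine ne_top_of_le_ne_top ?_ (measure_mono inter_subset_right)
    rw [C5_cell_vol]
    exact ENNReal.one_ne_top
  · intro x hx
    exact ⟨lt_of_le_of_lt hst hx.1, hx.2⟩

theorem C5_lev_nonneg (g : (Fin 2 → ℝ) → ℝ) (s : ℝ) : 0 ≤ lev g s := ENNReal.toReal_nonneg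

theorem C5_lev_le_one (g : (Fin 2 → ℝ) → ℝ) (s : ℝ) : lev g s ≤ 1 := by
  unfold lev
  rw [← ENNReal.toReal_one]
  refine ENNReal.toReal_mono ENNReal.one_ne_top ?_
  rw [← C5_cell_vol]
  exact measure_mono inter_subset_right

theorem C5_I2_cont : Continuous I2 := by
  unfold I2
  fun_prop

theorem C5_I2_nonneg (a : ℝ) : 0 ≤ I2 a :=
  le_min (le_min (Real.sqrt_nonneg _) zero_le_one) (Real.sqrt_nonneg _)

theorem C5_I2_le_one (a : ℝ) : I2 a ≤ 1 := (min_le_left _ _).trans (min_le_right _ _)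

theorem C5_I2_le_up (a : ℝ) : I2 a ≤ Real.sqrt Real.pi * Real.sqrt a := by
  rw [← Real.sqrt_mul Real.pi_pos.le]
  exact (min_le_left _ _).trans (min_le_left _ _)

theorem C5_I2_le_low (a : ℝ) : I2 a ≤ Real.sqrt Real.pi * Real.sqrt (1 - a) := by
  rw [← Real.sqrt_mul Real.pi_pos.le]
  exact min_le_right _ _

theorem C5_int_I2 (g : (Fin 2 → ℝ) → ℝ) (a b : ℝ) :
    IntervalIntegrable (fun s => I2 (lev g s)) volume a b := by
  rw [intervalIntegrable_iff]
  refine Measure.integrableOn_of_bounded (M := 1) ?_ ?_ ?_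
  · exact measure_Ioc_lt_top.ne
  · exact (C5_I2_cont.measurable.comp (C5_lev_anti g).measurable).aestronglyMeasurable
  · refine Filter.Eventually.of_forall fun s => ?_
    rw [Real.norm_eq_abs, abs_of_nonneg (C5_I2_nonneg _)]
    exact C5_I2_le_one _

theorem C5_add {f : (Fin 2 → ℝ) → ℝ} {S A B : Set (Fin 2 → ℝ)} (hf0 : ∀ x, 0 ≤ f x)
    (hfi : IntegrableOn f S) (hA : A ⊆ S) (hB : B ⊆ S) (hd : Disjoint A B)
    (hBm : MeasurableSet B) : (∫ x in A, f x) + ∫ x in B, f x ≤ ∫ x in S, f x := by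
  rw [← setIntegral_union hd hBm (hfi.mono_set hA) (hfi.mono_set hB)]
  exact setIntegral_mono_set hfi (Filter.Eventually.of_forall hf0)
    (LE.le.eventuallyLE (union_subset hA hB))

theorem C5_gradN_cont {g : (Fin 2 → ℝ) → ℝ} (hg : Nice g) : Continuous (gradN g) := by
  unfold gradN
  have h := hg.smooth.continuous_fderiv one_ne_zero
  fun_prop

theorem C5_gradN_int {g : (Fin 2 → ℝ) → ℝ} (hg : Nice g) : IntegrableOn (gradN g) (cell 2) :=
  ((C5_gradN_cont hg).continuousOn.integrableOn_compact isCompact_Icc).mono_set C5_cell_sub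

theorem C5_gradN_nonneg (g : (Fin 2 → ℝ) → ℝ) (x : Fin 2 → ℝ) : 0 ≤ gradN g x :=
  Real.sqrt_nonneg _

theorem C5_mid_meas {g : (Fin 2 → ℝ) → ℝ} (hg : Nice g) (p r : ℝ) :
    MeasurableSet (cell 2 ∩ {x | p < g x ∧ g x < r}) :=
  C5_cell_meas.inter
    ((measurableSet_lt measurable_const hg.smooth.continuous.measurable).inter
      (measurableSet_lt hg.smooth.continuous.measurable measurable_const))

/-- two crossing families in disjoint ranges of levels -/
theorem C5_two {g : (Fin 2 → ℝ) → ℝ} (hg : Nice g) {p q r : ℝ} (hpq : p ≤ q) (hqr : q ≤ r)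
    (h1 : q - p ≤ (1 / 2) * ∫ x in cell 2 ∩ {x | p < g x ∧ g x < q}, gradN g x)
    (h2 : r - q ≤ (1 / 2) * ∫ x in cell 2 ∩ {x | q < g x ∧ g x < r}, gradN g x) :
    r - p ≤ (1 / 2) * ∫ x in cell 2 ∩ {x | p < g x ∧ g x < r}, gradN g x := by
  have h3 := C5_add (S := cell 2 ∩ {x | p < g x ∧ g x < r})
    (A := cell 2 ∩ {x | p < g x ∧ g x < q}) (B := cell 2 ∩ {x | q < g x ∧ g x < r})
    (C5_gradN_nonneg g) ((C5_gradN_int hg).mono_set inter_subset_left)
    (fun x hx => ⟨hx.1, hx.2.1, hx.2.2.trans_le hqr⟩)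
    (fun x hx => ⟨hx.1, hpq.trans_lt hx.2.1, hx.2.2⟩)
    (Set.disjoint_left.2 fun x hx hy => lt_asymm hx.2.2 hy.2.1)
    (C5_mid_meas hg q r)
  linarith

theorem torus_two {g : (Fin 2 → ℝ) → ℝ} (hg : Nice g) :
    ∫ s in (0:ℝ)..1, I2 (lev g s) ≤ hTV g := by
  obtain ⟨sv, sh, tv, th, sv0, sv1, sh0, sh1, tv0, tv1, th0, th1, ⟨xsv, hsv⟩, hsv', ⟨ysh, hsh⟩,
    hsh', ⟨xtv, htv⟩, htv', ⟨yth, hth⟩, hth'⟩ := exists_levels hg
  have htvsh : tv ≤ sh := (htv ysh).trans (hsh xtv)
  have hthsv : th ≤ sv := (hth xsv).trans (hsv yth)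
  set S := max sv sh with hS
  set T := min tv th with hT
  have hTS : T ≤ S := (min_le_left _ _).trans (htvsh.trans (le_max_right _ _))
  have hS0 : 0 ≤ S := sv0.trans (le_max_left _ _)
  have hS1 : S ≤ 1 := max_le sv1 sh1
  have hT0 : 0 ≤ T := le_min tv0 th0
  have hT1 : T ≤ 1 := (min_le_left _ _).trans tv1
  have hup := upper_part hg hS0 (fun y => (hsv y).trans (le_max_left _ _))
    (fun x => (hsh x).trans (le_max_right _ _))
  have hlow := lower_part hg hT1 (fun y => (min_le_left tv th).trans (htv y))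
    (fun x => (min_le_right tv th).trans (hth x))
  have hmid : S - T ≤ (1 / 2) * ∫ x in cell 2 ∩ {x | T < g x ∧ g x < S}, gradN g x := by
    rcases le_total sh sv with h1 | h1
    · rw [show S = sv from max_eq_left h1]
      rcases le_total tv th with h2 | h2
      · rw [show T = tv from min_eq_left h2]
        exact cross_vert hg (htvsh.trans h1) htv' hsv'
      · rw [show T = th from min_eq_right h2]
        exact C5_two hg h2 (htvsh.trans h1)
          (cross_horiz hg h2 hth' fun y => ⟨xtv, htv y⟩)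
          (cross_vert hg (htvsh.trans h1) htv' hsv')
    · rw [show S = sh from max_eq_right h1]
      rcases le_total tv th with h2 | h2
      · rw [show T = tv from min_eq_left h2]
        exact C5_two hg h2 (hthsv.trans h1)
          (cross_vert hg h2 htv' fun x => ⟨yth, hth x⟩)
          (cross_horiz hg (hthsv.trans h1) hth' hsh')
      · rw [show T = th from min_eq_right h2]
        exact cross_horiz hg (hthsv.trans h1) hth' hsh'
  -- the levels
  have hi := C5_int_I2 g
  rw [← intervalIntegral.integral_add_adjacent_intervals (hi 0 T) (hi T 1),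
    ← intervalIntegral.integral_add_adjacent_intervals (hi T S) (hi S 1)]
  have e1 : ∫ s in (0:ℝ)..T, I2 (lev g s) ≤
      Real.sqrt Real.pi * ∫ s in (0:ℝ)..T, Real.sqrt (1 - lev g s) := by
    rw [← intervalIntegral.integral_const_mul]
    refine intervalIntegral.integral_mono_on hT0 (hi 0 T) ?_ fun s _ => C5_I2_le_low _
    refine IntervalIntegrable.const_mul ?_ _
    refine Monotone.intervalIntegrable fun s t hst => Real.sqrt_le_sqrt ?_
    have := C5_lev_anti g hst
    linarith
  have e2 : ∫ s in T..S, I2 (lev g s) ≤ S - T := by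
    have h : ∫ s in T..S, I2 (lev g s) ≤ ∫ _s in T..S, (1 : ℝ) :=
      intervalIntegral.integral_mono_on hTS (hi T S) intervalIntegrable_const
        fun s _ => C5_I2_le_one _
    rwa [intervalIntegral.integral_const, smul_eq_mul, mul_one] at h
  have e3 : ∫ s in S..1, I2 (lev g s) ≤
      Real.sqrt Real.pi * ∫ s in S..1, Real.sqrt (lev g s) := by
    rw [← intervalIntegral.integral_const_mul]
    refine intervalIntegral.integral_mono_on hS1 (hi S 1) ?_ fun s _ => C5_I2_le_up _
    refine IntervalIntegrable.const_mul ?_ _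
    exact Antitone.intervalIntegrable fun s t hst => Real.sqrt_le_sqrt (C5_lev_anti g hst)
  -- the three regions
  have hgi := C5_gradN_int hg
  have f1 := C5_add (S := cell 2 ∩ {x | g x < S}) (A := cell 2 ∩ {x | g x < T})
    (B := cell 2 ∩ {x | T < g x ∧ g x < S})
    (C5_gradN_nonneg g) (hgi.mono_set inter_subset_left)
    (fun x hx => ⟨hx.1, lt_of_lt_of_le hx.2 hTS⟩) (fun x hx => ⟨hx.1, hx.2.2⟩)
    (Set.disjoint_left.2 fun x hx hy => lt_asymm hx.2 hy.2.1) (C5_mid_meas hg T S)
  have f2 := C5_add (S := cell 2) (A := cell 2 ∩ {x | g x < S}) (B := cell 2 ∩ {x | S < g x})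
    (C5_gradN_nonneg g) hgi inter_subset_left inter_subset_left
    (Set.disjoint_left.2 fun x hx hy => lt_asymm (show g x < S from hx.2) hy.2)
    (C5_cell_meas.inter (measurableSet_lt measurable_const hg.smooth.continuous.measurable))
  unfold hTV
  linarith

end Vale.Agent.P232
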