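import Vale.Agent.P232.Defs2
import Vale.Agent.P232.CalOne
import Vale.Agent.P232.CalDiag
import Vale.Agent.P232.Swap
import Vale.Agent.P232.UpperPart
import Vale.Agent.P232.TorusTwo

/-!
# P232, module 2SA: section profile when both traces are at most `0.13` (helper83)
-/

open MeasureTheory Set

namespace Vale.Agent.P232

theorem sec_A_FA_cont : Continuous FA := by
  unfold FA
  fun_prop

theorem sec_A_FA_nonneg (a : ℝ) : 0 ≤ FA a := le_min (Real.sqrt_nonneg _) (by norm_num)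

theorem sec_A_FA_le (a : ℝ) : FA a ≤ 1.08 := min_le_right _ _

theorem sec_A_FA_up (a : ℝ) : FA a ≤ Real.sqrt Real.pi * Real.sqrt a := by
  rw [← Real.sqrt_mul Real.pi_pos.le]
  exact min_le_left _ _

theorem sec_A_int (g : (Fin 2 → ℝ) → ℝ) (a b : ℝ) :
    IntervalIntegrable (fun s => FA (lev g s)) volume a b := by
  rw [intervalIntegrable_iff]
  refine Measure.integrableOn_of_bounded (M := 1.08) ?_ ?_ ?_
  · exact measure_Ioc_lt_top.ne
  · exact (sec_A_FA_cont.measurable.comp (C5_lev_anti g).measurable).aestronglyMeasurable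
  · refine Filter.Eventually.of_forall fun s => ?_
    rw [Real.norm_eq_abs, abs_of_nonneg (sec_A_FA_nonneg _)]
    exact sec_A_FA_le _

theorem sec_A_G0 : (0.9198 : ℝ) ≤ ∫ v in (0:ℝ)..1, Real.sqrt (1 - v ^ 2 / (1.5 : ℝ) ^ 2) := by
  have hP : ∫ v in (0:ℝ)..1, (1 - (2 / 9 : ℝ) * v ^ 2 - (2 / 81 : ℝ) * v ^ 4 - (64 / 8100 : ℝ) * v ^ 6)
      ≤ ∫ v in (0:ℝ)..1, Real.sqrt (1 - v ^ 2 / (1.5 : ℝ) ^ 2) := by
    refine intervalIntegral.integral_mono_on zero_le_one ?_ ?_ ?_
    · exact Continuous.intervalIntegrable (by fun_prop) _ _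
    · exact Continuous.intervalIntegrable (by fun_prop) _ _
    · intro v hv
      refine Real.le_sqrt_of_sq_le ?_
      obtain ⟨x, hx⟩ : ∃ x : ℝ, x = 4 / 9 * v ^ 2 := ⟨_, rfl⟩
      have hv2 : v ^ 2 ≤ 1 := by nlinarith [hv.1, hv.2]
      have hx0 : 0 ≤ x := by rw [hx]; positivity
      have hx1 : x ≤ 4 / 9 := by rw [hx]; linarith
      have e1 : 1 - (2 / 9 : ℝ) * v ^ 2 - (2 / 81 : ℝ) * v ^ 4 - (64 / 8100 : ℝ) * v ^ 6
          = 1 - x / 2 - x ^ 2 / 8 - (9 / 100) * x ^ 3 := by rw [hx]; ring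
      have e2 : 1 - v ^ 2 / (1.5 : ℝ) ^ 2 = 1 - x := by rw [hx]; norm_num; ring
      rw [e1, e2]
      have e3 : (1 - x / 2 - x ^ 2 / 8 - (9 / 100) * x ^ 3) ^ 2 = 1 - x
          + x ^ 3 * ((1 / 8 - 18 / 100) + (1 / 64 + 9 / 100) * x + (9 / 400) * x ^ 2
            + (9 / 100) ^ 2 * x ^ 3) := by ring
      rw [e3]
      have h2 : x ^ 2 ≤ (4 / 9) ^ 2 := pow_le_pow_left₀ hx0 hx1 2
      have h3 : x ^ 3 ≤ (4 / 9) ^ 3 := pow_le_pow_left₀ hx0 hx1 3
      have hb : (1 / 8 - 18 / 100) + (1 / 64 + 9 / 100) * x + (9 / 400) * x ^ 2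
            + (9 / 100) ^ 2 * x ^ 3 ≤ 0 := by norm_num at h2 h3 ⊢; linarith
      have := mul_nonpos_of_nonneg_of_nonpos (pow_nonneg hx0 3) hb
      linarith
  refine le_trans ?_ hP
  have : ∫ v in (0:ℝ)..1, (1 - (2 / 9 : ℝ) * v ^ 2 - (2 / 81 : ℝ) * v ^ 4 - (64 / 8100 : ℝ) * v ^ 6)
      = 1 - (2 / 9) * (1 / 3) - (2 / 81) * (1 / 5) - (64 / 8100) * (1 / 7) := by
    have h2 : IntervalIntegrable (fun v : ℝ => (2 / 9 : ℝ) * v ^ 2) volume 0 1 :=
      Continuous.intervalIntegrable (by fun_prop) _ _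
    have h4 : IntervalIntegrable (fun v : ℝ => (2 / 81 : ℝ) * v ^ 4) volume 0 1 :=
      Continuous.intervalIntegrable (by fun_prop) _ _
    have h6 : IntervalIntegrable (fun v : ℝ => (64 / 8100 : ℝ) * v ^ 6) volume 0 1 :=
      Continuous.intervalIntegrable (by fun_prop) _ _
    have h1 : IntervalIntegrable (fun _ : ℝ => (1 : ℝ)) volume 0 1 := intervalIntegrable_const
    rw [intervalIntegral.integral_sub ((h1.sub h2).sub h4) h6,
      intervalIntegral.integral_sub (h1.sub h2) h4, intervalIntegral.integral_sub h1 h2,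
      intervalIntegral.integral_const_mul, intervalIntegral.integral_const_mul,
      intervalIntegral.integral_const_mul]
    simp only [integral_pow, intervalIntegral.integral_const]
    norm_num
  rw [this]
  norm_num

theorem sec_A_num {m : ℝ} (hm0 : 0 ≤ m) :
    FA m ≤ (m - 0.13) / 1.5 + ∫ v in (0:ℝ)..1, Real.sqrt (1 - v ^ 2 / (1.5 : ℝ) ^ 2) := by
  have hG := sec_A_G0
  rcases le_total m 0.3715 with h | h
  · have hs : Real.sqrt (Real.pi * m) ≤ (Real.pi * m / 1.08 + 1.08) / 2 := by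
      rw [Real.sqrt_le_left (by have := Real.pi_pos; positivity)]
      have : 0 ≤ (Real.pi * m / 1.08 - 1.08) ^ 2 := sq_nonneg _
      have e : ((Real.pi * m / 1.08 + 1.08) / 2) ^ 2
          = Real.pi * m + (Real.pi * m / 1.08 - 1.08) ^ 2 / 4 := by ring
      rw [e]; linarith
    have hpi : Real.pi * m ≤ 3.1416 * m := mul_le_mul_of_nonneg_right Real.pi_lt_d4.le hm0
    refine (min_le_left _ _).trans (hs.trans ?_)
    have e1 : Real.pi * m / 1.08 ≤ 3.1416 * m / 1.08 := by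
      apply div_le_div_of_nonneg_right hpi (by norm_num)
    have e2 : (3.1416 * m / 1.08 + 1.08) / 2 ≤ (m - 0.13) / 1.5 + 0.9198 := by
      rw [div_le_iff₀ (by norm_num : (0:ℝ) < 2)]
      norm_num
      norm_num at h
      linarith
    linarith
  · refine (min_le_right _ _).trans ?_
    have e2 : (1.08 : ℝ) ≤ (m - 0.13) / 1.5 + 0.9198 := by
      norm_num
      norm_num at h
      linarith
    linarith

theorem sec_A_max {n : ℕ} {u : (Fin n → ℝ) → ℝ} (hu : SymN u) (x : Fin n → ℝ) (i : Fin n)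
    (t : ℝ) : u (Function.update x i t) ≤ u (Function.update x i 0) := by
  have h1 : u (Function.update x i t) = u (Function.update x i (t - round t)) := by
    have h := hu.per (Function.update x i (t - round t)) (Pi.single i (round t))
    rw [← h]
    congr 1
    ext j
    by_cases hj : j = i
    · subst hj
      simp
    · simp [Function.update_of_ne hj, Pi.single_eq_of_ne hj]
  have habs : |t - round t| ≤ 1 / 2 := abs_sub_round t
  have h2 : u (Function.update x i (t - round t)) = u (Function.update x i |t - round t|) := by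
    rcases abs_choice (t - round t) with h | h
    · rw [h]
    · rw [h]
      have := hu.even (Function.update x i (t - round t)) i
      rw [Function.update_self, Function.update_idem] at this
      exact this.symm
  rw [h1, h2]
  exact hu.anti x i 0 _ le_rfl (abs_nonneg _) habs

theorem sec_A_max1 {h : (Fin 2 → ℝ) → ℝ} (hh : SymN h) (x y : ℝ) : h ![x, y] ≤ h ![x, 0] := by
  have := sec_A_max hh ![x, 0] 1 y
  have e : ∀ t : ℝ, Function.update ![x, 0] 1 t = ![x, t] := by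
    intro t; ext j; fin_cases j <;> simp
  rwa [e, e] at this

theorem sec_A_max0 {h : (Fin 2 → ℝ) → ℝ} (hh : SymN h) (x y : ℝ) : h ![x, y] ≤ h ![0, y] := by
  have := sec_A_max hh ![0, y] 0 x
  have e : ∀ t : ℝ, Function.update ![0, y] 0 t = ![t, y] := by
    intro t; ext j; fin_cases j <;> simp
  rwa [e, e] at this

theorem sec_A_anti1 {h : (Fin 2 → ℝ) → ℝ} (hh : SymN h) (x : ℝ) {s r : ℝ} (h0 : 0 ≤ s)
    (hsr : s ≤ r) (hr : r ≤ 1 / 2) : h ![x, r] ≤ h ![x, s] := by
  have := hh.anti ![x, 0] 1 s r h0 hsr hr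
  have e : ∀ t : ℝ, Function.update ![x, 0] 1 t = ![x, t] := by
    intro t; ext j; fin_cases j <;> simp
  rwa [e, e] at this

theorem sec_A_anti0 {h : (Fin 2 → ℝ) → ℝ} (hh : SymN h) (y : ℝ) {s r : ℝ} (h0 : 0 ≤ s)
    (hsr : s ≤ r) (hr : r ≤ 1 / 2) : h ![r, y] ≤ h ![s, y] := by
  have := hh.anti ![0, y] 0 s r h0 hsr hr
  have e : ∀ t : ℝ, Function.update ![0, y] 0 t = ![t, y] := by
    intro t; ext j; fin_cases j <;> simp
  rwa [e, e] at this

theorem sec_A_aux {h : (Fin 2 → ℝ) → ℝ} (hh : SymN h) (h1 : h ![1 / 2, 0.065] = 0)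
    (h2 : h ![0.065, 1 / 2] = 0) (hab : h ![0, 1 / 2] ≤ h ![1 / 2, 0]) :
    ∫ s in (0:ℝ)..1, FA (lev h s) ≤ hTV h := by
  have hg : Nice h := hh.toNice
  obtain ⟨a, ha⟩ : ∃ a, a = h ![1 / 2, 0] := ⟨_, rfl⟩
  obtain ⟨b, hb⟩ : ∃ b, b = h ![0, 1 / 2] := ⟨_, rfl⟩
  rw [← ha, ← hb] at hab
  have ha0 : 0 ≤ a := by rw [ha]; exact hg.nonneg _
  have ha1 : a ≤ 1 := by rw [ha]; exact hg.le_one _
  have hb0 : 0 ≤ b := by rw [hb]; exact hg.nonneg _
  have ht1 : ∀ t : ℝ, 0.13 / 2 < t → t ≤ 1 / 2 → h ![1 / 2, t] = 0 := by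
    intro t ht ht'
    refine le_antisymm ?_ (hg.nonneg _)
    rw [← h1]
    exact sec_A_anti1 hh _ (by norm_num) (by norm_num at ht ⊢; linarith) ht'
  have ht2 : ∀ t : ℝ, 0.13 / 2 < t → t ≤ 1 / 2 → h ![t, 1 / 2] = 0 := by
    intro t ht ht'
    refine le_antisymm ?_ (hg.nonneg _)
    rw [← h2]
    exact sec_A_anti0 hh _ (by norm_num) (by norm_num at ht ⊢; linarith) ht'
  have hup := upper_part hg (s₀ := a) (x₀ := 1 / 2) (y₀ := 1 / 2) ha0
    (fun y => by rw [ha]; exact sec_A_max1 hh _ _)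
    (fun x => le_trans (by rw [hb]; exact sec_A_max0 hh _ _) hab)
  have hmid := cal_one hh (p := b) (r := a) (T := 0.13) hb0 hab (by norm_num) (by norm_num)
    ha.le hb.symm.le (fun t ht ht' => by rw [ht1 t ht ht']; exact hb0) (R := 1.5) (by norm_num)
  have hlow := cal_diag hh (r := b) (T := 0.13) hb0 (by norm_num) (by norm_num)
    (by rw [← ha]; exact hab) hb.le ht1 ht2
  have hi := sec_A_int h
  rw [← intervalIntegral.integral_add_adjacent_intervals (hi 0 b) (hi b 1),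
    ← intervalIntegral.integral_add_adjacent_intervals (hi b a) (hi a 1)]
  have e1 : ∫ s in (0:ℝ)..b, FA (lev h s) ≤ Real.sqrt 2 * (1 - 0.13) * b := by
    have hc : ∫ s in (0:ℝ)..b, FA (lev h s) ≤ ∫ _s in (0:ℝ)..b, (1.08 : ℝ) :=
      intervalIntegral.integral_mono_on hb0 (hi 0 b) intervalIntegrable_const
        fun s _ => sec_A_FA_le _
    rw [intervalIntegral.integral_const, smul_eq_mul, sub_zero] at hc
    have h14 : (1.4 : ℝ) ≤ Real.sqrt 2 := Real.le_sqrt_of_sq_le (by norm_num)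
    have h3 : (1.08 : ℝ) ≤ Real.sqrt 2 * (1 - 0.13) := by
      norm_num at h14 ⊢; linarith
    calc ∫ s in (0:ℝ)..b, FA (lev h s) ≤ b * 1.08 := hc
      _ = 1.08 * b := mul_comm _ _
      _ ≤ _ := mul_le_mul_of_nonneg_right h3 hb0
  have e2 : ∫ s in b..a, FA (lev h s) ≤
      ∫ s in b..a, ((lev h s - 0.13) / 1.5 + ∫ v in (0:ℝ)..1, Real.sqrt (1 - v ^ 2 / 1.5 ^ 2)) := by
    refine intervalIntegral.integral_mono_on hab (hi b a) ?_ fun s _ => sec_A_num (C5_lev_nonneg h s)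
    refine IntervalIntegrable.add ?_ intervalIntegrable_const
    refine IntervalIntegrable.div_const (IntervalIntegrable.sub ?_ intervalIntegrable_const) _
    exact (C5_lev_anti h).intervalIntegrable
  have e3 : ∫ s in a..1, FA (lev h s) ≤
      Real.sqrt Real.pi * ∫ s in a..1, Real.sqrt (lev h s) := by
    rw [← intervalIntegral.integral_const_mul]
    refine intervalIntegral.integral_mono_on ha1 (hi a 1) ?_ fun s _ => sec_A_FA_up _
    refine IntervalIntegrable.const_mul ?_ _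
    exact Antitone.intervalIntegrable fun s t hst => Real.sqrt_le_sqrt (C5_lev_anti h hst)
  have hgi := C5_gradN_int hg
  have f1 := C5_add (S := cell 2 ∩ {x | h x < a}) (A := cell 2 ∩ {x | h x < b})
    (B := cell 2 ∩ {x | b < h x ∧ h x < a})
    (C5_gradN_nonneg h) (hgi.mono_set inter_subset_left)
    (fun x hx => ⟨hx.1, lt_of_lt_of_le hx.2 hab⟩) (fun x hx => ⟨hx.1, hx.2.2⟩)
    (Set.disjoint_left.2 fun x hx hy => lt_asymm hx.2 hy.2.1) (C5_mid_meas hg b a)
  have f2 := C5_add (S := cell 2) (A := cell 2 ∩ {x | h x < a}) (B := cell 2 ∩ {x | a < h x})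
    (C5_gradN_nonneg h) hgi inter_subset_left inter_subset_left
    (Set.disjoint_left.2 fun x hx hy => lt_asymm (show h x < a from hx.2) hy.2)
    (C5_cell_meas.inter (measurableSet_lt measurable_const hg.smooth.continuous.measurable))
  unfold hTV
  linarith

/- SA -/
theorem sec_A {h : (Fin 2 → ℝ) → ℝ} (hh : SymN h) (h1 : h ![1 / 2, 0.065] = 0)
    (h2 : h ![0.065, 1 / 2] = 0) : ∫ s in (0:ℝ)..1, FA (lev h s) ≤ hTV h := by
  rcases le_total (h ![0, 1 / 2]) (h ![1 / 2, 0]) with hab | hab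
  · exact sec_A_aux hh h1 h2 hab
  · have := sec_A_aux (swap_symN hh) (by simpa using h2) (by simpa using h1) (by simpa using hab)
    simpa only [swap_lev hh, swap_hTV hh] using this

end Vale.Agent.P232
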