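import Vale.Agent.P232.Defs2
import Vale.Agent.P232.SliceBasic

/-! # P232, module SL0: slices of symmetric decreasing functions -/

open MeasureTheory Set

namespace Vale.Agent.P232

theorem sl0_update_succ (i : Fin 3) (z : ℝ) (y : Fin 2 → ℝ) (j : Fin 2) (a : ℝ) :
    (i.insertNth z (Function.update y j a) : Fin 3 → ℝ) =
      Function.update (i.insertNth z y : Fin 3 → ℝ) (i.succAbove j) a := by
  funext k
  refine Fin.succAboveCases i ?_ (fun l => ?_) k
  · rw [Function.update_of_ne (Fin.succAbove_ne i j).symm]
    simp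
  · rw [Fin.insertNth_apply_succAbove]
    by_cases h : l = j
    · subst h
      simp
    · rw [Function.update_of_ne h, Function.update_of_ne
        (fun h' => h (Fin.succAbove_right_injective h'))]
      simp

theorem sl0_update_same (i : Fin 3) (z a : ℝ) (y : Fin 2 → ℝ) :
    (i.insertNth a y : Fin 3 → ℝ) =
      Function.update (i.insertNth z y : Fin 3 → ℝ) i a := by
  funext k
  refine Fin.succAboveCases i ?_ (fun l => ?_) k
  · simp
  · rw [Function.update_of_ne (Fin.succAbove_ne i l)]
    simp

theorem slice_symN {u : (Fin 3 → ℝ) → ℝ} (hu : SymN u) (i : Fin 3) (z : ℝ) :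
    SymN (slice u i z) where
  toNice := slice_nice hu.toNice i z
  even := by
    intro y j
    unfold slice
    rw [sl0_update_succ]
    have h := hu.even (i.insertNth z y : Fin 3 → ℝ) (i.succAbove j)
    rw [Fin.insertNth_apply_succAbove] at h
    exact h
  anti := by
    intro y j s r h0 hsr hr
    unfold slice
    rw [sl0_update_succ, sl0_update_succ]
    exact hu.anti _ _ s r h0 hsr hr

theorem sArea_even {u : (Fin 3 → ℝ) → ℝ} (hu : SymN u) (i : Fin 3) (z : ℝ) :
    sArea u i (-z) = sArea u i z := by
  unfold sArea slice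
  refine integral_congr_ae (Filter.Eventually.of_forall fun y => ?_)
  have h := hu.even (i.insertNth z y : Fin 3 → ℝ) i
  rw [Fin.insertNth_apply_same, ← sl0_update_same] at h
  exact h

theorem sl0_integrable {u : (Fin 3 → ℝ) → ℝ} (hu : SymN u) (i : Fin 3) (z : ℝ) :
    IntegrableOn (slice u i z) (cell 2) := by
  have hc : Continuous (slice u i z) := (slice_nice hu.toNice i z).smooth.continuous
  have hK : IsCompact (Set.Icc (0 : Fin 2 → ℝ) 1) := isCompact_Icc
  refine (hc.continuousOn.integrableOn_compact hK).mono_set ?_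
  intro x hx
  rw [cell, Set.mem_univ_pi] at hx
  exact ⟨fun j => (hx j).1, fun j => (hx j).2.le⟩

theorem sArea_anti {u : (Fin 3 → ℝ) → ℝ} (hu : SymN u) (i : Fin 3) {s r : ℝ} (h0 : 0 ≤ s)
    (hsr : s ≤ r) (hr : r ≤ 1 / 2) : sArea u i r ≤ sArea u i s := by
  unfold sArea
  refine integral_mono (sl0_integrable hu i r) (sl0_integrable hu i s) (fun y => ?_)
  unfold slice
  have h := hu.anti (i.insertNth s y : Fin 3 → ℝ) i s r h0 hsr hr
  rw [← sl0_update_same, ← sl0_update_same] at h
  exact h

end Vale.Agent.P232
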