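import Vale.Agent.P232.Defs2
import Vale.Agent.P232.Slicing
import Vale.Agent.P232.SliceCommon
import Vale.Agent.P232.SliceSym

/-! # P232, module 2SL2: two-zone slicing (helper70) -/

open MeasureTheory Set

namespace Vale.Agent.P232

private theorem s2_range {u : (Fin 3 → ℝ) → ℝ} (hu : SymN u) (i : Fin 3) (z : ℝ) :
    sArea u i (1 / 2) ≤ sArea u i z ∧ sArea u i z ≤ sArea u i 0 := by
  have hp : Function.Periodic (sArea u i) 1 := e3_per hu.toNice i
  obtain ⟨y, hy, he⟩ := hp.exists_mem_Ico one_pos z (-(1 / 2))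
  have hy1 : -(1 / 2) ≤ y := hy.1
  have hy2 : y ≤ 1 / 2 := by
    have := hy.2
    linarith
  have habs : sArea u i |y| = sArea u i y := by
    rcases abs_choice y with h | h
    · rw [h]
    · rw [h, sArea_even hu]
  have h0 : 0 ≤ |y| := abs_nonneg y
  have h1 : |y| ≤ 1 / 2 := abs_le.2 ⟨hy1, hy2⟩
  rw [he, ← habs]
  exact ⟨sArea_anti hu i h0 h1 le_rfl, sArea_anti hu i le_rfl h0 h1⟩

private theorem s2_gradN_per {n : ℕ} {g : (Fin n → ℝ) → ℝ} (hg : IsPer g) : IsPer (gradN g) := by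
  intro x k
  unfold gradN
  have h : fderiv ℝ g (x + fun i => (k i : ℝ)) = fderiv ℝ g x := by
    have h1 : (fun y => g (y + fun i => (k i : ℝ))) = g := funext fun y => hg y k
    have h2 := fderiv_comp_add_right (𝕜 := ℝ) (f := g) (x := x) (fun i => (k i : ℝ))
    rw [h1] at h2
    exact h2.symm
  rw [h]

private theorem s2_ins (i : Fin 3) (z : ℝ) (y : Fin 2 → ℝ) :
    (i.insertNth (z + 1) y : Fin 3 → ℝ) =
      i.insertNth z y + fun j => ((Pi.single i 1 : Fin 3 → ℤ) j : ℝ) := by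
  funext j
  refine Fin.succAboveCases i ?_ (fun k => ?_) j
  · simp
  · simp

/-- the integral over a period of a function bounded below in two zones -/
private theorem s2_zones {H : ℝ → ℝ} (hH : Continuous H) (hp : Function.Periodic H 1)
    {σ α1 α2 : ℝ} (hσ0 : 0 ≤ σ) (hσ1 : σ ≤ 1) (h1 : ∀ z, |z| < σ / 2 → α1 ≤ H z)
    (h2 : ∀ z, σ / 2 < |z| → |z| ≤ 1 / 2 → α2 ≤ H z) :
    α1 * σ + α2 * (1 - σ) ≤ ∫ z in (0:ℝ)..1, H z := by
  have e0 : ∫ z in (0:ℝ)..1, H z = ∫ z in (-(1 / 2) : ℝ)..(1 / 2), H z := by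
    have := hp.intervalIntegral_add_eq 0 (-(1 / 2))
    rw [zero_add, show (-(1 / 2) : ℝ) + 1 = 1 / 2 by norm_num] at this
    exact this
  have hi : ∀ a b : ℝ, IntervalIntegrable H volume a b := fun a b => hH.intervalIntegrable _ _
  have e1 := intervalIntegral.integral_add_adjacent_intervals (hi (-(1 / 2)) (-(σ / 2)))
    (hi (-(σ / 2)) (σ / 2))
  have e2 := intervalIntegral.integral_add_adjacent_intervals (hi (-(1 / 2)) (σ / 2))
    (hi (σ / 2) (1 / 2))
  have k : ∀ a b c : ℝ, a ≤ b → (∀ z ∈ Ioo a b, c ≤ H z) → c * (b - a) ≤ ∫ z in a..b, H z := by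
    intro a b c hab h
    have h3 := intervalIntegral.integral_mono_on_of_le_Ioo (μ := volume) hab
      (f := fun _ => c) (g := H) (by simp) (hi a b) h
    rw [intervalIntegral.integral_const, smul_eq_mul, mul_comm] at h3
    exact h3
  have k1 := k (-(1 / 2)) (-(σ / 2)) α2 (by linarith) (fun z hz => by
    have hz1 := hz.1
    have hz2 := hz.2
    have hneg : z < 0 := by linarith
    refine h2 z ?_ ?_
    · rw [abs_of_neg hneg]
      linarith
    · rw [abs_of_neg hneg]
      linarith)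
  have k2 := k (-(σ / 2)) (σ / 2) α1 (by linarith) (fun z hz => h1 z (abs_lt.2 hz))
  have k3 := k (σ / 2) (1 / 2) α2 (by linarith) (fun z hz => by
    have hz1 := hz.1
    have hz2 := hz.2
    have hpos : 0 < z := by linarith
    refine h2 z ?_ ?_
    · rw [abs_of_pos hpos]
      exact hz1
    · rw [abs_of_pos hpos]
      exact hz2.le)
  rw [e0, ← e2, ← e1]
  linarith

/-- the pointwise inequality on one slice -/
private theorem s2_point {u : (Fin 3 → ℝ) → ℝ} (hu : Nice u) (i : Fin 3) (z : ℝ)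
    {C S0 K e A : ℝ} (hC0 : 0 ≤ C) (hC1 : C ≤ 1) (hS : S0 ≤ Real.sqrt (1 - C ^ 2)) (he : 0 ≤ e)
    (hiso : K - e ≤ hTV (slice u i z)) (hA : C * K = A) :
    A - e + (1 / 2) * (S0 * |deriv (sArea u i) z|) ≤
      (1 / 2) * ∫ y in cell 2, gradN u (i.insertNth z y) := by
  set S : ℝ := Real.sqrt (1 - C ^ 2) with hSdef
  have hSn : 0 ≤ S := Real.sqrt_nonneg _
  have hCS : C ^ 2 + S ^ 2 = 1 := by
    have h1 : C ^ 2 ≤ 1 := pow_le_one₀ hC0 hC1
    rw [hSdef, Real.sq_sqrt (by linarith)]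
    ring
  have hgc : Continuous (gradN u) := e3_gradN hu.smooth
  have hs := slice_nice hu i z
  have h1 : Continuous fun y : Fin 2 → ℝ => gradN (slice u i z) y := e3_gradN hs.smooth
  have hins : Continuous fun y : Fin 2 → ℝ => (i.insertNth z y : Fin 3 → ℝ) :=
    (e3_ins i).comp (continuous_const.prodMk continuous_id)
  have h2 : Continuous fun y : Fin 2 → ℝ => |fderiv ℝ u (i.insertNth z y) (Pi.single i 1)| :=
    (((hu.smooth.continuous_fderiv one_ne_zero).comp hins).clm_apply continuous_const).abs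
  have h3 : C * (∫ y in cell 2, gradN (slice u i z) y) +
      S * (∫ y in cell 2, |fderiv ℝ u (i.insertNth z y) (Pi.single i 1)|) ≤
      ∫ y in cell 2, gradN u (i.insertNth z y) := by
    rw [← integral_const_mul, ← integral_const_mul, ← integral_add
      ((e3_int h1).const_mul _) ((e3_int h2).const_mul _)]
    refine setIntegral_mono (((e3_int h1).const_mul _).add ((e3_int h2).const_mul _))
      (e3_int (hgc.comp hins)) fun y => ?_
    exact e3_cs (Real.sqrt_nonneg _) (Real.sqrt_nonneg _) hC0 hSn (gradN_slice hu i z y) hCS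
  have h4 := sArea_deriv_le hu i z
  have h5 : S * |deriv (sArea u i) z| ≤
      S * (∫ y in cell 2, |fderiv ℝ u (i.insertNth z y) (Pi.single i 1)|) :=
    mul_le_mul_of_nonneg_left h4 hSn
  have h6 : S0 * |deriv (sArea u i) z| ≤ S * |deriv (sArea u i) z| :=
    mul_le_mul_of_nonneg_right hS (abs_nonneg _)
  have h7 : C * (K - e) ≤ C * hTV (slice u i z) := mul_le_mul_of_nonneg_left hiso hC0
  have h8 : hTV (slice u i z) = (1 / 2) * ∫ y in cell 2, gradN (slice u i z) y := rfl
  rw [h8] at h7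
  have h9 : C * e ≤ e := mul_le_of_le_one_left he hC1
  nlinarith

/-- SL2 : two-zone slicing -/
theorem slicing2 {u : (Fin 3 → ℝ) → ℝ} (hu : SymN u) (i : Fin 3) {K1 K2 : ℝ → ℝ}
    {σ α1 α2 κ : ℝ} (hσ0 : 0 ≤ σ) (hσ1 : σ ≤ 1)
    (hiso1 : ∀ z, |z| < σ / 2 → K1 (sArea u i z) -
      12 * Real.sqrt (2 * ∫ y in cell 2, slice u i z y * (1 - slice u i z y)) ≤ hTV (slice u i z))
    (hiso2 : ∀ z, σ / 2 < |z| → |z| ≤ 1 / 2 → K2 (sArea u i z) -
      12 * Real.sqrt (2 * ∫ y in cell 2, slice u i z y * (1 - slice u i z y)) ≤ hTV (slice u i z))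
    (hK1 : ContinuousOn K1 (Set.Icc 0 1)) (hK2 : ContinuousOn K2 (Set.Icc 0 1))
    (hq1 : ContinuousOn (fun a => (α1 + κ * a) / K1 a) (Set.Icc (sArea u i (1/2)) (sArea u i 0)))
    (hq2 : ContinuousOn (fun a => (α2 + κ * a) / K2 a) (Set.Icc (sArea u i (1/2)) (sArea u i 0)))
    (hl1 : ∀ a ∈ Set.Icc (sArea u i (1/2)) (sArea u i 0), α1 + κ * a ≤ K1 a)
    (hl2 : ∀ a ∈ Set.Icc (sArea u i (1/2)) (sArea u i 0), 0 ≤ α2 + κ * a ∧ α2 + κ * a ≤ K2 a) :
    α1 * σ + α2 * (1 - σ) + κ * (∫ x in cell 3, u x) +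
        cal2 K1 K2 α1 α2 κ (sArea u i (1/2)) (sArea u i 0) ≤
      hTV u + 12 * Real.sqrt (2 * ∫ x in cell 3, u x * (1 - u x)) := by
  have hf : Nice u := hu.toNice
  set b : ℝ := sArea u i (1 / 2) with hb
  set c : ℝ := sArea u i 0 with hc
  have hbc : b ≤ c := (s2_range hu i 0).1
  -- the extended weights
  let cl : ℝ → ℝ := fun x => max b (min x c)
  have hclc : Continuous cl := continuous_const.max (continuous_id.min continuous_const)
  have hclm : ∀ x, cl x ∈ Set.Icc b c := fun x => ⟨le_max_left _ _, max_le hbc (min_le_right _ _)⟩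
  have hcle : ∀ x ∈ Set.Icc b c, cl x = x := by
    intro x hx
    change max b (min x c) = x
    rw [min_eq_left hx.2, max_eq_right hx.1]
  let C1 : ℝ → ℝ := fun x => (α1 + κ * cl x) / K1 (cl x)
  let C2 : ℝ → ℝ := fun x => (α2 + κ * cl x) / K2 (cl x)
  have hC1c : Continuous C1 := hq1.comp_continuous hclc hclm
  have hC2c : Continuous C2 := hq2.comp_continuous hclc hclm
  let S : ℝ → ℝ := fun x => Real.sqrt (1 - max (C1 x) (C2 x) ^ 2)
  have hSc : Continuous S :=
    Real.continuous_sqrt.comp (continuous_const.sub ((hC1c.max hC2c).pow 2))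
  have hS0 : ∀ x, 0 ≤ S x := fun x => Real.sqrt_nonneg _
  have hC10 : ∀ x, 0 ≤ α1 + κ * cl x → 0 ≤ C1 x := fun x h0 =>
    div_nonneg h0 (h0.trans (hl1 _ (hclm x)))
  have hC11 : ∀ x, 0 ≤ α1 + κ * cl x → C1 x ≤ 1 := fun x h0 =>
    div_le_one_of_le₀ (hl1 _ (hclm x)) (h0.trans (hl1 _ (hclm x)))
  have hC20 : ∀ x, 0 ≤ C2 x := fun x =>
    div_nonneg (hl2 _ (hclm x)).1 ((hl2 _ (hclm x)).1.trans (hl2 _ (hclm x)).2)
  have hC21 : ∀ x, C2 x ≤ 1 := fun x =>
    div_le_one_of_le₀ (hl2 _ (hclm x)).2 ((hl2 _ (hclm x)).1.trans (hl2 _ (hclm x)).2)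
  have hS1 : ∀ x, 0 ≤ α1 + κ * cl x → S x ≤ Real.sqrt (1 - C1 x ^ 2) := fun x h0 =>
    Real.sqrt_le_sqrt (by
      have := pow_le_pow_left₀ (hC10 x h0) (le_max_left (C1 x) (C2 x)) 2
      linarith)
  have hS10 : ∀ x, S x ≤ Real.sqrt (1 - (0:ℝ) ^ 2) := fun x =>
    Real.sqrt_le_sqrt (by
      have := sq_nonneg (max (C1 x) (C2 x))
      linarith)
  have hS2 : ∀ x, S x ≤ Real.sqrt (1 - C2 x ^ 2) := fun x =>
    Real.sqrt_le_sqrt (by
      have := pow_le_pow_left₀ (hC20 x) (le_max_right (C1 x) (C2 x)) 2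
      linarith)
  let p : ℝ → ℝ := sArea u i
  have hpm : ∀ z, p z ∈ Set.Icc b c := fun z => s2_range hu i z
  have hpC : ContDiff ℝ 1 p := sArea_contDiff hf i
  have hpc : Continuous p := hpC.continuous
  have hpd : Continuous (deriv p) := hpC.continuous_deriv le_rfl
  have hpp : Function.Periodic p 1 := e3_per hf i
  have hdp : Function.Periodic (deriv p) 1 := by
    intro x
    have h2 := deriv_comp_add_const (f := p) (1 : ℝ) x
    have h1 : (fun y => p (y + 1)) = p := funext hpp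
    rw [h1] at h2
    exact h2.symm
  have hdiv : ∀ {A K : ℝ}, 0 ≤ A → A ≤ K → A / K * K = A := by
    intro A K h1 h2
    by_cases h3 : K = 0
    · rw [h3, mul_zero]
      rw [h3] at h2
      exact (le_antisymm h2 h1).symm
    · exact div_mul_cancel₀ _ h3
  have hCK1 : ∀ z, 0 ≤ α1 + κ * p z → C1 (p z) * K1 (p z) = α1 + κ * p z := by
    intro z h0
    have h1 : C1 (p z) = (α1 + κ * p z) / K1 (p z) := by
      change (α1 + κ * cl (p z)) / K1 (cl (p z)) = _
      rw [hcle _ (hpm z)]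
    rw [h1]
    exact hdiv h0 (hl1 _ (hpm z))
  have hCK2 : ∀ z, C2 (p z) * K2 (p z) = α2 + κ * p z := by
    intro z
    have h1 : C2 (p z) = (α2 + κ * p z) / K2 (p z) := by
      change (α2 + κ * cl (p z)) / K2 (cl (p z)) = _
      rw [hcle _ (hpm z)]
    rw [h1]
    exact hdiv (hl2 _ (hpm z)).1 (hl2 _ (hpm z)).2
  -- the error
  let e : ℝ → ℝ := fun z => 12 * Real.sqrt (2 * slErr u i z)
  have hec : Continuous e := continuous_const.mul ((continuous_const.mul (slErr_cont hf i)).sqrt)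
  have he0 : ∀ z, 0 ≤ e z := fun z => mul_nonneg (by norm_num) (Real.sqrt_nonneg _)
  have hslper : ∀ z, slice u i (z + 1) = slice u i z := by
    intro z
    funext y
    show u (i.insertNth (z + 1) y) = u (i.insertNth z y)
    rw [s2_ins, hf.per]
  have hep : Function.Periodic e 1 := by
    intro z
    show 12 * Real.sqrt (2 * slErr u i (z + 1)) = 12 * Real.sqrt (2 * slErr u i z)
    unfold slErr
    rw [hslper]
  -- the inner integrals
  have hgc : Continuous (gradN u) := e3_gradN hf.smooth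
  let G : ℝ → ℝ := fun z => ∫ y in cell 2, gradN u (i.insertNth z y)
  have hGc : Continuous G := by
    refine e3_cont_param (F := fun z y => gradN u (i.insertNth z y)) ?_
    exact hgc.comp (e3_ins i)
  have hGp : Function.Periodic G 1 := by
    intro z
    show ∫ y in cell 2, gradN u (i.insertNth (z + 1) y) = ∫ y in cell 2, gradN u (i.insertNth z y)
    congr 1
    funext y
    rw [s2_ins]
    exact s2_gradN_per hf.per _ _
  let H : ℝ → ℝ := fun z => (1 / 2) * G z - κ * p z + e z - (1 / 2) * (S (p z) * |deriv p z|)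
  have hcp : Continuous fun z => κ * p z := continuous_const.mul hpc
  have hcS : Continuous fun z => S (p z) * |deriv p z| := (hSc.comp hpc).mul hpd.abs
  have hcG : Continuous fun z => (1 / 2) * G z := continuous_const.mul hGc
  have hcS2 : Continuous fun z => (1 / 2) * (S (p z) * |deriv p z|) := continuous_const.mul hcS
  have hHc : Continuous H := ((hcG.sub hcp).add hec).sub hcS2
  have hHp : Function.Periodic H 1 := by
    intro z
    show (1 / 2) * G (z + 1) - κ * p (z + 1) + e (z + 1) -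
      (1 / 2) * (S (p (z + 1)) * |deriv p (z + 1)|) = _
    rw [hGp z, hpp z, hep z, hdp z]
  have hz := s2_zones hHc hHp hσ0 hσ1 (α1 := α1) (α2 := α2) (fun z hz => by
    show α1 ≤ (1 / 2) * G z - κ * p z + e z - (1 / 2) * (S (p z) * |deriv p z|)
    rcases le_or_gt 0 (α1 + κ * p z) with h0 | h0
    · have h0' : 0 ≤ α1 + κ * cl (p z) := by
        rw [hcle _ (hpm z)]
        exact h0
      have h := s2_point hf i z (hC10 (p z) h0') (hC11 (p z) h0') (hS1 (p z) h0') (he0 z)
        (hiso1 z hz) (hCK1 z h0)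
      linarith
    · have h := s2_point hf i z le_rfl zero_le_one (hS10 (p z)) (he0 z) (hiso1 z hz)
        (zero_mul _)
      linarith) (fun z hz hz' => by
    have h := s2_point hf i z (hC20 (p z)) (hC21 (p z)) (hS2 (p z)) (he0 z) (hiso2 z hz hz')
      (hCK2 z)
    show α2 ≤ (1 / 2) * G z - κ * p z + e z - (1 / 2) * (S (p z) * |deriv p z|)
    linarith)
  have hint : ∫ z in (0:ℝ)..1, H z = (∫ z in (0:ℝ)..1, (1 / 2) * G z) -
      κ * (∫ z in (0:ℝ)..1, p z) + (∫ z in (0:ℝ)..1, e z) -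
      (1 / 2) * ∫ z in (0:ℝ)..1, S (p z) * |deriv p z| := by
    have i1 : IntervalIntegrable (fun z => (1 / 2) * G z) volume 0 1 := hcG.intervalIntegrable _ _
    have i2 : IntervalIntegrable (fun z => κ * p z) volume 0 1 := hcp.intervalIntegrable _ _
    have i3 : IntervalIntegrable e volume 0 1 := hec.intervalIntegrable _ _
    have i4 : IntervalIntegrable (fun z => (1 / 2) * (S (p z) * |deriv p z|)) volume 0 1 :=
      hcS2.intervalIntegrable _ _
    show ∫ z in (0:ℝ)..1, ((1 / 2) * G z - κ * p z + e z - (1 / 2) * (S (p z) * |deriv p z|)) = _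
    rw [intervalIntegral.integral_sub ((i1.sub i2).add i3) i4,
      intervalIntegral.integral_add (i1.sub i2) i3, intervalIntegral.integral_sub i1 i2,
      intervalIntegral.integral_const_mul κ,
      intervalIntegral.integral_const_mul (1 / 2) (fun z => S (p z) * |deriv p z|)]
  have hright : ∫ z in (0:ℝ)..1, (1 / 2) * G z = hTV u := by
    rw [intervalIntegral.integral_const_mul, hTV, fubini_slice hgc i]
  have hfub : ∫ z in (0:ℝ)..1, p z = ∫ x in cell 3, u x := by
    rw [fubini_slice hf.smooth.continuous i]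
    rfl
  have harc := arc_var hpC (e3_per hf i) hSc hS0 (z₁ := 1 / 2) (z₂ := 0) hbc
  have hcal : cal2 K1 K2 α1 α2 κ b c = ∫ x in b..c, S x := by
    unfold cal2
    refine intervalIntegral.integral_congr fun x hx => ?_
    rw [Set.uIcc_of_le hbc] at hx
    change Real.sqrt (1 - max ((α1 + κ * x) / K1 x) ((α2 + κ * x) / K2 x) ^ 2) =
      Real.sqrt (1 - max ((α1 + κ * cl x) / K1 (cl x)) ((α2 + κ * cl x) / K2 (cl x)) ^ 2)
    rw [hcle x hx]
  -- the error term
  have herr : ∫ z in (0:ℝ)..1, e z ≤ 12 * Real.sqrt (2 * ∫ x in cell 3, u x * (1 - u x)) := by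
    have hc : Continuous (fun x => u x * (1 - u x)) := by
      have := hf.smooth.continuous
      fun_prop
    have h1 := sl_cs (g := fun z => 2 * slErr u i z) (continuous_const.mul (slErr_cont hf i))
      (fun z => mul_nonneg (by norm_num) (slErr_nonneg hf i z))
    rw [intervalIntegral.integral_const_mul] at h1
    have h2 := fubini_slice hc i
    rw [h2]
    show ∫ z in (0:ℝ)..1, 12 * Real.sqrt (2 * slErr u i z) ≤ _
    rw [intervalIntegral.integral_const_mul]
    exact mul_le_mul_of_nonneg_left h1 (by norm_num)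
  rw [hint, hright, hfub] at hz
  rw [hcal]
  have harc' : 2 * ∫ x in b..c, S x ≤ ∫ z in (0:ℝ)..1, S (p z) * |deriv p z| := harc
  linarith

end Vale.Agent.P232
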