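import Vale.Agent.P232.SymSlice
import Vale.Agent.P232.Holder2
import Vale.Agent.P232.SecA
import Vale.Agent.P232.Slicing2
import Vale.Agent.P232.NumA

/-! # P232, module 2CA: claim A (helper31) -/

open MeasureTheory Set Filter Topology

namespace Vale.Agent.P232

/-- CA : claim A -/
theorem claim_A {w : (Fin 3 → ℝ) → ℝ} (hw : SymN w)
    (hV : (∫ x in cell 3, w x) ∈ Set.Icc (0.263 : ℝ) 0.361) {j k : Fin 3} (hjk : j ≠ k)
    (h1 : w (pt j k 0.065) = 0) (h2 : w (pt k j 0.065) = 0) :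
    Jh (∫ x in cell 3, w x) ≤ hTV w + 12 * Real.sqrt (2 * ∫ x in cell 3, w x * (1 - w x)) := by
  obtain ⟨i, hi⟩ := CA_third hjk
  have hp0 : w (pt (i.succAbove 0) (i.succAbove 1) 0.065) = 0 := by
    rcases hi with ⟨e1, e2⟩ | ⟨e1, e2⟩
    · rw [e1, e2, h1]
    · rw [e1, e2, h2]
  have hp1 : w (pt (i.succAbove 1) (i.succAbove 0) 0.065) = 0 := by
    rcases hi with ⟨e1, e2⟩ | ⟨e1, e2⟩
    · rw [e1, e2, h2]
    · rw [e1, e2, h1]
  have hiso : ∀ z, |z| ≤ 1 / 2 → FA (sArea w i z) -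
      12 * Real.sqrt (2 * ∫ y in cell 2, slice w i z y * (1 - slice w i z y)) ≤
        hTV (slice w i z) := by
    intro z hz
    have e1 := holder_avg2 (slice_nice hw.toNice i z) (F := FA) FA_holder
    have hz0 : slice w i z ![1 / 2, 0.065] = 0 :=
      le_antisymm ((CA_slice0 hw i hz).trans_eq hp0) (hw.nonneg _)
    have hz1 : slice w i z ![0.065, 1 / 2] = 0 :=
      le_antisymm ((CA_slice1 hw i hz).trans_eq hp1) (hw.nonneg _)
    have e2 := sec_A (slice_symN hw i z) hz0 hz1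
    exact e1.trans e2
  obtain ⟨hbV, hVc⟩ := CA_bounds hw i
  have hb0 := (sl_area_mem hw.toNice i (1 / 2)).1
  have hc1 := (sl_area_mem hw.toNice i 0).2
  obtain ⟨α, κ, hl, hJ⟩ := num_A hV hb0 hbV hVc hc1
  have hq : ContinuousOn (fun a => (α + κ * a) / FA a)
      (Set.Icc (sArea w i (1 / 2)) (sArea w i 0)) :=
    sl_hq CA_FA_cont hb0 hc1 (fun a ha => CA_FA_ge (hb0.trans ha.1) (ha.2.trans hc1))
      CA_FA_zero (Or.inr CA_FA_one) (fun a ha => (hl a ha).1) (fun a ha => (hl a ha).2)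
  have h := slicing2 hw i (K1 := FA) (K2 := FA) (σ := 0) (α1 := α) (α2 := α) (κ := κ) le_rfl
    zero_le_one (fun z hz => absurd hz (by simp)) (fun z _ hz => hiso z hz)
    CA_FA_cont.continuousOn CA_FA_cont.continuousOn hq hq (fun a ha => (hl a ha).2) hl
  have hcal : cal2 FA FA α α κ (sArea w i (1 / 2)) (sArea w i 0) =
      cal FA α κ (sArea w i (1 / 2)) (sArea w i 0) := by
    unfold cal2 cal
    simp only [max_self]
  rw [hcal] at h
  linarith

end Vale.Agent.P232
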