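import Vale.Agent.P232.GRunA

/-!
# P232, module CNA: certified searches for `FA`, with slack
-/

namespace Vale.Agent.P232.G

/-- final test with slack `10^-7` -/
def ftJs (b1 b2 c1 c2 la mu T Va Vb : ℕ) : Bool :=
  (Nat.ble 200000 T && ftJ b1 b2 c1 c2 la mu (T - 200000) Va Vb) ||
  (Nat.ble 1 la && Nat.ble 1 mu && ftJ b1 b2 c1 c2 (la - 1) (mu - 1) T Va Vb)

theorem runAs1 : search wmA ftJs skA 263000 280000 14 0 280000 263000 1000000 = true := by
  decide +kernel

theorem runAs2 : search wmA ftJs skA 280000 300000 14 0 300000 280000 1000000 = true := by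
  decide +kernel

theorem runAs3 : search wmA ftJs skA 300000 320000 14 0 320000 300000 1000000 = true := by
  decide +kernel

theorem runAs4 : search wmA ftJs skA 320000 361000 14 0 361000 320000 1000000 = true := by
  decide +kernel

end Vale.Agent.P232.G
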