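import Vale.Agent.P232.NearDiag2

/-!
# P232, module CND (and K1, K2): near the diagonal, with a quadratic slack
-/

open MeasureTheory Set

namespace Vale.Agent.P232

theorem near_diag_gen {iso : ℝ → ℝ} {V b c s : ℝ} (hb0 : 0 < b) (hbV : b ≤ V) (hc : V ≤ c)
    (hbc : b < c) (hiso : ∀ a ∈ Set.Icc b c, iso a = Real.sqrt (Real.pi * a))
    (hkey : 2 * Real.sqrt Real.pi * Real.sqrt c +
      8 * s * Real.sqrt c * (Real.sqrt b + Real.sqrt c) ^ 3 ≤
      Real.sqrt Real.pi ^ 2 * (Real.sqrt b + Real.sqrt c) ^ 2) :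
    ∃ α κ : ℝ, (∀ a ∈ Set.Icc b c, 0 ≤ α + κ * a) ∧ (∀ a ∈ Set.Icc b c, α + κ * a ≤ iso a) ∧
      Real.sqrt (Real.pi * V) + s * (c - b) ^ 2 ≤ α + κ * V + cal iso α κ b c := by
  obtain ⟨P, hP⟩ : ∃ P, P = Real.sqrt Real.pi := ⟨_, rfl⟩
  obtain ⟨B, hB⟩ : ∃ B, B = Real.sqrt b := ⟨_, rfl⟩
  obtain ⟨C, hC⟩ : ∃ C, C = Real.sqrt c := ⟨_, rfl⟩
  obtain ⟨v, hv⟩ : ∃ v, v = Real.sqrt V := ⟨_, rfl⟩
  rw [← hP, ← hB, ← hC] at hkey
  have hP2 : P ^ 2 = Real.pi := by rw [hP]; exact Real.sq_sqrt Real.pi_pos.le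
  have hB2 : B ^ 2 = b := by rw [hB]; exact Real.sq_sqrt (by linarith)
  have hC2 : C ^ 2 = c := by rw [hC]; exact Real.sq_sqrt (by linarith)
  have hv2 : v ^ 2 = V := by rw [hv]; exact Real.sq_sqrt (by linarith)
  have hB0 : 0 < B := by rw [hB]; exact Real.sqrt_pos.2 (by linarith)
  have hC0 : 0 < C := by rw [hC]; exact Real.sqrt_pos.2 (by linarith)
  have hP0 : 0 < P := by rw [hP]; exact Real.sqrt_pos.2 Real.pi_pos
  have hv0 : 0 < v := by rw [hv]; exact Real.sqrt_pos.2 (by linarith)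
  have hBv : B ≤ v := by rw [hB, hv]; exact Real.sqrt_le_sqrt hbV
  have hvC : v ≤ C := by rw [hC, hv]; exact Real.sqrt_le_sqrt hc
  have hS : 0 < B + C := by linarith
  refine ⟨P * (B * C) / (B + C), P / (B + C), fun a ha => ?_, fun a ha => ?_, ?_⟩
  · have : 0 ≤ a := by linarith [ha.1]
    positivity
  · have ha0 : 0 ≤ a := by linarith [ha.1]
    rw [hiso a ha, Real.sqrt_mul Real.pi_pos.le, ← hP]
    obtain ⟨w, hw⟩ : ∃ w, w = Real.sqrt a := ⟨_, rfl⟩
    have hw2 : w ^ 2 = a := by rw [hw]; exact Real.sq_sqrt ha0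
    have hBw : B ≤ w := by rw [hB, hw]; exact Real.sqrt_le_sqrt ha.1
    have hwC : w ≤ C := by rw [hC, hw]; exact Real.sqrt_le_sqrt ha.2
    rw [← hw, ← hw2]
    have : P * (B * C) / (B + C) + P / (B + C) * w ^ 2 = P * (B * C + w ^ 2) / (B + C) := by ring
    rw [this, div_le_iff₀ hS, mul_assoc]
    refine mul_le_mul_of_nonneg_left ?_ hP0.le
    nlinarith [mul_nonneg (sub_nonneg.2 hBw) (sub_nonneg.2 hwC)]
  · -- the integral
    have hint : ∀ a ∈ Set.Icc b c, Real.sqrt ((c - a) * (a - b)) / (C * (B + C)) ≤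
        Real.sqrt (1 - ((P * (B * C) / (B + C) + P / (B + C) * a) / iso a) ^ 2) := by
      intro a ha
      have ha0 : 0 < a := by linarith [ha.1]
      rw [hiso a ha, Real.sqrt_mul Real.pi_pos.le, ← hP]
      obtain ⟨w, hw⟩ : ∃ w, w = Real.sqrt a := ⟨_, rfl⟩
      have hw2 : w ^ 2 = a := by rw [hw]; exact Real.sq_sqrt ha0.le
      have hw0 : 0 < w := by rw [hw]; exact Real.sqrt_pos.2 ha0
      have hBw : B ≤ w := by rw [hB, hw]; exact Real.sqrt_le_sqrt ha.1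
      have hwC : w ≤ C := by rw [hC, hw]; exact Real.sqrt_le_sqrt ha.2
      rw [← hw]
      have e : 1 - ((P * (B * C) / (B + C) + P / (B + C) * a) / (P * w)) ^ 2 =
          ((c - a) * (a - b)) / (w * (B + C)) ^ 2 := by
        rw [← hw2, ← hC2, ← hB2]
        field_simp
        ring
      rw [e, Real.sqrt_div (mul_nonneg (sub_nonneg.2 ha.2) (sub_nonneg.2 ha.1)),
        Real.sqrt_sq (by positivity)]
      apply div_le_div_of_nonneg_left (Real.sqrt_nonneg _) (by positivity)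
      exact mul_le_mul_of_nonneg_right hwC hS.le
    have hcontI : ContinuousOn iso (Set.Icc b c) := by
      apply ContinuousOn.congr (f := fun a => Real.sqrt (Real.pi * a)) (by fun_prop)
      exact hiso
    have hcont : ContinuousOn (fun a => Real.sqrt (1 -
        ((P * (B * C) / (B + C) + P / (B + C) * a) / iso a) ^ 2)) (Set.Icc b c) := by
      apply ContinuousOn.sqrt
      apply ContinuousOn.sub continuousOn_const
      apply ContinuousOn.pow
      apply ContinuousOn.div (by fun_prop) hcontI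
      intro a ha
      have ha0 : 0 < a := by linarith [ha.1]
      rw [hiso a ha]
      exact (Real.sqrt_pos.2 (by positivity)).ne'
    have hcal : Real.pi * (c - b) ^ 2 / 8 / (C * (B + C)) ≤
        cal iso (P * (B * C) / (B + C)) (P / (B + C)) b c := by
      rw [← n1_int hbc.le, ← intervalIntegral.integral_div]
      unfold cal
      apply intervalIntegral.integral_mono_on hbc.le
      · apply ContinuousOn.intervalIntegrable
        fun_prop
      · apply ContinuousOn.intervalIntegrable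
        rw [uIcc_of_le hbc.le]
        exact hcont
      · exact hint
    have h1 : Real.sqrt (Real.pi * V) = P * v := by
      rw [Real.sqrt_mul Real.pi_pos.le, ← hP, ← hv]
    have h2 : P * v - (P * (B * C) / (B + C) + P / (B + C) * V) ≤
        P * (C - B) ^ 2 / (4 * (B + C)) := by
      rw [← hv2]
      have : P * v - (P * (B * C) / (B + C) + P / (B + C) * v ^ 2) =
          P * ((C - v) * (v - B)) / (B + C) := by
        field_simp
        ring
      rw [this, div_le_div_iff₀ hS (by positivity)]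
      have h5 : 4 * ((C - v) * (v - B)) ≤ (C - B) ^ 2 := by
        nlinarith [sq_nonneg (C + B - 2 * v)]
      nlinarith [mul_le_mul_of_nonneg_left h5 (mul_pos hP0 hS).le]
    have h3 : P * (C - B) ^ 2 / (4 * (B + C)) + s * (c - b) ^ 2 ≤
        Real.pi * (c - b) ^ 2 / 8 / (C * (B + C)) := by
      rw [← hP2, ← hC2, ← hB2, div_div, le_div_iff₀ (by positivity)]
      have h10 : 0 ≤ (C - B) ^ 2 := by positivity
      have h14 := mul_le_mul_of_nonneg_left hkey h10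
      have h15 : (P * (C - B) ^ 2 / (4 * (B + C)) + s * (C ^ 2 - B ^ 2) ^ 2) *
          (8 * (C * (B + C))) = (C - B) ^ 2 * (2 * P * C + 8 * s * C * (B + C) ^ 3) := by
        field_simp
        ring
      rw [h15]
      calc _ ≤ _ := h14
        _ = _ := by ring
    rw [h1]
    linarith

theorem near_diag_key {b c s l m : ℝ} (hb : 0 < b) (hbc : b ≤ c) (hc1 : c ≤ 1) (hs : 0 ≤ s)
    (hm : 0 ≤ m) (hl : 0 < l) (hlc : l ^ 2 ≤ c) (hmb : m ^ 2 * c ≤ b)
    (hlm : 2 + 40 * s ≤ 1.772 * ((1 + m) ^ 2 * l)) :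
    2 * Real.sqrt Real.pi * Real.sqrt c +
      8 * s * Real.sqrt c * (Real.sqrt b + Real.sqrt c) ^ 3 ≤
      Real.sqrt Real.pi ^ 2 * (Real.sqrt b + Real.sqrt c) ^ 2 := by
  have hc0 : 0 < c := by linarith
  obtain ⟨P, hP⟩ : ∃ P, P = Real.sqrt Real.pi := ⟨_, rfl⟩
  obtain ⟨B, hB⟩ : ∃ B, B = Real.sqrt b := ⟨_, rfl⟩
  obtain ⟨C, hC⟩ : ∃ C, C = Real.sqrt c := ⟨_, rfl⟩
  rw [← hP, ← hB, ← hC]
  have hB2 : B ^ 2 = b := by rw [hB]; exact Real.sq_sqrt hb.le
  have hC2 : C ^ 2 = c := by rw [hC]; exact Real.sq_sqrt hc0.le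
  have hB0 : 0 < B := by rw [hB]; exact Real.sqrt_pos.2 hb
  have hC0 : 0 < C := by rw [hC]; exact Real.sqrt_pos.2 hc0
  have hP0 : 0 < P := by rw [hP]; exact Real.sqrt_pos.2 Real.pi_pos
  have hPl : 1.772 ≤ P := by
    rw [hP]
    apply Real.le_sqrt_of_sq_le
    have := Real.pi_gt_d2
    norm_num
    linarith
  have hC1 : C ≤ 1 := by rw [hC]; exact (Real.sqrt_le_sqrt hc1).trans (by simp)
  have hBC : B ≤ C := by rw [hB, hC]; exact Real.sqrt_le_sqrt hbc
  have hlC : l ≤ C := by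
    rw [hC]; exact Real.le_sqrt_of_sq_le hlc
  have hmC : m * C ≤ B := by
    rw [hB]; apply Real.le_sqrt_of_sq_le; rw [mul_pow, hC2]; exact hmb
  have h1 : (1 + m) ^ 2 * C ^ 2 ≤ (B + C) ^ 2 := by
    rw [← mul_pow]
    apply pow_le_pow_left₀ (by positivity)
    linarith
  have h2 : (B + C) ^ 3 ≤ 8 := by
    calc (B + C) ^ 3 ≤ 2 ^ 3 := pow_le_pow_left₀ (by positivity) (by linarith) 3
      _ = 8 := by norm_num
  have h3 : 8 * s * C * (B + C) ^ 3 ≤ 64 * s * C := by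
    calc 8 * s * C * (B + C) ^ 3 ≤ 8 * s * C * 8 :=
          mul_le_mul_of_nonneg_left h2 (by positivity)
      _ = 64 * s * C := by ring
  have h4 : (1 + m) ^ 2 * l * C ≤ (1 + m) ^ 2 * C ^ 2 := by
    rw [mul_assoc]
    apply mul_le_mul_of_nonneg_left _ (by positivity)
    nlinarith
  have h5 : P * ((1 + m) ^ 2 * l * C) ≤ P * (B + C) ^ 2 :=
    mul_le_mul_of_nonneg_left (h4.trans h1) hP0.le
  have h6 : 1.772 * ((1 + m) ^ 2 * l * C) ≤ P * ((1 + m) ^ 2 * l * C) :=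
    mul_le_mul_of_nonneg_right hPl (by positivity)
  have h7 : (2 + 40 * s) * C ≤ P * (B + C) ^ 2 := by
    calc (2 + 40 * s) * C ≤ 1.772 * ((1 + m) ^ 2 * l) * C :=
          mul_le_mul_of_nonneg_right hlm hC0.le
      _ = 1.772 * ((1 + m) ^ 2 * l * C) := by ring
      _ ≤ _ := h6
      _ ≤ _ := h5
  have h8 : P * ((2 + 40 * s) * C) ≤ P * (P * (B + C) ^ 2) :=
    mul_le_mul_of_nonneg_left h7 hP0.le
  have h9 : 1.772 * (s * C) ≤ P * (s * C) :=
    mul_le_mul_of_nonneg_right hPl (by positivity)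
  have h10 : P * ((2 + 40 * s) * C) = 2 * P * C + 40 * (P * (s * C)) := by ring
  have h12 : 0 ≤ s * C := by positivity
  rw [h10] at h8
  have h11 : P * (P * (B + C) ^ 2) = P ^ 2 * (B + C) ^ 2 := by ring
  rw [h11] at h8
  have h13 : 64 * s * C = 64 * (s * C) := by ring
  rw [h13] at h3
  linarith

/-- CND : near the diagonal, strict -/
theorem near_diag3 {iso : ℝ → ℝ} {V b c : ℝ} (hV : 0.26 ≤ V) (hbV : b ≤ V) (hc : V ≤ c)
    (hbc : b < c) (hc1 : c ≤ 0.38) (hiso : ∀ a ∈ Set.Icc b c, iso a = Real.sqrt (Real.pi * a))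
    (hb : 0.25 * c ≤ b) :
    ∃ α κ : ℝ, (∀ a ∈ Set.Icc b c, 0 ≤ α + κ * a) ∧ (∀ a ∈ Set.Icc b c, α + κ * a ≤ iso a) ∧
      Real.sqrt (Real.pi * V) + (c - b) ^ 2 / 1000000 ≤ α + κ * V + cal iso α κ b c := by
  have hb0 : 0 < b := by linarith
  have hkey := near_diag_key (b := b) (c := c) (s := 1 / 1000000) (l := 0.5099) (m := 0.5) hb0
    hbc.le (by linarith) (by norm_num) (by norm_num) (by norm_num) (by norm_num; linarith)
    (by norm_num; linarith) (by norm_num)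
  obtain ⟨α, κ, h1, h2, h3⟩ := near_diag_gen hb0 hbV hc hbc hiso hkey
  refine ⟨α, κ, h1, h2, ?_⟩
  have : (c - b) ^ 2 / 1000000 = 1 / 1000000 * (c - b) ^ 2 := by ring
  rw [this]
  exact h3

/-- K2 -/
theorem near_diag2_s {V b c : ℝ} (hV : (0.155 : ℝ) ≤ V) (hbV : b ≤ V) (hc : V ≤ c)
    (hc1 : c ≤ 0.3712) (hbc : b < c) (hb : 0.66 * c ≤ b) :
    ∃ α κ : ℝ, (∀ a ∈ Set.Icc b c, 0 ≤ α + κ * a ∧ α + κ * a ≤ FA a) ∧
      Real.sqrt (Real.pi * V) + 0.001 * (c - b) ^ 2 ≤ α + κ * V + cal FA α κ b c := by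
  have hb0 : 0 < b := by linarith
  have hkey := near_diag_key (b := b) (c := c) (s := 0.001) (l := 0.3937) (m := 0.812) hb0
    hbc.le (by linarith) (by norm_num) (by norm_num) (by norm_num) (by norm_num; linarith)
    (by norm_num; linarith) (by norm_num)
  obtain ⟨α, κ, h1, h2, h3⟩ := near_diag_gen (iso := FA) hb0 hbV hc hbc
    (fun a ha => ndia_FA_eq_sqrt (ha.2.trans hc1)) hkey
  exact ⟨α, κ, fun a ha => ⟨h1 a ha, h2 a ha⟩, h3⟩

/-- K1 -/
theorem near_diag_s {V b c : ℝ} (hV : (0.155 : ℝ) ≤ V) (hbV : b ≤ V) (hc : V ≤ c)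
    (hc1 : c ≤ 1 / Real.pi) (hbc : b < c) (hb : 0.66 * c ≤ b) :
    ∃ α κ : ℝ, (∀ a ∈ Set.Icc b c, 0 ≤ α + κ * a) ∧ (∀ a ∈ Set.Icc b c, α + κ * a ≤ I2 a) ∧
      Real.sqrt (Real.pi * V) + 0.001 * (c - b) ^ 2 ≤ α + κ * V + cal I2 α κ b c := by
  have hb0 : 0 < b := by linarith
  have hc2 : c ≤ 1 := by
    refine hc1.trans ?_
    rw [div_le_one Real.pi_pos]
    linarith [Real.pi_gt_three]
  have hkey := near_diag_key (b := b) (c := c) (s := 0.001) (l := 0.3937) (m := 0.812) hb0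
    hbc.le hc2 (by norm_num) (by norm_num) (by norm_num) (by norm_num; linarith)
    (by norm_num; linarith) (by norm_num)
  exact near_diag_gen hb0 hbV hc hbc
    (fun a ha => n1_I2_eq_sqrt (hb0.le.trans ha.1) (ha.2.trans hc1)) hkey

end Vale.Agent.P232
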