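import Vale.Agent.P232.NumA
import Vale.Agent.P232.GRunA2
import Vale.Agent.P232.NearDiag3

/-!
# P232, module CNA: the one-dimensional inequality for `FA`, with slack
-/

open MeasureTheory Set

namespace Vale.Agent.P232

namespace G

theorem ft_Js : FT ftJs (fun V _ _ => Jh V + 1 / 10 ^ 7) := by
  intro b1 b2 c1 c2 la mu T Va Vb hbc ha1 ha2 hb1 hb2 h v b c hv h1 h2 h3 h4 h5 h6
  unfold ftJs at h
  rcases Bool.or_eq_true_iff.mp h with h | h
  · rw [Bool.and_eq_true, Nat.ble_eq] at h
    have k := ft_J b1 b2 c1 c2 la mu (T - 200000) Va Vb hbc ha1 ha2 hb1 hb2 h.2 v b c hv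
      h1 h2 h3 h4 h5 h6
    have e : ((T - 200000 : ℕ) : ℝ) = (T : ℝ) - 200000 := by
      rw [Nat.cast_sub h.1]; norm_num
    rw [e] at k
    simp only at k ⊢
    linarith
  · rw [Bool.and_eq_true, Bool.and_eq_true, Nat.ble_eq, Nat.ble_eq] at h
    have k := ft_J b1 b2 c1 c2 (la - 1) (mu - 1) T Va Vb hbc ha1 ha2 hb1 hb2 h.2 v b c hv
      h1 h2 h3 h4 h5 h6
    rw [N5.line_val hbc] at k ⊢
    have e1 : ((la - 1 : ℕ) : ℝ) = (la : ℝ) - 1 := by
      rw [Nat.cast_sub h.1.1]; norm_num
    have e2 : ((mu - 1 : ℕ) : ℝ) = (mu : ℝ) - 1 := by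
      rw [Nat.cast_sub h.1.2]; norm_num
    have hD : (0 : ℝ) < (c2 : ℝ) - b1 := by
      have : (b1 : ℝ) < c2 := by exact_mod_cast hbc
      linarith
    have e3 : (((la - 1 : ℕ) : ℝ) * (c2 - v) + ((mu - 1 : ℕ) : ℝ) * (v - b1)) /
        (1000000 * ((c2 : ℝ) - b1)) =
        ((la : ℝ) * (c2 - v) + mu * (v - b1)) / (1000000 * ((c2 : ℝ) - b1)) - 1 / 1000000 := by
      rw [e1, e2]
      field_simp
      ring
    rw [e3] at k
    simp only at k ⊢
    linarith

end G

open G

theorem num_A_s {V b c : ℝ} (hV : V ∈ Set.Icc (0.263 : ℝ) 0.361) (hb : 0 ≤ b) (hbV : b ≤ V)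
    (hc : V ≤ c) (hc1 : c ≤ 1) :
    ∃ α κ : ℝ, (∀ a ∈ Set.Icc b c, 0 ≤ α + κ * a ∧ α + κ * a ≤ FA a) ∧
      Jh V + (c - b) ^ 2 / 10 ^ 7 ≤ α + κ * V + cal FA α κ b c := by
  rcases (hbV.trans hc).eq_or_lt with hbc | hbc
  · -- degenerate case
    subst hbc
    have hVb : V = b := le_antisymm hc hbV
    subst hVb
    refine ⟨FA V, 0, fun a ha => ?_, ?_⟩
    · have : a = V := le_antisymm ha.2 ha.1
      subst this
      rw [zero_mul, add_zero]
      refine ⟨?_, le_rfl⟩
      unfold FA
      exact le_min (Real.sqrt_nonneg _) (by norm_num)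
    · unfold cal
      rw [intervalIntegral.integral_same, add_zero, zero_mul, add_zero, sub_self,
        zero_pow (by norm_num), zero_div, add_zero]
      unfold FA
      refine le_min (N5.Jh_le_sqrt V) ?_
      exact (min_le_right _ _).trans (by norm_num)
  · have fin : ∀ (S : Prop), (S → 0.25 * c ≤ b ∧ c ≤ 0.3712) →
        S ∨ Good profA (fun V _ _ => Jh V + 1 / 10 ^ 7) V b c →
        ∃ α κ : ℝ, (∀ a ∈ Set.Icc b c, 0 ≤ α + κ * a ∧ α + κ * a ≤ FA a) ∧
          Jh V + (c - b) ^ 2 / 10 ^ 7 ≤ α + κ * V + cal FA α κ b c := by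
      intro S hS h
      rcases h with h | h
      · obtain ⟨h1, h2⟩ := hS h
        obtain ⟨α, κ, k1, k2, k3⟩ := near_diag3 (iso := FA) (by linarith [hV.1]) hbV hc hbc
          (by linarith)
          (fun a ha => by
            unfold FA
            apply min_eq_left
            rw [Real.sqrt_le_left (by norm_num)]
            have := Real.pi_lt_d4
            have := Real.pi_pos
            have h5 : a ≤ 0.3712 := ha.2.trans h2
            nlinarith) h1
        refine ⟨α, κ, fun a ha => ⟨k1 a ha, k2 a ha⟩, ?_⟩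
        have e1 := N5.Jh_le_sqrt V
        have e2 : (c - b) ^ 2 / 10 ^ 7 ≤ (c - b) ^ 2 / 1000000 :=
          div_le_div_of_nonneg_left (sq_nonneg _) (by norm_num) (by norm_num)
        linarith
      · obtain ⟨α, κ, k1, k2, k3⟩ := h
        rw [profA_iso] at k2 k3
        refine ⟨α, κ, fun a ha => ⟨k1 a ha, k2 a ha⟩, ?_⟩
        have e2 : (c - b) ^ 2 / 10 ^ 7 ≤ 1 / 10 ^ 7 := by
          apply div_le_div_of_nonneg_right _ (by norm_num)
          have h0 : 0 ≤ c - b := by linarith
          have h1 : c - b ≤ 1 := by linarith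
          nlinarith
        simp only at k3
        linarith
    have hskp : ∀ b1 b2 c1 c2 : ℕ, skA b1 b2 c1 c2 = true → (b1 : ℝ) ≤ b * 1000000 →
      b * 1000000 ≤ (b2 : ℝ) → (c1 : ℝ) ≤ c * 1000000 → c * 1000000 ≤ (c2 : ℝ) →
      0.25 * c ≤ b ∧ c ≤ 0.3712 := by
      intro b1 b2 c1 c2 h e1 e2 e3 e4
      unfold skA at h
      simp only [Bool.and_eq_true, Nat.ble_eq] at h
      obtain ⟨h, h'⟩ := h
      have g1 : (c2 : ℝ) ≤ 371200 := by exact_mod_cast h
      have g2 : (25 : ℝ) * c2 ≤ 100 * b1 := by exact_mod_cast h'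
      constructor <;> linarith
    have hV1 := hV.1
    have hV2 := hV.2
    rcases le_total V 0.28 with h | h
    · exact fin _ id (search_sound profA_LB ft_Js hskp 263000 280000 (by norm_num; linarith)
        (by norm_num; linarith) hbV hc hbc 14 0 280000 263000 1000000 runAs1
        (by norm_num; linarith) (by norm_num; linarith) (by norm_num; linarith)
        (by norm_num; linarith))
    rcases le_total V 0.3 with h' | h'
    · exact fin _ id (search_sound profA_LB ft_Js hskp 280000 300000 (by norm_num; linarith)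
        (by norm_num; linarith) hbV hc hbc 14 0 300000 280000 1000000 runAs2
        (by norm_num; linarith) (by norm_num; linarith) (by norm_num; linarith)
        (by norm_num; linarith))
    rcases le_total V 0.32 with h'' | h''
    · exact fin _ id (search_sound profA_LB ft_Js hskp 300000 320000 (by norm_num; linarith)
        (by norm_num; linarith) hbV hc hbc 14 0 320000 300000 1000000 runAs3
        (by norm_num; linarith) (by norm_num; linarith) (by norm_num; linarith)
        (by norm_num; linarith))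
    · exact fin _ id (search_sound profA_LB ft_Js hskp 320000 361000 (by norm_num; linarith)
        (by norm_num; linarith) hbV hc hbc 14 0 361000 320000 1000000 runAs4
        (by norm_num; linarith) (by norm_num; linarith) (by norm_num; linarith)
        (by norm_num; linarith))

end Vale.Agent.P232
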