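import Vale.Agent.P232.ClaimAOf
import Vale.Agent.P232.NumA2

/-! # P232, module K14: claim A with slack -/

open MeasureTheory Set

namespace Vale.Agent.P232

theorem claim_A_s {w : (Fin 3 → ℝ) → ℝ} (hw : SymN w)
    (hV : (∫ x in cell 3, w x) ∈ Set.Icc (0.263 : ℝ) 0.361) {i j k : Fin 3} (hij : i ≠ j)
    (hjk : j ≠ k) (hik : i ≠ k)
    (h1 : w (pt j k 0.065) = 0) (h2 : w (pt k j 0.065) = 0) :
    Jh (∫ x in cell 3, w x) + (sArea w i 0 - sArea w i (1 / 2)) ^ 2 / 10 ^ 7 ≤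
      hTV w + 12 * Real.sqrt (2 * ∫ x in cell 3, w x * (1 - w x)) := by
  obtain ⟨hbV, hVc⟩ := CA_bounds hw i
  exact claim_A_of hw hij hjk hik h1 h2
    (num_A_s hV (sl_area_mem hw.toNice i (1 / 2)).1 hbV hVc (sl_area_mem hw.toNice i 0).2)

end Vale.Agent.P232
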