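import Vale.Agent.P232.SliceCommon
import Vale.Agent.P232.Slicing
import Vale.Agent.P232.HolderAvg
import Vale.Agent.P232.Holder
import Vale.Agent.P232.TorusTwo

open MeasureTheory Set Filter Topology

namespace Vale.Agent.P232

/-- E4 : slicing in the torus -/
theorem slice_torus {f : (Fin 3 → ℝ) → ℝ} (hf : Nice f) (i : Fin 3) {α κ b c : ℝ}
    (hb : ∀ z, b ≤ sArea f i z) (hc : ∀ z, sArea f i z ≤ c)
    (hb' : ∃ z, sArea f i z = b) (hc' : ∃ z, sArea f i z = c)
    (hl0 : ∀ a ∈ Set.Icc b c, 0 ≤ α + κ * a) (hl : ∀ a ∈ Set.Icc b c, α + κ * a ≤ I2 a) :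
    α + κ * (∫ x in cell 3, f x) + cal I2 α κ b c ≤
      hTV f + Real.sqrt (2 * Real.pi * ∫ x in cell 3, f x * (1 - f x)) := by
  obtain ⟨hb0, hc1⟩ := sl_bc hf i hb' hc'
  have h := slicing hf i (Iso := I2) (r := fun _ => 0)
    (e := fun z => Real.sqrt (2 * Real.pi * slErr f i z)) (α := α) (κ := κ) (b := b) (c := c)
    continuous_const (fun _ => le_rfl)
    ((continuous_const.mul (slErr_cont hf i)).sqrt) (fun z => Real.sqrt_nonneg _)
    (fun z => by
      have h1 := holder_avg (slice_nice hf i z) (F := I2)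
        (fun x y hx hx1 hy hy1 => I2_holder x y hx hx1 hy hy1)
      have h2 := torus_two (slice_nice hf i z)
      rw [add_zero]
      exact h1.trans h2) hb hc hb' hc' I2_cont.continuousOn
    (sl_hq I2_cont hb0 hc1 (fun a ha => I2_ge (hb0.trans ha.1) (ha.2.trans hc1))
      (by unfold I2; simp) (Or.inl (by unfold I2; simp)) hl0 hl) hl0 hl
  have h3 := sl_err_int hf i
  simp only [intervalIntegral.integral_zero, add_zero] at h
  linarith


end Vale.Agent.P232
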