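import Vale.Agent.P232.Defs2
import Vale.Agent.P232.SliceTorus
import Vale.Agent.P232.SliceSym

/-! # P232: auxiliary lemmas for the claims A, B, C (helper48) -/

open MeasureTheory Set Filter Topology

namespace Vale.Agent.P232

/-- the point with coordinates `a` (index `i`), `b` (index `j`), `z` (index `k`) -/
noncomputable def CB_P (i j k : Fin 3) (a b z : ℝ) : Fin 3 → ℝ :=
  Function.update (Function.update (Function.update (fun _ => (0 : ℝ)) i a) j b) k z

theorem CB_ins {i j k : Fin 3} (hij : i ≠ j) (hjk : j ≠ k) (hik : i ≠ k) :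
    (∀ z a b, (k.insertNth z ![a, b] : Fin 3 → ℝ) = CB_P i j k a b z) ∨
    (∀ z a b, (k.insertNth z ![a, b] : Fin 3 → ℝ) = CB_P i j k b a z) := by
  unfold CB_P
  fin_cases i <;> fin_cases j <;> fin_cases k <;> simp at hij hjk hik <;>
  first
    | (left; intro z a b; funext m; fin_cases m <;>
        simp [Fin.insertNth, Fin.succAboveCases, Function.update]; done)
    | (right; intro z a b; funext m; fin_cases m <;>
        simp [Fin.insertNth, Fin.succAboveCases, Function.update]; done)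

theorem CB_pt_i {i j k : Fin 3} (hij : i ≠ j) (t : ℝ) : pt i k t = CB_P i j k (1 / 2) 0 t := by
  unfold pt CB_P
  congr 1
  rw [eq_comm, Function.update_eq_self_iff, Function.update_of_ne hij.symm]

theorem CB_pt_j {i j k : Fin 3} (t : ℝ) : pt j k t = CB_P i j k 0 (1 / 2) t := by
  unfold pt CB_P
  congr 2
  rw [eq_comm, Function.update_eq_self_iff]

theorem CB_pt3_ij {i j k : Fin 3} (t z : ℝ) : pt3 i j k t z = CB_P i j k (1 / 2) t z := rfl

theorem CB_pt3_ji {i j k : Fin 3} (hij : i ≠ j) (t z : ℝ) :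
    pt3 j i k t z = CB_P i j k t (1 / 2) z := by
  unfold pt3 CB_P
  congr 1
  rw [Function.update_comm hij]

/-- evenness in the last coordinate -/
theorem CB_even {w : (Fin 3 → ℝ) → ℝ} (hw : SymN w) (i j k : Fin 3) (a b z : ℝ) :
    w (CB_P i j k a b |z|) = w (CB_P i j k a b z) := by
  rcases abs_cases z with h | h
  · rw [h.1]
  · rw [h.1]
    have := hw.even (CB_P i j k a b z) k
    unfold CB_P at this ⊢
    simpa using this

/-- monotonicity in the last coordinate -/
theorem CB_anti {w : (Fin 3 → ℝ) → ℝ} (hw : SymN w) (i j k : Fin 3) (a b : ℝ) {z z' : ℝ}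
    (h : |z| ≤ |z'|) (h' : |z'| ≤ 1 / 2) : w (CB_P i j k a b z') ≤ w (CB_P i j k a b z) := by
  rw [← CB_even hw i j k a b z, ← CB_even hw i j k a b z']
  have := hw.anti (CB_P i j k a b 0) k |z| |z'| (abs_nonneg _) h h'
  unfold CB_P at this ⊢
  simpa using this

/-- slice areas lie between those at `1/2` and at `0` -/
theorem CB_area {w : (Fin 3 → ℝ) → ℝ} (hw : SymN w) (k : Fin 3) (z : ℝ) :
    sArea w k (1 / 2) ≤ sArea w k z ∧ sArea w k z ≤ sArea w k 0 := by
  have hp : Function.Periodic (sArea w k) 1 := fun z => e3_per hw.toNice k z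
  obtain ⟨y, hy, hyz⟩ := hp.exists_mem_Ico₀ one_pos z
  rw [hyz]
  have key : ∀ y, 0 ≤ y → y ≤ 1 / 2 →
      sArea w k (1 / 2) ≤ sArea w k y ∧ sArea w k y ≤ sArea w k 0 := fun y h0 h1 =>
    ⟨sArea_anti hw k h0 h1 le_rfl, sArea_anti hw k le_rfl h0 h1⟩
  rcases le_total y (1 / 2) with h | h
  · exact key y hy.1 h
  · have h2 : sArea w k y = sArea w k (1 - y) := by
      rw [← sArea_even hw k (1 - y), ← hp (-(1 - y))]
      congr 1
      ring
    rw [h2]
    exact key (1 - y) (by linarith [hy.2]) (by linarith)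

theorem CB_area_cont {w : (Fin 3 → ℝ) → ℝ} (hw : Nice w) (k : Fin 3) :
    Continuous (sArea w k) := by
  unfold sArea
  exact e3_cont_param (F := fun z y => slice w k z y)
    (hw.smooth.continuous.comp (sl_ins_cont k))

/-- the volume lies between the extreme slice areas -/
theorem CB_V {w : (Fin 3 → ℝ) → ℝ} (hw : SymN w) (k : Fin 3) :
    sArea w k (1 / 2) ≤ (∫ x in cell 3, w x) ∧ (∫ x in cell 3, w x) ≤ sArea w k 0 := by
  have h := fubini_slice hw.smooth.continuous k
  have h' : ∫ x in cell 3, w x = ∫ z in (0:ℝ)..1, sArea w k z := h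
  have hi := (CB_area_cont hw.toNice k).intervalIntegrable (μ := volume) 0 1
  rw [h']
  constructor
  · have := intervalIntegral.integral_mono_on (a := 0) (b := 1) zero_le_one
      (f := fun _ => sArea w k (1 / 2)) (by simp) hi (fun z _ => (CB_area hw k z).1)
    simpa using this
  · have := intervalIntegral.integral_mono_on (a := 0) (b := 1) zero_le_one
      (g := fun _ => sArea w k 0) hi (by simp) (fun z _ => (CB_area hw k z).2)
    simpa using this

/-- continuity of the quotient, reflected version of `sl_hq` -/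
theorem CB_hq {Iso : ℝ → ℝ} {α κ b c : ℝ} (hIc : Continuous Iso) (hb : 0 ≤ b) (hc1 : c ≤ 1)
    (hge : ∀ a ∈ Set.Icc b c, Real.sqrt (a * (1 - a)) ≤ Iso a) (h1 : Iso 1 = 0)
    (h0 : Iso 0 = 0 ∨ 0 < Iso 0)
    (hl0 : ∀ a ∈ Set.Icc b c, 0 ≤ α + κ * a) (hl : ∀ a ∈ Set.Icc b c, α + κ * a ≤ Iso a) :
    ContinuousOn (fun a => (α + κ * a) / Iso a) (Set.Icc b c) := by
  have hmap : MapsTo (fun a : ℝ => 1 - a) (Set.Icc b c) (Set.Icc (1 - c) (1 - b)) :=
    fun a ha => ⟨by linarith [ha.2], by linarith [ha.1]⟩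
  have hmem : ∀ a ∈ Set.Icc (1 - c) (1 - b), 1 - a ∈ Set.Icc b c :=
    fun a ha => ⟨by linarith [ha.2], by linarith [ha.1]⟩
  have h := sl_hq (Iso := fun a => Iso (1 - a)) (α := α + κ) (κ := -κ) (b := 1 - c) (c := 1 - b)
    (hIc.comp (continuous_const.sub continuous_id)) (by linarith) (by linarith)
    (fun a ha => by
      have := hge (1 - a) (hmem a ha)
      have e : (1 - a) * (1 - (1 - a)) = a * (1 - a) := by ring
      rwa [e] at this) (by simpa using h1) (by simpa using h0)
    (fun a ha => by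
      have := hl0 (1 - a) (hmem a ha)
      linarith) (fun a ha => by
      have := hl (1 - a) (hmem a ha)
      linarith)
  have h3 := h.comp (g := fun a => (α + κ + -κ * a) / Iso (1 - a))
    (f := fun a : ℝ => 1 - a) (s := Set.Icc b c) (by fun_prop) hmap
  refine h3.congr fun a _ => ?_
  simp only [Function.comp]
  congr 1
  · ring
  · congr 1; ring

theorem CB_pi_lt_four : Real.pi < 4 := by linarith [Real.pi_lt_d2]

theorem CB_KT_one (T : ℝ) : KT T 1 = 0 := by
  unfold KT
  rw [if_pos (by rw [sub_self]; positivity)]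
  simp

theorem CB_KT_ge_sqrt {T a : ℝ} (hT : T < 1) (ha : a ≤ 1) : Real.sqrt (Real.pi * (1 - a)) ≤ KT T a := by
  unfold KT
  split_ifs with h
  · exact le_rfl
  · have he : 0 < 1 - T := by linarith
    have hpi := Real.pi_pos
    rw [Real.sqrt_le_left (by
      have : 0 ≤ (1 - a) / (1 - T) := div_nonneg (by linarith) he.le
      positivity)]
    have h2 : (1 - a) / (1 - T) * (Real.pi * (1 - T) / 4) = Real.pi * (1 - a) / 4 := by
      field_simp
    nlinarith [sq_nonneg ((1 - a) / (1 - T) - Real.pi * (1 - T) / 4)]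

theorem CB_KT_ge {T a : ℝ} (hT : T < 1) (_h0 : 0 ≤ a) (ha : a ≤ 1) :
    Real.sqrt (a * (1 - a)) ≤ KT T a := by
  refine le_trans (Real.sqrt_le_sqrt ?_) (CB_KT_ge_sqrt hT ha)
  have hpi : (1 : ℝ) ≤ Real.pi := by linarith [Real.pi_gt_three]
  nlinarith

theorem CB_KT_cont {T : ℝ} (hT : T < 1) : Continuous (KT T) := by
  unfold KT
  refine Continuous.if_le (by fun_prop) (by fun_prop) (by fun_prop) (by fun_prop) ?_
  intro a h
  rw [h]
  have he : 0 < 1 - T := by linarith
  have hpi := Real.pi_pos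
  have e1 : Real.pi * (Real.pi * (1 - T) ^ 2 / 4) = (Real.pi * (1 - T) / 2) ^ 2 := by ring
  rw [e1, Real.sqrt_sq (by positivity)]
  field_simp
  ring

theorem CB_FB_cont (T : ℝ) : Continuous (FB T) := by
  unfold FB
  fun_prop

theorem CB_FB_zero (T : ℝ) : FB T 0 = 0 := by
  unfold FB
  simp only [mul_zero, Real.sqrt_zero, sub_zero, mul_one]
  rw [min_eq_left (Real.sqrt_nonneg _), min_eq_left (le_max_of_le_left zero_le_one)]

theorem CB_FB_one (T : ℝ) : FB T 1 = 0 := by
  unfold FB
  simp only [sub_self, mul_zero, Real.sqrt_zero, mul_one]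
  rw [min_eq_right (Real.sqrt_nonneg _), min_eq_left (le_max_of_le_left zero_le_one)]

theorem CB_FB_ge {T a : ℝ} (h0 : 0 ≤ a) (h1 : a ≤ 1) : Real.sqrt (a * (1 - a)) ≤ FB T a := by
  have hpi : (1 : ℝ) ≤ Real.pi := by linarith [Real.pi_gt_three]
  unfold FB
  refine le_min (le_min ?_ ?_) (le_max_of_le_left ?_)
  · exact Real.sqrt_le_sqrt (by nlinarith)
  · exact Real.sqrt_le_sqrt (by nlinarith)
  · rw [Real.sqrt_le_one]
    nlinarith

theorem CB_FA_cont : Continuous FA := by
  unfold FA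
  fun_prop

theorem CB_FA_zero : FA 0 = 0 := by
  unfold FA
  rw [mul_zero, Real.sqrt_zero, min_eq_left (by norm_num)]

theorem CB_FA_one_pos : 0 < FA 1 := by
  unfold FA
  exact lt_min (Real.sqrt_pos.2 (by linarith [Real.pi_pos])) (by norm_num)

theorem CB_FA_ge {a : ℝ} (h0 : 0 ≤ a) (h1 : a ≤ 1) : Real.sqrt (a * (1 - a)) ≤ FA a := by
  have hpi : (1 : ℝ) ≤ Real.pi := by linarith [Real.pi_gt_three]
  unfold FA
  refine le_min ?_ ?_
  · exact Real.sqrt_le_sqrt (by nlinarith)
  · refine le_trans ?_ (show (1 : ℝ) ≤ 1.08 by norm_num)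
    rw [Real.sqrt_le_one]
    nlinarith

end Vale.Agent.P232
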