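import Vale.Agent.P232.NumB2Def

/-!
# P232, module 2NB, the T-box: run a of the certified search
-/

namespace Vale.Agent.P232.NB2

/-- search tree -/
def tr_a1 : Tr :=
  (.C (.C (.C .L .L) (.C (.B .L .L) (.C .L .L))) (.C (.C (.C .L (.B .L .L)) (.C (.C .L .L) (.C
  .L .L))) (.C (.C (.C .L .L) (.C .L .L)) (.C (.B .L .L) .L))))

theorem run_a1 : chk tr_a1 0 1000 550000 820000 284000 318400 0 400000 = true := by
  decide +kernel

/-- search tree -/
def tr_a3 : Tr :=
  (.C (.C .L (.C .L .L)) (.C (.C (.C .L .L) (.C .L .L)) (.C (.C (.B .L .L) (.C .L .L)) (.C (.C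
  .L .L) .L))))

theorem run_a3 : chk tr_a3 0 1000 550000 820000 284000 318400 600000 1000000 = true := by
  decide +kernel

/-- search tree -/
def tr_b1 : Tr :=
  (.C (.C (.C .L .L) (.C .L (.C .L .L))) (.C (.C (.C .L (.B .L .L)) (.C (.C .L .L) (.C .L .L)))
  (.C (.C (.C .L .L) (.C .L .L)) (.C (.B .L .L) .L))))

theorem run_b1 : chk tr_b1 0 1000 550000 820000 318300 323600 0 400000 = true := by
  decide +kernel

/-- search tree -/
def tr_b3 : Tr :=
  (.C (.C .L (.C .L .L)) (.C (.C (.C .L .L) (.C .L .L)) (.C (.C (.B .L .L) (.C .L .L)) (.C (.B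
  .L .L) .L))))

theorem run_b3 : chk tr_b3 0 1000 550000 820000 318300 323600 600000 1000000 = true := by
  decide +kernel

end Vale.Agent.P232.NB2
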