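import Vale.Agent.P232.NumB2Def

/-!
# P232, module 2NB, the T-box: run b of the certified search
-/

namespace Vale.Agent.P232.NB2

/-- search tree -/
def tr_a2 : Tr :=
  (.C (.C (.C .L (.C .L .L)) (.C (.C (.B .L .L) (.C (.B .L .L) (.T (.T .L .L) .L))) (.C (.T (.T
  .L (.C (.B .L .L) .L)) (.C .L (.B .L .L))) (.T (.C (.T .L .L) (.T .L (.B .L .L))) (.T (.C (.T
  .L .L) (.C .L .L)) .L))))) (.C (.C (.C (.T (.C (.T .L (.C .L .L)) (.T .L (.C .L (.B .L .L))))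
  (.B (.T (.C (.C .L .L) (.C .L .L)) (.C .L .L)) .L)) (.B (.V (.T .L .L) (.T (.C (.T .L (.C .L
  .L)) (.T .L (.C (.B .L .L) (.T .L .L)))) (.C (.T (.C .L (.B .L .L)) .L) (.T (.T (.C .L .L) .L)
  .L)))) (.C .L .L))) (.C (.B (.V (.B .L .L) (.C (.T (.T .L (.C (.T .L .L) (.T .L (.B .L .L))))
  (.T (.T (.C .L (.B .L .L)) (.C .L .L)) .L)) (.T (.B (.C (.T .L (.T .L .L)) (.T .L (.T .L (.B
  .L .L)))) .L) (.T (.B (.C (.T .L .L) (.T (.B .L .L) .L)) .L) (.B .L .L))))) (.C .L .L)) (.B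
  (.V .L (.C (.V (.C .L .L) (.T (.B (.C (.T .L (.T .L (.C .L .L))) (.B (.T .L (.T .L (.C .L
  .L))) (.C .L .L))) .L) (.T (.B (.C (.T (.C .L .L) .L) (.T (.T .L .L) .L)) .L) (.C .L .L))))
  (.V .L (.B (.T (.C (.B (.C (.T .L (.T .L .L)) (.T .L (.T .L .L))) .L) (.B (.C (.T .L (.T .L
  .L)) (.C (.T .L (.T .L .L)) (.C (.T .L .L) .L))) .L)) (.T (.V .L (.C (.T (.T (.B .L .L) .L)
  .L) (.T (.C (.B .L .L) (.B .L .L)) (.B .L .L)))) (.C .L .L))) (.T .L .L))))) .L))) (.C (.C (.B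
  (.V .L (.C (.B (.V .L (.T (.C (.B (.C (.C (.C .L .L) .L) (.C .L .L)) .L) (.C (.B .L .L) (.B .L
  .L))) (.T (.C (.T (.C (.B .L .L) (.B .L .L)) (.B .L .L)) (.T (.T (.B .L .L) (.B .L .L)) (.B .L
  .L))) (.C .L .L)))) (.C .L .L)) (.B (.V .L (.V (.C .L .L) (.T (.C (.C .L .L) (.B .L .L)) (.T
  (.C (.T (.T (.B .L .L) (.B .L .L)) (.B .L .L)) (.T (.C .L .L) (.B .L .L))) (.C .L .L)))))
  .L))) .L) (.B (.C (.B (.V .L (.V .L (.V .L (.T (.C .L .L) (.T (.C (.T (.B .L .L) .L) (.T .L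
  .L)) (.C .L .L)))))) .L) (.B (.C (.T .L (.T (.B .L .L) .L)) (.C (.T .L (.T .L .L)) (.B .L
  .L))) .L)) .L)) (.C (.C (.B (.C (.B (.B .L .L) .L) .L) .L) (.B (.B .L .L) .L)) (.C .L .L)))))

theorem run_a2 : chk tr_a2 0 1000 550000 820000 284000 318400 400000 600000 = true := by
  decide +kernel

end Vale.Agent.P232.NB2
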