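import Vale.Agent.P232.NumB2Sound
import Vale.Agent.P232.NumB2a
import Vale.Agent.P232.NumB2b
import Vale.Agent.P232.NumB2c

/-!
# P232, module 2NB, the T-box (helper91)
-/

open MeasureTheory Set

namespace Vale.Agent.P232

/-- the second alternative of `num_B` for `b ≤ 0.001`, `0.55 ≤ c ≤ 0.82`,
`0.284 ≤ V ≤ 0.3236`, with slack `10⁻⁶` -/
theorem num_B2_s {V b c T : ℝ} (hV : V ∈ Set.Icc (0.284 : ℝ) 0.3236) (hb : 0 ≤ b)
    (hb1 : b ≤ 0.001) (hc : 0.55 ≤ c) (hc1 : c ≤ 0.82) (hT0 : 0 ≤ T) (hT1 : T ≤ 1) :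
    ∃ α1 α2 κ : ℝ,
      (∀ a ∈ Set.Icc b c, 0 ≤ α1 + κ * a ∧ α1 + κ * a ≤ KT (min 0.9 (max 0 (T - 0.002))) a) ∧
      (∀ a ∈ Set.Icc b c, 0 ≤ α2 + κ * a ∧ α2 + κ * a ≤ FB T a) ∧
      Jh V + 1 / 10 ^ 6 ≤ α1 * 0.13 + α2 * (1 - 0.13) + κ * V +
        cal2 (KT (min 0.9 (max 0 (T - 0.002)))) (FB T) α1 α2 κ b c := by
  obtain ⟨hV1, hV2⟩ := hV
  have hbc : b ≤ c := by linarith
  have key : ∀ (t : NB2.Tr) (V1 V2 T1 T2 : ℕ),
      NB2.chk t 0 1000 550000 820000 V1 V2 T1 T2 = true → (V1 : ℝ) / 1000000 ≤ V →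
      V ≤ (V2 : ℝ) / 1000000 → (T1 : ℝ) / 1000000 ≤ T → T ≤ (T2 : ℝ) / 1000000 →
      NB2.Good V b c T := by
    intro t V1 V2 T1 T2 h h1 h2 h3 h4
    refine NB2.chk_sound t h ⟨?_, ?_, ?_, ?_, h1, h2, h3, h4⟩ hbc
    · simpa using hb
    · norm_num at hb1 ⊢; linarith
    · norm_num at hc ⊢; linarith
    · norm_num at hc1 ⊢; linarith
  show NB2.Good V b c T
  rcases le_total V 0.3184 with hv | hv
  · rcases le_total T 0.4 with h1 | h1
    · exact key _ _ _ _ _ NB2.run_a1 (by norm_num at hV1 ⊢; linarith)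
        (by norm_num at hv ⊢; linarith) (by norm_num; linarith) (by norm_num at h1 ⊢; linarith)
    · rcases le_total T 0.6 with h2 | h2
      · exact key _ _ _ _ _ NB2.run_a2 (by norm_num at hV1 ⊢; linarith)
          (by norm_num at hv ⊢; linarith) (by norm_num at h1 ⊢; linarith)
          (by norm_num at h2 ⊢; linarith)
      · exact key _ _ _ _ _ NB2.run_a3 (by norm_num at hV1 ⊢; linarith)
          (by norm_num at hv ⊢; linarith) (by norm_num at h2 ⊢; linarith)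
          (by norm_num; linarith)
  · rcases le_total T 0.4 with h1 | h1
    · exact key _ _ _ _ _ NB2.run_b1 (by norm_num at hv ⊢; linarith)
        (by norm_num at hV2 ⊢; linarith) (by norm_num; linarith) (by norm_num at h1 ⊢; linarith)
    · rcases le_total T 0.6 with h2 | h2
      · exact key _ _ _ _ _ NB2.run_b2 (by norm_num at hv ⊢; linarith)
          (by norm_num at hV2 ⊢; linarith) (by norm_num at h1 ⊢; linarith)
          (by norm_num at h2 ⊢; linarith)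
      · exact key _ _ _ _ _ NB2.run_b3 (by norm_num at hv ⊢; linarith)
          (by norm_num at hV2 ⊢; linarith) (by norm_num at h2 ⊢; linarith)
          (by norm_num; linarith)

/-- the second alternative of `num_B` for `b ≤ 0.001`, `0.55 ≤ c ≤ 0.82`, `0.284 ≤ V ≤ 0.3236` -/
theorem num_B2 {V b c T : ℝ} (hV : V ∈ Set.Icc (0.284 : ℝ) 0.3236) (hb : 0 ≤ b)
    (hb1 : b ≤ 0.001) (hc : 0.55 ≤ c) (hc1 : c ≤ 0.82) (hT0 : 0 ≤ T) (hT1 : T ≤ 1) :
    ∃ α1 α2 κ : ℝ,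
      (∀ a ∈ Set.Icc b c, 0 ≤ α1 + κ * a ∧ α1 + κ * a ≤ KT (min 0.9 (max 0 (T - 0.002))) a) ∧
      (∀ a ∈ Set.Icc b c, 0 ≤ α2 + κ * a ∧ α2 + κ * a ≤ FB T a) ∧
      Jh V ≤ α1 * 0.13 + α2 * (1 - 0.13) + κ * V +
        cal2 (KT (min 0.9 (max 0 (T - 0.002)))) (FB T) α1 α2 κ b c := by
  obtain ⟨α1, α2, κ, h1, h2, h3⟩ := num_B2_s hV hb hb1 hc hc1 hT0 hT1
  exact ⟨α1, α2, κ, h1, h2, by linarith⟩

end Vale.Agent.P232
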