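import Vale.Agent.P232.Defs2

/-! # P232, module CCOR: the slab corner for both slopes, strict version (adapted from
Corner2.lean, helper58) -/

open MeasureTheory Set

namespace Vale.Agent.P232

/-- `∫ s x⁻¹ = s log (q/p)`, also for `p = 0` if `s = 0` -/
private theorem cc3_inv {s p q : ℝ} (hp : 0 ≤ p) (hpq : p ≤ q) (hs : p = 0 → s = 0) :
    IntervalIntegrable (fun a => s * a⁻¹) volume p q ∧
      ∫ a in p..q, s * a⁻¹ = s * Real.log (q / p) := by
  rcases hp.eq_or_lt with h0 | h0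
  · have hs0 := hs h0.symm
    rw [hs0]
    simp
  · have hq : 0 < q := lt_of_lt_of_le h0 hpq
    have h1 : ContinuousOn (fun a : ℝ => a⁻¹) (Set.uIcc p q) := by
      refine continuousOn_inv₀.mono fun a ha => ?_
      rw [Set.uIcc_of_le hpq] at ha
      exact (lt_of_lt_of_le h0 ha.1).ne'
    refine ⟨h1.intervalIntegrable.const_mul s, ?_⟩
    rw [intervalIntegral.integral_const_mul, integral_inv_of_pos h0 hq]

private theorem cc3_inv' {s b c : ℝ} (hc : c ≤ 1) (hbc : b ≤ c) (hs : c = 1 → s = 0) :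
    IntervalIntegrable (fun a => s * (1 - a)⁻¹) volume b c ∧
      ∫ a in b..c, s * (1 - a)⁻¹ = s * Real.log ((1 - b) / (1 - c)) := by
  obtain ⟨h1, h2⟩ := cc3_inv (s := s) (p := 1 - c) (q := 1 - b) (by linarith) (by linarith)
    (fun h => hs (by linarith))
  constructor
  · have h3 := h1.comp_sub_left 1
    simp only [sub_sub_cancel] at h3
    exact h3.symm
  · rw [← h2, ← intervalIntegral.integral_comp_sub_left (fun x => s * x⁻¹) 1]

/-- `x² (1 + 1.0143 log (π/x²)) ≤ 0.9 x` -/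
private theorem cc3_log {x : ℝ} (hx : 0 < x) (hx2 : x ≤ 0.1483) :
    x ^ 2 * (1 + 1.0143 * Real.log (Real.pi / x ^ 2)) ≤ 0.9 * x := by
  have hlog : Real.log (Real.pi / x ^ 2) ≤ 4.9681 + 2 * (0.1483 / x - 1) := by
    have e : Real.pi / x ^ 2 = (2 : ℝ) ^ 7 * (Real.pi / 2.81508992) * (0.1483 / x) ^ 2 := by
      field_simp
      norm_num
    have hpi := Real.pi_pos
    rw [e, Real.log_mul (by positivity) (by positivity), Real.log_mul (by positivity)
      (by positivity), Real.log_pow, Real.log_pow]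
    have h1 : Real.log (Real.pi / 2.81508992) ≤ Real.pi / 2.81508992 - 1 :=
      Real.log_le_sub_one_of_pos (by positivity)
    have h2 : Real.log (0.1483 / x) ≤ 0.1483 / x - 1 := Real.log_le_sub_one_of_pos (by positivity)
    have h3 := Real.log_two_lt_d9
    push_cast
    have h7 := Real.pi_lt_d4
    have h8 : Real.pi / 2.81508992 ≤ 1.11602 := by
      rw [div_le_iff₀ (by norm_num)]
      linarith
    linarith
  have h1 : x ^ 2 * (1 + 1.0143 * Real.log (Real.pi / x ^ 2))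
      ≤ x ^ 2 * (1 + 1.0143 * (4.9681 + 2 * (0.1483 / x - 1))) := by
    refine mul_le_mul_of_nonneg_left ?_ (sq_nonneg x)
    linarith
  have h2 : x ^ 2 * (1 + 1.0143 * (4.9681 + 2 * (0.1483 / x - 1)))
      = x * (4.01054383 * x + 0.30084138) := by
    field_simp
    ring
  rw [h2] at h1
  refine h1.trans ?_
  nlinarith

private theorem cc3_concave {p q t x : ℝ} (ht : 0 ≤ t) (ht1 : t ≤ 1)
    (hx : (1 - t) * p ^ 2 + t * q ^ 2 = x) : (1 - t) * p + t * q ≤ Real.sqrt x := by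
  refine Real.le_sqrt_of_sq_le ?_
  rw [← hx]
  nlinarith [mul_nonneg (mul_nonneg ht (sub_nonneg.2 ht1)) (sq_nonneg (p - q))]

private theorem cc3_I2 {a : ℝ} (ha0 : 0 < a) (ha1 : 0 < 1 - a) :
    Real.pi * a * (1 - a) ≤ I2 a ^ 2 := by
  have hpi0 := Real.pi_pos
  have hpi4 := Real.pi_lt_d4
  have h3 : Real.sqrt (Real.pi * a * (1 - a)) ≤ I2 a := by
    unfold I2
    refine le_min (le_min ?_ ?_) ?_
    · refine Real.sqrt_le_sqrt ?_
      have : 0 ≤ Real.pi * a := by positivity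
      nlinarith
    · refine Real.sqrt_le_one.2 ?_
      nlinarith [mul_nonneg hpi0.le (sq_nonneg (a - 1 / 2))]
    · refine Real.sqrt_le_sqrt ?_
      have : 0 ≤ Real.pi * (1 - a) := by positivity
      nlinarith
  have h4 : 0 ≤ Real.pi * a * (1 - a) := by positivity
  calc Real.pi * a * (1 - a) = Real.sqrt (Real.pi * a * (1 - a)) ^ 2 := (Real.sq_sqrt h4).symm
    _ ≤ I2 a ^ 2 := pow_le_pow_left₀ (Real.sqrt_nonneg _) h3 2

private theorem cc3_point {β γ b c a I t : ℝ} (hb : 0 ≤ b) (hc1 : c ≤ 1) (hcb : 0 < c - b)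
    (ha0 : 0 < a) (ha1 : 0 < 1 - a) (h1 : 0 ≤ t) (h2 : t ≤ 1) (htc : t * (c - b) = a - b)
    (hI : Real.pi * a * (1 - a) ≤ I ^ 2) (hlea : (1 - t) * β + t * γ ≤ I)
    (hnna : 0 ≤ (1 - t) * β + t * γ) :
    1 - 1 / (Real.pi * (c - b)) * (β ^ 2 * a⁻¹ + γ ^ 2 * (1 - a)⁻¹)
      ≤ Real.sqrt (1 - (((1 - t) * β + t * γ) / I) ^ 2) := by
  have hpi0 := Real.pi_pos
  set ell := (1 - t) * β + t * γ with hell
  have hden : 0 < Real.pi * a * (1 - a) := by positivity
  have hIpos : 0 < I ^ 2 := lt_of_lt_of_le hden hI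
  have hq0 : 0 ≤ ell / I := div_nonneg hnna (le_trans hnna hlea)
  have hq1 : ell / I ≤ 1 := div_le_one_of_le₀ hlea (le_trans hnna hlea)
  have hsq : 1 - (ell / I) ^ 2 ≤ Real.sqrt (1 - (ell / I) ^ 2) := by
    have h3 : 0 ≤ 1 - (ell / I) ^ 2 := by nlinarith
    have h4 : 1 - (ell / I) ^ 2 ≤ 1 := by linarith [sq_nonneg (ell / I)]
    refine Real.le_sqrt_of_sq_le ?_
    generalize 1 - (ell / I) ^ 2 = u at *
    nlinarith
  refine le_trans ?_ hsq
  have hell2 : ell ^ 2 ≤ (1 - t) * β ^ 2 + t * γ ^ 2 := by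
    rw [hell]
    nlinarith [mul_nonneg (mul_nonneg h1 (sub_nonneg.2 h2)) (sq_nonneg (β - γ))]
  have hmain : (ell / I) ^ 2 ≤ 1 / (Real.pi * (c - b)) *
      (β ^ 2 * a⁻¹ + γ ^ 2 * (1 - a)⁻¹) := by
    rw [div_pow, div_le_iff₀ hIpos]
    have hr : 0 ≤ 1 / (Real.pi * (c - b)) * (β ^ 2 * a⁻¹ + γ ^ 2 * (1 - a)⁻¹) := by positivity
    refine le_trans ?_ (mul_le_mul_of_nonneg_left hI hr)
    have e : 1 / (Real.pi * (c - b)) * (β ^ 2 * a⁻¹ + γ ^ 2 * (1 - a)⁻¹)
        * (Real.pi * a * (1 - a)) = (β ^ 2 * (1 - a) + γ ^ 2 * a) / (c - b) := by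
      field_simp
    rw [e, le_div_iff₀ hcb]
    have h5 : ell ^ 2 * (c - b) ≤ ((1 - t) * β ^ 2 + t * γ ^ 2) * (c - b) :=
      mul_le_mul_of_nonneg_right hell2 hcb.le
    have h6 : ((1 - t) * β ^ 2 + t * γ ^ 2) * (c - b)
        = (c - a) * β ^ 2 + (a - b) * γ ^ 2 := by
      linear_combination (γ ^ 2 - β ^ 2) * htc
    rw [h6] at h5
    have h7 : (c - a) * β ^ 2 ≤ (1 - a) * β ^ 2 :=
      mul_le_mul_of_nonneg_right (by linarith) (sq_nonneg β)
    have h8 : (a - b) * γ ^ 2 ≤ a * γ ^ 2 :=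
      mul_le_mul_of_nonneg_right (by linarith) (sq_nonneg γ)
    linarith
  linarith

private theorem cc3_final {β γ b c LB LC : ℝ} (hβ0 : 0 ≤ β) (hγ0 : 0 ≤ γ)
    (hβ2 : β ^ 2 = Real.pi * b) (hγ2 : γ ^ 2 = Real.pi * (1 - c)) (hcb : 0 < c - b)
    (hB : β ^ 2 * (1 + 1 / (c - b) * LB) ≤ 0.9 * β)
    (hG : γ ^ 2 * (1 + 1 / (c - b) * LC) ≤ 0.9 * γ) (hβl : β ≤ 0.1483) (hγl : γ ≤ 0.1483) :
    1 + (b + (1 - c)) / 1000000 -
      ((c - b) - 1 / (Real.pi * (c - b)) * (β ^ 2 * LB + γ ^ 2 * LC)) ≤ 0.295 * (β + γ) := by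
  have hpi0 := Real.pi_pos
  have hpi := Real.pi_gt_d2
  have hsum : (1 + (b + (1 - c)) / 1000000 -
      ((c - b) - 1 / (Real.pi * (c - b)) * (β ^ 2 * LB + γ ^ 2 * LC))) * Real.pi
      = β ^ 2 * (1 + 1 / (c - b) * LB) + γ ^ 2 * (1 + 1 / (c - b) * LC)
        + (β ^ 2 + γ ^ 2) / 1000000 := by
    have e3 : 1 / (Real.pi * (c - b)) = (1 / (c - b)) / Real.pi := by
      field_simp
    rw [e3]
    generalize 1 / (c - b) = l3 at *
    have e4 : (1 + (b + (1 - c)) / 1000000 -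
        (c - b - l3 / Real.pi * (β ^ 2 * LB + γ ^ 2 * LC))) * Real.pi
        = Real.pi * b + Real.pi * (1 - c) + l3 * (β ^ 2 * LB + γ ^ 2 * LC)
          + (Real.pi * b + Real.pi * (1 - c)) / 1000000 := by
      field_simp
      ring
    rw [e4, ← hβ2, ← hγ2]
    ring
  have h1 : (1 + (b + (1 - c)) / 1000000 -
      ((c - b) - 1 / (Real.pi * (c - b)) * (β ^ 2 * LB + γ ^ 2 * LC))) * Real.pi
      ≤ 0.295 * (β + γ) * Real.pi := by
    rw [hsum]
    have h2 : 0.9001 * (β + γ) ≤ 0.295 * (β + γ) * Real.pi := by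
      have : 0 ≤ β + γ := add_nonneg hβ0 hγ0
      nlinarith
    have h3 : β ^ 2 ≤ 0.1483 * β := by nlinarith
    have h4 : γ ^ 2 ≤ 0.1483 * γ := by nlinarith
    linarith
  exact le_of_mul_le_mul_right h1 hpi0

private theorem cc3_cal {b c β γ : ℝ} (hb : 0 ≤ b) (hc1 : c ≤ 1) (hcb : 0 < c - b)
    (hβ2 : β ^ 2 = Real.pi * b) (hγ2 : γ ^ 2 = Real.pi * (1 - c))
    (hch : ∀ a, β - (γ - β) / (c - b) * b + (γ - β) / (c - b) * a
      = (1 - (a - b) / (c - b)) * β + (a - b) / (c - b) * γ)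
    (ht : ∀ a ∈ Set.Icc b c, 0 ≤ (a - b) / (c - b) ∧ (a - b) / (c - b) ≤ 1)
    (hnn : ∀ a ∈ Set.Icc b c, 0 ≤ (1 - (a - b) / (c - b)) * β + (a - b) / (c - b) * γ)
    (hle : ∀ a ∈ Set.Icc b c, (1 - (a - b) / (c - b)) * β + (a - b) / (c - b) * γ ≤ I2 a) :
    (c - b) - 1 / (Real.pi * (c - b)) * (β ^ 2 * Real.log (c / b)
      + γ ^ 2 * Real.log ((1 - b) / (1 - c)))
      ≤ cal I2 (β - (γ - β) / (c - b) * b) ((γ - β) / (c - b)) b c := by
  have hI2c : Continuous I2 := by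
    unfold I2
    fun_prop
  obtain ⟨hi1, hv1⟩ := cc3_inv (s := β ^ 2) (p := b) (q := c) hb (by linarith)
    (fun h => by rw [hβ2, h, mul_zero])
  obtain ⟨hi2, hv2⟩ := cc3_inv' (s := γ ^ 2) (b := b) (c := c) hc1 (by linarith)
    (fun h => by rw [hγ2, h, sub_self, mul_zero])
  have hg : IntervalIntegrable (fun a => (1 : ℝ) - 1 / (Real.pi * (c - b)) *
      (β ^ 2 * a⁻¹ + γ ^ 2 * (1 - a)⁻¹)) volume b c :=
    intervalIntegrable_const.sub ((hi1.add hi2).const_mul _)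
  have hgv : ∫ a in b..c, ((1 : ℝ) - 1 / (Real.pi * (c - b)) *
      (β ^ 2 * a⁻¹ + γ ^ 2 * (1 - a)⁻¹)) = (c - b) - 1 / (Real.pi * (c - b)) *
        (β ^ 2 * Real.log (c / b) + γ ^ 2 * Real.log ((1 - b) / (1 - c))) := by
    rw [intervalIntegral.integral_sub intervalIntegrable_const ((hi1.add hi2).const_mul _),
      intervalIntegral.integral_const_mul, intervalIntegral.integral_add hi1 hi2, hv1, hv2]
    simp
  rw [← hgv]
  unfold cal
  have hmeas : Measurable fun a : ℝ => Real.sqrt (1 - ((β - (γ - β) / (c - b) * b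
      + (γ - β) / (c - b) * a) / I2 a) ^ 2) := by
    have := hI2c.measurable
    fun_prop
  have hf : IntervalIntegrable (fun a : ℝ => Real.sqrt (1 - ((β - (γ - β) / (c - b) * b
      + (γ - β) / (c - b) * a) / I2 a) ^ 2)) volume b c := by
    refine (intervalIntegrable_const (c := (1 : ℝ))).mono_fun' hmeas.aestronglyMeasurable ?_
    refine Filter.Eventually.of_forall fun a => ?_
    simp only
    rw [Real.norm_of_nonneg (Real.sqrt_nonneg _)]
    refine Real.sqrt_le_one.2 ?_ 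
    nlinarith [sq_nonneg ((β - (γ - β) / (c - b) * b + (γ - β) / (c - b) * a) / I2 a)]
  refine intervalIntegral.integral_mono_on_of_le_Ioo (by linarith) hg hf fun a ha => ?_
  have haI : a ∈ Set.Icc b c := ⟨ha.1.le, ha.2.le⟩
  have ha0 : 0 < a := lt_of_le_of_lt hb ha.1
  have ha1 : 0 < 1 - a := by linarith [ha.2]
  rw [hch]
  obtain ⟨h1, h2⟩ := ht a haI
  have hnna := hnn a haI
  have hlea := hle a haI
  exact cc3_point hb hc1 hcb ha0 ha1 h1 h2 (by field_simp) (cc3_I2 ha0 ha1) hlea hnna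

private theorem cc3_term {x s inv Lg : ℝ} (hs : 0 ≤ s) (hx : x = Real.sqrt (Real.pi * s))
    (hx2 : x ≤ 0.1483) (hinv : inv ≤ 1.0143) (hL0 : 0 < s → 0 ≤ Lg)
    (hL : 0 < s → Lg ≤ Real.log (1 / s)) : x ^ 2 * (1 + inv * Lg) ≤ 0.9 * x := by
  have hpi0 := Real.pi_pos
  rcases hs.eq_or_lt with h0 | h0
  · have h1 : x = 0 := by
      rw [hx, ← h0, mul_zero, Real.sqrt_zero]
    rw [h1]
    norm_num
  · have hxp : 0 < x := by
      rw [hx]
      exact Real.sqrt_pos.2 (by positivity)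
    have hxx : x ^ 2 = Real.pi * s := by
      rw [hx]
      exact Real.sq_sqrt (by positivity)
    have h1 : Real.log (1 / s) = Real.log (Real.pi / x ^ 2) := by
      rw [hxx]
      congr 1
      field_simp
    refine le_trans ?_ (cc3_log hxp hx2)
    refine mul_le_mul_of_nonneg_left ?_ (sq_nonneg x)
    have h3 : inv * Lg ≤ 1.0143 * Lg := mul_le_mul_of_nonneg_right hinv (hL0 h0)
    have h4 := hL h0
    rw [h1] at h4
    linarith

/-- CCOR -/
theorem corner3 {V b c : ℝ} (hV : V ∈ Set.Icc (0.3 : ℝ) 0.7) (hb : 0 ≤ b) (hb' : b ≤ 0.007)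
    (hc : 0.993 ≤ c) (hc1 : c ≤ 1) :
    ∃ α κ : ℝ, (∀ a ∈ Set.Icc b c, 0 ≤ α + κ * a) ∧ (∀ a ∈ Set.Icc b c, α + κ * a ≤ I2 a) ∧
      1 + (b + (1 - c)) / 1000000 ≤ α + κ * V + cal I2 α κ b c := by
  have hpi := Real.pi_gt_d2
  have hpi4 := Real.pi_lt_d4
  have hpi0 := Real.pi_pos
  obtain ⟨hV1, hV2⟩ := hV
  set β : ℝ := Real.sqrt (Real.pi * b) with hβ
  set γ : ℝ := Real.sqrt (Real.pi * (1 - c)) with hγ
  have hβ0 : 0 ≤ β := Real.sqrt_nonneg _
  have hγ0 : 0 ≤ γ := Real.sqrt_nonneg _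
  have hβ2 : β ^ 2 = Real.pi * b := Real.sq_sqrt (by positivity)
  have hγ2 : γ ^ 2 = Real.pi * (1 - c) := Real.sq_sqrt (mul_nonneg hpi0.le (by linarith))
  have hβl : β ≤ 0.1483 := by
    refine Real.sqrt_le_iff.2 ⟨by norm_num, ?_⟩
    nlinarith
  have hγl : γ ≤ 0.1483 := by
    refine Real.sqrt_le_iff.2 ⟨by norm_num, ?_⟩
    nlinarith
  have hcb : 0 < c - b := by linarith
  refine ⟨β - (γ - β) / (c - b) * b, (γ - β) / (c - b), ?_⟩
  have hch : ∀ a, β - (γ - β) / (c - b) * b + (γ - β) / (c - b) * a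
      = (1 - (a - b) / (c - b)) * β + (a - b) / (c - b) * γ := by
    intro a
    field_simp
    ring
  have ht : ∀ a ∈ Set.Icc b c, 0 ≤ (a - b) / (c - b) ∧ (a - b) / (c - b) ≤ 1 := by
    intro a ha
    exact ⟨div_nonneg (by linarith [ha.1]) hcb.le, (div_le_one hcb).2 (by linarith [ha.2])⟩
  have hab : ∀ a, (1 - (a - b) / (c - b)) * b + (a - b) / (c - b) * c = a := by
    intro a
    field_simp
    ring
  have hnn : ∀ a ∈ Set.Icc b c, 0 ≤ (1 - (a - b) / (c - b)) * β + (a - b) / (c - b) * γ := by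
    intro a ha
    obtain ⟨h1, h2⟩ := ht a ha
    exact add_nonneg (mul_nonneg (by linarith) hβ0) (mul_nonneg h1 hγ0)
  have hle : ∀ a ∈ Set.Icc b c, (1 - (a - b) / (c - b)) * β + (a - b) / (c - b) * γ ≤ I2 a := by
    intro a ha
    obtain ⟨h1, h2⟩ := ht a ha
    set t := (a - b) / (c - b) with htd
    have hat := hab a
    rw [← htd] at hat
    unfold I2
    refine le_min (le_min ?_ ?_) ?_
    · have h3 : (1 - t) * Real.sqrt (Real.pi * b) + t * Real.sqrt (Real.pi * c)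
          ≤ Real.sqrt (Real.pi * a) := by
        refine cc3_concave h1 h2 ?_
        rw [Real.sq_sqrt (by positivity), Real.sq_sqrt (mul_nonneg hpi0.le (by linarith))]
        linear_combination Real.pi * hat
      have h4 : γ ≤ Real.sqrt (Real.pi * c) := Real.sqrt_le_sqrt (by nlinarith)
      have h5 := mul_le_mul_of_nonneg_left h4 h1
      linarith
    · have h6 : (1 - t) * β ≤ (1 - t) * 1 := mul_le_mul_of_nonneg_left (by linarith) (by linarith)
      have h7 : t * γ ≤ t * 1 := mul_le_mul_of_nonneg_left (by linarith) h1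
      linarith
    · have h3 : (1 - t) * Real.sqrt (Real.pi * (1 - b)) + t * Real.sqrt (Real.pi * (1 - c))
          ≤ Real.sqrt (Real.pi * (1 - a)) := by
        refine cc3_concave h1 h2 ?_
        rw [Real.sq_sqrt (mul_nonneg hpi0.le (by linarith)),
          Real.sq_sqrt (mul_nonneg hpi0.le (by linarith))]
        linear_combination -Real.pi * hat
      have h4 : β ≤ Real.sqrt (Real.pi * (1 - b)) := Real.sqrt_le_sqrt (by nlinarith)
      have h5 := mul_le_mul_of_nonneg_left h4 (show 0 ≤ 1 - t by linarith)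
      linarith
  refine ⟨fun a ha => ?_, fun a ha => ?_, ?_⟩
  · rw [hch]
    exact hnn a ha
  · rw [hch]
    exact hle a ha
  have hcal := cc3_cal hb hc1 hcb hβ2 hγ2 hch ht hnn hle
  refine le_trans ?_ (add_le_add_right hcal _)
  rw [hch V]
  -- the final inequality
  have htV : 0.295 ≤ (V - b) / (c - b) := by
    rw [le_div_iff₀ hcb]
    linarith
  have htV2 : (V - b) / (c - b) ≤ 0.705 := by
    rw [div_le_iff₀ hcb]
    linarith
  have hell : 0.295 * (β + γ) ≤ (1 - (V - b) / (c - b)) * β + (V - b) / (c - b) * γ := by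
    have h1 := mul_nonneg (sub_nonneg.2 htV) hγ0
    have h2 := mul_nonneg (sub_nonneg.2 htV2) hβ0
    linarith
  have hinv : 1 / (c - b) ≤ 1.0143 := by
    rw [div_le_iff₀ hcb]
    nlinarith
  have hB : β ^ 2 * (1 + 1 / (c - b) * Real.log (c / b)) ≤ 0.9 * β := by
    refine cc3_term hb hβ hβl hinv (fun h0 => ?_) (fun h0 => ?_)
    · exact Real.log_nonneg ((one_le_div h0).2 (by linarith))
    · refine Real.log_le_log (div_pos (by linarith) h0) ?_
      exact div_le_div_of_nonneg_right hc1 h0.le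
  have hG : γ ^ 2 * (1 + 1 / (c - b) * Real.log ((1 - b) / (1 - c))) ≤ 0.9 * γ := by
    refine cc3_term (sub_nonneg.2 hc1) hγ hγl hinv (fun h0 => ?_) (fun h0 => ?_)
    · exact Real.log_nonneg ((one_le_div h0).2 (by linarith))
    · refine Real.log_le_log (div_pos (by linarith) h0) ?_
      exact div_le_div_of_nonneg_right (by linarith) h0.le
  have hfin := cc3_final hβ0 hγ0 hβ2 hγ2 hcb hB hG hβl hγl
  linarith

/-- K10 -/
theorem corner2_s {V b c : ℝ} (hV : V ∈ Set.Icc (0.3 : ℝ) 0.7) (hb : 0 ≤ b) (hb' : b ≤ 0.007)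
    (hc : 0.993 ≤ c) (hc1 : c ≤ 1) :
    ∃ α κ : ℝ, (∀ a ∈ Set.Icc b c, 0 ≤ α + κ * a) ∧ (∀ a ∈ Set.Icc b c, α + κ * a ≤ I2 a) ∧
      1 + (b + (1 - c)) / 10 ^ 7 ≤ α + κ * V + cal I2 α κ b c := by
  obtain ⟨α, κ, h1, h2, h3⟩ := corner3 hV hb hb' hc hc1
  refine ⟨α, κ, h1, h2, le_trans ?_ h3⟩
  have : 0 ≤ b + (1 - c) := by linarith
  have h4 : (b + (1 - c)) / 10 ^ 7 ≤ (b + (1 - c)) / 1000000 :=
    div_le_div_of_nonneg_left this (by norm_num) (by norm_num)
  linarith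

end Vale.Agent.P232
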