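import Vale.Agent.P232.NumB1
import Vale.Agent.P232.NumB2
import Vale.Agent.P232.Corner3

/-!
# P232, module CNB: `num_B` with a margin (helper91)
-/

open MeasureTheory Set

namespace Vale.Agent.P232

/-- K12 -/
theorem num_B_s {V b c T : ℝ} (hV : V ∈ Set.Icc (0.263 : ℝ) 0.361) (hb : 0 ≤ b) (hbV : b ≤ V)
    (hc : V ≤ c) (hc1 : c ≤ 1) (hT0 : 0 ≤ T) (hT1 : T ≤ 1) :
    (∃ α κ : ℝ, (∀ a ∈ Set.Icc b c, 0 ≤ α + κ * a ∧ α + κ * a ≤ I2 a) ∧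
      Jh V + min ((c - b) ^ 2) (b + (1 - c)) / 10 ^ 7 ≤ α + κ * V + cal I2 α κ b c) ∨
    ∃ α1 α2 κ : ℝ,
      (∀ a ∈ Set.Icc b c, α1 + κ * a ≤ KT (min 0.9 (max 0 (T - 0.002))) a) ∧
      (∀ a ∈ Set.Icc b c, 0 ≤ α2 + κ * a ∧ α2 + κ * a ≤ FB T a) ∧
      Jh V + 1 / 10 ^ 7 ≤ α1 * 0.13 + α2 * (1 - 0.13) + κ * V +
        cal2 (KT (min 0.9 (max 0 (T - 0.002)))) (FB T) α1 α2 κ b c := by
  by_cases hbox : b ≤ 0.001 ∧ 0.55 ≤ c ∧ c ≤ 0.82 ∧ 0.284 ≤ V ∧ V ≤ 0.3236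
  · right
    obtain ⟨α1, α2, κ, h1, h2, h3⟩ := num_B2_s ⟨hbox.2.2.2.1, hbox.2.2.2.2⟩ hb hbox.1
      hbox.2.1 hbox.2.2.1 hT0 hT1
    exact ⟨α1, α2, κ, fun a ha => (h1 a ha).2, h2, by linarith⟩
  by_cases hcor : 0.3 ≤ V ∧ b ≤ 0.007 ∧ 0.993 ≤ c
  · left
    obtain ⟨α, κ, h1, h2, h3⟩ := corner2_s (V := V) ⟨hcor.1, by linarith [hV.2]⟩ hb hcor.2.1
      hcor.2.2 hc1
    have h5 : Jh V ≤ 1 := min_le_right _ _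
    have h6 : min ((c - b) ^ 2) (b + (1 - c)) / 10 ^ 7 ≤ (b + (1 - c)) / 10 ^ 7 :=
      div_le_div_of_nonneg_right (min_le_right _ _) (by norm_num)
    exact ⟨α, κ, fun a ha => ⟨h1 a ha, h2 a ha⟩, by linarith⟩
  · right
    obtain ⟨α1, α2, κ, h1, h2, h3⟩ := num_B1_T (T := T) hV hb hbV hc hc1 hbox hcor
    exact ⟨α1, α2, κ, fun a ha => (h1 a ha).2, h2, by linarith⟩

end Vale.Agent.P232
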