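import Vale.Agent.P232.ClaimBOf
import Vale.Agent.P232.NumB3

/-! # P232, module CCB (K15): claim B with slack (helper48) -/

open MeasureTheory Set Filter Topology

namespace Vale.Agent.P232

theorem claim_B_s {w : (Fin 3 → ℝ) → ℝ} (hw : SymN w)
    (hV : (∫ x in cell 3, w x) ∈ Set.Icc (0.263 : ℝ) 0.361) {i j k : Fin 3} (hij : i ≠ j)
    (hjk : j ≠ k) (hik : i ≠ k) (h1 : w (pt i k 0.065) = 1) (h2 : w (pt j k 0.065) = 1)
    {τ τ' : ℝ} (hτ : 0 ≤ τ ∧ τ ≤ 1 / 2) (hτ' : 0 ≤ τ' ∧ τ' ≤ 1 / 2)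
    (ht : Trace w i j k τ 0.0005) (ht' : Trace w j i k τ' 0.0005) :
    Jh (∫ x in cell 3, w x) + min ((sArea w k 0 - sArea w k (1 / 2)) ^ 2)
        (sArea w k (1 / 2) + (1 - sArea w k 0)) / 10 ^ 7 ≤
      hTV w + 12 * Real.sqrt (2 * ∫ x in cell 3, w x * (1 - w x)) :=
  claim_B_s_of (fun hV hb hbV hc hc1 hT0 hT1 => num_B_s hV hb hbV hc hc1 hT0 hT1) hw hV hij hjk
    hik h1 h2 hτ hτ' ht ht'

end Vale.Agent.P232
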