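import Vale.Agent.P232.Defs2
import Vale.Agent.P232.LowerPart
import Vale.Agent.P232.CalTwo

/-! # P232: module 2SB1, sections containing full lines in both directions -/

open MeasureTheory Set

namespace Vale.Agent.P232

/-- the wall is the minimum along every coordinate line -/
private theorem SB1_wall {h : (Fin 2 → ℝ) → ℝ} (hh : SymN h) (i : Fin 2) (x : Fin 2 → ℝ) :
    h (Function.update x i (1 / 2)) ≤ h x := by
  have h1 : |x i - round (x i)| ≤ 1 / 2 := abs_sub_round _
  have e1 : h (Function.update x i (x i - round (x i))) = h x := by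
    rw [← hh.per x (Pi.single i (-round (x i)))]
    congr 1
    funext j
    by_cases hj : j = i
    · subst hj
      simp [sub_eq_add_neg]
    · simp [hj]
  have e2 : h (Function.update x i |x i - round (x i)|) = h x := by
    rcases abs_choice (x i - round (x i)) with h3 | h3
    · rw [h3, e1]
    · rw [h3, ← e1]
      have := hh.even (Function.update x i (x i - round (x i))) i
      simpa using this
  rw [← e2]
  exact hh.anti x i _ _ (abs_nonneg _) h1 le_rfl

private theorem SB1_wall0 {h : (Fin 2 → ℝ) → ℝ} (hh : SymN h) (x y : ℝ) :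
    h ![1 / 2, y] ≤ h ![x, y] := by
  have := SB1_wall hh 0 ![x, y]
  have e : Function.update ![x, y] 0 (1 / 2) = ![1 / 2, y] := by
    funext j
    fin_cases j <;> simp
  rwa [e] at this

private theorem SB1_wall1 {h : (Fin 2 → ℝ) → ℝ} (hh : SymN h) (x y : ℝ) :
    h ![x, 1 / 2] ≤ h ![x, y] := by
  have := SB1_wall hh 1 ![x, y]
  have e : Function.update ![x, y] 1 (1 / 2) = ![x, 1 / 2] := by
    funext j
    fin_cases j <;> simp
  rwa [e] at this

private theorem SB1_min {h : (Fin 2 → ℝ) → ℝ} (hh : SymN h) (x : Fin 2 → ℝ) :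
    h ![1 / 2, 1 / 2] ≤ h x := by
  have e : x = ![x 0, x 1] := by
    funext j
    fin_cases j <;> rfl
  rw [e]
  exact (SB1_wall1 hh (1 / 2) (x 1)).trans (SB1_wall0 hh (x 0) (x 1))

private theorem SB1_t {h : (Fin 2 → ℝ) → ℝ} (hh : SymN h) {T : ℝ} (hT1 : T ≤ 0.9)
    (h3 : h ![1 / 2, T / 2] = 1) (s : ℝ) (hs : s ≤ 1) :
    ∃ t, T / 2 ≤ t ∧ t ≤ 1 / 2 ∧ s ≤ h ![1 / 2, t] ∧
      ∀ t', t < t' → t' ≤ 1 / 2 → h ![1 / 2, t'] < s := by
  have hc : Continuous fun t : ℝ => h ![1 / 2, t] := by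
    refine hh.smooth.continuous.comp (continuous_pi fun i => ?_)
    fin_cases i
    · exact continuous_const
    · exact continuous_id
  have hS : IsCompact (Icc (T / 2) (1 / 2) ∩ {t : ℝ | s ≤ h ![1 / 2, t]}) :=
    isCompact_Icc.inter_right (isClosed_le continuous_const hc)
  obtain ⟨t, ht, hmax⟩ := hS.exists_isGreatest
    ⟨T / 2, ⟨le_rfl, by norm_num at hT1 ⊢; linarith⟩, by
      show s ≤ h ![1 / 2, T / 2]
      rw [h3]
      exact hs⟩
  refine ⟨t, ht.1.1, ht.1.2, ht.2, fun t' h1 h2 => ?_⟩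
  by_contra h4
  rw [not_lt] at h4
  have := hmax ⟨⟨ht.1.1.trans h1.le, h2⟩, h4⟩
  linarith

private theorem SB1_fin (A : Set (Fin 2 → ℝ)) : volume (A ∩ cell 2) ≠ ⊤ :=
  ((measure_mono inter_subset_right).trans_lt (by
    rw [lowerPart_vol]
    exact ENNReal.one_lt_top)).ne

private theorem SB1_lev_anti (h : (Fin 2 → ℝ) → ℝ) : Antitone (lev h) := by
  intro s t hst
  exact ENNReal.toReal_mono (SB1_fin _)
    (measure_mono (inter_subset_inter_left _ fun x hx => lt_of_le_of_lt hst hx))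

private theorem SB1_lev_le (h : (Fin 2 → ℝ) → ℝ) (s : ℝ) : lev h s ≤ 1 := by
  have h1 : volume ({x | s < h x} ∩ cell 2) ≤ 1 := by
    rw [← lowerPart_vol 2]
    exact measure_mono inter_subset_right
  have := ENNReal.toReal_mono ENNReal.one_ne_top h1
  rwa [ENNReal.toReal_one] at this

private theorem SB1_lev_nonneg (h : (Fin 2 → ℝ) → ℝ) (s : ℝ) : 0 ≤ lev h s :=
  ENNReal.toReal_nonneg

private theorem SB1_lev_one {h : (Fin 2 → ℝ) → ℝ} {s : ℝ} (hs : ∀ x, s < h x) : lev h s = 1 := by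
  unfold lev
  have : {x | s < h x} ∩ cell 2 = cell 2 := inter_eq_right.2 fun x _ => hs x
  rw [this, lowerPart_vol, ENNReal.toReal_one]

private theorem SB1_KT_meas (T : ℝ) : Measurable (KT T) := by
  unfold KT
  refine Measurable.ite (measurableSet_le (by fun_prop) (by fun_prop)) (by fun_prop) (by fun_prop)

private theorem SB1_KT_bound {T a : ℝ} (hT0 : 0 ≤ T) (hT1 : T ≤ 0.9) (ha : 0 ≤ a) (ha1 : a ≤ 1) :
    ‖KT T a‖ ≤ 20 := by
  have hpi := Real.pi_pos
  have hpi4 := Real.pi_lt_four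
  norm_num at hT1
  have h1T : 0.1 ≤ 1 - T := by norm_num; linarith
  norm_num at h1T
  rw [Real.norm_eq_abs, abs_le]
  unfold KT
  split_ifs with h1
  · constructor
    · linarith [Real.sqrt_nonneg (Real.pi * (1 - a))]
    · rw [Real.sqrt_le_left (by norm_num)]
      nlinarith
  · have h2 : 0 ≤ (1 - a) / (1 - T) := div_nonneg (by linarith) (by linarith)
    have h3 : (1 - a) / (1 - T) ≤ 10 := by
      rw [div_le_iff₀ (by linarith)]
      linarith
    constructor
    · nlinarith
    · nlinarith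

private theorem SB1_int (h : (Fin 2 → ℝ) → ℝ) {T : ℝ} (hT0 : 0 ≤ T) (hT1 : T ≤ 0.9) (a b : ℝ) :
    IntervalIntegrable (fun s => KT T (lev h s)) volume a b := by
  rw [intervalIntegrable_iff]
  refine Measure.integrableOn_of_bounded (M := 20) (by simp)
    ((SB1_KT_meas T).comp (SB1_lev_anti h).measurable).aestronglyMeasurable ?_
  exact Filter.Eventually.of_forall fun s =>
    SB1_KT_bound hT0 hT1 (SB1_lev_nonneg h s) (SB1_lev_le h s)

private theorem SB1_grad_int {h : (Fin 2 → ℝ) → ℝ} (hh : SymN h) :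
    IntegrableOn (gradN h) (cell 2) := by
  have hc : Continuous (gradN h) := by
    unfold gradN
    have h1 : Continuous (fderiv ℝ h) := hh.smooth.continuous_fderiv one_ne_zero
    fun_prop
  refine (hc.integrableOn_Icc (a := 0) (b := 1)).mono_set fun x hx => ?_
  exact ⟨fun i => (hx i (mem_univ i)).1, fun i => (hx i (mem_univ i)).2.le⟩

private theorem SB1_grad_nonneg (h : (Fin 2 → ℝ) → ℝ) (S : Set (Fin 2 → ℝ)) :
    0 ≤ ∫ x in S, gradN h x :=
  integral_nonneg fun x => Real.sqrt_nonneg _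

private theorem SB1_meas {h : (Fin 2 → ℝ) → ℝ} (hh : SymN h) (p r : ℝ) :
    MeasurableSet (cell 2 ∩ {x | p < h x ∧ h x < r}) := by
  have hm := hh.smooth.continuous.measurable
  exact (lowerPart_cell 2).inter ((measurableSet_lt measurable_const hm).inter
    (measurableSet_lt hm measurable_const))

private theorem SB1_add {h : (Fin 2 → ℝ) → ℝ} (hh : SymN h) {A B C : Set (Fin 2 → ℝ)}
    (hB : MeasurableSet B) (hd : Disjoint A B) (hs : A ∪ B ⊆ C) (hC : C ⊆ cell 2)
    (hCm : MeasurableSet C) :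
    (∫ x in A, gradN h x) + (∫ x in B, gradN h x) ≤ ∫ x in C, gradN h x := by
  have hi : IntegrableOn (gradN h) C := (SB1_grad_int hh).mono_set hC
  rw [← setIntegral_union hd hB (hi.mono_set (subset_union_left.trans hs))
    (hi.mono_set (subset_union_right.trans hs))]
  exact setIntegral_mono_set hi (Filter.Eventually.of_forall fun x => Real.sqrt_nonneg _)
    (Filter.Eventually.of_forall hs)

/-- one window of levels -/
private theorem SB1_win {h : (Fin 2 → ℝ) → ℝ} (hh : SymN h) {T : ℝ} (hT0 : 0 ≤ T) (hT1 : T ≤ 0.9)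
    (h2 : h ![0, 1 / 2] = 1) {p r t t' : ℝ} (h0 : 0 ≤ p) (hpr : p ≤ r) (hr1 : r ≤ 1)
    (hm : ∀ s, p < s → s < r → Real.pi * (1 - T) ^ 2 / 4 < 1 - lev h s)
    (ht0 : T / 2 ≤ t) (htt : t ≤ t') (ht1 : t' ≤ 1 / 2)
    (h3 : r ≤ h ![1 / 2, t]) (h4 : ∀ x, t' < x → x ≤ 1 / 2 → h ![1 / 2, x] ≤ p) :
    ∫ s in p..r, KT T (lev h s) ≤
      (1 / 2) * (∫ x in cell 2 ∩ {x | p < h x ∧ h x < r}, gradN h x) +
        (r - p) * (2 * (t' - t)) := by
  have hT1' : T ≤ 9 / 10 := by norm_num at hT1 ⊢; linarith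
  rcases hpr.eq_or_lt with hpr' | hlt
  · subst hpr'
    rw [intervalIntegral.integral_same]
    have := SB1_grad_nonneg h (cell 2 ∩ {x | p < h x ∧ h x < p})
    linarith
  have hpi := Real.pi_pos
  by_cases het : t < 1 / 2
  · have he : 0 < 1 - 2 * t := by linarith
    have key := cal_two hh (p := p) (r := r) (e := 1 - 2 * t) (e' := 1 - 2 * t') h0 hpr
      (by linarith) (by linarith) he (by linarith)
      (by
        have : (1 - (1 - 2 * t)) / 2 = t := by ring
        rw [this]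
        exact h3)
      (by rw [h2]; exact hr1)
      (fun x hx hx1 => h4 x (by linarith) hx1)
    have hl : IntervalIntegrable (lev h) volume p r := (SB1_lev_anti h).intervalIntegrable
    have hg : IntervalIntegrable (fun s => (1 - lev h s) / (1 - 2 * t) +
        Real.pi * (1 - 2 * t) / 4 - ((1 - 2 * t) - (1 - 2 * t'))) volume p r :=
      (((intervalIntegrable_const.sub hl).div_const _).add intervalIntegrable_const).sub
        intervalIntegrable_const
    have h5 : ∫ s in p..r, KT T (lev h s) ≤ ∫ s in p..r, (((1 - lev h s) / (1 - 2 * t) +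
        Real.pi * (1 - 2 * t) / 4 - ((1 - 2 * t) - (1 - 2 * t'))) + 2 * (t' - t)) := by
      refine intervalIntegral.integral_mono_on_of_le_Ioo hpr (SB1_int h hT0 hT1 _ _)
        (hg.add intervalIntegrable_const) fun s hs => ?_
      have h6 := hm s hs.1 hs.2
      unfold KT
      rw [if_neg (not_le.2 h6)]
      have hx : 0 < 1 - T := by linarith
      set x := 1 - 2 * t with hxdef
      have hxe : x ≤ 1 - T := by rw [hxdef]; linarith
      generalize 1 - lev h s = m at h6
      have h7 : m / x + Real.pi * x / 4 - (m / (1 - T) + Real.pi * (1 - T) / 4) =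
          ((1 - T) - x) * (m - Real.pi * (x * (1 - T)) / 4) / (x * (1 - T)) := by
        field_simp
        ring
      have h8 : 0 ≤ ((1 - T) - x) * (m - Real.pi * (x * (1 - T)) / 4) / (x * (1 - T)) := by
        refine div_nonneg (mul_nonneg (by linarith) ?_) (mul_pos he hx).le
        have : Real.pi * (x * (1 - T)) ≤ Real.pi * (1 - T) ^ 2 := by
          refine mul_le_mul_of_nonneg_left ?_ hpi.le
          nlinarith
        linarith
      have h9 : x - (1 - 2 * t') = 2 * (t' - t) := by rw [hxdef]; ring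
      rw [h9]
      linarith
    rw [intervalIntegral.integral_add hg intervalIntegrable_const,
      intervalIntegral.integral_const, smul_eq_mul] at h5
    linarith
  · exfalso
    have e : t = 1 / 2 := le_antisymm (htt.trans ht1) (not_lt.1 het)
    rw [e] at h3
    have h5 := hm ((p + r) / 2) (by linarith) (by linarith)
    rw [SB1_lev_one (h := h) (s := (p + r) / 2)
      (fun x => lt_of_lt_of_le (by linarith) (h3.trans (SB1_min hh x)))] at h5
    have : 0 ≤ Real.pi * (1 - T) ^ 2 / 4 := by positivity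
    linarith

/-- the upper levels -/
private theorem SB1_upper {h : (Fin 2 → ℝ) → ℝ} (hh : SymN h) {T : ℝ} (hT0 : 0 ≤ T)
    (hT1 : T ≤ 0.9) (h2 : h ![0, 1 / 2] = 1) (h3 : h ![1 / 2, T / 2] = 1) {p : ℝ} (h0 : 0 ≤ p)
    (hp1 : p ≤ 1) (hm : ∀ s, p < s → s < 1 → Real.pi * (1 - T) ^ 2 / 4 < 1 - lev h s) :
    ∫ s in p..1, KT T (lev h s) ≤
      (1 / 2) * (∫ x in cell 2 ∩ {x | p < h x ∧ h x < 1}, gradN h x) := by
  have hex : ∀ s : ℝ, ∃ t : ℝ, s ≤ 1 → T / 2 ≤ t ∧ t ≤ 1 / 2 ∧ s ≤ h ![1 / 2, t] ∧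
      ∀ t', t < t' → t' ≤ 1 / 2 → h ![1 / 2, t'] < s := by
    intro s
    by_cases hs : s ≤ 1
    · obtain ⟨t, ht⟩ := SB1_t hh hT1 h3 s hs
      exact ⟨t, fun _ => ht⟩
    · exact ⟨0, fun h => absurd h hs⟩
  choose t ht using hex
  have hmono : ∀ a b, a ≤ b → b ≤ 1 → t b ≤ t a := by
    intro a b hab hb
    by_contra hc
    rw [not_le] at hc
    have h5 := (ht a (hab.trans hb)).2.2.2 (t b) hc (ht b hb).2.1
    have h6 := (ht b hb).2.2.1
    linarith
  refine le_of_forall_pos_le_add fun ε hε => ?_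
  obtain ⟨n, hn⟩ := exists_nat_one_div_lt hε
  set N : ℝ := (n : ℝ) + 1 with hN
  have hN0 : 0 < N := by positivity
  set δ : ℝ := (1 - p) / N with hδ
  have hδ0 : 0 ≤ δ := div_nonneg (by linarith) hN0.le
  have hNδ : N * δ = 1 - p := by
    rw [hδ]
    field_simp
  have hle : ∀ k : ℕ, k ≤ n + 1 → p + k * δ ≤ 1 := by
    intro k hk
    have h5 : (k : ℝ) ≤ N := by
      rw [hN]
      exact_mod_cast hk
    nlinarith
  have claim : ∀ k : ℕ, k ≤ n + 1 → ∫ s in p..(p + k * δ), KT T (lev h s) ≤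
      (1 / 2) * (∫ x in cell 2 ∩ {x | p < h x ∧ h x < p + k * δ}, gradN h x) +
        δ * (2 * (t p - t (p + k * δ))) := by
    intro k
    induction k with
    | zero =>
      intro _
      simp only [Nat.cast_zero, zero_mul, add_zero, intervalIntegral.integral_same, sub_self,
        mul_zero]
      have := SB1_grad_nonneg h (cell 2 ∩ {x | p < h x ∧ h x < p})
      linarith
    | succ k ih =>
      intro hk
      have hk' : k ≤ n + 1 := by omega
      have ih' := ih hk'
      have e1 : p + ((k + 1 : ℕ) : ℝ) * δ = p + k * δ + δ := by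
        push_cast
        ring
      rw [e1]
      have hle1 := hle (k + 1) hk
      rw [e1] at hle1
      set a := p + k * δ with ha
      have hpa : p ≤ a := by
        rw [ha]
        have : 0 ≤ (k : ℝ) * δ := by positivity
        linarith
      have ha1 : a ≤ 1 := hle k hk'
      have hw := SB1_win hh hT0 hT1 h2 (p := a) (r := a + δ) (t := t (a + δ)) (t' := t a)
        (h0.trans hpa) (by linarith) hle1
        (fun s hs hs' => hm s (by linarith) (by linarith))
        (ht (a + δ) hle1).1 (hmono _ _ (by linarith) hle1) (ht a ha1).2.1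
        (ht (a + δ) hle1).2.2.1
        (fun x hx hx' => ((ht a ha1).2.2.2 x hx hx').le)
      have e2 : a + δ - a = δ := by ring
      rw [e2] at hw
      have h6 := SB1_add hh (A := cell 2 ∩ {x | p < h x ∧ h x < a})
        (B := cell 2 ∩ {x | a < h x ∧ h x < a + δ})
        (C := cell 2 ∩ {x | p < h x ∧ h x < a + δ}) (SB1_meas hh _ _)
        (by
          rw [Set.disjoint_left]
          rintro x ⟨-, -, hx⟩ ⟨-, hx', -⟩
          exact lt_asymm hx hx')
        (by
          rintro x (⟨hx, hx1, hx2⟩ | ⟨hx, hx1, hx2⟩)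
          · exact ⟨hx, hx1, by linarith⟩
          · exact ⟨hx, lt_of_le_of_lt hpa hx1, hx2⟩)
        inter_subset_left (SB1_meas hh _ _)
      rw [← intervalIntegral.integral_add_adjacent_intervals (SB1_int h hT0 hT1 p a)
        (SB1_int h hT0 hT1 a (a + δ))]
      nlinarith
  have h5 := claim (n + 1) le_rfl
  have e1 : p + ((n + 1 : ℕ) : ℝ) * δ = 1 := by
    push_cast
    rw [← hN, hNδ]
    ring
  rw [e1] at h5
  have h6 := ht p hp1
  have h7 := ht 1 le_rfl
  have h8 : δ * (2 * (t p - t 1)) ≤ ε := by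
    have h9 : 2 * (t p - t 1) ≤ 1 := by linarith [h6.2.1, h7.1]
    have h10 : δ ≤ 1 / N := by
      rw [hδ]
      exact div_le_div_of_nonneg_right (by linarith) hN0.le
    have h11 : δ * (2 * (t p - t 1)) ≤ δ * 1 := mul_le_mul_of_nonneg_left h9 hδ0
    linarith
  linarith

/-- SB1 -/
theorem sec_B1 {h : (Fin 2 → ℝ) → ℝ} (hh : SymN h) {T : ℝ} (hT0 : 0 ≤ T) (hT1 : T ≤ 0.9)
    (h1 : h ![1 / 2, 0] = 1) (h2 : h ![0, 1 / 2] = 1) (h3 : h ![1 / 2, T / 2] = 1) :
    ∫ s in (0:ℝ)..1, KT T (lev h s) ≤ hTV h := by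
  have hpi := Real.pi_pos
  -- the critical level
  obtain ⟨s₁, hs0, hs1, hlow, hup⟩ : ∃ s₁ : ℝ, 0 ≤ s₁ ∧ s₁ ≤ 1 ∧
      (∀ s, 0 < s → s < s₁ → 1 - lev h s ≤ Real.pi * (1 - T) ^ 2 / 4) ∧
      (∀ s, s₁ < s → s < 1 → Real.pi * (1 - T) ^ 2 / 4 < 1 - lev h s) := by
    let A : Set ℝ := {s | 0 ≤ s ∧ s ≤ 1 ∧ (s = 0 ∨ 1 - lev h s ≤ Real.pi * (1 - T) ^ 2 / 4)}
    have hA0 : (0 : ℝ) ∈ A := ⟨le_rfl, zero_le_one, Or.inl rfl⟩
    have hAb : BddAbove A := ⟨1, fun s hs => hs.2.1⟩
    refine ⟨sSup A, le_csSup hAb hA0, csSup_le ⟨0, hA0⟩ fun s hs => hs.2.1, ?_, ?_⟩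
    · intro s hs hs'
      obtain ⟨a, ha, hsa⟩ := exists_lt_of_lt_csSup ⟨0, hA0⟩ hs'
      rcases ha.2.2 with ha0 | ha0
      · linarith
      · have := SB1_lev_anti h hsa.le
        linarith
    · intro s hs hs'
      by_contra hc
      rw [not_lt] at hc
      have h0 : 0 ≤ s := (le_csSup hAb hA0).trans hs.le
      have := le_csSup hAb (show s ∈ A from ⟨h0, hs'.le, Or.inr hc⟩)
      linarith
  have hL := lower_part hh.toNice (s₀ := s₁) (x₀ := 0) (y₀ := 0) hs1
    (fun y => by
      have := SB1_wall1 hh 0 y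
      rw [h2] at this
      exact hs1.trans this)
    (fun x => by
      have := SB1_wall0 hh x 0
      rw [h1] at this
      exact hs1.trans this)
  have hU := SB1_upper hh hT0 hT1 h2 h3 hs0 hs1 hup
  have hlow2 : ∫ s in (0:ℝ)..s₁, KT T (lev h s) ≤
      Real.sqrt Real.pi * ∫ s in (0:ℝ)..s₁, Real.sqrt (1 - lev h s) := by
    rw [← intervalIntegral.integral_const_mul]
    have hi : IntervalIntegrable (fun s => Real.sqrt Real.pi * Real.sqrt (1 - lev h s)) volume
        0 s₁ := by
      rw [intervalIntegrable_iff]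
      refine Measure.integrableOn_of_bounded (M := Real.sqrt Real.pi) (by simp)
        (((SB1_lev_anti h).measurable.const_sub 1).sqrt.const_mul _).aestronglyMeasurable ?_
      refine Filter.Eventually.of_forall fun s => ?_
      rw [Real.norm_eq_abs, abs_of_nonneg (by positivity)]
      have h5 : Real.sqrt (1 - lev h s) ≤ 1 := by
        rw [Real.sqrt_le_left zero_le_one]
        linarith [SB1_lev_nonneg h s]
      calc Real.sqrt Real.pi * Real.sqrt (1 - lev h s) ≤ Real.sqrt Real.pi * 1 :=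
            mul_le_mul_of_nonneg_left h5 (Real.sqrt_nonneg _)
        _ = Real.sqrt Real.pi := mul_one _
    refine intervalIntegral.integral_mono_on_of_le_Ioo hs0 (SB1_int h hT0 hT1 _ _) hi
      fun s hs => ?_
    unfold KT
    rw [if_pos (hlow s hs.1 hs.2), Real.sqrt_mul hpi.le]
  rw [← intervalIntegral.integral_add_adjacent_intervals (SB1_int h hT0 hT1 0 s₁)
    (SB1_int h hT0 hT1 s₁ 1)]
  have h6 := SB1_add hh (A := cell 2 ∩ {x | h x < s₁})
    (B := cell 2 ∩ {x | s₁ < h x ∧ h x < 1}) (C := cell 2) (SB1_meas hh _ _)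
    (by
      rw [Set.disjoint_left]
      rintro x ⟨-, hx⟩ ⟨-, hx', -⟩
      exact lt_asymm hx hx')
    (by
      rintro x (⟨hx, -⟩ | ⟨hx, -⟩) <;> exact hx)
    subset_rfl (lowerPart_cell 2)
  unfold hTV
  linarith

end Vale.Agent.P232
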