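import Vale.Agent.P232.TorusTwo
import Vale.Agent.P232.Defs2
import Vale.Agent.P232.Swap
import Vale.Agent.P232.CalOne

/-!
# P232, module SB2: the section inequality for sections with short traces (helper36)
-/

open MeasureTheory Set

namespace Vale.Agent.P232

namespace SB2

theorem upd0 (x y s : ℝ) : Function.update (![x, y] : Fin 2 → ℝ) 0 s = ![s, y] := by
  ext i; fin_cases i <;> simp

theorem upd1 (x y s : ℝ) : Function.update (![x, y] : Fin 2 → ℝ) 1 s = ![x, s] := by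
  ext i; fin_cases i <;> simp

theorem even0 {h : (Fin 2 → ℝ) → ℝ} (hh : SymN h) (x y : ℝ) : h ![-x, y] = h ![x, y] := by
  have := hh.even ![x, y] 0
  rw [upd0] at this
  simpa using this

theorem even1 {h : (Fin 2 → ℝ) → ℝ} (hh : SymN h) (x y : ℝ) : h ![x, -y] = h ![x, y] := by
  have := hh.even ![x, y] 1
  rw [upd1] at this
  simpa using this

theorem anti0 {h : (Fin 2 → ℝ) → ℝ} (hh : SymN h) {s r : ℝ} (y : ℝ) (h0 : 0 ≤ s) (hsr : s ≤ r)
    (hr : r ≤ 1 / 2) : h ![r, y] ≤ h ![s, y] := by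
  have := hh.anti ![0, y] 0 s r h0 hsr hr
  rwa [upd0, upd0] at this

theorem anti1 {h : (Fin 2 → ℝ) → ℝ} (hh : SymN h) {s r : ℝ} (x : ℝ) (h0 : 0 ≤ s) (hsr : s ≤ r)
    (hr : r ≤ 1 / 2) : h ![x, r] ≤ h ![x, s] := by
  have := hh.anti ![x, 0] 1 s r h0 hsr hr
  rwa [upd1, upd1] at this

theorem red0 {h : (Fin 2 → ℝ) → ℝ} (hh : SymN h) (x : ℝ) :
    ∃ x' : ℝ, 0 ≤ x' ∧ x' ≤ 1 / 2 ∧ ∀ y, h ![x, y] = h ![x', y] := by
  refine ⟨|x - round x|, abs_nonneg _, abs_sub_round x, fun y => ?_⟩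
  have h1 : h ![x, y] = h ![x - round x, y] := by
    have := hh.per ![x - round x, y] ![round x, 0]
    rw [← this]
    congr 1
    ext i
    fin_cases i <;> simp
  rw [h1]
  rcases abs_choice (x - round x) with e | e
  · rw [e]
  · rw [e, even0 hh]

theorem red1 {h : (Fin 2 → ℝ) → ℝ} (hh : SymN h) (y : ℝ) :
    ∃ y' : ℝ, 0 ≤ y' ∧ y' ≤ 1 / 2 ∧ ∀ x, h ![x, y] = h ![x, y'] := by
  refine ⟨|y - round y|, abs_nonneg _, abs_sub_round y, fun x => ?_⟩
  have h1 : h ![x, y] = h ![x, y - round y] := by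
    have := hh.per ![x, y - round y] ![0, round y]
    rw [← this]
    congr 1
    ext i
    fin_cases i <;> simp
  rw [h1]
  rcases abs_choice (y - round y) with e | e
  · rw [e]
  · rw [e, even1 hh]

theorem le_zero0 {h : (Fin 2 → ℝ) → ℝ} (hh : SymN h) (x y : ℝ) : h ![x, y] ≤ h ![0, y] := by
  obtain ⟨x', h0, h1, h2⟩ := red0 hh x
  rw [h2 y]
  exact anti0 hh y le_rfl h0 h1

theorem le_zero1 {h : (Fin 2 → ℝ) → ℝ} (hh : SymN h) (x y : ℝ) : h ![x, y] ≤ h ![x, 0] := by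
  obtain ⟨x', h0, h1, h2⟩ := red1 hh y
  rw [h2 x]
  exact anti1 hh x le_rfl h0 h1

theorem half_le0 {h : (Fin 2 → ℝ) → ℝ} (hh : SymN h) (x y : ℝ) : h ![1 / 2, y] ≤ h ![x, y] := by
  obtain ⟨x', h0, h1, h2⟩ := red0 hh x
  rw [h2 y]
  exact anti0 hh y h0 h1 le_rfl

theorem half_le1 {h : (Fin 2 → ℝ) → ℝ} (hh : SymN h) (x y : ℝ) : h ![x, 1 / 2] ≤ h ![x, y] := by
  obtain ⟨x', h0, h1, h2⟩ := red1 hh y
  rw [h2 x]
  exact anti1 hh x h0 h1 le_rfl

theorem sqrt_lower {x : ℝ} (h0 : 0 ≤ x) (h1 : x ≤ 0.16) :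
    1 - x / 2 - x ^ 2 / 8 - 0.07 * x ^ 3 ≤ Real.sqrt (1 - x) := by
  apply Real.le_sqrt_of_sq_le
  have hx2 : x ^ 2 ≤ 0.16 ^ 2 := pow_le_pow_left₀ h0 h1 2
  have hx3 : x ^ 3 ≤ 0.16 ^ 3 := pow_le_pow_left₀ h0 h1 3
  have e : (1 - x) - (1 - x / 2 - x ^ 2 / 8 - 0.07 * x ^ 3) ^ 2
      = x ^ 3 * (0.015 - (1 / 64 + 0.07) * x - 0.0175 * x ^ 2 - 0.0049 * x ^ 3) := by ring
  have e2 : 0 ≤ 0.015 - (1 / 64 + 0.07) * x - 0.0175 * x ^ 2 - 0.0049 * x ^ 3 := by
    norm_num at hx2 hx3 h1 ⊢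
    linarith
  have := mul_nonneg (pow_nonneg h0 3) e2
  linarith

theorem G0 : (0.9726 : ℝ) ≤ ∫ v in (0:ℝ)..1, Real.sqrt (1 - v ^ 2 / 2.5 ^ 2) := by
  have h : ∫ v in (0:ℝ)..1, (1 - (v ^ 2 / 2.5 ^ 2) / 2 - (v ^ 2 / 2.5 ^ 2) ^ 2 / 8
      - 0.07 * (v ^ 2 / 2.5 ^ 2) ^ 3) ≤ ∫ v in (0:ℝ)..1, Real.sqrt (1 - v ^ 2 / 2.5 ^ 2) := by
    refine intervalIntegral.integral_mono_on zero_le_one ?_ ?_ ?_
    · exact Continuous.intervalIntegrable (by fun_prop) _ _
    · exact Continuous.intervalIntegrable (by fun_prop) _ _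
    · intro v hv
      refine sqrt_lower (by positivity) ?_
      have : v ^ 2 ≤ 1 := by nlinarith [hv.1, hv.2]
      rw [div_le_iff₀ (by norm_num)]
      linarith
  refine le_trans ?_ h
  have e : (fun v : ℝ => (1 - (v ^ 2 / 2.5 ^ 2) / 2 - (v ^ 2 / 2.5 ^ 2) ^ 2 / 8
      - 0.07 * (v ^ 2 / 2.5 ^ 2) ^ 3)) = fun v : ℝ => (1 - (1 / 2 / 2.5 ^ 2) * v ^ 2
        - (1 / 8 / 2.5 ^ 4) * v ^ 4 - (0.07 / 2.5 ^ 6) * v ^ 6) := by
    funext v; ring
  rw [e]
  rw [intervalIntegral.integral_sub, intervalIntegral.integral_sub, intervalIntegral.integral_sub,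
    intervalIntegral.integral_const_mul, intervalIntegral.integral_const_mul,
    intervalIntegral.integral_const_mul, integral_pow, integral_pow, integral_pow,
    intervalIntegral.integral_const]
  · norm_num
  all_goals exact Continuous.intervalIntegrable (by fun_prop) _ _

theorem FB_cont (T : ℝ) : Continuous (FB T) := by
  unfold FB
  fun_prop

theorem FB_nonneg (T a : ℝ) : 0 ≤ FB T a :=
  le_min (le_min (Real.sqrt_nonneg _) (Real.sqrt_nonneg _)) (zero_le_one.trans (le_max_left _ _))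

theorem FB_le_up (T a : ℝ) : FB T a ≤ Real.sqrt Real.pi * Real.sqrt a := by
  rw [← Real.sqrt_mul Real.pi_pos.le]
  exact (min_le_left _ _).trans (min_le_left _ _)

theorem FB_le_low (T a : ℝ) : FB T a ≤ Real.sqrt Real.pi * Real.sqrt (1 - a) := by
  rw [← Real.sqrt_mul Real.pi_pos.le]
  exact (min_le_left _ _).trans (min_le_right _ _)

theorem FB_le_max (T a : ℝ) : FB T a ≤ max 1 ((a - T) / 2.5 + 0.9726) := min_le_right _ _

theorem FB_int (T : ℝ) (g : (Fin 2 → ℝ) → ℝ) (a b : ℝ) :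
    IntervalIntegrable (fun s => FB T (lev g s)) volume a b := by
  rw [intervalIntegrable_iff]
  refine Measure.integrableOn_of_bounded (M := Real.sqrt Real.pi * 1) ?_ ?_ ?_
  · exact measure_Ioc_lt_top.ne
  · exact ((FB_cont T).measurable.comp (C5_lev_anti g).measurable).aestronglyMeasurable
  · refine Filter.Eventually.of_forall fun s => ?_
    rw [Real.norm_eq_abs, abs_of_nonneg (FB_nonneg _ _)]
    refine (FB_le_up _ _).trans (mul_le_mul_of_nonneg_left ?_ (Real.sqrt_nonneg _))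
    exact Real.sqrt_le_one.mpr (C5_lev_le_one g s)

/-- a threshold for an antitone function -/
theorem thr {f : ℝ → ℝ} (hf : Antitone f) {p r : ℝ} (hpr : p ≤ r) (c : ℝ) :
    ∃ q, p ≤ q ∧ q ≤ r ∧ (∀ s, p ≤ s → s < q → c ≤ f s) ∧ (∀ s, q < s → s ≤ r → f s ≤ c) := by
  let A : Set ℝ := {s | p ≤ s ∧ s ≤ r ∧ c ≤ f s}
  by_cases hA : A.Nonempty
  · have hb : BddAbove A := ⟨r, fun s hs => hs.2.1⟩
    refine ⟨sSup A, ?_, csSup_le hA fun s hs => hs.2.1, ?_, ?_⟩
    · obtain ⟨s, hs⟩ := hA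
      exact hs.1.trans (le_csSup hb hs)
    · intro s _ hs2
      obtain ⟨t, ht, hst⟩ := exists_lt_of_lt_csSup hA hs2
      exact ht.2.2.trans (hf hst.le)
    · intro s hs1 hs2
      by_contra hc
      push Not at hc
      obtain ⟨t, ht⟩ := hA
      have : s ∈ A := ⟨ht.1.trans ((le_csSup hb ht).trans hs1.le), hs2, hc.le⟩
      exact absurd (le_csSup hb this) (not_le.2 hs1)
  · refine ⟨p, le_rfl, hpr, fun s h1 h2 => absurd h2 (not_lt.2 h1), fun s h1 h2 => ?_⟩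
    by_contra hc
    push Not at hc
    exact hA ⟨s, h1.le, h2, hc.le⟩

/-- the inequality when the horizontal line is the larger one -/
theorem half {h : (Fin 2 → ℝ) → ℝ} (hh : SymN h) {T : ℝ} (hT0 : 0 ≤ T) (hT1 : T ≤ 1)
    (ht1 : ∀ t, T / 2 < t → t ≤ 1 / 2 → h ![1 / 2, t] = 0)
    (hab : h ![0, 1 / 2] ≤ h ![1 / 2, 0]) :
    ∫ s in (0:ℝ)..1, FB T (lev h s) ≤ hTV h := by
  set a := h ![1 / 2, 0] with ha
  set b := h ![0, 1 / 2] with hb
  have hg : Nice h := hh.toNice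
  have a0 : 0 ≤ a := hg.nonneg _
  have b0 : 0 ≤ b := hg.nonneg _
  have a1 : a ≤ 1 := hg.le_one _
  have b1 : b ≤ 1 := hg.le_one _
  have hup := upper_part hg (x₀ := 1 / 2) (y₀ := 1 / 2) a0 (fun y => le_zero1 hh _ _)
    (fun x => (le_zero0 hh _ _).trans hab)
  have hlow := lower_part hg (x₀ := 0) (y₀ := 0) b1 (fun y => half_le1 hh _ _)
    (fun x => hab.trans (half_le0 hh _ _))
  obtain ⟨q, hbq, hqa, hq1, hq2⟩ := thr (C5_lev_anti h) hab (T + 2.5 * (1 - 0.9726))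
  have hc1 := cal_one hh b0 hbq hT0 hT1 hqa le_rfl
    (fun t h1 h2 => (ht1 t h1 h2).le.trans b0) (R := 2.5) (by norm_num)
  have hc2 := cross_vert hg (p := q) (r := a) hqa
    (fun x => ⟨1 / 2, (le_zero0 hh _ _).trans hbq⟩) (fun x => ⟨0, half_le0 hh _ _⟩)
  have hi := FB_int T h
  have hli : ∀ c d : ℝ, IntervalIntegrable (lev h) volume c d := fun c d =>
    (C5_lev_anti h).intervalIntegrable
  rw [← intervalIntegral.integral_add_adjacent_intervals (hi 0 b) (hi b 1),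
    ← intervalIntegral.integral_add_adjacent_intervals (hi b q) (hi q 1),
    ← intervalIntegral.integral_add_adjacent_intervals (hi q a) (hi a 1)]
  have e1 : ∫ s in (0:ℝ)..b, FB T (lev h s) ≤
      Real.sqrt Real.pi * ∫ s in (0:ℝ)..b, Real.sqrt (1 - lev h s) := by
    rw [← intervalIntegral.integral_const_mul]
    refine intervalIntegral.integral_mono_on b0 (hi 0 b) ?_ fun s _ => FB_le_low _ _
    refine IntervalIntegrable.const_mul ?_ _
    refine Monotone.intervalIntegrable fun s t hst => Real.sqrt_le_sqrt ?_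
    have := C5_lev_anti h hst
    linarith
  have e4 : ∫ s in a..1, FB T (lev h s) ≤
      Real.sqrt Real.pi * ∫ s in a..1, Real.sqrt (lev h s) := by
    rw [← intervalIntegral.integral_const_mul]
    refine intervalIntegral.integral_mono_on a1 (hi a 1) ?_ fun s _ => FB_le_up _ _
    refine IntervalIntegrable.const_mul ?_ _
    exact Antitone.intervalIntegrable fun s t hst => Real.sqrt_le_sqrt (C5_lev_anti h hst)
  have e3 : ∫ s in q..a, FB T (lev h s) ≤ a - q := by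
    have h : ∫ s in q..a, FB T (lev h s) ≤ ∫ _s in q..a, (1 : ℝ) := by
      refine intervalIntegral.integral_mono_on_of_le_Ioo hqa (hi q a) intervalIntegrable_const ?_
      intro s hs
      refine (FB_le_max _ _).trans (max_le le_rfl ?_)
      have := hq2 s hs.1 hs.2.le
      have e : (lev h s - T) / 2.5 ≤ 1 - 0.9726 := by
        rw [div_le_iff₀ (by norm_num)]; linarith
      linarith
    rwa [intervalIntegral.integral_const, smul_eq_mul, mul_one] at h
  have e2 : ∫ s in b..q, FB T (lev h s) ≤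
      ∫ s in b..q, ((lev h s - T) / 2.5 + ∫ v in (0:ℝ)..1, Real.sqrt (1 - v ^ 2 / 2.5 ^ 2)) := by
    refine intervalIntegral.integral_mono_on_of_le_Ioo hbq (hi b q) ?_ ?_
    · exact (((hli b q).sub intervalIntegrable_const).div_const _).add intervalIntegrable_const
    · intro s hs
      have h1 := hq1 s hs.1.le hs.2
      have h2 := G0
      refine (FB_le_max _ _).trans (max_le ?_ ?_)
      · have e : 1 - 0.9726 ≤ (lev h s - T) / 2.5 := by
          rw [le_div_iff₀ (by norm_num)]; linarith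
        linarith
      · linarith
  -- the four regions
  have hgi := C5_gradN_int hg
  have f0 := C5_add (S := cell 2 ∩ {x | h x < a}) (A := cell 2 ∩ {x | h x < q})
    (B := cell 2 ∩ {x | q < h x ∧ h x < a})
    (C5_gradN_nonneg h) (hgi.mono_set inter_subset_left)
    (fun x hx => ⟨hx.1, lt_of_lt_of_le hx.2 hqa⟩) (fun x hx => ⟨hx.1, hx.2.2⟩)
    (Set.disjoint_left.2 fun x hx hy => lt_asymm hx.2 hy.2.1) (C5_mid_meas hg q a)
  have f1 := C5_add (S := cell 2 ∩ {x | h x < q}) (A := cell 2 ∩ {x | h x < b})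
    (B := cell 2 ∩ {x | b < h x ∧ h x < q})
    (C5_gradN_nonneg h) (hgi.mono_set inter_subset_left)
    (fun x hx => ⟨hx.1, lt_of_lt_of_le hx.2 hbq⟩) (fun x hx => ⟨hx.1, hx.2.2⟩)
    (Set.disjoint_left.2 fun x hx hy => lt_asymm hx.2 hy.2.1) (C5_mid_meas hg b q)
  have f2 := C5_add (S := cell 2) (A := cell 2 ∩ {x | h x < a}) (B := cell 2 ∩ {x | a < h x})
    (C5_gradN_nonneg h) hgi inter_subset_left inter_subset_left
    (Set.disjoint_left.2 fun x hx hy => lt_asymm (show h x < a from hx.2) hy.2)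
    (C5_cell_meas.inter (measurableSet_lt measurable_const hg.smooth.continuous.measurable))
  unfold hTV
  linarith

end SB2

/-- SB2 -/
theorem sec_B2 {h : (Fin 2 → ℝ) → ℝ} (hh : SymN h) {T : ℝ} (hT0 : 0 ≤ T) (hT1 : T ≤ 1)
    (ht1 : ∀ t, T / 2 < t → t ≤ 1 / 2 → h ![1 / 2, t] = 0)
    (ht2 : ∀ t, T / 2 < t → t ≤ 1 / 2 → h ![t, 1 / 2] = 0) :
    ∫ s in (0:ℝ)..1, FB T (lev h s) ≤ hTV h := by
  rcases le_total (h ![0, 1 / 2]) (h ![1 / 2, 0]) with hab | hab
  · exact SB2.half hh hT0 hT1 ht1 hab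
  · have h1 := SB2.half (swap_symN hh) hT0 hT1 (fun t h1 h2 => by simpa using ht2 t h1 h2)
      (by simpa using hab)
    rw [swap_hTV hh] at h1
    simpa only [swap_lev hh] using h1

end Vale.Agent.P232
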