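import Vale.Agent.P232.ClaimAux
import Vale.Agent.P232.Holder2
import Vale.Agent.P232.Swap
import Vale.Agent.P232.SecB1
import Vale.Agent.P232.SecB2
import Vale.Agent.P232.Slicing2
import Vale.Agent.P232.CCSlice

/-! # P232, module CCB (K15): claim B from the one-dimensional inequality (helper48) -/

open MeasureTheory Set Filter Topology

namespace Vale.Agent.P232

/-- both orientations of `sec_B1` -/
theorem CB_sec_B1 {h : (Fin 2 → ℝ) → ℝ} (hh : SymN h) {T : ℝ} (hT0 : 0 ≤ T) (hT1 : T ≤ 0.9)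
    (h1 : h ![1 / 2, 0] = 1) (h2 : h ![0, 1 / 2] = 1)
    (h3 : h ![1 / 2, T / 2] = 1 ∨ h ![T / 2, 1 / 2] = 1) :
    ∫ s in (0:ℝ)..1, KT T (lev h s) ≤ hTV h := by
  rcases h3 with h3 | h3
  · exact sec_B1 hh hT0 hT1 h1 h2 h3
  · have h4 := sec_B1 (swap_symN hh) hT0 hT1 (by simpa using h2) (by simpa using h1)
      (by simpa using h3)
    rw [swap_hTV hh] at h4
    simp_rw [swap_lev hh] at h4
    exact h4

/-- the values of the slices needed for `claim_B`, in the coordinates `i`, `j` -/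
structure CB_Data (w : (Fin 3 → ℝ) → ℝ) (i j k : Fin 3) (T T' : ℝ) : Prop where
  a1 : ∀ z, |z| ≤ 0.065 → w (CB_P i j k (1 / 2) 0 z) = 1
  a2 : ∀ z, |z| ≤ 0.065 → w (CB_P i j k 0 (1 / 2) z) = 1
  a3 : (∀ z, |z| ≤ 0.065 → w (CB_P i j k (1 / 2) (T' / 2) z) = 1) ∨
    (∀ z, |z| ≤ 0.065 → w (CB_P i j k (T' / 2) (1 / 2) z) = 1)
  b1 : ∀ t z, T / 2 < t → t ≤ 1 / 2 → 0.065 ≤ |z| → |z| ≤ 1 / 2 →
    w (CB_P i j k (1 / 2) t z) = 0
  b2 : ∀ t z, T / 2 < t → t ≤ 1 / 2 → 0.065 ≤ |z| → |z| ≤ 1 / 2 →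
    w (CB_P i j k t (1 / 2) z) = 0

theorem CB_data {w : (Fin 3 → ℝ) → ℝ} (hw : SymN w) {i j k : Fin 3} (hij : i ≠ j)
    (h1 : w (pt i k 0.065) = 1) (h2 : w (pt j k 0.065) = 1)
    {τ τ' : ℝ} (hτ : 0 ≤ τ ∧ τ ≤ 1 / 2) (hτ' : 0 ≤ τ' ∧ τ' ≤ 1 / 2)
    (ht : Trace w i j k τ 0.0005) (ht' : Trace w j i k τ' 0.0005) :
    CB_Data w i j k (2 * max τ τ') (min 0.9 (max 0 (2 * max τ τ' - 0.002))) := by
  have e65 : |(0.065 : ℝ)| = 0.065 := abs_of_pos (by norm_num)
  have a1 : ∀ z, |z| ≤ 0.065 → w (CB_P i j k (1 / 2) 0 z) = 1 := by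
    intro z hz
    have h3 := CB_anti hw i j k (1 / 2) 0 (z := z) (z' := 0.065) (by rw [e65]; exact hz)
      (by rw [e65]; norm_num)
    rw [← CB_pt_i hij, h1] at h3
    exact le_antisymm (hw.le_one _) h3
  have a2 : ∀ z, |z| ≤ 0.065 → w (CB_P i j k 0 (1 / 2) z) = 1 := by
    intro z hz
    have h3 := CB_anti hw i j k 0 (1 / 2) (z := z) (z' := 0.065) (by rw [e65]; exact hz)
      (by rw [e65]; norm_num)
    rw [← CB_pt_j, h2] at h3
    exact le_antisymm (hw.le_one _) h3
  have hmax0 : 0 ≤ max τ τ' := le_max_of_le_left hτ.1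
  refine ⟨a1, a2, ?_, ?_, ?_⟩
  · by_cases hc : 2 * max τ τ' - 0.002 ≤ 0
    · left
      rw [max_eq_left hc, min_eq_right (by norm_num), zero_div]
      exact a1
    · push Not at hc
      have hle : min 0.9 (max 0 (2 * max τ τ' - 0.002)) ≤ 2 * max τ τ' - 0.002 := by
        rw [max_eq_right hc.le]
        exact min_le_right _ _
      have hge : 0 ≤ min 0.9 (max 0 (2 * max τ τ' - 0.002)) :=
        le_min (by norm_num) (le_max_left _ _)
      rcases le_total τ' τ with h | h
      · left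
        rw [max_eq_left h] at hle hge ⊢
        intro z hz
        exact ht.1 _ z (by linarith) (by linarith) hz
      · right
        rw [max_eq_right h] at hle hge ⊢
        intro z hz
        rw [← CB_pt3_ji hij]
        exact ht'.1 _ z (by linarith) (by linarith) hz
  · intro t z h3 h4 h5 h6
    rw [← CB_even hw]
    have : τ < t := lt_of_le_of_lt (le_max_left τ τ') (by linarith)
    exact ht.2 t |z| this h4 h5 h6
  · intro t z h3 h4 h5 h6
    rw [← CB_even hw, ← CB_pt3_ji hij]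
    have : τ' < t := lt_of_le_of_lt (le_max_right τ τ') (by linarith)
    exact ht'.2 t |z| this h4 h5 h6

/-- continuity of the positive part of the quotient, for a possibly negative line -/
theorem CB_hq1 {K : ℝ → ℝ} {α κ b c : ℝ} (hKc : Continuous K) (hb : 0 ≤ b) (hc1 : c ≤ 1)
    (hge : ∀ a ∈ Set.Icc b c, Real.sqrt (a * (1 - a)) ≤ K a) (hK1 : K 1 = 0) (hK0 : 0 < K 0)
    (hl : ∀ a ∈ Set.Icc b c, α + κ * a ≤ K a) :
    ContinuousOn (fun a => max 0 ((α + κ * a) / K a)) (Set.Icc b c) := by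
  have hneg : ∀ a ∈ Set.Icc b c, α + κ * a < 0 →
      ContinuousWithinAt (fun a => max 0 ((α + κ * a) / K a)) (Set.Icc b c) a := by
    intro a ha' ha
    have hcont : ContinuousAt (fun x : ℝ => α + κ * x) a := by fun_prop
    have hev : ∀ᶠ x in 𝓝[Set.Icc b c] a, α + κ * x < 0 :=
      nhdsWithin_le_nhds (hcont.eventually_lt continuousAt_const ha)
    have hval : ∀ x ∈ Set.Icc b c, α + κ * x < 0 → max 0 ((α + κ * x) / K x) = 0 :=
      fun x hx' hx => max_eq_left (div_nonpos_of_nonpos_of_nonneg hx.le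
        ((Real.sqrt_nonneg _).trans (hge x hx')))
    refine (continuousWithinAt_const (b := (0 : ℝ))).congr_of_eventuallyEq ?_ (hval a ha' ha)
    filter_upwards [hev, self_mem_nhdsWithin] with x hx hx'
    exact hval x hx' hx
  intro a ha
  have ha0 : 0 ≤ a := hb.trans ha.1
  have ha1 : a ≤ 1 := ha.2.trans hc1
  rcases ha1.eq_or_lt with rfl | ha1'
  · have e2 := hl 1 ha
    rw [hK1] at e2
    rcases e2.lt_or_eq with h | h
    · exact hneg 1 ha h
    · have hα : α = -κ := by
        rw [mul_one] at h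
        linarith
      have hz := sl_q_zero (Iso := fun a => K (1 - a)) (κ := -κ) (b := 1 - c) (c := 1 - b)
        (by linarith) (by linarith) (fun a ha => by
          have := hge (1 - a) ⟨by linarith [ha.2], by linarith [ha.1]⟩
          have e : (1 - a) * (1 - (1 - a)) = a * (1 - a) := by ring
          rwa [e] at this) (by simpa using hK1)
      have hmap : MapsTo (fun a : ℝ => 1 - a) (Set.Icc b c) (Set.Icc (1 - c) (1 - b)) :=
        fun a ha => ⟨by linarith [ha.2], by linarith [ha.1]⟩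
      have hg : ContinuousWithinAt (fun a : ℝ => 1 - a) (Set.Icc b c) 1 := by
        apply Continuous.continuousWithinAt
        fun_prop
      have hz' : ContinuousWithinAt (fun a => (0 + -κ * a) / K (1 - a))
          (Set.Icc (1 - c) (1 - b)) ((fun a : ℝ => 1 - a) 1) := by
        simpa using hz
      have hcomp := ContinuousWithinAt.comp hz' hg hmap
      refine continuousWithinAt_const.max (hcomp.congr (fun a _ => ?_) ?_)
      · simp only [Function.comp]
        rw [hα]
        congr 1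
        · ring
        · congr 1; ring
      · simp only [Function.comp]
        rw [hα]
        congr 1
        · ring
        · congr 1; ring
  · have hpos : 0 < K a := by
      rcases ha0.eq_or_lt with rfl | hap
      · exact hK0
      · exact (Real.sqrt_pos.2 (mul_pos hap (by linarith))).trans_le (hge a ha)
    refine ContinuousAt.continuousWithinAt (continuousAt_const.max
      (ContinuousAt.div ?_ hKc.continuousAt hpos.ne'))
    fun_prop

/-- claim B for any one-dimensional bound -/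
theorem claim_B_of {w : (Fin 3 → ℝ) → ℝ} (hw : SymN w) {i j k : Fin 3} (hij : i ≠ j)
    (hjk : j ≠ k) (hik : i ≠ k) (h1 : w (pt i k 0.065) = 1) (h2 : w (pt j k 0.065) = 1)
    {τ τ' : ℝ} (hτ : 0 ≤ τ ∧ τ ≤ 1 / 2) (hτ' : 0 ≤ τ' ∧ τ' ≤ 1 / 2)
    (ht : Trace w i j k τ 0.0005) (ht' : Trace w j i k τ' 0.0005) {L : ℝ}
    (hnum : ∀ T : ℝ, 0 ≤ T → T ≤ 1 →
      (∃ α κ : ℝ, (∀ a ∈ Set.Icc (sArea w k (1 / 2)) (sArea w k 0),
          0 ≤ α + κ * a ∧ α + κ * a ≤ I2 a) ∧
        L ≤ α + κ * (∫ x in cell 3, w x) + cal I2 α κ (sArea w k (1 / 2)) (sArea w k 0)) ∨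
      ∃ α1 α2 κ : ℝ,
        (∀ a ∈ Set.Icc (sArea w k (1 / 2)) (sArea w k 0),
          α1 + κ * a ≤ KT (min 0.9 (max 0 (T - 0.002))) a) ∧
        (∀ a ∈ Set.Icc (sArea w k (1 / 2)) (sArea w k 0),
          0 ≤ α2 + κ * a ∧ α2 + κ * a ≤ FB T a) ∧
        L ≤ α1 * 0.13 + α2 * (1 - 0.13) + κ * (∫ x in cell 3, w x) +
          cal2 (KT (min 0.9 (max 0 (T - 0.002)))) (FB T) α1 α2 κ
            (sArea w k (1 / 2)) (sArea w k 0)) :
    L ≤ hTV w + 12 * Real.sqrt (2 * ∫ x in cell 3, w x * (1 - w x)) := by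
  have hD := CB_data hw hij h1 h2 hτ hτ' ht ht'
  have hT0 : (0 : ℝ) ≤ 2 * max τ τ' := by
    have := le_max_of_le_left (b := τ) (c := τ') hτ.1
    linarith
  have hT1 : 2 * max τ τ' ≤ 1 := by
    have := max_le hτ.2 hτ'.2
    linarith
  obtain ⟨T, hT⟩ : ∃ T, T = 2 * max τ τ' := ⟨_, rfl⟩
  rw [← hT] at hD hT0 hT1
  have hT0' : 0 ≤ min 0.9 (max 0 (T - 0.002)) := le_min (by norm_num) (le_max_left _ _)
  have hT1' : min 0.9 (max 0 (T - 0.002)) ≤ 0.9 := min_le_left _ _
  have hTlt : min 0.9 (max 0 (T - 0.002)) < 1 := by linarith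
  obtain ⟨hb0, -⟩ := sl_area_mem hw.toNice k (1 / 2)
  obtain ⟨-, hc1⟩ := sl_area_mem hw.toNice k 0
  rcases hnum T hT0 hT1 with ⟨α, κ, hl, hJ⟩ | ⟨α1, α2, κ, hl1, hl2, hJ⟩
  · have h3 := slice_torus hw.toNice k (α := α) (κ := κ) (b := sArea w k (1 / 2))
      (c := sArea w k 0) (fun z => (CB_area hw k z).1) (fun z => (CB_area hw k z).2)
      ⟨_, rfl⟩ ⟨_, rfl⟩ (fun a ha => (hl a ha).1) (fun a ha => (hl a ha).2)
    have h4 : Real.sqrt (2 * Real.pi * ∫ x in cell 3, w x * (1 - w x)) ≤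
        12 * Real.sqrt (2 * ∫ x in cell 3, w x * (1 - w x)) := by
      have hE : 0 ≤ ∫ x in cell 3, w x * (1 - w x) :=
        integral_nonneg fun x => mul_nonneg (hw.nonneg x) (by
          have := hw.le_one x
          show 0 ≤ 1 - w x
          linarith)
      have e : 12 * Real.sqrt (2 * ∫ x in cell 3, w x * (1 - w x)) =
          Real.sqrt (12 ^ 2 * (2 * ∫ x in cell 3, w x * (1 - w x))) := by
        rw [Real.sqrt_mul (x := (12 : ℝ) ^ 2) (by norm_num), Real.sqrt_sq (by norm_num)]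
      rw [e]
      refine Real.sqrt_le_sqrt ?_
      have := CB_pi_lt_four
      nlinarith
    linarith
  · have hsym := fun z => slice_symN hw k z
    have hk := CB_ins hij hjk hik
    have h3 := slicing2c hw k (σ := 0.13) (K1 := KT (min 0.9 (max 0 (T - 0.002))))
      (K2 := FB T) (α1 := α1) (α2 := α2) (κ := κ) (by norm_num) (by norm_num)
      (fun z hz => by
        have hz' : |z| ≤ 0.065 := by
          have : (0.13 : ℝ) / 2 = 0.065 := by norm_num
          rw [this] at hz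
          exact hz.le
        have h5 := holder_avg2 (slice_nice hw.toNice k z)
          (F := KT (min 0.9 (max 0 (T - 0.002))))
          (fun x y hx hx1 hy hy1 => KT_holder hT0' hT1' x y hx hx1 hy hy1)
        refine h5.trans ?_
        rcases hk with hk | hk
        · refine CB_sec_B1 (hsym z) hT0' hT1' ?_ ?_ ?_
          · show w (k.insertNth z ![1 / 2, 0]) = 1
            rw [hk]
            exact hD.a1 z hz'
          · show w (k.insertNth z ![0, 1 / 2]) = 1
            rw [hk]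
            exact hD.a2 z hz'
          · rcases hD.a3 with h | h
            · left
              show w (k.insertNth z _) = 1
              rw [hk]
              exact h z hz'
            · right
              show w (k.insertNth z _) = 1
              rw [hk]
              exact h z hz'
        · refine CB_sec_B1 (hsym z) hT0' hT1' ?_ ?_ ?_
          · show w (k.insertNth z ![1 / 2, 0]) = 1
            rw [hk]
            exact hD.a2 z hz'
          · show w (k.insertNth z ![0, 1 / 2]) = 1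
            rw [hk]
            exact hD.a1 z hz'
          · rcases hD.a3 with h | h
            · right
              show w (k.insertNth z _) = 1
              rw [hk]
              exact h z hz'
            · left
              show w (k.insertNth z _) = 1
              rw [hk]
              exact h z hz')
      (fun z hz hz2 => by
        have hz' : 0.065 ≤ |z| := by
          have : (0.13 : ℝ) / 2 = 0.065 := by norm_num
          rw [this] at hz
          exact hz.le
        have h5 := holder_avg2 (slice_nice hw.toNice k z) (F := FB T)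
          (fun x y hx hx1 hy hy1 => FB_holder x y hx hx1 hy hy1)
        refine h5.trans ?_
        rcases hk with hk | hk
        · refine sec_B2 (hsym z) hT0 hT1 (fun t h6 h7 => ?_) (fun t h6 h7 => ?_)
          · show w (k.insertNth z _) = 0
            rw [hk]
            exact hD.b1 t z h6 h7 hz' hz2
          · show w (k.insertNth z _) = 0
            rw [hk]
            exact hD.b2 t z h6 h7 hz' hz2
        · refine sec_B2 (hsym z) hT0 hT1 (fun t h6 h7 => ?_) (fun t h6 h7 => ?_)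
          · show w (k.insertNth z _) = 0
            rw [hk]
            exact hD.b2 t z h6 h7 hz' hz2
          · show w (k.insertNth z _) = 0
            rw [hk]
            exact hD.b1 t z h6 h7 hz' hz2)
      (CB_KT_cont hTlt).continuousOn (CB_FB_cont T).continuousOn
      (CB_hq1 (CB_KT_cont hTlt) hb0 hc1
        (fun a ha => CB_KT_ge hTlt (hb0.trans ha.1) (ha.2.trans hc1)) (CB_KT_one _)
        (by
          have h6 := CB_KT_ge_sqrt (a := 0) hTlt zero_le_one
          refine lt_of_lt_of_le (Real.sqrt_pos.2 ?_) h6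
          have := Real.pi_pos
          linarith) hl1)
      (CB_hq (CB_FB_cont T) hb0 hc1
        (fun a ha => CB_FB_ge (hb0.trans ha.1) (ha.2.trans hc1)) (CB_FB_one _)
        (Or.inl (CB_FB_zero T))
        (fun a ha => (hl2 a ha).1) (fun a ha => (hl2 a ha).2))
      hl1 hl2
    linarith

/-- claim B with slack, with the numerical module as a hypothesis -/
theorem claim_B_s_of
    (num_B_s : ∀ {V b c T : ℝ}, V ∈ Set.Icc (0.263 : ℝ) 0.361 → 0 ≤ b → b ≤ V → V ≤ c → c ≤ 1 →
      0 ≤ T → T ≤ 1 →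
      (∃ α κ : ℝ, (∀ a ∈ Set.Icc b c, 0 ≤ α + κ * a ∧ α + κ * a ≤ I2 a) ∧
        Jh V + min ((c - b) ^ 2) (b + (1 - c)) / 10 ^ 7 ≤ α + κ * V + cal I2 α κ b c) ∨
      ∃ α1 α2 κ : ℝ,
        (∀ a ∈ Set.Icc b c, α1 + κ * a ≤ KT (min 0.9 (max 0 (T - 0.002))) a) ∧
        (∀ a ∈ Set.Icc b c, 0 ≤ α2 + κ * a ∧ α2 + κ * a ≤ FB T a) ∧
        Jh V + 1 / 10 ^ 7 ≤ α1 * 0.13 + α2 * (1 - 0.13) + κ * V +
          cal2 (KT (min 0.9 (max 0 (T - 0.002)))) (FB T) α1 α2 κ b c)
    {w : (Fin 3 → ℝ) → ℝ} (hw : SymN w)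
    (hV : (∫ x in cell 3, w x) ∈ Set.Icc (0.263 : ℝ) 0.361) {i j k : Fin 3} (hij : i ≠ j)
    (hjk : j ≠ k) (hik : i ≠ k) (h1 : w (pt i k 0.065) = 1) (h2 : w (pt j k 0.065) = 1)
    {τ τ' : ℝ} (hτ : 0 ≤ τ ∧ τ ≤ 1 / 2) (hτ' : 0 ≤ τ' ∧ τ' ≤ 1 / 2)
    (ht : Trace w i j k τ 0.0005) (ht' : Trace w j i k τ' 0.0005) :
    Jh (∫ x in cell 3, w x) + min ((sArea w k 0 - sArea w k (1 / 2)) ^ 2)
        (sArea w k (1 / 2) + (1 - sArea w k 0)) / 10 ^ 7 ≤
      hTV w + 12 * Real.sqrt (2 * ∫ x in cell 3, w x * (1 - w x)) := by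
  obtain ⟨hbV, hVc⟩ := CB_V hw k
  obtain ⟨hb0, -⟩ := sl_area_mem hw.toNice k (1 / 2)
  obtain ⟨-, hc1⟩ := sl_area_mem hw.toNice k 0
  refine claim_B_of hw hij hjk hik h1 h2 hτ hτ' ht ht' fun T hT0 hT1 => ?_
  rcases num_B_s hV hb0 hbV hVc hc1 hT0 hT1 with h | ⟨α1, α2, κ, h3, h4, h5⟩
  · exact Or.inl h
  · refine Or.inr ⟨α1, α2, κ, h3, h4, le_trans ?_ h5⟩
    have h6 : min ((sArea w k 0 - sArea w k (1 / 2)) ^ 2)
        (sArea w k (1 / 2) + (1 - sArea w k 0)) ≤ 1 := by
      refine (min_le_left _ _).trans ?_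
      have h7 : 0 ≤ sArea w k 0 - sArea w k (1 / 2) := by linarith
      have h8 : sArea w k 0 - sArea w k (1 / 2) ≤ 1 := by linarith
      exact pow_le_one₀ h7 h8
    have h9 := div_le_div_of_nonneg_right h6 (show (0:ℝ) ≤ 10 ^ 7 by norm_num)
    linarith

end Vale.Agent.P232
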