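import Vale.Agent.P232.NumT
import Vale.Agent.P232.Corner2

/-!
# P232, module 2NC: the two-zone inequality for `(I2, FA)` (helper91)
-/

open MeasureTheory Set

namespace Vale.Agent.P232

theorem NT_I2_le_FA (a : ℝ) : I2 a ≤ FA a := by
  unfold I2 FA
  refine le_min ((min_le_left _ _).trans (min_le_left _ _)) ?_
  exact ((min_le_left _ _).trans (min_le_right _ _)).trans (by norm_num)

/-- if `0 ≤ l ≤ K ≤ K'` then `l / K' ≤ l / K` -/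
theorem NT_div_le {l K K' : ℝ} (h0 : 0 ≤ l) (h1 : l ≤ K) (h2 : K ≤ K') : l / K' ≤ l / K := by
  rcases (h0.trans h1).eq_or_lt with h | h
  · have hl : l = 0 := le_antisymm (by rw [h]; exact h1) h0
    rw [hl, zero_div, zero_div]
  · exact div_le_div_of_nonneg_left h0 h h2

/-- the diagonal case of `cal2` -/
theorem NT_cal2_diag {K K' : ℝ → ℝ} {α κ b c : ℝ} (hbc : b ≤ c)
    (h0 : ∀ a ∈ Icc b c, 0 ≤ α + κ * a) (h1 : ∀ a ∈ Icc b c, α + κ * a ≤ K a)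
    (h2 : ∀ a ∈ Icc b c, K a ≤ K' a) : cal2 K K' α α κ b c = cal K α κ b c := by
  unfold cal2 cal
  refine intervalIntegral.integral_congr fun a ha => ?_
  rw [uIcc_of_le hbc] at ha
  show Real.sqrt (1 - (max ((α + κ * a) / K a) ((α + κ * a) / K' a)) ^ 2) =
    Real.sqrt (1 - ((α + κ * a) / K a) ^ 2)
  rw [max_eq_left (NT_div_le (h0 a ha) (h1 a ha) (h2 a ha))]

/-- NC -/
theorem num_C {V b c : ℝ} (hV : V ∈ Set.Icc (0.263 : ℝ) 0.361) (hb : 0 ≤ b) (hb1 : b ≤ 0.13)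
    (hc : V ≤ c) (hc1 : c ≤ 1) :
    ∃ α1 α2 κ : ℝ, (∀ a ∈ Set.Icc b c, α1 + κ * a ≤ I2 a) ∧
      (∀ a ∈ Set.Icc b c, 0 ≤ α2 + κ * a ∧ α2 + κ * a ≤ FA a) ∧
      Jh V ≤ α1 * 0.13 + α2 * (1 - 0.13) + κ * V + cal2 I2 FA α1 α2 κ b c := by
  have hbV : b ≤ V := by linarith [hV.1]
  rcases NT.allC hV hb hb1 hc hc1 with ⟨g1, g2, g3⟩ | ⟨α1, α2, κ, h1, h2, _, h4⟩
  · obtain ⟨α, κ, h1, h2, h3⟩ := corner2 (V := V) ⟨g1, by linarith [hV.2]⟩ hb g2 g3 hc1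
    refine ⟨α, α, κ, h2, fun a ha => ⟨h1 a ha, (h2 a ha).trans (NT_I2_le_FA a)⟩, ?_⟩
    rw [NT_cal2_diag (hbV.trans hc) h1 h2 fun a _ => NT_I2_le_FA a]
    have : Jh V ≤ 1 := min_le_right _ _
    linarith
  · rw [NT.profI_iso, G.profA_iso] at h4
    rw [NT.profI_iso] at h1
    rw [G.profA_iso] at h2
    exact ⟨α1, α2, κ, h1, h2, by linarith⟩

end Vale.Agent.P232
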