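import Vale.Agent.P232.ClaimCOf
import Vale.Agent.P232.NumC

/-! # P232, module 2CC: claim C (helper21) -/

open MeasureTheory Set

namespace Vale.Agent.P232

theorem claim_C {w : (Fin 3 → ℝ) → ℝ} (hw : SymN w)
    (hV : (∫ x in cell 3, w x) ∈ Set.Icc (0.263 : ℝ) 0.361) {i j k : Fin 3} (hij : i ≠ j)
    (hjk : j ≠ k) (hik : i ≠ k) (h1 : w (pt j i 0.065) = 0) (h2 : w (pt k j 0.065) = 0)
    (h3 : w (pt i k 0.065) = 0) :
    Jh (∫ x in cell 3, w x) ≤ hTV w + 12 * Real.sqrt (2 * ∫ x in cell 3, w x * (1 - w x)) :=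
  claim_C_of num_C hw hV hij hjk hik h1 h2 h3

end Vale.Agent.P232
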