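import Vale.Agent.P232.CCAux
import Vale.Agent.P232.Holder2
import Vale.Agent.P232.TorusTwo
import Vale.Agent.P232.SecA
import Vale.Agent.P232.CCSlice
import Vale.Agent.P232.CCRatio

/-! # P232, module 2CC: claim C, with the numerical module as a hypothesis (helper21) -/

open MeasureTheory Set

namespace Vale.Agent.P232

theorem claim_C_of
    (num_C : ∀ {V b c : ℝ}, V ∈ Set.Icc (0.263 : ℝ) 0.361 → 0 ≤ b → b ≤ 0.13 → V ≤ c → c ≤ 1 →
      ∃ α1 α2 κ : ℝ, (∀ a ∈ Set.Icc b c, α1 + κ * a ≤ I2 a) ∧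
        (∀ a ∈ Set.Icc b c, 0 ≤ α2 + κ * a ∧ α2 + κ * a ≤ FA a) ∧
        Jh V ≤ α1 * 0.13 + α2 * (1 - 0.13) + κ * V + cal2 I2 FA α1 α2 κ b c)
    {w : (Fin 3 → ℝ) → ℝ} (hw : SymN w)
    (hV : (∫ x in cell 3, w x) ∈ Set.Icc (0.263 : ℝ) 0.361) {i j k : Fin 3} (hij : i ≠ j)
    (hjk : j ≠ k) (hik : i ≠ k) (h1 : w (pt j i 0.065) = 0) (h2 : w (pt k j 0.065) = 0)
    (h3 : w (pt i k 0.065) = 0) :
    Jh (∫ x in cell 3, w x) ≤ hTV w + 12 * Real.sqrt (2 * ∫ x in cell 3, w x * (1 - w x)) := by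
  have hb0 : 0 ≤ sArea w i (1 / 2) := (sl_area_mem hw.toNice i _).1
  have hc1 : sArea w i 0 ≤ 1 := (sl_area_mem hw.toNice i _).2
  obtain ⟨α1, α2, κ, hα1, hα2, hJ⟩ := num_C hV hb0 (cc_wall hw hij hjk hik h3)
    (cc_int_le hw i) hc1
  refine hJ.trans ?_
  refine slicing2c hw i (σ := 0.13) (by norm_num) (by norm_num) ?_ ?_
    I2_cont.continuousOn cc_FA_cont.continuousOn (cc_hq1 hb0 hc1 hα1) ?_ hα1 hα2
  · intro z _
    exact (holder_avg2 (slice_nice hw.toNice i z) I2_holder2).trans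
      (torus_two (slice_nice hw.toNice i z))
  · intro z hz1 hz2
    have hz1' : (0.065 : ℝ) ≤ |z| := by
      refine le_trans ?_ hz1.le
      norm_num
    have hzN : ∀ N : ℤ, (0.065 : ℝ) ≤ |z - N| := cc_dist' hz1' (by linarith)
    -- the two vanishing values of the slice
    have hA : ∀ {a b : Fin 2}, i.succAbove a = j → i.succAbove b = k → ∀ y : Fin 2 → ℝ,
        y a = 1 / 2 → y b = 0.065 → slice w i z y = 0 := by
      intro a b ha hb y hya hyb
      refine cc_slice_zero hw hij hjk hik h1 ha hb (fun N => ?_) (fun N => ?_) (fun N => ?_)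
      · rw [cc_pt2, abs_of_nonneg (by norm_num)]
        exact hzN N
      · rw [cc_pt1 hij.symm, hya, abs_of_nonneg (by norm_num)]
        exact cc_dist le_rfl (by norm_num) N
      · rw [cc_pt3 hjk.symm hik.symm, abs_zero]
        exact abs_nonneg _
    have hB : ∀ {a b : Fin 2}, i.succAbove a = j → i.succAbove b = k → ∀ y : Fin 2 → ℝ,
        y a = 0.065 → y b = 1 / 2 → slice w i z y = 0 := by
      intro a b ha hb y hya hyb
      refine cc_slice_zero hw hij hjk hik h2 ha hb (fun N => ?_) (fun N => ?_) (fun N => ?_)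
      · rw [cc_pt3 hik hij, abs_zero]
        exact abs_nonneg _
      · rw [cc_pt2, hya, abs_of_nonneg (by norm_num)]
        exact cc_dist le_rfl (by norm_num) N
      · rw [cc_pt1 hjk.symm, hyb, abs_of_nonneg (by norm_num)]
        exact cc_dist le_rfl (by norm_num) N
    refine (holder_avg2 (slice_nice hw.toNice i z) FA_holder).trans
      (sec_A (slice_symN hw i z) ?_ ?_)
    · rcases cc_cases i j k hij hjk hik with ⟨ha, hb⟩ | ⟨hb, ha⟩
      · exact hA ha hb _ (by simp) (by simp)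
      · exact hB ha hb _ (by simp) (by simp)
    · rcases cc_cases i j k hij hjk hik with ⟨ha, hb⟩ | ⟨hb, ha⟩
      · exact hB ha hb _ (by simp) (by simp)
      · exact hA ha hb _ (by simp) (by simp)
  · refine sl_hq cc_FA_cont hb0 hc1 (fun a ha => cc_FA_ge (hb0.trans ha.1) (ha.2.trans hc1))
      (by unfold FA; norm_num) (Or.inr ?_) (fun a ha => (hα2 a ha).1)
      (fun a ha => (hα2 a ha).2)
    unfold FA
    rw [mul_one]
    exact lt_min (Real.sqrt_pos.2 Real.pi_pos) (by norm_num)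

end Vale.Agent.P232
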