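import Vale.Agent.P232.Defs

/-! # P232, module C3: a periodic function crosses a gap twice -/

open MeasureTheory Set

namespace Vale.Agent.P232

private theorem crossing_meas {u : ℝ → ℝ} (hu : Continuous u) (p r : ℝ) :
    MeasurableSet {x : ℝ | p < u x ∧ u x < r} :=
  ((isOpen_lt continuous_const hu).inter (isOpen_lt hu continuous_const)).measurableSet

private theorem crossing_int {u : ℝ → ℝ} (hu : ContDiff ℝ 1 u) (p r a b : ℝ) :
    IntervalIntegrable ({x : ℝ | p < u x ∧ u x < r}.indicator fun x => |deriv u x|)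
      volume a b := by
  have hc : Continuous fun x => |deriv u x| := (hu.continuous_deriv le_rfl).abs
  have h := hc.intervalIntegrable (μ := volume) a b
  rw [intervalIntegrable_iff] at h ⊢
  exact h.indicator (crossing_meas hu.continuous p r)

private theorem crossing_step {u : ℝ → ℝ} (hu : ContDiff ℝ 1 u) {p r a b : ℝ} (hpr : p < r)
    (hab : a ≤ b) (h1 : u a ≤ p) (h2 : r ≤ u b) :
    r - p ≤ ∫ x in a..b, {x : ℝ | p < u x ∧ u x < r}.indicator (fun x => |deriv u x|) x := by
  have hcu := hu.continuous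
  have hc : Continuous fun x => |deriv u x| := (hu.continuous_deriv le_rfl).abs
  -- first point above `r`
  have hS : IsCompact (Icc a b ∩ {x | r ≤ u x}) :=
    isCompact_Icc.inter_right (isClosed_le continuous_const hcu)
  obtain ⟨b', hb', hleast⟩ := hS.exists_isLeast ⟨b, ⟨hab, le_rfl⟩, h2⟩
  have hS' : IsCompact (Icc a b' ∩ {x | u x ≤ p}) :=
    isCompact_Icc.inter_right (isClosed_le hcu continuous_const)
  obtain ⟨a', ha', hgr⟩ := hS'.exists_isGreatest ⟨a, ⟨le_rfl, hb'.1.1⟩, h1⟩
  have hab' : a' ≤ b' := ha'.1.2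
  have hin : ∀ x ∈ Ioo a' b', p < u x ∧ u x < r := by
    intro x hx
    constructor
    · by_contra hcon
      have := hgr ⟨⟨ha'.1.1.trans hx.1.le, hx.2.le⟩, not_lt.mp hcon⟩
      exact absurd this (not_le.mpr hx.1)
    · by_contra hcon
      have := hleast ⟨⟨ha'.1.1.trans hx.1.le, hx.2.le.trans hb'.1.2⟩, not_lt.mp hcon⟩
      exact absurd this (not_le.mpr hx.2)
  have e1 : ∫ x in a'..b', deriv u x = u b' - u a' :=
    intervalIntegral.integral_deriv_eq_sub (fun x _ => (hu.differentiable one_ne_zero) x)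
      ((hu.continuous_deriv le_rfl).intervalIntegrable _ _)
  have e2 : ∫ x in a'..b', deriv u x ≤ ∫ x in a'..b', |deriv u x| :=
    intervalIntegral.integral_mono_on hab' ((hu.continuous_deriv le_rfl).intervalIntegrable _ _)
      (hc.intervalIntegrable _ _) fun x _ => le_abs_self _
  have e3 : ∫ x in a'..b', |deriv u x|
      = ∫ x in a'..b', {x : ℝ | p < u x ∧ u x < r}.indicator (fun x => |deriv u x|) x := by
    rw [intervalIntegral.integral_of_le hab', intervalIntegral.integral_of_le hab',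
      integral_Ioc_eq_integral_Ioo, integral_Ioc_eq_integral_Ioo]
    refine setIntegral_congr_fun measurableSet_Ioo fun x hx => ?_
    have hx' : x ∈ {x : ℝ | p < u x ∧ u x < r} := hin x hx
    exact (Set.indicator_of_mem hx' fun x => |deriv u x|).symm
  have e4 : ∫ x in a'..b', {x : ℝ | p < u x ∧ u x < r}.indicator (fun x => |deriv u x|) x
      ≤ ∫ x in a..b, {x : ℝ | p < u x ∧ u x < r}.indicator (fun x => |deriv u x|) x := by
    refine intervalIntegral.integral_mono_interval ha'.1.1 hab' hb'.1.2 ?_ (crossing_int hu p r a b)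
    refine Filter.Eventually.of_forall fun x => ?_
    show (0 : ℝ) ≤ {x : ℝ | p < u x ∧ u x < r}.indicator (fun x => |deriv u x|) x
    by_cases hx : x ∈ {x : ℝ | p < u x ∧ u x < r}
    · rw [Set.indicator_of_mem hx]
      exact abs_nonneg _
    · rw [Set.indicator_of_notMem hx]
  have h3 : r ≤ u b' := hb'.2
  have h4 : u a' ≤ p := ha'.2
  linarith

/-- C3 -/
theorem crossing {u : ℝ → ℝ} (hu : ContDiff ℝ 1 u) (hper : ∀ x, u (x + 1) = u x) {p r x₁ x₂ : ℝ}
    (hpr : p ≤ r) (h1 : u x₁ ≤ p) (h2 : r ≤ u x₂) :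
    2 * (r - p) ≤ ∫ x in Set.Ico (0:ℝ) 1 ∩ {x | p < u x ∧ u x < r}, |deriv u x| := by
  rcases hpr.eq_or_lt with rfl | hlt
  · rw [sub_self, mul_zero]
    exact integral_nonneg fun x => abs_nonneg _
  set G : ℝ → ℝ := {x : ℝ | p < u x ∧ u x < r}.indicator fun x => |deriv u x| with hG
  have hP : Function.Periodic u 1 := hper
  have hderiv : ∀ x, deriv u (x + 1) = deriv u x := by
    intro x
    have h : (fun y => u (y + 1)) = u := funext hper
    have h3 := deriv_comp_add_const (f := u) (a := (1 : ℝ)) (x := x)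
    rw [h] at h3
    exact h3.symm
  have hGP : Function.Periodic G 1 := by
    intro x
    rw [hG]
    by_cases hx : p < u x ∧ u x < r
    · rw [Set.indicator_of_mem (show x ∈ {x : ℝ | p < u x ∧ u x < r} from hx),
        Set.indicator_of_mem (show x + 1 ∈ {x : ℝ | p < u x ∧ u x < r} by
          rw [Set.mem_ofPred_eq, hper x]; exact hx), hderiv x]
    · rw [Set.indicator_of_notMem (show x ∉ {x : ℝ | p < u x ∧ u x < r} from hx),
        Set.indicator_of_notMem (show x + 1 ∉ {x : ℝ | p < u x ∧ u x < r} by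
          rw [Set.mem_ofPred_eq, hper x]; exact hx)]
  have e0 : ∫ x in Set.Ico (0:ℝ) 1 ∩ {x | p < u x ∧ u x < r}, |deriv u x| = ∫ x in (0:ℝ)..1, G x := by
    rw [intervalIntegral.integral_of_le zero_le_one, integral_Ioc_eq_integral_Ioo,
      ← integral_Ico_eq_integral_Ioo, hG, setIntegral_indicator (crossing_meas hu.continuous p r)]
  have e1 : ∫ x in (0:ℝ)..1, G x = ∫ x in x₁..(x₁ + 1), G x := by
    have h := hGP.intervalIntegral_add_eq 0 x₁
    rw [zero_add] at h
    exact h
  set y : ℝ := x₂ - (⌊x₂ - x₁⌋ : ℤ) with hy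
  have hy1 : x₁ ≤ y := by
    have := Int.floor_le (x₂ - x₁)
    rw [hy]; linarith
  have hy2 : y ≤ x₁ + 1 := by
    have := (Int.lt_floor_add_one (x₂ - x₁)).le
    rw [hy]; linarith
  have huy : u y = u x₂ := by
    have h := hP.sub_int_mul_eq (x := x₂) ⌊x₂ - x₁⌋
    rw [mul_one] at h
    exact h
  have e2 : ∫ x in x₁..(x₁ + 1), G x = (∫ x in x₁..y, G x) + ∫ x in y..(x₁ + 1), G x :=
    (intervalIntegral.integral_add_adjacent_intervals (crossing_int hu p r _ _)
      (crossing_int hu p r _ _)).symm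
  have e3 : r - p ≤ ∫ x in x₁..y, G x := crossing_step hu hlt hy1 h1 (huy ▸ h2)
  have e4 : r - p ≤ ∫ x in y..(x₁ + 1), G x := by
    have h := crossing_step (u := fun x => -u x) hu.neg (p := -r) (r := -p) (by linarith) hy2
      (by show -u y ≤ -r; rw [huy]; linarith) (by show -p ≤ -u (x₁ + 1); rw [hper]; linarith)
    have hGe : ({x : ℝ | -r < -u x ∧ -u x < -p}.indicator fun x => |deriv (fun x => -u x) x|)
        = G := by
      rw [hG]
      funext x
      have hs : {x : ℝ | -r < -u x ∧ -u x < -p} = {x : ℝ | p < u x ∧ u x < r} := by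
        ext z
        simp only [Set.mem_ofPred_eq, neg_lt_neg_iff]
        tauto
      rw [hs]
      congr 1
      funext z
      rw [deriv.fun_neg, abs_neg]
    rw [hGe] at h
    linarith
  rw [e0, e1, e2]
  linarith

end Vale.Agent.P232
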