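import Vale.Agent.P232.Defs

/-!
# P232, module A2: a uniform first order bound for compactly supported `C^1` functions
-/

open MeasureTheory Set

namespace Vale.Agent.P232

theorem unif_grad {h : (Fin 2 → ℝ) → ℝ} (hc : ContDiff ℝ 1 h) (hs : HasCompactSupport h)
    {κ : ℝ} (hκ : 0 < κ) :
    ∃ ε₀ > 0, ∀ ε, 0 < ε → ε < ε₀ → ∀ x, ∀ y ∈ disc ε, h (x + y) ≤ h x + ε * (gradN h x + κ) := by
  have hcont : Continuous (fderiv ℝ h) := hc.continuous_fderiv one_ne_zero
  have hsupp : HasCompactSupport (fderiv ℝ h) := hs.fderiv (𝕜 := ℝ)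
  have huc : UniformContinuous (fderiv ℝ h) := hcont.uniformContinuous_of_tendsto_cocompact
    (by
      have := hsupp.is_zero_at_infty
      exact this)
  rw [Metric.uniformContinuous_iff] at huc
  obtain ⟨δ, hδ, hδ'⟩ := huc κ hκ
  refine ⟨δ, hδ, fun ε hε hεδ x y hy => ?_⟩
  have hy' : (y 0) ^ 2 + (y 1) ^ 2 ≤ ε ^ 2 := hy
  have hny : ‖y‖ ≤ ε := by
    rw [pi_norm_le_iff_of_nonneg hε.le]
    intro i
    rw [Real.norm_eq_abs]
    apply abs_le_of_sq_le_sq _ hε.le
    fin_cases i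
    · simp only [Fin.zero_eta, Fin.isValue]
      nlinarith [sq_nonneg (y 1)]
    · simp only [Fin.mk_one, Fin.isValue]
      nlinarith [sq_nonneg (y 0)]
  have hmv : ‖h (x + y) - h x - fderiv ℝ h x ((x + y) - x)‖ ≤ κ * ‖(x + y) - x‖ := by
    refine Convex.norm_image_sub_le_of_norm_fderiv_le' (s := Metric.closedBall x ε)
      (fun z _ => (hc.differentiable one_ne_zero) z) ?_ (convex_closedBall x ε)
      (Metric.mem_closedBall_self hε.le) ?_
    · intro z hz
      have : dist z x < δ := lt_of_le_of_lt (Metric.mem_closedBall.1 hz) hεδ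
      have := hδ' this
      rw [dist_eq_norm] at this
      exact this.le
    · rw [Metric.mem_closedBall, dist_eq_norm, add_sub_cancel_left]
      exact hny
  rw [add_sub_cancel_left, Real.norm_eq_abs] at hmv
  have h1 := (abs_le.1 hmv).2
  have h2 : κ * ‖y‖ ≤ κ * ε := mul_le_mul_of_nonneg_left hny hκ.le
  have h3 : fderiv ℝ h x y ≤ gradN h x * ε := by
    have hyd : y = y 0 • (Pi.single 0 1 : Fin 2 → ℝ) + y 1 • (Pi.single 1 1 : Fin 2 → ℝ) := by
      ext i
      fin_cases i <;> simp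
    have h4 : fderiv ℝ h x y = y 0 * fderiv ℝ h x (Pi.single 0 1) +
        y 1 * fderiv ℝ h x (Pi.single 1 1) := by
      conv_lhs => rw [hyd]
      rw [map_add, map_smul, map_smul, smul_eq_mul, smul_eq_mul]
    rw [h4]
    unfold gradN
    rw [Fin.sum_univ_two]
    set a := fderiv ℝ h x (Pi.single 0 1)
    set b := fderiv ℝ h x (Pi.single 1 1)
    have h5 : 0 ≤ Real.sqrt (a ^ 2 + b ^ 2) * ε := by positivity
    refine abs_le_of_sq_le_sq' ?_ h5 |>.2
    rw [mul_pow, Real.sq_sqrt (by positivity)]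
    nlinarith [sq_nonneg (y 0 * b - y 1 * a), mul_le_mul_of_nonneg_left hy'
      (by positivity : 0 ≤ a ^ 2 + b ^ 2)]
  nlinarith

end Vale.Agent.P232
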