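import Vale.Agent.P232.BM
import Vale.Agent.P232.UnifGrad

/-! # P232 A3: coarea + isoperimetric inequality in the plane -/

open MeasureTheory Set
open scoped Pointwise

namespace Vale.Agent.P232

private theorem isoplane_gradN_cont {h : (Fin 2 → ℝ) → ℝ} (hc : ContDiff ℝ 1 h) :
    Continuous (gradN h) := by
  unfold gradN
  have h1 : Continuous (fderiv ℝ h) := hc.continuous_fderiv one_ne_zero
  fun_prop

private theorem isoplane_gradN_nonneg (h : (Fin 2 → ℝ) → ℝ) (x : Fin 2 → ℝ) : 0 ≤ gradN h x :=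
  Real.sqrt_nonneg _

private theorem isoplane_gradN_supp {h : (Fin 2 → ℝ) → ℝ} (hs : HasCompactSupport h) :
    HasCompactSupport (gradN h) := by
  have h1 : HasCompactSupport (fderiv ℝ h) := hs.fderiv (𝕜 := ℝ)
  refine h1.mono' ?_
  intro x hx
  by_contra hnot
  apply hx
  have h2 : fderiv ℝ h x = 0 := image_eq_zero_of_notMem_tsupport hnot
  unfold gradN
  simp [h2]

private theorem isoplane_disc_compact (r : ℝ) : IsCompact (disc r) := by
  have hcl : IsClosed (disc r) := by
    unfold disc
    exact isClosed_le (by fun_prop) continuous_const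
  refine Metric.isCompact_of_isClosed_isBounded hcl ?_
  refine (Metric.isBounded_closedBall (x := (0 : Fin 2 → ℝ)) (r := |r|)).subset ?_
  intro y hy
  rw [mem_closedBall_zero_iff]
  have hy' : (y 0) ^ 2 + (y 1) ^ 2 ≤ r ^ 2 := hy
  rw [pi_norm_le_iff_of_nonneg (abs_nonneg r)]
  intro i
  rw [Real.norm_eq_abs]
  apply sq_le_sq.1
  fin_cases i
  · show (y 0) ^ 2 ≤ r ^ 2
    nlinarith [sq_nonneg (y 1)]
  · show (y 1) ^ 2 ≤ r ^ 2
    nlinarith [sq_nonneg (y 0)]

private theorem isoplane_disc_neg {r : ℝ} {y : Fin 2 → ℝ} (hy : y ∈ disc r) : -y ∈ disc r := by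
  unfold disc at *
  simpa using hy

private theorem isoplane_disc_mono {r s : ℝ} (hr : 0 ≤ r) (hrs : r ≤ s) : disc r ⊆ disc s := by
  intro y hy
  have hy' : (y 0) ^ 2 + (y 1) ^ 2 ≤ r ^ 2 := hy
  show (y 0) ^ 2 + (y 1) ^ 2 ≤ s ^ 2
  nlinarith

private theorem isoplane_meas (h : (Fin 2 → ℝ) → ℝ) :
    Measurable (fun s : ℝ => volume {x | s < h x}) := by
  apply Antitone.measurable
  intro s t hst
  exact measure_mono fun x (hx : t < h x) => lt_of_le_of_lt hst hx

private theorem isoplane_fin {h : (Fin 2 → ℝ) → ℝ} (hs : HasCompactSupport h) {s : ℝ}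
    (h0 : 0 ≤ s) : volume {x | s < h x} ≠ ⊤ := by
  have h1 : {x | s < h x} ⊆ tsupport h := by
    intro x hx
    apply subset_tsupport
    intro h2
    have hx' : s < h x := hx
    rw [h2] at hx'
    exact absurd hx' (not_lt.2 h0)
  exact ((measure_mono h1).trans_lt hs.measure_lt_top).ne

private theorem isoplane_main {h : (Fin 2 → ℝ) → ℝ} (hc : ContDiff ℝ 1 h)
    (hs : HasCompactSupport h) (h0 : ∀ x, 0 ≤ h x) (h1 : ∀ x, h x ≤ 1) {κ : ℝ} (hκ : 0 < κ) :
    ENNReal.ofReal (2 * Real.sqrt Real.pi) *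
        ∫⁻ s in Ioc (0:ℝ) 1, ENNReal.ofReal (Real.sqrt (volume {x | s < h x}).toReal) ≤
      (∫⁻ x, ENNReal.ofReal (gradN h x)) + ENNReal.ofReal κ * volume (tsupport h + disc 1) := by
  obtain ⟨ε₀, hε₀, hε⟩ := unif_grad hc hs hκ
  obtain ⟨ε, e0, e1, e2⟩ : ∃ ε : ℝ, 0 < ε ∧ ε < ε₀ ∧ ε ≤ 1 := by
    refine ⟨min (ε₀ / 2) 1, lt_min (by linarith) one_pos, ?_, min_le_right _ _⟩
    exact lt_of_le_of_lt (min_le_left _ _) (by linarith)
  have hg := hε ε e0 e1
  set K : Set (Fin 2 → ℝ) := tsupport h + disc 1 with hK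
  have hKc : IsCompact K := IsCompact.add hs (isoplane_disc_compact 1)
  have hKm : MeasurableSet K := hKc.isClosed.measurableSet
  set u : (Fin 2 → ℝ) → ℝ := fun x => h x + ε * (gradN h x + κ) with hu
  have hgc := isoplane_gradN_cont hc
  have huc : Continuous u := by
    rw [hu]
    exact hc.continuous.add (continuous_const.mul (hgc.add continuous_const))
  have hu0 : ∀ x, 0 ≤ u x := by
    intro x
    have := isoplane_gradN_nonneg h x
    have := h0 x
    simp only [hu]
    positivity
  -- pointwise inequality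
  have key : ∀ s ∈ Ioc (0 : ℝ) 1, volume {x | s < h x}
      + ENNReal.ofReal (2 * Real.sqrt Real.pi) * (ENNReal.ofReal ε *
        ENNReal.ofReal (Real.sqrt (volume {x | s < h x}).toReal))
      ≤ (volume.restrict K) {x | s < u x} := by
    intro s hs0
    have hfin := isoplane_fin hs hs0.1.le
    rcases Set.eq_empty_or_nonempty {x | s < h x} with hem | hne
    · rw [hem]
      simp
    · have hop : IsOpen {x | s < h x} := isOpen_lt continuous_const hc.continuous
      have hbm := bm_disc hop hne hfin e0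
      have hsub : {x | s < h x} + disc ε ⊆ {x | s < u x} ∩ K := by
        rintro x ⟨a, ha, y, hy, rfl⟩
        constructor
        · have h3 := hg (a + y) (-y) (isoplane_disc_neg hy)
          rw [add_neg_cancel_right] at h3
          exact lt_of_lt_of_le ha h3
        · refine ⟨a, ?_, y, isoplane_disc_mono e0.le e2 hy, rfl⟩
          apply subset_tsupport
          intro h2
          have hx' : s < h a := ha
          rw [h2] at hx'
          exact absurd hx' (not_lt.2 hs0.1.le)
      rw [Measure.restrict_apply (isOpen_lt continuous_const huc).measurableSet]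
      refine le_trans ?_ (hbm.trans (measure_mono hsub))
      have h5 : volume {x | s < h x} = ENNReal.ofReal (volume {x | s < h x}).toReal :=
        (ENNReal.ofReal_toReal hfin).symm
      have hm0 : 0 ≤ (volume {x | s < h x}).toReal := ENNReal.toReal_nonneg
      generalize (volume {x | s < h x}).toReal = m at h5 hm0 ⊢
      rw [h5, ← ENNReal.ofReal_mul e0.le, ← ENNReal.ofReal_mul (by positivity),
        ← ENNReal.ofReal_add hm0 (by positivity)]
      apply ENNReal.ofReal_le_ofReal
      have h6 := Real.sq_sqrt hm0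
      have h7 : 0 ≤ (ε * Real.sqrt Real.pi) ^ 2 := sq_nonneg _
      nlinarith
  -- integrate
  have hcake : ∫⁻ x, ENNReal.ofReal (h x) = ∫⁻ s in Ioi (0 : ℝ), volume {x | s < h x} :=
    lintegral_eq_lintegral_meas_lt volume (Filter.Eventually.of_forall h0)
      hc.continuous.measurable.aemeasurable
  have hmeas := isoplane_meas h
  have hcake2 : ∫⁻ x, ENNReal.ofReal (h x) = ∫⁻ s in Ioc (0 : ℝ) 1, volume {x | s < h x} := by
    rw [hcake, ← Ioc_union_Ioi_eq_Ioi (zero_le_one' ℝ),
      lintegral_union measurableSet_Ioi (Ioc_disjoint_Ioi le_rfl)]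
    have hz : ∫⁻ s in Ioi (1 : ℝ), volume {x | s < h x} = 0 := by
      rw [← lintegral_zero (μ := volume.restrict (Ioi (1 : ℝ)))]
      apply setLIntegral_congr_fun measurableSet_Ioi
      intro s hs1
      have : {x | s < h x} = ∅ := by
        apply Set.eq_empty_of_forall_notMem
        intro x hx
        exact absurd (lt_of_lt_of_le hx (h1 x)) (not_lt.2 (le_of_lt hs1))
      simp [this]
    rw [hz, add_zero]
  have hsq : Measurable (fun s : ℝ => ENNReal.ofReal (Real.sqrt (volume {x | s < h x}).toReal)) :=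
    (hmeas.ennreal_toReal.sqrt).ennreal_ofReal
  have hint : (∫⁻ x, ENNReal.ofReal (h x)) + ENNReal.ofReal ε * (ENNReal.ofReal (2 * Real.sqrt Real.pi) *
        ∫⁻ s in Ioc (0:ℝ) 1, ENNReal.ofReal (Real.sqrt (volume {x | s < h x}).toReal))
      ≤ (∫⁻ x, ENNReal.ofReal (h x)) + ENNReal.ofReal ε * ((∫⁻ x, ENNReal.ofReal (gradN h x))
        + ENNReal.ofReal κ * volume K) := by
    calc (∫⁻ x, ENNReal.ofReal (h x)) + ENNReal.ofReal ε * (ENNReal.ofReal (2 * Real.sqrt Real.pi) *
          ∫⁻ s in Ioc (0:ℝ) 1, ENNReal.ofReal (Real.sqrt (volume {x | s < h x}).toReal))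
        = ∫⁻ s in Ioc (0:ℝ) 1, (volume {x | s < h x}
            + ENNReal.ofReal (2 * Real.sqrt Real.pi) * (ENNReal.ofReal ε *
              ENNReal.ofReal (Real.sqrt (volume {x | s < h x}).toReal))) := by
          rw [lintegral_add_left hmeas, hcake2, lintegral_const_mul _ (hsq.const_mul _),
            lintegral_const_mul _ hsq]
          ring
      _ ≤ ∫⁻ s in Ioc (0:ℝ) 1, (volume.restrict K) {x | s < u x} :=
          setLIntegral_mono' measurableSet_Ioc key
      _ ≤ ∫⁻ s in Ioi (0:ℝ), (volume.restrict K) {x | s < u x} :=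
          lintegral_mono_set Ioc_subset_Ioi_self
      _ = ∫⁻ x in K, ENNReal.ofReal (u x) :=
          (lintegral_eq_lintegral_meas_lt (volume.restrict K) (Filter.Eventually.of_forall hu0)
            huc.measurable.aemeasurable).symm
      _ = ∫⁻ x in K, (ENNReal.ofReal (h x) + ENNReal.ofReal ε *
            (ENNReal.ofReal (gradN h x) + ENNReal.ofReal κ)) := by
          apply lintegral_congr
          intro x
          have hgn := isoplane_gradN_nonneg h x
          simp only [hu]
          rw [ENNReal.ofReal_add (h0 x) (by positivity), ENNReal.ofReal_mul e0.le,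
            ENNReal.ofReal_add hgn hκ.le]
      _ = (∫⁻ x in K, ENNReal.ofReal (h x)) + ENNReal.ofReal ε *
            ((∫⁻ x in K, ENNReal.ofReal (gradN h x)) + ENNReal.ofReal κ * volume K) := by
          rw [lintegral_add_left hc.continuous.measurable.ennreal_ofReal,
            lintegral_const_mul _ (hgc.measurable.ennreal_ofReal.add_const _),
            lintegral_add_left hgc.measurable.ennreal_ofReal, setLIntegral_const]
      _ ≤ _ := by
          gcongr
          · exact Measure.restrict_le_self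
          · exact Measure.restrict_le_self
  have hhfin : ∫⁻ x, ENNReal.ofReal (h x) ≠ ⊤ := by
    have hi : Integrable h := hc.continuous.integrable_of_hasCompactSupport hs
    exact (Integrable.lintegral_lt_top hi).ne
  have hint2 := (ENNReal.add_le_add_iff_left hhfin).1 hint
  have hε1 : ENNReal.ofReal ε ≠ 0 := by
    rw [Ne, ENNReal.ofReal_eq_zero]
    exact not_le.2 e0
  exact (ENNReal.mul_le_mul_iff_right hε1 ENNReal.ofReal_ne_top).1 hint2

/-- isoperimetric (coarea) inequality in the plane -/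
theorem iso_plane {h : (Fin 2 → ℝ) → ℝ} (hc : ContDiff ℝ 1 h) (hs : HasCompactSupport h)
    (h0 : ∀ x, 0 ≤ h x) (h1 : ∀ x, h x ≤ 1) :
    2 * Real.sqrt Real.pi * ∫ s in (0:ℝ)..1, Real.sqrt (volume {x | s < h x}).toReal ≤
      ∫ x, gradN h x := by
  have hgc := isoplane_gradN_cont hc
  have hgi : Integrable (gradN h) := hgc.integrable_of_hasCompactSupport (isoplane_gradN_supp hs)
  have hGfin : ∫⁻ x, ENNReal.ofReal (gradN h x) ≠ ⊤ := (Integrable.lintegral_lt_top hgi).ne
  have hKc : IsCompact (tsupport h + disc 1) := IsCompact.add hs (isoplane_disc_compact 1)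
  have hKfin : volume (tsupport h + disc 1) ≠ ⊤ := hKc.measure_lt_top.ne
  have hle : ENNReal.ofReal (2 * Real.sqrt Real.pi) *
        ∫⁻ s in Ioc (0:ℝ) 1, ENNReal.ofReal (Real.sqrt (volume {x | s < h x}).toReal) ≤
      ∫⁻ x, ENNReal.ofReal (gradN h x) := by
    apply ENNReal.le_of_forall_pos_le_add
    intro δ hδ _
    have hV : (0 : ℝ) ≤ (volume (tsupport h + disc 1)).toReal := ENNReal.toReal_nonneg
    have hκ : (0 : ℝ) < δ / ((volume (tsupport h + disc 1)).toReal + 1) := by
      have : (0 : ℝ) < δ := by exact_mod_cast hδ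
      positivity
    refine (isoplane_main hc hs h0 h1 hκ).trans ?_
    gcongr
    have e : volume (tsupport h + disc 1)
        = ENNReal.ofReal (volume (tsupport h + disc 1)).toReal := (ENNReal.ofReal_toReal hKfin).symm
    generalize (volume (tsupport h + disc 1)).toReal = V at e hV hκ ⊢
    rw [e, ← ENNReal.ofReal_mul hκ.le, ← ENNReal.ofReal_coe_nnreal]
    apply ENNReal.ofReal_le_ofReal
    rw [div_mul_eq_mul_div, div_le_iff₀ (by positivity)]
    have : (0 : ℝ) ≤ δ := δ.2
    nlinarith
  have hL : ∫ s in (0:ℝ)..1, Real.sqrt (volume {x | s < h x}).toReal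
      = (∫⁻ s in Ioc (0:ℝ) 1, ENNReal.ofReal (Real.sqrt (volume {x | s < h x}).toReal)).toReal := by
    rw [intervalIntegral.integral_of_le zero_le_one]
    apply integral_eq_lintegral_of_nonneg_ae
    · exact Filter.Eventually.of_forall fun s => Real.sqrt_nonneg _
    · exact ((isoplane_meas h).ennreal_toReal.sqrt).aestronglyMeasurable
  have hR : ∫ x, gradN h x = (∫⁻ x, ENNReal.ofReal (gradN h x)).toReal :=
    integral_eq_lintegral_of_nonneg_ae
      (Filter.Eventually.of_forall (isoplane_gradN_nonneg h)) hgc.aestronglyMeasurable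
  rw [hL, hR, ← ENNReal.toReal_ofReal (by positivity : (0 : ℝ) ≤ 2 * Real.sqrt Real.pi),
    ← ENNReal.toReal_mul]
  exact ENNReal.toReal_mono hGfin hle

end Vale.Agent.P232
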