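import Vale.Agent.P232.Shift
import Vale.Agent.P232.IsoPlane

/-! # P232, module B1: cutting the torus along two lines (helper36) -/

open MeasureTheory Set

namespace Vale.Agent.P232

/-- smooth cutoff of the unit interval -/
noncomputable def B1_chi (δ x : ℝ) : ℝ :=
  Real.smoothTransition (x / δ) * Real.smoothTransition ((1 - x) / δ)

/-- bound for the derivative of the cutoff -/
noncomputable def B1_p (δ x : ℝ) : ℝ :=
  deriv Real.smoothTransition (x / δ) / δ + deriv Real.smoothTransition ((1 - x) / δ) / δ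

theorem B1_contDiff_st : ContDiff ℝ 1 Real.smoothTransition :=
  Real.smoothTransition.contDiff

theorem B1_chi_contDiff (δ : ℝ) : ContDiff ℝ 1 (B1_chi δ) := by
  unfold B1_chi
  exact (B1_contDiff_st.comp (contDiff_id.div_const δ)).mul
    (B1_contDiff_st.comp ((contDiff_const.sub contDiff_id).div_const δ))

theorem B1_chi_nonneg (δ x : ℝ) : 0 ≤ B1_chi δ x :=
  mul_nonneg (Real.smoothTransition.nonneg _) (Real.smoothTransition.nonneg _)

theorem B1_chi_le_one (δ x : ℝ) : B1_chi δ x ≤ 1 :=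
  mul_le_one₀ (Real.smoothTransition.le_one _) (Real.smoothTransition.nonneg _)
    (Real.smoothTransition.le_one _)

theorem B1_chi_zero {δ x : ℝ} (hδ : 0 < δ) (hx : ¬ (0 < x ∧ x < 1)) : B1_chi δ x = 0 := by
  unfold B1_chi
  rcases le_or_gt x 0 with h | h
  · rw [Real.smoothTransition.zero_of_nonpos (div_nonpos_of_nonpos_of_nonneg h hδ.le), zero_mul]
  · have h1 : 1 ≤ x := not_lt.1 fun h2 => hx ⟨h, h2⟩
    rw [Real.smoothTransition.zero_of_nonpos
      (div_nonpos_of_nonpos_of_nonneg (sub_nonpos.2 h1) hδ.le), mul_zero]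

theorem B1_chi_one {δ x : ℝ} (hδ : 0 < δ) (h1 : δ ≤ x) (h2 : x ≤ 1 - δ) : B1_chi δ x = 1 := by
  unfold B1_chi
  rw [Real.smoothTransition.one_of_one_le ((one_le_div hδ).2 h1),
    Real.smoothTransition.one_of_one_le ((one_le_div hδ).2 (by linarith)), mul_one]

theorem B1_deriv_nonneg (x : ℝ) : 0 ≤ deriv Real.smoothTransition x :=
  Real.smoothTransition.monotone.deriv_nonneg

theorem B1_hasDeriv (x : ℝ) : HasDerivAt Real.smoothTransition (deriv Real.smoothTransition x) x :=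
  ((B1_contDiff_st.differentiable one_ne_zero) x).hasDerivAt

theorem B1_hd1 (δ x : ℝ) : HasDerivAt (fun x => Real.smoothTransition (x / δ))
    (deriv Real.smoothTransition (x / δ) / δ) x := by
  have h1 : HasDerivAt (fun x : ℝ => x / δ) (1 / δ) x := (hasDerivAt_id x).div_const δ
  have h2 := (B1_hasDeriv (x / δ)).comp x h1
  rw [mul_one_div] at h2
  exact h2

theorem B1_hd2 (δ x : ℝ) : HasDerivAt (fun x => Real.smoothTransition ((1 - x) / δ))
    (-(deriv Real.smoothTransition ((1 - x) / δ) / δ)) x := by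
  have h1 : HasDerivAt (fun x : ℝ => (1 - x) / δ) (-1 / δ) x :=
    ((hasDerivAt_id x).const_sub 1).div_const δ
  have h2 := (B1_hasDeriv ((1 - x) / δ)).comp x h1
  have e : deriv Real.smoothTransition ((1 - x) / δ) * (-1 / δ)
      = -(deriv Real.smoothTransition ((1 - x) / δ) / δ) := by ring
  rw [e] at h2
  exact h2

theorem B1_chi_deriv_le {δ : ℝ} (hδ : 0 < δ) (x : ℝ) : |deriv (B1_chi δ) x| ≤ B1_p δ x := by
  have h := (B1_hd1 δ x).mul (B1_hd2 δ x)
  have h' : deriv (B1_chi δ) x = deriv Real.smoothTransition (x / δ) / δ *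
      Real.smoothTransition ((1 - x) / δ) + Real.smoothTransition (x / δ) *
      -(deriv Real.smoothTransition ((1 - x) / δ) / δ) := h.deriv
  rw [h']
  have a1 : 0 ≤ deriv Real.smoothTransition (x / δ) / δ := div_nonneg (B1_deriv_nonneg _) hδ.le
  have a2 : 0 ≤ deriv Real.smoothTransition ((1 - x) / δ) / δ :=
    div_nonneg (B1_deriv_nonneg _) hδ.le
  have b1 := Real.smoothTransition.nonneg ((1 - x) / δ)
  have b2 := Real.smoothTransition.le_one ((1 - x) / δ)
  have b3 := Real.smoothTransition.nonneg (x / δ)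
  have b4 := Real.smoothTransition.le_one (x / δ)
  unfold B1_p
  rw [abs_le]
  constructor <;> nlinarith [mul_nonneg a1 b1, mul_nonneg a2 b3, mul_le_mul_of_nonneg_left b2 a1,
    mul_le_mul_of_nonneg_left b4 a2]

theorem B1_p_nonneg {δ : ℝ} (hδ : 0 < δ) (x : ℝ) : 0 ≤ B1_p δ x :=
  add_nonneg (div_nonneg (B1_deriv_nonneg _) hδ.le) (div_nonneg (B1_deriv_nonneg _) hδ.le)

theorem B1_p_cont (δ : ℝ) : Continuous (B1_p δ) := by
  have h : Continuous (deriv Real.smoothTransition) :=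
    B1_contDiff_st.continuous_deriv le_rfl
  unfold B1_p
  fun_prop

theorem B1_p_int {δ : ℝ} (hδ : 0 < δ) (hδ1 : δ ≤ 1) : ∫ x in (0 : ℝ)..1, B1_p δ x = 2 := by
  have h : ∀ x ∈ Set.uIcc (0 : ℝ) 1, HasDerivAt
      (fun x => Real.smoothTransition (x / δ) - Real.smoothTransition ((1 - x) / δ))
      (B1_p δ x) x := by
    intro x _
    have := (B1_hd1 δ x).sub (B1_hd2 δ x)
    rw [sub_neg_eq_add] at this
    exact this
  rw [intervalIntegral.integral_eq_sub_of_hasDerivAt h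
    ((B1_p_cont δ).intervalIntegrable _ _)]
  rw [Real.smoothTransition.one_of_one_le ((one_le_div hδ).2 hδ1), sub_self, zero_div, sub_zero,
    Real.smoothTransition.zero, Real.smoothTransition.one_of_one_le ((one_le_div hδ).2 hδ1)]
  norm_num

theorem B1_p_supp {δ x : ℝ} (hδ : 0 < δ) (h1 : δ < x) (h2 : x < 1 - δ) : B1_p δ x = 0 := by
  have key : ∀ u : ℝ, 1 < u → deriv Real.smoothTransition u = 0 := by
    intro u hu
    have : Real.smoothTransition =ᶠ[nhds u] fun _ => 1 := by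
      filter_upwards [lt_mem_nhds hu] with v hv
      exact Real.smoothTransition.one_of_one_le hv.le
    rw [this.deriv_eq]
    simp
  unfold B1_p
  rw [key _ ((one_lt_div hδ).2 h1), key _ ((one_lt_div hδ).2 (by linarith))]
  simp


theorem B1_cell_subset (n : ℕ) : cell n ⊆ Set.Icc (0 : Fin n → ℝ) 1 := by
  intro x hx
  rw [cell, Set.mem_univ_pi] at hx
  exact ⟨fun i => (hx i).1, fun i => (hx i).2.le⟩

theorem B1_cell_meas (n : ℕ) : MeasurableSet (cell n) :=
  MeasurableSet.univ_pi fun _ => measurableSet_Ico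

theorem B1_cell_vol (n : ℕ) : volume (cell n) = 1 := by
  rw [cell, volume_pi_pi]
  simp

theorem B1_intOn {n : ℕ} {F : (Fin n → ℝ) → ℝ} (hF : Continuous F) : IntegrableOn F (cell n) :=
  (hF.continuousOn.integrableOn_compact isCompact_Icc).mono_set (B1_cell_subset n)

theorem B1_cell_prod (u v : ℝ → ℝ) :
    ∫ x in cell 2, u (x 0) * v (x 1) = (∫ s in (0:ℝ)..1, u s) * ∫ s in (0:ℝ)..1, v s := by
  have h := (volume_preserving_finTwoArrow ℝ).setIntegral_preimage_emb
    (MeasurableEquiv.finTwoArrow (α := ℝ)).measurableEmbedding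
    (fun z : ℝ × ℝ => u z.1 * v z.2) (Set.Ico 0 1 ×ˢ Set.Ico 0 1)
  have e : (MeasurableEquiv.finTwoArrow (α := ℝ)) ⁻¹' (Set.Ico 0 1 ×ˢ Set.Ico 0 1) = cell 2 := by
    ext x
    simp [cell, MeasurableEquiv.finTwoArrow, Fin.forall_fin_two]
  rw [e] at h
  have e2 : ∀ x : Fin 2 → ℝ, MeasurableEquiv.finTwoArrow x = (x 0, x 1) := fun x => rfl
  simp only [e2] at h
  rw [h, Measure.volume_eq_prod, setIntegral_prod_mul, intervalIntegral.integral_of_le zero_le_one,
    intervalIntegral.integral_of_le zero_le_one, integral_Ico_eq_integral_Ioc,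
    integral_Ico_eq_integral_Ioc]

theorem B1_gradN_cont {n : ℕ} {f : (Fin n → ℝ) → ℝ} (hf : ContDiff ℝ 1 f) :
    Continuous (gradN f) := by
  unfold gradN
  refine Real.continuous_sqrt.comp (continuous_finsetSum _ fun i _ => ?_)
  exact ((hf.continuous_fderiv one_ne_zero).clm_apply continuous_const).pow 2

theorem B1_sqrt_aux (a0 a1 b0 b1 : ℝ) :
    Real.sqrt ((a0 + b0) ^ 2 + (a1 + b1) ^ 2) ≤ Real.sqrt (a0 ^ 2 + a1 ^ 2) + |b0| + |b1| := by
  have hS : 0 ≤ Real.sqrt (a0 ^ 2 + a1 ^ 2) := Real.sqrt_nonneg _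
  have hS2 : Real.sqrt (a0 ^ 2 + a1 ^ 2) ^ 2 = a0 ^ 2 + a1 ^ 2 := Real.sq_sqrt (by positivity)
  have h0 : |a0| ≤ Real.sqrt (a0 ^ 2 + a1 ^ 2) := Real.abs_le_sqrt (by nlinarith [sq_nonneg a1])
  have h1 : |a1| ≤ Real.sqrt (a0 ^ 2 + a1 ^ 2) := Real.abs_le_sqrt (by nlinarith [sq_nonneg a0])
  set S := Real.sqrt (a0 ^ 2 + a1 ^ 2) with hSdef
  rw [Real.sqrt_le_left (by positivity)]
  have c0 : a0 * b0 ≤ S * |b0| := by
    calc a0 * b0 ≤ |a0 * b0| := le_abs_self _
      _ = |a0| * |b0| := abs_mul _ _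
      _ ≤ _ := mul_le_mul_of_nonneg_right h0 (abs_nonneg _)
  have c1 : a1 * b1 ≤ S * |b1| := by
    calc a1 * b1 ≤ |a1 * b1| := le_abs_self _
      _ = |a1| * |b1| := abs_mul _ _
      _ ≤ _ := mul_le_mul_of_nonneg_right h1 (abs_nonneg _)
  nlinarith [sq_abs b0, sq_abs b1, mul_nonneg (abs_nonneg b0) (abs_nonneg b1)]

/-- the cut function -/
noncomputable def B1_h (g : (Fin 2 → ℝ) → ℝ) (δ : ℝ) (x : Fin 2 → ℝ) : ℝ :=
  g x * (B1_chi δ (x 0) * B1_chi δ (x 1))

theorem B1_h_contDiff {g : (Fin 2 → ℝ) → ℝ} (hg : ContDiff ℝ 1 g) (δ : ℝ) :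
    ContDiff ℝ 1 (B1_h g δ) := by
  unfold B1_h
  exact hg.mul (((B1_chi_contDiff δ).comp (contDiff_apply ℝ ℝ 0)).mul
    ((B1_chi_contDiff δ).comp (contDiff_apply ℝ ℝ 1)))

theorem B1_h_nonneg {g : (Fin 2 → ℝ) → ℝ} (hg : ∀ x, 0 ≤ g x) (δ : ℝ) (x : Fin 2 → ℝ) :
    0 ≤ B1_h g δ x :=
  mul_nonneg (hg x) (mul_nonneg (B1_chi_nonneg _ _) (B1_chi_nonneg _ _))

theorem B1_h_le {g : (Fin 2 → ℝ) → ℝ} (hg1 : ∀ x, g x ≤ 1) (δ : ℝ)
    (x : Fin 2 → ℝ) : B1_h g δ x ≤ 1 :=
  mul_le_one₀ (hg1 x) (mul_nonneg (B1_chi_nonneg _ _) (B1_chi_nonneg _ _))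
    (mul_le_one₀ (B1_chi_le_one _ _) (B1_chi_nonneg _ _) (B1_chi_le_one _ _))

theorem B1_h_zero (g : (Fin 2 → ℝ) → ℝ) {δ : ℝ} (hδ : 0 < δ) (x : Fin 2 → ℝ)
    (hx : x ∉ cell 2) : B1_h g δ x = 0 := by
  have h1 : ∃ i, x i ∉ Set.Ico (0 : ℝ) 1 := by
    by_contra hcon
    push Not at hcon
    exact hx (fun i _ => hcon i)
  obtain ⟨i, hi⟩ := h1
  have h2 : B1_chi δ (x i) = 0 := B1_chi_zero hδ fun h3 => hi ⟨h3.1.le, h3.2⟩
  unfold B1_h
  fin_cases i
  · have h3 : B1_chi δ (x 0) = 0 := h2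
    rw [h3, zero_mul, mul_zero]
  · have h3 : B1_chi δ (x 1) = 0 := h2
    rw [h3, mul_zero, mul_zero]

theorem B1_grad_zero {g : (Fin 2 → ℝ) → ℝ} (hg0 : ∀ x, 0 ≤ g x) {δ : ℝ} (hδ : 0 < δ)
    (x : Fin 2 → ℝ) (hx : x ∉ cell 2) : gradN (B1_h g δ) x = 0 := by
  have h1 : IsLocalMin (B1_h g δ) x :=
    Filter.Eventually.of_forall fun y => by
      rw [B1_h_zero g hδ x hx]
      exact B1_h_nonneg hg0 δ y
  unfold gradN
  rw [h1.fderiv_eq_zero]
  simp

theorem B1_grad_le {g : (Fin 2 → ℝ) → ℝ} (hg : ContDiff ℝ 1 g) (hg0 : ∀ x, 0 ≤ g x) {δ : ℝ}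
    (hδ : 0 < δ) (x : Fin 2 → ℝ) :
    gradN (B1_h g δ) x ≤ gradN g x + g x * B1_p δ (x 0) + g x * B1_p δ (x 1) := by
  have hgd : HasFDerivAt g (fderiv ℝ g x) x := (hg.differentiable one_ne_zero x).hasFDerivAt
  have hc : ∀ i : Fin 2, HasFDerivAt (fun y : Fin 2 → ℝ => B1_chi δ (y i))
      (deriv (B1_chi δ) (x i) • (ContinuousLinearMap.proj i : (Fin 2 → ℝ) →L[ℝ] ℝ)) x := by
    intro i
    exact (((B1_chi_contDiff δ).differentiable one_ne_zero (x i)).hasDerivAt).comp_hasFDerivAt x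
      (ContinuousLinearMap.proj i : (Fin 2 → ℝ) →L[ℝ] ℝ).hasFDerivAt
  have hh := hgd.mul ((hc 0).mul (hc 1))
  have hfd : fderiv ℝ (B1_h g δ) x = _ := hh.fderiv
  have c0 := B1_chi_nonneg δ (x 0)
  have c1 := B1_chi_nonneg δ (x 1)
  have d0 := B1_chi_le_one δ (x 0)
  have d1 := B1_chi_le_one δ (x 1)
  have hc01 : B1_chi δ (x 0) * B1_chi δ (x 1) ≤ 1 := mul_le_one₀ d0 c1 d1
  have hc00 : 0 ≤ B1_chi δ (x 0) * B1_chi δ (x 1) := mul_nonneg c0 c1
  set a0 := (B1_chi δ (x 0) * B1_chi δ (x 1)) * fderiv ℝ g x (Pi.single 0 1) with ha0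
  set a1 := (B1_chi δ (x 0) * B1_chi δ (x 1)) * fderiv ℝ g x (Pi.single 1 1) with ha1
  set b0 := g x * (B1_chi δ (x 1) * deriv (B1_chi δ) (x 0)) with hb0
  set b1 := g x * (B1_chi δ (x 0) * deriv (B1_chi δ) (x 1)) with hb1
  have e0 : fderiv ℝ (B1_h g δ) x (Pi.single 0 1) = a0 + b0 := by
    rw [hfd, ha0, hb0]
    simp
    ring
  have e1 : fderiv ℝ (B1_h g δ) x (Pi.single 1 1) = a1 + b1 := by
    rw [hfd, ha1, hb1]
    simp
    ring
  have h1 : gradN (B1_h g δ) x = Real.sqrt ((a0 + b0) ^ 2 + (a1 + b1) ^ 2) := by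
    unfold gradN
    rw [Fin.sum_univ_two, e0, e1]
  have h2 : Real.sqrt (a0 ^ 2 + a1 ^ 2) ≤ gradN g x := by
    unfold gradN
    rw [Fin.sum_univ_two]
    refine Real.sqrt_le_sqrt ?_
    rw [ha0, ha1, mul_pow (B1_chi δ (x 0) * B1_chi δ (x 1)),
      mul_pow (B1_chi δ (x 0) * B1_chi δ (x 1)), ← mul_add]
    have h3 : (B1_chi δ (x 0) * B1_chi δ (x 1)) ^ 2 ≤ 1 := pow_le_one₀ hc00 hc01
    nlinarith [sq_nonneg (fderiv ℝ g x (Pi.single 0 1)), sq_nonneg (fderiv ℝ g x (Pi.single 1 1))]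
  have h3 : |b0| ≤ g x * B1_p δ (x 0) := by
    rw [hb0, abs_mul, abs_of_nonneg (hg0 x), abs_mul, abs_of_nonneg c1]
    refine mul_le_mul_of_nonneg_left ?_ (hg0 x)
    calc B1_chi δ (x 1) * |deriv (B1_chi δ) (x 0)| ≤ 1 * B1_p δ (x 0) :=
          mul_le_mul d1 (B1_chi_deriv_le hδ _) (abs_nonneg _) zero_le_one
      _ = _ := one_mul _
  have h4 : |b1| ≤ g x * B1_p δ (x 1) := by
    rw [hb1, abs_mul, abs_of_nonneg (hg0 x), abs_mul, abs_of_nonneg c0]
    refine mul_le_mul_of_nonneg_left ?_ (hg0 x)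
    calc B1_chi δ (x 0) * |deriv (B1_chi δ) (x 1)| ≤ 1 * B1_p δ (x 1) :=
          mul_le_mul d0 (B1_chi_deriv_le hδ _) (abs_nonneg _) zero_le_one
      _ = _ := one_mul _
  rw [h1]
  have h5 := B1_sqrt_aux a0 a1 b0 b1
  linarith

theorem B1_h_supp (g : (Fin 2 → ℝ) → ℝ) {δ : ℝ} (hδ : 0 < δ) : HasCompactSupport (B1_h g δ) :=
  HasCompactSupport.intro (isCompact_Icc (a := (0 : Fin 2 → ℝ)) (b := 1)) fun x hx =>
    B1_h_zero g hδ x fun h => hx (B1_cell_subset 2 h)

/-- modulus of continuity near the two coordinate lines -/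
theorem B1_unif {g : (Fin 2 → ℝ) → ℝ} (hg : Nice g) {η : ℝ} (hη : 0 < η) :
    ∃ δ₀ > 0, ∀ δ, 0 < δ → δ < δ₀ → ∀ x ∈ cell 2,
      g x * B1_p δ (x 0) ≤ (g ![0, x 1] + η) * B1_p δ (x 0) ∧
      g x * B1_p δ (x 1) ≤ (g ![x 0, 0] + η) * B1_p δ (x 1) := by
  have huc := (isCompact_Icc (a := (fun _ => -1 : Fin 2 → ℝ)) (b := fun _ => 1)
    ).uniformContinuousOn_of_continuous hg.smooth.continuous.continuousOn
  rw [Metric.uniformContinuousOn_iff] at huc
  obtain ⟨d, hd, hd2⟩ := huc η hη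
  refine ⟨min d (1 / 2), lt_min hd (by norm_num), fun δ hδ hδd x hx => ?_⟩
  have hδ1 : δ < d := hδd.trans_le (min_le_left _ _)
  have hδ2 : δ < 1 / 2 := hδd.trans_le (min_le_right _ _)
  rw [cell, Set.mem_univ_pi] at hx
  have hx0 := hx 0
  have hx1 := hx 1
  -- comparison of `g` at two near points of the box
  have hcmp : ∀ a b : Fin 2 → ℝ, (∀ i, -1 ≤ a i) → (∀ i, a i ≤ 1) → (∀ i, -1 ≤ b i) →
      (∀ i, b i ≤ 1) → (∀ i, |a i - b i| ≤ δ) → g a ≤ g b + η := by
    intro a b ha ha' hb hb' hab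
    have h1 : dist a b < d := by
      refine lt_of_le_of_lt ?_ hδ1
      rw [dist_pi_le_iff hδ.le]
      intro i
      rw [Real.dist_eq]
      exact hab i
    have h2 := hd2 a ⟨ha, ha'⟩ b ⟨hb, hb'⟩ h1
    rw [Real.dist_eq] at h2
    linarith [(abs_lt.1 h2).2]
  have hper0 : ∀ a b : ℝ, g ![a - 1, b] = g ![a, b] := by
    intro a b
    have := hg.per ![a - 1, b] ![1, 0]
    rw [← this]
    congr 1
    ext i
    fin_cases i <;> simp
  have hper1 : ∀ a b : ℝ, g ![a, b - 1] = g ![a, b] := by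
    intro a b
    have := hg.per ![a, b - 1] ![0, 1]
    rw [← this]
    congr 1
    ext i
    fin_cases i <;> simp
  have hxe : x = ![x 0, x 1] := by
    ext i
    fin_cases i <;> rfl
  constructor
  · by_cases hs : δ < x 0 ∧ x 0 < 1 - δ
    · rw [B1_p_supp hδ hs.1 hs.2, mul_zero, mul_zero]
    · refine mul_le_mul_of_nonneg_right ?_ (B1_p_nonneg hδ _)
      rcases le_or_gt (x 0) δ with h | h
      · refine hcmp _ _ ?_ ?_ ?_ ?_ ?_
        · intro i; linarith [(hx i).1]
        · intro i; exact (hx i).2.le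
        · intro i; fin_cases i <;> simp; linarith [hx1.1]
        · intro i; fin_cases i <;> simp; exact hx1.2.le
        · intro i
          fin_cases i
          · simpa [abs_of_nonneg hx0.1] using h
          · simpa using hδ.le
      · have h' : 1 - δ ≤ x 0 := not_lt.1 fun h3 => hs ⟨h, h3⟩
        have h4 : g x = g ![x 0 - 1, x 1] := by
          rw [hper0, ← hxe]
        rw [h4]
        refine hcmp _ _ ?_ ?_ ?_ ?_ ?_
        · intro i; fin_cases i
          · simpa using hx0.1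
          · show -1 ≤ x 1
            linarith [hx1.1]
        · intro i; fin_cases i
          · show x 0 - 1 ≤ 1
            linarith [hx0.2]
          · exact hx1.2.le
        · intro i; fin_cases i <;> simp; linarith [hx1.1]
        · intro i; fin_cases i <;> simp; exact hx1.2.le
        · intro i
          fin_cases i
          · show |x 0 - 1 - 0| ≤ δ
            rw [abs_le]
            constructor <;> linarith [hx0.2]
          · simpa using hδ.le
  · by_cases hs : δ < x 1 ∧ x 1 < 1 - δ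
    · rw [B1_p_supp hδ hs.1 hs.2, mul_zero, mul_zero]
    · refine mul_le_mul_of_nonneg_right ?_ (B1_p_nonneg hδ _)
      rcases le_or_gt (x 1) δ with h | h
      · refine hcmp _ _ ?_ ?_ ?_ ?_ ?_
        · intro i; linarith [(hx i).1]
        · intro i; exact (hx i).2.le
        · intro i; fin_cases i <;> simp; linarith [hx0.1]
        · intro i; fin_cases i <;> simp; exact hx0.2.le
        · intro i
          fin_cases i
          · simpa using hδ.le
          · simpa [abs_of_nonneg hx1.1] using h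
      · have h' : 1 - δ ≤ x 1 := not_lt.1 fun h3 => hs ⟨h, h3⟩
        have h4 : g x = g ![x 0, x 1 - 1] := by
          rw [hper1, ← hxe]
        rw [h4]
        refine hcmp _ _ ?_ ?_ ?_ ?_ ?_
        · intro i; fin_cases i
          · show -1 ≤ x 0
            linarith [hx0.1]
          · simpa using hx1.1
        · intro i; fin_cases i
          · exact hx0.2.le
          · show x 1 - 1 ≤ 1
            linarith [hx1.2]
        · intro i; fin_cases i <;> simp; linarith [hx0.1]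
        · intro i; fin_cases i <;> simp; exact hx0.2.le
        · intro i
          fin_cases i
          · simpa using hδ.le
          · show |x 1 - 1 - 0| ≤ δ
            rw [abs_le]
            constructor <;> linarith [hx1.2]

/-- integral of the gradient of the cut function -/
theorem B1_int_le {g : (Fin 2 → ℝ) → ℝ} (hg : Nice g) {η δ : ℝ} (hδ : 0 < δ) (hδ1 : δ ≤ 1)
    (hb : ∀ x ∈ cell 2,
      g x * B1_p δ (x 0) ≤ (g ![0, x 1] + η) * B1_p δ (x 0) ∧
      g x * B1_p δ (x 1) ≤ (g ![x 0, 0] + η) * B1_p δ (x 1)) :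
    ∫ x, gradN (B1_h g δ) x ≤ 2 * hTV g + 2 * ((∫ y in (0:ℝ)..1, g ![0, y]) + η) +
      2 * ((∫ x in (0:ℝ)..1, g ![x, 0]) + η) := by
  rw [← setIntegral_eq_integral_of_forall_compl_eq_zero (s := cell 2)
    (fun x hx => B1_grad_zero hg.nonneg hδ x hx)]
  have hgc := hg.smooth.continuous
  have hpc := B1_p_cont δ
  have hc0 : Continuous fun y : ℝ => g ![0, y] + η := by
    have : Continuous fun y : ℝ => (![0, y] : Fin 2 → ℝ) := by
      refine continuous_pi fun i => ?_
      fin_cases i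
      · exact continuous_const
      · exact continuous_id
    exact (hgc.comp this).add continuous_const
  have hc1 : Continuous fun y : ℝ => g ![y, 0] + η := by
    have : Continuous fun y : ℝ => (![y, 0] : Fin 2 → ℝ) := by
      refine continuous_pi fun i => ?_
      fin_cases i
      · exact continuous_id
      · exact continuous_const
    exact (hgc.comp this).add continuous_const
  have i0 : IntegrableOn (gradN g) (cell 2) := B1_intOn (B1_gradN_cont hg.smooth)
  have i1 : IntegrableOn (fun x : Fin 2 → ℝ => B1_p δ (x 0) * (g ![0, x 1] + η)) (cell 2) :=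
    B1_intOn ((hpc.comp (continuous_apply 0)).mul (hc0.comp (continuous_apply 1)))
  have i2 : IntegrableOn (fun x : Fin 2 → ℝ => (g ![x 0, 0] + η) * B1_p δ (x 1)) (cell 2) :=
    B1_intOn ((hc1.comp (continuous_apply 0)).mul (hpc.comp (continuous_apply 1)))
  have h1 : ∫ x in cell 2, gradN (B1_h g δ) x ≤
      ∫ x in cell 2, (gradN g x + B1_p δ (x 0) * (g ![0, x 1] + η)
        + (g ![x 0, 0] + η) * B1_p δ (x 1)) := by
    refine setIntegral_mono_on (B1_intOn (B1_gradN_cont (B1_h_contDiff hg.smooth δ)))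
      ((i0.add i1).add i2) (B1_cell_meas 2) fun x hx => ?_
    have h2 := B1_grad_le hg.smooth hg.nonneg hδ x
    have h3 := hb x hx
    rw [mul_comm (B1_p δ (x 0))]
    linarith [h3.1, h3.2]
  have e1 := B1_cell_prod (B1_p δ) (fun y => g ![0, y] + η)
  have e2 := B1_cell_prod (fun y => g ![y, 0] + η) (B1_p δ)
  have i01 : IntegrableOn (fun x : Fin 2 → ℝ => gradN g x + B1_p δ (x 0) * (g ![0, x 1] + η))
      (cell 2) := i0.add i1
  rw [integral_add i01 i2, integral_add i0 i1, e1, e2, B1_p_int hδ hδ1] at h1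
  have hi0 : IntervalIntegrable (fun y : ℝ => g ![0, y]) volume 0 1 := by
    have h := (hc0.sub (continuous_const (y := η))).intervalIntegrable (μ := volume) 0 1
    have e : ((fun y : ℝ => g ![0, y] + η) - fun _ => η) = fun y : ℝ => g ![0, y] := by
      funext y
      simp
    rwa [e] at h
  have hi1 : IntervalIntegrable (fun y : ℝ => g ![y, 0]) volume 0 1 := by
    have h := (hc1.sub (continuous_const (y := η))).intervalIntegrable (μ := volume) 0 1
    have e : ((fun y : ℝ => g ![y, 0] + η) - fun _ => η) = fun y : ℝ => g ![y, 0] := by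
      funext y
      simp
    rwa [e] at h
  have f1 : ∫ y in (0:ℝ)..1, (g ![0, y] + η) = (∫ y in (0:ℝ)..1, g ![0, y]) + η := by
    rw [intervalIntegral.integral_add hi0 intervalIntegrable_const]
    simp
  have f2 : ∫ y in (0:ℝ)..1, (g ![y, 0] + η) = (∫ y in (0:ℝ)..1, g ![y, 0]) + η := by
    rw [intervalIntegral.integral_add hi1 intervalIntegrable_const]
    simp
  rw [f1, f2] at h1
  unfold hTV
  linarith

theorem B1_lev_fin (g : (Fin 2 → ℝ) → ℝ) (s : ℝ) : volume ({x | s < g x} ∩ cell 2) ≠ ⊤ :=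
  measure_ne_top_of_subset Set.inter_subset_right (by rw [B1_cell_vol]; exact ENNReal.one_ne_top)

theorem B1_h_fin (g : (Fin 2 → ℝ) → ℝ) {δ : ℝ} (hδ : 0 < δ) {s : ℝ} (hs : 0 ≤ s) :
    volume {x | s < B1_h g δ x} ≠ ⊤ := by
  refine measure_ne_top_of_subset (s := cell 2) (fun x hx => ?_)
    (by rw [B1_cell_vol]; exact ENNReal.one_ne_top)
  by_contra hcon
  have h1 : s < B1_h g δ x := hx
  rw [B1_h_zero g hδ x hcon] at h1
  exact absurd h1 (not_lt.2 hs)

theorem B1_lev_le (g : (Fin 2 → ℝ) → ℝ) {δ : ℝ} (hδ : 0 < δ) (hδ1 : δ < 1 / 2) {s : ℝ}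
    (hs : 0 ≤ s) : lev g s ≤ (volume {x | s < B1_h g δ x}).toReal + 4 * δ := by
  set Q : Set (Fin 2 → ℝ) := Set.pi Set.univ fun _ => Set.Icc δ (1 - δ) with hQ
  have hQm : MeasurableSet Q := MeasurableSet.univ_pi fun _ => measurableSet_Icc
  have hQc : Q ⊆ cell 2 := by
    intro x hx
    rw [hQ, Set.mem_univ_pi] at hx
    rw [cell, Set.mem_univ_pi]
    intro i
    exact ⟨hδ.le.trans (hx i).1, lt_of_le_of_lt (hx i).2 (by linarith)⟩
  have hQv : volume Q = ENNReal.ofReal ((1 - 2 * δ) ^ 2) := by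
    rw [hQ, volume_pi_pi]
    simp only [Real.volume_Icc, Finset.prod_const, Finset.card_univ, Fintype.card_fin]
    rw [← ENNReal.ofReal_pow (by linarith)]
    congr 2
    ring
  have hsub : {x | s < g x} ∩ cell 2 ⊆ {x | s < B1_h g δ x} ∪ (cell 2 \ Q) := by
    rintro x ⟨hx1, hx2⟩
    by_cases hxQ : x ∈ Q
    · left
      have hxQ' := hxQ
      rw [hQ, Set.mem_univ_pi] at hxQ'
      have h0 := hxQ' 0
      have h1 := hxQ' 1
      show s < B1_h g δ x
      unfold B1_h
      rw [B1_chi_one hδ h0.1 h0.2, B1_chi_one hδ h1.1 h1.2, mul_one, mul_one]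
      exact hx1
    · exact Or.inr ⟨hx2, hxQ⟩
  have hdiff : volume (cell 2 \ Q) = ENNReal.ofReal (1 - (1 - 2 * δ) ^ 2) := by
    rw [measure_sdiff hQc hQm.nullMeasurableSet (by rw [hQv]; exact ENNReal.ofReal_ne_top),
      B1_cell_vol, hQv, ENNReal.ofReal_sub _ (sq_nonneg _), ENNReal.ofReal_one]
  have h1 : volume ({x | s < g x} ∩ cell 2) ≤
      volume {x | s < B1_h g δ x} + ENNReal.ofReal (1 - (1 - 2 * δ) ^ 2) := by
    rw [← hdiff]
    exact (measure_mono hsub).trans (measure_union_le _ _)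
  unfold lev
  have h2 := ENNReal.toReal_mono
    (ENNReal.add_ne_top.2 ⟨B1_h_fin g hδ hs, ENNReal.ofReal_ne_top⟩) h1
  rw [ENNReal.toReal_add (B1_h_fin g hδ hs) ENNReal.ofReal_ne_top,
    ENNReal.toReal_ofReal (by nlinarith)] at h2
  nlinarith [sq_nonneg δ]

theorem B1_zero {g : (Fin 2 → ℝ) → ℝ} (hg : Nice g) :
    Real.sqrt Real.pi * ∫ s in (0:ℝ)..1, Real.sqrt (lev g s) ≤
      hTV g + (∫ y in (0:ℝ)..1, g ![0, y]) + ∫ x in (0:ℝ)..1, g ![x, 0] := by
  refine le_of_forall_pos_le_add fun ε hε => ?_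
  obtain ⟨δ₀, hδ₀, hun⟩ := B1_unif hg (η := ε / 4) (by positivity)
  obtain ⟨δ, hδ, hδlt⟩ := exists_between (lt_min hδ₀ (lt_min (by norm_num : (0 : ℝ) < 1 / 2)
    (by positivity : (0 : ℝ) < (ε / 8) ^ 2)))
  have hd1 : δ < δ₀ := hδlt.trans_le (min_le_left _ _)
  have hd2 : δ < 1 / 2 := hδlt.trans_le ((min_le_right _ _).trans (min_le_left _ _))
  have hd3 : δ < (ε / 8) ^ 2 := hδlt.trans_le ((min_le_right _ _).trans (min_le_right _ _))
  have hint := B1_int_le hg (η := ε / 4) hδ (by linarith) (hun δ hδ hd1)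
  have hiso := iso_plane (B1_h_contDiff hg.smooth δ) (B1_h_supp g hδ) (B1_h_nonneg hg.nonneg δ)
    (B1_h_le hg.le_one δ)
  have hanti1 : AntitoneOn (fun s => Real.sqrt (lev g s)) (Set.uIcc 0 1) := by
    intro a _ b _ hab
    refine Real.sqrt_le_sqrt ?_
    exact ENNReal.toReal_mono (B1_lev_fin g a)
      (measure_mono (Set.inter_subset_inter_left _ fun x (hx : b < g x) => lt_of_le_of_lt hab hx))
  have hanti2 : AntitoneOn (fun s => Real.sqrt (volume {x | s < B1_h g δ x}).toReal)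
      (Set.uIcc 0 1) := by
    intro a ha b _ hab
    rw [Set.uIcc_of_le zero_le_one] at ha
    refine Real.sqrt_le_sqrt ?_
    exact ENNReal.toReal_mono (B1_h_fin g hδ ha.1)
      (measure_mono fun x (hx : b < B1_h g δ x) => lt_of_le_of_lt hab hx)
  have hsd : Real.sqrt δ ≤ ε / 8 := by
    rw [Real.sqrt_le_left (by positivity)]
    exact hd3.le
  have hmono : ∫ s in (0:ℝ)..1, Real.sqrt (lev g s) ≤
      ∫ s in (0:ℝ)..1, (Real.sqrt (volume {x | s < B1_h g δ x}).toReal + 2 * Real.sqrt δ) := by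
    refine intervalIntegral.integral_mono_on zero_le_one hanti1.intervalIntegrable
      (hanti2.intervalIntegrable.add intervalIntegrable_const) fun s hs => ?_
    have h1 := B1_lev_le g hδ hd2 hs.1
    have h2 : 0 ≤ (volume {x | s < B1_h g δ x}).toReal := ENNReal.toReal_nonneg
    calc Real.sqrt (lev g s) ≤ Real.sqrt ((volume {x | s < B1_h g δ x}).toReal + 4 * δ) :=
          Real.sqrt_le_sqrt h1
      _ ≤ Real.sqrt (volume {x | s < B1_h g δ x}).toReal + 2 * Real.sqrt δ := by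
          rw [Real.sqrt_le_left (by positivity), add_sq, mul_pow, Real.sq_sqrt h2,
            Real.sq_sqrt hδ.le]
          have : 0 ≤ 2 * Real.sqrt (volume {x | s < B1_h g δ x}).toReal * (2 * Real.sqrt δ) := by
            positivity
          linarith
  rw [intervalIntegral.integral_add hanti2.intervalIntegrable intervalIntegrable_const,
    intervalIntegral.integral_const, sub_zero, one_smul] at hmono
  have hpi : Real.sqrt Real.pi ≤ 2 := by
    rw [Real.sqrt_le_left (by norm_num)]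
    linarith [Real.pi_lt_four]
  have hpi0 : 0 ≤ Real.sqrt Real.pi := Real.sqrt_nonneg _
  have h5 := mul_le_mul_of_nonneg_left hmono hpi0
  have h6 : Real.sqrt Real.pi * (2 * Real.sqrt δ) ≤ ε / 2 := by
    have := mul_le_mul hpi hsd (Real.sqrt_nonneg _) (by norm_num)
    linarith
  rw [mul_add] at h5
  linarith

theorem B1_lev_cont_meas {g : (Fin 2 → ℝ) → ℝ} (hg : Nice g) (s : ℝ) :
    MeasurableSet {x | s < g x} :=
  (isOpen_lt continuous_const hg.smooth.continuous).measurableSet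

theorem B1_gradN_shift {g : (Fin 2 → ℝ) → ℝ} (t x : Fin 2 → ℝ) :
    gradN (fun x => g (x + t)) x = gradN g (x + t) := by
  unfold gradN
  rw [fderiv_comp_add_right]

theorem B1_gradN_per {g : (Fin 2 → ℝ) → ℝ} (hg : IsPer g) : IsPer (gradN g) := by
  intro x k
  rw [← B1_gradN_shift]
  congr 1
  funext y
  exact hg y k

/-- B1. -/
theorem cut_plane {g : (Fin 2 → ℝ) → ℝ} (hg : Nice g) (t : Fin 2 → ℝ) :
    Real.sqrt Real.pi * ∫ s in (0:ℝ)..1, Real.sqrt (lev g s) ≤
      hTV g + (∫ y in (0:ℝ)..1, g ![t 0, y]) + ∫ x in (0:ℝ)..1, g ![x, t 1] := by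
  have hn : Nice (fun x => g (x + t)) :=
    ⟨hg.smooth.comp (contDiff_id.add contDiff_const), fun x k => by
      show g (x + (fun i => (k i : ℝ)) + t) = g (x + t)
      rw [add_right_comm]
      exact hg.per _ k, fun x => hg.nonneg _, fun x => hg.le_one _⟩
  have h0 := B1_zero hn
  have hlev : ∀ s, lev (fun x => g (x + t)) s = lev g s := by
    intro s
    unfold lev
    congr 1
    exact B1_measure_shift (A := {x | s < g x}) (fun x k => by
      show s < g (x + fun i => (k i : ℝ)) ↔ s < g x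
      rw [hg.per x k]) (B1_lev_cont_meas hg s) t
  have htv : hTV (fun x => g (x + t)) = hTV g := by
    unfold hTV
    simp only [B1_gradN_shift]
    rw [B1_integral_shift (B1_gradN_per hg.per)]
  simp only [hlev, htv] at h0
  have hp0 : Function.Periodic (fun y => g ![t 0, y]) 1 := by
    intro y
    have := hg.per ![t 0, y] ![0, 1]
    show g ![t 0, y + 1] = g ![t 0, y]
    rw [← this]
    congr 1
    ext i
    fin_cases i <;> simp
  have hp1 : Function.Periodic (fun y => g ![y, t 1]) 1 := by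
    intro y
    have := hg.per ![y, t 1] ![1, 0]
    show g ![y + 1, t 1] = g ![y, t 1]
    rw [← this]
    congr 1
    ext i
    fin_cases i <;> simp
  have e0 : ∫ y in (0:ℝ)..1, g (![0, y] + t) = ∫ y in (0:ℝ)..1, g ![t 0, y] := by
    have h1 : ∀ y : ℝ, g (![0, y] + t) = g ![t 0, y + t 1] := by
      intro y
      congr 1
      ext i
      fin_cases i <;> simp
    simp only [h1]
    rw [intervalIntegral.integral_comp_add_right (fun y => g ![t 0, y]) (t 1), zero_add,
      add_comm 1 (t 1), hp0.intervalIntegral_add_eq (t 1) 0, zero_add]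
  have e1 : ∫ y in (0:ℝ)..1, g (![y, 0] + t) = ∫ y in (0:ℝ)..1, g ![y, t 1] := by
    have h1 : ∀ y : ℝ, g (![y, 0] + t) = g ![y + t 0, t 1] := by
      intro y
      congr 1
      ext i
      fin_cases i <;> simp
    simp only [h1]
    rw [intervalIntegral.integral_comp_add_right (fun y => g ![y, t 1]) (t 0), zero_add,
      add_comm 1 (t 0), hp1.intervalIntegral_add_eq (t 0) 0, zero_add]
  rw [e0, e1] at h0
  exact h0

end Vale.Agent.P232
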