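import Mathlib

/-!
# P232: definitions for the isoperimetric problem in the cubic three-torus

Functions and sets on the torus are `ℤ^n`-periodic functions and sets on `Fin n → ℝ`;
`cell n` is the half-open unit cube.
-/

open MeasureTheory Set

namespace Vale.Agent.P232

/-- the unit cell `[0,1)^n` -/
def cell (n : ℕ) : Set (Fin n → ℝ) := Set.pi Set.univ fun _ => Set.Ico (0 : ℝ) 1

/-- `ℤ^n`-periodic function -/
def IsPer {n : ℕ} {Y : Type} (f : (Fin n → ℝ) → Y) : Prop :=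
  ∀ (x : Fin n → ℝ) (k : Fin n → ℤ), f (x + fun i => (k i : ℝ)) = f x

/-- `ℤ^n`-periodic set -/
def IsPerSet {n : ℕ} (E : Set (Fin n → ℝ)) : Prop :=
  ∀ (x : Fin n → ℝ) (k : Fin n → ℤ), (x + fun i => (k i : ℝ)) ∈ E ↔ x ∈ E

/-- Euclidean length of the gradient -/
noncomputable def gradN {n : ℕ} (f : (Fin n → ℝ) → ℝ) (x : Fin n → ℝ) : ℝ :=
  Real.sqrt (∑ i, (fderiv ℝ f x (Pi.single i 1)) ^ 2)

/-- divergence of a vector field -/
noncomputable def diverg {n : ℕ} (φ : (Fin n → ℝ) → (Fin n → ℝ)) (x : Fin n → ℝ) : ℝ :=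
  ∑ i, fderiv ℝ φ x (Pi.single i 1) i

/-- De Giorgi perimeter, in the torus `ℝ^n/ℤ^n`, of a periodic set -/
noncomputable def perimeter {n : ℕ} (E : Set (Fin n → ℝ)) : ENNReal :=
  ⨆ (φ : (Fin n → ℝ) → (Fin n → ℝ)) (_ : ContDiff ℝ 1 φ) (_ : IsPer φ)
    (_ : ∀ x, ∑ i, (φ x i) ^ 2 ≤ 1), ENNReal.ofReal (∫ x in E ∩ cell n, diverg φ x)

/-- half of the isoperimetric profile of the flat two-torus -/
noncomputable def I2 (a : ℝ) : ℝ :=
  min (min (Real.sqrt (Real.pi * a)) 1) (Real.sqrt (Real.pi * (1 - a)))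

/-- closed disc of radius `r` about the origin -/
def disc (r : ℝ) : Set (Fin 2 → ℝ) := {y | (y 0) ^ 2 + (y 1) ^ 2 ≤ r ^ 2}

/-- smooth (C^1) periodic function with values in `[0,1]` -/
structure Nice {n : ℕ} (f : (Fin n → ℝ) → ℝ) : Prop where
  smooth : ContDiff ℝ 1 f
  per : IsPer f
  nonneg : ∀ x, 0 ≤ f x
  le_one : ∀ x, f x ≤ 1

/-- measure of the superlevel set in the cell -/
noncomputable def lev {n : ℕ} (g : (Fin n → ℝ) → ℝ) (s : ℝ) : ℝ :=
  (volume ({x | s < g x} ∩ cell n)).toReal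

/-- the slice of `f` at height `z` in direction `i` -/
def slice (f : (Fin 3 → ℝ) → ℝ) (i : Fin 3) (z : ℝ) : (Fin 2 → ℝ) → ℝ :=
  fun y => f (i.insertNth z y)

/-- integral of the slice -/
noncomputable def sArea (f : (Fin 3 → ℝ) → ℝ) (i : Fin 3) (z : ℝ) : ℝ :=
  ∫ y in cell 2, slice f i z y

/-- total variation (half) of `f` in the torus -/
noncomputable def hTV {n : ℕ} (f : (Fin n → ℝ) → ℝ) : ℝ :=
  (1 / 2) * ∫ x in cell n, gradN f x

/-- the one-dimensional calibration functional -/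
noncomputable def cal (Iso : ℝ → ℝ) (α κ b c : ℝ) : ℝ :=
  ∫ a in b..c, Real.sqrt (1 - ((α + κ * a) / Iso a) ^ 2)

/-- the conjectured profile (half of it): balls, tubes, slabs -/
noncomputable def Jh (V : ℝ) : ℝ :=
  min (min ((9 * Real.pi / 2) ^ (1 / 3 : ℝ) * V ^ (2 / 3 : ℝ)) (Real.sqrt (Real.pi * V))) 1

/-- average of the indicator of `E` with weight `ρ` -/
noncomputable def moll (ρ : (Fin 3 → ℝ) → ℝ) (E : Set (Fin 3 → ℝ)) (x : Fin 3 → ℝ) : ℝ :=
  ∫ y, ρ y * E.indicator (fun _ => (1 : ℝ)) (x + y)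

/-- smooth probability density with compact support -/
structure Kern (ρ : (Fin 3 → ℝ) → ℝ) : Prop where
  smooth : ContDiff ℝ 3 ρ
  supp : HasCompactSupport ρ
  nonneg : ∀ x, 0 ≤ ρ x
  int_one : ∫ x, ρ x = 1

end Vale.Agent.P232
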