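import Vale.Agent.P232.SmoothAll
import Vale.Agent.P232.Approx

/-! # P232, module H2: the final inequality -/

open MeasureTheory Set

namespace Vale.Agent.P232

private theorem h2_cell_volume : volume (cell 3) = 1 := by
  unfold cell
  rw [Real.volume_pi_Ico]
  simp

private theorem h2_one_sub {f : (Fin 3 → ℝ) → ℝ} (hf : Nice f) : Nice (fun x => 1 - f x) where
  smooth := contDiff_const.sub hf.smooth
  per := fun x k => by
    show 1 - f _ = 1 - f x
    rw [hf.per x k]
  nonneg := fun x => sub_nonneg.mpr (hf.le_one x)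
  le_one := fun x => by
    have := hf.nonneg x
    linarith

private theorem h2_gradN (f : (Fin 3 → ℝ) → ℝ) (x : Fin 3 → ℝ) :
    gradN (fun x => 1 - f x) x = gradN f x := by
  unfold gradN
  congr 1
  refine Finset.sum_congr rfl (fun i _ => ?_)
  rw [fderiv_const_sub]
  simp

private theorem h2_hTV (f : (Fin 3 → ℝ) → ℝ) : hTV (fun x => 1 - f x) = hTV f := by
  unfold hTV
  simp only [h2_gradN]

private theorem h2_integrable {f : (Fin 3 → ℝ) → ℝ} (hf : Nice f) :
    IntegrableOn f (cell 3) := by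
  have hfin : volume (cell 3) ≠ ⊤ := by rw [h2_cell_volume]; exact ENNReal.one_ne_top
  refine Measure.integrableOn_of_bounded (M := 1) hfin
    hf.smooth.continuous.aestronglyMeasurable (Filter.Eventually.of_forall fun x => ?_)
  rw [Real.norm_eq_abs, abs_of_nonneg (hf.nonneg x)]
  exact hf.le_one x

private theorem h2_int_one_sub {f : (Fin 3 → ℝ) → ℝ} (hf : Nice f) :
    ∫ x in cell 3, (1 - f x) = 1 - ∫ x in cell 3, f x := by
  have hfin : volume (cell 3) ≠ ⊤ := by rw [h2_cell_volume]; exact ENNReal.one_ne_top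
  have hi1 : Integrable (fun _ : Fin 3 → ℝ => (1 : ℝ)) (volume.restrict (cell 3)) :=
    integrableOn_const hfin
  have hi2 : Integrable f (volume.restrict (cell 3)) := h2_integrable hf
  rw [integral_sub hi1 hi2]
  congr 1
  rw [setIntegral_const, smul_eq_mul, mul_one, measureReal_def, h2_cell_volume]
  simp

private theorem h2_real {E : Set (Fin 3 → ℝ)} (hE : MeasurableSet E) (hper : IsPerSet E)
    (hfin : perimeter E ≠ ⊤) {v : ℝ}
    (hv : v = min (volume (E ∩ cell 3)).toReal (1 - (volume (E ∩ cell 3)).toReal))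
    (h : v ∈ Set.Icc (0.12 : ℝ) 0.264 ∨ v ∈ Set.Icc (0.36 : ℝ) 0.5) {η : ℝ} (hη : 0 < η) :
    2 * Jh v ≤ (perimeter E).toReal + 2 * Real.sqrt (2 * Real.pi * η) := by
  obtain ⟨f, hf, h1, h2, h3⟩ := approx_perimeter hE hper hfin hη
  have hs : Real.sqrt (2 * Real.pi * ∫ x in cell 3, f x * (1 - f x))
      ≤ Real.sqrt (2 * Real.pi * η) := by
    apply Real.sqrt_le_sqrt
    exact mul_le_mul_of_nonneg_left h2 (by positivity)
  rcases le_total (volume (E ∩ cell 3)).toReal (1 - (volume (E ∩ cell 3)).toReal) with hle | hle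
  · rw [min_eq_left hle] at hv
    have := smooth_main hf (V := v) (by rw [hv, h1]) h
    linarith
  · rw [min_eq_right hle] at hv
    have hm := smooth_main (h2_one_sub hf) (V := v) (by rw [hv, h2_int_one_sub hf, h1]) h
    rw [h2_hTV] at hm
    have he : (∫ x in cell 3, (1 - f x) * (1 - (1 - f x))) = ∫ x in cell 3, f x * (1 - f x) := by
      congr 1
      funext x
      ring
    rw [he] at hm
    linarith

/-- the isoperimetric inequality in the torus, in the ranges of `smooth_main` -/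
theorem final {E : Set (Fin 3 → ℝ)} (hE : MeasurableSet E) (hper : IsPerSet E) {v : ℝ}
    (hv : v = min (volume (E ∩ cell 3)).toReal (1 - (volume (E ∩ cell 3)).toReal))
    (h : v ∈ Set.Icc (0.12 : ℝ) 0.264 ∨ v ∈ Set.Icc (0.36 : ℝ) 0.5) :
    ENNReal.ofReal (2 * Jh v) ≤ perimeter E := by
  by_cases hfin : perimeter E = ⊤
  · rw [hfin]; exact le_top
  · apply ENNReal.ofReal_le_of_le_toReal
    by_contra hlt
    rw [not_le] at hlt
    set δ : ℝ := 2 * Jh v - (perimeter E).toReal with hδ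
    have hδ0 : 0 < δ := by linarith
    have hη : 0 < δ ^ 2 / (32 * Real.pi) := by positivity
    have hm := h2_real hE hper hfin hv h hη
    have hs : Real.sqrt (2 * Real.pi * (δ ^ 2 / (32 * Real.pi))) = δ / 4 := by
      rw [show 2 * Real.pi * (δ ^ 2 / (32 * Real.pi)) = (δ / 4) ^ 2 by
        field_simp; ring]
      exact Real.sqrt_sq (by positivity)
    rw [hs] at hm
    linarith

/-- the explicit form of the profile -/
theorem two_Jh {v : ℝ} : 2 * Jh v =
    min (min ((36 * Real.pi) ^ (1 / 3 : ℝ) * v ^ (2 / 3 : ℝ)) (2 * Real.sqrt (Real.pi * v))) 2 := by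
  unfold Jh
  rw [mul_min_of_nonneg _ _ (by norm_num : (0 : ℝ) ≤ 2),
    mul_min_of_nonneg _ _ (by norm_num : (0 : ℝ) ≤ 2), mul_one]
  have h8 : (2 : ℝ) * (9 * Real.pi / 2) ^ (1 / 3 : ℝ) = (36 * Real.pi) ^ (1 / 3 : ℝ) := by
    have h2 : (2 : ℝ) = (8 : ℝ) ^ (1 / 3 : ℝ) := by
      rw [show (8 : ℝ) = 2 ^ (3 : ℝ) by norm_num, ← Real.rpow_mul (by norm_num)]
      norm_num
    calc (2 : ℝ) * (9 * Real.pi / 2) ^ (1 / 3 : ℝ)
        = (8 : ℝ) ^ (1 / 3 : ℝ) * (9 * Real.pi / 2) ^ (1 / 3 : ℝ) := by rw [← h2]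
      _ = (8 * (9 * Real.pi / 2)) ^ (1 / 3 : ℝ) := by
          rw [Real.mul_rpow (by norm_num) (by positivity)]
      _ = _ := by
          congr 1
          ring
  rw [← mul_assoc, h8]

end Vale.Agent.P232
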