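import Vale.Agent.P232.Window
import Vale.Agent.P232.ClaimA
import Vale.Agent.P232.ClaimB
import Vale.Agent.P232.ClaimC

/-!
# P232, module 2MID: the middle window for symmetric functions
-/

open MeasureTheory Set

namespace Vale.Agent.P232

private theorem mid_Jh_cont : Continuous Jh := by
  unfold Jh
  refine Continuous.min (Continuous.min ?_ ?_) continuous_const
  · exact continuous_const.mul (continuous_id.rpow_const fun _ => Or.inr (by norm_num))
  · exact Real.continuous_sqrt.comp (continuous_const.mul continuous_id)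

private theorem mid_Jh_le (V : ℝ) : Jh V ≤ 1 := min_le_right _ _

private theorem mid_unif {η : ℝ} (hη : 0 < η) : ∃ ρ > 0, ∀ V V' : ℝ,
    V ∈ Set.Icc (0.263 : ℝ) 0.361 → V' ∈ Set.Icc (0.263 : ℝ) 0.361 → |V' - V| < ρ →
      Jh V ≤ Jh V' + η := by
  have h := isCompact_Icc.uniformContinuousOn_of_continuous
    (s := Set.Icc (0.263 : ℝ) 0.361) mid_Jh_cont.continuousOn
  rw [Metric.uniformContinuousOn_iff] at h
  obtain ⟨ρ, hρ, h⟩ := h η hη
  refine ⟨ρ, hρ, fun V V' hV hV' hd => ?_⟩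
  have h1 := h V' hV' V hV hd
  rw [Real.dist_eq] at h1
  have h2 := (abs_lt.1 h1).1
  linarith

private theorem mid_trace {w : (Fin 3 → ℝ) → ℝ} {i j k : Fin 3} {τ ε ε' : ℝ} (h : ε ≤ ε')
    (ht : Trace w i j k τ ε) : Trace w i j k τ ε' :=
  ⟨fun t z h0 h1 h2 => ht.1 t z h0 (by linarith) h2, ht.2⟩

/-- the combinatorics of the six corner values -/
private theorem mid_comb {P : Fin 3 → Fin 3 → ℝ} {G : Prop}
    (hp : ∀ j k, j ≠ k → P j k = 0 ∨ P j k = 1)
    (hA : ∀ j k, j ≠ k → P j k = 0 → P k j = 0 → G)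
    (hB : ∀ i j k, i ≠ j → j ≠ k → i ≠ k → P i k = 1 → P j k = 1 → G)
    (hC : ∀ i j k, i ≠ j → j ≠ k → i ≠ k → P j i = 0 → P k j = 0 → P i k = 0 → G) : G := by
  have d01 : (0 : Fin 3) ≠ 1 := by decide
  have d10 : (1 : Fin 3) ≠ 0 := by decide
  have d02 : (0 : Fin 3) ≠ 2 := by decide
  have d20 : (2 : Fin 3) ≠ 0 := by decide
  have d12 : (1 : Fin 3) ≠ 2 := by decide
  have d21 : (2 : Fin 3) ≠ 1 := by decide
  rcases hp 0 1 d01 with h01 | h01
  · rcases hp 1 0 d10 with h10 | h10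
    · exact hA 0 1 d01 h01 h10
    · rcases hp 2 0 d20 with h20 | h20
      · rcases hp 0 2 d02 with h02 | h02
        · exact hA 0 2 d02 h02 h20
        · rcases hp 1 2 d12 with h12 | h12
          · exact hC 1 0 2 d10 d02 d12 h01 h20 h12
          · exact hB 0 1 2 d01 d12 d02 h02 h12
      · exact hB 1 2 0 d12 d20 d10 h10 h20
  · rcases hp 2 1 d21 with h21 | h21
    · rcases hp 1 2 d12 with h12 | h12
      · exact hA 1 2 d12 h12 h21
      · rcases hp 0 2 d02 with h02 | h02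
        · rcases hp 1 0 d10 with h10 | h10
          · exact hC 0 1 2 d01 d12 d02 h10 h21 h02
          · rcases hp 2 0 d20 with h20 | h20
            · exact hA 0 2 d02 h02 h20
            · exact hB 1 2 0 d12 d20 d10 h10 h20
        · exact hB 0 1 2 d01 d12 d02 h02 h12
    · exact hB 0 2 1 d02 d21 d01 h01 h21

/- MID : middle window for symmetric functions -/
theorem mid_sym {η : ℝ} (hη : 0 < η) : ∃ δ > 0, ∀ u : (Fin 3 → ℝ) → ℝ, SymN u →
    (∫ x in cell 3, u x) ∈ Set.Icc (0.264 : ℝ) 0.36 → ∫ x in cell 3, u x * (1 - u x) ≤ δ →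
    Jh (∫ x in cell 3, u x) ≤ hTV u + η := by
  obtain ⟨ρ, hρ, hJ⟩ := mid_unif (η := η / 4) (by linarith)
  obtain ⟨ε, hε, hε1, hε2, hε3, hε4⟩ : ∃ ε : ℝ, 0 < ε ∧ ε ≤ 0.0005 ∧ ε ≤ η / 4 ∧ ε < ρ ∧
      ε ≤ η ^ 2 / 4608 := by
    refine ⟨min (min 0.0005 (η / 4)) (min (ρ / 2) (η ^ 2 / 4608)), ?_, ?_, ?_, ?_, ?_⟩
    · exact lt_min (lt_min (by norm_num) (by linarith)) (lt_min (by linarith) (by positivity))
    · exact (min_le_left _ _).trans (min_le_left _ _)
    · exact (min_le_left _ _).trans (min_le_right _ _)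
    · refine lt_of_le_of_lt ((min_le_right _ _).trans (min_le_left _ _)) ?_
      linarith
    · exact (min_le_right _ _).trans (min_le_right _ _)
  obtain ⟨δ, hδ, hw⟩ := window hε
  refine ⟨δ, hδ, fun u hu hV hd => ?_⟩
  rcases le_or_gt (hTV u) 2 with h2 | h2
  swap
  · have := mid_Jh_le (∫ x in cell 3, u x)
    linarith
  obtain ⟨w, hws, hVw, hdw, hTw, hpt, htr⟩ := hw u hu h2 hd
  have habs := abs_le.1 hVw
  have hVw' : (∫ x in cell 3, w x) ∈ Set.Icc (0.263 : ℝ) 0.361 := by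
    have h3 := hV.1
    have h4 := hV.2
    norm_num at h3 h4 hε1 ⊢
    constructor
    · linarith [habs.1]
    · linarith [habs.2]
  have hVu' : (∫ x in cell 3, u x) ∈ Set.Icc (0.263 : ℝ) 0.361 := by
    have h3 := hV.1
    have h4 := hV.2
    norm_num at h3 h4 ⊢
    constructor <;> linarith
  have hmain : Jh (∫ x in cell 3, w x)
      ≤ hTV w + 12 * Real.sqrt (2 * ∫ x in cell 3, w x * (1 - w x)) := by
    refine mid_comb (P := fun j k => w (pt j k 0.065)) hpt ?_ ?_ ?_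
    · intro j k hjk h1 h3
      exact claim_A hws hVw' hjk h1 h3
    · intro i j k hij hjk hik h1 h3
      obtain ⟨τ, h0, h05, ht⟩ := htr i j k hij hjk hik
      obtain ⟨τ', h0', h05', ht'⟩ := htr j i k hij.symm hik hjk
      exact claim_B hws hVw' hij hjk hik h1 h3 ⟨h0, h05⟩ ⟨h0', h05'⟩ (mid_trace hε1 ht)
        (mid_trace hε1 ht')
    · intro i j k hij hjk hik h1 h3 h4
      exact claim_C hws hVw' hij hjk hik h1 h3 h4
  have hcont := hJ _ _ hVu' hVw' (lt_of_le_of_lt hVw hε3)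
  have hsq : Real.sqrt (2 * ∫ x in cell 3, w x * (1 - w x)) ≤ η / 48 := by
    rw [Real.sqrt_le_left (by positivity)]
    have e : (η / 48) ^ 2 = 2 * (η ^ 2 / 4608) := by ring
    rw [e]
    linarith
  linarith

end Vale.Agent.P232
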