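import Vale.Agent.P232.SA

/-! # P232 block S, module SA2: reflections, torus distance, kernel (helper23) -/

open MeasureTheory Set Filter
open scoped Topology

namespace Vale.Agent.P232

theorem rfx_same (j : Fin 3) (t : ℝ) (x : Fin 3 → ℝ) : rfx j t x j = 2 * t - x j := by
  simp [rfx]

theorem rfx_ne (j : Fin 3) (t : ℝ) (x : Fin 3 → ℝ) {i : Fin 3} (h : i ≠ j) :
    rfx j t x i = x i := by
  simp [rfx, h]

theorem rfx_rfx (j : Fin 3) (t : ℝ) (x : Fin 3 → ℝ) : rfx j t (rfx j t x) = x := by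
  ext i
  by_cases h : i = j
  · subst h
    rw [rfx_same, rfx_same]; ring
  · rw [rfx_ne j t _ h, rfx_ne j t _ h]

theorem rfx_cont (j : Fin 3) (t : ℝ) : Continuous (rfx j t) := by
  unfold rfx
  exact continuous_id.update j (continuous_const.sub (continuous_apply j))

theorem rfx_per (j : Fin 3) (t : ℝ) (x : Fin 3 → ℝ) (k : Fin 3 → ℤ) :
    ∃ l : Fin 3 → ℤ, rfx j t (x + fun i => (k i : ℝ)) = rfx j t x + fun i => (l i : ℝ) := by
  refine ⟨Function.update k j (-(k j)), ?_⟩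
  ext i
  by_cases h : i = j
  · subst h
    rw [rfx_same, Pi.add_apply, Pi.add_apply, rfx_same, Function.update_self]
    push_cast; ring
  · rw [rfx_ne j t _ h, Pi.add_apply, Pi.add_apply, rfx_ne j t _ h, Function.update_of_ne h]

theorem dT_nonneg (x y : Fin 3 → ℝ) : 0 ≤ dT x y :=
  Finset.sum_nonneg fun _ _ => tn_nonneg _

theorem dT_le (x y : Fin 3 → ℝ) : dT x y ≤ ∑ i, |x i - y i| :=
  Finset.sum_le_sum fun _ _ => tn_le_abs _

/-- `tn` of a difference of reflected coordinates -/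
private theorem SA2_rr (j : Fin 3) (t : ℝ) (x y : Fin 3 → ℝ) (i : Fin 3) :
    tn (rfx j t x i - rfx j t y i) = tn (x i - y i) := by
  by_cases h : i = j
  · subst h
    rw [rfx_same, rfx_same, ← tn_neg]; congr 1; ring
  · rw [rfx_ne j t _ h, rfx_ne j t _ h]

private theorem SA2_rl (j : Fin 3) (t : ℝ) (x y : Fin 3 → ℝ) (i : Fin 3) :
    tn (rfx j t x i - y i) = tn (x i - rfx j t y i) := by
  by_cases h : i = j
  · subst h
    rw [rfx_same, rfx_same, ← tn_neg]; congr 1; ring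
  · rw [rfx_ne j t _ h, rfx_ne j t _ h]

private theorem SA2_same {j : Fin 3} {t : ℝ} {x y : Fin 3 → ℝ}
    (h : Int.fract (x j - t) < 1 / 2 ↔ Int.fract (y j - t) < 1 / 2) (i : Fin 3) :
    tn (x i - y i) ≤ tn (x i - rfx j t y i) := by
  by_cases hi : i = j
  · subst hi
    rw [rfx_same]
    exact tn_same h
  · rw [rfx_ne j t _ hi]

private theorem SA2_opp {j : Fin 3} {t : ℝ} {x y : Fin 3 → ℝ}
    (h : ¬ (Int.fract (x j - t) < 1 / 2 ↔ Int.fract (y j - t) < 1 / 2)) (i : Fin 3) :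
    tn (x i - rfx j t y i) ≤ tn (x i - y i) := by
  by_cases hi : i = j
  · subst hi
    rw [rfx_same]
    exact tn_opp h
  · rw [rfx_ne j t _ hi]

theorem dT_rfx_rfx (j : Fin 3) (t : ℝ) (x y : Fin 3 → ℝ) :
    dT (rfx j t x) (rfx j t y) = dT x y :=
  Finset.sum_congr rfl fun i _ => SA2_rr j t x y i

theorem dT_rfx_left (j : Fin 3) (t : ℝ) (x y : Fin 3 → ℝ) :
    dT (rfx j t x) y = dT x (rfx j t y) :=
  Finset.sum_congr rfl fun i _ => SA2_rl j t x y i

theorem dT_same {j : Fin 3} {t : ℝ} {x y : Fin 3 → ℝ}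
    (h : Int.fract (x j - t) < 1 / 2 ↔ Int.fract (y j - t) < 1 / 2) :
    dT x y ≤ dT x (rfx j t y) :=
  Finset.sum_le_sum fun i _ => SA2_same h i

theorem dT_opp {j : Fin 3} {t : ℝ} {x y : Fin 3 → ℝ}
    (h : ¬ (Int.fract (x j - t) < 1 / 2 ↔ Int.fract (y j - t) < 1 / 2)) :
    dT x (rfx j t y) ≤ dT x y :=
  Finset.sum_le_sum fun i _ => SA2_opp h i

theorem KK_nonneg (e : ℝ) (z : Fin 3 → ℝ) : 0 ≤ KK e z := by
  unfold KK
  split_ifs <;> norm_num

theorem KK_le_one (e : ℝ) (z : Fin 3 → ℝ) : KK e z ≤ 1 := by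
  unfold KK
  split_ifs <;> norm_num

theorem KK_meas (e : ℝ) : Measurable (KK e) := by
  unfold KK
  refine Measurable.ite ?_ measurable_const measurable_const
  have hc : Continuous fun z : Fin 3 → ℝ => ∑ i, tn (z i) ^ 2 :=
    continuous_finsetSum _ fun i _ => (tn_cont.comp (continuous_apply i)).pow 2
  exact measurableSet_le hc.measurable measurable_const

theorem KK_per (e : ℝ) : IsPer (KK e) := by
  intro x k
  unfold KK
  simp only [Pi.add_apply, tn_add_int]

theorem KK_neg (e : ℝ) (z : Fin 3 → ℝ) : KK e (-z) = KK e z := by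
  unfold KK
  simp only [Pi.neg_apply, tn_neg]

private theorem KK_congr {e : ℝ} {z w : Fin 3 → ℝ} (h : ∀ i, tn (z i) = tn (w i)) :
    KK e z = KK e w := by
  unfold KK
  simp only [h]

private theorem KK_anti {e : ℝ} {z w : Fin 3 → ℝ} (h : ∀ i, tn (z i) ≤ tn (w i)) :
    KK e w ≤ KK e z := by
  have hle : ∑ i, tn (z i) ^ 2 ≤ ∑ i, tn (w i) ^ 2 :=
    Finset.sum_le_sum fun i _ => pow_le_pow_left₀ (tn_nonneg _) (h i) 2
  unfold KK
  split_ifs with h1 h2
  · exact le_rfl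
  · exact absurd (hle.trans h1) h2
  · norm_num
  · exact le_rfl

theorem KK_rfx_rfx (e : ℝ) (j : Fin 3) (t : ℝ) (x y : Fin 3 → ℝ) :
    KK e (rfx j t x - rfx j t y) = KK e (x - y) :=
  KK_congr fun i => by simpa only [Pi.sub_apply] using SA2_rr j t x y i

theorem KK_rfx_left (e : ℝ) (j : Fin 3) (t : ℝ) (x y : Fin 3 → ℝ) :
    KK e (rfx j t x - y) = KK e (x - rfx j t y) :=
  KK_congr fun i => by simpa only [Pi.sub_apply] using SA2_rl j t x y i

theorem KK_same (e : ℝ) {j : Fin 3} {t : ℝ} {x y : Fin 3 → ℝ}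
    (h : Int.fract (x j - t) < 1 / 2 ↔ Int.fract (y j - t) < 1 / 2) :
    KK e (x - rfx j t y) ≤ KK e (x - y) :=
  KK_anti fun i => by simpa only [Pi.sub_apply] using SA2_same h i

theorem KK_opp (e : ℝ) {j : Fin 3} {t : ℝ} {x y : Fin 3 → ℝ}
    (h : ¬ (Int.fract (x j - t) < 1 / 2 ↔ Int.fract (y j - t) < 1 / 2)) :
    KK e (x - y) ≤ KK e (x - rfx j t y) :=
  KK_anti fun i => by simpa only [Pi.sub_apply] using SA2_opp h i

theorem TL.cont {L : ℝ} {g : (Fin 3 → ℝ) → ℝ} (hg : TL L g) : Continuous g := by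
  have hL := hg.L0
  have hlip : LipschitzWith (Real.toNNReal (L * 3)) g := by
    refine LipschitzWith.of_dist_le_mul fun x y => ?_
    rw [Real.dist_eq, Real.coe_toNNReal _ (by positivity)]
    refine (hg.lip x y).trans ?_
    rw [mul_assoc]
    refine mul_le_mul_of_nonneg_left ?_ hL
    refine (dT_le x y).trans ?_
    calc ∑ i, |x i - y i| ≤ ∑ _i : Fin 3, dist x y := by
          refine Finset.sum_le_sum fun i _ => ?_
          rw [← Real.dist_eq]
          exact dist_le_pi_dist x y i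
      _ = 3 * dist x y := by simp
  exact hlip.continuous

end Vale.Agent.P232
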