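import Mathlib
import Vale.Agent.P232.Defs

/-!
# P232: definitions for the symmetrization block (helper50)

Polarization of periodic functions on `Fin 3 → ℝ`, a nonlocal functional, a moment functional,
torus Lipschitz functions, convolution with a product kernel.
-/

open MeasureTheory Set

namespace Vale.Agent.P232

/-- symmetric decreasing in every coordinate: even, and decreasing on `[0,1/2]` -/
structure SymD (u : (Fin 3 → ℝ) → ℝ) : Prop where
  even : ∀ (j : Fin 3) (x : Fin 3 → ℝ), u (Function.update x j (-(x j))) = u x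
  anti : ∀ (j : Fin 3) (x : Fin 3 → ℝ) (s r : ℝ), 0 ≤ s → s ≤ r → r ≤ 1 / 2 →
    u (Function.update x j r) ≤ u (Function.update x j s)

/-- distance to the nearest integer -/
noncomputable def tn (s : ℝ) : ℝ := |s - (round s : ℝ)|

/-- torus distance, sum norm -/
noncomputable def dT (x y : Fin 3 → ℝ) : ℝ := ∑ i, tn (x i - y i)

/-- periodic indicator of the Euclidean ball of radius `e` -/
noncomputable def KK (e : ℝ) (z : Fin 3 → ℝ) : ℝ :=
  if ∑ i, tn (z i) ^ 2 ≤ e ^ 2 then 1 else 0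

/-- reflection in the plane `x j = t` -/
def rfx (j : Fin 3) (t : ℝ) (x : Fin 3 → ℝ) : Fin 3 → ℝ := Function.update x j (2 * t - x j)

/-- polarization: the larger of `g x`, `g (rfx x)` on the half torus `fract (x j - t) < 1/2` -/
noncomputable def pol (j : Fin 3) (t : ℝ) (g : (Fin 3 → ℝ) → ℝ) (x : Fin 3 → ℝ) : ℝ :=
  if Int.fract (x j - t) < 1 / 2 then max (g x) (g (rfx j t x)) else min (g x) (g (rfx j t x))

/-- nonlocal total variation at scale `e` -/
noncomputable def DD (e : ℝ) (g : (Fin 3 → ℝ) → ℝ) : ℝ :=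
  ∫ x in cell 3, ∫ y in cell 3, |g x - g y| * KK e (x - y)

/-- the `L^1` modulus of `g` -/
noncomputable def MM (h : Fin 3 → ℝ) (g : (Fin 3 → ℝ) → ℝ) : ℝ :=
  ∫ x in cell 3, |g (x + h) - g x|

/-- the closed Euclidean unit ball -/
def B1 : Set (Fin 3 → ℝ) := {k | ∑ i, k i ^ 2 ≤ 1}

/-- rescaled nonlocal total variation -/
noncomputable def NN (e : ℝ) (g : (Fin 3 → ℝ) → ℝ) : ℝ := ∫ k in B1, MM (e • k) g

/-- moment functional, increased by polarizations -/
noncomputable def Lam (g : (Fin 3 → ℝ) → ℝ) : ℝ :=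
  ∫ x in cell 3, g x * ∑ i, Real.cos (2 * Real.pi * x i)

/-- periodic, values in `[0,1]`, Lipschitz with constant `L` for the torus distance -/
structure TL (L : ℝ) (g : (Fin 3 → ℝ) → ℝ) : Prop where
  L0 : 0 ≤ L
  per : IsPer g
  nonneg : ∀ x, 0 ≤ g x
  le_one : ∀ x, g x ≤ 1
  lip : ∀ x y, |g x - g y| ≤ L * dT x y

/-- polarization invariant for every plane `x j = t`, `-1/2 < t < 0` -/
def PolInv (g : (Fin 3 → ℝ) → ℝ) : Prop :=
  ∀ (j : Fin 3) (t : ℝ), -(1 / 2) < t → t < 0 → ∀ x : Fin 3 → ℝ,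
    Int.fract (x j - t) < 1 / 2 → g (rfx j t x) ≤ g x

/-- one dimensional smooth even decreasing kernel supported in `[-δ,δ]` -/
structure Ker1 (δ : ℝ) (θ : ℝ → ℝ) : Prop where
  smooth : ContDiff ℝ 3 θ
  nonneg : ∀ s, 0 ≤ θ s
  even : ∀ s, θ (-s) = θ s
  anti : ∀ s r, 0 ≤ s → s ≤ r → θ r ≤ θ s
  supp : ∀ s, δ ≤ |s| → θ s = 0
  int_one : ∫ s, θ s = 1

/-- convolution with the product kernel -/
noncomputable def cv (θ : ℝ → ℝ) (g : (Fin 3 → ℝ) → ℝ) (x : Fin 3 → ℝ) : ℝ :=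
  ∫ y : Fin 3 → ℝ, (∏ i, θ (y i)) * g (x + y)

end Vale.Agent.P232
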