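import Vale.Agent.P232.Defs

/-! # P232: translation invariance for periodic functions and sets (helper36) -/


open MeasureTheory Set
open scoped Pointwise

namespace Vale.Agent.P232

theorem B1_cell_eq (n : ℕ) : cell n = ZSpan.fundamentalDomain (Pi.basisFun ℝ (Fin n)) := by
  ext x
  simp [cell, ZSpan.mem_fundamentalDomain]

theorem B1_mem_lattice {n : ℕ}
    (v : (Submodule.span ℤ (Set.range (Pi.basisFun ℝ (Fin n)))).toAddSubgroup) :
    ∃ k : Fin n → ℤ, (v : Fin n → ℝ) = fun i => (k i : ℝ) := by
  have h := ((Pi.basisFun ℝ (Fin n)).mem_span_iff_repr_mem ℤ (v : Fin n → ℝ)).1 v.2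
  choose k hk using h
  refine ⟨k, funext fun i => ?_⟩
  have := hk i
  simpa using this.symm

instance B1_countable (n : ℕ) :
    Countable (Submodule.span ℤ (Set.range (Pi.basisFun ℝ (Fin n)))).toAddSubgroup := by
  choose k hk using fun v : (Submodule.span ℤ (Set.range (Pi.basisFun ℝ (Fin n)))).toAddSubgroup =>
    B1_mem_lattice v
  refine Function.Injective.countable (f := k) fun v w h => ?_
  apply Subtype.ext
  rw [hk v, hk w, h]

theorem B1_fund0 (n : ℕ) :
    IsAddFundamentalDomain (Submodule.span ℤ (Set.range (Pi.basisFun ℝ (Fin n)))).toAddSubgroup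
      (cell n) (volume : Measure (Fin n → ℝ)) := by
  rw [B1_cell_eq]
  exact (ZSpan.isAddFundamentalDomain' (Pi.basisFun ℝ (Fin n)) volume)

theorem B1_fund (n : ℕ) (t : Fin n → ℝ) :
    IsAddFundamentalDomain (Submodule.span ℤ (Set.range (Pi.basisFun ℝ (Fin n)))).toAddSubgroup
      (t +ᵥ cell n) (volume : Measure (Fin n → ℝ)) :=
  (B1_fund0 n).vadd_of_comm t

/-- integrals of periodic functions over the cell are translation invariant -/
theorem B1_integral_shift {n : ℕ} {F : (Fin n → ℝ) → ℝ} (hF : IsPer F) (t : Fin n → ℝ) :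
    ∫ x in cell n, F (x + t) = ∫ x in cell n, F x := by
  rw [← (B1_fund n t).setIntegral_eq (B1_fund0 n) (f := F) (fun v x => ?_)]
  · have h := (measurePreserving_add_right volume t).setIntegral_preimage_emb
      (measurableEmbedding_addRight t) F (t +ᵥ cell n)
    rw [← h]
    congr 2
    ext x
    simp [Set.mem_vadd_set_iff_neg_vadd_mem, add_comm]
  · obtain ⟨k, hk⟩ := B1_mem_lattice v
    rw [AddSubgroup.vadd_def, hk, vadd_eq_add, add_comm]
    exact hF x k

/-- measures of periodic sets in the cell are translation invariant -/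
theorem B1_measure_shift {n : ℕ} {A : Set (Fin n → ℝ)} (hA : IsPerSet A) (hm : MeasurableSet A)
    (t : Fin n → ℝ) : volume ({x | x + t ∈ A} ∩ cell n) = volume (A ∩ cell n) := by
  rw [← (B1_fund n t).measure_set_eq (B1_fund0 n) hm (fun v => ?_)]
  · have h := (measurePreserving_add_right (volume : Measure (Fin n → ℝ)) t).measure_preimage_emb
      (measurableEmbedding_addRight t) (A ∩ (t +ᵥ cell n))
    rw [← h]
    congr 1
    ext x
    simp [Set.mem_vadd_set_iff_neg_vadd_mem, add_comm]
  · obtain ⟨k, hk⟩ := B1_mem_lattice v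
    ext x
    rw [Set.mem_preimage, AddSubgroup.vadd_def, hk, vadd_eq_add, add_comm]
    exact hA x k

end Vale.Agent.P232
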