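import Mathlib
import Vale.Agent.P232.SDefs
import Vale.Agent.P232.Shift

/-! # P232 block S: module SB (helper73) -/

open MeasureTheory Set
open scoped Pointwise

namespace Vale.Agent.P232

private theorem sb_tn_nonneg (s : ℝ) : 0 ≤ tn s := abs_nonneg _

private theorem sb_rfx_same (j : Fin 3) (t : ℝ) (x : Fin 3 → ℝ) : rfx j t x j = 2 * t - x j := by
  simp [rfx]

private theorem sb_rfx_rfx (j : Fin 3) (t : ℝ) (x : Fin 3 → ℝ) : rfx j t (rfx j t x) = x := by
  funext i
  by_cases hi : i = j
  · subst hi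
    simp [rfx]
  · simp [rfx, hi]

private theorem sb_rfx_per (j : Fin 3) (t : ℝ) (x : Fin 3 → ℝ) (k : Fin 3 → ℤ) :
    ∃ l : Fin 3 → ℤ, rfx j t (x + fun i => (k i : ℝ)) = rfx j t x + fun i => (l i : ℝ) := by
  refine ⟨Function.update k j (-(k j)), ?_⟩
  funext i
  by_cases hi : i = j
  · subst hi
    simp [rfx]
    ring
  · simp [rfx, hi]

private theorem sb_mp (j : Fin 3) (t : ℝ) :
    MeasurePreserving (rfx j t) (volume : Measure (Fin 3 → ℝ)) volume := by
  have h : ∀ i : Fin 3, MeasurePreserving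
      ((fun i : Fin 3 => if i = j then (fun s : ℝ => 2 * t - s) else id) i) volume volume := by
    intro i
    by_cases hi : i = j
    · simp only [hi, if_true]
      exact Measure.measurePreserving_sub_left volume (2 * t)
    · simp only [hi, if_false]
      exact MeasurePreserving.id _
  have h2 := volume_preserving_pi h
  have h3 : rfx j t = fun a i =>
      (fun i : Fin 3 => if i = j then (fun s : ℝ => 2 * t - s) else id) i (a i) := by
    funext x
    funext i
    by_cases hi : i = j
    · subst hi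
      simp [rfx]
    · simp [rfx, hi]
  rw [h3]
  exact h2

private theorem sb_emb (j : Fin 3) (t : ℝ) : MeasurableEmbedding (rfx j t) := by
  have hinv : Function.Involutive (rfx j t) := sb_rfx_rfx j t
  exact (MeasurableEquiv.ofInvolutive (rfx j t) hinv (sb_mp j t).measurable).measurableEmbedding

theorem integral_rfx {F : (Fin 3 → ℝ) → ℝ} (hF : IsPer F) (j : Fin 3) (t : ℝ) :
    ∫ x in cell 3, F (rfx j t x) = ∫ x in cell 3, F x := by
  have hinv : Function.Involutive (rfx j t) := sb_rfx_rfx j t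
  have h1 := (sb_mp j t).setIntegral_preimage_emb (sb_emb j t) F (rfx j t ⁻¹' cell 3)
  rw [← Set.preimage_comp, hinv.comp_self, Set.preimage_id] at h1
  rw [h1]
  have h2 : (rfx j t ⁻¹' cell 3 : Set (Fin 3 → ℝ)) =ᵐ[volume]
      ((Pi.single j (2 * t - 1) : Fin 3 → ℝ) +ᵥ cell 3 : Set (Fin 3 → ℝ)) := by
    have hn1 : (volume : Measure (Fin 3 → ℝ)) {x | x j = 2 * t - 1} = 0 :=
      Measure.pi_hyperplane _ j _
    have hn2 : (volume : Measure (Fin 3 → ℝ)) {x | x j = 2 * t} = 0 :=
      Measure.pi_hyperplane _ j _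
    have hae : ∀ᵐ x : Fin 3 → ℝ, x j ≠ 2 * t - 1 ∧ x j ≠ 2 * t := by
      rw [ae_iff]
      refine measure_mono_null (fun x hx => ?_) (measure_union_null hn1 hn2)
      simp only [ne_eq, not_and_or, not_not, mem_setOf_eq] at hx
      exact hx
    filter_upwards [hae] with x hx
    apply propext
    change rfx j t x ∈ cell 3 ↔ x ∈ ((Pi.single j (2 * t - 1) : Fin 3 → ℝ) +ᵥ cell 3)
    rw [Set.mem_vadd_set_iff_neg_vadd_mem]
    simp only [cell, Set.mem_pi, Set.mem_univ, true_implies, vadd_eq_add, Pi.add_apply,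
      Pi.neg_apply]
    refine forall_congr' fun i => ?_
    by_cases hi : i = j
    · subst hi
      simp only [rfx, Function.update_self, Pi.single_eq_same, Set.mem_Ico]
      obtain ⟨ha, hb⟩ := hx
      constructor
      · rintro ⟨h3, h4⟩
        exact ⟨by linarith, by
          have : x i < 2 * t := lt_of_le_of_ne (by linarith) hb
          linarith⟩
      · rintro ⟨h3, h4⟩
        refine ⟨by linarith, ?_⟩
        have : 2 * t - 1 < x i := lt_of_le_of_ne (by linarith) (Ne.symm ha)
        linarith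
    · simp [rfx, hi, Pi.single_eq_of_ne hi]
  rw [setIntegral_congr_set h2, (B1_fund 3 (Pi.single j (2 * t - 1))).setIntegral_eq (B1_fund0 3)
    (f := F) (fun v x => ?_)]
  obtain ⟨k, hk⟩ := B1_mem_lattice v
  rw [AddSubgroup.vadd_def, hk, vadd_eq_add, add_comm]
  exact hF x k

private theorem sb_per_eq {g : (Fin 3 → ℝ) → ℝ} (hg : IsPer g) (j : Fin 3) (t : ℝ)
    (x : Fin 3 → ℝ) (m : ℤ) (h : 2 * t - x j = x j + m) : g (rfx j t x) = g x := by
  have h1 : rfx j t x = x + fun i => (((Pi.single j m : Fin 3 → ℤ) i : ℤ) : ℝ) := by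
    funext i
    by_cases hi : i = j
    · subst hi
      simp [rfx, h]
    · simp [rfx, hi, Pi.single_eq_of_ne hi]
  rw [h1]
  exact hg x _

theorem pol_rfx {g : (Fin 3 → ℝ) → ℝ} (hg : IsPer g) (j : Fin 3) (t : ℝ) (x : Fin 3 → ℝ) :
    pol j t g (rfx j t x) = g x + g (rfx j t x) - pol j t g x := by
  unfold pol
  rw [sb_rfx_rfx, sb_rfx_same]
  have e1 : 2 * t - x j - t = -(x j - t) := by ring
  rw [e1]
  set s := x j - t with hs
  have h0 := Int.fract_nonneg s
  have h1 := Int.fract_lt_one s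
  by_cases hz : Int.fract s = 0
  · have h2 : Int.fract (-s) = 0 := by
      rw [Int.fract_neg_eq_zero]
      exact hz
    rw [hz, h2]
    have h3 : g (rfx j t x) = g x := by
      refine sb_per_eq hg j t x (-(2 * ⌊s⌋)) ?_
      have h4 : (⌊s⌋ : ℝ) + Int.fract s = s := Int.floor_add_fract s
      push_cast
      rw [hz] at h4
      linarith
    rw [h3]
    norm_num
  · have h2 : Int.fract (-s) = 1 - Int.fract s := Int.fract_neg hz
    rw [h2]
    by_cases hh : Int.fract s = 1 / 2
    · have h3 : g (rfx j t x) = g x := by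
        refine sb_per_eq hg j t x (-(2 * ⌊s⌋ + 1)) ?_
        have h4 : (⌊s⌋ : ℝ) + Int.fract s = s := Int.floor_add_fract s
        push_cast
        rw [hh] at h4
        linarith
      rw [h3, hh]
      norm_num
    · by_cases hl : Int.fract s < 1 / 2
      · rw [if_pos hl, if_neg (by linarith)]
        have := min_add_max (g x) (g (rfx j t x))
        rw [min_comm (g (rfx j t x)) (g x)]
        linarith
      · have hl' : 1 / 2 < Int.fract s := lt_of_le_of_ne (not_lt.1 hl) (Ne.symm hh)
        rw [if_neg hl, if_pos (by linarith)]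
        have := min_add_max (g x) (g (rfx j t x))
        rw [max_comm (g (rfx j t x)) (g x)]
        linarith

theorem pol_per {g : (Fin 3 → ℝ) → ℝ} (hg : IsPer g) (j : Fin 3) (t : ℝ) :
    IsPer (pol j t g) := by
  intro x k
  unfold pol
  have h1 : g (rfx j t (x + fun i => (k i : ℝ))) = g (rfx j t x) := by
    obtain ⟨l, hl⟩ := sb_rfx_per j t x k
    rw [hl]
    exact hg _ l
  have h2 : Int.fract ((x + fun i => (k i : ℝ)) j - t) = Int.fract (x j - t) := by
    have : (x + fun i => (k i : ℝ)) j - t = (x j - t) + (k j : ℝ) := by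
      simp only [Pi.add_apply]
      ring
    rw [this, Int.fract_add_intCast]
  rw [h1, h2, hg x k]

private theorem sb_bdd {f : (Fin 3 → ℝ) → ℝ} (hf : Nice f) :
    ∃ C : ℝ, 0 ≤ C ∧ ∀ x, ‖fderiv ℝ f x‖ ≤ C := by
  have hc : Continuous (fderiv ℝ f) := hf.smooth.continuous_fderiv (by norm_num)
  have hK : IsCompact (Set.Icc (0 : Fin 3 → ℝ) 1) := isCompact_Icc
  obtain ⟨C, hC⟩ := hK.exists_bound_of_continuousOn hc.continuousOn
  refine ⟨max C 0, le_max_right _ _, fun x => ?_⟩
  have h1 : fderiv ℝ f (x + fun i => ((-⌊x i⌋ : ℤ) : ℝ)) = fderiv ℝ f x := by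
    have h2 : (fun y => f (y + fun i => ((-⌊x i⌋ : ℤ) : ℝ))) = f := by
      funext y
      exact hf.per y _
    have h3 := fderiv_comp_add_right (𝕜 := ℝ) (f := f) (x := x) (fun i => ((-⌊x i⌋ : ℤ) : ℝ))
    rw [h2] at h3
    exact h3.symm
  rw [← h1]
  refine le_trans (hC _ ?_) (le_max_left _ _)
  constructor
  · intro i
    simp only [Pi.zero_apply, Pi.add_apply]
    push_cast
    have := Int.floor_le (x i)
    linarith
  · intro i
    simp only [Pi.one_apply, Pi.add_apply]
    push_cast
    have := (Int.lt_floor_add_one (x i)).le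
    linarith

theorem nice_TL {f : (Fin 3 → ℝ) → ℝ} (hf : Nice f) : ∃ L, TL L f := by
  obtain ⟨C, hC0, hC⟩ := sb_bdd hf
  refine ⟨C, hC0, hf.per, hf.nonneg, hf.le_one, fun x y => ?_⟩
  have hd : Differentiable ℝ f := hf.smooth.differentiable (by norm_num)
  have h1 : f (y + fun i => ((round (x i - y i) : ℤ) : ℝ)) = f y := hf.per y _
  rw [← h1]
  have h2 := Convex.norm_image_sub_le_of_norm_fderiv_le (𝕜 := ℝ) (f := f) (s := Set.univ)
    (x := y + fun i => ((round (x i - y i) : ℤ) : ℝ)) (y := x) (fun z _ => hd z) (fun z _ => hC z)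
    convex_univ (mem_univ _) (mem_univ _)
  rw [Real.norm_eq_abs] at h2
  refine h2.trans (mul_le_mul_of_nonneg_left ?_ hC0)
  unfold dT
  rw [pi_norm_le_iff_of_nonneg (Finset.sum_nonneg fun i _ => sb_tn_nonneg _)]
  intro i
  have h3 : ‖(x - (y + fun i => ((round (x i - y i) : ℤ) : ℝ))) i‖ = tn (x i - y i) := by
    simp only [Pi.sub_apply, Pi.add_apply, Real.norm_eq_abs, tn]
    congr 1
    ring
  rw [h3]
  exact Finset.single_le_sum (f := fun i => tn (x i - y i)) (fun i _ => sb_tn_nonneg _)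
    (Finset.mem_univ i)

end Vale.Agent.P232
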