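import Mathlib
import Vale.Agent.P232.SA2
import Vale.Agent.P232.SB

/-!
# P232, module SC: polarization keeps the torus Lipschitz constant and all integrals
-/

open MeasureTheory Set Filter
open scoped Topology

namespace Vale.Agent.P232

private theorem SC_cell_sub (n : ℕ) : cell n ⊆ Set.Icc (0 : Fin n → ℝ) 1 := by
  intro x hx
  constructor
  · intro i
    exact (hx i (Set.mem_univ i)).1
  · intro i
    exact (hx i (Set.mem_univ i)).2.le

private theorem SC_intOn {F : (Fin 3 → ℝ) → ℝ} (hF : Continuous F) : IntegrableOn F (cell 3) :=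
  (hF.continuousOn.integrableOn_compact isCompact_Icc).mono_set (SC_cell_sub 3)

/-- opposite sides -/
private theorem SC_opp {a a' b b' M : ℝ} (h1 : |a - b| ≤ M) (h2 : |a' - b'| ≤ M)
    (h3 : |a - b'| ≤ M) (h4 : |a' - b| ≤ M) : |max a a' - min b b'| ≤ M := by
  rcases max_choice a a' with h | h <;> rcases min_choice b b' with h' | h' <;> rw [h, h']
  · exact h1
  · exact h3
  · exact h4
  · exact h2

theorem pol_TL {L : ℝ} {g : (Fin 3 → ℝ) → ℝ} (hg : TL L g) (j : Fin 3) (t : ℝ) :
    TL L (pol j t g) where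
  L0 := hg.L0
  per := pol_per hg.per j t
  nonneg := fun x => by
    unfold pol
    split_ifs
    · exact le_max_of_le_left (hg.nonneg x)
    · exact le_min (hg.nonneg x) (hg.nonneg _)
  le_one := fun x => by
    unfold pol
    split_ifs
    · exact max_le (hg.le_one x) (hg.le_one _)
    · exact min_le_of_left_le (hg.le_one x)
  lip := fun x y => by
    have h1 : |g x - g y| ≤ L * dT x y := hg.lip x y
    have h2 : |g (rfx j t x) - g (rfx j t y)| ≤ L * dT x y := by
      rw [← dT_rfx_rfx j t x y]
      exact hg.lip _ _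
    by_cases hx : Int.fract (x j - t) < 1 / 2 <;> by_cases hy : Int.fract (y j - t) < 1 / 2
    · have e1 : pol j t g x = max (g x) (g (rfx j t x)) := by unfold pol; rw [if_pos hx]
      have e2 : pol j t g y = max (g y) (g (rfx j t y)) := by unfold pol; rw [if_pos hy]
      rw [e1, e2]
      exact (abs_max_sub_max_le_max _ _ _ _).trans (max_le h1 h2)
    · have hop : ¬ (Int.fract (x j - t) < 1 / 2 ↔ Int.fract (y j - t) < 1 / 2) := fun h =>
        hy (h.1 hx)
      have h3 : |g x - g (rfx j t y)| ≤ L * dT x y :=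
        (hg.lip _ _).trans (mul_le_mul_of_nonneg_left (dT_opp hop) hg.L0)
      have h4 : |g (rfx j t x) - g y| ≤ L * dT x y := by
        refine (hg.lip _ _).trans (mul_le_mul_of_nonneg_left ?_ hg.L0)
        rw [dT_rfx_left]
        exact dT_opp hop
      have e1 : pol j t g x = max (g x) (g (rfx j t x)) := by unfold pol; rw [if_pos hx]
      have e2 : pol j t g y = min (g y) (g (rfx j t y)) := by unfold pol; rw [if_neg hy]
      rw [e1, e2]
      exact SC_opp h1 h2 h3 h4
    · have hop : ¬ (Int.fract (x j - t) < 1 / 2 ↔ Int.fract (y j - t) < 1 / 2) := fun h =>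
        hx (h.2 hy)
      have h3 : |g x - g (rfx j t y)| ≤ L * dT x y :=
        (hg.lip _ _).trans (mul_le_mul_of_nonneg_left (dT_opp hop) hg.L0)
      have h4 : |g (rfx j t x) - g y| ≤ L * dT x y := by
        refine (hg.lip _ _).trans (mul_le_mul_of_nonneg_left ?_ hg.L0)
        rw [dT_rfx_left]
        exact dT_opp hop
      have e1 : pol j t g x = min (g x) (g (rfx j t x)) := by unfold pol; rw [if_neg hx]
      have e2 : pol j t g y = max (g y) (g (rfx j t y)) := by unfold pol; rw [if_pos hy]
      rw [e1, e2, abs_sub_comm]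
      refine SC_opp ?_ ?_ ?_ ?_
      · rw [abs_sub_comm]; exact h1
      · rw [abs_sub_comm]; exact h2
      · rw [abs_sub_comm]; exact h4
      · rw [abs_sub_comm]; exact h3
    · have e1 : pol j t g x = min (g x) (g (rfx j t x)) := by unfold pol; rw [if_neg hx]
      have e2 : pol j t g y = min (g y) (g (rfx j t y)) := by unfold pol; rw [if_neg hy]
      rw [e1, e2]
      exact (abs_min_sub_min_le_max _ _ _ _).trans (max_le h1 h2)

private theorem SC_pair {g : (Fin 3 → ℝ) → ℝ} (hg : IsPer g) (j : Fin 3) (t : ℝ)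
    (Φ : ℝ → ℝ) (x : Fin 3 → ℝ) :
    Φ (pol j t g x) + Φ (pol j t g (rfx j t x)) = Φ (g x) + Φ (g (rfx j t x)) := by
  rw [pol_rfx hg j t x]
  have h : pol j t g x = g x ∨ pol j t g x = g (rfx j t x) := by
    unfold pol
    split_ifs
    · exact max_choice _ _
    · exact min_choice _ _
  rcases h with h | h
  · rw [h]
    have : g x + g (rfx j t x) - g x = g (rfx j t x) := by ring
    rw [this]
  · rw [h]
    have : g x + g (rfx j t x) - g (rfx j t x) = g x := by ring
    rw [this, add_comm]

theorem pol_int {L : ℝ} {g : (Fin 3 → ℝ) → ℝ} (hg : TL L g) (j : Fin 3) (t : ℝ)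
    {Φ : ℝ → ℝ} (hΦ : Continuous Φ) :
    ∫ x in cell 3, Φ (pol j t g x) = ∫ x in cell 3, Φ (g x) := by
  have hP := pol_TL hg j t
  have hPc : Continuous (fun x => Φ (pol j t g x)) := hΦ.comp hP.cont
  have hgc : Continuous (fun x => Φ (g x)) := hΦ.comp hg.cont
  have hPc' : Continuous (fun x => Φ (pol j t g (rfx j t x))) := hPc.comp (rfx_cont j t)
  have hgc' : Continuous (fun x => Φ (g (rfx j t x))) := hgc.comp (rfx_cont j t)
  have h1 : ∫ x in cell 3, Φ (pol j t g (rfx j t x)) = ∫ x in cell 3, Φ (pol j t g x) :=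
    integral_rfx (F := fun x => Φ (pol j t g x)) (fun x k => congrArg Φ (hP.per x k)) j t
  have h2 : ∫ x in cell 3, Φ (g (rfx j t x)) = ∫ x in cell 3, Φ (g x) :=
    integral_rfx (F := fun x => Φ (g x)) (fun x k => congrArg Φ (hg.per x k)) j t
  have h3 : ∫ x in cell 3, (Φ (pol j t g x) + Φ (pol j t g (rfx j t x)))
      = ∫ x in cell 3, (Φ (g x) + Φ (g (rfx j t x))) := by
    congr 1
    funext x
    exact SC_pair hg.per j t Φ x
  rw [integral_add (SC_intOn hPc) (SC_intOn hPc'), integral_add (SC_intOn hgc) (SC_intOn hgc'),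
    h1, h2] at h3
  linarith

end Vale.Agent.P232
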