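import Mathlib
import Vale.Agent.P232.SA2
import Vale.Agent.P232.SB
import Vale.Agent.P232.SC
import Vale.Agent.P232.UpperAux

/-!
# P232 block S, module SD: polarization does not increase the nonlocal total variation (helper50)
-/

open MeasureTheory Set

namespace Vale.Agent.P232

theorem four_pt_aux {a a' b b' : ℝ} (h1 : a ≤ a') (h2 : b' ≤ b) :
    |a' - b| + |a - b'| ≤ |a - b| + |a' - b'| := by
  rcases abs_cases (a' - b) with ⟨e1, _⟩ | ⟨e1, _⟩ <;>
  rcases abs_cases (a - b') with ⟨e2, _⟩ | ⟨e2, _⟩ <;>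
  rcases abs_cases (a - b) with ⟨e3, _⟩ | ⟨e3, _⟩ <;>
  rcases abs_cases (a' - b') with ⟨e4, _⟩ | ⟨e4, _⟩ <;>
  rw [e1, e2, e3, e4] <;> linarith

theorem four_pt (a a' b b' K1 K2 : ℝ) (h2 : 0 ≤ K2) (h : K2 ≤ K1) :
    K1 * (|max a a' - max b b'| + |min a a' - min b b'|)
      + K2 * (|max a a' - min b b'| + |min a a' - max b b'|)
      ≤ K1 * (|a - b| + |a' - b'|) + K2 * (|a - b'| + |a' - b|) := by
  rcases le_total a a' with h3 | h3 <;> rcases le_total b b' with h4 | h4
  · rw [max_eq_right h3, min_eq_left h3, max_eq_right h4, min_eq_left h4]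
    nlinarith
  · rw [max_eq_right h3, min_eq_left h3, max_eq_left h4, min_eq_right h4]
    nlinarith [four_pt_aux h3 h4]
  · rw [max_eq_left h3, min_eq_right h3, max_eq_right h4, min_eq_left h4]
    have := four_pt_aux h3 h4
    nlinarith [this]
  · rw [max_eq_left h3, min_eq_right h3, max_eq_left h4, min_eq_right h4]

namespace SD

/-- the measure on the cell -/
noncomputable def mu : Measure (Fin 3 → ℝ) := volume.restrict (cell 3)

instance : IsFiniteMeasure mu := ⟨by
  unfold mu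
  rw [Measure.restrict_apply_univ, UpperPart.cell_vol]
  exact ENNReal.one_lt_top⟩

theorem F_int {G : (Fin 3 → ℝ) → ℝ} (hG : Continuous G) (h0 : ∀ x, 0 ≤ G x) (h1 : ∀ x, G x ≤ 1)
    (e : ℝ) {u v : (Fin 3 → ℝ) → (Fin 3 → ℝ)} (hu : Continuous u) (hv : Continuous v) :
    Integrable (fun p : (Fin 3 → ℝ) × (Fin 3 → ℝ) =>
      |G (u p.1) - G (v p.2)| * KK e (u p.1 - v p.2)) (mu.prod mu) := by
  refine Integrable.of_bound (C := 1) ?_ (ae_of_all _ fun p => ?_)
  · apply Measurable.aestronglyMeasurable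
    apply Measurable.mul
    · exact (continuous_abs.comp ((hG.comp (hu.comp continuous_fst)).sub
        (hG.comp (hv.comp continuous_snd)))).measurable
    · exact (KK_meas e).comp ((hu.comp continuous_fst).sub (hv.comp continuous_snd)).measurable
  · rw [Real.norm_eq_abs, abs_mul, abs_abs, abs_of_nonneg (KK_nonneg _ _)]
    have : |G (u p.1) - G (v p.2)| ≤ 1 :=
      abs_le.2 ⟨by linarith [h0 (u p.1), h1 (v p.2)], by linarith [h1 (u p.1), h0 (v p.2)]⟩
    exact mul_le_one₀ this (KK_nonneg _ _) (KK_le_one _ _)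

theorem inner_per {G : (Fin 3 → ℝ) → ℝ} (hp : IsPer G) (e : ℝ) (x : Fin 3 → ℝ) :
    IsPer (fun y => |G x - G y| * KK e (x - y)) := by
  intro y k
  show |G x - G (y + fun i => (k i : ℝ))| * KK e (x - (y + fun i => (k i : ℝ))) = _
  rw [hp y k]
  have h1 : x - (y + fun i => (k i : ℝ)) = (x - y) + fun i => (((-k) i : ℤ) : ℝ) := by
    ext i
    simp
    ring
  rw [h1, KK_per e (x - y) (-k)]

theorem outer_per {G : (Fin 3 → ℝ) → ℝ} (hp : IsPer G) (e : ℝ) :
    IsPer (fun x => ∫ y in cell 3, |G x - G y| * KK e (x - y)) := by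
  intro x k
  show ∫ y in cell 3, |G (x + fun i => (k i : ℝ)) - G y| * KK e ((x + fun i => (k i : ℝ)) - y) = _
  congr 1
  ext y
  rw [hp x k]
  have h1 : (x + fun i => (k i : ℝ)) - y = (x - y) + fun i => (k i : ℝ) := by
    ext i
    simp
    ring
  rw [h1, KK_per e (x - y) k]

variable {G : (Fin 3 → ℝ) → ℝ}

theorem DD1 (hG : Continuous G) (h0 : ∀ x, 0 ≤ G x) (h1 : ∀ x, G x ≤ 1) (e : ℝ) :
    ∫ p, |G (id p.1) - G (id p.2)| * KK e (id p.1 - id p.2) ∂(mu.prod mu) = DD e G :=
  integral_prod _ (F_int hG h0 h1 e continuous_id continuous_id)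

theorem DD2 (hG : Continuous G) (h0 : ∀ x, 0 ≤ G x) (h1 : ∀ x, G x ≤ 1) (hp : IsPer G) (e : ℝ)
    (j : Fin 3) (t : ℝ) :
    ∫ p, |G (rfx j t p.1) - G (id p.2)| * KK e (rfx j t p.1 - id p.2) ∂(mu.prod mu) = DD e G := by
  rw [integral_prod _ (F_int hG h0 h1 e (rfx_cont j t) continuous_id)]
  exact integral_rfx (F := fun x => ∫ y in cell 3, |G x - G y| * KK e (x - y)) (outer_per hp e) j t

theorem DD3 (hG : Continuous G) (h0 : ∀ x, 0 ≤ G x) (h1 : ∀ x, G x ≤ 1) (hp : IsPer G) (e : ℝ)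
    (j : Fin 3) (t : ℝ) :
    ∫ p, |G (id p.1) - G (rfx j t p.2)| * KK e (id p.1 - rfx j t p.2) ∂(mu.prod mu) = DD e G := by
  rw [integral_prod _ (F_int hG h0 h1 e continuous_id (rfx_cont j t))]
  unfold DD
  refine integral_congr_ae (ae_of_all _ fun x => ?_)
  exact integral_rfx (F := fun y => |G x - G y| * KK e (x - y)) (inner_per hp e x) j t

theorem DD4 (hG : Continuous G) (h0 : ∀ x, 0 ≤ G x) (h1 : ∀ x, G x ≤ 1) (hp : IsPer G) (e : ℝ)
    (j : Fin 3) (t : ℝ) :
    ∫ p, |G (rfx j t p.1) - G (rfx j t p.2)| * KK e (rfx j t p.1 - rfx j t p.2) ∂(mu.prod mu)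
      = DD e G := by
  rw [integral_prod _ (F_int hG h0 h1 e (rfx_cont j t) (rfx_cont j t))]
  have h2 : ∀ x, ∫ y, |G (rfx j t x) - G (rfx j t y)| * KK e (rfx j t x - rfx j t y) ∂mu
      = ∫ y in cell 3, |G (rfx j t x) - G y| * KK e (rfx j t x - y) := fun x =>
    integral_rfx (F := fun y => |G (rfx j t x) - G y| * KK e (rfx j t x - y))
      (inner_per hp e _) j t
  rw [integral_congr_ae (ae_of_all _ h2)]
  exact integral_rfx (F := fun x => ∫ y in cell 3, |G x - G y| * KK e (x - y)) (outer_per hp e) j t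

/-- the sum of the four reflected integrands -/
noncomputable def A (j : Fin 3) (t e : ℝ) (G : (Fin 3 → ℝ) → ℝ)
    (p : (Fin 3 → ℝ) × (Fin 3 → ℝ)) : ℝ :=
  (|G (id p.1) - G (id p.2)| * KK e (id p.1 - id p.2)
    + |G (rfx j t p.1) - G (rfx j t p.2)| * KK e (rfx j t p.1 - rfx j t p.2))
  + (|G (id p.1) - G (rfx j t p.2)| * KK e (id p.1 - rfx j t p.2)
    + |G (rfx j t p.1) - G (id p.2)| * KK e (rfx j t p.1 - id p.2))

theorem A_integrable (hG : Continuous G) (h0 : ∀ x, 0 ≤ G x) (h1 : ∀ x, G x ≤ 1) (e : ℝ)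
    (j : Fin 3) (t : ℝ) : Integrable (A j t e G) (mu.prod mu) := by
  unfold A
  exact ((F_int hG h0 h1 e continuous_id continuous_id).add
    (F_int hG h0 h1 e (rfx_cont j t) (rfx_cont j t))).add
    ((F_int hG h0 h1 e continuous_id (rfx_cont j t)).add
    (F_int hG h0 h1 e (rfx_cont j t) continuous_id))

theorem A_int (hG : Continuous G) (h0 : ∀ x, 0 ≤ G x) (h1 : ∀ x, G x ≤ 1) (hp : IsPer G) (e : ℝ)
    (j : Fin 3) (t : ℝ) : ∫ p, A j t e G p ∂(mu.prod mu) = 4 * DD e G := by
  unfold A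
  rw [integral_add, integral_add, integral_add, DD1 hG h0 h1, DD2 hG h0 h1 hp,
    DD3 hG h0 h1 hp, DD4 hG h0 h1 hp]
  · ring
  · exact F_int hG h0 h1 e continuous_id (rfx_cont j t)
  · exact F_int hG h0 h1 e (rfx_cont j t) continuous_id
  · exact F_int hG h0 h1 e continuous_id continuous_id
  · exact F_int hG h0 h1 e (rfx_cont j t) (rfx_cont j t)
  · exact (F_int hG h0 h1 e continuous_id continuous_id).add
      (F_int hG h0 h1 e (rfx_cont j t) (rfx_cont j t))
  · exact (F_int hG h0 h1 e continuous_id (rfx_cont j t)).add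
      (F_int hG h0 h1 e (rfx_cont j t) continuous_id)

theorem A_le {g : (Fin 3 → ℝ) → ℝ} (hp : IsPer g) (e : ℝ) (j : Fin 3) (t : ℝ)
    (p : (Fin 3 → ℝ) × (Fin 3 → ℝ)) : A j t e (pol j t g) p ≤ A j t e g p := by
  obtain ⟨x, y⟩ := p
  unfold A
  simp only [id]
  rw [KK_rfx_rfx, KK_rfx_left, pol_rfx hp, pol_rfx hp]
  set a := g x
  set a' := g (rfx j t x)
  set b := g y
  set b' := g (rfx j t y)
  set K1 := KK e (x - y)
  set K2 := KK e (x - rfx j t y)
  have hK1 : 0 ≤ K1 := KK_nonneg _ _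
  have hK2 : 0 ≤ K2 := KK_nonneg _ _
  have ha : max a a' + min a a' = a + a' := max_add_min a a'
  have hb : max b b' + min b b' = b + b' := max_add_min b b'
  have hPx : pol j t g x = if Int.fract (x j - t) < 1 / 2 then max a a' else min a a' := rfl
  have hPy : pol j t g y = if Int.fract (y j - t) < 1 / 2 then max b b' else min b b' := rfl
  by_cases hx : Int.fract (x j - t) < 1 / 2
  · by_cases hy : Int.fract (y j - t) < 1 / 2
    · have hK : K2 ≤ K1 := KK_same e (iff_of_true hx hy)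
      have h4 := four_pt a a' b b' K1 K2 hK2 hK
      rw [hPx, hPy, if_pos hx, if_pos hy]
      rw [show a + a' - max a a' = min a a' by linarith,
        show b + b' - max b b' = min b b' by linarith]
      linarith
    · have hK : K1 ≤ K2 := KK_opp e (fun h => hy (h.1 hx))
      have h4 := four_pt a a' b' b K2 K1 hK1 hK
      rw [max_comm b' b, min_comm b' b] at h4
      rw [hPx, hPy, if_pos hx, if_neg hy]
      rw [show a + a' - max a a' = min a a' by linarith,
        show b + b' - min b b' = max b b' by linarith]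
      linarith
  · by_cases hy : Int.fract (y j - t) < 1 / 2
    · have hK : K1 ≤ K2 := KK_opp e (fun h => hx (h.2 hy))
      have h4 := four_pt a a' b' b K2 K1 hK1 hK
      rw [max_comm b' b, min_comm b' b] at h4
      rw [hPx, hPy, if_neg hx, if_pos hy]
      rw [show a + a' - min a a' = max a a' by linarith,
        show b + b' - max b b' = min b b' by linarith]
      linarith
    · have hK : K2 ≤ K1 := KK_same e (iff_of_false hx hy)
      have h4 := four_pt a a' b b' K1 K2 hK2 hK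
      rw [hPx, hPy, if_neg hx, if_neg hy]
      rw [show a + a' - min a a' = max a a' by linarith,
        show b + b' - min b b' = max b b' by linarith]
      linarith

end SD

/-- polarization does not increase the nonlocal total variation -/
theorem pol_DD {L : ℝ} {g : (Fin 3 → ℝ) → ℝ} (hg : TL L g) (e : ℝ) (j : Fin 3) (t : ℝ) :
    DD e (pol j t g) ≤ DD e g := by
  have hP : TL L (pol j t g) := pol_TL hg j t
  have h1 := SD.A_int hP.cont hP.nonneg hP.le_one hP.per e j t
  have h2 := SD.A_int hg.cont hg.nonneg hg.le_one hg.per e j t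
  have h3 : ∫ p, SD.A j t e (pol j t g) p ∂(SD.mu.prod SD.mu)
      ≤ ∫ p, SD.A j t e g p ∂(SD.mu.prod SD.mu) :=
    integral_mono (SD.A_integrable hP.cont hP.nonneg hP.le_one e j t)
      (SD.A_integrable hg.cont hg.nonneg hg.le_one e j t) (SD.A_le hg.per e j t)
  linarith

end Vale.Agent.P232
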