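import Vale.Agent.P232.SA2
import Vale.Agent.P232.SB
import Vale.Agent.P232.SC
import Vale.Agent.P232.Shift

/-! # P232, module SE: equality in the moment functional -/

open MeasureTheory Set Filter
open scoped Topology

namespace Vale.Agent.P232

theorem SE_cont_int {F : (Fin 3 → ℝ) → ℝ} (hF : Continuous F) : IntegrableOn F (cell 3) := by
  have hsub : cell 3 ⊆ Set.Icc (fun _ => (0 : ℝ)) (fun _ => 1) := by
    intro x hx
    exact ⟨fun i => (hx i trivial).1, fun i => (hx i trivial).2.le⟩
  exact (hF.continuousOn.integrableOn_compact isCompact_Icc).mono_set hsub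

theorem SE_zero {H : (Fin 3 → ℝ) → ℝ} (hc : Continuous H) (hp : IsPer H) (h0 : ∀ x, 0 ≤ H x)
    (hi : ∫ x in cell 3, H x ≤ 0) (x : Fin 3 → ℝ) : H x = 0 := by
  by_contra hx
  have hpos : 0 < H x := lt_of_le_of_ne (h0 x) (Ne.symm hx)
  rw [← B1_integral_shift hp (x - fun _ => 1 / 2)] at hi
  refine absurd hi (not_le.2 ?_)
  have hc' : Continuous fun y => H (y + (x - fun _ => 1 / 2)) := hc.comp (by fun_prop)
  rw [setIntegral_pos_iff_support_of_nonneg_ae (Eventually.of_forall fun y => h0 _) (SE_cont_int hc')]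
  have hopen : IsOpen ({y : Fin 3 → ℝ | 0 < H (y + (x - fun _ => 1 / 2))}
      ∩ Set.pi Set.univ fun _ : Fin 3 => Set.Ioo (0 : ℝ) 1) :=
    (isOpen_lt continuous_const hc').inter (isOpen_set_pi Set.finite_univ fun _ _ => isOpen_Ioo)
  have hne : ({y : Fin 3 → ℝ | 0 < H (y + (x - fun _ => 1 / 2))}
      ∩ Set.pi Set.univ fun _ : Fin 3 => Set.Ioo (0 : ℝ) 1).Nonempty := by
    refine ⟨fun _ => 1 / 2, ?_, fun _ _ => ⟨by norm_num, by norm_num⟩⟩
    show 0 < H ((fun _ => 1 / 2) + (x - fun _ => 1 / 2))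
    rw [add_sub_cancel]
    exact hpos
  refine lt_of_lt_of_le (hopen.measure_pos volume hne) (measure_mono ?_)
  rintro y ⟨hy, hy'⟩
  exact ⟨ne_of_gt hy, fun i hi' => ⟨(hy' i hi').1.le, (hy' i hi').2⟩⟩

theorem SE_cos_per (x : Fin 3 → ℝ) (k : Fin 3 → ℤ) :
    ∑ i, Real.cos (2 * Real.pi * (x + fun i => (k i : ℝ)) i) = ∑ i, Real.cos (2 * Real.pi * x i) := by
  refine Finset.sum_congr rfl fun i _ => ?_
  rw [Pi.add_apply, mul_add, mul_comm (2 * Real.pi) (k i : ℝ)]
  exact Real.cos_add_int_mul_two_pi _ _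

theorem SE_diff (j : Fin 3) (t : ℝ) (x : Fin 3 → ℝ) :
    ∑ i, Real.cos (2 * Real.pi * x i) - ∑ i, Real.cos (2 * Real.pi * rfx j t x i)
      = (-2 * Real.sin (2 * Real.pi * t)) * Real.sin (2 * Real.pi * (x j - t)) := by
  rw [← Finset.sum_sub_distrib, Finset.sum_eq_single j]
  · rw [rfx_same, Real.cos_sub_cos]
    have e1 : (2 * Real.pi * x j + 2 * Real.pi * (2 * t - x j)) / 2 = 2 * Real.pi * t := by ring
    have e2 : (2 * Real.pi * x j - 2 * Real.pi * (2 * t - x j)) / 2 = 2 * Real.pi * (x j - t) := by ring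
    rw [e1, e2]
  · intro i _ hi
    rw [rfx_ne j t x hi, sub_self]
  · intro h
    exact absurd (Finset.mem_univ j) h

theorem SE_sin_fract (s : ℝ) : Real.sin (2 * Real.pi * s) = Real.sin (2 * Real.pi * Int.fract s) := by
  have e : 2 * Real.pi * s = 2 * Real.pi * Int.fract s + (⌊s⌋ : ℝ) * (2 * Real.pi) := by
    calc 2 * Real.pi * s = 2 * Real.pi * (Int.fract s + (⌊s⌋ : ℝ)) := by rw [Int.fract_add_floor]
      _ = _ := by ring
  conv_lhs => rw [e]
  exact Real.sin_add_int_mul_two_pi _ _

theorem pol_Lam_eq {L : ℝ} {g : (Fin 3 → ℝ) → ℝ} (hg : TL L g) (j : Fin 3) {t : ℝ}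
    (ht : -(1 / 2) < t) (ht' : t < 0) (h : Lam (pol j t g) ≤ Lam g) :
    ∀ x : Fin 3 → ℝ, Int.fract (x j - t) < 1 / 2 → g (rfx j t x) ≤ g x := by
  have hP := pol_TL hg j t
  have hPc := hP.cont
  have hgc := hg.cont
  have hcc : Continuous fun x : Fin 3 → ℝ => ∑ i, Real.cos (2 * Real.pi * x i) := by fun_prop
  have hcr : Continuous fun x : Fin 3 → ℝ => ∑ i, Real.cos (2 * Real.pi * rfx j t x i) :=
    hcc.comp (rfx_cont j t)
  -- the integrand
  have hDr : ∀ x, pol j t g (rfx j t x) - g (rfx j t x) = - (pol j t g x - g x) := by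
    intro x
    rw [pol_rfx hg.per]
    ring
  have hFper : IsPer fun x => (pol j t g x - g x) * ∑ i, Real.cos (2 * Real.pi * x i) := by
    intro x k
    show (pol j t g (x + _) - g (x + _)) * _ = _
    rw [hP.per, hg.per, SE_cos_per]
  have hF := integral_rfx hFper j t
  have hFc : Continuous fun x => (pol j t g x - g x) * ∑ i, Real.cos (2 * Real.pi * x i) :=
    (hPc.sub hgc).mul hcc
  have hFrc : Continuous fun x => (pol j t g (rfx j t x) - g (rfx j t x))
      * ∑ i, Real.cos (2 * Real.pi * rfx j t x i) := hFc.comp (rfx_cont j t)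
  have hLam : ∫ x in cell 3, (pol j t g x - g x) * ∑ i, Real.cos (2 * Real.pi * x i) ≤ 0 := by
    have e : ∫ x in cell 3, (pol j t g x - g x) * ∑ i, Real.cos (2 * Real.pi * x i)
        = Lam (pol j t g) - Lam g := by
      have i1 : IntegrableOn (fun x => pol j t g x * ∑ i, Real.cos (2 * Real.pi * x i)) (cell 3) :=
        SE_cont_int (hPc.mul hcc)
      have i2 : IntegrableOn (fun x => g x * ∑ i, Real.cos (2 * Real.pi * x i)) (cell 3) :=
        SE_cont_int (hgc.mul hcc)
      unfold Lam
      rw [← integral_sub i1 i2]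
      refine integral_congr_ae (Eventually.of_forall fun x => ?_)
      show (pol j t g x - g x) * _ = pol j t g x * _ - g x * _
      ring
    rw [e]
    linarith
  have hHi : ∫ x in cell 3, (pol j t g x - g x) * (∑ i, Real.cos (2 * Real.pi * x i)
      - ∑ i, Real.cos (2 * Real.pi * rfx j t x i)) ≤ 0 := by
    have e : ∫ x in cell 3, (pol j t g x - g x) * (∑ i, Real.cos (2 * Real.pi * x i)
        - ∑ i, Real.cos (2 * Real.pi * rfx j t x i))
        = (∫ x in cell 3, (pol j t g x - g x) * ∑ i, Real.cos (2 * Real.pi * x i))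
          + ∫ x in cell 3, (pol j t g (rfx j t x) - g (rfx j t x))
            * ∑ i, Real.cos (2 * Real.pi * rfx j t x i) := by
      rw [← integral_add (SE_cont_int hFc) (SE_cont_int hFrc)]
      refine integral_congr_ae (Eventually.of_forall fun x => ?_)
      show (pol j t g x - g x) * _ = (pol j t g x - g x) * _ + (pol j t g (rfx j t x) - g (rfx j t x)) * _
      rw [hDr x]
      ring
    rw [e, hF]
    linarith
  have hs : Real.sin (2 * Real.pi * t) < 0 := by
    refine Real.sin_neg_of_neg_of_neg_pi_lt ?_ ?_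
    · nlinarith [Real.pi_pos]
    · nlinarith [Real.pi_pos]
  have hH0 : ∀ x, 0 ≤ (pol j t g x - g x) * (∑ i, Real.cos (2 * Real.pi * x i)
      - ∑ i, Real.cos (2 * Real.pi * rfx j t x i)) := by
    intro x
    rw [SE_diff, SE_sin_fract (x j - t)]
    have hf0 := Int.fract_nonneg (x j - t)
    have hf1 := (Int.fract_lt_one (x j - t)).le
    unfold pol
    split_ifs with hlt
    · have h1 : 0 ≤ Real.sin (2 * Real.pi * Int.fract (x j - t)) := by
        refine Real.sin_nonneg_of_nonneg_of_le_pi (by positivity) ?_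
        nlinarith [Real.pi_pos]
      have h2 : 0 ≤ max (g x) (g (rfx j t x)) - g x := sub_nonneg.2 (le_max_left _ _)
      exact mul_nonneg h2 (mul_nonneg (by linarith) h1)
    · have h1 : Real.sin (2 * Real.pi * Int.fract (x j - t)) ≤ 0 := by
        have e : Real.sin (2 * Real.pi * Int.fract (x j - t))
            = - Real.sin (2 * Real.pi * Int.fract (x j - t) - Real.pi) := by
          rw [Real.sin_sub_pi, neg_neg]
        rw [e, neg_nonpos]
        refine Real.sin_nonneg_of_nonneg_of_le_pi ?_ ?_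
        · nlinarith [Real.pi_pos]
        · nlinarith [Real.pi_pos]
      have h2 : min (g x) (g (rfx j t x)) - g x ≤ 0 := sub_nonpos.2 (min_le_left _ _)
      exact mul_nonneg_of_nonpos_of_nonpos h2 (mul_nonpos_of_nonneg_of_nonpos (by linarith) h1)
  have hHc : Continuous fun x => (pol j t g x - g x) * (∑ i, Real.cos (2 * Real.pi * x i)
      - ∑ i, Real.cos (2 * Real.pi * rfx j t x i)) := (hPc.sub hgc).mul (hcc.sub hcr)
  have hHp : IsPer fun x => (pol j t g x - g x) * (∑ i, Real.cos (2 * Real.pi * x i)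
      - ∑ i, Real.cos (2 * Real.pi * rfx j t x i)) := by
    intro x k
    show (pol j t g (x + _) - g (x + _)) * (_ - _) = _
    obtain ⟨l, hl⟩ := rfx_per j t x k
    rw [hP.per, hg.per, SE_cos_per, hl, SE_cos_per]
  have hz := SE_zero hHc hHp hH0 hHi
  intro x hx
  rcases (Int.fract_nonneg (x j - t)).lt_or_eq with hp | hp
  · have h1 := hz x
    rw [SE_diff, SE_sin_fract (x j - t)] at h1
    have h2 : 0 < Real.sin (2 * Real.pi * Int.fract (x j - t)) := by
      refine Real.sin_pos_of_pos_of_lt_pi (by positivity) ?_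
      nlinarith [Real.pi_pos]
    have h3 : pol j t g x - g x = 0 := by
      rcases mul_eq_zero.1 h1 with h4 | h4
      · exact h4
      · exact absurd h4 (mul_pos (by linarith) h2).ne'
    unfold pol at h3
    rw [if_pos hx] at h3
    have h5 := le_max_right (g x) (g (rfx j t x))
    linarith
  · -- on the plane
    have hm : x j - t = (⌊x j - t⌋ : ℝ) := by
      have := Int.fract_add_floor (x j - t)
      rw [← hp, zero_add] at this
      exact this.symm
    have e : rfx j t x = x + fun i => (((Pi.single j (-2 * ⌊x j - t⌋) : Fin 3 → ℤ) i : ℤ) : ℝ) := by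
      funext i
      by_cases hij : i = j
      · subst hij
        rw [rfx_same, Pi.add_apply, Pi.single_eq_same]
        push_cast
        linarith
      · rw [rfx_ne j t x hij, Pi.add_apply, Pi.single_eq_of_ne hij]
        simp
    rw [e, hg.per]

end Vale.Agent.P232
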