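import Mathlib
import Vale.Agent.P232.SDefs

/-!
# P232, module SF: compactness of the class of torus Lipschitz functions
-/

open MeasureTheory Set Filter
open scoped Topology

namespace Vale.Agent.P232

private lemma sf_tn_le (s : ℝ) : tn s ≤ |s| := by
  unfold tn
  have h := round_le s 0
  simpa using h

private lemma sf_dT_le (x y : Fin 3 → ℝ) : dT x y ≤ ∑ i, |x i - y i| := by
  unfold dT
  exact Finset.sum_le_sum fun i _ => sf_tn_le _

private lemma sf_dT_le_dist (x y : Fin 3 → ℝ) : dT x y ≤ 3 * dist x y := by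
  refine (sf_dT_le x y).trans ?_
  have h : ∀ i ∈ (Finset.univ : Finset (Fin 3)), |x i - y i| ≤ dist x y := by
    intro i _
    have := dist_le_pi_dist x y i
    rwa [Real.dist_eq] at this
  have := Finset.sum_le_sum h
  simpa using this

/-- compactness of the class `TL L` for pointwise convergence -/
theorem TL_compact {L : ℝ} {g : ℕ → (Fin 3 → ℝ) → ℝ} (hg : ∀ n, TL L (g n)) :
    ∃ (G : (Fin 3 → ℝ) → ℝ) (φ : ℕ → ℕ), StrictMono φ ∧ TL L G ∧
      ∀ x, Tendsto (fun n => g (φ n) x) atTop (𝓝 (G x)) := by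
  have hL : 0 ≤ L := (hg 0).L0
  obtain ⟨D, hDc, hDd⟩ := TopologicalSpace.exists_countable_dense (Fin 3 → ℝ)
  have : Countable D := hDc.to_subtype
  let u : ℕ → D → Icc (0 : ℝ) 1 := fun n d => ⟨g n d, (hg n).nonneg d, (hg n).le_one d⟩
  obtain ⟨a, φ, hφ, ha⟩ := CompactSpace.tendsto_subseq u
  have hconv : ∀ d : D, Tendsto (fun n => g (φ n) d) atTop (𝓝 ((a d : ℝ))) := by
    intro d
    have h1 : Tendsto (fun n => u (φ n) d) atTop (𝓝 (a d)) := by
      have := (tendsto_pi_nhds.1 ha) d
      exact this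
    exact (continuous_subtype_val.tendsto (a d)).comp h1
  have hcau : ∀ x, CauchySeq (fun n => g (φ n) x) := by
    intro x
    rw [Metric.cauchySeq_iff']
    intro ε hε
    have hLe : 0 < ε / (4 * (3 * L + 1)) := by positivity
    obtain ⟨d, hd, hxd⟩ := Metric.dense_iff.1 hDd x _ hLe |>.imp fun y hy => And.intro hy.2 hy.1
    have hxd' : dist d x < ε / (4 * (3 * L + 1)) := hxd
    have hclose : ∀ n, |g n x - g n d| ≤ ε / 4 := by
      intro n
      refine ((hg n).lip x d).trans ?_
      have h1 : dT x d ≤ 3 * dist x d := sf_dT_le_dist x d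
      have h2 : L * dT x d ≤ L * (3 * dist x d) := mul_le_mul_of_nonneg_left h1 hL
      refine h2.trans ?_
      rw [dist_comm] at hxd'
      have h3 : L * (3 * dist x d) ≤ (3 * L + 1) * dist x d := by
        have := dist_nonneg (x := x) (y := d)
        nlinarith
      refine h3.trans ?_
      have h4 : (3 * L + 1) * dist x d ≤ (3 * L + 1) * (ε / (4 * (3 * L + 1))) :=
        mul_le_mul_of_nonneg_left hxd'.le (by positivity)
      refine h4.trans (le_of_eq ?_)
      field_simp
    have hc := (hconv ⟨d, hd⟩).cauchySeq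
    rw [Metric.cauchySeq_iff'] at hc
    obtain ⟨N, hN⟩ := hc (ε / 4) (by positivity)
    refine ⟨N, fun n hn => ?_⟩
    have h5 := hN n hn
    rw [Real.dist_eq] at h5 ⊢
    have h6 := hclose (φ n)
    have h7 := hclose (φ N)
    have h5' : |g (φ n) d - g (φ N) d| < ε / 4 := h5
    rw [abs_le] at h6 h7
    rw [abs_lt] at h5' ⊢
    constructor <;> linarith [h6.1, h6.2, h7.1, h7.2, h5'.1, h5'.2]
  have hlim : ∀ x, ∃ y, Tendsto (fun n => g (φ n) x) atTop (𝓝 y) :=
    fun x => cauchySeq_tendsto_of_complete (hcau x)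
  choose G hG using hlim
  refine ⟨G, φ, hφ, ?_, hG⟩
  refine { L0 := hL, per := ?_, nonneg := ?_, le_one := ?_, lip := ?_ }
  · intro x k
    have h1 := hG (fun i => x i + k i)
    have h2 : (fun n => g (φ n) (fun i => x i + k i)) = fun n => g (φ n) x := by
      funext n
      exact (hg (φ n)).per x k
    rw [h2] at h1
    exact tendsto_nhds_unique h1 (hG x)
  · intro x
    exact ge_of_tendsto' (hG x) fun n => (hg _).nonneg x
  · intro x
    exact le_of_tendsto' (hG x) fun n => (hg _).le_one x
  · intro x y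
    have h := ((hG x).sub (hG y)).abs
    exact le_of_tendsto' h fun n => (hg _).lip x y

end Vale.Agent.P232
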