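import Mathlib
import Vale.Agent.P232.SDefs
import Vale.Agent.P232.SA2

/-!
# P232, block S, module SG: limits of the integral functionals (helper24)
-/

open MeasureTheory Set Filter
open scoped Topology

namespace Vale.Agent.P232

theorem sg_cell_vol : volume (cell 3) = 1 := by
  unfold cell
  rw [Real.volume_pi_Ico]
  simp

theorem sg_fin : IsFiniteMeasure (volume.restrict (cell 3)) := by
  refine ⟨?_⟩
  rw [Measure.restrict_apply_univ, sg_cell_vol]
  exact ENNReal.one_lt_top

theorem lim_int {L : ℝ} {g : ℕ → (Fin 3 → ℝ) → ℝ} {G : (Fin 3 → ℝ) → ℝ}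
    (hg : ∀ n, TL L (g n)) (hG : TL L G) (h : ∀ x, Tendsto (fun n => g n x) atTop (𝓝 (G x)))
    {Φ : ℝ → ℝ} (hΦ : Continuous Φ) :
    Tendsto (fun n => ∫ x in cell 3, Φ (g n x)) atTop (𝓝 (∫ x in cell 3, Φ (G x))) := by
  have := sg_fin
  obtain ⟨C, hC⟩ := (isCompact_Icc (a := (0 : ℝ)) (b := 1)).exists_bound_of_continuousOn
    hΦ.continuousOn
  refine tendsto_integral_of_dominated_convergence (fun _ => C) ?_ ?_ ?_ ?_
  · intro n
    exact (hΦ.comp (hg n).cont).aestronglyMeasurable
  · exact integrable_const C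
  · intro n
    exact Eventually.of_forall fun x => hC _ ⟨(hg n).nonneg x, (hg n).le_one x⟩
  · exact Eventually.of_forall fun x => (hΦ.tendsto _).comp (h x)

theorem lim_Lam {L : ℝ} {g : ℕ → (Fin 3 → ℝ) → ℝ} {G : (Fin 3 → ℝ) → ℝ}
    (hg : ∀ n, TL L (g n)) (hG : TL L G) (h : ∀ x, Tendsto (fun n => g n x) atTop (𝓝 (G x))) :
    Tendsto (fun n => Lam (g n)) atTop (𝓝 (Lam G)) := by
  have := sg_fin
  have hc : Continuous fun x : Fin 3 → ℝ => ∑ i, Real.cos (2 * Real.pi * x i) := by
    fun_prop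
  have hb : ∀ x : Fin 3 → ℝ, |∑ i, Real.cos (2 * Real.pi * x i)| ≤ 3 := by
    intro x
    refine (Finset.abs_sum_le_sum_abs _ _).trans ?_
    refine (Finset.sum_le_sum fun i _ => Real.abs_cos_le_one _).trans ?_
    simp
  unfold Lam
  refine tendsto_integral_of_dominated_convergence (fun _ => (3 : ℝ)) ?_ ?_ ?_ ?_
  · intro n
    exact ((hg n).cont.mul hc).aestronglyMeasurable
  · exact integrable_const _
  · intro n
    refine Eventually.of_forall fun x => ?_
    rw [Real.norm_eq_abs, abs_mul]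
    have h1 : |g n x| ≤ 1 := by
      rw [abs_of_nonneg ((hg n).nonneg x)]
      exact (hg n).le_one x
    calc |g n x| * |∑ i, Real.cos (2 * Real.pi * x i)| ≤ 1 * 3 :=
          mul_le_mul h1 (hb x) (abs_nonneg _) zero_le_one
      _ = 3 := by norm_num
  · exact Eventually.of_forall fun x => (h x).mul_const _

theorem sg_bd {L : ℝ} {g : (Fin 3 → ℝ) → ℝ} (hg : TL L g) (e : ℝ) (x y : Fin 3 → ℝ) :
    ‖|g x - g y| * KK e (x - y)‖ ≤ 1 := by
  rw [Real.norm_eq_abs, abs_mul, abs_abs]
  have h1 : |g x - g y| ≤ 1 := by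
    rw [abs_le]
    constructor <;> linarith [hg.nonneg x, hg.nonneg y, hg.le_one x, hg.le_one y]
  have h2 : |KK e (x - y)| ≤ 1 := by
    rw [abs_of_nonneg (KK_nonneg e _)]
    exact KK_le_one e _
  calc |g x - g y| * |KK e (x - y)| ≤ 1 * 1 := mul_le_mul h1 h2 (abs_nonneg _) zero_le_one
    _ = 1 := by norm_num

theorem sg_meas {L : ℝ} {g : (Fin 3 → ℝ) → ℝ} (hg : TL L g) (e : ℝ) :
    Measurable (Function.uncurry fun x y : Fin 3 → ℝ => |g x - g y| * KK e (x - y)) := by
  have hgm : Measurable g := hg.cont.measurable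
  have h1 : Measurable fun p : (Fin 3 → ℝ) × (Fin 3 → ℝ) => |g p.1 - g p.2| := by
    have := ((hg.cont.comp continuous_fst).sub (hg.cont.comp continuous_snd)).abs
    exact this.measurable
  have h2 : Measurable fun p : (Fin 3 → ℝ) × (Fin 3 → ℝ) => KK e (p.1 - p.2) :=
    (KK_meas e).comp (measurable_fst.sub measurable_snd)
  exact h1.mul h2

theorem lim_DD {L : ℝ} {g : ℕ → (Fin 3 → ℝ) → ℝ} {G : (Fin 3 → ℝ) → ℝ}
    (hg : ∀ n, TL L (g n)) (hG : TL L G) (h : ∀ x, Tendsto (fun n => g n x) atTop (𝓝 (G x)))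
    (e : ℝ) : Tendsto (fun n => DD e (g n)) atTop (𝓝 (DD e G)) := by
  have := sg_fin
  unfold DD
  refine tendsto_integral_of_dominated_convergence (fun _ => (1 : ℝ)) ?_ ?_ ?_ ?_
  · intro n
    exact ((sg_meas (hg n) e).stronglyMeasurable.integral_prod_right
      (ν := volume.restrict (cell 3))).aestronglyMeasurable
  · exact integrable_const _
  · intro n
    refine Eventually.of_forall fun x => ?_
    refine (norm_setIntegral_le_of_norm_le_const (C := 1) ?_ ?_).trans ?_
    · rw [sg_cell_vol]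
      exact ENNReal.one_lt_top
    · intro y _
      exact sg_bd (hg n) e x y
    · simp [Measure.real, sg_cell_vol]
  · refine Eventually.of_forall fun x => ?_
    refine tendsto_integral_of_dominated_convergence (fun _ => (1 : ℝ)) ?_ ?_ ?_ ?_
    · intro n
      exact ((sg_meas (hg n) e).comp measurable_prodMk_left).aestronglyMeasurable
    · exact integrable_const _
    · intro n
      exact Eventually.of_forall fun y => sg_bd (hg n) e x y
    · refine Eventually.of_forall fun y => ?_
      exact (((h x).sub (h y)).abs).mul_const _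

end Vale.Agent.P232
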