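import Mathlib
import Vale.Agent.P232.SDefs
import Vale.Agent.P232.SC
import Vale.Agent.P232.SD
import Vale.Agent.P232.SE
import Vale.Agent.P232.SF
import Vale.Agent.P232.SG

/-! # P232 block S, module SH (helper51): a symmetrized maximizer -/

open MeasureTheory Set Filter
open scoped Topology

namespace Vale.Agent.P232

theorem SH_Lam_bound {L : ℝ} {g : (Fin 3 → ℝ) → ℝ} (hg : TL L g) : Lam g ≤ 3 := by
  have hfin : volume (cell 3) ≤ 1 := by
    unfold cell
    rw [volume_pi_pi]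
    simp
  have h1 : ‖∫ x in cell 3, g x * ∑ i, Real.cos (2 * Real.pi * x i)‖ ≤
      3 * (volume (cell 3)).toReal := by
    refine norm_setIntegral_le_of_norm_le_const (lt_of_le_of_lt hfin ENNReal.one_lt_top) ?_
    intro x _
    rw [Real.norm_eq_abs, abs_mul, abs_of_nonneg (hg.nonneg x)]
    have h2 : |∑ i : Fin 3, Real.cos (2 * Real.pi * x i)| ≤ 3 := by
      refine (Finset.abs_sum_le_sum_abs _ _).trans ?_
      refine (Finset.sum_le_sum fun i _ => Real.abs_cos_le_one _).trans ?_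
      simp
    calc g x * |∑ i : Fin 3, Real.cos (2 * Real.pi * x i)| ≤ 1 * 3 :=
          mul_le_mul (hg.le_one x) h2 (abs_nonneg _) zero_le_one
      _ = 3 := one_mul _
  have h3 : (volume (cell 3)).toReal ≤ 1 := by
    have := ENNReal.toReal_mono ENNReal.one_ne_top hfin
    simpa using this
  unfold Lam
  calc _ ≤ ‖∫ x in cell 3, g x * ∑ i, Real.cos (2 * Real.pi * x i)‖ := le_abs_self _
    _ ≤ 3 * (volume (cell 3)).toReal := h1
    _ ≤ 3 * 1 := by gcongr
    _ = 3 := mul_one _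

theorem exists_max {L : ℝ} {f : (Fin 3 → ℝ) → ℝ} (hf : TL L f) (e : ℝ) :
    ∃ g, TL L g ∧ (∫ x in cell 3, g x) = (∫ x in cell 3, f x) ∧
      (∫ x in cell 3, g x * (1 - g x)) = (∫ x in cell 3, f x * (1 - f x)) ∧
      DD e g ≤ DD e f ∧ PolInv g := by
  set S : Set ((Fin 3 → ℝ) → ℝ) := {g | TL L g ∧ (∫ x in cell 3, g x) = (∫ x in cell 3, f x) ∧
      (∫ x in cell 3, g x * (1 - g x)) = (∫ x in cell 3, f x * (1 - f x)) ∧
      DD e g ≤ DD e f} with hS
  have hne : (Lam '' S).Nonempty := ⟨Lam f, f, ⟨hf, rfl, rfl, le_rfl⟩, rfl⟩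
  have hbdd : BddAbove (Lam '' S) := by
    refine ⟨3, ?_⟩
    rintro _ ⟨g, hg, rfl⟩
    exact SH_Lam_bound hg.1
  obtain ⟨u, -, hu, huS⟩ := exists_seq_tendsto_sSup hne hbdd
  choose g hgS hgu using huS
  have hgL : ∀ n, TL L (g n) := fun n => (hgS n).1
  obtain ⟨G, φ, hφ, hG, hlim⟩ := TL_compact hgL
  have hgφ : ∀ n, TL L (g (φ n)) := fun n => hgL _
  have h1 := lim_int hgφ hG hlim (Φ := fun s => s) continuous_id
  have h2 := lim_int hgφ hG hlim (Φ := fun s => s * (1 - s)) (by fun_prop)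
  have h3 := lim_DD hgφ hG hlim e
  have h4 := lim_Lam hgφ hG hlim
  have hG1 : (∫ x in cell 3, G x) = (∫ x in cell 3, f x) := by
    refine tendsto_nhds_unique h1 ?_
    have : (fun n => ∫ x in cell 3, g (φ n) x) = fun _ => ∫ x in cell 3, f x :=
      funext fun n => (hgS (φ n)).2.1
    rw [this]
    exact tendsto_const_nhds
  have hG2 : (∫ x in cell 3, G x * (1 - G x)) = (∫ x in cell 3, f x * (1 - f x)) := by
    refine tendsto_nhds_unique h2 ?_
    have : (fun n => ∫ x in cell 3, g (φ n) x * (1 - g (φ n) x)) =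
        fun _ => ∫ x in cell 3, f x * (1 - f x) :=
      funext fun n => (hgS (φ n)).2.2.1
    rw [this]
    exact tendsto_const_nhds
  have hG3 : DD e G ≤ DD e f :=
    le_of_tendsto h3 (Eventually.of_forall fun n => (hgS (φ n)).2.2.2)
  have hG4 : Lam G = sSup (Lam '' S) := by
    refine tendsto_nhds_unique h4 ?_
    have : (fun n => Lam (g (φ n))) = fun n => u (φ n) := funext fun n => hgu _
    rw [this]
    exact hu.comp hφ.tendsto_atTop
  refine ⟨G, hG, hG1, hG2, hG3, ?_⟩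
  intro j t ht ht' x hx
  refine pol_Lam_eq hG j ht ht' ?_ x hx
  rw [hG4]
  refine le_csSup hbdd ⟨pol j t G, ⟨pol_TL hG j t, ?_, ?_, ?_⟩, rfl⟩
  · rw [← hG1]
    exact pol_int hG j t (Φ := fun s => s) continuous_id
  · rw [← hG2]
    exact pol_int hG j t (Φ := fun s => s * (1 - s)) (by fun_prop)
  · exact (pol_DD hG e j t).trans hG3

end Vale.Agent.P232
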