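import Mathlib
import Vale.Agent.P232.SDefs

/-! # P232 block S: a polarization invariant function is symmetric decreasing -/

open MeasureTheory Set Filter
open scoped Topology

namespace Vale.Agent.P232

private theorem si_tn_zero : tn 0 = 0 := by simp [tn]

private theorem si_tn_le (s : ℝ) : tn s ≤ |s| := by
  have := round_le s 0
  simpa [tn] using this

private theorem si_dT (x : Fin 3 → ℝ) (j : Fin 3) (s r : ℝ) :
    dT (Function.update x j s) (Function.update x j r) ≤ |s - r| := by
  unfold dT
  calc ∑ i, tn (Function.update x j s i - Function.update x j r i)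
      = ∑ i, (if i = j then tn (s - r) else 0) := by
        refine Finset.sum_congr rfl fun i _ => ?_
        by_cases hi : i = j
        · subst hi; simp
        · simp [Function.update_of_ne hi, hi, si_tn_zero]
    _ = tn (s - r) := by simp
    _ ≤ |s - r| := si_tn_le _

private theorem si_cont {L : ℝ} {g : (Fin 3 → ℝ) → ℝ} (hg : TL L g) (x : Fin 3 → ℝ) (j : Fin 3) :
    Continuous fun s : ℝ => g (Function.update x j s) := by
  have hlip : LipschitzWith (Real.toNNReal L) fun s : ℝ => g (Function.update x j s) := by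
    refine LipschitzWith.of_dist_le_mul fun s r => ?_
    rw [Real.dist_eq, Real.dist_eq, Real.coe_toNNReal L hg.L0]
    exact (hg.lip _ _).trans (mul_le_mul_of_nonneg_left (si_dT x j s r) hg.L0)
  exact hlip.continuous

private theorem si_per {g : (Fin 3 → ℝ) → ℝ} (hg : IsPer g) (x : Fin 3 → ℝ) (j : Fin 3) (s : ℝ)
    (n : ℤ) : g (Function.update x j (s + n)) = g (Function.update x j s) := by
  rw [← hg (Function.update x j s) (Function.update 0 j n)]
  congr 1
  funext i
  by_cases hi : i = j
  · subst hi; simp
  · simp [Function.update_of_ne hi]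

private theorem si_rfx (x : Fin 3 → ℝ) (j : Fin 3) (t s : ℝ) :
    rfx j t (Function.update x j s) = Function.update x j (2 * t - s) := by
  simp [rfx]

private theorem si_pol {g : (Fin 3 → ℝ) → ℝ} (h : PolInv g) (x : Fin 3 → ℝ) (j : Fin 3) {t s : ℝ}
    (h1 : -(1 / 2) < t) (h2 : t < 0) (h3 : 0 ≤ s - t) (h4 : s - t < 1 / 2) :
    g (Function.update x j (2 * t - s)) ≤ g (Function.update x j s) := by
  have := h j t h1 h2 (Function.update x j s) (by
    rw [Function.update_self, Int.fract_eq_self.2 ⟨h3, by linarith⟩]; exact h4)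
  rwa [si_rfx] at this

private theorem si_even_pos {L : ℝ} {g : (Fin 3 → ℝ) → ℝ} (hg : TL L g) (h : PolInv g)
    (x : Fin 3 → ℝ) (j : Fin 3) {a : ℝ} (ha : 0 < a) (ha' : a < 1 / 2) :
    g (Function.update x j (-a)) ≤ g (Function.update x j a) := by
  have hc : Tendsto (fun t : ℝ => g (Function.update x j (2 * t - a))) (𝓝[<] 0)
      (𝓝 (g (Function.update x j (-a)))) := by
    have h1 : Continuous fun t : ℝ => g (Function.update x j (2 * t - a)) :=
      (si_cont hg x j).comp (by fun_prop)
    have h2 := h1.tendsto 0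
    simp only [mul_zero, zero_sub] at h2
    exact h2.mono_left nhdsWithin_le_nhds
  refine le_of_tendsto hc ?_
  have hev : ∀ᶠ t : ℝ in 𝓝[<] 0, max (-(1 / 2)) (a - 1 / 2) < t := by
    refine nhdsWithin_le_nhds (Ioi_mem_nhds ?_)
    exact max_lt (by norm_num) (by linarith)
  filter_upwards [hev, self_mem_nhdsWithin] with t ht ht'
  have ht'' : t < 0 := ht'
  exact si_pol h x j (lt_of_le_of_lt (le_max_left _ _) ht) ht''
    (by linarith) (by linarith [lt_of_le_of_lt (le_max_right (-(1 / 2)) (a - 1 / 2)) ht])

private theorem si_even_neg {L : ℝ} {g : (Fin 3 → ℝ) → ℝ} (hg : TL L g) (h : PolInv g)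
    (x : Fin 3 → ℝ) (j : Fin 3) {a : ℝ} (ha : -(1 / 2) < a) (ha' : a < 0) :
    g (Function.update x j (-a)) ≤ g (Function.update x j a) := by
  have hc : Tendsto (fun t : ℝ => g (Function.update x j (2 * t - a))) (𝓝[>] (-(1 / 2)))
      (𝓝 (g (Function.update x j (-1 - a)))) := by
    have h1 : Continuous fun t : ℝ => g (Function.update x j (2 * t - a)) :=
      (si_cont hg x j).comp (by fun_prop)
    have h2 := h1.tendsto (-(1 / 2))
    have h3 : 2 * (-(1 / 2) : ℝ) - a = -1 - a := by ring
    rw [h3] at h2
    exact h2.mono_left nhdsWithin_le_nhds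
  have hp : g (Function.update x j (-a)) = g (Function.update x j (-1 - a)) := by
    have := si_per hg.per x j (-a) (-1)
    rw [← this]
    congr 2
    push_cast; ring
  rw [hp]
  refine le_of_tendsto hc ?_
  have hev : ∀ᶠ t : ℝ in 𝓝[>] (-(1 / 2)), t < min 0 a := by
    refine nhdsWithin_le_nhds (Iio_mem_nhds ?_)
    exact lt_min (by norm_num) ha
  filter_upwards [hev, self_mem_nhdsWithin] with t ht ht'
  have ht'' : -(1 / 2) < t := ht'
  exact si_pol h x j ht'' (lt_of_lt_of_le ht (min_le_left _ _))
    (by linarith [lt_of_lt_of_le ht (min_le_right (0 : ℝ) a)]) (by linarith)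

private theorem si_even_le {L : ℝ} {g : (Fin 3 → ℝ) → ℝ} (hg : TL L g) (h : PolInv g)
    (x : Fin 3 → ℝ) (j : Fin 3) (a : ℝ) :
    g (Function.update x j (-a)) ≤ g (Function.update x j a) := by
  set n : ℤ := round a with hn
  set b : ℝ := a - n with hb
  have e1 : g (Function.update x j a) = g (Function.update x j b) := by
    rw [← si_per hg.per x j b n]; congr 2; rw [hb]; ring
  have e2 : g (Function.update x j (-a)) = g (Function.update x j (-b)) := by
    rw [← si_per hg.per x j (-b) (-n)]; congr 2; rw [hb]; push_cast; ring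
  rw [e1, e2]
  have hab : |b| ≤ 1 / 2 := abs_sub_round a
  rw [abs_le] at hab
  rcases lt_trichotomy b 0 with hb0 | hb0 | hb0
  · rcases hab.1.eq_or_lt with h1 | h1
    · refine le_of_eq ?_
      rw [← si_per hg.per x j b 1]
      congr 2
      rw [← h1]; push_cast; norm_num
    · exact si_even_neg hg h x j h1 hb0
  · rw [hb0]; simp
  · rcases hab.2.eq_or_lt with h1 | h1
    · refine le_of_eq ?_
      rw [← si_per hg.per x j b (-1)]
      congr 2
      rw [h1]; push_cast; norm_num
    · exact si_even_pos hg h x j hb0 h1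

theorem sym_of_pol {L : ℝ} {g : (Fin 3 → ℝ) → ℝ} (hg : TL L g) (h : PolInv g) : SymD g := by
  refine ⟨fun j x => ?_, fun j x s r hs hsr hr => ?_⟩
  · refine le_antisymm ?_ ?_
    · have := si_even_le hg h x j (x j)
      rwa [Function.update_eq_self] at this
    · have := si_even_le hg h x j (-(x j))
      rwa [neg_neg, Function.update_eq_self] at this
  · rcases hsr.eq_or_lt with h1 | h1
    · rw [h1]
    · have hp : g (Function.update x j r) = g (Function.update x j (2 * ((r + s - 1) / 2) - s)) := by
        rw [← si_per hg.per x j (2 * ((r + s - 1) / 2) - s) 1]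
        congr 2
        push_cast; ring
      rw [hp]
      exact si_pol h x j (by linarith) (by linarith) (by linarith) (by linarith)

end Vale.Agent.P232
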