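import Mathlib
import Vale.Agent.P232.SDefs
import Vale.Agent.P232.Shift
import Vale.Agent.P232.SA2

/-! # P232, module SJ: the nonlocal functional as an average of `L^1` moduli (helper48) -/

open MeasureTheory Set Filter
open scoped Topology Pointwise

namespace Vale.Agent.P232

/-- ball of radius `e` -/
def SJ_ball (e : ℝ) : Set (Fin 3 → ℝ) := {z | ∑ i, z i ^ 2 ≤ e ^ 2}

theorem SJ_ball_meas (e : ℝ) : MeasurableSet (SJ_ball e) := by
  have h : IsClosed (SJ_ball e) := isClosed_le (by fun_prop) (by fun_prop)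
  exact h.measurableSet

theorem SJ_cell_meas : MeasurableSet (cell 3) :=
  MeasurableSet.univ_pi fun _ => measurableSet_Ico

theorem SJ_cell_vol : volume (cell 3) < ⊤ := by
  rw [cell, volume_pi_pi]
  simp

theorem SJ_abs_lt {e : ℝ} (he : 0 < e) {z : Fin 3 → ℝ} (hz : z ∈ SJ_ball e) (i : Fin 3) :
    |z i| ≤ e := by
  have h1 : z i ^ 2 ≤ e ^ 2 := le_trans
    (Finset.single_le_sum (f := fun i => z i ^ 2) (fun j _ => sq_nonneg _) (Finset.mem_univ i)) hz
  exact abs_le_of_sq_le_sq h1 he.le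

theorem SJ_KK_mem {e : ℝ} {z : Fin 3 → ℝ} (hz : ∀ i, |z i| ≤ 1 / 2) :
    KK e z = (SJ_ball e).indicator (fun _ => (1 : ℝ)) z := by
  have h : ∑ i, tn (z i) ^ 2 = ∑ i, z i ^ 2 :=
    Finset.sum_congr rfl fun i _ => by rw [tn_eq_abs (hz i), sq_abs]
  unfold KK
  rw [h]
  by_cases h1 : ∑ i, z i ^ 2 ≤ e ^ 2
  · rw [if_pos h1, Set.indicator_of_mem (show z ∈ SJ_ball e from h1)]
  · rw [if_neg h1, Set.indicator_of_notMem (show z ∉ SJ_ball e from h1)]

/-- inner integral -/
theorem SJ_inner {L : ℝ} {g : (Fin 3 → ℝ) → ℝ} (hg : TL L g) {e : ℝ} (he : 0 < e)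
    (he' : e < 1 / 2) (x : Fin 3 → ℝ) :
    ∫ y in cell 3, |g x - g y| * KK e (x - y) = ∫ z in SJ_ball e, |g (x + z) - g x| := by
  have h1 : IsPer (fun y => |g x - g y| * KK e (x - y)) := by
    intro y k
    have hk : x - (y + fun i => ((k i : ℤ) : ℝ)) = (x - y) + fun i => (((-k) i : ℤ) : ℝ) := by
      funext i
      simp only [Pi.sub_apply, Pi.add_apply, Pi.neg_apply, Int.cast_neg]
      ring
    simp only
    rw [hg.per y k, hk, KK_per e (x - y) (-k)]
  have h2 := B1_integral_shift h1 (x + fun _ => (-(1 / 2) : ℝ))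
  rw [← h2]
  -- now a change of variables `z = h - 1/2`
  have h3 : ∀ h : Fin 3 → ℝ, h ∈ cell 3 → (|g x - g (h + (x + fun _ => (-(1 / 2) : ℝ)))| *
      KK e (x - (h + (x + fun _ => (-(1 / 2) : ℝ))))) =
      (SJ_ball e).indicator (fun z => |g (x + z) - g x|) (h + fun _ => (-(1 / 2) : ℝ)) := by
    intro h hh
    have e1 : x - (h + (x + fun _ => (-(1 / 2) : ℝ))) = -(h + fun _ => (-(1 / 2) : ℝ)) := by
      funext i
      simp only [Pi.sub_apply, Pi.add_apply, Pi.neg_apply]
      ring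
    have e2 : h + (x + fun _ => (-(1 / 2) : ℝ)) = x + (h + fun _ => (-(1 / 2) : ℝ)) := by
      funext i
      simp only [Pi.add_apply]
      ring
    rw [e1, KK_neg, e2, SJ_KK_mem, abs_sub_comm]
    · by_cases h4 : (h + fun _ => (-(1 / 2) : ℝ)) ∈ SJ_ball e
      · rw [Set.indicator_of_mem h4, Set.indicator_of_mem h4, mul_one]
      · rw [Set.indicator_of_notMem h4, Set.indicator_of_notMem h4, mul_zero]
    · intro i
      have h5 := hh i (Set.mem_univ i)
      simp only [Set.mem_Ico] at h5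
      simp only [Pi.add_apply]
      rw [abs_le]
      constructor <;> linarith [h5.1, h5.2]
  rw [setIntegral_congr_fun SJ_cell_meas (fun h hh => h3 h hh)]
  have h6 := (measurePreserving_add_right (volume : Measure (Fin 3 → ℝ))
    (fun _ => (-(1 / 2) : ℝ))).setIntegral_preimage_emb
      (measurableEmbedding_addRight _) ((SJ_ball e).indicator (fun z => |g (x + z) - g x|))
      ((fun z => z + fun _ => (1 / 2 : ℝ)) ⁻¹' cell 3)
  have h7 : ((fun z : Fin 3 → ℝ => z + fun _ => (-(1 / 2) : ℝ)) ⁻¹'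
      ((fun z => z + fun _ => (1 / 2 : ℝ)) ⁻¹' cell 3)) = cell 3 := by
    ext z
    simp only [Set.mem_preimage]
    have : z + (fun _ => (-(1 / 2) : ℝ)) + (fun _ => (1 / 2 : ℝ)) = z := by
      funext i
      simp only [Pi.add_apply]
      ring
    rw [this]
  rw [h7] at h6
  rw [h6, setIntegral_indicator (SJ_ball_meas e)]
  congr 2
  apply Set.inter_eq_right.2
  intro z hz i _
  have h8 := SJ_abs_lt he hz i
  rw [abs_le] at h8
  simp only [Pi.add_apply, Set.mem_Ico]
  constructor <;> linarith [h8.1, h8.2]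

theorem SJ_ball_smul {e : ℝ} (he : 0 < e) : e • B1 = SJ_ball e := by
  ext z
  rw [Set.mem_smul_set_iff_inv_smul_mem₀ he.ne']
  simp only [B1, SJ_ball, Set.mem_setOf_eq, Pi.smul_apply, smul_eq_mul, mul_pow, inv_pow]
  rw [← Finset.mul_sum, inv_mul_le_iff₀ (by positivity), mul_one]

theorem SJ_ball_vol (e : ℝ) (he : 0 < e) : volume (SJ_ball e) < ⊤ := by
  refine lt_of_le_of_lt (measure_mono (t := Set.pi Set.univ fun _ : Fin 3 => Set.Icc (-e) e) ?_) ?_
  · intro z hz i _
    exact abs_le.1 (SJ_abs_lt he hz i)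
  · rw [volume_pi_pi]
    simp

theorem DD_eq {L : ℝ} {g : (Fin 3 → ℝ) → ℝ} (hg : TL L g) {e : ℝ} (he : 0 < e)
    (he' : e < 1 / 2) : DD e g = e ^ 3 * NN e g := by
  have hc : Continuous g := hg.cont
  have hA : DD e g = ∫ x in cell 3, ∫ z in SJ_ball e, |g (x + z) - g x| := by
    unfold DD
    exact setIntegral_congr_fun SJ_cell_meas fun x _ => SJ_inner hg he he' x
  have hB : ∫ x in cell 3, ∫ z in SJ_ball e, |g (x + z) - g x| =
      ∫ z in SJ_ball e, ∫ x in cell 3, |g (x + z) - g x| := by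
    have : IsFiniteMeasure (volume.restrict (cell 3)) := ⟨by
      rw [Measure.restrict_apply_univ]; exact SJ_cell_vol⟩
    have : IsFiniteMeasure (volume.restrict (SJ_ball e)) := ⟨by
      rw [Measure.restrict_apply_univ]; exact SJ_ball_vol e he⟩
    apply integral_integral_swap (f := fun x z => |g (x + z) - g x|)
    have hcont : Continuous (Function.uncurry fun (x z : Fin 3 → ℝ) => |g (x + z) - g x|) := by
      unfold Function.uncurry
      fun_prop
    refine Integrable.of_bound hcont.aestronglyMeasurable 1 (Eventually.of_forall fun p => ?_)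
    simp only [Function.uncurry, Real.norm_eq_abs, abs_abs]
    rw [abs_le]
    constructor <;>
      linarith [hg.nonneg (p.1 + p.2), hg.nonneg p.1, hg.le_one (p.1 + p.2), hg.le_one p.1]
  rw [hA, hB]
  have hC := Measure.setIntegral_comp_smul_of_pos (volume : Measure (Fin 3 → ℝ))
    (fun z => ∫ x in cell 3, |g (x + z) - g x|) B1 he
  rw [SJ_ball_smul he] at hC
  unfold NN MM
  rw [hC]
  simp only [Module.finrank_fintype_fun_eq_card, Fintype.card_fin, smul_eq_mul]
  rw [← mul_assoc, mul_inv_cancel₀ (by positivity), one_mul]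

end Vale.Agent.P232
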