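import Vale.Agent.P232.SDefs

/-! # P232, module SK: the ball `B1` and the rotation invariant constant -/

open MeasureTheory Set Filter
open scoped Topology

namespace Vale.Agent.P232

theorem B1_bdd : Bornology.IsBounded B1 := by
  refine (Metric.isBounded_closedBall (x := (0 : Fin 3 → ℝ)) (r := 1)).subset ?_
  intro k hk
  rw [mem_closedBall_zero_iff, pi_norm_le_iff_of_nonneg zero_le_one]
  intro i
  have h1 : k i ^ 2 ≤ ∑ i, k i ^ 2 :=
    Finset.single_le_sum (f := fun i => k i ^ 2) (fun j _ => sq_nonneg _) (Finset.mem_univ i)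
  have h2 : k i ^ 2 ≤ 1 := le_trans h1 hk
  rw [Real.norm_eq_abs]
  exact (sq_le_one_iff_abs_le_one _).1 h2

theorem SK_closed : IsClosed B1 := by
  have h : IsClosed B1 := isClosed_le (by fun_prop) continuous_const
  exact h

theorem B1_meas : MeasurableSet B1 := SK_closed.measurableSet

/-- the functional on Euclidean space -/
noncomputable def SK_Phi (v : EuclideanSpace ℝ (Fin 3)) : ℝ :=
  ∫ k in Metric.closedBall (0 : EuclideanSpace ℝ (Fin 3)) 1, |inner ℝ k v|

theorem SK_transfer (v : Fin 3 → ℝ) :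
    ∫ k in B1, |∑ i, k i * v i| = SK_Phi (WithLp.toLp 2 v) := by
  have hmp := PiLp.volume_preserving_toLp (Fin 3)
  have hemb : MeasurableEmbedding (WithLp.toLp 2 : (Fin 3 → ℝ) → EuclideanSpace ℝ (Fin 3)) :=
    (MeasurableEquiv.toLp 2 (Fin 3 → ℝ)).measurableEmbedding
  have h := hmp.setIntegral_preimage_emb hemb (fun k : EuclideanSpace ℝ (Fin 3) => |inner ℝ k (WithLp.toLp 2 v)|)
    (Metric.closedBall (0 : EuclideanSpace ℝ (Fin 3)) 1)
  unfold SK_Phi
  rw [← h]
  have hs : (WithLp.toLp 2 : (Fin 3 → ℝ) → EuclideanSpace ℝ (Fin 3)) ⁻¹'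
      (Metric.closedBall (0 : EuclideanSpace ℝ (Fin 3)) 1) = B1 := by
    ext k
    rw [mem_preimage, mem_closedBall_zero_iff, EuclideanSpace.norm_eq]
    unfold B1
    rw [mem_ofPred_eq, Real.sqrt_le_one]
    simp
  rw [hs]
  refine integral_congr_ae (Eventually.of_forall fun k => ?_)
  simp only [PiLp.inner_apply, RCLike.inner_apply, conj_trivial]
  congr 1
  exact Finset.sum_congr rfl fun i _ => mul_comm _ _

theorem SK_iso (R : EuclideanSpace ℝ (Fin 3) ≃ₗᵢ[ℝ] EuclideanSpace ℝ (Fin 3))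
    (v : EuclideanSpace ℝ (Fin 3)) : SK_Phi (R v) = SK_Phi v := by
  have h := R.measurePreserving.setIntegral_preimage_emb R.toHomeomorph.measurableEmbedding
    (fun k : EuclideanSpace ℝ (Fin 3) => |inner ℝ k (R v)|)
    (Metric.closedBall (0 : EuclideanSpace ℝ (Fin 3)) 1)
  unfold SK_Phi
  rw [← h]
  have hs : R ⁻¹' (Metric.closedBall (0 : EuclideanSpace ℝ (Fin 3)) 1)
      = Metric.closedBall (0 : EuclideanSpace ℝ (Fin 3)) 1 := by
    ext k
    rw [mem_preimage, mem_closedBall_zero_iff, mem_closedBall_zero_iff, R.norm_map]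
  rw [hs]
  refine integral_congr_ae (Eventually.of_forall fun k => ?_)
  simp only [LinearIsometryEquiv.inner_map_map]

theorem SK_smul {t : ℝ} (ht : 0 ≤ t) (v : EuclideanSpace ℝ (Fin 3)) : SK_Phi (t • v) = t * SK_Phi v := by
  unfold SK_Phi
  rw [← integral_const_mul]
  refine integral_congr_ae (Eventually.of_forall fun k => ?_)
  simp only [inner_smul_right, abs_mul, abs_of_nonneg ht]

theorem SK_norm (v : EuclideanSpace ℝ (Fin 3)) :
    SK_Phi v = ‖v‖ * SK_Phi (EuclideanSpace.single 0 1) := by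
  have hn : ‖v‖ = ‖‖v‖ • (EuclideanSpace.single 0 1 : EuclideanSpace ℝ (Fin 3))‖ := by
    rw [norm_smul, norm_norm, PiLp.norm_single, norm_one, mul_one]
  have h := Submodule.reflection_sub hn
  rw [← SK_smul (norm_nonneg v), ← h, SK_iso]

theorem exists_rot : ∃ c : ℝ, 0 < c ∧ ∀ v : Fin 3 → ℝ,
    ∫ k in B1, |∑ i, k i * v i| = c * Real.sqrt (∑ i, v i ^ 2) := by
  refine ⟨SK_Phi (EuclideanSpace.single 0 1), ?_, fun v => ?_⟩
  · have h0 : (WithLp.toLp 2 (Pi.single 0 1 : Fin 3 → ℝ)) = (EuclideanSpace.single 0 1 : EuclideanSpace ℝ (Fin 3)) := rfl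
    rw [← h0, ← SK_transfer]
    have hc : Continuous fun k : Fin 3 → ℝ => |∑ i, k i * (Pi.single 0 1 : Fin 3 → ℝ) i| := by fun_prop
    have hcomp : IsCompact B1 :=
      Metric.isCompact_of_isClosed_isBounded SK_closed B1_bdd
    rw [setIntegral_pos_iff_support_of_nonneg_ae (Eventually.of_forall fun k => abs_nonneg _)
      (hc.continuousOn.integrableOn_compact hcomp)]
    have hopen : IsOpen {k : Fin 3 → ℝ | 0 < k 0 ∧ ∑ i, k i ^ 2 < 1} :=
      (isOpen_lt continuous_const (continuous_apply 0)).inter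
        (isOpen_lt (f := fun k : Fin 3 → ℝ => ∑ i, k i ^ 2) (by fun_prop) continuous_const)
    have hne : {k : Fin 3 → ℝ | 0 < k 0 ∧ ∑ i, k i ^ 2 < 1}.Nonempty := by
      refine ⟨Pi.single 0 (1 / 2), ?_⟩
      simp [Fin.sum_univ_three]
      norm_num
    refine lt_of_lt_of_le (hopen.measure_pos volume hne) (measure_mono ?_)
    rintro k ⟨hk, hk'⟩
    refine ⟨?_, hk'.le⟩
    rw [Function.mem_support]
    simp [Fin.sum_univ_three]
    exact hk.ne'
  · rw [SK_transfer, SK_norm, mul_comm, EuclideanSpace.norm_eq]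
    simp

end Vale.Agent.P232
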