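import Vale.Agent.P232.SDefs
import Vale.Agent.P232.Shift

/-! # P232 block S, SL (helper22): the nonlocal total variation is at most the total variation -/

open MeasureTheory Set Filter
open scoped Topology

namespace Vale.Agent.P232

theorem SL_B1_sub : B1 ⊆ Set.Icc (fun _ : Fin 3 => (-1 : ℝ)) (fun _ => 1) := by
  intro k hk
  have hk' : ∑ i, k i ^ 2 ≤ 1 := hk
  have h1 : ∀ i, k i ^ 2 ≤ 1 := fun i =>
    (Finset.single_le_sum (f := fun i => k i ^ 2) (fun j _ => sq_nonneg _)
      (Finset.mem_univ i)).trans hk'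
  constructor
  · intro i
    exact (abs_le.mp ((sq_le_one_iff_abs_le_one _).mp (h1 i))).1
  · intro i
    exact (abs_le.mp ((sq_le_one_iff_abs_le_one _).mp (h1 i))).2

theorem SL_cell_sub : cell 3 ⊆ Set.Icc (fun _ => (0 : ℝ)) (fun _ => 1) := by
  intro x hx
  exact ⟨fun i => (hx i (mem_univ i)).1, fun i => (hx i (mem_univ i)).2.le⟩

theorem SL_dir (L : (Fin 3 → ℝ) →L[ℝ] ℝ) (h : Fin 3 → ℝ) :
    L h = ∑ i, h i * L (Pi.single i 1) := by
  conv_lhs => rw [← Finset.univ_sum_single h]
  rw [map_sum]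
  refine Finset.sum_congr rfl fun i _ => ?_
  have : (Pi.single i (h i) : Fin 3 → ℝ) = h i • Pi.single i (1 : ℝ) := by
    rw [← Pi.single_smul, smul_eq_mul, mul_one]
  rw [this, map_smul, smul_eq_mul]

/-- the directional derivative -/
noncomputable def SL_G (f : (Fin 3 → ℝ) → ℝ) (h x : Fin 3 → ℝ) : ℝ :=
  |∑ i, h i * fderiv ℝ f x (Pi.single i 1)|

theorem SL_G_cont {f : (Fin 3 → ℝ) → ℝ} (hf : ContDiff ℝ 1 f) :
    Continuous fun p : (Fin 3 → ℝ) × (Fin 3 → ℝ) => SL_G f p.1 p.2 := by
  unfold SL_G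
  have h1 : Continuous (fderiv ℝ f) := hf.continuous_fderiv one_ne_zero
  refine continuous_abs.comp (continuous_finsetSum _ fun i _ => ?_)
  exact ((continuous_apply i).comp continuous_fst).mul
    ((h1.comp continuous_snd).clm_apply continuous_const)

theorem SL_per_fderiv {f : (Fin 3 → ℝ) → ℝ} (hp : IsPer f) (x : Fin 3 → ℝ) (k : Fin 3 → ℤ) :
    fderiv ℝ f (x + fun i => (k i : ℝ)) = fderiv ℝ f x := by
  have h1 : (fun y => f (y + fun i => (k i : ℝ))) = f := funext fun y => hp y k
  have h2 := fderiv_comp_add_right (𝕜 := ℝ) (f := f) (x := x) (fun i => (k i : ℝ))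
  rw [← h2, h1]

theorem SL_G_per {f : (Fin 3 → ℝ) → ℝ} (hp : IsPer f) (h : Fin 3 → ℝ) : IsPer (SL_G f h) := by
  intro x k
  unfold SL_G
  rw [SL_per_fderiv hp]

theorem SL_point {f : (Fin 3 → ℝ) → ℝ} (hf : ContDiff ℝ 1 f) (h x : Fin 3 → ℝ) :
    |f (x + h) - f x| ≤ ∫ s in Ioc (0 : ℝ) 1, SL_G f h (x + s • h) := by
  have hd : ∀ s : ℝ, HasDerivAt (fun s : ℝ => f (x + s • h)) (fderiv ℝ f (x + s • h) h) s := by
    intro s
    have h1 : HasDerivAt (fun s : ℝ => x + s • h) h s := by
      simpa using ((hasDerivAt_id s).smul_const h).const_add x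
    exact ((hf.differentiable one_ne_zero).differentiableAt.hasFDerivAt).comp_hasDerivAt s h1
  have hcont : Continuous fun s : ℝ => fderiv ℝ f (x + s • h) h :=
    ((hf.continuous_fderiv one_ne_zero).comp (by fun_prop)).clm_apply continuous_const
  have h2 := intervalIntegral.integral_eq_sub_of_hasDerivAt (a := 0) (b := 1)
    (fun s _ => hd s) (hcont.intervalIntegrable 0 1)
  simp only [one_smul, zero_smul, add_zero] at h2
  rw [← h2, intervalIntegral.integral_of_le zero_le_one]
  refine (abs_integral_le_integral_abs).trans (le_of_eq ?_)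
  refine integral_congr_ae (Eventually.of_forall fun s => ?_)
  change |fderiv ℝ f (x + s • h) h| = _
  rw [SL_dir]
  rfl

theorem SL_MM_le {f : (Fin 3 → ℝ) → ℝ} (hf : Nice f) (h : Fin 3 → ℝ) :
    MM h f ≤ ∫ x in cell 3, SL_G f h x := by
  have hc : Continuous fun p : (Fin 3 → ℝ) × ℝ => SL_G f h (p.1 + p.2 • h) :=
    (SL_G_cont hf.smooth).comp (by fun_prop : Continuous fun p : (Fin 3 → ℝ) × ℝ =>
      (h, p.1 + p.2 • h))
  have hint : Integrable (fun p : (Fin 3 → ℝ) × ℝ => SL_G f h (p.1 + p.2 • h))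
      ((volume.restrict (cell 3)).prod (volume.restrict (Ioc (0 : ℝ) 1))) := by
    rw [Measure.prod_restrict]
    refine IntegrableOn.mono_set (t := (Set.Icc (fun _ => (0 : ℝ)) (fun _ => 1)) ×ˢ Set.Icc 0 1)
      (hc.continuousOn.integrableOn_compact (isCompact_Icc.prod isCompact_Icc)) ?_
    exact Set.prod_mono SL_cell_sub Set.Ioc_subset_Icc_self
  calc MM h f = ∫ x in cell 3, |f (x + h) - f x| := rfl
    _ ≤ ∫ x in cell 3, ∫ s in Ioc (0 : ℝ) 1, SL_G f h (x + s • h) := by
      refine integral_mono_of_nonneg (Eventually.of_forall fun x => abs_nonneg _)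
        hint.integral_prod_left (Eventually.of_forall fun x => SL_point hf.smooth h x)
    _ = ∫ s in Ioc (0 : ℝ) 1, ∫ x in cell 3, SL_G f h (x + s • h) :=
      integral_integral_swap hint
    _ = ∫ s in Ioc (0 : ℝ) 1, ∫ x in cell 3, SL_G f h x := by
      refine integral_congr_ae (Eventually.of_forall fun s => ?_)
      exact B1_integral_shift (SL_G_per hf.per h) (s • h)
    _ = ∫ x in cell 3, SL_G f h x := by
      rw [setIntegral_const]
      simp

/-- SL -/
theorem NN_le {f : (Fin 3 → ℝ) → ℝ} (hf : Nice f) {e c : ℝ} (he : 0 ≤ e)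
    (hc : ∀ v : Fin 3 → ℝ, ∫ k in B1, |∑ i, k i * v i| = c * Real.sqrt (∑ i, v i ^ 2)) :
    NN e f ≤ e * c * ∫ x in cell 3, gradN f x := by
  have hcont : Continuous fun p : (Fin 3 → ℝ) × (Fin 3 → ℝ) => SL_G f (e • p.2) p.1 :=
    (SL_G_cont hf.smooth).comp (by fun_prop : Continuous fun p : (Fin 3 → ℝ) × (Fin 3 → ℝ) =>
      (e • p.2, p.1))
  have hint : Integrable (fun p : (Fin 3 → ℝ) × (Fin 3 → ℝ) => SL_G f (e • p.2) p.1)
      ((volume.restrict (cell 3)).prod (volume.restrict B1)) := by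
    rw [Measure.prod_restrict]
    refine IntegrableOn.mono_set (t := (Set.Icc (fun _ => (0 : ℝ)) (fun _ => 1)) ×ˢ
      (Set.Icc (fun _ => (-1 : ℝ)) (fun _ => 1)))
      (hcont.continuousOn.integrableOn_compact (isCompact_Icc.prod isCompact_Icc)) ?_
    exact Set.prod_mono SL_cell_sub SL_B1_sub
  calc NN e f = ∫ k in B1, MM (e • k) f := rfl
    _ ≤ ∫ k in B1, ∫ x in cell 3, SL_G f (e • k) x := by
      refine integral_mono_of_nonneg (Eventually.of_forall fun k =>
        integral_nonneg fun x => abs_nonneg _)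
        hint.integral_prod_right (Eventually.of_forall fun k => SL_MM_le hf (e • k))
    _ = ∫ x in cell 3, ∫ k in B1, SL_G f (e • k) x := (integral_integral_swap hint).symm
    _ = ∫ x in cell 3, e * c * gradN f x := by
      refine integral_congr_ae (Eventually.of_forall fun x => ?_)
      change ∫ k in B1, SL_G f (e • k) x = e * c * gradN f x
      have h1 : ∀ k : Fin 3 → ℝ, SL_G f (e • k) x =
          e * |∑ i, k i * fderiv ℝ f x (Pi.single i 1)| := by
        intro k
        unfold SL_G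
        rw [← abs_of_nonneg he, ← abs_mul, abs_of_nonneg he, Finset.mul_sum]
        congr 1
        refine Finset.sum_congr rfl fun i _ => ?_
        rw [Pi.smul_apply, smul_eq_mul, mul_assoc]
      simp only [h1]
      rw [integral_const_mul, hc (fun i => fderiv ℝ f x (Pi.single i 1)), mul_assoc]
      rfl
    _ = e * c * ∫ x in cell 3, gradN f x := integral_const_mul _ _

end Vale.Agent.P232
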