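import Vale.Agent.P232.SDefs

/-! # P232 block S, module SM (helper29): lower bound of the nonlocal variation -/

open MeasureTheory Set Filter
open scoped Topology

namespace Vale.Agent.P232

theorem SM_B1_closed : IsClosed B1 := by
  have : Continuous (fun k : Fin 3 → ℝ => ∑ i, k i ^ 2) := by fun_prop
  exact isClosed_le this continuous_const

theorem SM_B1_sub : B1 ⊆ Metric.closedBall (0 : Fin 3 → ℝ) 1 := by
  intro k hk
  have hk' : ∑ i, k i ^ 2 ≤ 1 := hk
  rw [mem_closedBall_zero_iff, pi_norm_le_iff_of_nonneg zero_le_one]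
  intro i
  have h1 : k i ^ 2 ≤ 1 :=
    (Finset.single_le_sum (f := fun i => k i ^ 2) (fun j _ => sq_nonneg (k j))
      (Finset.mem_univ i)).trans hk'
  rw [Real.norm_eq_abs]
  exact abs_le_one_iff_mul_self_le_one.2 (by nlinarith)

theorem SM_B1_meas : MeasurableSet B1 := SM_B1_closed.measurableSet

theorem SM_B1_lt : volume B1 < ⊤ :=
  (measure_mono SM_B1_sub).trans_lt (isCompact_closedBall _ _).measure_lt_top

theorem SM_cell_meas : MeasurableSet (cell 3) :=
  MeasurableSet.univ_pi fun _ => measurableSet_Ico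

theorem SM_cell_vol : volume (cell 3) = 1 := by
  unfold cell
  rw [MeasureTheory.volume_pi_pi]
  simp

theorem SM_cell_sub : cell 3 ⊆ Set.Icc (0 : Fin 3 → ℝ) 1 := by
  intro x hx
  have hx' : ∀ i, x i ∈ Set.Ico (0:ℝ) 1 := fun i => hx i (mem_univ i)
  exact ⟨fun i => (hx' i).1, fun i => (hx' i).2.le⟩

/-- continuous functions are integrable on the product -/
theorem SM_int {F : (Fin 3 → ℝ) × (Fin 3 → ℝ) → ℝ} (hF : Continuous F) :
    Integrable F ((volume.restrict B1).prod (volume.restrict (cell 3))) := by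
  rw [Measure.prod_restrict]
  have h1 : IntegrableOn F (Metric.closedBall (0 : Fin 3 → ℝ) 1 ×ˢ Set.Icc (0 : Fin 3 → ℝ) 1)
      (volume.prod volume) := by
    refine hF.continuousOn.integrableOn_compact ?_
    exact (isCompact_closedBall _ _).prod isCompact_Icc
  exact h1.mono_set (Set.prod_mono SM_B1_sub SM_cell_sub)

theorem NN_ge {u : (Fin 3 → ℝ) → ℝ} (hu : Nice u) {e c C : ℝ} (he : 0 ≤ e)
    (hc : ∀ v : Fin 3 → ℝ, ∫ k in B1, |∑ i, k i * v i| = c * Real.sqrt (∑ i, v i ^ 2))
    (hC : ∀ x h : Fin 3 → ℝ,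
      |u (x + h) - u x - ∑ i, fderiv ℝ u x (Pi.single i 1) * h i| ≤ C * ∑ i, h i ^ 2) :
    e * c * (∫ x in cell 3, gradN u x) ≤ NN e u + C * e ^ 2 * (volume B1).toReal := by
  have hC0 : 0 ≤ C := by
    have h1 := hC 0 (fun _ => 1)
    have h2 := (abs_nonneg _).trans h1
    simp at h2
    linarith
  have huc : Continuous u := hu.smooth.continuous
  have hd : ∀ i : Fin 3, Continuous (fun x => fderiv ℝ u x (Pi.single i 1)) := fun i =>
    (hu.smooth.continuous_fderiv (by norm_num)).clm_apply continuous_const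
  have hG : Continuous (fun p : (Fin 3 → ℝ) × (Fin 3 → ℝ) =>
      |∑ i, p.1 i * fderiv ℝ u p.2 (Pi.single i 1)|) := by
    refine (continuous_finsetSum _ fun i _ => ?_).abs
    exact ((continuous_apply i).comp continuous_fst).mul ((hd i).comp continuous_snd)
  have hH : Continuous (fun p : (Fin 3 → ℝ) × (Fin 3 → ℝ) =>
      |u (p.2 + e • p.1) - u p.2|) := by
    refine ((huc.comp ?_).sub (huc.comp continuous_snd)).abs
    fun_prop
  have hGi := SM_int hG
  have hHi := SM_int hH
  have e1 : c * (∫ x in cell 3, gradN u x)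
      = ∫ k in B1, ∫ x in cell 3, |∑ i, k i * fderiv ℝ u x (Pi.single i 1)| := by
    rw [integral_integral_swap hGi, ← integral_const_mul]
    refine integral_congr_ae (Eventually.of_forall fun x => ?_)
    simp only
    rw [hc (fun i => fderiv ℝ u x (Pi.single i 1))]
    rfl
  have hGk := hGi.integral_prod_left
  have hHk : IntegrableOn (fun k : Fin 3 → ℝ => MM (e • k) u) B1 := hHi.integral_prod_left
  have key : ∀ k ∈ B1, e * (∫ x in cell 3, |∑ i, k i * fderiv ℝ u x (Pi.single i 1)|)
      ≤ MM (e • k) u + C * e ^ 2 := by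
    intro k hk
    have hk' : ∑ i, k i ^ 2 ≤ 1 := hk
    have c1 : Continuous (fun x : Fin 3 → ℝ => |∑ i, k i * fderiv ℝ u x (Pi.single i 1)|) :=
      hG.comp (continuous_const.prodMk continuous_id)
    have c2 : Continuous (fun x : Fin 3 → ℝ => |u (x + e • k) - u x|) :=
      hH.comp (continuous_const.prodMk continuous_id)
    have ion : ∀ {F : (Fin 3 → ℝ) → ℝ}, Continuous F → IntegrableOn F (cell 3) := by
      intro F hF
      exact (hF.continuousOn.integrableOn_compact isCompact_Icc).mono_set SM_cell_sub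
    have h1 : e * (∫ x in cell 3, |∑ i, k i * fderiv ℝ u x (Pi.single i 1)|)
        = ∫ x in cell 3, e * |∑ i, k i * fderiv ℝ u x (Pi.single i 1)| := by
      rw [integral_const_mul]
    have h2 : MM (e • k) u + C * e ^ 2 = ∫ x in cell 3, (|u (x + e • k) - u x| + C * e ^ 2) := by
      rw [integral_add (ion c2) (ion continuous_const)]
      unfold MM
      simp [Measure.real, SM_cell_vol]
    rw [h1, h2]
    refine integral_mono (ion (continuous_const.mul c1)) (ion (c2.add continuous_const)) fun x => ?_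
    have h3 := hC x (e • k)
    have h4 : ∑ i, fderiv ℝ u x (Pi.single i 1) * (e • k) i
        = e * ∑ i, k i * fderiv ℝ u x (Pi.single i 1) := by
      rw [Finset.mul_sum]
      refine Finset.sum_congr rfl fun i _ => ?_
      simp only [Pi.smul_apply, smul_eq_mul]
      ring
    have h5 : ∑ i, (e • k) i ^ 2 = e ^ 2 * ∑ i, k i ^ 2 := by
      rw [Finset.mul_sum]
      refine Finset.sum_congr rfl fun i _ => ?_
      simp only [Pi.smul_apply, smul_eq_mul]
      ring
    rw [h4, h5] at h3
    have h6 : C * (e ^ 2 * ∑ i, k i ^ 2) ≤ C * e ^ 2 := by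
      have : e ^ 2 * ∑ i, k i ^ 2 ≤ e ^ 2 * 1 := mul_le_mul_of_nonneg_left hk' (sq_nonneg e)
      nlinarith
    have h7 : e * |∑ i, k i * fderiv ℝ u x (Pi.single i 1)|
        = |e * ∑ i, k i * fderiv ℝ u x (Pi.single i 1)| := by
      rw [abs_mul, abs_of_nonneg he]
    show e * |∑ i, k i * fderiv ℝ u x (Pi.single i 1)| ≤ |u (x + e • k) - u x| + C * e ^ 2
    rw [h7]
    set A := u (x + e • k) - u x
    set S := e * ∑ i, k i * fderiv ℝ u x (Pi.single i 1)
    have h8 : |S| ≤ |A| + |A - S| := by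
      have := abs_sub_abs_le_abs_sub S A
      rw [abs_sub_comm S A] at this
      linarith
    linarith
  have hcst : IntegrableOn (fun _ : Fin 3 → ℝ => C * e ^ 2) B1 :=
    integrableOn_const (hs := SM_B1_lt.ne)
  have fin : ∫ k in B1, (MM (e • k) u + C * e ^ 2) = NN e u + C * e ^ 2 * (volume B1).toReal := by
    rw [integral_add hHk hcst]
    congr 1
    rw [setIntegral_const]
    simp [Measure.real, mul_comm]
  calc e * c * (∫ x in cell 3, gradN u x)
      = e * (c * (∫ x in cell 3, gradN u x)) := by ring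
    _ = ∫ k in B1, e * (∫ x in cell 3, |∑ i, k i * fderiv ℝ u x (Pi.single i 1)|) := by
        rw [e1, integral_const_mul]
    _ ≤ ∫ k in B1, (MM (e • k) u + C * e ^ 2) := by
        refine setIntegral_mono_on (hGk.const_mul e) (hHk.add hcst) SM_B1_meas key
    _ = _ := fin

end Vale.Agent.P232
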