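import Mathlib
import Vale.Agent.P232.SDefs

/-! # P232 block S, module SN1: the one dimensional kernel -/

open MeasureTheory Set Filter
open scoped Topology

namespace Vale.Agent.P232

private noncomputable def SN1_f (δ s : ℝ) : ℝ := Real.smoothTransition (1 - (s / δ) ^ 2)

private theorem SN1_contDiff (δ : ℝ) : ContDiff ℝ 3 (SN1_f δ) := by
  unfold SN1_f
  refine Real.smoothTransition.contDiff.comp ?_
  fun_prop

private theorem SN1_supp {δ : ℝ} (hδ : 0 < δ) {s : ℝ} (hs : δ ≤ |s|) : SN1_f δ s = 0 := by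
  unfold SN1_f
  refine Real.smoothTransition.zero_of_nonpos ?_
  have h1 : (1 : ℝ) ≤ |s / δ| := by
    rw [abs_div, abs_of_pos hδ, le_div_iff₀ hδ, one_mul]
    exact hs
  have h2 : (1 : ℝ) ≤ (s / δ) ^ 2 := by
    rw [← sq_abs]
    nlinarith
  linarith

private theorem SN1_int_pos {δ : ℝ} (hδ : 0 < δ) : 0 < ∫ s, SN1_f δ s := by
  refine Continuous.integral_pos_of_hasCompactSupport_nonneg_nonzero
    (SN1_contDiff δ).continuous ?_ ?_ (x := 0) ?_
  · refine HasCompactSupport.of_support_subset_isCompact (isCompact_Icc (a := -δ) (b := δ)) ?_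
    intro s hs
    by_contra hc
    refine hs (SN1_supp hδ ?_)
    rw [mem_Icc, not_and_or, not_le, not_le] at hc
    rcases hc with hc | hc
    · exact le_trans (by linarith) (neg_le_abs s)
    · exact le_trans hc.le (le_abs_self s)
  · intro s
    exact Real.smoothTransition.nonneg _
  · unfold SN1_f
    simp

theorem exists_ker1 {δ : ℝ} (hδ : 0 < δ) : ∃ θ, Ker1 δ θ := by
  have hI := SN1_int_pos hδ
  refine ⟨fun s => (∫ s, SN1_f δ s)⁻¹ * SN1_f δ s, ?_, ?_, ?_, ?_, ?_, ?_⟩
  · exact contDiff_const.mul (SN1_contDiff δ)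
  · intro s
    exact mul_nonneg (inv_nonneg.2 hI.le) (Real.smoothTransition.nonneg _)
  · intro s
    unfold SN1_f
    rw [neg_div, neg_sq]
  · intro s r hs hsr
    refine mul_le_mul_of_nonneg_left ?_ (inv_nonneg.2 hI.le)
    unfold SN1_f
    refine Real.smoothTransition.monotone ?_
    have h1 : s / δ ≤ r / δ := by gcongr
    have h2 : 0 ≤ s / δ := by positivity
    have h3 : (s / δ) ^ 2 ≤ (r / δ) ^ 2 := pow_le_pow_left₀ h2 h1 2
    linarith
  · intro s hs
    show (∫ s, SN1_f δ s)⁻¹ * SN1_f δ s = 0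
    rw [SN1_supp hδ hs, mul_zero]
  · rw [integral_const_mul, inv_mul_cancel₀ hI.ne']

end Vale.Agent.P232
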