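import Vale.Agent.P232.Shift

/-! # P232, module F2: basic facts on mollified indicators (helper29) -/

open MeasureTheory Set Filter Topology

namespace Vale.Agent.P232

open scoped Convolution

theorem F2_cell_meas (n : ℕ) : MeasurableSet (cell n) :=
  MeasurableSet.univ_pi fun _ => measurableSet_Ico

theorem F2_cell_vol (n : ℕ) : volume (cell n) = 1 := by
  unfold cell
  rw [MeasureTheory.volume_pi_pi]
  simp

instance F2_cell_fin (n : ℕ) : IsFiniteMeasure (volume.restrict (cell n)) :=
  ⟨by rw [Measure.restrict_apply_univ, F2_cell_vol]; exact ENNReal.one_lt_top⟩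

theorem F2_ind_bd (E : Set (Fin 3 → ℝ)) (x : Fin 3 → ℝ) :
    0 ≤ E.indicator (fun _ => (1 : ℝ)) x ∧ E.indicator (fun _ => (1 : ℝ)) x ≤ 1 := by
  by_cases h : x ∈ E
  · simp [h]
  · simp [h]

theorem F2_ind_meas {E : Set (Fin 3 → ℝ)} (hE : MeasurableSet E) :
    Measurable (E.indicator (fun _ => (1 : ℝ))) := measurable_const.indicator hE

theorem F2_int {ρ : (Fin 3 → ℝ) → ℝ} (hρ : Kern ρ) : Integrable ρ volume :=
  hρ.smooth.continuous.integrable_of_hasCompactSupport hρ.supp

theorem F2_int_mul {ρ : (Fin 3 → ℝ) → ℝ} (hρ : Kern ρ) {E : Set (Fin 3 → ℝ)}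
    (hE : MeasurableSet E) (x : Fin 3 → ℝ) :
    Integrable (fun y => ρ y * E.indicator (fun _ => (1 : ℝ)) (x + y)) volume := by
  refine Integrable.mono' (F2_int hρ) ?_ (Eventually.of_forall fun y => ?_)
  · refine (hρ.smooth.continuous.measurable.mul ?_).aestronglyMeasurable
    exact (F2_ind_meas hE).comp (measurable_const.add measurable_id)
  · have h := F2_ind_bd E (x + y)
    rw [Real.norm_eq_abs, abs_mul, abs_of_nonneg (hρ.nonneg y), abs_of_nonneg h.1]
    exact mul_le_of_le_one_right (hρ.nonneg y) h.2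

theorem F2_eq_conv (ρ : (Fin 3 → ℝ) → ℝ) (E : Set (Fin 3 → ℝ)) :
    moll ρ E = (E.indicator (fun _ => (1 : ℝ))) ⋆[ContinuousLinearMap.mul ℝ ℝ, volume]
      (fun u => ρ (-u)) := by
  funext x
  have h1 := integral_add_left_eq_self (μ := (volume : Measure (Fin 3 → ℝ)))
    (fun w => ρ (w - x) * E.indicator (fun _ => (1 : ℝ)) w) x
  unfold moll convolution
  simp only [ContinuousLinearMap.mul_apply']
  calc ∫ y, ρ y * E.indicator (fun _ => (1 : ℝ)) (x + y)
      = ∫ y, ρ (x + y - x) * E.indicator (fun _ => (1 : ℝ)) (x + y) := by simp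
    _ = ∫ w, ρ (w - x) * E.indicator (fun _ => (1 : ℝ)) w := h1
    _ = _ := by
        refine integral_congr_ae (Eventually.of_forall fun w => ?_)
        simp only [neg_sub]
        ring

theorem moll_contDiff {ρ : (Fin 3 → ℝ) → ℝ} (hρ : Kern ρ) {E : Set (Fin 3 → ℝ)}
    (hE : MeasurableSet E) : ContDiff ℝ 2 (moll ρ E) := by
  rw [F2_eq_conv]
  refine HasCompactSupport.contDiff_convolution_right _ ?_ ?_ ?_
  · exact hρ.supp.comp_homeomorph (Homeomorph.neg (Fin 3 → ℝ))
  · intro x
    refine ⟨Metric.ball x 1, Metric.ball_mem_nhds x one_pos, ?_⟩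
    refine Integrable.mono' (g := fun _ => (1 : ℝ)) ?_ (F2_ind_meas hE).aestronglyMeasurable
      (Eventually.of_forall fun y => ?_)
    · refine integrable_const_iff.2 (Or.inr ?_)
      rw [isFiniteMeasure_restrict]
      exact measure_ball_lt_top.ne
    · have h := F2_ind_bd E y
      rw [Real.norm_eq_abs, abs_of_nonneg h.1]
      exact h.2
  · exact (hρ.smooth.of_le (by norm_num)).comp contDiff_neg

theorem moll_nice {ρ : (Fin 3 → ℝ) → ℝ} (hρ : Kern ρ) {E : Set (Fin 3 → ℝ)}
    (hE : MeasurableSet E) (hper : IsPerSet E) : Nice (moll ρ E) := by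
  refine ⟨(moll_contDiff hρ hE).of_le (by norm_num), fun x k => ?_, fun x => ?_, fun x => ?_⟩
  · unfold moll
    refine integral_congr_ae (Eventually.of_forall fun y => ?_)
    have e : E.indicator (fun _ => (1 : ℝ)) (x + (fun i => (k i : ℝ)) + y) =
        E.indicator (fun _ => (1 : ℝ)) (x + y) := by
      have h1 : x + (fun i => (k i : ℝ)) + y = x + y + fun i => (k i : ℝ) := by
        rw [add_right_comm]
      rw [h1]
      by_cases h : x + y ∈ E
      · rw [indicator_of_mem h, indicator_of_mem ((hper _ k).2 h)]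
      · rw [indicator_of_notMem h, indicator_of_notMem (fun h' => h ((hper _ k).1 h'))]
    simp only [e]
  · exact integral_nonneg fun y => mul_nonneg (hρ.nonneg y) (F2_ind_bd E _).1
  · rw [← hρ.int_one]
    refine integral_mono (F2_int_mul hρ hE x) (F2_int hρ) fun y => ?_
    exact mul_le_of_le_one_right (hρ.nonneg y) (F2_ind_bd E _).2

theorem moll_integral {ρ : (Fin 3 → ℝ) → ℝ} (hρ : Kern ρ) {E : Set (Fin 3 → ℝ)}
    (hE : MeasurableSet E) (hper : IsPerSet E) :
    ∫ x in cell 3, moll ρ E x = (volume (E ∩ cell 3)).toReal := by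
  have hIper : IsPer (E.indicator (fun _ => (1 : ℝ))) := by
    intro x k
    by_cases h : x ∈ E
    · rw [indicator_of_mem h, indicator_of_mem ((hper _ k).2 h)]
    · rw [indicator_of_notMem h, indicator_of_notMem (fun h' => h ((hper _ k).1 h'))]
  have hprod : Integrable (Function.uncurry fun (x y : Fin 3 → ℝ) =>
      ρ y * E.indicator (fun _ => (1 : ℝ)) (x + y))
      ((volume.restrict (cell 3)).prod (volume : Measure (Fin 3 → ℝ))) := by
    refine Integrable.mono' (g := fun p => ρ p.2) ((F2_int hρ).comp_snd _) ?_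
      (Eventually.of_forall fun p => ?_)
    · refine Measurable.aestronglyMeasurable ?_
      refine (hρ.smooth.continuous.measurable.comp measurable_snd).mul ?_
      exact (F2_ind_meas hE).comp (measurable_fst.add measurable_snd)
    · have h := F2_ind_bd E (p.1 + p.2)
      show ‖ρ p.2 * E.indicator (fun _ => (1 : ℝ)) (p.1 + p.2)‖ ≤ ρ p.2
      rw [Real.norm_eq_abs, abs_mul, abs_of_nonneg (hρ.nonneg _), abs_of_nonneg h.1]
      exact mul_le_of_le_one_right (hρ.nonneg _) h.2
  unfold moll
  rw [integral_integral_swap hprod]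
  have h1 : ∀ y : Fin 3 → ℝ, ∫ x in cell 3, ρ y * E.indicator (fun _ => (1 : ℝ)) (x + y) =
      ρ y * (volume (E ∩ cell 3)).toReal := by
    intro y
    rw [integral_const_mul, B1_integral_shift hIper y, integral_indicator hE,
      Measure.restrict_restrict hE]
    simp [Measure.real]
  simp only [h1]
  rw [integral_mul_const, hρ.int_one, one_mul]

end Vale.Agent.P232
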