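import Mathlib
import Vale.Agent.P232.SDefs
import Vale.Agent.P232.MollBasic

/-! # P232 block S: convolution with the product kernel is nice -/

open MeasureTheory Set Filter Topology
open scoped Convolution

namespace Vale.Agent.P232

theorem SN2_cont {L : ℝ} {g : (Fin 3 → ℝ) → ℝ} (hg : TL L g) : Continuous g := by
  have hlip : LipschitzWith (Real.toNNReal (3 * L)) g := by
    refine LipschitzWith.of_dist_le_mul fun x y => ?_
    rw [Real.dist_eq, Real.coe_toNNReal (3 * L) (by linarith [hg.L0])]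
    have h1 : dT x y ≤ 3 * dist x y := by
      unfold dT
      calc ∑ i, tn (x i - y i) ≤ ∑ _i : Fin 3, dist x y := by
            refine Finset.sum_le_sum fun i _ => ?_
            have h2 : tn (x i - y i) ≤ |x i - y i| := by
              have := round_le (x i - y i) 0
              simpa [tn] using this
            refine h2.trans ?_
            rw [← Real.dist_eq]
            exact dist_le_pi_dist x y i
        _ = 3 * dist x y := by simp
    calc |g x - g y| ≤ L * dT x y := hg.lip x y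
      _ ≤ L * (3 * dist x y) := mul_le_mul_of_nonneg_left h1 hg.L0
      _ = 3 * L * dist x y := by ring
  exact hlip.continuous

theorem SN2_kern {δ : ℝ} {θ : ℝ → ℝ} (hθ : Ker1 δ θ) :
    Kern (fun y : Fin 3 → ℝ => ∏ i, θ (y i)) := by
  refine ⟨?_, ?_, ?_, ?_⟩
  · refine contDiff_prod fun i _ => ?_
    exact hθ.smooth.comp (contDiff_apply ℝ ℝ i)
  · refine HasCompactSupport.intro (K := Set.pi Set.univ fun _ => Set.Icc (-δ) δ)
      (isCompact_univ_pi fun _ => isCompact_Icc) fun x hx => ?_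
    rw [Set.mem_univ_pi] at hx
    push Not at hx
    obtain ⟨i, hi⟩ := hx
    refine Finset.prod_eq_zero (Finset.mem_univ i) (hθ.supp _ ?_)
    by_contra hc
    push Not at hc
    rw [abs_lt] at hc
    exact hi ⟨hc.1.le, hc.2.le⟩
  · exact fun x => Finset.prod_nonneg fun i _ => hθ.nonneg _
  · rw [integral_fintype_prod_volume_eq_prod (fun _ : Fin 3 => θ)]
    simp [hθ.int_one]

theorem SN2_int_mul {δ : ℝ} {θ : ℝ → ℝ} (hθ : Ker1 δ θ) {L : ℝ} {g : (Fin 3 → ℝ) → ℝ}
    (hg : TL L g) (x : Fin 3 → ℝ) :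
    Integrable (fun y : Fin 3 → ℝ => (∏ i, θ (y i)) * g (x + y)) volume := by
  have hk := SN2_kern hθ
  refine Integrable.mono' (F2_int hk) ?_ (Eventually.of_forall fun y => ?_)
  · exact (hk.smooth.continuous.mul ((SN2_cont hg).comp (by fun_prop))).aestronglyMeasurable
  · rw [Real.norm_eq_abs, abs_mul, abs_of_nonneg (hk.nonneg y), abs_of_nonneg (hg.nonneg _)]
    exact mul_le_of_le_one_right (hk.nonneg y) (hg.le_one _)

theorem SN2_eq_conv (θ : ℝ → ℝ) (g : (Fin 3 → ℝ) → ℝ) :
    cv θ g = g ⋆[ContinuousLinearMap.mul ℝ ℝ, volume]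
      (fun u : Fin 3 → ℝ => ∏ i, θ ((-u) i)) := by
  funext x
  have h1 := integral_add_left_eq_self (μ := (volume : Measure (Fin 3 → ℝ)))
    (fun w : Fin 3 → ℝ => (∏ i, θ ((w - x) i)) * g w) x
  unfold cv convolution
  simp only [ContinuousLinearMap.mul_apply']
  calc ∫ y : Fin 3 → ℝ, (∏ i, θ (y i)) * g (x + y)
      = ∫ y : Fin 3 → ℝ, (∏ i, θ ((x + y - x) i)) * g (x + y) := by simp
    _ = ∫ w : Fin 3 → ℝ, (∏ i, θ ((w - x) i)) * g w := h1
    _ = _ := by
        refine integral_congr_ae (Eventually.of_forall fun w => ?_)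
        simp only [neg_sub]
        ring

theorem SN2_contDiff {δ : ℝ} {θ : ℝ → ℝ} (hθ : Ker1 δ θ) {L : ℝ} {g : (Fin 3 → ℝ) → ℝ}
    (hg : TL L g) : ContDiff ℝ 3 (cv θ g) := by
  rw [SN2_eq_conv]
  have hk := SN2_kern hθ
  refine HasCompactSupport.contDiff_convolution_right _ ?_ ?_ ?_
  · exact hk.supp.comp_homeomorph (Homeomorph.neg (Fin 3 → ℝ))
  · exact (SN2_cont hg).locallyIntegrable
  · exact hk.smooth.comp contDiff_neg

theorem cv_nice {δ : ℝ} {θ : ℝ → ℝ} (hθ : Ker1 δ θ) {L : ℝ} {g : (Fin 3 → ℝ) → ℝ}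
    (hg : TL L g) : Nice (cv θ g) := by
  have hk := SN2_kern hθ
  refine ⟨(SN2_contDiff hθ hg).of_le (by norm_num), fun x k => ?_, fun x => ?_, fun x => ?_⟩
  · unfold cv
    refine integral_congr_ae (Eventually.of_forall fun y => ?_)
    have h1 : x + (fun i => (k i : ℝ)) + y = x + y + fun i => (k i : ℝ) := by
      rw [add_right_comm]
    simp only [h1, hg.per (x + y) k]
  · exact integral_nonneg fun y => mul_nonneg (hk.nonneg y) (hg.nonneg _)
  · rw [← hk.int_one]
    refine integral_mono (SN2_int_mul hθ hg x) (F2_int hk) fun y => ?_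
    exact mul_le_of_le_one_right (hk.nonneg y) (hg.le_one _)

end Vale.Agent.P232
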