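import Vale.Agent.P232.SDefs
import Vale.Agent.P232.Shift
import Vale.Agent.P232.MollBasic

/-! # P232 block S, module SN3: closeness, integral and modulus of the convolution (helper13) -/

open MeasureTheory Set Filter
open scoped Topology

namespace Vale.Agent.P232

private theorem sn3_tn_le (s : ℝ) : tn s ≤ |s| := by
  unfold tn
  simpa using round_le s 0

private theorem sn3_dT_le (x y : Fin 3 → ℝ) : dT x y ≤ ∑ i, |x i - y i| :=
  Finset.sum_le_sum fun _ _ => sn3_tn_le _

private theorem sn3_cont {L : ℝ} {g : (Fin 3 → ℝ) → ℝ} (hg : TL L g) : Continuous g := by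
  have h : LipschitzWith (Real.toNNReal (3 * L)) g := by
    refine LipschitzWith.of_dist_le_mul fun x y => ?_
    rw [Real.dist_eq, Real.coe_toNNReal _ (by have := hg.L0; positivity)]
    refine (hg.lip x y).trans ?_
    have h1 : dT x y ≤ 3 * dist x y := by
      refine (sn3_dT_le x y).trans ?_
      calc ∑ i, |x i - y i| ≤ ∑ _i : Fin 3, dist x y := Finset.sum_le_sum fun i _ => by
            rw [← Real.dist_eq]
            exact dist_le_pi_dist x y i
        _ = 3 * dist x y := by simp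
    nlinarith [hg.L0, mul_le_mul_of_nonneg_left h1 hg.L0]
  exact h.continuous

/-- the product kernel -/
private noncomputable def sn3_K (θ : ℝ → ℝ) (y : Fin 3 → ℝ) : ℝ := ∏ i, θ (y i)

private theorem sn3_K_cont {δ : ℝ} {θ : ℝ → ℝ} (hθ : Ker1 δ θ) : Continuous (sn3_K θ) := by
  unfold sn3_K
  exact continuous_finsetProd _ fun i _ => hθ.smooth.continuous.comp (continuous_apply i)

private theorem sn3_K_nonneg {δ : ℝ} {θ : ℝ → ℝ} (hθ : Ker1 δ θ) (y : Fin 3 → ℝ) :
    0 ≤ sn3_K θ y := Finset.prod_nonneg fun _ _ => hθ.nonneg _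

private theorem sn3_K_zero {δ : ℝ} {θ : ℝ → ℝ} (hθ : Ker1 δ θ) {y : Fin 3 → ℝ} {i : Fin 3}
    (h : δ ≤ |y i|) : sn3_K θ y = 0 :=
  Finset.prod_eq_zero (Finset.mem_univ i) (hθ.supp _ h)

private theorem sn3_K_supp {δ : ℝ} {θ : ℝ → ℝ} (hθ : Ker1 δ θ) : HasCompactSupport (sn3_K θ) := by
  refine HasCompactSupport.intro (isCompact_univ_pi fun _ : Fin 3 => isCompact_Icc (a := -δ) (b := δ))
    fun y hy => ?_
  simp only [Set.mem_univ_pi, Set.mem_Icc, not_forall] at hy
  obtain ⟨i, hi⟩ := hy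
  refine sn3_K_zero hθ (i := i) ?_
  by_contra h
  push Not at h
  exact hi (abs_le.1 h.le)

private theorem sn3_K_int {δ : ℝ} {θ : ℝ → ℝ} (hθ : Ker1 δ θ) : Integrable (sn3_K θ) volume :=
  (sn3_K_cont hθ).integrable_of_hasCompactSupport (sn3_K_supp hθ)

private theorem sn3_K_one {δ : ℝ} {θ : ℝ → ℝ} (hθ : Ker1 δ θ) : ∫ y, sn3_K θ y = 1 := by
  have h := integral_fintype_prod_volume_eq_prod (𝕜 := ℝ) (ι := Fin 3) (fun (_ : Fin 3) => θ)
  simp only [hθ.int_one] at h
  unfold sn3_K
  rw [h]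
  simp

private theorem sn3_abs {L : ℝ} {g : (Fin 3 → ℝ) → ℝ} (hg : TL L g) (x : Fin 3 → ℝ) :
    |g x| ≤ 1 := by
  rw [abs_of_nonneg (hg.nonneg x)]
  exact hg.le_one x

private theorem sn3_mul {δ : ℝ} {θ : ℝ → ℝ} (hθ : Ker1 δ θ) {F : (Fin 3 → ℝ) → ℝ}
    (hF : Continuous F) : Integrable (fun y => sn3_K θ y * F y) volume :=
  ((sn3_K_cont hθ).mul hF).integrable_of_hasCompactSupport ((sn3_K_supp hθ).mul_right)

theorem cv_close {δ : ℝ} {θ : ℝ → ℝ} (hθ : Ker1 δ θ) {L : ℝ} {g : (Fin 3 → ℝ) → ℝ}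
    (hg : TL L g) (x : Fin 3 → ℝ) : |cv θ g x - g x| ≤ 3 * L * δ := by
  have hc := sn3_cont hg
  have h1 : cv θ g x - g x = ∫ y, sn3_K θ y * (g (x + y) - g x) := by
    have h2 : ∫ y, sn3_K θ y * (g (x + y) - g x) =
        (∫ y, sn3_K θ y * g (x + y)) - ∫ y, sn3_K θ y * g x := by
      have i1 : Integrable (fun y => sn3_K θ y * g (x + y)) volume :=
        sn3_mul hθ (hc.comp (continuous_const.add continuous_id))
      have i2 : Integrable (fun y => sn3_K θ y * g x) volume :=
        sn3_mul hθ continuous_const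
      rw [← integral_sub i1 i2]
      refine integral_congr_ae (Eventually.of_forall fun y => ?_)
      simp only []
      ring
    rw [h2, integral_mul_const, sn3_K_one hθ, one_mul]
    rfl
  rw [h1]
  have h3 : ∀ y : Fin 3 → ℝ, ‖sn3_K θ y * (g (x + y) - g x)‖ ≤ sn3_K θ y * (3 * L * δ) := by
    intro y
    rw [Real.norm_eq_abs, abs_mul, abs_of_nonneg (sn3_K_nonneg hθ y)]
    by_cases hy : ∃ i, δ ≤ |y i|
    · obtain ⟨i, hi⟩ := hy
      rw [sn3_K_zero hθ hi]
      simp
    · push Not at hy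
      refine mul_le_mul_of_nonneg_left ?_ (sn3_K_nonneg hθ y)
      refine (hg.lip _ _).trans ?_
      have h4 : dT (x + y) x ≤ 3 * δ := by
        refine (sn3_dT_le _ _).trans ?_
        calc ∑ i, |(x + y) i - x i| ≤ ∑ _i : Fin 3, δ := Finset.sum_le_sum fun i _ => by
              simpa using (hy i).le
          _ = 3 * δ := by simp
      calc L * dT (x + y) x ≤ L * (3 * δ) := mul_le_mul_of_nonneg_left h4 hg.L0
        _ = 3 * L * δ := by ring
  refine (norm_integral_le_of_norm_le (sn3_mul hθ continuous_const)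
    (Eventually.of_forall h3)).trans ?_
  rw [integral_mul_const, sn3_K_one hθ, one_mul]

private theorem sn3_prod {δ : ℝ} {θ : ℝ → ℝ} (hθ : Ker1 δ θ) {F : (Fin 3 → ℝ) → ℝ}
    (hF : Continuous F) {M : ℝ} (hM : ∀ x, |F x| ≤ M) :
    Integrable (Function.uncurry fun (x y : Fin 3 → ℝ) => sn3_K θ y * F (x + y))
      ((volume.restrict (cell 3)).prod (volume : Measure (Fin 3 → ℝ))) := by
  refine Integrable.mono' (g := fun p => sn3_K θ p.2 * M)
    (((sn3_K_int hθ).mul_const M).comp_snd _) ?_ (Eventually.of_forall fun p => ?_)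
  · refine Continuous.aestronglyMeasurable ?_
    exact ((sn3_K_cont hθ).comp continuous_snd).mul (hF.comp (continuous_fst.add continuous_snd))
  · show ‖sn3_K θ p.2 * F (p.1 + p.2)‖ ≤ sn3_K θ p.2 * M
    rw [Real.norm_eq_abs, abs_mul, abs_of_nonneg (sn3_K_nonneg hθ _)]
    exact mul_le_mul_of_nonneg_left (hM _) (sn3_K_nonneg hθ _)

private theorem sn3_swap {δ : ℝ} {θ : ℝ → ℝ} (hθ : Ker1 δ θ) {F : (Fin 3 → ℝ) → ℝ}
    (hF : Continuous F) {M : ℝ} (hM : ∀ x, |F x| ≤ M) (hper : IsPer F) :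
    ∫ x in cell 3, ∫ y, sn3_K θ y * F (x + y) = ∫ x in cell 3, F x := by
  rw [integral_integral_swap (sn3_prod hθ hF hM)]
  have h1 : ∀ y : Fin 3 → ℝ, ∫ x in cell 3, sn3_K θ y * F (x + y) =
      sn3_K θ y * ∫ x in cell 3, F x := by
    intro y
    rw [integral_const_mul, B1_integral_shift hper y]
  simp only [h1]
  rw [integral_mul_const, sn3_K_one hθ, one_mul]

theorem cv_int {δ : ℝ} {θ : ℝ → ℝ} (hθ : Ker1 δ θ) {L : ℝ} {g : (Fin 3 → ℝ) → ℝ}
    (hg : TL L g) : ∫ x in cell 3, cv θ g x = ∫ x in cell 3, g x :=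
  sn3_swap hθ (sn3_cont hg) (sn3_abs hg) hg.per

theorem cv_MM {δ : ℝ} {θ : ℝ → ℝ} (hθ : Ker1 δ θ) {L : ℝ} {g : (Fin 3 → ℝ) → ℝ}
    (hg : TL L g) (h : Fin 3 → ℝ) : MM h (cv θ g) ≤ MM h g := by
  have hc := sn3_cont hg
  have hF : Continuous fun x => |g (x + h) - g x| :=
    ((hc.comp (continuous_id.add continuous_const)).sub hc).abs
  have hM : ∀ x, |(|g (x + h) - g x|)| ≤ (1 : ℝ) := by
    intro x
    rw [abs_abs, abs_le]
    have h1 := hg.nonneg (x + h)
    have h2 := hg.le_one (x + h)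
    have h3 := hg.nonneg x
    have h4 := hg.le_one x
    constructor <;> linarith
  have hper : IsPer fun x => |g (x + h) - g x| := by
    intro x k
    have e : x + (fun i => (k i : ℝ)) + h = x + h + fun i => (k i : ℝ) := by
      rw [add_right_comm]
    simp only [e]
    rw [hg.per, hg.per]
  have hs := sn3_swap hθ hF hM hper
  unfold MM
  rw [← hs]
  have hpt : ∀ x, |cv θ g (x + h) - cv θ g x| ≤ ∫ y, sn3_K θ y * |g (x + y + h) - g (x + y)| := by
    intro x
    have e1 : cv θ g (x + h) - cv θ g x = ∫ y, sn3_K θ y * (g (x + y + h) - g (x + y)) := by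
      have i1 : Integrable (fun y => sn3_K θ y * g (x + h + y)) volume :=
        sn3_mul hθ (hc.comp (continuous_const.add continuous_id))
      have i2 : Integrable (fun y => sn3_K θ y * g (x + y)) volume :=
        sn3_mul hθ (hc.comp (continuous_const.add continuous_id))
      have e2 : cv θ g (x + h) - cv θ g x =
          (∫ y, sn3_K θ y * g (x + h + y)) - ∫ y, sn3_K θ y * g (x + y) := rfl
      rw [e2, ← integral_sub i1 i2]
      refine integral_congr_ae (Eventually.of_forall fun y => ?_)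
      have e3 : x + h + y = x + y + h := add_right_comm _ _ _
      simp only [e3]
      ring
    rw [e1]
    refine (abs_integral_le_integral_abs).trans (le_of_eq ?_)
    refine integral_congr_ae (Eventually.of_forall fun y => ?_)
    simp only [abs_mul, abs_of_nonneg (sn3_K_nonneg hθ y)]
  refine integral_mono_of_nonneg (Eventually.of_forall fun x => abs_nonneg _) ?_
    (Eventually.of_forall hpt)
  exact (sn3_prod hθ hF hM).integral_prod_left

end Vale.Agent.P232
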