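import Mathlib
import Vale.Agent.P232.SDefs

/-! # P232, module SN4: uniform second order Taylor bound for mollified functions (helper49)

`cv θ g = g ⋆ K` with `K z = ∏ θ (z i)` (even), so `D(cv θ g) = g ⋆ DK`, `D²(cv θ g) = g ⋆ D²K`,
`|D²(cv θ g)| ≤ ∫ |D²K|` because `|g| ≤ 1`; two mean value inequalities. -/

open MeasureTheory Set Filter
open scoped Topology Convolution

namespace Vale.Agent.P232

theorem SN4_cont {L : ℝ} {g : (Fin 3 → ℝ) → ℝ} (hg : TL L g) : Continuous g := by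
  have hd : ∀ x y : Fin 3 → ℝ, dT x y ≤ 3 * dist x y := by
    intro x y
    unfold dT
    calc ∑ i, tn (x i - y i) ≤ ∑ _i : Fin 3, dist x y := by
          refine Finset.sum_le_sum fun i _ => ?_
          unfold tn
          have h1 := round_le (x i - y i) 0
          have h2 := dist_le_pi_dist x y i
          rw [Real.dist_eq] at h2
          refine le_trans (h1.trans (le_of_eq ?_)) h2
          simp
      _ = 3 * dist x y := by simp
  have h0 := hg.L0
  have : LipschitzWith (Real.toNNReal (L * 3)) g := by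
    refine LipschitzWith.of_dist_le_mul fun x y => ?_
    rw [Real.dist_eq, Real.coe_toNNReal _ (by positivity)]
    calc |g x - g y| ≤ L * dT x y := hg.lip x y
      _ ≤ L * (3 * dist x y) := mul_le_mul_of_nonneg_left (hd x y) h0
      _ = L * 3 * dist x y := by ring
  exact this.continuous

/-- product kernel -/
noncomputable def SN4_K (θ : ℝ → ℝ) (z : Fin 3 → ℝ) : ℝ := ∏ i, θ (z i)

theorem SN4_K_smooth {δ : ℝ} {θ : ℝ → ℝ} (hθ : Ker1 δ θ) : ContDiff ℝ 3 (SN4_K θ) := by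
  unfold SN4_K
  exact contDiff_prod fun i _ => hθ.smooth.comp (contDiff_apply ℝ ℝ i)

theorem SN4_K_supp {δ : ℝ} {θ : ℝ → ℝ} (hθ : Ker1 δ θ) : HasCompactSupport (SN4_K θ) := by
  refine HasCompactSupport.intro (K := Set.pi univ fun _ => Icc (-|δ|) |δ|)
    (isCompact_univ_pi fun _ => isCompact_Icc) ?_
  intro z hz
  rw [Set.mem_univ_pi, not_forall] at hz
  obtain ⟨i, hi⟩ := hz
  have h0 : θ (z i) = 0 := by
    refine hθ.supp _ ?_
    rw [mem_Icc, ← abs_le, not_le] at hi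
    exact (le_abs_self δ).trans hi.le
  exact Finset.prod_eq_zero (Finset.mem_univ i) h0

theorem SN4_eq {δ : ℝ} {θ : ℝ → ℝ} (hθ : Ker1 δ θ) (g : (Fin 3 → ℝ) → ℝ) :
    cv θ g = g ⋆[ContinuousLinearMap.mul ℝ ℝ, volume] (SN4_K θ) := by
  funext x
  have h1 := integral_add_left_eq_self (μ := (volume : Measure (Fin 3 → ℝ)))
    (fun w => SN4_K θ (w - x) * g w) x
  unfold cv convolution
  simp only [ContinuousLinearMap.mul_apply']
  calc ∫ y : Fin 3 → ℝ, (∏ i, θ (y i)) * g (x + y)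
      = ∫ y, SN4_K θ (x + y - x) * g (x + y) := by simp [SN4_K]
    _ = ∫ w, SN4_K θ (w - x) * g w := h1
    _ = _ := by
        refine integral_congr_ae (Eventually.of_forall fun w => ?_)
        have : SN4_K θ (w - x) = SN4_K θ (x - w) := by
          unfold SN4_K
          refine Finset.prod_congr rfl fun i _ => ?_
          rw [← hθ.even]
          congr 1
          simp
        simp only [this]
        ring

theorem SN4_norm {E F : Type*} [NormedAddCommGroup E] [NormedSpace ℝ E] [NormedAddCommGroup F]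
    [NormedSpace ℝ F] (B : ℝ →L[ℝ] E →L[ℝ] F) :
    ∃ M : ℝ, 0 ≤ M ∧ ∀ (g : (Fin 3 → ℝ) → ℝ), (∀ x, |g x| ≤ 1) →
      ∀ (k : (Fin 3 → ℝ) → E), Continuous k → HasCompactSupport k → ∀ x : Fin 3 → ℝ,
        ‖(g ⋆[B, volume] k) x‖ ≤ M * ∫ y, ‖k y‖ := by
  refine ⟨‖B‖, B.opNorm_nonneg, ?_⟩
  intro g hg k hk hks x
  unfold convolution
  calc ‖∫ t, B (g t) (k (x - t))‖ ≤ ∫ t, ‖B‖ * ‖k (x - t)‖ := by
        refine norm_integral_le_of_norm_le ?_ (Eventually.of_forall fun t => ?_)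
        · exact ((hk.integrable_of_hasCompactSupport hks).norm.comp_sub_left x).const_mul _
        · calc ‖B (g t) (k (x - t))‖ ≤ ‖B‖ * ‖g t‖ * ‖k (x - t)‖ := B.le_opNorm₂ _ _
            _ ≤ ‖B‖ * 1 * ‖k (x - t)‖ := by
                gcongr
                exact hg t
            _ = ‖B‖ * ‖k (x - t)‖ := by ring
    _ = ‖B‖ * ∫ y, ‖k y‖ := by
        rw [integral_const_mul, integral_sub_left_eq_self (fun y => ‖k y‖) volume x]

theorem SN4_lip {E F : Type*} [NormedAddCommGroup E] [NormedSpace ℝ E] [NormedAddCommGroup F]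
    [NormedSpace ℝ F] (B : ℝ →L[ℝ] E →L[ℝ] F) (k : (Fin 3 → ℝ) → E) (hk : ContDiff ℝ 1 k)
    (hks : HasCompactSupport k) :
    ∃ C : ℝ, 0 ≤ C ∧ ∀ (g : (Fin 3 → ℝ) → ℝ), (∀ x, |g x| ≤ 1) → LocallyIntegrable g volume →
      ∀ x y : Fin 3 → ℝ,
        ‖(g ⋆[B, volume] k) y - (g ⋆[B, volume] k) x‖ ≤ C * ‖y - x‖ := by
  obtain ⟨M, hM0, hM⟩ := SN4_norm (B.precompR (Fin 3 → ℝ))
  refine ⟨M * ∫ y, ‖fderiv ℝ k y‖, mul_nonneg hM0 (integral_nonneg fun y => norm_nonneg _), ?_⟩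
  intro g hg hgl x y
  exact convex_univ.norm_image_sub_le_of_norm_hasFDerivWithin_le
      (fun z _ => (hks.hasFDerivAt_convolution_right B hgl hk z).hasFDerivWithinAt)
      (fun z _ => hM g hg _ (hk.continuous_fderiv (by norm_num)) (hks.fderiv ℝ) z)
      (mem_univ x) (mem_univ y)

theorem cv_second {δ : ℝ} {θ : ℝ → ℝ} (hθ : Ker1 δ θ) :
    ∃ C : ℝ, 0 ≤ C ∧ ∀ (L : ℝ) (g : (Fin 3 → ℝ) → ℝ), TL L g → ∀ x h : Fin 3 → ℝ,
      |cv θ g (x + h) - cv θ g x - ∑ i, fderiv ℝ (cv θ g) x (Pi.single i 1) * h i|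
        ≤ C * ∑ i, h i ^ 2 := by
  have sK := SN4_K_smooth hθ
  have cK := SN4_K_supp hθ
  have sK1 : ContDiff ℝ 1 (fderiv ℝ (SN4_K θ)) := sK.fderiv_right (by norm_num)
  have cK1 : HasCompactSupport (fderiv ℝ (SN4_K θ)) := cK.fderiv ℝ
  obtain ⟨C, hC0, hC⟩ := SN4_lip ((ContinuousLinearMap.mul ℝ ℝ).precompR (Fin 3 → ℝ))
    (fderiv ℝ (SN4_K θ)) sK1 cK1
  refine ⟨C, hC0, ?_⟩
  intro L g hg x h
  have hgc := SN4_cont hg
  have hgl : LocallyIntegrable g volume := hgc.locallyIntegrable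
  have hg1 : ∀ x, |g x| ≤ 1 := fun x => by
    rw [abs_of_nonneg (hg.nonneg x)]; exact hg.le_one x
  have hu : cv θ g = g ⋆[ContinuousLinearMap.mul ℝ ℝ, volume] (SN4_K θ) := SN4_eq hθ g
  obtain ⟨v, hv⟩ : ∃ v, v = g ⋆[(ContinuousLinearMap.mul ℝ ℝ).precompR (Fin 3 → ℝ), volume]
    fderiv ℝ (SN4_K θ) := ⟨_, rfl⟩
  have hd1 : ∀ x, HasFDerivAt (cv θ g) (v x) x := by
    intro x
    rw [hu, hv]
    exact cK.hasFDerivAt_convolution_right _ hgl (sK.of_le (by norm_num)) x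
  have hvL : ∀ y, ‖v y - v x‖ ≤ C * ‖y - x‖ := fun y => by
    rw [hv]; exact hC g hg1 hgl x y
  have hseg : ∀ y ∈ Metric.closedBall x ‖h‖, ‖v y - v x‖ ≤ C * ‖h‖ := by
    intro y hy
    refine (hvL y).trans (mul_le_mul_of_nonneg_left ?_ hC0)
    rwa [← dist_eq_norm]
  have hmv := (convex_closedBall x ‖h‖).norm_image_sub_le_of_norm_hasFDerivWithin_le
    (f := fun y => cv θ g y - v x y) (f' := fun y => v y - v x) (C := C * ‖h‖)
    (fun y _ => ((hd1 y).sub (v x).hasFDerivAt).hasFDerivWithinAt) hseg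
    (Metric.mem_closedBall_self (norm_nonneg h))
    (show x + h ∈ Metric.closedBall x ‖h‖ by simp [dist_eq_norm])
  have hsum : ∑ i, fderiv ℝ (cv θ g) x (Pi.single i 1) * h i = v x h := by
    rw [(hd1 x).fderiv]
    conv_rhs => rw [← Finset.univ_sum_single h]
    rw [map_sum]
    refine Finset.sum_congr rfl fun i _ => ?_
    have : (Pi.single i (h i) : Fin 3 → ℝ) = h i • Pi.single i (1 : ℝ) := by
      rw [← Pi.single_smul, smul_eq_mul, mul_one]
    rw [this, map_smul, smul_eq_mul, mul_comm]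
  rw [hsum]
  have hn : ‖h‖ ^ 2 ≤ ∑ i, h i ^ 2 := by
    have h3 : ‖h‖ ≤ √(∑ i, h i ^ 2) := by
      rw [pi_norm_le_iff_of_nonneg (Real.sqrt_nonneg _)]
      intro i
      rw [Real.norm_eq_abs]
      refine Real.abs_le_sqrt ?_
      exact Finset.single_le_sum (f := fun i => h i ^ 2) (fun i _ => sq_nonneg _)
        (Finset.mem_univ i)
    calc ‖h‖ ^ 2 ≤ √(∑ i, h i ^ 2) ^ 2 := by gcongr
      _ = ∑ i, h i ^ 2 := Real.sq_sqrt (Finset.sum_nonneg fun i _ => sq_nonneg _)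
  have he : cv θ g (x + h) - cv θ g x - v x h
      = (cv θ g (x + h) - v x (x + h)) - (cv θ g x - v x x) := by
    rw [map_add]; ring
  rw [he]
  calc |(cv θ g (x + h) - v x (x + h)) - (cv θ g x - v x x)|
      ≤ C * ‖h‖ * ‖x + h - x‖ := hmv
    _ = C * ‖h‖ ^ 2 := by rw [add_sub_cancel_left]; ring
    _ ≤ C * ∑ i, h i ^ 2 := mul_le_mul_of_nonneg_left hn hC0

end Vale.Agent.P232
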