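import Mathlib
import Vale.Agent.P232.SA2

/-!
# P232 block S, module SN5: convolution keeps symmetric decreasing functions (helper50)
-/

open MeasureTheory Set

namespace Vale.Agent.P232

namespace SN5

variable {δ : ℝ} {θ : ℝ → ℝ} {L : ℝ} {g : (Fin 3 → ℝ) → ℝ}

/-- reflections preserve Lebesgue measure -/
theorem rfx_mp (j : Fin 3) (t : ℝ) : MeasurePreserving (rfx j t) volume volume := by
  have h : rfx j t = fun a : Fin 3 → ℝ => fun i => (if i = j then fun s => 2 * t - s else id) (a i) := by
    funext a i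
    by_cases hi : i = j
    · subst hi
      rw [rfx_same]
      simp
    · rw [rfx_ne j t a hi]
      simp [hi]
  rw [h]
  apply volume_preserving_pi
  intro i
  by_cases hi : i = j
  · simp only [hi, if_true]
    exact Measure.measurePreserving_sub_left volume (2 * t)
  · simp only [hi, if_false]
    exact MeasurePreserving.id volume

theorem rfx_emb (j : Fin 3) (t : ℝ) : MeasurableEmbedding (rfx j t) := by
  have h : Function.Involutive (rfx j t) := rfx_rfx j t
  let E : (Fin 3 → ℝ) ≃ᵐ (Fin 3 → ℝ) :=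
    { toEquiv := h.toPerm
      measurable_toFun := (rfx_cont j t).measurable
      measurable_invFun := (rfx_cont j t).measurable }
  exact E.measurableEmbedding

theorem int_rfx (F : (Fin 3 → ℝ) → ℝ) (j : Fin 3) (t : ℝ) :
    ∫ y, F (rfx j t y) = ∫ y, F y :=
  (rfx_mp j t).integral_comp (rfx_emb j t) F

theorem sym_abs (hp : IsPer g) (hs : SymD g) (j : Fin 3) (z : Fin 3 → ℝ) (a : ℝ) :
    g (Function.update z j a) = g (Function.update z j (tn a)) := by
  have h1 : g (Function.update z j a) = g (Function.update z j (a - round a)) := by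
    rw [← hp (Function.update z j (a - round a)) (Pi.single j (round a))]
    congr 1
    ext i
    by_cases hi : i = j
    · subst hi
      simp
    · simp [hi]
  rw [h1]
  unfold tn
  rcases abs_choice (a - (round a : ℝ)) with h | h
  · rw [h]
  · rw [h]
    have := hs.even j (Function.update z j (a - round a))
    simpa using this.symm

theorem sym_le (hp : IsPer g) (hs : SymD g) (j : Fin 3) (z : Fin 3 → ℝ) {a b : ℝ}
    (h : tn a ≤ tn b) : g (Function.update z j b) ≤ g (Function.update z j a) := by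
  rw [sym_abs hp hs j z a, sym_abs hp hs j z b]
  exact hs.anti j z _ _ (tn_nonneg a) h (tn_le_half b)

theorem tn_key {s r v : ℝ} (h0 : 0 ≤ s) (h1 : s ≤ r) (h2 : r ≤ 1 / 2) (hv : v ≤ (s + r) / 2)
    (hs : |v - s| < 1 / 4) : tn v ≤ tn (r + s - v) := by
  rw [abs_lt] at hs
  have e1 : tn v = |v| := tn_eq_abs (abs_le.2 ⟨by linarith, by linarith⟩)
  rw [e1]
  rcases le_total (r + s - v) (1 / 2) with h | h
  · rw [tn_eq_abs (abs_le.2 ⟨by linarith, h⟩), abs_of_nonneg (by linarith : 0 ≤ r + s - v)]
    exact abs_le.2 ⟨by linarith, by linarith⟩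
  · have e2 : tn (r + s - v) = tn (r + s - v - 1) := by
      have := tn_add_int (r + s - v - 1) 1
      rw [← this]
      congr 1
      push_cast
      ring
    have h3 : r + s - v - 1 ≤ 0 := by linarith
    rw [e2, tn_eq_abs (abs_le.2 ⟨by linarith, by linarith⟩), abs_of_nonpos h3]
    exact abs_le.2 ⟨by linarith, by linarith⟩

theorem ker_le (hθ : Ker1 δ θ) {a b : ℝ} (h : |a| ≤ |b|) : θ b ≤ θ a := by
  have e : ∀ c, θ c = θ |c| := fun c => by
    rcases abs_choice c with h | h
    · rw [h]
    · rw [h, hθ.even]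
  rw [e a, e b]
  exact hθ.anti _ _ (abs_nonneg a) h

/-- the kernel difference -/
noncomputable def kap (θ : ℝ → ℝ) (s r v : ℝ) : ℝ := θ (v - s) - θ (v - r)

theorem kap_anti (hθ : Ker1 δ θ) (s r v : ℝ) : kap θ s r (r + s - v) = - kap θ s r v := by
  unfold kap
  rw [show r + s - v - s = -(v - r) by ring, show r + s - v - r = -(v - s) by ring, hθ.even,
    hθ.even]
  ring

theorem kap_nonneg (hθ : Ker1 δ θ) {s r v : ℝ} (h1 : s ≤ r) (hv : v ≤ (s + r) / 2) :
    0 ≤ kap θ s r v := by
  unfold kap
  have : |v - s| ≤ |v - r| := by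
    rw [abs_of_nonpos (by linarith : v - r ≤ 0)]
    exact abs_le.2 ⟨by linarith, by linarith⟩
  linarith [ker_le hθ this]

theorem pt_left (hδ' : δ ≤ 1 / 4) (hθ : Ker1 δ θ) (hp : IsPer g) (hs : SymD g) (j : Fin 3)
    {s r : ℝ} (h0 : 0 ≤ s) (h1 : s ≤ r) (h2 : r ≤ 1 / 2) (z : Fin 3 → ℝ) {v : ℝ}
    (hv : v ≤ (s + r) / 2) :
    0 ≤ kap θ s r v * (g (Function.update z j v) - g (Function.update z j (r + s - v))) := by
  by_cases hd : |v - s| < 1 / 4
  · apply mul_nonneg (kap_nonneg hθ h1 hv)
    linarith [sym_le hp hs j z (tn_key h0 h1 h2 hv hd)]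
  · rw [not_lt] at hd
    have h3 : |v - s| ≤ |v - r| := by
      rw [abs_of_nonpos (by linarith : v - r ≤ 0)]
      exact abs_le.2 ⟨by linarith, by linarith⟩
    have : kap θ s r v = 0 := by
      unfold kap
      rw [hθ.supp _ (hδ'.trans hd), hθ.supp _ (hδ'.trans (hd.trans h3))]
      ring
    rw [this]
    simp

theorem pt (hδ' : δ ≤ 1 / 4) (hθ : Ker1 δ θ) (hp : IsPer g) (hs : SymD g) (j : Fin 3)
    {s r : ℝ} (h0 : 0 ≤ s) (h1 : s ≤ r) (h2 : r ≤ 1 / 2) (z : Fin 3 → ℝ) (v : ℝ) :
    0 ≤ kap θ s r v * (g (Function.update z j v) - g (Function.update z j (r + s - v))) := by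
  rcases le_total v ((s + r) / 2) with hv | hv
  · exact pt_left hδ' hθ hp hs j h0 h1 h2 z hv
  · have h := pt_left hδ' hθ hp hs j h0 h1 h2 z (v := r + s - v) (by linarith)
    rw [kap_anti hθ, show r + s - (r + s - v) = v by ring] at h
    linarith

theorem ker_cs (hθ : Ker1 δ θ) : HasCompactSupport (fun y : Fin 3 → ℝ => ∏ i, θ (y i)) := by
  apply HasCompactSupport.intro (isCompact_Icc (a := fun _ : Fin 3 => -|δ|) (b := fun _ => |δ|))
  intro y hy
  have : ∃ i, θ (y i) = 0 := by
    by_contra hc
    push Not at hc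
    apply hy
    have h : ∀ i, |y i| ≤ |δ| := fun i => by
      by_contra hn
      rw [not_le] at hn
      exact hc i (hθ.supp _ ((le_abs_self δ).trans hn.le))
    exact ⟨fun i => (abs_le.1 (h i)).1, fun i => (abs_le.1 (h i)).2⟩
  obtain ⟨i, hi⟩ := this
  exact Finset.prod_eq_zero (Finset.mem_univ i) hi

theorem ker_cont (hθ : Ker1 δ θ) : Continuous (fun y : Fin 3 → ℝ => ∏ i, θ (y i)) :=
  continuous_finsetProd _ fun i _ => hθ.smooth.continuous.comp (continuous_apply i)

/-- the translated integrand -/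
noncomputable def FF (θ : ℝ → ℝ) (g : (Fin 3 → ℝ) → ℝ) (x z : Fin 3 → ℝ) : ℝ :=
  (∏ i, θ ((z - x) i)) * g z

theorem FF_int (hθ : Ker1 δ θ) (hg : Continuous g) (x : Fin 3 → ℝ) :
    Integrable (FF θ g x) := by
  have h1 : Integrable (fun y : Fin 3 → ℝ => (∏ i, θ (y i)) * g (x + y)) := by
    apply Continuous.integrable_of_hasCompactSupport
    · exact (ker_cont hθ).mul (hg.comp (continuous_const.add continuous_id))
    · exact (ker_cs hθ).mul_right
  have h2 := h1.comp_sub_right x
  refine h2.congr (ae_of_all _ fun z => ?_)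
  show (∏ i, θ ((z - x) i)) * g (x + (z - x)) = FF θ g x z
  rw [add_sub_cancel]
  rfl

theorem cv_eq (x : Fin 3 → ℝ) : cv θ g x = ∫ z, FF θ g x z := by
  rw [← integral_add_left_eq_self (FF θ g x) x]
  unfold cv FF
  congr 1
  ext y
  rw [add_sub_cancel_left]

theorem FF_update (x : Fin 3 → ℝ) (j : Fin 3) (s : ℝ) (z : Fin 3 → ℝ) :
    FF θ g (Function.update x j s) z
      = θ (z j - s) * (∏ i ∈ Finset.univ.erase j, θ (z i - x i)) * g z := by
  unfold FF
  congr 1
  rw [← Finset.mul_prod_erase Finset.univ _ (Finset.mem_univ j)]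
  congr 1
  · simp
  · refine Finset.prod_congr rfl fun i hi => ?_
    simp [Function.update_of_ne (Finset.ne_of_mem_erase hi)]

end SN5

open SN5 in
/-- convolution keeps symmetric decreasing functions -/
theorem cv_sym {δ : ℝ} {θ : ℝ → ℝ} (hδ : 0 < δ) (hδ' : δ ≤ 1 / 4) (hθ : Ker1 δ θ) {L : ℝ}
    {g : (Fin 3 → ℝ) → ℝ} (hg : TL L g) (hs : SymD g) : SymD (cv θ g) where
  even := fun j x => by
    unfold cv
    rw [← int_rfx (fun y => (∏ i, θ (y i)) * g (Function.update x j (-(x j)) + y)) j 0]
    congr 1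
    ext y
    have h1 : ∏ i, θ (rfx j 0 y i) = ∏ i, θ (y i) := by
      refine Finset.prod_congr rfl fun i _ => ?_
      by_cases hi : i = j
      · subst hi
        rw [rfx_same]
        rw [show 2 * 0 - y i = - y i by ring, hθ.even]
      · rw [rfx_ne j 0 y hi]
    have h2 : Function.update x j (-(x j)) + rfx j 0 y
        = Function.update (x + y) j (-((x + y) j)) := by
      ext i
      by_cases hi : i = j
      · subst hi
        simp [rfx_same]
        ring
      · simp [rfx_ne j 0 y hi, hi]
    rw [h1, h2, hs.even j (x + y)]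
  anti := fun j x s r h0 h1 h2 => by
    rw [cv_eq, cv_eq]
    have hS := FF_int (θ := θ) (g := g) hθ hg.cont (Function.update x j s)
    have hR := FF_int (θ := θ) (g := g) hθ hg.cont (Function.update x j r)
    set F := fun z => FF θ g (Function.update x j s) z - FF θ g (Function.update x j r) z with hF
    have hFi : Integrable F := hS.sub hR
    have hFr : Integrable (fun z => F (rfx j ((r + s) / 2) z)) :=
      ((rfx_mp j ((r + s) / 2)).integrable_comp_emb (rfx_emb j _)).2 hFi
    have e1 : ∫ z, F z = (∫ z, FF θ g (Function.update x j s) z)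
        - ∫ z, FF θ g (Function.update x j r) z := integral_sub hS hR
    have e2 : ∫ z, F (rfx j ((r + s) / 2) z) = ∫ z, F z := int_rfx F j _
    have e3 : 0 ≤ ∫ z, (F z + F (rfx j ((r + s) / 2) z)) := by
      apply integral_nonneg
      intro z
      show 0 ≤ F z + F (rfx j ((r + s) / 2) z)
      rw [hF]
      simp only [FF_update]
      have hr : rfx j ((r + s) / 2) z j = r + s - z j := by
        rw [rfx_same]
        ring
      have hprod : ∏ i ∈ Finset.univ.erase j, θ (rfx j ((r + s) / 2) z i - x i)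
          = ∏ i ∈ Finset.univ.erase j, θ (z i - x i) := by
        refine Finset.prod_congr rfl fun i hi => ?_
        rw [rfx_ne j _ z (Finset.ne_of_mem_erase hi)]
      rw [hr, hprod]
      have hz1 : Function.update z j (z j) = z := Function.update_eq_self j z
      have hz2 : Function.update z j (r + s - z j) = rfx j ((r + s) / 2) z := by
        unfold rfx
        congr 1
        ring
      have hp := pt hδ' hθ hg.per hs j h0 h1 h2 z (z j)
      rw [hz1, hz2] at hp
      have hP : 0 ≤ ∏ i ∈ Finset.univ.erase j, θ (z i - x i) :=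
        Finset.prod_nonneg fun i _ => hθ.nonneg _
      have hk := kap_anti hθ s r (z j)
      have hm := mul_nonneg hP hp
      set P := ∏ i ∈ Finset.univ.erase j, θ (z i - x i)
      have h4 : θ (r + s - z j - s) - θ (r + s - z j - r) = -(kap θ s r (z j)) := hk
      have h5 : θ (z j - s) - θ (z j - r) = kap θ s r (z j) := rfl
      have h6 : θ (z j - s) * P * g z - θ (z j - r) * P * g z
          + (θ (r + s - z j - s) * P * g (rfx j ((r + s) / 2) z)
            - θ (r + s - z j - r) * P * g (rfx j ((r + s) / 2) z))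
          = P * (kap θ s r (z j) * (g z - g (rfx j ((r + s) / 2) z))) := by
        rw [← h5]
        have h7 : θ (r + s - z j - s) * P * g (rfx j ((r + s) / 2) z)
            - θ (r + s - z j - r) * P * g (rfx j ((r + s) / 2) z)
            = (θ (r + s - z j - s) - θ (r + s - z j - r)) * P * g (rfx j ((r + s) / 2) z) := by
          ring
        rw [h7, h4, ← h5]
        ring
      rw [h6]
      exact hm
    rw [integral_add hFi hFr, e2, e1] at e3
    linarith

end Vale.Agent.P232
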