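import Mathlib
import Vale.Agent.P232.SA2
import Vale.Agent.P232.SB
import Vale.Agent.P232.SC
import Vale.Agent.P232.SD
import Vale.Agent.P232.SE
import Vale.Agent.P232.SF
import Vale.Agent.P232.SG
import Vale.Agent.P232.SH
import Vale.Agent.P232.SI
import Vale.Agent.P232.SJ
import Vale.Agent.P232.SK
import Vale.Agent.P232.SL
import Vale.Agent.P232.SM
import Vale.Agent.P232.SN1
import Vale.Agent.P232.SN2
import Vale.Agent.P232.SN3
import Vale.Agent.P232.SN4
import Vale.Agent.P232.SN5
import Vale.Agent.P232.UpperAux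

/-!
# P232 block S, module SO: symmetrization of smooth functions on the torus (helper50)
-/

open MeasureTheory Set

namespace Vale.Agent.P232

namespace SO

theorem MM_cont {g : (Fin 3 → ℝ) → ℝ} (hg : Continuous g) (h0 : ∀ x, 0 ≤ g x)
    (h1 : ∀ x, g x ≤ 1) : Continuous (fun h : Fin 3 → ℝ => MM h g) := by
  unfold MM
  apply continuous_of_dominated (bound := fun _ => (1 : ℝ))
  · intro h
    exact (continuous_abs.comp ((hg.comp (continuous_id.add continuous_const)).sub
      hg)).aestronglyMeasurable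
  · intro h
    refine ae_of_all _ fun x => ?_
    rw [Real.norm_eq_abs, abs_abs]
    exact abs_le.2 ⟨by linarith [h0 (x + h), h1 x], by linarith [h1 (x + h), h0 x]⟩
  · exact UpperPart.cont_int (n := 3) (F := fun _ => (1 : ℝ)) continuous_const
  · refine ae_of_all _ fun x => ?_
    exact continuous_abs.comp ((hg.comp (continuous_const.add continuous_id)).sub continuous_const)

theorem MM_int {g : (Fin 3 → ℝ) → ℝ} (hg : Continuous g) (h0 : ∀ x, 0 ≤ g x)
    (h1 : ∀ x, g x ≤ 1) (e : ℝ) : IntegrableOn (fun k : Fin 3 → ℝ => MM (e • k) g) B1 := by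
  have hc : Continuous (fun k : Fin 3 → ℝ => MM (e • k) g) :=
    (MM_cont hg h0 h1).comp (continuous_const_smul e)
  obtain ⟨r, hr⟩ := B1_bdd.subset_closedBall (0 : Fin 3 → ℝ)
  exact (hc.continuousOn.integrableOn_compact (isCompact_closedBall (0 : Fin 3 → ℝ) r)).mono_set hr

end SO

/-- smooth functions can be replaced by symmetric decreasing ones, with the same volume and
almost no increase of the total variation and of the defect -/
theorem symmetrize {f : (Fin 3 → ℝ) → ℝ} (hf : Nice f) {η : ℝ} (hη : 0 < η) :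
    ∃ u, Nice u ∧ SymD u ∧ (∫ x in cell 3, u x) = (∫ x in cell 3, f x) ∧
      (∫ x in cell 3, u x * (1 - u x)) ≤ (∫ x in cell 3, f x * (1 - f x)) + η ∧
      hTV u ≤ hTV f + η := by
  obtain ⟨L, hL⟩ := nice_TL hf
  have hL0 : 0 ≤ L := hL.L0
  -- the scale of the mollification
  obtain ⟨δ, hδ0, hδ4, hδη⟩ : ∃ δ : ℝ, 0 < δ ∧ δ ≤ 1 / 4 ∧ 3 * L * δ ≤ η := by
    refine ⟨min (1 / 4) (η / (3 * L + 1)), lt_min (by norm_num) (by positivity), min_le_left _ _, ?_⟩
    have h1 : 3 * L * min (1 / 4) (η / (3 * L + 1)) ≤ 3 * L * (η / (3 * L + 1)) :=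
      mul_le_mul_of_nonneg_left (min_le_right _ _) (by positivity)
    have h2 : 3 * L * (η / (3 * L + 1)) ≤ η := by
      rw [mul_div_assoc', div_le_iff₀ (by positivity)]
      nlinarith
    linarith
  obtain ⟨θ, hθ⟩ := exists_ker1 hδ0
  obtain ⟨C, hC0, hC⟩ := cv_second hθ
  obtain ⟨c, hc0, hc⟩ := exists_rot
  set vB := (volume B1).toReal with hvB
  have hvB0 : 0 ≤ vB := ENNReal.toReal_nonneg
  -- the scale of the nonlocal functional
  obtain ⟨e, he0, he2, heη⟩ : ∃ e : ℝ, 0 < e ∧ e < 1 / 2 ∧ C * e * vB ≤ c * η := by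
    refine ⟨min (1 / 4) (c * η / (C * vB + 1)), lt_min (by norm_num) (by positivity),
      lt_of_le_of_lt (min_le_left _ _) (by norm_num), ?_⟩
    have h1 : C * vB * min (1 / 4) (c * η / (C * vB + 1)) ≤ C * vB * (c * η / (C * vB + 1)) :=
      mul_le_mul_of_nonneg_left (min_le_right _ _) (by positivity)
    have h2 : C * vB * (c * η / (C * vB + 1)) ≤ c * η := by
      rw [mul_div_assoc', div_le_iff₀ (by positivity)]
      have : 0 < c * η := by positivity
      nlinarith
    nlinarith
  obtain ⟨g, hg, hg1, hg2, hg3, hg4⟩ := exists_max hL e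
  have hgs : SymD g := sym_of_pol hg hg4
  have hu := cv_nice hθ hg
  refine ⟨cv θ g, hu, cv_sym hδ0 hδ4 hθ hg hgs, ?_, ?_, ?_⟩
  · rw [cv_int hθ hg, hg1]
  · rw [← hg2]
    have hgc := hg.cont
    have huc := hu.smooth.continuous
    have i1 : IntegrableOn (fun x => cv θ g x * (1 - cv θ g x)) (cell 3) :=
      UpperPart.cont_int (huc.mul (continuous_const.sub huc))
    have i2 : IntegrableOn (fun x => g x * (1 - g x)) (cell 3) :=
      UpperPart.cont_int (hgc.mul (continuous_const.sub hgc))
    have i3 : IntegrableOn (fun _ : Fin 3 → ℝ => η) (cell 3) :=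
      UpperPart.cont_int continuous_const
    have h3 : ∫ x in cell 3, cv θ g x * (1 - cv θ g x)
        ≤ ∫ x in cell 3, (g x * (1 - g x) + η) := by
      apply integral_mono i1 (i2.add i3)
      intro x
      show cv θ g x * (1 - cv θ g x) ≤ g x * (1 - g x) + η
      have h4 := cv_close hθ hg x
      rw [abs_le] at h4
      have a0 := hg.nonneg x
      have a1 := hg.le_one x
      have b0 := hu.nonneg x
      have b1 := hu.le_one x
      set p := cv θ g x
      set q := g x
      have h5 : p * (1 - p) - q * (1 - q) = (p - q) * (1 - p - q) := by ring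
      have h6 : (p - q) * (1 - p - q) ≤ η := by
        have h7 : |(p - q) * (1 - p - q)| ≤ η * 1 := by
          rw [abs_mul]
          apply mul_le_mul _ _ (abs_nonneg _) hη.le
          · exact abs_le.2 ⟨by linarith [h4.1], by linarith [h4.2]⟩
          · exact abs_le.2 ⟨by linarith, by linarith⟩
        linarith [le_abs_self ((p - q) * (1 - p - q))]
      linarith
    rw [integral_add i2 i3] at h3
    have h8 : ∫ x in cell 3, (fun _ : Fin 3 → ℝ => η) x = η := by
      simp only [integral_const, smul_eq_mul]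
      rw [measureReal_restrict_apply_univ, Measure.real, UpperPart.cell_vol]
      simp
    simp only at h8
    rw [h8] at h3
    exact h3
  · -- total variation
    have k1 : e * c * (∫ x in cell 3, gradN (cv θ g) x)
        ≤ NN e (cv θ g) + C * e ^ 2 * vB :=
      NN_ge hu he0.le hc (hC L g hg)
    have k2 : NN e (cv θ g) ≤ NN e g := by
      unfold NN
      exact integral_mono (SO.MM_int hu.smooth.continuous hu.nonneg hu.le_one e)
        (SO.MM_int hg.cont hg.nonneg hg.le_one e) fun k => cv_MM hθ hg (e • k)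
    have k3 : e ^ 3 * NN e g ≤ e ^ 3 * NN e f := by
      rw [← DD_eq hg he0 he2, ← DD_eq hL he0 he2]
      exact hg3
    have k4 : NN e g ≤ NN e f := le_of_mul_le_mul_left k3 (by positivity)
    have k5 : NN e f ≤ e * c * ∫ x in cell 3, gradN f x := NN_le hf he0.le hc
    have hec : 0 < e * c := by positivity
    have k6 : e * c * (∫ x in cell 3, gradN (cv θ g) x)
        ≤ e * c * ((∫ x in cell 3, gradN f x) + 2 * η) := by
      have h9 : C * e ^ 2 * vB ≤ e * (c * η) := by
        calc C * e ^ 2 * vB = e * (C * e * vB) := by ring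
          _ ≤ e * (c * η) := mul_le_mul_of_nonneg_left heη he0.le
      have h10 : 0 ≤ e * (c * η) := by positivity
      calc e * c * (∫ x in cell 3, gradN (cv θ g) x) ≤ NN e (cv θ g) + C * e ^ 2 * vB := k1
        _ ≤ e * c * (∫ x in cell 3, gradN f x) + e * (c * η) := by linarith
        _ ≤ e * c * ((∫ x in cell 3, gradN f x) + 2 * η) := by nlinarith
    have k7 := le_of_mul_le_mul_left k6 hec
    unfold hTV
    linarith

end Vale.Agent.P232
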