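import Mathlib
import Vale.Agent.P232.Defs2
import Vale.Agent.P232.SO

/-!
# P232: the symmetrization theorem in the form used by the full lower bound (helper50)
-/

open MeasureTheory Set

namespace Vale.Agent.P232

/-- symmetrization with the structure `SymN` of `Defs2` -/
theorem symmetrizeN {f : (Fin 3 → ℝ) → ℝ} (hf : Nice f) {η : ℝ} (hη : 0 < η) :
    ∃ u : (Fin 3 → ℝ) → ℝ, SymN u ∧ (∫ x in cell 3, u x) = (∫ x in cell 3, f x) ∧
      (∫ x in cell 3, u x * (1 - u x)) ≤ (∫ x in cell 3, f x * (1 - f x)) + η ∧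
      hTV u ≤ hTV f + η := by
  obtain ⟨u, h1, h2, h3, h4, h5⟩ := symmetrize hf hη
  have hs : SymN u := ⟨h1, fun x i => h2.even i x, fun x i s r => h2.anti i x s r⟩
  exact ⟨u, hs, h3, h4, h5⟩

end Vale.Agent.P232
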