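import Vale.Agent.P232.TreeLeaf
import Vale.Agent.P232.Defs2

/-!
# P232, module 2NS2: `tube_small`
-/

open MeasureTheory Set

namespace Vale.Agent.P232

open N5

namespace TubeSmall

/-- Newton iteration for the cube root (nothing is proved about it) -/
def cbn (n : ℕ) : ℕ → ℕ → ℕ
  | 0, x => x
  | k + 1, x => bif Nat.blt ((2 * x + n / (x * x)) / 3) x then
      cbn n k ((2 * x + n / (x * x)) / 3) else x

def cbr (V : ℕ) : ℕ := cbn (V * M ^ 2) 60 (2 ^ (Nat.log2 (V * M ^ 2) / 3 + 1))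

/-- tangency point for the ball test -/
def tb (b1 c2 la mu Va Vb : ℕ) : ℕ :=
  bif Nat.blt la mu then
    max (cbr Va) (min (cbr Vb) (4836 * M * (c2 - b1) / (3000 * (mu - la))))
  else cbr Vb

def leafB (b1 b2 c1 c2 V1 V2 : ℕ) : Bool :=
  nodeOK b1 c2 (i2 b1) (i2 c2) b1 0 && nodeOK b1 c2 (i2 b1) (i2 c2) c2 0 &&
  Nat.blt b1 c2 &&
  (Nat.blt (min V2 c2) (max V1 b1) ||
    (test0 b1 c2 (i2 b1) (i2 c2) (tt b1 b2 c1 c2 (i2 b1) (i2 c2)) (max V1 b1) (min V2 c2)
        (t0 b1 c2 (i2 b1) (i2 c2) (max V1 b1) (min V2 c2)) ||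
      test1 b1 c2 (i2 b1) (i2 c2) (tt b1 b2 c1 c2 (i2 b1) (i2 c2)) (max V1 b1) (min V2 c2)
        (tb b1 c2 (i2 b1) (i2 c2) (max V1 b1) (min V2 c2))))

def searchB (V1 V2 : ℕ) : ℕ → ℕ → ℕ → ℕ → ℕ → Bool
  | 0, b1, b2, c1, c2 =>
    Nat.blt c2 V1 || Nat.blt V2 b1 || Nat.ble c2 b1 || leafB b1 b2 c1 c2 V1 V2
  | k + 1, b1, b2, c1, c2 =>
    Nat.blt c2 V1 || Nat.blt V2 b1 || Nat.ble c2 b1 || leafB b1 b2 c1 c2 V1 V2 ||
      (bif Nat.ble ((c2 - c1) * max (rnode b1 c2 (i2 b1) (i2 c2) c1) 250000)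
          ((b2 - b1) * max (rnode b1 c2 (i2 b1) (i2 c2) b2) 250000) then
        searchB V1 V2 k b1 ((b1 + b2) / 2) c1 c2 &&
          searchB V1 V2 k ((b1 + b2) / 2) b2 c1 c2
      else
        searchB V1 V2 k b1 b2 c1 ((c1 + c2) / 2) &&
          searchB V1 V2 k b1 b2 ((c1 + c2) / 2) c2)

theorem run_1 : searchB 5000 10000 22 5000 10000 5000 1000000 = true := by decide +kernel
theorem run_2 : searchB 10000 20000 22 5000 20000 10000 1000000 = true := by decide +kernel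
theorem run_3 : searchB 20000 30000 22 5000 30000 20000 1000000 = true := by decide +kernel
theorem run_4 : searchB 30000 45000 22 5000 45000 30000 1000000 = true := by decide +kernel
theorem run_5 : searchB 45000 60000 22 5000 60000 45000 1000000 = true := by decide +kernel
theorem run_6 : searchB 60000 80000 22 5000 80000 60000 1000000 = true := by decide +kernel
theorem run_7 : searchB 80000 100000 22 5000 100000 80000 1000000 = true := by decide +kernel
theorem run_8 : searchB 100000 120000 22 5000 120000 100000 1000000 = true := by decide +kernel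

/-- soundness of the ball test -/
theorem test1_sound {b1 c2 la mu T Va Vb : ℕ} (hbc : b1 < c2) (ha1 : b1 ≤ Va)
    (ha2 : Va ≤ c2) (hb1 : b1 ≤ Vb) (hb2 : Vb ≤ c2) {t : ℕ}
    (ht : test1 b1 c2 la mu T Va Vb t = true) {v : ℝ} (hv : v ∈ Icc (Va : ℝ) Vb) :
    Jh (v / 1000000) ≤
      (ap b1 c2 la mu + kp b1 c2 la mu * (v / 1000000)) + (T : ℝ) / 2000000000000 := by
  rw [line_val hbc]
  have hD : (0 : ℝ) < (c2 : ℝ) - b1 := by
    have : (b1 : ℝ) < c2 := by exact_mod_cast hbc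
    linarith
  have hv0 : 0 ≤ v := (Nat.cast_nonneg Va).trans hv.1
  have eva := ev_cast (la := la) (mu := mu) (T := T) ha1 ha2
  have evb := ev_cast (la := la) (mu := mu) (T := T) hb1 hb2
  have hsub : ((c2 - b1 : ℕ) : ℝ) = (c2 : ℝ) - b1 := Nat.cast_sub hbc.le
  set D : ℝ := (c2 : ℝ) - b1 with hDdef
  have key : ((la : ℝ) * (c2 - v) + mu * (v - b1)) / (1000000 * D) + (T : ℝ) / 2000000000000 =
      (2000000 * ((la : ℝ) * (c2 - v) + mu * (v - b1)) + D * T) / (2000000000000 * D) := by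
    field_simp
    ring
  rw [key, le_div_iff₀ (by positivity)]
  unfold test1 at ht
  simp only [Bool.and_eq_true, Nat.ble_eq] at ht
  obtain ⟨⟨ht1, ka⟩, kb⟩ := ht
  have htr : (0 : ℝ) < t := by exact_mod_cast ht1
  have ka' := (Nat.cast_le (α := ℝ)).mpr ka
  have kb' := (Nat.cast_le (α := ℝ)).mpr kb
  push_cast [hsub, M_real, eva] at ka'
  push_cast [hsub, M_real, evb] at kb'
  have G := aff (P := (2000000 * ((la : ℝ) * c2 - mu * b1) + D * T) * 3000 * t * 1000000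
      - D * (4836 * 1000000 * t ^ 3)) (Q := 2000000 * ((mu : ℝ) - la) * 3000 * t * 1000000
      - D * (4836 * 1000000 ^ 3 * 2)) hv (by linarith) (by linarith)
  have J := Jh_le_ball (V := v / 1000000) (τ := t / 1000000) (by positivity) (by positivity)
  have e : 2.418 * (2 * (v / 1000000) + ((t : ℝ) / 1000000) ^ 3) / (3 * (t / 1000000)) *
      (2000000000000 * D) = D * (4836 * 1000000 ^ 3 * 2 * v + 4836 * 1000000 * t ^ 3) /
        (3000 * t * 1000000) := by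
    field_simp
    ring
  calc Jh (v / 1000000) * (2000000000000 * D)
      ≤ 2.418 * (2 * (v / 1000000) + ((t : ℝ) / 1000000) ^ 3) / (3 * (t / 1000000)) *
      (2000000000000 * D) := mul_le_mul_of_nonneg_right J (by positivity)
    _ = _ := e
    _ ≤ _ := by
      rw [div_le_iff₀ (by positivity)]
      linarith

/-- soundness of the tube test -/
theorem test0_sound {b1 c2 la mu T Va Vb : ℕ} (hbc : b1 < c2) (ha1 : b1 ≤ Va)
    (ha2 : Va ≤ c2) (hb1 : b1 ≤ Vb) (hb2 : Vb ≤ c2)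
    (ht : test0 b1 c2 la mu T Va Vb (t0 b1 c2 la mu Va Vb) = true) {v : ℝ}
    (hv : v ∈ Icc (Va : ℝ) Vb) :
    Jh (v / 1000000) ≤
      (ap b1 c2 la mu + kp b1 c2 la mu * (v / 1000000)) + (T : ℝ) / 2000000000000 := by
  have h : leafT 0 0 0 0 0 Va Vb la mu T = leafT 0 0 0 0 0 Va Vb la mu T := rfl
  have h2 : leafT 0 b1 0 0 c2 Va Vb la mu T = true := by
    unfold leafT
    have hb : Nat.beq 0 2 = false := rfl
    rw [hb, cond_false, ht, Bool.true_or]
  have h3 := test_sound hbc ha1 ha2 hb1 hb2 h2 hv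
  unfold Tgt at h3
  rwa [if_neg (by norm_num)] at h3

theorem leafB_sound {b1 b2 c1 c2 V1 V2 : ℕ} (h : leafB b1 b2 c1 c2 V1 V2 = true)
    {V b c : ℝ} (hb1 : (b1 : ℝ) / 1000000 ≤ b) (hb2 : b ≤ (b2 : ℝ) / 1000000)
    (hc1 : (c1 : ℝ) / 1000000 ≤ c) (hc2 : c ≤ (c2 : ℝ) / 1000000)
    (hV1 : (V1 : ℝ) / 1000000 ≤ V) (hV2 : V ≤ (V2 : ℝ) / 1000000) (hbV : b ≤ V) (hVc : V ≤ c) :
    Good 0 V b c := by
  unfold leafB at h
  simp only [Bool.and_eq_true, Nat.blt_eq, Bool.or_eq_true] at h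
  obtain ⟨⟨⟨hn1, hn2⟩, hbc⟩, h⟩ := h
  set la := i2 b1
  set mu := i2 c2
  have N1 := nodeOK_sound hbc hn1
  have N2 := nodeOK_sound hbc hn2
  rw [Nat.cast_zero, zero_div] at N1 N2
  have hD : (0 : ℝ) < (c2 : ℝ) - b1 := by
    have : (b1 : ℝ) < c2 := by exact_mod_cast hbc
    linarith
  have p1 : 0 ≤ ap b1 c2 la mu + kp b1 c2 la mu * ((b1 : ℝ) / 1000000) := by
    rw [line_val hbc]
    have : (la : ℝ) * (c2 - b1) + mu * ((b1 : ℝ) - b1) = la * ((c2 : ℝ) - b1) := by ring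
    rw [this]
    positivity
  have p2 : 0 ≤ ap b1 c2 la mu + kp b1 c2 la mu * ((c2 : ℝ) / 1000000) := by
    rw [line_val hbc]
    have : (la : ℝ) * (c2 - c2) + mu * ((c2 : ℝ) - b1) = mu * ((c2 : ℝ) - b1) := by ring
    rw [this]
    positivity
  have hline : ∀ a ∈ Icc b c, 0 ≤ ap b1 c2 la mu + kp b1 c2 la mu * a ∧
      ap b1 c2 la mu + kp b1 c2 la mu * a ≤ I2 a := fun a ha =>
    line_ok N1 N2 p1 p2 ⟨hb1.trans ha.1, ha.2.trans hc2⟩
  refine ⟨ap b1 c2 la mu, kp b1 c2 la mu, fun a ha => (hline a ha).1, fun a ha => (hline a ha).2,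
    ?_⟩
  unfold Tgt
  rw [if_neg (by norm_num)]
  set v : ℝ := V * 1000000 with hv
  have hVv : V = v / 1000000 := by rw [hv]; field_simp
  have hva : ((max V1 b1 : ℕ) : ℝ) ≤ v := by
    rw [Nat.cast_max]
    apply max_le
    · rw [div_le_iff₀ (by norm_num)] at hV1; exact hV1
    · have := hb1.trans hbV
      rw [div_le_iff₀ (by norm_num)] at this; exact this
  have hvb : v ≤ ((min V2 c2 : ℕ) : ℝ) := by
    rw [Nat.cast_min]
    apply le_min
    · rw [le_div_iff₀ (by norm_num)] at hV2; exact hV2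
    · have := hVc.trans hc2
      rw [le_div_iff₀ (by norm_num)] at this; exact this
  have hab : max V1 b1 ≤ min V2 c2 := by exact_mod_cast hva.trans hvb
  have hfin : Jh V ≤ (ap b1 c2 la mu + kp b1 c2 la mu * V) +
      (tt b1 b2 c1 c2 la mu : ℝ) / 2000000000000 := by
    rw [hVv]
    rcases h with h | h | h
    · exact absurd h (not_lt.mpr hab)
    · exact test0_sound hbc (le_max_right V1 b1) (hab.trans (min_le_right _ _))
        ((le_max_right V1 b1).trans hab) (min_le_right _ _) h ⟨hva, hvb⟩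
    · exact test1_sound hbc (le_max_right V1 b1) (hab.trans (min_le_right _ _))
        ((le_max_right V1 b1).trans hab) (min_le_right _ _) h ⟨hva, hvb⟩
  refine hfin.trans ?_
  have h2 := tt_sound (b1 := b1) (b2 := b2) (c1 := c1) (c2 := c2) (la := la) (mu := mu) hbc
    hb2 hc1 (hbV.trans hVc)
  linarith

theorem searchB_sound (V1 V2 : ℕ) {V : ℝ} (hV1 : (V1 : ℝ) / 1000000 ≤ V)
    (hV2 : V ≤ (V2 : ℝ) / 1000000) {b c : ℝ} (hbV : b ≤ V) (hVc : V ≤ c) (hbc : b < c) :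
    ∀ (k b1 b2 c1 c2 : ℕ), searchB V1 V2 k b1 b2 c1 c2 = true →
      (b1 : ℝ) / 1000000 ≤ b → b ≤ (b2 : ℝ) / 1000000 → (c1 : ℝ) / 1000000 ≤ c →
      c ≤ (c2 : ℝ) / 1000000 → Good 0 V b c := by
  have base : ∀ b1 b2 c1 c2 : ℕ, (Nat.blt c2 V1 || Nat.blt V2 b1 || Nat.ble c2 b1 ||
      leafB b1 b2 c1 c2 V1 V2) = true →
      (b1 : ℝ) / 1000000 ≤ b → b ≤ (b2 : ℝ) / 1000000 → (c1 : ℝ) / 1000000 ≤ c →
      c ≤ (c2 : ℝ) / 1000000 → Good 0 V b c := by
    intro b1 b2 c1 c2 h hb1 hb2 hc1 hc2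
    simp only [Bool.or_eq_true, Nat.blt_eq, Nat.ble_eq] at h
    rcases h with ((h | h) | h) | h
    · exfalso
      have e : (c2 : ℝ) < V1 := by exact_mod_cast h
      have : (c2 : ℝ) / 1000000 < (V1 : ℝ) / 1000000 := by linarith
      linarith
    · exfalso
      have e : (V2 : ℝ) < b1 := by exact_mod_cast h
      have : (V2 : ℝ) / 1000000 < (b1 : ℝ) / 1000000 := by linarith
      linarith
    · exfalso
      have e : (c2 : ℝ) ≤ b1 := by exact_mod_cast h
      have : (c2 : ℝ) / 1000000 ≤ (b1 : ℝ) / 1000000 := by linarith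
      linarith
    · exact leafB_sound h hb1 hb2 hc1 hc2 hV1 hV2 hbV hVc
  intro k
  induction k with
  | zero =>
    intro b1 b2 c1 c2 h
    unfold searchB at h
    exact base b1 b2 c1 c2 h
  | succ k ih =>
    intro b1 b2 c1 c2 h hb1 hb2 hc1 hc2
    unfold searchB at h
    rcases Bool.or_eq_true_iff.mp h with h | h
    · exact base b1 b2 c1 c2 h hb1 hb2 hc1 hc2
    · rw [Bool.cond_eq_ite] at h
      split_ifs at h with hq
      · rw [Bool.and_eq_true] at h
        rcases le_total b ((((b1 + b2) / 2 : ℕ) : ℝ) / 1000000) with hm | hm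
        · exact ih _ _ _ _ h.1 hb1 hm hc1 hc2
        · exact ih _ _ _ _ h.2 hm hb2 hc1 hc2
      · rw [Bool.and_eq_true] at h
        rcases le_total c ((((c1 + c2) / 2 : ℕ) : ℝ) / 1000000) with hm | hm
        · exact ih _ _ _ _ h.1 hb1 hb2 hc1 hm
        · exact ih _ _ _ _ h.2 hb1 hb2 hm hc2

theorem use {V1 V2 : ℕ} (hrun : searchB V1 V2 22 5000 V2 V1 1000000 = true) {V b c : ℝ}
    (hV1 : (V1 : ℝ) / 1000000 ≤ V) (hV2 : V ≤ (V2 : ℝ) / 1000000) (hb : 0.005 ≤ b) (hbV : b ≤ V)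
    (hc : V ≤ c) (hc1 : c ≤ 1) (hbc : b < c) :
    ∃ α κ : ℝ, (∀ a ∈ Set.Icc b c, 0 ≤ α + κ * a) ∧ (∀ a ∈ Set.Icc b c, α + κ * a ≤ I2 a) ∧
      Jh V ≤ α + κ * V + cal I2 α κ b c := by
  obtain ⟨α, κ, h1, h2, h3⟩ := searchB_sound V1 V2 hV1 hV2 hbV hc hbc 22 5000 V2 V1 1000000 hrun
    (by norm_num; linarith) (hbV.trans hV2) (hV1.trans hc) (by norm_num; linarith)
  unfold Tgt at h3
  rw [if_neg (by norm_num)] at h3
  exact ⟨α, κ, h1, h2, h3⟩

end TubeSmall

open TubeSmall in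
theorem tube_small {V b c : ℝ} (hV : V ∈ Set.Icc (0.005 : ℝ) 0.12) (hb : 0.005 ≤ b) (hbV : b ≤ V)
    (hc : V ≤ c) (hc1 : c ≤ 1) (hbc : b < c) :
    ∃ α κ : ℝ, (∀ a ∈ Set.Icc b c, 0 ≤ α + κ * a) ∧ (∀ a ∈ Set.Icc b c, α + κ * a ≤ I2 a) ∧
      Jh V ≤ α + κ * V + cal I2 α κ b c := by
  rcases le_total V 0.01 with h1 | h1
  · exact use run_1 (by norm_num; linarith [hV.1]) (by norm_num; linarith) hb hbV hc hc1 hbc
  rcases le_total V 0.02 with h2 | h2
  · exact use run_2 (by norm_num; linarith) (by norm_num; linarith) hb hbV hc hc1 hbc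
  rcases le_total V 0.03 with h3 | h3
  · exact use run_3 (by norm_num; linarith) (by norm_num; linarith) hb hbV hc hc1 hbc
  rcases le_total V 0.045 with h4 | h4
  · exact use run_4 (by norm_num; linarith) (by norm_num; linarith) hb hbV hc hc1 hbc
  rcases le_total V 0.06 with h5 | h5
  · exact use run_5 (by norm_num; linarith) (by norm_num; linarith) hb hbV hc hc1 hbc
  rcases le_total V 0.08 with h6 | h6
  · exact use run_6 (by norm_num; linarith) (by norm_num; linarith) hb hbV hc hc1 hbc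
  rcases le_total V 0.1 with h7 | h7
  · exact use run_7 (by norm_num; linarith) (by norm_num; linarith) hb hbV hc hc1 hbc
  · exact use run_8 (by norm_num; linarith) (by norm_num; linarith [hV.2]) hb hbV hc hc1 hbc

end Vale.Agent.P232
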