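import Vale.Agent.P232.FullOf
import Vale.Agent.P232.BallTiny
import Vale.Agent.P232.TubeSmall
import Vale.Agent.P232.MidSym
import Vale.Agent.P232.SymOut

/-! # P232, module 2FULL: the lower bound for all volumes -/

open MeasureTheory Set

namespace Vale.Agent.P232

/-- FULL: the isoperimetric inequality in the torus for all volumes -/
theorem full_lower {E : Set (Fin 3 → ℝ)} (hE : MeasurableSet E) (hper : IsPerSet E) {v : ℝ}
    (hv : v = min (volume (E ∩ cell 3)).toReal (1 - (volume (E ∩ cell 3)).toReal)) (h0 : 0 < v) :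
    ENNReal.ofReal (2 * Jh v) ≤ perimeter E :=
  full_lower_of (fun _ _ _ h1 h2 h3 h4 h5 h6 h7 => ball_tiny h1 h2 h3 h4 h5 h6 h7)
    (fun _ _ _ h1 h2 h3 h4 h5 h6 => tube_small h1 h2 h3 h4 h5 h6)
    (fun _ h => mid_sym h) (fun _ hf _ h => symmetrizeN hf h) hE hper hv h0

end Vale.Agent.P232
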