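import Vale.Agent.P232.SmoothAll
import Vale.Agent.P232.Approx
import Vale.Agent.P232.Defs2

/-! # P232, module 2FULL: the lower bound for all volumes, from its four ingredients -/

open MeasureTheory Set

namespace Vale.Agent.P232

/-- statement of `ball_tiny` -/
def BallTinyS : Prop := ∀ V b c : ℝ, 0 < V → V ≤ 0.12 → 0 ≤ b → b ≤ 0.005 → b ≤ V → V ≤ c →
  c ≤ 1 → ∃ α κ : ℝ, (∀ a ∈ Set.Icc b c, 0 ≤ α + κ * a) ∧
    (∀ a ∈ Set.Icc b c, α + κ * a ≤ Real.sqrt (Real.pi * a)) ∧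
    Jh V + 2 * b ≤ α + κ * V + cal (fun a => Real.sqrt (Real.pi * a)) α κ b c

/-- statement of `tube_small` -/
def TubeSmallS : Prop := ∀ V b c : ℝ, V ∈ Set.Icc (0.005 : ℝ) 0.12 → 0.005 ≤ b → b ≤ V → V ≤ c →
  c ≤ 1 → b < c → ∃ α κ : ℝ, (∀ a ∈ Set.Icc b c, 0 ≤ α + κ * a) ∧
    (∀ a ∈ Set.Icc b c, α + κ * a ≤ I2 a) ∧ Jh V ≤ α + κ * V + cal I2 α κ b c

/-- statement of `mid_sym` -/
def MidSymS : Prop := ∀ η : ℝ, 0 < η → ∃ δ > 0, ∀ u : (Fin 3 → ℝ) → ℝ, SymN u →
    (∫ x in cell 3, u x) ∈ Set.Icc (0.264 : ℝ) 0.36 → ∫ x in cell 3, u x * (1 - u x) ≤ δ →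
    Jh (∫ x in cell 3, u x) ≤ hTV u + η

/-- statement of `symmetrize` -/
def SymmetrizeS : Prop := ∀ f : (Fin 3 → ℝ) → ℝ, Nice f → ∀ η : ℝ, 0 < η →
    ∃ u : (Fin 3 → ℝ) → ℝ, SymN u ∧ (∫ x in cell 3, u x) = (∫ x in cell 3, f x) ∧
      (∫ x in cell 3, u x * (1 - u x)) ≤ (∫ x in cell 3, f x * (1 - f x)) + η ∧
      hTV u ≤ hTV f + η

private theorem fl_vol_cell (n : ℕ) : volume (cell n) = 1 := by
  unfold cell
  rw [Real.volume_pi_Ico]
  simp

private theorem fl_per {f : (Fin 3 → ℝ) → ℝ} (hf : Nice f) (i : Fin 3) :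
    Function.Periodic (sArea f i) 1 := by
  intro z
  unfold sArea
  congr 1
  ext y
  unfold slice
  have h := hf.per (i.insertNth z y) (Pi.single i 1)
  rw [← h]
  congr 1
  funext j
  rw [Pi.add_apply]
  rcases Fin.eq_self_or_eq_succAbove i j with hj | ⟨j', hj⟩
  · subst hj
    simp
  · subst hj
    simp [Fin.succAbove_ne]

private theorem fl_minmax {A : ℝ → ℝ} (hA : Continuous A) (hp : Function.Periodic A 1) :
    ∃ z₀ z₁, (∀ z, A z₀ ≤ A z) ∧ ∀ z, A z ≤ A z₁ := by
  obtain ⟨z₀, _, h0⟩ := isCompact_Icc.exists_isMinOn (s := Icc (0:ℝ) 1) ⟨0, by simp⟩ hA.continuousOn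
  obtain ⟨z₁, _, h1⟩ := isCompact_Icc.exists_isMaxOn (s := Icc (0:ℝ) 1) ⟨0, by simp⟩ hA.continuousOn
  refine ⟨z₀, z₁, fun z => ?_, fun z => ?_⟩
  · obtain ⟨y, hy, he⟩ := hp.exists_mem_Ico₀ one_pos z
    rw [he]
    exact h0 ⟨hy.1, hy.2.le⟩
  · obtain ⟨y, hy, he⟩ := hp.exists_mem_Ico₀ one_pos z
    rw [he]
    exact h1 ⟨hy.1, hy.2.le⟩

private theorem fl_nonneg {f : (Fin 3 → ℝ) → ℝ} (hf : Nice f) (i : Fin 3) (z : ℝ) :
    0 ≤ sArea f i z := by
  unfold sArea
  exact integral_nonneg fun y => hf.nonneg _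

private theorem fl_le_one {f : (Fin 3 → ℝ) → ℝ} (hf : Nice f) (i : Fin 3) (z : ℝ) :
    sArea f i z ≤ 1 := by
  unfold sArea
  have h := norm_setIntegral_le_of_norm_le_const (μ := volume) (s := cell 2) (C := 1)
    (f := slice f i z) (by rw [fl_vol_cell]; exact ENNReal.one_lt_top) (fun y _ => by
      show |f (i.insertNth z y)| ≤ 1
      rw [abs_of_nonneg (hf.nonneg _)]
      exact hf.le_one _)
  rw [measureReal_def, fl_vol_cell] at h
  simp only [ENNReal.toReal_one, mul_one] at h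
  exact (le_abs_self _).trans h

private theorem fl_b {A : ℝ → ℝ} (hA : Continuous A) {b : ℝ} (hb : ∀ z, b ≤ A z) :
    b ≤ ∫ z in (0:ℝ)..1, A z := by
  have h := intervalIntegral.integral_mono_on (a := 0) (b := 1) (f := fun _ => b) (g := A)
    (μ := volume) zero_le_one (by simp) (hA.intervalIntegrable _ _) (fun z _ => hb z)
  simpa using h

private theorem fl_c {A : ℝ → ℝ} (hA : Continuous A) {c : ℝ} (hc : ∀ z, A z ≤ c) :
    ∫ z in (0:ℝ)..1, A z ≤ c := by
  have h := intervalIntegral.integral_mono_on (a := 0) (b := 1) (f := A) (g := fun _ => c)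
    (μ := volume) zero_le_one (hA.intervalIntegrable _ _) (by simp) (fun z _ => hc z)
  simpa using h

private theorem fl_Jh {V : ℝ} (hV : V ≤ 1 / 2) : Jh V ≤ I2 V := by
  unfold Jh I2
  refine le_min (le_min ?_ ?_) ?_
  · exact (min_le_left _ _).trans (min_le_right _ _)
  · exact min_le_right _ _
  · refine ((min_le_left _ _).trans (min_le_right _ _)).trans (Real.sqrt_le_sqrt ?_)
    have := Real.pi_pos
    nlinarith

private theorem fl_I2 (V : ℝ) : 0 ≤ I2 V :=
  le_min (le_min (Real.sqrt_nonneg _) zero_le_one) (Real.sqrt_nonneg _)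

/-- the smooth inequality for small volumes -/
theorem smooth_small_of (ball_tiny : BallTinyS) (tube_small : TubeSmallS)
    {f : (Fin 3 → ℝ) → ℝ} (hf : Nice f) {V : ℝ} (hV : V = ∫ x in cell 3, f x)
    (h0 : 0 < V) (h1 : V ≤ 0.12) :
    Jh V ≤ hTV f + Real.sqrt (2 * Real.pi * ∫ x in cell 3, f x * (1 - f x)) := by
  have hcont : ∀ i, Continuous (sArea f i) := fun i => (sArea_contDiff hf i).continuous
  have hfub : ∀ i, ∫ x in cell 3, f x = ∫ z in (0:ℝ)..1, sArea f i z :=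
    fun i => fubini_slice hf.smooth.continuous i
  have hmm := fun i => fl_minmax (hcont i) (fl_per hf i)
  choose p q hp hq using hmm
  -- the maximal minimum
  obtain ⟨i, hi⟩ : ∃ i : Fin 3, ∀ j, sArea f j (p j) ≤ sArea f i (p i) := by
    obtain ⟨i, _, hi⟩ := Finset.exists_max_image (Finset.univ : Finset (Fin 3))
      (fun j => sArea f j (p j)) ⟨0, Finset.mem_univ _⟩
    exact ⟨i, fun j => hi j (Finset.mem_univ _)⟩
  set b := sArea f i (p i) with hb
  set c := sArea f i (q i) with hc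
  have hbV : b ≤ V := by
    rw [hV, hfub i]
    exact fl_b (hcont i) (hp i)
  have hVc : V ≤ c := by
    rw [hV, hfub i]
    exact fl_c (hcont i) (hq i)
  have hb0 : 0 ≤ b := fl_nonneg hf i _
  have hc1 : c ≤ 1 := fl_le_one hf i _
  have hVh : V ≤ 1 / 2 := by
    norm_num at h1 ⊢
    linarith
  by_cases hb5 : b ≤ 0.005
  · obtain ⟨α, κ, hl0, hl, h3⟩ := ball_tiny V b c h0 h1 hb0 hb5 hbV hVc hc1
    have h2 := slice_cut hf i (hp i) (hq i) ⟨p i, rfl⟩ ⟨q i, rfl⟩
      (fun j _ => ⟨p j, hi j⟩) hl0 hl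
    rw [← hV] at h2
    linarith
  · have hb6 : 0.005 ≤ b := (not_le.1 hb5).le
    by_cases hbc : b < c
    · obtain ⟨α, κ, hl0, hl, h3⟩ := tube_small V b c ⟨hb6.trans hbV, h1⟩ hb6 hbV hVc hc1 hbc
      have h2 := slice_torus hf i (hp i) (hq i) ⟨p i, rfl⟩ ⟨q i, rfl⟩ hl0 hl
      rw [← hV] at h2
      linarith
    · have hbV' : b = V := by linarith
      have hcV' : c = V := by linarith
      have h3 := slice_torus hf i (α := I2 V) (κ := 0) (hp i) (hq i) ⟨p i, rfl⟩
        ⟨q i, rfl⟩ (fun a _ => by rw [zero_mul, add_zero]; exact fl_I2 V) (fun a ha => by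
          have : a = V := by
            have h1 := ha.1
            have h2 := ha.2
            linarith
          rw [this, zero_mul, add_zero])
      have h2 : cal I2 (I2 V) 0 (sArea f i (p i)) (sArea f i (q i)) = 0 := by
        unfold cal
        rw [← hb, ← hc, hbV', hcV', intervalIntegral.integral_same]
      rw [h2, zero_mul, add_zero, add_zero] at h3
      exact (fl_Jh hVh).trans h3

/-- the smooth inequality for all volumes up to `1/2`, up to a small error -/
theorem smooth_full_of (hbt : BallTinyS) (hts : TubeSmallS) (hms : MidSymS) (hsy : SymmetrizeS)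
    {η : ℝ} (hη : 0 < η) : ∃ δ > 0, ∀ f : (Fin 3 → ℝ) → ℝ, Nice f →
    0 < (∫ x in cell 3, f x) → (∫ x in cell 3, f x) ≤ 1 / 2 →
    ∫ x in cell 3, f x * (1 - f x) ≤ δ → Jh (∫ x in cell 3, f x) ≤ hTV f + η := by
  obtain ⟨δ₀, hδ₀, hmid⟩ := hms (η / 2) (half_pos hη)
  refine ⟨min (η ^ 2 / (2 * Real.pi)) (δ₀ / 2), lt_min (by positivity) (half_pos hδ₀), ?_⟩
  intro f hf h0 h1 hδ
  have hs : Real.sqrt (2 * Real.pi * ∫ x in cell 3, f x * (1 - f x)) ≤ η := by
    have h2 : 2 * Real.pi * (∫ x in cell 3, f x * (1 - f x)) ≤ η ^ 2 := by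
      have h3 := hδ.trans (min_le_left _ _)
      rw [le_div_iff₀ (by positivity)] at h3
      linarith
    calc _ ≤ Real.sqrt (η ^ 2) := Real.sqrt_le_sqrt h2
      _ = η := Real.sqrt_sq hη.le
  rcases le_total (∫ x in cell 3, f x) 0.12 with h | h
  · have := smooth_small_of hbt hts hf rfl h0 h
    linarith
  rcases le_total (∫ x in cell 3, f x) 0.264 with h' | h'
  · have := smooth_main hf rfl (Or.inl ⟨h, h'⟩)
    linarith
  rcases le_total 0.36 (∫ x in cell 3, f x) with h'' | h''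
  · have := smooth_main hf rfl (Or.inr ⟨h'', by norm_num at h1 ⊢; linarith⟩)
    linarith
  obtain ⟨u, hu, hu1, hu2, hu3⟩ := hsy f hf (min (η / 2) (δ₀ / 2))
    (lt_min (half_pos hη) (half_pos hδ₀))
  have h3 := hmid u hu (by rw [hu1]; exact ⟨h', h''⟩) (by
    have h4 := hδ.trans (min_le_right _ _)
    have h5 := min_le_right (η / 2) (δ₀ / 2)
    linarith)
  rw [hu1] at h3
  have h6 := min_le_left (η / 2) (δ₀ / 2)
  linarith

private theorem fl_one_sub {f : (Fin 3 → ℝ) → ℝ} (hf : Nice f) : Nice (fun x => 1 - f x) where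
  smooth := contDiff_const.sub hf.smooth
  per := fun x k => by
    show 1 - f _ = 1 - f x
    rw [hf.per x k]
  nonneg := fun x => sub_nonneg.mpr (hf.le_one x)
  le_one := fun x => by
    have := hf.nonneg x
    linarith

private theorem fl_hTV (f : (Fin 3 → ℝ) → ℝ) : hTV (fun x => 1 - f x) = hTV f := by
  have h : ∀ x, gradN (fun x => 1 - f x) x = gradN f x := by
    intro x
    unfold gradN
    congr 1
    refine Finset.sum_congr rfl (fun i _ => ?_)
    rw [fderiv_const_sub]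
    simp
  unfold hTV
  simp only [h]

private theorem fl_integrable {f : (Fin 3 → ℝ) → ℝ} (hf : Nice f) :
    IntegrableOn f (cell 3) := by
  have hfin : volume (cell 3) ≠ ⊤ := by rw [fl_vol_cell]; exact ENNReal.one_ne_top
  refine Measure.integrableOn_of_bounded (M := 1) hfin
    hf.smooth.continuous.aestronglyMeasurable (Filter.Eventually.of_forall fun x => ?_)
  rw [Real.norm_eq_abs, abs_of_nonneg (hf.nonneg x)]
  exact hf.le_one x

private theorem fl_int_one_sub {f : (Fin 3 → ℝ) → ℝ} (hf : Nice f) :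
    ∫ x in cell 3, (1 - f x) = 1 - ∫ x in cell 3, f x := by
  have hfin : volume (cell 3) ≠ ⊤ := by rw [fl_vol_cell]; exact ENNReal.one_ne_top
  have hi1 : Integrable (fun _ : Fin 3 → ℝ => (1 : ℝ)) (volume.restrict (cell 3)) :=
    integrableOn_const hfin
  have hi2 : Integrable f (volume.restrict (cell 3)) := fl_integrable hf
  rw [integral_sub hi1 hi2]
  congr 1
  rw [setIntegral_const, smul_eq_mul, mul_one, measureReal_def, fl_vol_cell]
  simp

private theorem fl_real (hbt : BallTinyS) (hts : TubeSmallS) (hms : MidSymS) (hsy : SymmetrizeS)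
    {E : Set (Fin 3 → ℝ)} (hE : MeasurableSet E) (hper : IsPerSet E)
    (hfin : perimeter E ≠ ⊤) {v : ℝ}
    (hv : v = min (volume (E ∩ cell 3)).toReal (1 - (volume (E ∩ cell 3)).toReal)) (h0 : 0 < v)
    {η : ℝ} (hη : 0 < η) : 2 * Jh v ≤ (perimeter E).toReal + 2 * η := by
  obtain ⟨δ, hδ, hmain⟩ := smooth_full_of hbt hts hms hsy hη
  obtain ⟨f, hf, h1, h2, h3⟩ := approx_perimeter hE hper hfin hδ
  rcases le_total (volume (E ∩ cell 3)).toReal (1 - (volume (E ∩ cell 3)).toReal) with hle | hle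
  · rw [min_eq_left hle] at hv
    have := hmain f hf (by rw [h1, ← hv]; exact h0) (by rw [h1]; linarith) h2
    rw [h1, ← hv] at this
    linarith
  · rw [min_eq_right hle] at hv
    have he : (∫ x in cell 3, (1 - f x) * (1 - (1 - f x))) = ∫ x in cell 3, f x * (1 - f x) := by
      congr 1
      funext x
      ring
    have hm := hmain (fun x => 1 - f x) (fl_one_sub hf)
      (by rw [fl_int_one_sub hf, h1, ← hv]; exact h0)
      (by rw [fl_int_one_sub hf, h1]; linarith) (by rw [he]; exact h2)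
    rw [fl_hTV, fl_int_one_sub hf, h1, ← hv] at hm
    linarith

/-- FULL: the isoperimetric inequality in the torus for all volumes -/
theorem full_lower_of (hbt : BallTinyS) (hts : TubeSmallS) (hms : MidSymS) (hsy : SymmetrizeS)
    {E : Set (Fin 3 → ℝ)} (hE : MeasurableSet E) (hper : IsPerSet E) {v : ℝ}
    (hv : v = min (volume (E ∩ cell 3)).toReal (1 - (volume (E ∩ cell 3)).toReal)) (h0 : 0 < v) :
    ENNReal.ofReal (2 * Jh v) ≤ perimeter E := by
  by_cases hfin : perimeter E = ⊤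
  · rw [hfin]; exact le_top
  · apply ENNReal.ofReal_le_of_le_toReal
    refine le_of_forall_pos_le_add fun ε hε => ?_
    have h := fl_real hbt hts hms hsy hE hper hfin hv h0 (half_pos hε)
    linarith

end Vale.Agent.P232
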