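import Vale.Agent.P232.TreeLeaf
import Vale.Agent.P232.GDef

/-!
# P232: soundness of the certified search for a general concave isoperimetric function
`Iso a = min (√(w 0 a)) (√(w 1 a)) (√(w 2 a))`, `w i a = A i + B i * a`.
-/

open MeasureTheory Set

namespace Vale.Agent.P232.G

open Vale.Agent.P232.N5 (M isq nd ev seg_key exists_seg aff M_real kp ap line_val line_cast ev_cast)

/-- data of the isoperimetric function: three affine functions, nonnegative on `[0,1]` -/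
structure Prof where
  A : Fin 3 → ℝ
  B : Fin 3 → ℝ
  nn : ∀ i, ∀ a ∈ Icc (0 : ℝ) 1, 0 ≤ A i + B i * a

/-- the isoperimetric function -/
noncomputable def Prof.iso (P : Prof) (a : ℝ) : ℝ :=
  min (min (Real.sqrt (P.A 0 + P.B 0 * a)) (Real.sqrt (P.A 1 + P.B 1 * a)))
    (Real.sqrt (P.A 2 + P.B 2 * a))

/-- `wm` is a valid lower bound -/
def Prof.LB (P : Prof) (wm : ℕ → ℕ) : Prop :=
  ∀ i, ∀ X : ℕ, X ≤ M → (wm X : ℝ) / 10 ^ 10 ≤ P.A i + P.B i * ((X : ℝ) / 1000000)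

theorem Prof.le_iso (P : Prof) {l a : ℝ} (h : ∀ i, l ^ 2 ≤ P.A i + P.B i * a) : l ≤ P.iso a :=
  le_min (le_min (Real.le_sqrt_of_sq_le (h 0)) (Real.le_sqrt_of_sq_le (h 1)))
    (Real.le_sqrt_of_sq_le (h 2))

theorem Prof.q_ge (P : Prof) {l a ρ : ℝ} (ha : a ∈ Icc (0 : ℝ) 1) (hρ : ρ ^ 2 ≤ 1)
    (h : ∀ i, l ^ 2 ≤ (1 - ρ ^ 2) * (P.A i + P.B i * a)) :
    ρ ≤ Real.sqrt (1 - (l / P.iso a) ^ 2) := by
  apply Real.le_sqrt_of_sq_le
  have key : (l / P.iso a) ^ 2 ≤ 1 - ρ ^ 2 := by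
    rw [div_pow]
    have hI : l ^ 2 ≤ (1 - ρ ^ 2) * (P.iso a) ^ 2 := by
      unfold Prof.iso
      rcases min_choice (min (Real.sqrt (P.A 0 + P.B 0 * a)) (Real.sqrt (P.A 1 + P.B 1 * a)))
        (Real.sqrt (P.A 2 + P.B 2 * a)) with h1 | h1
      · rw [h1]
        rcases min_choice (Real.sqrt (P.A 0 + P.B 0 * a)) (Real.sqrt (P.A 1 + P.B 1 * a))
          with h' | h'
        · rw [h', Real.sq_sqrt (P.nn 0 a ha)]; exact h 0
        · rw [h', Real.sq_sqrt (P.nn 1 a ha)]; exact h 1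
      · rw [h1, Real.sq_sqrt (P.nn 2 a ha)]; exact h 2
    rcases (sq_nonneg (P.iso a)).eq_or_lt with h1 | h1
    · rw [← h1, div_zero]; linarith
    · rw [div_le_iff₀ h1]; exact hI
  linarith

/-- the node condition -/
structure NodeR (P : Prof) (α κ x r : ℝ) : Prop where
  x0 : 0 ≤ x
  x1 : x ≤ 1
  r0 : 0 ≤ r
  r1 : r ≤ 1
  c : ∀ i, (α + κ * x) ^ 2 ≤ (1 - r ^ 2) * (P.A i + P.B i * x)

theorem NodeR.seg {P : Prof} {α κ x0 x1 r0 r1 s t : ℝ} (h0 : NodeR P α κ x0 r0)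
    (h1 : NodeR P α κ x1 r1) (hs : 0 ≤ s) (ht : 0 ≤ t) (hst : s + t = 1) :
    NodeR P α κ (s * x0 + t * x1) (s * r0 + t * r1) := by
  have hr0 : r0 ^ 2 ≤ 1 := by nlinarith [h0.r0, h0.r1]
  have hr1 : r1 ^ 2 ≤ 1 := by nlinarith [h1.r0, h1.r1]
  have el : α + κ * (s * x0 + t * x1) = s * (α + κ * x0) + t * (α + κ * x1) := by
    have : α = (s + t) * α := by rw [hst, one_mul]
    linear_combination this
  have h0x0 := h0.x0
  have h0x1 := h0.x1
  have h1x0 := h1.x0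
  have h1x1 := h1.x1
  have h0r0 := h0.r0
  have h0r1 := h0.r1
  have h1r0 := h1.r0
  have h1r1 := h1.r1
  refine ⟨by positivity, by nlinarith, by positivity, by nlinarith, fun i => ?_⟩
  rw [el]
  have := seg_key hs ht hst (P.nn i x0 ⟨h0x0, h0x1⟩) (P.nn i x1 ⟨h1x0, h1x1⟩) hr0 hr1
    (h0.c i) (h1.c i)
  have e : P.A i + P.B i * (s * x0 + t * x1) =
      s * (P.A i + P.B i * x0) + t * (P.A i + P.B i * x1) := by
    have : P.A i = (s + t) * P.A i := by rw [hst, one_mul]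
    linear_combination this
  rw [e]; exact this

theorem line_ok {P : Prof} {α κ x0 x1 a : ℝ} (h0 : NodeR P α κ x0 0) (h1 : NodeR P α κ x1 0)
    (p0 : 0 ≤ α + κ * x0) (p1 : 0 ≤ α + κ * x1) (ha : a ∈ Icc x0 x1) :
    0 ≤ α + κ * a ∧ α + κ * a ≤ P.iso a := by
  obtain ⟨s, t, hs, ht, hst, rfl⟩ := exists_seg ha
  have h := h0.seg h1 hs ht hst
  have el : α + κ * (s * x0 + t * x1) = s * (α + κ * x0) + t * (α + κ * x1) := by
    have : α = (s + t) * α := by rw [hst, one_mul]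
    linear_combination this
  refine ⟨by rw [el]; positivity, P.le_iso fun i => ?_⟩
  simpa using h.c i

/-- the integrand of `cal` -/
noncomputable def qf (P : Prof) (α κ a : ℝ) : ℝ := Real.sqrt (1 - ((α + κ * a) / P.iso a) ^ 2)

theorem qf_nonneg (P : Prof) (α κ a : ℝ) : 0 ≤ qf P α κ a := Real.sqrt_nonneg _

theorem qf_le_one (P : Prof) (α κ a : ℝ) : qf P α κ a ≤ 1 := by
  unfold qf
  exact Real.sqrt_le_one.mpr (by nlinarith [sq_nonneg ((α + κ * a) / P.iso a)])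

theorem Prof.iso_continuous (P : Prof) : Continuous P.iso := by
  unfold Prof.iso
  fun_prop

theorem qf_measurable (P : Prof) (α κ : ℝ) : Measurable (qf P α κ) := by
  unfold qf
  have h1 : Measurable fun a : ℝ => (α + κ * a) / P.iso a :=
    ((measurable_const.add (measurable_const.mul measurable_id))).div P.iso_continuous.measurable
  exact Real.continuous_sqrt.measurable.comp (measurable_const.sub (h1.pow_const 2))

theorem qf_int (P : Prof) (α κ b c : ℝ) : IntervalIntegrable (qf P α κ) volume b c := by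
  refine IntervalIntegrable.mono_fun (intervalIntegrable_const (c := (1 : ℝ)))
    (qf_measurable P α κ).aestronglyMeasurable (Filter.Eventually.of_forall fun a => ?_)
  change ‖qf P α κ a‖ ≤ ‖(1 : ℝ)‖
  rw [Real.norm_of_nonneg (qf_nonneg _ _ _ _), norm_one]
  exact qf_le_one _ _ _ _

theorem cal_eq (P : Prof) (α κ b c : ℝ) : cal P.iso α κ b c = ∫ a in b..c, qf P α κ a := rfl

theorem int_nonneg {P : Prof} {α κ b c : ℝ} (h : b ≤ c) : 0 ≤ ∫ a in b..c, qf P α κ a :=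
  intervalIntegral.integral_nonneg h fun _ _ => qf_nonneg _ _ _ _

theorem int_seg {P : Prof} {α κ x0 x1 r0 r1 : ℝ} (h0 : NodeR P α κ x0 r0)
    (h1 : NodeR P α κ x1 r1) (hx : x0 ≤ x1) :
    (x1 - x0) * (r0 + r1) / 2 ≤ ∫ a in x0..x1, qf P α κ a := by
  rcases hx.eq_or_lt with rfl | hlt
  · simp
  have hd : 0 < x1 - x0 := by linarith
  set m : ℝ := (r1 - r0) / (x1 - x0) with hm
  have e1 : ∫ a in x0..x1, ((r0 - m * x0) + m * a) = (x1 - x0) * (r0 + r1) / 2 := by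
    rw [intervalIntegral.integral_add (by simp) (by
      apply Continuous.intervalIntegrable; fun_prop)]
    rw [intervalIntegral.integral_const, intervalIntegral.integral_const_mul, integral_id]
    rw [smul_eq_mul, hm]
    field_simp
    ring
  rw [← e1]
  refine intervalIntegral.integral_mono_on hx ?_ (qf_int _ _ _ _ _) fun a ha => ?_
  · apply Continuous.intervalIntegrable; fun_prop
  · obtain ⟨s, t, hs, ht, hst, rfl⟩ := exists_seg ha
    have h := h0.seg h1 hs ht hst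
    have er : (r0 - m * x0) + m * (s * x0 + t * x1) = s * r0 + t * r1 := by
      have hs' : s = 1 - t := by linarith
      have hm' : m * (x1 - x0) = r1 - r0 := by rw [hm]; field_simp
      rw [hs']
      linear_combination t * hm'
    rw [er]
    exact P.q_ge ⟨h.x0, h.x1⟩ (by nlinarith [h.r0, h.r1]) h.c

theorem int_mono {P : Prof} {α κ b c x y : ℝ} (hb : b ≤ x) (hxy : x ≤ y) (hc : y ≤ c) :
    ∫ a in x..y, qf P α κ a ≤ ∫ a in b..c, qf P α κ a :=
  intervalIntegral.integral_mono_interval hb hxy hc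
    (Filter.Eventually.of_forall fun _ => qf_nonneg _ _ _ _) (qf_int _ _ _ _ _)

theorem nodeOK_sound {P : Prof} {wm : ℕ → ℕ} (hwm : P.LB wm) {b1 c2 la mu X r : ℕ}
    (hbc : b1 < c2) (h : nodeOK wm b1 c2 la mu X r = true) :
    NodeR P (ap b1 c2 la mu) (kp b1 c2 la mu) ((X : ℝ) / 1000000) ((r : ℝ) / 1000000) := by
  unfold nodeOK at h
  simp only [Bool.and_eq_true, Nat.ble_eq] at h
  obtain ⟨⟨⟨⟨hX1, hX2⟩, hcM⟩, hrM⟩, k1⟩ := h
  have hd : (0 : ℝ) < (c2 : ℝ) - b1 := by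
    have : (b1 : ℝ) < c2 := by exact_mod_cast hbc
    linarith
  have hXM : X ≤ M := hX2.trans hcM
  have hXMr : (X : ℝ) ≤ 1000000 := by rw [← M_real]; exact_mod_cast hXM
  have hrMr : (r : ℝ) ≤ 1000000 := by rw [← M_real]; exact_mod_cast hrM
  have hX0 : (0 : ℝ) ≤ X := Nat.cast_nonneg X
  have hr0 : (0 : ℝ) ≤ r := Nat.cast_nonneg r
  have hr2 : r ^ 2 ≤ M ^ 2 := Nat.pow_le_pow_left hrM 2
  have hl := line_cast (la := la) (mu := mu) hX1 hX2
  generalize la * (c2 - X) + mu * (X - b1) = n at k1 hl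
  have c1' : 10 ^ 10 * ((la : ℝ) * (c2 - X) + mu * (X - b1)) ^ 2 ≤
      (wm X : ℝ) * (1000000 ^ 2 - (r : ℝ) ^ 2) * ((c2 : ℝ) - b1) ^ 2 := by
    have := (Nat.cast_le (α := ℝ)).mpr k1
    push_cast [Nat.cast_sub hbc.le, Nat.cast_sub hr2, M_real, hl] at this
    linarith
  set D : ℝ := (c2 : ℝ) - b1 with hD
  set L : ℝ := (la : ℝ) * (c2 - X) + mu * (X - b1) with hL
  have hv : ap b1 c2 la mu + kp b1 c2 la mu * ((X : ℝ) / 1000000) = L / (1000000 * D) :=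
    line_val hbc X
  have hA : 0 ≤ 1 - ((r : ℝ) / 1000000) ^ 2 := by
    have : ((r : ℝ) / 1000000) ^ 2 ≤ 1 := by
      rw [div_pow, div_le_one (by norm_num)]
      nlinarith
    linarith
  refine ⟨by positivity, ?_, by positivity, ?_, fun i => ?_⟩
  · rw [div_le_one (by norm_num)]; exact hXMr
  · rw [div_le_one (by norm_num)]; exact hrMr
  · rw [hv]
    have h1 : (L / (1000000 * D)) ^ 2 ≤
        (1 - ((r : ℝ) / 1000000) ^ 2) * ((wm X : ℝ) / 10 ^ 10) := by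
      rw [div_pow, div_le_iff₀ (by positivity)]
      have e : (1 - ((r : ℝ) / 1000000) ^ 2) * ((wm X : ℝ) / 10 ^ 10) * (1000000 * D) ^ 2 =
          (wm X : ℝ) * (1000000 ^ 2 - (r : ℝ) ^ 2) * D ^ 2 / 10 ^ 10 := by ring
      rw [e, le_div_iff₀ (by positivity)]
      linarith
    exact h1.trans (mul_le_mul_of_nonneg_left (hwm i X hXM) hA)

theorem go_sound {P : Prof} {wm : ℕ → ℕ} (hwm : P.LB wm) {b1 c2 la mu lo hi : ℕ}
    (hbc : b1 < c2) :
    ∀ (j X r acc : ℕ), NodeR P (ap b1 c2 la mu) (kp b1 c2 la mu) ((X : ℝ) / 1000000)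
        ((r : ℝ) / 1000000) → X ≤ hi →
      (go wm b1 c2 la mu lo hi j X r acc : ℝ) ≤ acc + 2000000000000 *
        ∫ a in ((X : ℝ) / 1000000)..((hi : ℝ) / 1000000),
          qf P (ap b1 c2 la mu) (kp b1 c2 la mu) a := by
  intro j
  induction j with
  | zero =>
    intro X r acc _ hX
    have hX' : (X : ℝ) / 1000000 ≤ (hi : ℝ) / 1000000 := by
      have : (X : ℝ) ≤ hi := by exact_mod_cast hX
      linarith
    have := int_nonneg (P := P) (α := ap b1 c2 la mu) (κ := kp b1 c2 la mu) hX'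
    unfold go
    linarith
  | succ j ih =>
    intro X r acc hN hX
    have hX' : (X : ℝ) / 1000000 ≤ (hi : ℝ) / 1000000 := by
      have : (X : ℝ) ≤ hi := by exact_mod_cast hX
      linarith
    have hpos := int_nonneg (P := P) (α := ap b1 c2 la mu) (κ := kp b1 c2 la mu) hX'
    have hacc : (0 : ℝ) ≤ acc := Nat.cast_nonneg acc
    unfold go
    set Y := nd lo hi (16 - j) with hY
    set ρ := rnode wm b1 c2 la mu Y with hρ
    cases hb : (nodeOK wm b1 c2 la mu Y ρ && Nat.ble X Y && Nat.ble Y hi)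
    · rw [cond_false]
      push_cast
      positivity
    · rw [cond_true]
      simp only [Bool.and_eq_true, Nat.ble_eq] at hb
      obtain ⟨⟨hn, hXY⟩, hYhi⟩ := hb
      have hN' := nodeOK_sound hwm hbc hn
      have h1 := ih Y ρ (acc + (Y - X) * (r + ρ)) hN' hYhi
      have hXYr : (X : ℝ) / 1000000 ≤ (Y : ℝ) / 1000000 := by
        have : (X : ℝ) ≤ Y := by exact_mod_cast hXY
        linarith
      have h2 := int_seg hN hN' hXYr
      have h3 := intervalIntegral.integral_add_adjacent_intervals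
        (qf_int P (ap b1 c2 la mu) (kp b1 c2 la mu) ((X : ℝ) / 1000000) ((Y : ℝ) / 1000000))
        (qf_int P (ap b1 c2 la mu) (kp b1 c2 la mu) ((Y : ℝ) / 1000000) ((hi : ℝ) / 1000000))
      rw [← h3]
      rw [Nat.cast_add, Nat.cast_mul, Nat.cast_sub hXY, Nat.cast_add] at h1
      have e : ((Y : ℝ) / 1000000 - (X : ℝ) / 1000000) * ((r : ℝ) / 1000000 + (ρ : ℝ) / 1000000) / 2
          = ((Y : ℝ) - X) * (r + ρ) / 2000000000000 := by ring
      rw [e, div_le_iff₀ (by norm_num)] at h2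
      linarith

theorem tt_sound {P : Prof} {wm : ℕ → ℕ} (hwm : P.LB wm) {b1 b2 c1 c2 la mu : ℕ} (hbc : b1 < c2)
    {b c : ℝ} (hb : b ≤ (b2 : ℝ) / 1000000)
    (hc : (c1 : ℝ) / 1000000 ≤ c) (h : b ≤ c) :
    (tt wm b1 b2 c1 c2 la mu : ℝ) / 2000000000000 ≤
      cal P.iso (ap b1 c2 la mu) (kp b1 c2 la mu) b c := by
  rw [cal_eq]
  have hpos := int_nonneg (P := P) (α := ap b1 c2 la mu) (κ := kp b1 c2 la mu) h
  unfold tt
  cases hb' : (Nat.blt b2 c1 && nodeOK wm b1 c2 la mu b2 (rnode wm b1 c2 la mu b2))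
  · rw [cond_false]
    simpa using hpos
  · rw [cond_true]
    simp only [Bool.and_eq_true, Nat.blt_eq] at hb'
    obtain ⟨h1, h2⟩ := hb'
    have hN := nodeOK_sound hwm hbc h2
    have h3 := go_sound hwm (lo := b2) (hi := c1) hbc 16 b2 _ 0 hN h1.le
    have h4 : (b2 : ℝ) / 1000000 ≤ (c1 : ℝ) / 1000000 := by
      have : (b2 : ℝ) ≤ c1 := by exact_mod_cast h1.le
      linarith
    have h5 := int_mono (P := P) (α := ap b1 c2 la mu) (κ := kp b1 c2 la mu) hb h4 hc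
    rw [div_le_iff₀ (by norm_num)]
    push_cast at h3
    linarith

/-- the final test is sound: `Tgt V b c` is at most the value of the line at `V` plus
`T / (2 M N)` for all `(V,b,c)` in the box -/
def FT (ft : ℕ → ℕ → ℕ → ℕ → ℕ → ℕ → ℕ → ℕ → ℕ → Bool) (Tgt : ℝ → ℝ → ℝ → ℝ) : Prop :=
  ∀ b1 b2 c1 c2 la mu T Va Vb : ℕ, b1 < c2 → b1 ≤ Va → Va ≤ c2 → b1 ≤ Vb → Vb ≤ c2 →
    ft b1 b2 c1 c2 la mu T Va Vb = true → ∀ v b c : ℝ, v ∈ Icc (Va : ℝ) Vb →
    (b1 : ℝ) / 1000000 ≤ b → b ≤ (b2 : ℝ) / 1000000 → (c1 : ℝ) / 1000000 ≤ c →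
    c ≤ (c2 : ℝ) / 1000000 → b ≤ v / 1000000 → v / 1000000 ≤ c →
    Tgt (v / 1000000) b c ≤
      (ap b1 c2 la mu + kp b1 c2 la mu * (v / 1000000)) + (T : ℝ) / 2000000000000

/-- the conclusion -/
def Good (P : Prof) (Tgt : ℝ → ℝ → ℝ → ℝ) (V b c : ℝ) : Prop :=
  ∃ α κ : ℝ, (∀ a ∈ Set.Icc b c, 0 ≤ α + κ * a) ∧ (∀ a ∈ Set.Icc b c, α + κ * a ≤ P.iso a) ∧
    Tgt V b c ≤ α + κ * V + cal P.iso α κ b c

theorem leaf_sound {P : Prof} {wm : ℕ → ℕ} (hwm : P.LB wm)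
    {ft : ℕ → ℕ → ℕ → ℕ → ℕ → ℕ → ℕ → ℕ → ℕ → Bool} {Tgt : ℝ → ℝ → ℝ → ℝ} (hft : FT ft Tgt)
    {b1 b2 c1 c2 V1 V2 : ℕ} (h : leaf wm ft b1 b2 c1 c2 V1 V2 = true)
    {V b c : ℝ} (hb1 : (b1 : ℝ) / 1000000 ≤ b) (hb2 : b ≤ (b2 : ℝ) / 1000000)
    (hc1 : (c1 : ℝ) / 1000000 ≤ c) (hc2 : c ≤ (c2 : ℝ) / 1000000)
    (hV1 : (V1 : ℝ) / 1000000 ≤ V) (hV2 : V ≤ (V2 : ℝ) / 1000000) (hbV : b ≤ V) (hVc : V ≤ c) :
    Good P Tgt V b c := by
  unfold leaf at h
  simp only [Bool.and_eq_true, Nat.blt_eq, Bool.or_eq_true] at h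
  obtain ⟨⟨⟨hn1, hn2⟩, hbc⟩, h⟩ := h
  set la := isoL wm b1
  set mu := isoL wm c2
  have N1 := nodeOK_sound hwm hbc hn1
  have N2 := nodeOK_sound hwm hbc hn2
  rw [Nat.cast_zero, zero_div] at N1 N2
  have hD : (0 : ℝ) < (c2 : ℝ) - b1 := by
    have : (b1 : ℝ) < c2 := by exact_mod_cast hbc
    linarith
  have p1 : 0 ≤ ap b1 c2 la mu + kp b1 c2 la mu * ((b1 : ℝ) / 1000000) := by
    rw [line_val hbc]
    have : (la : ℝ) * (c2 - b1) + mu * ((b1 : ℝ) - b1) = la * ((c2 : ℝ) - b1) := by ring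
    rw [this]
    positivity
  have p2 : 0 ≤ ap b1 c2 la mu + kp b1 c2 la mu * ((c2 : ℝ) / 1000000) := by
    rw [line_val hbc]
    have : (la : ℝ) * (c2 - c2) + mu * ((c2 : ℝ) - b1) = mu * ((c2 : ℝ) - b1) := by ring
    rw [this]
    positivity
  have hline : ∀ a ∈ Icc b c, 0 ≤ ap b1 c2 la mu + kp b1 c2 la mu * a ∧
      ap b1 c2 la mu + kp b1 c2 la mu * a ≤ P.iso a := fun a ha =>
    line_ok N1 N2 p1 p2 ⟨hb1.trans ha.1, ha.2.trans hc2⟩
  refine ⟨ap b1 c2 la mu, kp b1 c2 la mu, fun a ha => (hline a ha).1, fun a ha => (hline a ha).2,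
    ?_⟩
  set v : ℝ := V * 1000000 with hv
  have hVv : V = v / 1000000 := by rw [hv]; field_simp
  have hva : ((max V1 b1 : ℕ) : ℝ) ≤ v := by
    rw [Nat.cast_max]
    apply max_le
    · rw [div_le_iff₀ (by norm_num)] at hV1; exact hV1
    · have := hb1.trans hbV
      rw [div_le_iff₀ (by norm_num)] at this; exact this
  have hvb : v ≤ ((min V2 c2 : ℕ) : ℝ) := by
    rw [Nat.cast_min]
    apply le_min
    · rw [le_div_iff₀ (by norm_num)] at hV2; exact hV2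
    · have := hVc.trans hc2
      rw [le_div_iff₀ (by norm_num)] at this; exact this
  have hab : max V1 b1 ≤ min V2 c2 := by exact_mod_cast hva.trans hvb
  rcases h with h | h
  · exact absurd h (not_lt.mpr hab)
  · have := hft b1 b2 c1 c2 la mu _ _ _ hbc (le_max_right V1 b1) (hab.trans (min_le_right _ _))
      ((le_max_right V1 b1).trans hab) (min_le_right _ _) h v b c ⟨hva, hvb⟩ hb1 hb2 hc1 hc2
      (by rw [← hVv]; exact hbV) (by rw [← hVv]; exact hVc)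
    rw [← hVv] at this
    refine this.trans ?_
    have h2 := tt_sound hwm (b1 := b1) (b2 := b2) (c1 := c1) (c2 := c2) (la := la) (mu := mu) hbc
      hb2 hc1 (hbV.trans hVc)
    linarith

theorem search_sound {P : Prof} {wm : ℕ → ℕ} (hwm : P.LB wm)
    {ft : ℕ → ℕ → ℕ → ℕ → ℕ → ℕ → ℕ → ℕ → ℕ → Bool} {Tgt : ℝ → ℝ → ℝ → ℝ} (hft : FT ft Tgt)
    {skp : ℕ → ℕ → ℕ → ℕ → Bool} {V b c : ℝ} {S : Prop}
    (hskp : ∀ b1 b2 c1 c2 : ℕ, skp b1 b2 c1 c2 = true → (b1 : ℝ) ≤ b * 1000000 →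
      b * 1000000 ≤ (b2 : ℝ) → (c1 : ℝ) ≤ c * 1000000 → c * 1000000 ≤ (c2 : ℝ) → S)
    (V1 V2 : ℕ) (hV1 : (V1 : ℝ) / 1000000 ≤ V)
    (hV2 : V ≤ (V2 : ℝ) / 1000000) (hbV : b ≤ V) (hVc : V ≤ c) (hbc : b < c) :
    ∀ (k b1 b2 c1 c2 : ℕ), search wm ft skp V1 V2 k b1 b2 c1 c2 = true →
      (b1 : ℝ) / 1000000 ≤ b → b ≤ (b2 : ℝ) / 1000000 → (c1 : ℝ) / 1000000 ≤ c →
      c ≤ (c2 : ℝ) / 1000000 → S ∨ Good P Tgt V b c := by
  have base : ∀ b1 b2 c1 c2 : ℕ, (Nat.blt c2 V1 || Nat.blt V2 b1 || Nat.ble c2 b1 ||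
      skp b1 b2 c1 c2 || leaf wm ft b1 b2 c1 c2 V1 V2) = true →
      (b1 : ℝ) / 1000000 ≤ b → b ≤ (b2 : ℝ) / 1000000 → (c1 : ℝ) / 1000000 ≤ c →
      c ≤ (c2 : ℝ) / 1000000 → S ∨ Good P Tgt V b c := by
    intro b1 b2 c1 c2 h hb1 hb2 hc1 hc2
    simp only [Bool.or_eq_true, Nat.blt_eq, Nat.ble_eq] at h
    rcases h with (((h | h) | h) | h) | h
    · exfalso
      have e : (c2 : ℝ) < V1 := by exact_mod_cast h
      have : (c2 : ℝ) / 1000000 < (V1 : ℝ) / 1000000 := by linarith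
      linarith
    · exfalso
      have e : (V2 : ℝ) < b1 := by exact_mod_cast h
      have : (V2 : ℝ) / 1000000 < (b1 : ℝ) / 1000000 := by linarith
      linarith
    · exfalso
      have e : (c2 : ℝ) ≤ b1 := by exact_mod_cast h
      have : (c2 : ℝ) / 1000000 ≤ (b1 : ℝ) / 1000000 := by linarith
      linarith
    · left
      rw [div_le_iff₀ (by norm_num)] at hb1 hc1
      rw [le_div_iff₀ (by norm_num)] at hb2 hc2
      exact hskp _ _ _ _ h hb1 hb2 hc1 hc2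
    · exact Or.inr (leaf_sound hwm hft h hb1 hb2 hc1 hc2 hV1 hV2 hbV hVc)
  intro k
  induction k with
  | zero =>
    intro b1 b2 c1 c2 h
    unfold search at h
    exact base b1 b2 c1 c2 h
  | succ k ih =>
    intro b1 b2 c1 c2 h hb1 hb2 hc1 hc2
    unfold search at h
    rcases Bool.or_eq_true_iff.mp h with h | h
    · exact base b1 b2 c1 c2 h hb1 hb2 hc1 hc2
    · rw [Bool.cond_eq_ite] at h
      split_ifs at h with hq
      · rw [Bool.and_eq_true] at h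
        rcases le_total b ((((b1 + b2) / 2 : ℕ) : ℝ) / 1000000) with hm | hm
        · exact ih _ _ _ _ h.1 hb1 hm hc1 hc2
        · exact ih _ _ _ _ h.2 hm hb2 hc1 hc2
      · rw [Bool.and_eq_true] at h
        rcases le_total c ((((c1 + c2) / 2 : ℕ) : ℝ) / 1000000) with hm | hm
        · exact ih _ _ _ _ h.1 hb1 hb2 hc1 hm
        · exact ih _ _ _ _ h.2 hb1 hb2 hm hc2

end Vale.Agent.P232.G
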