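import Vale.Agent.P232.Defs

/-! # P232, module F1: integration by parts on the three-torus (helper48) -/

open MeasureTheory Set

namespace Vale.Agent.P232

theorem continuous_diverg {n : ℕ} {φ : (Fin n → ℝ) → (Fin n → ℝ)} (hφ : ContDiff ℝ 1 φ) :
    Continuous (diverg φ) := by
  have h := hφ.continuous_fderiv one_ne_zero
  unfold diverg
  refine continuous_finsetSum _ fun i _ => ?_
  exact (continuous_apply i).comp (h.clm_apply continuous_const)

theorem cell_ae_eq (n : ℕ) : (cell n) =ᵐ[volume] Icc (0 : Fin n → ℝ) 1 := by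
  have h : (Set.pi Set.univ fun i : Fin n => Ico ((0 : Fin n → ℝ) i) ((1 : Fin n → ℝ) i)) =ᵐ[Measure.pi fun _ => volume]
      Icc (0 : Fin n → ℝ) 1 := Measure.univ_pi_Ico_ae_eq_Icc
  exact h

/-- the integral over the cell of the divergence of a periodic field vanishes -/
theorem int_diverg_zero {ψ : (Fin 3 → ℝ) → (Fin 3 → ℝ)} (hψ : ContDiff ℝ 1 ψ) (hψp : IsPer ψ) :
    ∫ x in cell 3, diverg ψ x = 0 := by
  rw [setIntegral_congr_set (cell_ae_eq 3)]
  have hd : ∀ x, HasFDerivAt ψ (fderiv ℝ ψ x) x := fun x =>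
    (hψ.differentiable one_ne_zero x).hasFDerivAt
  have h := integral_divergence_of_hasFDerivAt_off_countable (n := 2) (E := ℝ) 0 1
    (by intro i; simp) ψ (fderiv ℝ ψ) ∅ Set.countable_empty hψ.continuous.continuousOn
    (fun x _ => hd x)
    ((continuous_diverg hψ).continuousOn.integrableOn_compact isCompact_Icc)
  have h2 : (∫ x in Icc (0 : Fin 3 → ℝ) 1, diverg ψ x) =
      ∫ x in Icc (0 : Fin 3 → ℝ) 1, ∑ i, fderiv ℝ ψ x (Pi.single i 1) i := rfl
  rw [h2, h]
  refine Finset.sum_eq_zero fun i _ => ?_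
  rw [sub_eq_zero]
  congr 1
  funext x
  have e : (i.insertNth ((1 : Fin 3 → ℝ) i) x : Fin 3 → ℝ) =
      (i.insertNth ((0 : Fin 3 → ℝ) i) x : Fin 3 → ℝ) + fun j => (((Pi.single i 1 : Fin 3 → ℤ) j : ℤ) : ℝ) := by
    funext j
    by_cases hj : j = i
    · subst hj
      simp
    · obtain ⟨k, rfl⟩ := Fin.exists_succAbove_eq hj
      simp [Pi.single_apply, hj]
  rw [e, hψp]

theorem ibp {u : (Fin 3 → ℝ) → ℝ} {φ : (Fin 3 → ℝ) → (Fin 3 → ℝ)} (hu : ContDiff ℝ 1 u)
    (hup : IsPer u) (hφ : ContDiff ℝ 1 φ) (hφp : IsPer φ) :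
    ∫ x in cell 3, u x * diverg φ x =
      - ∫ x in cell 3, ∑ i, fderiv ℝ u x (Pi.single i 1) * φ x i := by
  have hψ : ContDiff ℝ 1 (fun x => u x • φ x) := hu.smul hφ
  have hψp : IsPer (fun x => u x • φ x) := by
    intro x k
    show u (x + fun i => (k i : ℝ)) • φ (x + fun i => (k i : ℝ)) = u x • φ x
    rw [hup, hφp]
  have h0 := int_diverg_zero hψ hψp
  have hpt : ∀ x, diverg (fun x => u x • φ x) x =
      u x * diverg φ x + ∑ i, fderiv ℝ u x (Pi.single i 1) * φ x i := by
    intro x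
    have hu' : HasFDerivAt u (fderiv ℝ u x) x := (hu.differentiable one_ne_zero x).hasFDerivAt
    have hφ' : HasFDerivAt φ (fderiv ℝ φ x) x := (hφ.differentiable one_ne_zero x).hasFDerivAt
    have hf := (hu'.smul hφ').fderiv
    unfold diverg
    have hf' : fderiv ℝ (fun x => u x • φ x) x = u x • fderiv ℝ φ x + (fderiv ℝ u x).smulRight (φ x) := hf
    rw [hf', Finset.mul_sum, ← Finset.sum_add_distrib]
    refine Finset.sum_congr rfl fun i _ => ?_
    simp
  have hI : IntegrableOn (fun x => u x * diverg φ x) (cell 3) := by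
    have : IntegrableOn (fun x => u x * diverg φ x) (Icc (0 : Fin 3 → ℝ) 1) :=
      (hu.continuous.mul (continuous_diverg hφ)).continuousOn.integrableOn_compact isCompact_Icc
    exact this.congr_set_ae (cell_ae_eq 3)
  have hJ : IntegrableOn (fun x => ∑ i, fderiv ℝ u x (Pi.single i 1) * φ x i) (cell 3) := by
    have hc : Continuous (fun x => ∑ i, fderiv ℝ u x (Pi.single i 1) * φ x i) := by
      refine continuous_finsetSum _ fun i _ => ?_
      exact ((hu.continuous_fderiv one_ne_zero).clm_apply continuous_const).mul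
        ((continuous_apply i).comp hφ.continuous)
    exact (hc.continuousOn.integrableOn_compact isCompact_Icc).congr_set_ae (cell_ae_eq 3)
  have h1 : ∫ x in cell 3, diverg (fun x => u x • φ x) x =
      (∫ x in cell 3, u x * diverg φ x) + ∫ x in cell 3, ∑ i, fderiv ℝ u x (Pi.single i 1) * φ x i := by
    rw [← integral_add hI hJ]
    exact integral_congr_ae (Filter.Eventually.of_forall hpt)
  linarith

end Vale.Agent.P232
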