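import Mathlib
import Vale.Agent.P232.ArcVar
import Vale.Agent.P232.SliceBasic
import Vale.Agent.P232.SliceArea
import Vale.Agent.P232.Fubini
import Vale.Agent.P232.SliceCommon
import Vale.Agent.P232.Slicing

/-! # P232: joint calibration in the three coordinate directions (helper28)

The three slicing inequalities are added with weights `C i`, `w i` which satisfy
`C x + w y ≤ lam i + mu y^2` on the unit circle; at every point the three squares `y_i^2`
(the squares of the three components of the unit normal) have sum one, so only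
`∑ lam i + mu ≤ 1` is needed. -/

open MeasureTheory Set

namespace Vale.Agent.P232

/-- Fubini for integrable functions -/
theorem j3_fub {F : (Fin 3 → ℝ) → ℝ} (hF : IntegrableOn F (cell 3)) (i : Fin 3) :
    ∫ x in cell 3, F x = ∫ z in (0:ℝ)..1, ∫ y in cell 2, F (i.insertNth z y) := by
  have hmp := MeasureTheory.volume_preserving_piFinSuccAbove (fun _ : Fin 3 => ℝ) i
  have hmp' := hmp.symm
  have h1 := hmp'.setIntegral_preimage_emb
    (MeasurableEquiv.piFinSuccAbove (fun _ : Fin 3 => ℝ) i).symm.measurableEmbedding F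
    (cell 3)
  have hpre : (MeasurableEquiv.piFinSuccAbove (fun _ : Fin 3 => ℝ) i).symm ⁻¹'
      cell 3 = Set.Ico (0 : ℝ) 1 ×ˢ cell 2 := by
    ext p
    rw [Set.mem_preimage, Set.mem_prod]
    exact fub_insertNth_mem_cell i p.1 p.2
  have hint := (hmp'.integrableOn_comp_preimage
    (MeasurableEquiv.piFinSuccAbove (fun _ : Fin 3 => ℝ) i).symm.measurableEmbedding
    (f := F) (s := cell 3)).2 hF
  rw [hpre] at h1 hint
  rw [← h1]
  have h2 : ∀ p : ℝ × (Fin 2 → ℝ),
      (MeasurableEquiv.piFinSuccAbove (fun _ : Fin 3 => ℝ) i).symm p =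
        (i.insertNth p.1 p.2 : Fin 3 → ℝ) := fun p => rfl
  have hint' : IntegrableOn (fun p : ℝ × (Fin 2 → ℝ) => F (i.insertNth p.1 p.2))
      (Set.Ico (0 : ℝ) 1 ×ˢ cell 2) ((volume : Measure ℝ).prod volume) := hint
  simp only [h2]
  have h3 : ∫ p in Set.Ico (0 : ℝ) 1 ×ˢ cell 2, F (i.insertNth p.1 p.2) =
      ∫ z in Set.Ico (0 : ℝ) 1, ∫ y in cell 2, F (i.insertNth z y) :=
    setIntegral_prod _ hint'
  rw [h3, intervalIntegral.integral_of_le zero_le_one, integral_Ico_eq_integral_Ioc]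

/-- the length of the part of the gradient orthogonal to direction `i` -/
noncomputable def j3_g (f : (Fin 3 → ℝ) → ℝ) (i : Fin 3) (x : Fin 3 → ℝ) : ℝ :=
  Real.sqrt (gradN f x ^ 2 - (fderiv ℝ f x (Pi.single i 1)) ^ 2)

theorem j3_g_ins {f : (Fin 3 → ℝ) → ℝ} (hf : Nice f) (i : Fin 3) (z : ℝ) (y : Fin 2 → ℝ) :
    j3_g f i (i.insertNth z y) = gradN (slice f i z) y := by
  unfold j3_g
  rw [gradN_slice hf i z y, add_sub_cancel_right]
  exact Real.sqrt_sq (Real.sqrt_nonneg _)

theorem j3_d_cont {f : (Fin 3 → ℝ) → ℝ} (hf : Nice f) (i : Fin 3) :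
    Continuous fun x => fderiv ℝ f x (Pi.single i 1) :=
  (hf.smooth.continuous_fderiv one_ne_zero).clm_apply continuous_const

theorem j3_g_cont {f : (Fin 3 → ℝ) → ℝ} (hf : Nice f) (i : Fin 3) : Continuous (j3_g f i) := by
  unfold j3_g
  exact (((e3_gradN hf.smooth).pow 2).sub ((j3_d_cont hf i).pow 2)).sqrt

/-- weights depending measurably on one coordinate -/
theorem j3_int {C : ℝ → ℝ} (hC : Measurable C) {K : ℝ} (hK : ∀ z, |C z| ≤ K)
    {G : (Fin 3 → ℝ) → ℝ} (hG : Continuous G) (i : Fin 3) :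
    IntegrableOn (fun x => C (x i) * G x) (cell 3) := by
  have hm : AEStronglyMeasurable (fun x : Fin 3 → ℝ => C (x i)) (volume.restrict (cell 3)) :=
    (hC.comp (measurable_pi_apply i)).aestronglyMeasurable
  exact (e3_int hG).bdd_mul (c := K) hm (Filter.Eventually.of_forall fun x => hK _)

theorem j3_fub_w {C : ℝ → ℝ} (hC : Measurable C) {K : ℝ} (hK : ∀ z, |C z| ≤ K)
    {G : (Fin 3 → ℝ) → ℝ} (hG : Continuous G) (i : Fin 3) :
    ∫ x in cell 3, C (x i) * G x =
      ∫ z in (0:ℝ)..1, C z * ∫ y in cell 2, G (i.insertNth z y) := by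
  rw [j3_fub (j3_int hC hK hG i) i]
  refine intervalIntegral.integral_congr fun z _ => ?_
  simp only [Fin.insertNth_apply_same]
  exact integral_const_mul _ _

/-- the pointwise inequality -/
theorem j3_pt {d C w lam : Fin 3 → ℝ} {mu N : ℝ} (hN : 0 ≤ N) (hNd : N ^ 2 = ∑ i, d i ^ 2)
    (hcal : ∀ i x y, 0 ≤ x → 0 ≤ y → x ^ 2 + y ^ 2 = 1 → C i * x + w i * y ≤ lam i + mu * y ^ 2)
    (hsum : ∑ i, lam i + mu ≤ 1) :
    ∑ i, (C i * Real.sqrt (N ^ 2 - d i ^ 2) + w i * |d i|) ≤ N := by
  rcases hN.eq_or_lt with h0 | hpos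
  · subst h0
    have hd : ∀ i, d i = 0 := by
      intro i
      have h1 : ∑ i, d i ^ 2 = 0 := by rw [← hNd]; ring
      have h2 := (Finset.sum_eq_zero_iff_of_nonneg (fun j _ => sq_nonneg (d j))).1 h1 i
        (Finset.mem_univ i)
      exact pow_eq_zero_iff (two_ne_zero) |>.1 h2
    simp [hd]
  · have hle : ∀ i, d i ^ 2 ≤ N ^ 2 := by
      intro i
      rw [hNd]
      exact Finset.single_le_sum (f := fun j => d j ^ 2) (fun j _ => sq_nonneg _)
        (Finset.mem_univ i)
    have key : ∀ i, C i * Real.sqrt (N ^ 2 - d i ^ 2) + w i * |d i| ≤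
        N * (lam i + mu * (d i ^ 2 / N ^ 2)) := by
      intro i
      have h1 := hcal i (Real.sqrt (N ^ 2 - d i ^ 2) / N) (|d i| / N)
        (div_nonneg (Real.sqrt_nonneg _) hN) (div_nonneg (abs_nonneg _) hN) (by
          rw [div_pow, div_pow, Real.sq_sqrt (by linarith [hle i]), sq_abs]
          field_simp
          ring)
      have h2 : N * (C i * (Real.sqrt (N ^ 2 - d i ^ 2) / N) + w i * (|d i| / N)) =
          C i * Real.sqrt (N ^ 2 - d i ^ 2) + w i * |d i| := by
        field_simp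
      rw [← h2]
      refine mul_le_mul_of_nonneg_left ?_ hN
      rw [div_pow, sq_abs] at h1
      exact h1
    calc ∑ i, (C i * Real.sqrt (N ^ 2 - d i ^ 2) + w i * |d i|)
        ≤ ∑ i, N * (lam i + mu * (d i ^ 2 / N ^ 2)) := Finset.sum_le_sum fun i _ => key i
      _ = N * (∑ i, lam i + mu * ((∑ i, d i ^ 2) / N ^ 2)) := by
          rw [← Finset.mul_sum, Finset.sum_add_distrib, ← Finset.mul_sum, Finset.sum_div]
      _ = N * (∑ i, lam i + mu) := by
          rw [← hNd, div_self (by positivity), mul_one]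
      _ ≤ N * 1 := mul_le_mul_of_nonneg_left hsum hN
      _ = N := mul_one N

/-- W1 : the joint slicing inequality. The weights `C i`, `w i` may depend on the height -/
theorem slicing3 {f : (Fin 3 → ℝ) → ℝ} (hf : Nice f) {C w e : Fin 3 → ℝ → ℝ}
    {α κ lam : Fin 3 → ℝ} {mu : ℝ}
    (hCm : ∀ i, Measurable (C i)) (hwm : ∀ i, Measurable (w i))
    (hC0 : ∀ i z, 0 ≤ C i z) (hw0 : ∀ i z, 0 ≤ w i z)
    (he : ∀ i, IntervalIntegrable (e i) volume 0 1)
    (hiso : ∀ i, ∀ z, α i + κ i * sArea f i z - e i z ≤ C i z * hTV (slice f i z))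
    (hcal : ∀ i z x y, 0 ≤ x → 0 ≤ y → x ^ 2 + y ^ 2 = 1 →
      C i z * x + w i z * y ≤ lam i + mu * y ^ 2)
    (hsum : ∑ i, lam i + mu ≤ 1) :
    ∑ i, (α i + κ i * (∫ x in cell 3, f x) +
        (1 / 2) * ∫ z in (0:ℝ)..1, w i z * |deriv (sArea f i) z|) ≤
      hTV f + ∑ i, ∫ z in (0:ℝ)..1, e i z := by
  have hCb : ∀ i z, |C i z| ≤ lam i := by
    intro i z
    rw [abs_of_nonneg (hC0 i z)]
    have := hcal i z 1 0 zero_le_one le_rfl (by norm_num)
    simpa using this
  have hwb : ∀ i z, |w i z| ≤ lam i + mu := by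
    intro i z
    rw [abs_of_nonneg (hw0 i z)]
    have := hcal i z 0 1 le_rfl zero_le_one (by norm_num)
    simpa using this
  have hgc : Continuous (gradN f) := e3_gradN hf.smooth
  have hdc : ∀ i, Continuous fun x => |fderiv ℝ f x (Pi.single i 1)| := fun i =>
    (j3_d_cont hf i).abs
  -- integrability over the cell
  have hi1 : ∀ i : Fin 3, IntegrableOn (fun x => C i (x i) * j3_g f i x) (cell 3) := fun i =>
    j3_int (hCm i) (hCb i) (j3_g_cont hf i) i
  have hi2 : ∀ i : Fin 3, IntegrableOn (fun x => w i (x i) * |fderiv ℝ f x (Pi.single i 1)|)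
      (cell 3) := fun i => j3_int (hwm i) (hwb i) (hdc i) i
  have hpt : ∀ x : Fin 3 → ℝ, ∑ i : Fin 3, (C i (x i) * j3_g f i x +
      w i (x i) * |fderiv ℝ f x (Pi.single i 1)|) ≤ gradN f x := by
    intro x
    have hN2 : gradN f x ^ 2 = ∑ i, (fderiv ℝ f x (Pi.single i 1)) ^ 2 := by
      unfold gradN
      exact Real.sq_sqrt (Finset.sum_nonneg fun _ _ => sq_nonneg _)
    exact j3_pt (N := gradN f x) (d := fun i => fderiv ℝ f x (Pi.single i 1))
      (C := fun i => C i (x i)) (w := fun i => w i (x i)) (Real.sqrt_nonneg _) hN2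
      (fun i a b ha hb hab => hcal i (x i) a b ha hb hab) hsum
  have hint : ∫ x in cell 3, ∑ i : Fin 3, (C i (x i) * j3_g f i x +
      w i (x i) * |fderiv ℝ f x (Pi.single i 1)|) ≤ ∫ x in cell 3, gradN f x :=
    setIntegral_mono (integrable_finsetSum _ fun i _ => (hi1 i).add (hi2 i)) (e3_int hgc) hpt
  have hfs : ∫ x in cell 3, ∑ i : Fin 3, (C i (x i) * j3_g f i x +
      w i (x i) * |fderiv ℝ f x (Pi.single i 1)|) = ∑ i : Fin 3, ∫ x in cell 3,
      (C i (x i) * j3_g f i x + w i (x i) * |fderiv ℝ f x (Pi.single i 1)|) :=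
    integral_finsetSum Finset.univ fun i _ => (hi1 i).add (hi2 i)
  rw [hfs] at hint
  have hsplit : ∀ i : Fin 3, ∫ x in cell 3, (C i (x i) * j3_g f i x +
      w i (x i) * |fderiv ℝ f x (Pi.single i 1)|) =
      (∫ z in (0:ℝ)..1, C i z * ∫ y in cell 2, j3_g f i (i.insertNth z y)) +
        ∫ z in (0:ℝ)..1, w i z * ∫ y in cell 2,
          |fderiv ℝ f (i.insertNth z y) (Pi.single i 1)| := by
    intro i
    rw [integral_add (hi1 i) (hi2 i), j3_fub_w (hCm i) (hCb i) (j3_g_cont hf i) i,
      j3_fub_w (hwm i) (hwb i) (hdc i) i]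
  -- continuity in `z`
  have hAc : ∀ i : Fin 3, Continuous fun z => ∫ y in cell 2, j3_g f i (i.insertNth z y) :=
    fun i => e3_cont_param (F := fun z y => j3_g f i (i.insertNth z y))
      ((j3_g_cont hf i).comp (e3_ins i))
  have hBc : ∀ i : Fin 3, Continuous fun z => ∫ y in cell 2,
      |fderiv ℝ f (i.insertNth z y) (Pi.single i 1)| :=
    fun i => e3_cont_param (F := fun z y => |fderiv ℝ f (i.insertNth z y) (Pi.single i 1)|)
      ((hdc i).comp (e3_ins i))
  have hpC : ∀ i, ContDiff ℝ 1 (sArea f i) := fun i => sArea_contDiff hf i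
  have hpd : ∀ i, Continuous (deriv (sArea f i)) := fun i => (hpC i).continuous_deriv le_rfl
  have hwii : ∀ (i : Fin 3) (H : ℝ → ℝ), Continuous H →
      IntervalIntegrable (fun z => w i z * H z) volume 0 1 := by
    intro i H hH
    have h1 : IntervalIntegrable H volume 0 1 := hH.intervalIntegrable _ _
    rw [intervalIntegrable_iff] at h1 ⊢
    exact h1.bdd_mul (c := lam i + mu) ((hwm i).aestronglyMeasurable)
      (Filter.Eventually.of_forall fun z => hwb i z)
  have hCii : ∀ (i : Fin 3) (H : ℝ → ℝ), Continuous H →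
      IntervalIntegrable (fun z => C i z * H z) volume 0 1 := by
    intro i H hH
    have h1 : IntervalIntegrable H volume 0 1 := hH.intervalIntegrable _ _
    rw [intervalIntegrable_iff] at h1 ⊢
    exact h1.bdd_mul (c := lam i) ((hCm i).aestronglyMeasurable)
      (Filter.Eventually.of_forall fun z => hCb i z)
  have hone : ∀ i : Fin 3, 2 * (α i + κ i * (∫ x in cell 3, f x) +
        (1 / 2) * ∫ z in (0:ℝ)..1, w i z * |deriv (sArea f i) z|) -
        2 * ∫ z in (0:ℝ)..1, e i z ≤
      (∫ z in (0:ℝ)..1, C i z * ∫ y in cell 2, j3_g f i (i.insertNth z y)) +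
        ∫ z in (0:ℝ)..1, w i z * ∫ y in cell 2,
          |fderiv ℝ f (i.insertNth z y) (Pi.single i 1)| := by
    intro i
    have h1 : ∫ z in (0:ℝ)..1, w i z * |deriv (sArea f i) z| ≤
        ∫ z in (0:ℝ)..1, w i z * ∫ y in cell 2,
          |fderiv ℝ f (i.insertNth z y) (Pi.single i 1)| :=
      intervalIntegral.integral_mono_on zero_le_one (hwii i _ (hpd i).abs) (hwii i _ (hBc i))
        fun z _ => mul_le_mul_of_nonneg_left (sArea_deriv_le hf i z) (hw0 i z)
    have h2 : ∀ z, 2 * (α i + κ i * sArea f i z - e i z) ≤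
        C i z * ∫ y in cell 2, j3_g f i (i.insertNth z y) := by
      intro z
      have h3 := hiso i z
      have h4 : hTV (slice f i z) = (1 / 2) * ∫ y in cell 2, j3_g f i (i.insertNth z y) := by
        unfold hTV
        congr 1
        refine integral_congr_ae (Filter.Eventually.of_forall fun y => ?_)
        exact (j3_g_ins hf i z y).symm
      rw [h4] at h3
      linarith
    have hlin : IntervalIntegrable (fun z => α i + κ i * sArea f i z) volume 0 1 :=
      (continuous_const.add (continuous_const.mul (hpC i).continuous)).intervalIntegrable _ _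
    have h5 : ∫ z in (0:ℝ)..1, 2 * (α i + κ i * sArea f i z - e i z) ≤
        ∫ z in (0:ℝ)..1, C i z * ∫ y in cell 2, j3_g f i (i.insertNth z y) :=
      intervalIntegral.integral_mono_on zero_le_one ((hlin.sub (he i)).const_mul 2)
        (hCii i _ (hAc i)) fun z _ => h2 z
    have h6 : ∫ z in (0:ℝ)..1, 2 * (α i + κ i * sArea f i z - e i z) =
        2 * (α i + κ i * (∫ x in cell 3, f x)) - 2 * ∫ z in (0:ℝ)..1, e i z := by
      have hcp : Continuous fun z => κ i * sArea f i z :=
        continuous_const.mul (hpC i).continuous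
      rw [intervalIntegral.integral_const_mul, intervalIntegral.integral_sub hlin (he i),
        intervalIntegral.integral_add (continuous_const.intervalIntegrable _ _)
          (hcp.intervalIntegrable _ _),
        intervalIntegral.integral_const_mul, intervalIntegral.integral_const,
        fubini_slice hf.smooth.continuous i]
      unfold sArea slice
      simp only [sub_zero, smul_eq_mul, one_mul]
      ring
    linarith
  have hall : ∑ i : Fin 3, (2 * (α i + κ i * (∫ x in cell 3, f x) +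
        (1 / 2) * ∫ z in (0:ℝ)..1, w i z * |deriv (sArea f i) z|) -
        2 * ∫ z in (0:ℝ)..1, e i z) ≤ ∫ x in cell 3, gradN f x := by
    refine (Finset.sum_le_sum fun i _ => hone i).trans ?_
    rw [← Finset.sum_congr rfl fun i _ => hsplit i]
    exact hint
  rw [Finset.sum_sub_distrib, ← Finset.mul_sum, ← Finset.mul_sum] at hall
  unfold hTV
  linarith

/-- variation over two zones, for a symmetric function -/
theorem j3_arc_two {p : ℝ → ℝ} (hp : ContDiff ℝ 1 p) {S₁ S₂ : ℝ → ℝ} (hS₁ : Continuous S₁)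
    (hS₂ : Continuous S₂) (hS₁0 : ∀ x, 0 ≤ S₁ x) (hS₂0 : ∀ x, 0 ≤ S₂ x)
    (hsym : ∀ z, p (1 - z) = p z) {t : ℝ} (ht0 : 0 ≤ t) (ht : t ≤ 1 / 2) {w : ℝ → ℝ}
    (hw1 : ∀ z, 0 < z → z < t → w z = S₁ (p z)) (hw1' : ∀ z, 1 - t < z → z < 1 → w z = S₁ (p z))
    (hw2 : ∀ z, t < z → z < 1 - t → w z = S₂ (p z)) :
    (∫ x in (p t)..(p 0), S₁ x) + (∫ x in (p (1 / 2))..(p t), S₂ x) ≤
      (1 / 2) * ∫ z in (0:ℝ)..1, w z * |deriv p z| := by
  have hpc : Continuous p := hp.continuous
  have hpd : Continuous (deriv p) := hp.continuous_deriv le_rfl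
  have hd : ∀ x, HasDerivAt p (deriv p x) x := fun x =>
    (hp.differentiable (by norm_num) x).hasDerivAt
  have hA : ∀ {S : ℝ → ℝ}, Continuous S → (∀ x, 0 ≤ S x) → ∀ u v : ℝ, u ≤ v →
      |∫ x in (p u)..(p v), S x| ≤ ∫ z in u..v, S (p z) * |deriv p z| := by
    intro S hS hS0 u v huv
    have h1 : ∫ z in u..v, S (p z) * deriv p z = ∫ x in (p u)..(p v), S x :=
      intervalIntegral.integral_comp_mul_deriv (fun x _ => hd x) hpd.continuousOn hS
    rw [← h1]
    refine (intervalIntegral.abs_integral_le_integral_abs huv).trans (le_of_eq ?_)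
    refine intervalIntegral.integral_congr fun z _ => ?_
    simp only [abs_mul, abs_of_nonneg (hS0 _)]
  have hc1 : Continuous fun z => S₁ (p z) * |deriv p z| := (hS₁.comp hpc).mul hpd.abs
  have hc2 : Continuous fun z => S₂ (p z) * |deriv p z| := (hS₂.comp hpc).mul hpd.abs
  have heq : ∀ {S : ℝ → ℝ} (u v : ℝ), u ≤ v → (∀ z, u < z → z < v → w z = S (p z)) →
      ∫ z in u..v, w z * |deriv p z| = ∫ z in u..v, S (p z) * |deriv p z| := by
    intro S u v huv h
    refine intervalIntegral.integral_congr_ae ?_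
    have hv : ∀ᵐ z : ℝ, z ≠ v := by
      simp [ae_iff]
    filter_upwards [hv] with z hzv hz
    rw [Set.uIoc_of_le huv] at hz
    rw [h z hz.1 (lt_of_le_of_ne hz.2 hzv)]
  have hii : ∀ {S : ℝ → ℝ} (u v : ℝ), u ≤ v → Continuous (fun z => S (p z) * |deriv p z|) →
      (∀ z, u < z → z < v → w z = S (p z)) →
      IntervalIntegrable (fun z => w z * |deriv p z|) volume u v := by
    intro S u v huv hc h
    refine (hc.intervalIntegrable u v).congr_ae ?_
    have hv : ∀ᵐ z ∂(volume.restrict (Set.uIoc u v)), z ≠ v := by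
      refine ae_restrict_of_ae ?_
      simp [ae_iff]
    filter_upwards [hv, ae_restrict_mem measurableSet_uIoc] with z hzv hz
    rw [Set.uIoc_of_le huv] at hz
    rw [h z hz.1 (lt_of_le_of_ne hz.2 hzv)]
  have i1 := hii 0 t ht0 hc1 hw1
  have i2 := hii t (1 - t) (by linarith) hc2 hw2
  have i3 := hii (1 - t) 1 (by linarith) hc1 hw1'
  have hsp : ∫ z in (0:ℝ)..1, w z * |deriv p z| = (∫ z in (0:ℝ)..t, w z * |deriv p z|) +
      (∫ z in t..(1 - t), w z * |deriv p z|) + ∫ z in (1 - t)..1, w z * |deriv p z| := by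
    rw [intervalIntegral.integral_add_adjacent_intervals i1 i2,
      intervalIntegral.integral_add_adjacent_intervals (i1.trans i2) i3]
  rw [hsp, heq 0 t ht0 hw1, heq t (1 - t) (by linarith) hw2, heq (1 - t) 1 (by linarith) hw1']
  have e1 : ∫ z in t..(1 - t), S₂ (p z) * |deriv p z| =
      (∫ z in t..(1 / 2), S₂ (p z) * |deriv p z|) +
        ∫ z in (1 / 2)..(1 - t), S₂ (p z) * |deriv p z| :=
    (intervalIntegral.integral_add_adjacent_intervals (hc2.intervalIntegrable _ _)
      (hc2.intervalIntegrable _ _)).symm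
  rw [e1]
  have a1 := hA hS₁ hS₁0 0 t ht0
  have a2 := hA hS₂ hS₂0 t (1 / 2) ht
  have a3 := hA hS₂ hS₂0 (1 / 2) (1 - t) (by linarith)
  have a4 := hA hS₁ hS₁0 (1 - t) 1 (by linarith)
  have hp1 : p 1 = p 0 := by
    have := hsym 0
    simpa using this
  rw [hsym t] at a3 a4
  rw [hp1] at a4
  rw [intervalIntegral.integral_symm, abs_neg] at a1 a2
  have b1 := (le_abs_self _).trans a1
  have b2 := (le_abs_self _).trans a2
  have b3 := (le_abs_self _).trans a3
  have b4 := (le_abs_self _).trans a4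
  linarith

end Vale.Agent.P232
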