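import Vale.Agent.P232.Defs

/-!
# P232: D1, deviation of the measure of the superlevel sets
-/

open MeasureTheory Set

namespace Vale.Agent.P232

private theorem ld_cell_meas : MeasurableSet (cell 2) :=
  MeasurableSet.univ_pi fun _ => measurableSet_Ico

private theorem ld_cell_fin : volume (cell 2) < ⊤ := by
  unfold cell
  rw [Real.volume_pi_Ico]
  simp

private theorem ld_inner {t : ℝ} (h0 : 0 ≤ t) (h1 : t ≤ 1) :
    ∫ s in Set.Ioc (0 : ℝ) 1, |(if s < t then (1 : ℝ) else 0) - t| = 2 * (t * (1 - t)) := by
  have e : ∀ s : ℝ, |(if s < t then (1 : ℝ) else 0) - t| =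
      (Set.Iio t).indicator (fun _ => 1 - t) s + (Set.Ici t).indicator (fun _ => t) s := by
    intro s
    by_cases hs : s < t
    · rw [if_pos hs, Set.indicator_of_mem (show s ∈ Set.Iio t from hs),
        Set.indicator_of_notMem (by simpa using hs), abs_of_nonneg (by linarith), add_zero]
    · rw [if_neg hs, Set.indicator_of_notMem (by simpa using hs),
        Set.indicator_of_mem (by simpa using hs), zero_sub, abs_neg, abs_of_nonneg h0, zero_add]
  simp_rw [e]
  have hi1 : Integrable ((Set.Iio t).indicator fun _ => 1 - t) (volume.restrict (Set.Ioc (0 : ℝ) 1)) :=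
    (integrable_const _).indicator measurableSet_Iio
  have hi2 : Integrable ((Set.Ici t).indicator fun _ => t) (volume.restrict (Set.Ioc (0 : ℝ) 1)) :=
    (integrable_const _).indicator measurableSet_Ici
  rw [integral_add hi1 hi2, integral_indicator measurableSet_Iio, integral_indicator measurableSet_Ici,
    Measure.restrict_restrict measurableSet_Iio, Measure.restrict_restrict measurableSet_Ici,
    setIntegral_const, setIntegral_const]
  have v1 : volume.real (Set.Iio t ∩ Set.Ioc (0 : ℝ) 1) = t := by
    have h2 : Set.Iio t ∩ Set.Ioc (0 : ℝ) 1 = Set.Ioo 0 t := by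
      ext x
      simp only [Set.mem_inter_iff, Set.mem_Iio, Set.mem_Ioc, Set.mem_Ioo]
      constructor
      · rintro ⟨a, b, c⟩; exact ⟨b, a⟩
      · rintro ⟨a, b⟩; exact ⟨b, a, by linarith⟩
    rw [h2, Real.volume_real_Ioo_of_le h0, sub_zero]
  have v2 : volume.real (Set.Ici t ∩ Set.Ioc (0 : ℝ) 1) = 1 - t := by
    rcases h0.eq_or_lt with h | h
    · have h2 : Set.Ici t ∩ Set.Ioc (0 : ℝ) 1 = Set.Ioc 0 1 := by
        ext x
        simp only [Set.mem_inter_iff, Set.mem_Ici, Set.mem_Ioc]
        constructor
        · rintro ⟨a, b, c⟩; exact ⟨b, c⟩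
        · rintro ⟨a, b⟩; exact ⟨by linarith, a, b⟩
      rw [h2, Real.volume_real_Ioc_of_le zero_le_one, ← h]
    · have h2 : Set.Ici t ∩ Set.Ioc (0 : ℝ) 1 = Set.Icc t 1 := by
        ext x
        simp only [Set.mem_inter_iff, Set.mem_Ici, Set.mem_Ioc, Set.mem_Icc]
        constructor
        · rintro ⟨a, b, c⟩; exact ⟨a, c⟩
        · rintro ⟨a, b⟩; exact ⟨a, by linarith, b⟩
      rw [h2, Real.volume_real_Icc_of_le h1]
  rw [v1, v2]
  simp only [smul_eq_mul]
  ring

/- D1 -/
theorem lev_dev {g : (Fin 2 → ℝ) → ℝ} (hg : Nice g) :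
    ∫ s in (0:ℝ)..1, |lev g s - ∫ x in cell 2, g x| ≤ 2 * ∫ x in cell 2, g x * (1 - g x) := by
  have hgc : Continuous g := hg.smooth.continuous
  have hgm : Measurable g := hgc.measurable
  set μ : Measure (Fin 2 → ℝ) := volume.restrict (cell 2) with hμ
  have hfin : IsFiniteMeasure μ := ⟨by rw [hμ, Measure.restrict_apply_univ]; exact ld_cell_fin⟩
  have hms : ∀ s : ℝ, MeasurableSet {x | s < g x} := fun s => measurableSet_lt measurable_const hgm
  have hlev : ∀ s : ℝ, lev g s = ∫ x, (if s < g x then (1 : ℝ) else 0) ∂μ := by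
    intro s
    have e : (fun x => if s < g x then (1 : ℝ) else 0) = {x | s < g x}.indicator (fun _ => (1 : ℝ)) := by
      funext x
      by_cases h : s < g x
      · rw [if_pos h, Set.indicator_of_mem (show x ∈ {x | s < g x} from h)]
      · rw [if_neg h, Set.indicator_of_notMem (by simpa using h)]
    rw [e, integral_indicator (hms s), setIntegral_const, smul_eq_mul, mul_one, hμ]
    rw [Measure.real, Measure.restrict_apply (hms s)]
    rfl
  have hgi : Integrable g μ := by
    refine Integrable.of_bound (C := 1) hgm.aestronglyMeasurable (Filter.Eventually.of_forall fun x => ?_)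
    rw [Real.norm_eq_abs, abs_of_nonneg (hg.nonneg x)]
    exact hg.le_one x
  have hIm : Measurable fun p : ℝ × (Fin 2 → ℝ) => if p.1 < g p.2 then (1 : ℝ) else 0 :=
    Measurable.ite (measurableSet_lt measurable_fst (hgm.comp measurable_snd)) measurable_const
      measurable_const
  have hii : ∀ s : ℝ, Integrable (fun x => if s < g x then (1 : ℝ) else 0) μ := by
    intro s
    refine Integrable.of_bound (C := 1) ?_ (Filter.Eventually.of_forall fun x => ?_)
    · exact (hIm.comp (measurable_const.prodMk measurable_id)).aestronglyMeasurable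
    · split_ifs <;> simp
  have hpt : ∀ s : ℝ, |lev g s - ∫ x in cell 2, g x| ≤
      ∫ x, |(if s < g x then (1 : ℝ) else 0) - g x| ∂μ := by
    intro s
    rw [hlev s, ← integral_sub (hii s) hgi]
    exact abs_integral_le_integral_abs
  set ν : Measure ℝ := volume.restrict (Set.Ioc (0 : ℝ) 1) with hν
  have hHm : Measurable fun p : ℝ × (Fin 2 → ℝ) => |(if p.1 < g p.2 then (1 : ℝ) else 0) - g p.2| :=
    (hIm.sub (hgm.comp measurable_snd)).norm
  have hHi : Integrable (fun p : ℝ × (Fin 2 → ℝ) => |(if p.1 < g p.2 then (1 : ℝ) else 0) - g p.2|)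
      (ν.prod μ) := by
    refine Integrable.of_bound (C := 1) hHm.aestronglyMeasurable (Filter.Eventually.of_forall fun p => ?_)
    rw [Real.norm_eq_abs, abs_abs, abs_le]
    have h1 := hg.nonneg p.2
    have h2 := hg.le_one p.2
    split_ifs <;> constructor <;> linarith
  have hlevm : Measurable (lev g) := by
    have h : Antitone (lev g) := by
      intro s t hst
      rw [hlev, hlev]
      refine integral_mono (hii t) (hii s) fun x => ?_
      show (if t < g x then (1 : ℝ) else 0) ≤ if s < g x then (1 : ℝ) else 0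
      split_ifs with h1 h2 <;> first | norm_num | skip
      exact absurd (lt_of_le_of_lt hst h1) h2
    exact h.measurable
  rw [intervalIntegral.integral_of_le zero_le_one]
  calc ∫ s in Set.Ioc (0 : ℝ) 1, |lev g s - ∫ x in cell 2, g x|
      ≤ ∫ s, (∫ x, |(if s < g x then (1 : ℝ) else 0) - g x| ∂μ) ∂ν := by
        refine integral_mono ?_ hHi.integral_prod_left hpt
        refine Integrable.mono' hHi.integral_prod_left
          ((hlevm.sub measurable_const).norm.aestronglyMeasurable)
          (Filter.Eventually.of_forall fun s => ?_)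
        rw [Real.norm_eq_abs, abs_abs]
        exact hpt s
    _ = ∫ x, (∫ s, |(if s < g x then (1 : ℝ) else 0) - g x| ∂ν) ∂μ := integral_integral_swap hHi
    _ = ∫ x, 2 * (g x * (1 - g x)) ∂μ := by
        refine integral_congr_ae (Filter.Eventually.of_forall fun x => ?_)
        exact ld_inner (hg.nonneg x) (hg.le_one x)
    _ = 2 * ∫ x in cell 2, g x * (1 - g x) := by rw [integral_const_mul]

end Vale.Agent.P232
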