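import Mathlib
import Vale.Agent.P232.SO
import Vale.Agent.P232.SymOut
import Vale.Agent.P232.Fubini

/-!
# P232: symmetrization does not decrease the oscillation of the slice areas (helper50)
-/

open MeasureTheory Set Filter
open scoped Topology

namespace Vale.Agent.P232

namespace Osc

/-- slice area as an integral over the three-dimensional cell -/
noncomputable def A3 (g : (Fin 3 → ℝ) → ℝ) (i : Fin 3) (z : ℝ) : ℝ :=
  ∫ x in cell 3, g (Function.update x i z)

theorem upd_cont (i : Fin 3) (z : ℝ) :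
    Continuous (fun x : Fin 3 → ℝ => Function.update x i z) :=
  continuous_id.update i continuous_const

theorem A3_eq {g : (Fin 3 → ℝ) → ℝ} (hg : Continuous g) (i : Fin 3) (z : ℝ) :
    A3 g i z = sArea g i z := by
  unfold A3
  rw [fubini_slice (F := fun x => g (Function.update x i z)) (hg.comp (upd_cont i z)) i]
  have h : ∀ z' : ℝ, ∫ y in cell 2, g (Function.update (i.insertNth z' y) i z) = sArea g i z := by
    intro z'
    unfold sArea slice
    congr 1
    ext y
    congr 1
    exact Fin.update_insertNth (α := fun _ : Fin 3 => ℝ) i z' z y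
  simp only [h]
  simp

theorem A3_per {g : (Fin 3 → ℝ) → ℝ} (hg : IsPer g) (i : Fin 3) (z : ℝ) :
    A3 g i (Int.fract z) = A3 g i z := by
  unfold A3
  congr 1
  ext x
  rw [← hg (Function.update x i (Int.fract z)) (Pi.single i ⌊z⌋)]
  congr 1
  ext l
  by_cases hl : l = i
  · subst hl
    simp only [Pi.add_apply, Function.update_self, Pi.single_eq_same]
    exact Int.fract_add_floor z
  · simp [hl]

theorem A3_lip {L : ℝ} {g : (Fin 3 → ℝ) → ℝ} (hg : TL L g) (i : Fin 3) (z w : ℝ) :
    A3 g i z ≤ A3 g i w + L * |z - w| := by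
  have i1 : IntegrableOn (fun x => g (Function.update x i z)) (cell 3) :=
    UpperPart.cont_int (hg.cont.comp (upd_cont i z))
  have i2 : IntegrableOn (fun x => g (Function.update x i w)) (cell 3) :=
    UpperPart.cont_int (hg.cont.comp (upd_cont i w))
  have i3 : IntegrableOn (fun _ : Fin 3 → ℝ => L * |z - w|) (cell 3) :=
    UpperPart.cont_int continuous_const
  have h3 : A3 g i z ≤ ∫ x in cell 3, (g (Function.update x i w) + L * |z - w|) := by
    apply integral_mono i1 (i2.add i3)
    intro x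
    show g (Function.update x i z) ≤ g (Function.update x i w) + L * |z - w|
    have h4 := hg.lip (Function.update x i z) (Function.update x i w)
    have h5 := dT_le (Function.update x i z) (Function.update x i w)
    have h6 : ∑ l, |Function.update x i z l - Function.update x i w l| = |z - w| := by
      rw [Finset.sum_eq_single i]
      · simp
      · intro l _ hl
        simp [hl]
      · intro h
        exact absurd (Finset.mem_univ i) h
    rw [h6] at h5
    have h7 := mul_le_mul_of_nonneg_left h5 hg.L0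
    have h8 := le_abs_self (g (Function.update x i z) - g (Function.update x i w))
    linarith
  rw [integral_add i2 i3] at h3
  have h8 : ∫ x in cell 3, (fun _ : Fin 3 → ℝ => L * |z - w|) x = L * |z - w| := by
    simp only [integral_const, smul_eq_mul]
    rw [measureReal_restrict_apply_univ, Measure.real, UpperPart.cell_vol]
    simp
  simp only at h8
  rw [h8] at h3
  exact h3

/-- polarization in another direction does not change the slice areas -/
theorem A3_pol_ne {L : ℝ} {g : (Fin 3 → ℝ) → ℝ} (hg : TL L g) {i j : Fin 3} (hij : j ≠ i)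
    (t z : ℝ) : A3 (pol j t g) i z = A3 g i z := by
  have hP := pol_TL hg j t
  have hup : ∀ x : Fin 3 → ℝ, rfx j t (Function.update x i z) = Function.update (rfx j t x) i z := by
    intro x
    ext l
    by_cases hl : l = i
    · subst hl
      rw [rfx_ne j t _ (Ne.symm hij)]
      simp
    · by_cases hlj : l = j
      · subst hlj
        rw [rfx_same]
        simp [hl, rfx_same]
      · rw [rfx_ne j t _ hlj]
        simp [hl, rfx_ne j t x hlj]
  have per : ∀ {h : (Fin 3 → ℝ) → ℝ}, IsPer h → IsPer (fun x => h (Function.update x i z)) := by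
    intro h hh x k
    show h (Function.update (x + fun l => (k l : ℝ)) i z) = h (Function.update x i z)
    rw [← hh (Function.update x i z) (Function.update k i 0)]
    congr 1
    ext l
    by_cases hl : l = i
    · subst hl
      simp
    · simp [hl]
  have h1 : ∫ x in cell 3, pol j t g (Function.update (rfx j t x) i z) = A3 (pol j t g) i z :=
    integral_rfx (F := fun x => pol j t g (Function.update x i z)) (per hP.per) j t
  have h2 : ∫ x in cell 3, g (Function.update (rfx j t x) i z) = A3 g i z :=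
    integral_rfx (F := fun x => g (Function.update x i z)) (per hg.per) j t
  have h3 : ∫ x in cell 3, (pol j t g (Function.update x i z)
        + pol j t g (Function.update (rfx j t x) i z))
      = ∫ x in cell 3, (g (Function.update x i z) + g (Function.update (rfx j t x) i z)) := by
    congr 1
    funext x
    rw [← hup x, pol_rfx hg.per j t]
    ring
  have c1 : ∀ {h : (Fin 3 → ℝ) → ℝ}, Continuous h →
      IntegrableOn (fun x => h (Function.update x i z)) (cell 3) := fun hh =>
    UpperPart.cont_int (hh.comp (upd_cont i z))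
  have c2 : ∀ {h : (Fin 3 → ℝ) → ℝ}, Continuous h →
      IntegrableOn (fun x => h (Function.update (rfx j t x) i z)) (cell 3) := fun hh =>
    UpperPart.cont_int (hh.comp ((upd_cont i z).comp (rfx_cont j t)))
  rw [integral_add (c1 hP.cont) (c2 hP.cont), integral_add (c1 hg.cont) (c2 hg.cont), h1, h2] at h3
  have e1 : ∫ x in cell 3, pol j t g (Function.update x i z) = A3 (pol j t g) i z := rfl
  have e2 : ∫ x in cell 3, g (Function.update x i z) = A3 g i z := rfl
  rw [e1, e2] at h3
  linarith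

theorem rfx_upd (i : Fin 3) (t z : ℝ) (x : Fin 3 → ℝ) :
    rfx i t (Function.update x i z) = Function.update x i (2 * t - z) := by
  unfold rfx
  simp

/-- slice areas of the polarization in direction `i` -/
theorem A3_pol_same {L : ℝ} {g : (Fin 3 → ℝ) → ℝ} (hg : TL L g) (i : Fin 3) (t z : ℝ) :
    (∃ z', A3 (pol i t g) i z' ≤ A3 g i z) ∧ (∃ z', A3 g i z ≤ A3 (pol i t g) i z') := by
  have hP := pol_TL hg i t
  have c1 : ∀ {h : (Fin 3 → ℝ) → ℝ} (w : ℝ), Continuous h →
      IntegrableOn (fun x => h (Function.update x i w)) (cell 3) := fun w hh =>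
    UpperPart.cont_int (hh.comp (upd_cont i w))
  have key : ∀ x : Fin 3 → ℝ, pol i t g (Function.update x i (2 * t - z))
      = g (Function.update x i z) + g (Function.update x i (2 * t - z))
        - pol i t g (Function.update x i z) := by
    intro x
    have := pol_rfx hg.per i t (Function.update x i z)
    rwa [rfx_upd] at this
  have val : ∀ x : Fin 3 → ℝ, pol i t g (Function.update x i z)
      = if Int.fract (z - t) < 1 / 2 then
          max (g (Function.update x i z)) (g (Function.update x i (2 * t - z)))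
        else min (g (Function.update x i z)) (g (Function.update x i (2 * t - z))) := by
    intro x
    unfold pol
    rw [rfx_upd]
    simp
  by_cases h : Int.fract (z - t) < 1 / 2
  · simp only [if_pos h] at val
    constructor
    · refine ⟨2 * t - z, integral_mono (c1 _ hP.cont) (c1 _ hg.cont) fun x => ?_⟩
      show pol i t g (Function.update x i (2 * t - z)) ≤ g (Function.update x i z)
      rw [key, val]
      linarith [le_max_right (g (Function.update x i z)) (g (Function.update x i (2 * t - z)))]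
    · refine ⟨z, integral_mono (c1 _ hg.cont) (c1 _ hP.cont) fun x => ?_⟩
      show g (Function.update x i z) ≤ pol i t g (Function.update x i z)
      rw [val]
      exact le_max_left _ _
  · simp only [if_neg h] at val
    constructor
    · refine ⟨z, integral_mono (c1 _ hP.cont) (c1 _ hg.cont) fun x => ?_⟩
      show pol i t g (Function.update x i z) ≤ g (Function.update x i z)
      rw [val]
      exact min_le_left _ _
    · refine ⟨2 * t - z, integral_mono (c1 _ hg.cont) (c1 _ hP.cont) fun x => ?_⟩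
      show g (Function.update x i z) ≤ pol i t g (Function.update x i (2 * t - z))
      rw [key, val]
      linarith [min_le_right (g (Function.update x i z)) (g (Function.update x i (2 * t - z)))]

theorem A3_pol {L : ℝ} {g : (Fin 3 → ℝ) → ℝ} (hg : TL L g) (i j : Fin 3) (t z : ℝ) :
    (∃ z', A3 (pol j t g) i z' ≤ A3 g i z) ∧ (∃ z', A3 g i z ≤ A3 (pol j t g) i z') := by
  by_cases h : j = i
  · subst h
    exact A3_pol_same hg j t z
  · exact ⟨⟨z, (A3_pol_ne hg h t z).le⟩, ⟨z, (A3_pol_ne hg h t z).ge⟩⟩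

/-- convergence of the slice areas -/
theorem A3_lim {L : ℝ} {g : ℕ → (Fin 3 → ℝ) → ℝ} {G : (Fin 3 → ℝ) → ℝ} (hg : ∀ n, TL L (g n))
    (h : ∀ x, Tendsto (fun n => g n x) atTop (𝓝 (G x))) (i : Fin 3) (z : ℝ) :
    Tendsto (fun n => A3 (g n) i z) atTop (𝓝 (A3 G i z)) := by
  unfold A3
  refine tendsto_integral_of_dominated_convergence (fun _ => (1 : ℝ)) (fun n => ?_) ?_
    (fun n => ae_of_all _ fun x => ?_) (ae_of_all _ fun x => h _)
  · exact ((hg n).cont.comp (upd_cont i z)).aestronglyMeasurable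
  · exact UpperPart.cont_int (n := 3) (F := fun _ => (1 : ℝ)) continuous_const
  · rw [Real.norm_eq_abs, abs_of_nonneg ((hg n).nonneg _)]
    exact (hg n).le_one _

/-- the oscillation condition is closed -/
theorem osc_lim {L : ℝ} {g : ℕ → (Fin 3 → ℝ) → ℝ} {G : (Fin 3 → ℝ) → ℝ} (hg : ∀ n, TL L (g n))
    (h : ∀ x, Tendsto (fun n => g n x) atTop (𝓝 (G x))) (i : Fin 3) (m : ℝ) :
    ((∀ n, ∃ z, A3 (g n) i z ≤ m) → ∃ z, A3 G i z ≤ m) ∧
    ((∀ n, ∃ z, m ≤ A3 (g n) i z) → ∃ z, m ≤ A3 G i z) := by
  constructor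
  · intro hz
    choose z hz using hz
    have hmem : ∀ n, Int.fract (z n) ∈ Icc (0 : ℝ) 1 := fun n =>
      ⟨Int.fract_nonneg _, (Int.fract_lt_one _).le⟩
    obtain ⟨w, -, φ, hφ, hw⟩ := isCompact_Icc.tendsto_subseq hmem
    refine ⟨w, ?_⟩
    have e1 : Tendsto (fun n => A3 (g (φ n)) i w) atTop (𝓝 (A3 G i w)) :=
      (A3_lim hg h i w).comp hφ.tendsto_atTop
    have e2 : Tendsto (fun n => m + L * |w - Int.fract (z (φ n))|) atTop (𝓝 (m + L * |w - w|)) :=
      (((tendsto_const_nhds.sub hw).abs).const_mul L).const_add m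
    rw [sub_self, abs_zero, mul_zero, add_zero] at e2
    refine le_of_tendsto_of_tendsto' e1 e2 fun n => ?_
    have e3 := A3_lip (hg (φ n)) i w (Int.fract (z (φ n)))
    rw [A3_per (hg (φ n)).per] at e3
    linarith [hz (φ n)]
  · intro hz
    choose z hz using hz
    have hmem : ∀ n, Int.fract (z n) ∈ Icc (0 : ℝ) 1 := fun n =>
      ⟨Int.fract_nonneg _, (Int.fract_lt_one _).le⟩
    obtain ⟨w, -, φ, hφ, hw⟩ := isCompact_Icc.tendsto_subseq hmem
    refine ⟨w, ?_⟩
    have e1 : Tendsto (fun n => A3 (g (φ n)) i w) atTop (𝓝 (A3 G i w)) :=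
      (A3_lim hg h i w).comp hφ.tendsto_atTop
    have e2 : Tendsto (fun n => m - L * |Int.fract (z (φ n)) - w|) atTop (𝓝 (m - L * |w - w|)) :=
      (((hw.sub tendsto_const_nhds).abs).const_mul L).const_sub m
    rw [sub_self, abs_zero, mul_zero, sub_zero] at e2
    refine le_of_tendsto_of_tendsto' e2 e1 fun n => ?_
    have e3 := A3_lip (hg (φ n)) i (Int.fract (z (φ n))) w
    rw [A3_per (hg (φ n)).per] at e3
    linarith [hz (φ n)]

/-- maximizers of the moment functional with an additional closed polarization-stable property -/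
theorem exists_maxP {L : ℝ} {f : (Fin 3 → ℝ) → ℝ} (hf : TL L f) (e : ℝ)
    (P : ((Fin 3 → ℝ) → ℝ) → Prop) (hPf : P f)
    (hPpol : ∀ (g : (Fin 3 → ℝ) → ℝ) (j : Fin 3) (t : ℝ), TL L g → P g → P (pol j t g))
    (hPlim : ∀ (g : ℕ → (Fin 3 → ℝ) → ℝ) (G : (Fin 3 → ℝ) → ℝ), (∀ n, TL L (g n)) → TL L G →
      (∀ x, Tendsto (fun n => g n x) atTop (𝓝 (G x))) → (∀ n, P (g n)) → P G) :
    ∃ g, TL L g ∧ (∫ x in cell 3, g x) = (∫ x in cell 3, f x) ∧
      (∫ x in cell 3, g x * (1 - g x)) = (∫ x in cell 3, f x * (1 - f x)) ∧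
      DD e g ≤ DD e f ∧ PolInv g ∧ P g := by
  set S : Set ((Fin 3 → ℝ) → ℝ) := {g | TL L g ∧ (∫ x in cell 3, g x) = (∫ x in cell 3, f x) ∧
      (∫ x in cell 3, g x * (1 - g x)) = (∫ x in cell 3, f x * (1 - f x)) ∧
      DD e g ≤ DD e f ∧ P g} with hS
  have hne : (Lam '' S).Nonempty := ⟨Lam f, f, ⟨hf, rfl, rfl, le_rfl, hPf⟩, rfl⟩
  have hbdd : BddAbove (Lam '' S) := by
    refine ⟨3, ?_⟩
    rintro _ ⟨g, hg, rfl⟩
    exact SH_Lam_bound hg.1
  obtain ⟨u, -, hu, huS⟩ := exists_seq_tendsto_sSup hne hbdd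
  choose g hgS hgu using huS
  have hgL : ∀ n, TL L (g n) := fun n => (hgS n).1
  obtain ⟨G, φ, hφ, hG, hlim⟩ := TL_compact hgL
  have hgφ : ∀ n, TL L (g (φ n)) := fun n => hgL _
  have h1 := lim_int hgφ hG hlim (Φ := fun s => s) continuous_id
  have h2 := lim_int hgφ hG hlim (Φ := fun s => s * (1 - s)) (by fun_prop)
  have h3 := lim_DD hgφ hG hlim e
  have h4 := lim_Lam hgφ hG hlim
  have hG1 : (∫ x in cell 3, G x) = (∫ x in cell 3, f x) := by
    refine tendsto_nhds_unique h1 ?_
    have : (fun n => ∫ x in cell 3, g (φ n) x) = fun _ => ∫ x in cell 3, f x :=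
      funext fun n => (hgS (φ n)).2.1
    rw [this]
    exact tendsto_const_nhds
  have hG2 : (∫ x in cell 3, G x * (1 - G x)) = (∫ x in cell 3, f x * (1 - f x)) := by
    refine tendsto_nhds_unique h2 ?_
    have : (fun n => ∫ x in cell 3, g (φ n) x * (1 - g (φ n) x)) =
        fun _ => ∫ x in cell 3, f x * (1 - f x) :=
      funext fun n => (hgS (φ n)).2.2.1
    rw [this]
    exact tendsto_const_nhds
  have hG3 : DD e G ≤ DD e f :=
    le_of_tendsto h3 (Eventually.of_forall fun n => (hgS (φ n)).2.2.2.1)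
  have hGP : P G := hPlim _ G hgφ hG hlim fun n => (hgS (φ n)).2.2.2.2
  have hG4 : Lam G = sSup (Lam '' S) := by
    refine tendsto_nhds_unique h4 ?_
    have : (fun n => Lam (g (φ n))) = fun n => u (φ n) := funext fun n => hgu _
    rw [this]
    exact hu.comp hφ.tendsto_atTop
  refine ⟨G, hG, hG1, hG2, hG3, ?_, hGP⟩
  intro j t ht ht' x hx
  refine pol_Lam_eq hG j ht ht' ?_ x hx
  rw [hG4]
  refine le_csSup hbdd ⟨pol j t G, ⟨pol_TL hG j t, ?_, ?_, ?_, hPpol G j t hG hGP⟩, rfl⟩
  · rw [← hG1]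
    exact pol_int hG j t (Φ := fun s => s) continuous_id
  · rw [← hG2]
    exact pol_int hG j t (Φ := fun s => s * (1 - s)) (by fun_prop)
  · exact (pol_DD hG e j t).trans hG3

theorem exists_max_osc {L : ℝ} {f : (Fin 3 → ℝ) → ℝ} (hf : TL L f) (e : ℝ) :
    ∃ g, TL L g ∧ (∫ x in cell 3, g x) = (∫ x in cell 3, f x) ∧
      (∫ x in cell 3, g x * (1 - g x)) = (∫ x in cell 3, f x * (1 - f x)) ∧
      DD e g ≤ DD e f ∧ PolInv g ∧
      ∀ (i : Fin 3) (z : ℝ), (∃ z', A3 g i z' ≤ A3 f i z) ∧ (∃ z', A3 f i z ≤ A3 g i z') := by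
  refine exists_maxP hf e
    (fun g => ∀ (i : Fin 3) (z : ℝ), (∃ z', A3 g i z' ≤ A3 f i z) ∧ (∃ z', A3 f i z ≤ A3 g i z'))
    (fun i z => ⟨⟨z, le_rfl⟩, ⟨z, le_rfl⟩⟩) ?_ ?_
  · intro g j t hg hPg i z
    obtain ⟨⟨z1, h1⟩, ⟨z2, h2⟩⟩ := hPg i z
    obtain ⟨⟨w1, k1⟩, -⟩ := A3_pol hg i j t z1
    obtain ⟨-, ⟨w2, k2⟩⟩ := A3_pol hg i j t z2
    exact ⟨⟨w1, k1.trans h1⟩, ⟨w2, h2.trans k2⟩⟩
  · intro g G hg _ hlim hP i z
    exact ⟨(osc_lim hg hlim i (A3 f i z)).1 fun n => (hP n i z).1,
      (osc_lim hg hlim i (A3 f i z)).2 fun n => (hP n i z).2⟩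

theorem A3_close {u g : (Fin 3 → ℝ) → ℝ} (hu : Continuous u) (hg : Continuous g) {η : ℝ}
    (h : ∀ x, |u x - g x| ≤ η) (i : Fin 3) (z : ℝ) : |A3 u i z - A3 g i z| ≤ η := by
  have i1 : IntegrableOn (fun x => u (Function.update x i z)) (cell 3) :=
    UpperPart.cont_int (hu.comp (upd_cont i z))
  have i2 : IntegrableOn (fun x => g (Function.update x i z)) (cell 3) :=
    UpperPart.cont_int (hg.comp (upd_cont i z))
  unfold A3
  rw [← integral_sub i1 i2]
  have h1 : ‖∫ x in cell 3, (u (Function.update x i z) - g (Function.update x i z))‖ ≤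
      η * (volume (cell 3)).toReal := by
    refine norm_setIntegral_le_of_norm_le_const ?_ fun x _ => h _
    rw [UpperPart.cell_vol]
    exact ENNReal.one_lt_top
  rw [UpperPart.cell_vol] at h1
  simpa using h1

end Osc

open Osc in
/-- symmetrization: volume preserved, total variation and defect almost not increased, oscillation
of the slice areas almost not decreased -/
theorem symmetrize_osc {f : (Fin 3 → ℝ) → ℝ} (hf : Nice f) {η : ℝ} (hη : 0 < η) :
    ∃ u : (Fin 3 → ℝ) → ℝ, SymN u ∧ (∫ x in cell 3, u x) = (∫ x in cell 3, f x) ∧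
      (∫ x in cell 3, u x * (1 - u x)) ≤ (∫ x in cell 3, f x * (1 - f x)) + η ∧
      hTV u ≤ hTV f + η ∧
      (∀ (i : Fin 3) (z : ℝ), ∃ z', sArea u i z' ≤ sArea f i z + η) ∧
      (∀ (i : Fin 3) (z : ℝ), ∃ z', sArea f i z - η ≤ sArea u i z') := by
  obtain ⟨L, hL⟩ := nice_TL hf
  have hL0 : 0 ≤ L := hL.L0
  obtain ⟨δ, hδ0, hδ4, hδη⟩ : ∃ δ : ℝ, 0 < δ ∧ δ ≤ 1 / 4 ∧ 3 * L * δ ≤ η := by
    refine ⟨min (1 / 4) (η / (3 * L + 1)), lt_min (by norm_num) (by positivity), min_le_left _ _, ?_⟩
    have h1 : 3 * L * min (1 / 4) (η / (3 * L + 1)) ≤ 3 * L * (η / (3 * L + 1)) :=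
      mul_le_mul_of_nonneg_left (min_le_right _ _) (by positivity)
    have h2 : 3 * L * (η / (3 * L + 1)) ≤ η := by
      rw [mul_div_assoc', div_le_iff₀ (by positivity)]
      nlinarith
    linarith
  obtain ⟨θ, hθ⟩ := exists_ker1 hδ0
  obtain ⟨C, hC0, hC⟩ := cv_second hθ
  obtain ⟨c, hc0, hc⟩ := exists_rot
  set vB := (volume B1).toReal with hvB
  have hvB0 : 0 ≤ vB := ENNReal.toReal_nonneg
  obtain ⟨e, he0, he2, heη⟩ : ∃ e : ℝ, 0 < e ∧ e < 1 / 2 ∧ C * e * vB ≤ c * η := by
    refine ⟨min (1 / 4) (c * η / (C * vB + 1)), lt_min (by norm_num) (by positivity),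
      lt_of_le_of_lt (min_le_left _ _) (by norm_num), ?_⟩
    have h1 : C * vB * min (1 / 4) (c * η / (C * vB + 1)) ≤ C * vB * (c * η / (C * vB + 1)) :=
      mul_le_mul_of_nonneg_left (min_le_right _ _) (by positivity)
    have h2 : C * vB * (c * η / (C * vB + 1)) ≤ c * η := by
      rw [mul_div_assoc', div_le_iff₀ (by positivity)]
      have : 0 < c * η := by positivity
      nlinarith
    nlinarith
  obtain ⟨g, hg, hg1, hg2, hg3, hg4, hg5⟩ := exists_max_osc hL e
  have hgs : SymD g := sym_of_pol hg hg4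
  have hu := cv_nice hθ hg
  have hus : SymD (cv θ g) := cv_sym hδ0 hδ4 hθ hg hgs
  have huN : SymN (cv θ g) := ⟨hu, fun x i => hus.even i x, fun x i s r => hus.anti i x s r⟩
  have hgc := hg.cont
  have huc := hu.smooth.continuous
  have hfc := hf.smooth.continuous
  have hcl : ∀ x, |cv θ g x - g x| ≤ η := fun x => (cv_close hθ hg x).trans hδη
  refine ⟨cv θ g, huN, ?_, ?_, ?_, ?_, ?_⟩
  · rw [cv_int hθ hg, hg1]
  · rw [← hg2]
    have i1 : IntegrableOn (fun x => cv θ g x * (1 - cv θ g x)) (cell 3) :=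
      UpperPart.cont_int (huc.mul (continuous_const.sub huc))
    have i2 : IntegrableOn (fun x => g x * (1 - g x)) (cell 3) :=
      UpperPart.cont_int (hgc.mul (continuous_const.sub hgc))
    have i3 : IntegrableOn (fun _ : Fin 3 → ℝ => η) (cell 3) :=
      UpperPart.cont_int continuous_const
    have h3 : ∫ x in cell 3, cv θ g x * (1 - cv θ g x)
        ≤ ∫ x in cell 3, (g x * (1 - g x) + η) := by
      apply integral_mono i1 (i2.add i3)
      intro x
      show cv θ g x * (1 - cv θ g x) ≤ g x * (1 - g x) + η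
      have h4 := hcl x
      rw [abs_le] at h4
      have a0 := hg.nonneg x
      have a1 := hg.le_one x
      have b0 := hu.nonneg x
      have b1 := hu.le_one x
      set p := cv θ g x
      set q := g x
      have h5 : p * (1 - p) - q * (1 - q) = (p - q) * (1 - p - q) := by ring
      have h6 : (p - q) * (1 - p - q) ≤ η := by
        have h7 : |(p - q) * (1 - p - q)| ≤ η * 1 := by
          rw [abs_mul]
          apply mul_le_mul _ _ (abs_nonneg _) hη.le
          · exact abs_le.2 ⟨by linarith [h4.1], by linarith [h4.2]⟩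
          · exact abs_le.2 ⟨by linarith, by linarith⟩
        linarith [le_abs_self ((p - q) * (1 - p - q))]
      linarith
    rw [integral_add i2 i3] at h3
    have h8 : ∫ x in cell 3, (fun _ : Fin 3 → ℝ => η) x = η := by
      simp only [integral_const, smul_eq_mul]
      rw [measureReal_restrict_apply_univ, Measure.real, UpperPart.cell_vol]
      simp
    simp only at h8
    rw [h8] at h3
    exact h3
  · have k1 : e * c * (∫ x in cell 3, gradN (cv θ g) x)
        ≤ NN e (cv θ g) + C * e ^ 2 * vB :=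
      NN_ge hu he0.le hc (hC L g hg)
    have k2 : NN e (cv θ g) ≤ NN e g := by
      unfold NN
      exact integral_mono (SO.MM_int hu.smooth.continuous hu.nonneg hu.le_one e)
        (SO.MM_int hg.cont hg.nonneg hg.le_one e) fun k => cv_MM hθ hg (e • k)
    have k3 : e ^ 3 * NN e g ≤ e ^ 3 * NN e f := by
      rw [← DD_eq hg he0 he2, ← DD_eq hL he0 he2]
      exact hg3
    have k4 : NN e g ≤ NN e f := le_of_mul_le_mul_left k3 (by positivity)
    have k5 : NN e f ≤ e * c * ∫ x in cell 3, gradN f x := NN_le hf he0.le hc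
    have hec : 0 < e * c := by positivity
    have k6 : e * c * (∫ x in cell 3, gradN (cv θ g) x)
        ≤ e * c * ((∫ x in cell 3, gradN f x) + 2 * η) := by
      have h9 : C * e ^ 2 * vB ≤ e * (c * η) := by
        calc C * e ^ 2 * vB = e * (C * e * vB) := by ring
          _ ≤ e * (c * η) := mul_le_mul_of_nonneg_left heη he0.le
      have h10 : 0 ≤ e * (c * η) := by positivity
      calc e * c * (∫ x in cell 3, gradN (cv θ g) x) ≤ NN e (cv θ g) + C * e ^ 2 * vB := k1
        _ ≤ e * c * (∫ x in cell 3, gradN f x) + e * (c * η) := by linarith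
        _ ≤ e * c * ((∫ x in cell 3, gradN f x) + 2 * η) := by nlinarith
    have k7 := le_of_mul_le_mul_left k6 hec
    unfold hTV
    linarith
  · intro i z
    obtain ⟨z', hz'⟩ := (hg5 i z).1
    refine ⟨z', ?_⟩
    have h1 := A3_close huc hgc hcl i z'
    rw [abs_le] at h1
    rw [← A3_eq huc, ← A3_eq hfc]
    linarith [h1.2]
  · intro i z
    obtain ⟨z', hz'⟩ := (hg5 i z).2
    refine ⟨z', ?_⟩
    have h1 := A3_close huc hgc hcl i z'
    rw [abs_le] at h1
    rw [← A3_eq huc, ← A3_eq hfc]
    linarith [h1.1]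

end Vale.Agent.P232
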