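import Mathlib
import Vale.Agent.P232.Osc

/-!
# P232: symmetrization increases convex functionals of the slice areas (helper50)
-/

open MeasureTheory Set Filter
open scoped Topology

namespace Vale.Agent.P232

namespace Osc

/-- pairs with the same sum -/
theorem pair_convex {Φ : ℝ → ℝ} (hΦ : ConvexOn ℝ univ Φ) {a b x y : ℝ} (hs : x + y = a + b)
    (hxy : y ≤ x) (ha : a ≤ x) (hb : b ≤ x) : Φ a + Φ b ≤ Φ x + Φ y := by
  rcases hxy.eq_or_lt with h | h
  · have e1 : a = x := by linarith
    have e2 : b = y := by linarith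
    rw [e1, e2]
  · have hd : 0 < x - y := by linarith
    set l := (a - y) / (x - y) with hl
    have hl0 : 0 ≤ l := div_nonneg (by linarith) hd.le
    have hl1 : l ≤ 1 := by
      rw [hl, div_le_one hd]
      linarith
    have hlm : l * (x - y) = a - y := by
      rw [hl]
      field_simp
    have h1 := hΦ.2 (mem_univ x) (mem_univ y) hl0 (by linarith : 0 ≤ 1 - l) (by ring)
    have h2 := hΦ.2 (mem_univ x) (mem_univ y) (by linarith : 0 ≤ 1 - l) hl0 (by ring)
    simp only [smul_eq_mul] at h1 h2
    have e1 : l * x + (1 - l) * y = a := by linarith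
    have e2 : (1 - l) * x + l * y = b := by linarith
    rw [e1] at h1
    rw [e2] at h2
    linarith

theorem pair_convex' {Φ : ℝ → ℝ} (hΦ : ConvexOn ℝ univ Φ) {a b x y : ℝ} (hs : x + y = a + b)
    (h : (a ≤ x ∧ b ≤ x) ∨ (a ≤ y ∧ b ≤ y)) : Φ a + Φ b ≤ Φ x + Φ y := by
  rcases h with ⟨h1, h2⟩ | ⟨h1, h2⟩
  · exact pair_convex hΦ hs (by linarith) h1 h2
  · have := pair_convex hΦ (a := a) (b := b) (x := y) (y := x) (by linarith) (by linarith) h1 h2
    linarith

theorem A3_cont {L : ℝ} {g : (Fin 3 → ℝ) → ℝ} (hg : TL L g) (i : Fin 3) :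
    Continuous (A3 g i) := by
  have h : LipschitzWith (Real.toNNReal L) (A3 g i) := by
    apply LipschitzWith.of_dist_le_mul
    intro z w
    rw [Real.coe_toNNReal L hg.L0, Real.dist_eq, Real.dist_eq]
    have h1 := A3_lip hg i z w
    have h2 := A3_lip hg i w z
    rw [abs_sub_comm w z] at h2
    exact abs_le.2 ⟨by linarith, by linarith⟩
  exact h.continuous

theorem A3_mem {L : ℝ} {g : (Fin 3 → ℝ) → ℝ} (hg : TL L g) (i : Fin 3) (z : ℝ) :
    A3 g i z ∈ Icc (0 : ℝ) 1 := by
  constructor
  · exact integral_nonneg fun x => hg.nonneg _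
  · have h1 : ‖∫ x in cell 3, g (Function.update x i z)‖ ≤ 1 * (volume (cell 3)).toReal := by
      refine norm_setIntegral_le_of_norm_le_const ?_ fun x _ => ?_
      · rw [UpperPart.cell_vol]
        exact ENNReal.one_lt_top
      · rw [Real.norm_eq_abs, abs_of_nonneg (hg.nonneg _)]
        exact hg.le_one _
    rw [UpperPart.cell_vol] at h1
    simp only [ENNReal.toReal_one, mul_one] at h1
    exact (le_abs_self _).trans h1

/-- sum and domination for the slices of the polarization in direction `i` -/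
theorem A3_pair {L : ℝ} {g : (Fin 3 → ℝ) → ℝ} (hg : TL L g) (i : Fin 3) (t z : ℝ) :
    A3 (pol i t g) i z + A3 (pol i t g) i (2 * t - z) = A3 g i z + A3 g i (2 * t - z) ∧
    ((A3 g i z ≤ A3 (pol i t g) i z ∧ A3 g i (2 * t - z) ≤ A3 (pol i t g) i z) ∨
      (A3 g i z ≤ A3 (pol i t g) i (2 * t - z) ∧
        A3 g i (2 * t - z) ≤ A3 (pol i t g) i (2 * t - z))) := by
  have hP := pol_TL hg i t
  have c1 : ∀ {h : (Fin 3 → ℝ) → ℝ} (w : ℝ), Continuous h →
      IntegrableOn (fun x => h (Function.update x i w)) (cell 3) := fun w hh =>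
    UpperPart.cont_int (hh.comp (upd_cont i w))
  have key : ∀ x : Fin 3 → ℝ, pol i t g (Function.update x i (2 * t - z))
      = g (Function.update x i z) + g (Function.update x i (2 * t - z))
        - pol i t g (Function.update x i z) := by
    intro x
    have := pol_rfx hg.per i t (Function.update x i z)
    rwa [rfx_upd] at this
  have val : ∀ x : Fin 3 → ℝ, pol i t g (Function.update x i z)
      = if Int.fract (z - t) < 1 / 2 then
          max (g (Function.update x i z)) (g (Function.update x i (2 * t - z)))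
        else min (g (Function.update x i z)) (g (Function.update x i (2 * t - z))) := by
    intro x
    unfold pol
    rw [rfx_upd]
    simp
  constructor
  · have h3 : ∫ x in cell 3, (pol i t g (Function.update x i z)
        + pol i t g (Function.update x i (2 * t - z)))
      = ∫ x in cell 3, (g (Function.update x i z) + g (Function.update x i (2 * t - z))) := by
      congr 1
      funext x
      rw [key]
      ring
    rw [integral_add (c1 _ hP.cont) (c1 _ hP.cont), integral_add (c1 _ hg.cont) (c1 _ hg.cont)]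
      at h3
    exact h3
  · by_cases h : Int.fract (z - t) < 1 / 2
    · simp only [if_pos h] at val
      left
      constructor
      · refine integral_mono (c1 _ hg.cont) (c1 _ hP.cont) fun x => ?_
        show g (Function.update x i z) ≤ pol i t g (Function.update x i z)
        rw [val]
        exact le_max_left _ _
      · refine integral_mono (c1 _ hg.cont) (c1 _ hP.cont) fun x => ?_
        show g (Function.update x i (2 * t - z)) ≤ pol i t g (Function.update x i z)
        rw [val]
        exact le_max_right _ _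
    · simp only [if_neg h] at val
      right
      constructor
      · refine integral_mono (c1 _ hg.cont) (c1 _ hP.cont) fun x => ?_
        show g (Function.update x i z) ≤ pol i t g (Function.update x i (2 * t - z))
        rw [key, val]
        linarith [min_le_right (g (Function.update x i z)) (g (Function.update x i (2 * t - z)))]
      · refine integral_mono (c1 _ hg.cont) (c1 _ hP.cont) fun x => ?_
        show g (Function.update x i (2 * t - z)) ≤ pol i t g (Function.update x i (2 * t - z))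
        rw [key, val]
        linarith [min_le_left (g (Function.update x i z)) (g (Function.update x i (2 * t - z)))]

theorem A3_periodic {g : (Fin 3 → ℝ) → ℝ} (hg : IsPer g) (i : Fin 3) :
    Function.Periodic (A3 g i) 1 := by
  intro z
  rw [← A3_per hg i (z + 1), ← A3_per hg i z, Int.fract_add_one]

theorem per_refl {F : ℝ → ℝ} (hF : Function.Periodic F 1) (t : ℝ) :
    ∫ z in (0:ℝ)..1, F (2 * t - z) = ∫ z in (0:ℝ)..1, F z := by
  rw [intervalIntegral.integral_comp_sub_left (fun z => F z) (2 * t)]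
  have h := hF.intervalIntegral_add_eq (2 * t - 1) 0
  rw [zero_add] at h
  rw [← h]
  congr 1
  ring

/-- convex functionals of the slice areas increase under polarization -/
theorem conv_pol {L : ℝ} {g : (Fin 3 → ℝ) → ℝ} (hg : TL L g) {Φ : ℝ → ℝ}
    (hΦ : ConvexOn ℝ univ Φ) (hc : Continuous Φ) (i j : Fin 3) (t : ℝ) :
    ∫ z in (0:ℝ)..1, Φ (A3 g i z) ≤ ∫ z in (0:ℝ)..1, Φ (A3 (pol j t g) i z) := by
  have hP := pol_TL hg j t
  by_cases hij : j = i
  · subst hij
    have c1 : Continuous fun z => Φ (A3 g j z) := hc.comp (A3_cont hg j)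
    have c2 : Continuous fun z => Φ (A3 (pol j t g) j z) := hc.comp (A3_cont hP j)
    have c1' : Continuous fun z => Φ (A3 g j (2 * t - z)) := c1.comp (by fun_prop)
    have c2' : Continuous fun z => Φ (A3 (pol j t g) j (2 * t - z)) := c2.comp (by fun_prop)
    have p1 : Function.Periodic (fun z => Φ (A3 g j z)) 1 := fun z =>
      congrArg Φ (A3_periodic hg.per j z)
    have p2 : Function.Periodic (fun z => Φ (A3 (pol j t g) j z)) 1 := fun z =>
      congrArg Φ (A3_periodic hP.per j z)
    have e1 := per_refl p1 t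
    have e2 := per_refl p2 t
    have h : ∫ z in (0:ℝ)..1, (Φ (A3 g j z) + Φ (A3 g j (2 * t - z)))
        ≤ ∫ z in (0:ℝ)..1, (Φ (A3 (pol j t g) j z) + Φ (A3 (pol j t g) j (2 * t - z))) := by
      apply intervalIntegral.integral_mono_on zero_le_one
      · exact (c1.add c1').intervalIntegrable _ _
      · exact (c2.add c2').intervalIntegrable _ _
      · intro z _
        obtain ⟨k1, k2⟩ := A3_pair hg j t z
        exact pair_convex' hΦ k1 k2
    rw [intervalIntegral.integral_add (c1.intervalIntegrable _ _) (c1'.intervalIntegrable _ _),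
      intervalIntegral.integral_add (c2.intervalIntegrable _ _) (c2'.intervalIntegrable _ _),
      e1, e2] at h
    linarith
  · apply le_of_eq
    apply intervalIntegral.integral_congr
    intro z _
    show Φ (A3 g i z) = Φ (A3 (pol j t g) i z)
    rw [A3_pol_ne hg hij]

/-- and are continuous -/
theorem conv_lim {L : ℝ} {g : ℕ → (Fin 3 → ℝ) → ℝ} {G : (Fin 3 → ℝ) → ℝ} (hg : ∀ n, TL L (g n))
    (h : ∀ x, Tendsto (fun n => g n x) atTop (𝓝 (G x))) {Φ : ℝ → ℝ} (hc : Continuous Φ)
    (i : Fin 3) :
    Tendsto (fun n => ∫ z in (0:ℝ)..1, Φ (A3 (g n) i z)) atTop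
      (𝓝 (∫ z in (0:ℝ)..1, Φ (A3 G i z))) := by
  obtain ⟨C, hC⟩ := isCompact_Icc.exists_bound_of_continuousOn
    (s := Icc (0 : ℝ) 1) (f := Φ) hc.continuousOn
  apply intervalIntegral.tendsto_integral_filter_of_dominated_convergence (fun _ => C)
  · exact Eventually.of_forall fun n =>
      (hc.comp (A3_cont (hg n) i)).aestronglyMeasurable
  · exact Eventually.of_forall fun n => ae_of_all _ fun z _ => hC _ (A3_mem (hg n) i z)
  · simp
  · exact ae_of_all _ fun z _ => (hc.tendsto _).comp (A3_lim hg h i z)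

theorem exists_max_conv {L : ℝ} {f : (Fin 3 → ℝ) → ℝ} (hf : TL L f) (e : ℝ) :
    ∃ g, TL L g ∧ (∫ x in cell 3, g x) = (∫ x in cell 3, f x) ∧
      (∫ x in cell 3, g x * (1 - g x)) = (∫ x in cell 3, f x * (1 - f x)) ∧
      DD e g ≤ DD e f ∧ PolInv g ∧
      ∀ (Φ : ℝ → ℝ), ConvexOn ℝ univ Φ → Continuous Φ → ∀ i : Fin 3,
        ∫ z in (0:ℝ)..1, Φ (A3 f i z) ≤ ∫ z in (0:ℝ)..1, Φ (A3 g i z) := by
  refine exists_maxP hf e
    (fun g => ∀ (Φ : ℝ → ℝ), ConvexOn ℝ univ Φ → Continuous Φ → ∀ i : Fin 3,
        ∫ z in (0:ℝ)..1, Φ (A3 f i z) ≤ ∫ z in (0:ℝ)..1, Φ (A3 g i z))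
    (fun Φ _ _ i => le_rfl) ?_ ?_
  · intro g j t hg hPg Φ h1 h2 i
    exact (hPg Φ h1 h2 i).trans (conv_pol hg h1 h2 i j t)
  · intro g G hg _ hlim hP Φ h1 h2 i
    exact ge_of_tendsto' (conv_lim hg hlim h2 i) fun n => hP n Φ h1 h2 i

end Osc

open Osc in
/-- symmetrization: volume preserved, total variation and defect almost not increased, and the
slice areas are almost more spread -/
theorem symmetrize_both {f : (Fin 3 → ℝ) → ℝ} (hf : Nice f) {η : ℝ} (hη : 0 < η) :
    ∃ u : (Fin 3 → ℝ) → ℝ, SymN u ∧ (∫ x in cell 3, u x) = (∫ x in cell 3, f x) ∧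
      (∫ x in cell 3, u x * (1 - u x)) ≤ (∫ x in cell 3, f x * (1 - f x)) + η ∧
      hTV u ≤ hTV f + η ∧
      (∀ (i : Fin 3) (V : ℝ), ∫ z in (0:ℝ)..1, |sArea f i z - V| ≤
        (∫ z in (0:ℝ)..1, |sArea u i z - V|) + η) ∧
      (∀ i : Fin 3, ∫ z in (0:ℝ)..1, sArea f i z ^ 2 ≤
        (∫ z in (0:ℝ)..1, sArea u i z ^ 2) + 2 * η) := by
  obtain ⟨L, hL⟩ := nice_TL hf
  have hL0 : 0 ≤ L := hL.L0
  obtain ⟨δ, hδ0, hδ4, hδη⟩ : ∃ δ : ℝ, 0 < δ ∧ δ ≤ 1 / 4 ∧ 3 * L * δ ≤ η := by
    refine ⟨min (1 / 4) (η / (3 * L + 1)), lt_min (by norm_num) (by positivity), min_le_left _ _, ?_⟩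
    have h1 : 3 * L * min (1 / 4) (η / (3 * L + 1)) ≤ 3 * L * (η / (3 * L + 1)) :=
      mul_le_mul_of_nonneg_left (min_le_right _ _) (by positivity)
    have h2 : 3 * L * (η / (3 * L + 1)) ≤ η := by
      rw [mul_div_assoc', div_le_iff₀ (by positivity)]
      nlinarith
    linarith
  obtain ⟨θ, hθ⟩ := exists_ker1 hδ0
  obtain ⟨C, hC0, hC⟩ := cv_second hθ
  obtain ⟨c, hc0, hc⟩ := exists_rot
  set vB := (volume B1).toReal with hvB
  have hvB0 : 0 ≤ vB := ENNReal.toReal_nonneg
  obtain ⟨e, he0, he2, heη⟩ : ∃ e : ℝ, 0 < e ∧ e < 1 / 2 ∧ C * e * vB ≤ c * η := by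
    refine ⟨min (1 / 4) (c * η / (C * vB + 1)), lt_min (by norm_num) (by positivity),
      lt_of_le_of_lt (min_le_left _ _) (by norm_num), ?_⟩
    have h1 : C * vB * min (1 / 4) (c * η / (C * vB + 1)) ≤ C * vB * (c * η / (C * vB + 1)) :=
      mul_le_mul_of_nonneg_left (min_le_right _ _) (by positivity)
    have h2 : C * vB * (c * η / (C * vB + 1)) ≤ c * η := by
      rw [mul_div_assoc', div_le_iff₀ (by positivity)]
      have : 0 < c * η := by positivity
      nlinarith
    nlinarith
  obtain ⟨g, hg, hg1, hg2, hg3, hg4, hg5⟩ := exists_max_conv hL e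
  have hgs : SymD g := sym_of_pol hg hg4
  have hu := cv_nice hθ hg
  have hus : SymD (cv θ g) := cv_sym hδ0 hδ4 hθ hg hgs
  have huN : SymN (cv θ g) := ⟨hu, fun x i => hus.even i x, fun x i s r => hus.anti i x s r⟩
  have hgc := hg.cont
  have huc := hu.smooth.continuous
  have hfc := hf.smooth.continuous
  have hcl : ∀ x, |cv θ g x - g x| ≤ η := fun x => (cv_close hθ hg x).trans hδη
  obtain ⟨L2, hL2⟩ := nice_TL hu
  refine ⟨cv θ g, huN, ?_, ?_, ?_, ?_, ?_⟩
  · rw [cv_int hθ hg, hg1]
  · rw [← hg2]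
    have i1 : IntegrableOn (fun x => cv θ g x * (1 - cv θ g x)) (cell 3) :=
      UpperPart.cont_int (huc.mul (continuous_const.sub huc))
    have i2 : IntegrableOn (fun x => g x * (1 - g x)) (cell 3) :=
      UpperPart.cont_int (hgc.mul (continuous_const.sub hgc))
    have i3 : IntegrableOn (fun _ : Fin 3 → ℝ => η) (cell 3) :=
      UpperPart.cont_int continuous_const
    have h3 : ∫ x in cell 3, cv θ g x * (1 - cv θ g x)
        ≤ ∫ x in cell 3, (g x * (1 - g x) + η) := by
      apply integral_mono i1 (i2.add i3)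
      intro x
      show cv θ g x * (1 - cv θ g x) ≤ g x * (1 - g x) + η
      have h4 := hcl x
      rw [abs_le] at h4
      have a0 := hg.nonneg x
      have a1 := hg.le_one x
      have b0 := hu.nonneg x
      have b1 := hu.le_one x
      set p := cv θ g x
      set q := g x
      have h5 : p * (1 - p) - q * (1 - q) = (p - q) * (1 - p - q) := by ring
      have h6 : (p - q) * (1 - p - q) ≤ η := by
        have h7 : |(p - q) * (1 - p - q)| ≤ η * 1 := by
          rw [abs_mul]
          apply mul_le_mul _ _ (abs_nonneg _) hη.le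
          · exact abs_le.2 ⟨by linarith [h4.1], by linarith [h4.2]⟩
          · exact abs_le.2 ⟨by linarith, by linarith⟩
        linarith [le_abs_self ((p - q) * (1 - p - q))]
      linarith
    rw [integral_add i2 i3] at h3
    have h8 : ∫ x in cell 3, (fun _ : Fin 3 → ℝ => η) x = η := by
      simp only [integral_const, smul_eq_mul]
      rw [measureReal_restrict_apply_univ, Measure.real, UpperPart.cell_vol]
      simp
    simp only at h8
    rw [h8] at h3
    exact h3
  · have k1 : e * c * (∫ x in cell 3, gradN (cv θ g) x)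
        ≤ NN e (cv θ g) + C * e ^ 2 * vB :=
      NN_ge hu he0.le hc (hC L g hg)
    have k2 : NN e (cv θ g) ≤ NN e g := by
      unfold NN
      exact integral_mono (SO.MM_int hu.smooth.continuous hu.nonneg hu.le_one e)
        (SO.MM_int hg.cont hg.nonneg hg.le_one e) fun k => cv_MM hθ hg (e • k)
    have k3 : e ^ 3 * NN e g ≤ e ^ 3 * NN e f := by
      rw [← DD_eq hg he0 he2, ← DD_eq hL he0 he2]
      exact hg3
    have k4 : NN e g ≤ NN e f := le_of_mul_le_mul_left k3 (by positivity)
    have k5 : NN e f ≤ e * c * ∫ x in cell 3, gradN f x := NN_le hf he0.le hc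
    have hec : 0 < e * c := by positivity
    have k6 : e * c * (∫ x in cell 3, gradN (cv θ g) x)
        ≤ e * c * ((∫ x in cell 3, gradN f x) + 2 * η) := by
      have h9 : C * e ^ 2 * vB ≤ e * (c * η) := by
        calc C * e ^ 2 * vB = e * (C * e * vB) := by ring
          _ ≤ e * (c * η) := mul_le_mul_of_nonneg_left heη he0.le
      have h10 : 0 ≤ e * (c * η) := by positivity
      calc e * c * (∫ x in cell 3, gradN (cv θ g) x) ≤ NN e (cv θ g) + C * e ^ 2 * vB := k1
        _ ≤ e * c * (∫ x in cell 3, gradN f x) + e * (c * η) := by linarith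
        _ ≤ e * c * ((∫ x in cell 3, gradN f x) + 2 * η) := by nlinarith
    have k7 := le_of_mul_le_mul_left k6 hec
    unfold hTV
    linarith
  · intro i V
    have hconv : ConvexOn ℝ univ (fun s : ℝ => |s - V|) := by
      have h1 : ConvexOn ℝ univ (fun s : ℝ => ‖s‖) := convexOn_norm convex_univ
      have h2 := h1.translate_left (c := -V)
      simp only [preimage_univ] at h2
      refine h2.congr fun s _ => ?_
      simp [sub_eq_add_neg, add_comm]
    have h1 := hg5 _ hconv (by fun_prop) i
    have c1 : Continuous fun z => |A3 g i z - V| := by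
      have := A3_cont hg i
      fun_prop
    have c2 : Continuous fun z => |A3 (cv θ g) i z - V| := by
      have := A3_cont hL2 i
      fun_prop
    have h2 : ∫ z in (0:ℝ)..1, |A3 g i z - V| ≤ ∫ z in (0:ℝ)..1, (|A3 (cv θ g) i z - V| + η) := by
      apply intervalIntegral.integral_mono_on zero_le_one (c1.intervalIntegrable _ _)
        ((c2.add continuous_const).intervalIntegrable _ _)
      intro z _
      have h3 := A3_close huc hgc hcl i z
      have h4 : |A3 g i z - V| ≤ |A3 (cv θ g) i z - V| + |A3 g i z - A3 (cv θ g) i z| := by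
        have := abs_add_le (A3 (cv θ g) i z - V) (A3 g i z - A3 (cv θ g) i z)
        rwa [show A3 (cv θ g) i z - V + (A3 g i z - A3 (cv θ g) i z) = A3 g i z - V by ring]
          at this
      have h5 : |A3 g i z - A3 (cv θ g) i z| ≤ η := by
        rw [abs_sub_comm]
        exact h3
      show |A3 g i z - V| ≤ |A3 (cv θ g) i z - V| + η
      linarith
    rw [intervalIntegral.integral_add (c2.intervalIntegrable _ _)
      (continuous_const.intervalIntegrable _ _)] at h2
    simp only [intervalIntegral.integral_const, sub_zero, smul_eq_mul, one_mul] at h2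
    simp only [A3_eq huc, A3_eq hfc] at h1 h2
    linarith
  · intro i
    have hconv : ConvexOn ℝ univ (fun s : ℝ => s ^ 2) := (Even.convexOn_pow (by norm_num))
    have h1 := hg5 _ hconv (by fun_prop) i
    have c1 : Continuous fun z => A3 g i z ^ 2 := (A3_cont hg i).pow 2
    have c2 : Continuous fun z => A3 (cv θ g) i z ^ 2 := (A3_cont hL2 i).pow 2
    have h2 : ∫ z in (0:ℝ)..1, A3 g i z ^ 2 ≤ ∫ z in (0:ℝ)..1, (A3 (cv θ g) i z ^ 2 + 2 * η) := by
      apply intervalIntegral.integral_mono_on zero_le_one (c1.intervalIntegrable _ _)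
        ((c2.add continuous_const).intervalIntegrable _ _)
      intro z _
      have h3 := A3_close huc hgc hcl i z
      have m1 := A3_mem hg i z
      have m2 := A3_mem hL2 i z
      rw [abs_le] at h3
      have q1 : 0 ≤ (η - (A3 g i z - A3 (cv θ g) i z)) * (A3 g i z + A3 (cv θ g) i z) :=
        mul_nonneg (by linarith [h3.1]) (by linarith [m1.1, m2.1])
      have q2 : 0 ≤ η * (2 - (A3 g i z + A3 (cv θ g) i z)) :=
        mul_nonneg hη.le (by linarith [m1.2, m2.2])
      show A3 g i z ^ 2 ≤ A3 (cv θ g) i z ^ 2 + 2 * η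
      nlinarith
    rw [intervalIntegral.integral_add (c2.intervalIntegrable _ _)
      (continuous_const.intervalIntegrable _ _)] at h2
    simp only [intervalIntegral.integral_const, sub_zero, smul_eq_mul, one_mul] at h2
    simp only [A3_eq huc, A3_eq hfc] at h1 h2
    linarith

/-- symmetrization, version used in the classification of near-minimizers (K18) -/
theorem symmetrize_l1 {f : (Fin 3 → ℝ) → ℝ} (hf : Nice f) {η : ℝ} (hη : 0 < η) :
    ∃ u : (Fin 3 → ℝ) → ℝ, SymN u ∧ (∫ x in cell 3, u x) = (∫ x in cell 3, f x) ∧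
      (∫ x in cell 3, u x * (1 - u x)) ≤ (∫ x in cell 3, f x * (1 - f x)) + η ∧
      hTV u ≤ hTV f + η ∧ ∀ i : Fin 3,
        ∫ z in (0:ℝ)..1, |sArea f i z - ∫ x in cell 3, f x| ≤
          (∫ z in (0:ℝ)..1, |sArea u i z - ∫ x in cell 3, f x|) + η := by
  obtain ⟨u, h1, h2, h3, h4, h5, -⟩ := symmetrize_both hf hη
  exact ⟨u, h1, h2, h3, h4, fun i => h5 i _⟩

end Vale.Agent.P232
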