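import Mathlib
import Vale.Agent.P232.OscL

/-!
# P232, module CMAJ: symmetrization increases the integrals of the squared slice areas (helper50)
-/

open MeasureTheory Set

namespace Vale.Agent.P232

theorem symmetrize_maj {f : (Fin 3 → ℝ) → ℝ} (hf : Nice f) {η : ℝ} (hη : 0 < η) :
    ∃ u : (Fin 3 → ℝ) → ℝ, SymN u ∧ (∫ x in cell 3, u x) = (∫ x in cell 3, f x) ∧
      (∫ x in cell 3, u x * (1 - u x)) ≤ (∫ x in cell 3, f x * (1 - f x)) + η ∧
      hTV u ≤ hTV f + η ∧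
      ∀ i, ∫ z in (0:ℝ)..1, (sArea f i z) ^ 2 ≤ (∫ z in (0:ℝ)..1, (sArea u i z) ^ 2) + η := by
  obtain ⟨u, h1, h2, h3, h4, -, h6⟩ := symmetrize_both hf (half_pos hη)
  refine ⟨u, h1, h2, by linarith, by linarith, fun i => ?_⟩
  have := h6 i
  linarith

end Vale.Agent.P232
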