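import Vale.Agent.P232.MidClassOf
import Vale.Agent.P232.Window2
import Vale.Agent.P232.ClaimA2
import Vale.Agent.P232.ClaimB2
import Vale.Agent.P232.ClaimC2

/-!
# P232, module K20: classification of near-minimizers in the middle window, symmetric functions
-/

open MeasureTheory Set Filter Topology

namespace Vale.Agent.P232

theorem mid_strict {V : ℝ} (hV : V ∈ Set.Icc (0.264 : ℝ) 0.36) {ε : ℝ} (hε : 0 < ε) :
    ∃ δ > 0, ∀ u : (Fin 3 → ℝ) → ℝ, SymN u → ∫ x in cell 3, u x = V →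
      ∫ x in cell 3, u x * (1 - u x) ≤ δ → hTV u ≤ Jh V + δ →
      ∃ i, ∫ z in (0:ℝ)..1, |sArea u i z - V| ≤ ε :=
  mid_strict_of window_l1 claim_A_s claim_B_s claim_C_s hV hε

end Vale.Agent.P232
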