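import Vale.Agent.P232.MidClassFrom
import Vale.Agent.P232.MidClassSym

/-! # P232, module K23: strict classification in the middle window -/

open MeasureTheory Set

namespace Vale.Agent.P232

theorem class_win {V : ℝ} (hV : V ∈ Set.Icc (0.264 : ℝ) 0.36) {ε : ℝ} (hε : 0 < ε) :
    ∃ δ > 0, ∀ f : (Fin 3 → ℝ) → ℝ, Nice f → ∫ x in cell 3, f x = V →
      ∫ x in cell 3, f x * (1 - f x) ≤ δ → hTV f ≤ Jh V + δ →
      ∃ i, ∫ z in (0:ℝ)..1, |sArea f i z - V| ≤ ε :=
  class_win_of mid_strict hV hε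

end Vale.Agent.P232
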