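import Mathlib
import Vale.Agent.P232.OscL

/-!
# P232, module K23: classification of near-minimizers in the middle window
(the strict statement for symmetric functions as a hypothesis)
-/

open MeasureTheory Set Filter Topology

namespace Vale.Agent.P232

theorem class_win_of
    (mid : ∀ {V : ℝ}, V ∈ Set.Icc (0.264 : ℝ) 0.36 → ∀ {ε : ℝ}, 0 < ε →
      ∃ δ > 0, ∀ u : (Fin 3 → ℝ) → ℝ, SymN u → ∫ x in cell 3, u x = V →
      ∫ x in cell 3, u x * (1 - u x) ≤ δ → hTV u ≤ Jh V + δ →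
      ∃ i, ∫ z in (0:ℝ)..1, |sArea u i z - V| ≤ ε)
    {V : ℝ} (hV : V ∈ Set.Icc (0.264 : ℝ) 0.36) {ε : ℝ} (hε : 0 < ε) :
    ∃ δ > 0, ∀ f : (Fin 3 → ℝ) → ℝ, Nice f → ∫ x in cell 3, f x = V →
      ∫ x in cell 3, f x * (1 - f x) ≤ δ → hTV f ≤ Jh V + δ →
      ∃ i, ∫ z in (0:ℝ)..1, |sArea f i z - V| ≤ ε := by
  obtain ⟨δ, hδ, hm⟩ := mid hV (half_pos hε)
  refine ⟨δ / 2, half_pos hδ, ?_⟩
  intro f hf hfV hf1 hf2
  obtain ⟨u, hu, huV, hu1, hu2, hu3⟩ := symmetrize_l1 hf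
    (η := min (δ / 2) (ε / 2)) (lt_min (half_pos hδ) (half_pos hε))
  have e1 : min (δ / 2) (ε / 2) ≤ δ / 2 := min_le_left _ _
  have e2 : min (δ / 2) (ε / 2) ≤ ε / 2 := min_le_right _ _
  obtain ⟨i, hi⟩ := hm u hu (by rw [huV, hfV]) (by linarith) (by linarith)
  refine ⟨i, ?_⟩
  have h := hu3 i
  rw [hfV] at h
  linarith

end Vale.Agent.P232
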