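import Vale.Agent.P232.ClaimAux
import Vale.Agent.P232U.K19

/-!
# P232, module K20: classification of near-minimizers in the middle window, symmetric functions
(with the numerical claims as hypotheses)
-/

open MeasureTheory Set Filter Topology

namespace Vale.Agent.P232

private theorem k20_Jh_cont : Continuous Jh := by
  unfold Jh
  refine Continuous.min (Continuous.min ?_ ?_) continuous_const
  · exact continuous_const.mul (continuous_id.rpow_const fun _ => Or.inr (by norm_num))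
  · exact Real.continuous_sqrt.comp (continuous_const.mul continuous_id)

private theorem k20_Jh_le (V : ℝ) : Jh V ≤ 1 := min_le_right _ _

private theorem k20_trace {w : (Fin 3 → ℝ) → ℝ} {i j k : Fin 3} {τ ε ε' : ℝ} (h : ε ≤ ε')
    (ht : Trace w i j k τ ε) : Trace w i j k τ ε' :=
  ⟨fun t z h0 h1 h2 => ht.1 t z h0 (by linarith) h2, ht.2⟩

private theorem k20_third : ∀ j k : Fin 3, j ≠ k → ∃ i : Fin 3, i ≠ j ∧ i ≠ k := by decide

/-- the combinatorics of the six corner values -/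
private theorem k20_comb {P : Fin 3 → Fin 3 → ℝ} {G : Prop}
    (hp : ∀ j k, j ≠ k → P j k = 0 ∨ P j k = 1)
    (hA : ∀ j k, j ≠ k → P j k = 0 → P k j = 0 → G)
    (hB : ∀ i j k, i ≠ j → j ≠ k → i ≠ k → P i k = 1 → P j k = 1 → G)
    (hC : ∀ i j k, i ≠ j → j ≠ k → i ≠ k → P j i = 0 → P k j = 0 → P i k = 0 → G) : G := by
  have d01 : (0 : Fin 3) ≠ 1 := by decide
  have d10 : (1 : Fin 3) ≠ 0 := by decide
  have d02 : (0 : Fin 3) ≠ 2 := by decide
  have d20 : (2 : Fin 3) ≠ 0 := by decide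
  have d12 : (1 : Fin 3) ≠ 2 := by decide
  have d21 : (2 : Fin 3) ≠ 1 := by decide
  rcases hp 0 1 d01 with h01 | h01
  · rcases hp 1 0 d10 with h10 | h10
    · exact hA 0 1 d01 h01 h10
    · rcases hp 2 0 d20 with h20 | h20
      · rcases hp 0 2 d02 with h02 | h02
        · exact hA 0 2 d02 h02 h20
        · rcases hp 1 2 d12 with h12 | h12
          · exact hC 1 0 2 d10 d02 d12 h01 h20 h12
          · exact hB 0 1 2 d01 d12 d02 h02 h12
      · exact hB 1 2 0 d12 d20 d10 h10 h20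
  · rcases hp 2 1 d21 with h21 | h21
    · rcases hp 1 2 d12 with h12 | h12
      · exact hA 1 2 d12 h12 h21
      · rcases hp 0 2 d02 with h02 | h02
        · rcases hp 1 0 d10 with h10 | h10
          · exact hC 0 1 2 d01 d12 d02 h10 h21 h02
          · rcases hp 2 0 d20 with h20 | h20
            · exact hA 0 2 d02 h02 h20
            · exact hB 1 2 0 d12 d20 d10 h10 h20
        · exact hB 0 1 2 d01 d12 d02 h02 h12
    · exact hB 0 2 1 d02 d21 d01 h01 h21

/-- slice areas depend continuously on the function in `L¹` -/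
private theorem k20_l1 {u w : (Fin 3 → ℝ) → ℝ} (hu : Nice u) (hw : Nice w) (i : Fin 3) :
    ∫ z in (0:ℝ)..1, |sArea u i z - sArea w i z| ≤ ∫ x in cell 3, |w x - u x| := by
  have hc : Continuous fun x => |w x - u x| := (hw.smooth.continuous.sub hu.smooth.continuous).abs
  rw [fubini_slice hc i]
  have h1 : Continuous fun z => |sArea u i z - sArea w i z| :=
    ((CB_area_cont hu i).sub (CB_area_cont hw i)).abs
  have h2 : Continuous fun z : ℝ => ∫ y in cell 2, |w (i.insertNth z y) - u (i.insertNth z y)| :=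
    e3_cont_param (F := fun z y => |w (i.insertNth z y) - u (i.insertNth z y)|)
      (hc.comp (e3_ins i))
  refine intervalIntegral.integral_mono_on zero_le_one (h1.intervalIntegrable _ _)
    (h2.intervalIntegrable _ _) fun z _ => ?_
  have hint : ∀ {f : (Fin 3 → ℝ) → ℝ}, Nice f → IntegrableOn (slice f i z) (cell 2) := by
    intro f hf
    have hcf : Continuous (slice f i z) :=
      hf.smooth.continuous.comp ((e3_ins i).comp (continuous_const.prodMk continuous_id))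
    exact (hcf.continuousOn.integrableOn_compact (fub_isCompact 2)).mono_set (fub_cell_subset 2)
  have h3 : sArea u i z - sArea w i z = ∫ y in cell 2, (slice u i z y - slice w i z y) := by
    unfold sArea
    rw [integral_sub (hint hu) (hint hw)]
  rw [h3]
  refine (abs_integral_le_integral_abs).trans (le_of_eq ?_)
  refine integral_congr_ae (Filter.Eventually.of_forall fun y => ?_)
  exact abs_sub_comm _ _

private theorem k20_flat {w : (Fin 3 → ℝ) → ℝ} (hw : SymN w) (i : Fin 3) {s : ℝ}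
    (h : (sArea w i 0 - sArea w i (1 / 2)) ^ 2 ≤ s) :
    ∫ z in (0:ℝ)..1, |sArea w i z - ∫ x in cell 3, w x| ≤ 8 * Real.sqrt s := by
  have h1 : |sArea w i 0 - sArea w i (1 / 2)| ≤ Real.sqrt s := Real.abs_le_sqrt h
  have h2 := (abs_le.1 h1).2
  have h3 : ∀ z, |sArea w i z - ∫ x in cell 3, w x| ≤ Real.sqrt s := by
    intro z
    have h4 := CB_area hw i z
    have h5 := CB_V hw i
    rw [abs_le]
    constructor <;> linarith [h4.1, h4.2, h5.1, h5.2]
  have h4 : Continuous fun z => |sArea w i z - ∫ x in cell 3, w x| :=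
    ((CB_area_cont hw.toNice i).sub continuous_const).abs
  have h5 := intervalIntegral.integral_mono_on (a := 0) (b := 1) (μ := volume) zero_le_one
    (h4.intervalIntegrable _ _) (g := fun _ => Real.sqrt s) (by simp) fun z _ => h3 z
  have h6 : ∫ _z in (0:ℝ)..1, Real.sqrt s = Real.sqrt s := by simp
  rw [h6] at h5
  have := Real.sqrt_nonneg s
  linarith

private theorem k20_slab {w : (Fin 3 → ℝ) → ℝ} (hw : SymN w) {i j : Fin 3} (hij : i ≠ j) {s : ℝ}
    (hs0 : 0 ≤ s) (hs1 : s ≤ 1) (hT : hTV w ≤ 1 + s)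
    (h : sArea w i (1 / 2) + (1 - sArea w i 0) ≤ s) :
    ∫ z in (0:ℝ)..1, |sArea w j z - ∫ x in cell 3, w x| ≤ 8 * Real.sqrt s := by
  have h0 := sArea_mem hw.toNice i (1 / 2)
  have h1 := sArea_mem hw.toNice i 0
  exact flat_of_slab hw.toNice hij hs0 hs1 hT ⟨1 / 2, by linarith [h1.2]⟩
    ⟨0, by linarith [h0.1]⟩

/-- K20, with window_l1 and the three claims as hypotheses -/
theorem mid_strict_of
    (Hw : ∀ {ε : ℝ}, 0 < ε → ∃ δ > 0, ∀ u : (Fin 3 → ℝ) → ℝ, SymN u → hTV u ≤ 2 →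
      ∫ x in cell 3, u x * (1 - u x) ≤ δ → ∃ w : (Fin 3 → ℝ) → ℝ, SymN w ∧
      |(∫ x in cell 3, w x) - ∫ x in cell 3, u x| ≤ ε ∧ ∫ x in cell 3, w x * (1 - w x) ≤ ε ∧
      hTV w ≤ hTV u + ε ∧ ∫ x in cell 3, |w x - u x| ≤ ε ∧
      (∀ j k, j ≠ k → w (pt j k 0.065) = 0 ∨ w (pt j k 0.065) = 1) ∧
      (∀ i j k, i ≠ j → j ≠ k → i ≠ k → ∃ τ, 0 ≤ τ ∧ τ ≤ 1 / 2 ∧ Trace w i j k τ ε))
    (HA : ∀ {w : (Fin 3 → ℝ) → ℝ}, SymN w →
      (∫ x in cell 3, w x) ∈ Set.Icc (0.263 : ℝ) 0.361 → ∀ {i j k : Fin 3}, i ≠ j →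
      j ≠ k → i ≠ k → w (pt j k 0.065) = 0 → w (pt k j 0.065) = 0 →
      Jh (∫ x in cell 3, w x) + (sArea w i 0 - sArea w i (1 / 2)) ^ 2 / 10 ^ 7 ≤
        hTV w + 12 * Real.sqrt (2 * ∫ x in cell 3, w x * (1 - w x)))
    (HB : ∀ {w : (Fin 3 → ℝ) → ℝ}, SymN w →
      (∫ x in cell 3, w x) ∈ Set.Icc (0.263 : ℝ) 0.361 → ∀ {i j k : Fin 3}, i ≠ j →
      j ≠ k → i ≠ k → w (pt i k 0.065) = 1 → w (pt j k 0.065) = 1 →
      ∀ {τ τ' : ℝ}, (0 ≤ τ ∧ τ ≤ 1 / 2) → (0 ≤ τ' ∧ τ' ≤ 1 / 2) →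
      Trace w i j k τ 0.0005 → Trace w j i k τ' 0.0005 →
      Jh (∫ x in cell 3, w x) + min ((sArea w k 0 - sArea w k (1 / 2)) ^ 2)
          (sArea w k (1 / 2) + (1 - sArea w k 0)) / 10 ^ 7 ≤
        hTV w + 12 * Real.sqrt (2 * ∫ x in cell 3, w x * (1 - w x)))
    (HC : ∀ {w : (Fin 3 → ℝ) → ℝ}, SymN w →
      (∫ x in cell 3, w x) ∈ Set.Icc (0.263 : ℝ) 0.361 → ∀ {i j k : Fin 3}, i ≠ j →
      j ≠ k → i ≠ k → w (pt j i 0.065) = 0 → w (pt k j 0.065) = 0 → w (pt i k 0.065) = 0 →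
      Jh (∫ x in cell 3, w x) + min 1 (sArea w i (1 / 2) + (1 - sArea w i 0)) / 10 ^ 7 ≤
        hTV w + 12 * Real.sqrt (2 * ∫ x in cell 3, w x * (1 - w x)))
    {V : ℝ} (hV : V ∈ Set.Icc (0.264 : ℝ) 0.36) {ε : ℝ} (hε : 0 < ε) :
    ∃ δ > 0, ∀ u : (Fin 3 → ℝ) → ℝ, SymN u → ∫ x in cell 3, u x = V →
      ∫ x in cell 3, u x * (1 - u x) ≤ δ → hTV u ≤ Jh V + δ →
      ∃ i, ∫ z in (0:ℝ)..1, |sArea u i z - V| ≤ ε := by
  -- constants
  obtain ⟨s, hs0, hs1, hs2⟩ : ∃ s : ℝ, 0 < s ∧ s ≤ 1 / 2 ∧ s ≤ (ε / 32) ^ 2 :=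
    ⟨min (1 / 2) ((ε / 32) ^ 2), lt_min (by norm_num) (by positivity), min_le_left _ _,
      min_le_right _ _⟩
  have hsq8 : 8 * Real.sqrt s ≤ ε / 4 := by
    have h1 : Real.sqrt s ≤ ε / 32 := by
      rw [Real.sqrt_le_left (by positivity)]
      exact hs2
    linarith
  obtain ⟨r, hr⟩ : ∃ r : ℝ, r = s / 10 ^ 7 := ⟨_, rfl⟩
  have hr0 : 0 < r := by rw [hr]; positivity
  have hrs : r ≤ s := by
    rw [hr]
    exact div_le_self hs0.le (by norm_num)
  have hcontJ := k20_Jh_cont.continuousAt (x := V)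
  obtain ⟨ρ, hρ, hJ⟩ := Metric.continuousAt_iff.1 hcontJ (r / 4) (by linarith)
  obtain ⟨e, he, he1, he2, he3, he4, he5⟩ : ∃ e : ℝ, 0 < e ∧ e ≤ 0.0005 ∧ e ≤ r / 4 ∧ e < ρ ∧
      e ≤ r ^ 2 / 4608 ∧ e ≤ ε / 4 := by
    refine ⟨min (min (min 0.0005 (r / 4)) (min (ρ / 2) (r ^ 2 / 4608))) (ε / 4), ?_, ?_, ?_, ?_,
      ?_, ?_⟩
    · exact lt_min (lt_min (lt_min (by norm_num) (by linarith))
        (lt_min (by linarith) (by positivity))) (by linarith)
    · exact (min_le_left _ _).trans ((min_le_left _ _).trans (min_le_left _ _))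
    · exact (min_le_left _ _).trans ((min_le_left _ _).trans (min_le_right _ _))
    · refine lt_of_le_of_lt ((min_le_left _ _).trans
        ((min_le_right _ _).trans (min_le_left _ _))) ?_
      linarith
    · exact (min_le_left _ _).trans ((min_le_right _ _).trans (min_le_right _ _))
    · exact min_le_right _ _
  obtain ⟨δ, hδ, hw⟩ := Hw he
  refine ⟨min δ (r / 4), lt_min hδ (by linarith), fun u hu hVu hd hTu => ?_⟩
  have hδ2 : min δ (r / 4) ≤ r / 4 := min_le_right _ _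
  have hTu2 : hTV u ≤ 2 := by
    have := k20_Jh_le V
    linarith
  obtain ⟨w, hws, hVw, hdw, hTw, hL1, hpt, htr⟩ := hw u hu hTu2 (hd.trans (min_le_left _ _))
  rw [hVu] at hVw
  have habs := abs_le.1 hVw
  have hVw' : (∫ x in cell 3, w x) ∈ Set.Icc (0.263 : ℝ) 0.361 := by
    have h3 := hV.1
    have h4 := hV.2
    norm_num at h3 h4 he1 ⊢
    constructor
    · linarith [habs.1]
    · linarith [habs.2]
  have hJw : Jh V ≤ Jh (∫ x in cell 3, w x) + r / 4 := by
    have h1 := hJ (x := ∫ x in cell 3, w x) (by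
      rw [Real.dist_eq]
      exact lt_of_le_of_lt hVw he3)
    rw [Real.dist_eq] at h1
    linarith [(abs_lt.1 h1).1]
  have hsq : 12 * Real.sqrt (2 * ∫ x in cell 3, w x * (1 - w x)) ≤ r / 4 := by
    have h1 : Real.sqrt (2 * ∫ x in cell 3, w x * (1 - w x)) ≤ r / 48 := by
      rw [Real.sqrt_le_left (by positivity)]
      have e : (r / 48) ^ 2 = 2 * (r ^ 2 / 4608) := by ring
      rw [e]
      linarith
    linarith
  have hTw1 : hTV w ≤ 1 + s := by
    have := k20_Jh_le V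
    linarith
  -- the excess is small
  have hex : ∀ X : ℝ, Jh (∫ x in cell 3, w x) + X / 10 ^ 7 ≤
      hTV w + 12 * Real.sqrt (2 * ∫ x in cell 3, w x * (1 - w x)) → X ≤ s := by
    intro X hX
    have h1 : X / 10 ^ 7 ≤ s / 10 ^ 7 := by
      rw [← hr]
      linarith
    have h7 : (0 : ℝ) < 10 ^ 7 := by norm_num
    exact (div_le_div_iff_of_pos_right h7).1 h1
  have hmain : ∃ i, ∫ z in (0:ℝ)..1, |sArea w i z - ∫ x in cell 3, w x| ≤ 8 * Real.sqrt s := by
    refine k20_comb (P := fun j k => w (pt j k 0.065)) hpt ?_ ?_ ?_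
    · intro j k hjk h1 h3
      obtain ⟨i, hij, hik⟩ := k20_third j k hjk
      exact ⟨i, k20_flat hws i (hex _ (HA hws hVw' hij hjk hik h1 h3))⟩
    · intro i j k hij hjk hik h1 h3
      obtain ⟨τ, h0, h05, ht⟩ := htr i j k hij hjk hik
      obtain ⟨τ', h0', h05', ht'⟩ := htr j i k hij.symm hik hjk
      have h4 := hex _ (HB hws hVw' hij hjk hik h1 h3 ⟨h0, h05⟩ ⟨h0', h05'⟩
        (k20_trace he1 ht) (k20_trace he1 ht'))
      rcases min_le_iff.1 h4 with h5 | h5
      · exact ⟨k, k20_flat hws k h5⟩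
      · exact ⟨j, k20_slab hws hjk.symm hs0.le (by linarith) hTw1 h5⟩
    · intro i j k hij hjk hik h1 h3 h4
      have h5 := hex _ (HC hws hVw' hij hjk hik h1 h3 h4)
      rcases min_le_iff.1 h5 with h6 | h6
      · exact absurd h6 (by linarith)
      · exact ⟨j, k20_slab hws hij hs0.le (by linarith) hTw1 h6⟩
  obtain ⟨i, hi⟩ := hmain
  refine ⟨i, ?_⟩
  have hcu := CB_area_cont hu.toNice i
  have hcw := CB_area_cont hws.toNice i
  have i1 : IntervalIntegrable (fun z => |sArea u i z - sArea w i z|) volume 0 1 :=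
    ((hcu.sub hcw).abs).intervalIntegrable _ _
  have i2 : IntervalIntegrable (fun z => |sArea w i z - ∫ x in cell 3, w x|) volume 0 1 :=
    ((hcw.sub continuous_const).abs).intervalIntegrable _ _
  have i3 : IntervalIntegrable (fun _ : ℝ => e) volume 0 1 := by simp
  have hfin : ∫ z in (0:ℝ)..1, |sArea u i z - V| ≤ ∫ z in (0:ℝ)..1,
      ((|sArea u i z - sArea w i z| + |sArea w i z - ∫ x in cell 3, w x|) + e) := by
    refine intervalIntegral.integral_mono_on zero_le_one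
      (((hcu.sub continuous_const).abs).intervalIntegrable _ _) ((i1.add i2).add i3)
      fun z _ => ?_
    have e1 : sArea u i z - V = (sArea u i z - sArea w i z) +
        (sArea w i z - ∫ x in cell 3, w x) + ((∫ x in cell 3, w x) - V) := by ring
    rw [e1]
    refine (abs_add_le _ _).trans (add_le_add (abs_add_le _ _) hVw)
  rw [intervalIntegral.integral_add (i1.add i2) i3, intervalIntegral.integral_add i1 i2] at hfin
  have h6 : ∫ _z in (0:ℝ)..1, e = e := by simp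
  rw [h6] at hfin
  have h7 := k20_l1 hu.toNice hws.toNice i
  linarith

end Vale.Agent.P232
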