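import Vale.Agent.P232.Defs

/-!
# P232, module N1: near the diagonal (helper75)
-/

open MeasureTheory Set

namespace Vale.Agent.P232

theorem n1_inv_pi_le : 1 / Real.pi ≤ 1 - 1 / Real.pi := by
  have h : 1 / Real.pi ≤ 1 / 3 := one_div_le_one_div_of_le (by norm_num) Real.pi_gt_three.le
  linarith

theorem n1_I2_eq_sqrt {a : ℝ} (_h0 : 0 ≤ a) (h : a ≤ 1 / Real.pi) :
    I2 a = Real.sqrt (Real.pi * a) := by
  have hp := Real.pi_pos
  have h1 : Real.pi * a ≤ 1 := by
    rw [le_div_iff₀ hp] at h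
    linarith
  have h2 : Real.sqrt (Real.pi * a) ≤ 1 := Real.sqrt_le_one.2 h1
  have h3 : 1 ≤ Real.pi * (1 - a) := by
    have := n1_inv_pi_le
    have h4 : 1 / Real.pi ≤ 1 - a := by linarith
    rw [div_le_iff₀ hp] at h4
    linarith
  have h4 : Real.sqrt (Real.pi * a) ≤ Real.sqrt (Real.pi * (1 - a)) :=
    Real.sqrt_le_sqrt (h1.trans h3)
  unfold I2
  rw [min_eq_left h2, min_eq_left h4]

theorem n1_int {b c : ℝ} (hbc : b ≤ c) :
    ∫ a in b..c, Real.sqrt ((c - a) * (a - b)) = Real.pi * (c - b) ^ 2 / 8 := by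
  rcases hbc.eq_or_lt with rfl | hlt
  · simp
  have h := intervalIntegral.integral_comp_mul_add (a := (-1 : ℝ)) (b := 1)
    (fun a => Real.sqrt ((c - a) * (a - b))) (c := (c - b) / 2) (by linarith) ((b + c) / 2)
  have e1 : (c - b) / 2 * (-1) + (b + c) / 2 = b := by ring
  have e2 : (c - b) / 2 * 1 + (b + c) / 2 = c := by ring
  rw [e1, e2] at h
  have e3 : ∀ x : ℝ, Real.sqrt ((c - ((c - b) / 2 * x + (b + c) / 2)) *
      (((c - b) / 2 * x + (b + c) / 2) - b)) = (c - b) / 2 * Real.sqrt (1 - x ^ 2) := by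
    intro x
    have : (c - ((c - b) / 2 * x + (b + c) / 2)) * (((c - b) / 2 * x + (b + c) / 2) - b) =
        ((c - b) / 2) ^ 2 * (1 - x ^ 2) := by ring
    rw [this, Real.sqrt_mul (sq_nonneg _), Real.sqrt_sq (by linarith)]
  simp only [e3] at h
  rw [intervalIntegral.integral_const_mul, integral_sqrt_one_sub_sq, smul_eq_mul] at h
  have h0 : (c - b) / 2 ≠ 0 := by linarith
  field_simp at h
  linarith

theorem near_diag {V b c : ℝ} (hV : (0.12 : ℝ) ≤ V) (hbV : b ≤ V) (hc : V ≤ c)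
    (hc1 : c ≤ 1 / Real.pi) (hbc : b < c) (hb : 0.66 * c ≤ b) :
    ∃ α κ : ℝ, (∀ a ∈ Set.Icc b c, 0 ≤ α + κ * a) ∧ (∀ a ∈ Set.Icc b c, α + κ * a ≤ I2 a) ∧
      Real.sqrt (Real.pi * V) ≤ α + κ * V + cal I2 α κ b c := by
  have hc0 : 0.12 ≤ c := hV.trans hc
  have hb0 : 0.07 ≤ b := by linarith
  obtain ⟨P, hP⟩ : ∃ P, P = Real.sqrt Real.pi := ⟨_, rfl⟩
  obtain ⟨B, hB⟩ : ∃ B, B = Real.sqrt b := ⟨_, rfl⟩
  obtain ⟨C, hC⟩ : ∃ C, C = Real.sqrt c := ⟨_, rfl⟩
  obtain ⟨v, hv⟩ : ∃ v, v = Real.sqrt V := ⟨_, rfl⟩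
  have hP2 : P ^ 2 = Real.pi := by rw [hP]; exact Real.sq_sqrt Real.pi_pos.le
  have hB2 : B ^ 2 = b := by rw [hB]; exact Real.sq_sqrt (by linarith)
  have hC2 : C ^ 2 = c := by rw [hC]; exact Real.sq_sqrt (by linarith)
  have hv2 : v ^ 2 = V := by rw [hv]; exact Real.sq_sqrt (by linarith)
  have hB0 : 0 < B := by rw [hB]; exact Real.sqrt_pos.2 (by linarith)
  have hC0 : 0 < C := by rw [hC]; exact Real.sqrt_pos.2 (by linarith)
  have hP0 : 0 < P := by rw [hP]; exact Real.sqrt_pos.2 Real.pi_pos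
  have hv0 : 0 < v := by rw [hv]; exact Real.sqrt_pos.2 (by linarith)
  have hPl : 1.772 ≤ P := by
    rw [hP]
    apply Real.le_sqrt_of_sq_le
    have := Real.pi_gt_d2
    norm_num
    linarith
  have hCl : 0.346 ≤ C := by
    rw [hC]
    apply Real.le_sqrt_of_sq_le
    norm_num
    linarith
  have hBl : 0.812 * C ≤ B := by
    have : (0.812 * C) ^ 2 ≤ B ^ 2 := by
      rw [mul_pow, hC2, hB2]
      norm_num
      linarith
    exact le_of_sq_le_sq this hB0.le
  have hBv : B ≤ v := by rw [hB, hv]; exact Real.sqrt_le_sqrt hbV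
  have hvC : v ≤ C := by rw [hC, hv]; exact Real.sqrt_le_sqrt hc
  have hS : 0 < B + C := by linarith
  refine ⟨P * (B * C) / (B + C), P / (B + C), ?_, ?_, ?_⟩
  · intro a ha
    have : 0 ≤ a := by linarith [ha.1]
    positivity
  · intro a ha
    have ha0 : 0 ≤ a := by linarith [ha.1]
    rw [n1_I2_eq_sqrt ha0 (ha.2.trans hc1), Real.sqrt_mul Real.pi_pos.le, ← hP]
    obtain ⟨w, hw⟩ : ∃ w, w = Real.sqrt a := ⟨_, rfl⟩
    have hw2 : w ^ 2 = a := by rw [hw]; exact Real.sq_sqrt ha0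
    have hBw : B ≤ w := by rw [hB, hw]; exact Real.sqrt_le_sqrt ha.1
    have hwC : w ≤ C := by rw [hC, hw]; exact Real.sqrt_le_sqrt ha.2
    rw [← hw, ← hw2]
    have : P * (B * C) / (B + C) + P / (B + C) * w ^ 2 = P * (B * C + w ^ 2) / (B + C) := by ring
    rw [this, div_le_iff₀ hS, mul_assoc]
    refine mul_le_mul_of_nonneg_left ?_ hP0.le
    nlinarith [mul_nonneg (sub_nonneg.2 hBw) (sub_nonneg.2 hwC)]
  · -- the integral
    have hint : ∀ a ∈ Set.Icc b c, Real.sqrt ((c - a) * (a - b)) / (C * (B + C)) ≤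
        Real.sqrt (1 - ((P * (B * C) / (B + C) + P / (B + C) * a) / I2 a) ^ 2) := by
      intro a ha
      have ha0 : 0 < a := by linarith [ha.1]
      rw [n1_I2_eq_sqrt ha0.le (ha.2.trans hc1), Real.sqrt_mul Real.pi_pos.le, ← hP]
      obtain ⟨w, hw⟩ : ∃ w, w = Real.sqrt a := ⟨_, rfl⟩
      have hw2 : w ^ 2 = a := by rw [hw]; exact Real.sq_sqrt ha0.le
      have hw0 : 0 < w := by rw [hw]; exact Real.sqrt_pos.2 ha0
      have hBw : B ≤ w := by rw [hB, hw]; exact Real.sqrt_le_sqrt ha.1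
      have hwC : w ≤ C := by rw [hC, hw]; exact Real.sqrt_le_sqrt ha.2
      rw [← hw]
      have e : 1 - ((P * (B * C) / (B + C) + P / (B + C) * a) / (P * w)) ^ 2 =
          ((c - a) * (a - b)) / (w * (B + C)) ^ 2 := by
        rw [← hw2, ← hC2, ← hB2]
        field_simp
        ring
      rw [e, Real.sqrt_div (mul_nonneg (sub_nonneg.2 ha.2) (sub_nonneg.2 ha.1)),
        Real.sqrt_sq (by positivity)]
      apply div_le_div_of_nonneg_left (Real.sqrt_nonneg _) (by positivity)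
      exact mul_le_mul_of_nonneg_right hwC hS.le
    have hcontI : ContinuousOn I2 (Set.Icc b c) := by
      unfold I2
      fun_prop
    have hcont : ContinuousOn (fun a => Real.sqrt (1 -
        ((P * (B * C) / (B + C) + P / (B + C) * a) / I2 a) ^ 2)) (Set.Icc b c) := by
      apply ContinuousOn.sqrt
      apply ContinuousOn.sub continuousOn_const
      apply ContinuousOn.pow
      apply ContinuousOn.div (by fun_prop) hcontI
      intro a ha
      have ha0 : 0 < a := by linarith [ha.1]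
      rw [n1_I2_eq_sqrt ha0.le (ha.2.trans hc1)]
      exact (Real.sqrt_pos.2 (by positivity)).ne'
    have hcal : Real.pi * (c - b) ^ 2 / 8 / (C * (B + C)) ≤
        cal I2 (P * (B * C) / (B + C)) (P / (B + C)) b c := by
      rw [← n1_int hbc.le, ← intervalIntegral.integral_div]
      unfold cal
      apply intervalIntegral.integral_mono_on hbc.le
      · apply ContinuousOn.intervalIntegrable
        fun_prop
      · apply ContinuousOn.intervalIntegrable
        rw [uIcc_of_le hbc.le]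
        exact hcont
      · exact hint
    have h1 : Real.sqrt (Real.pi * V) = P * v := by
      rw [Real.sqrt_mul Real.pi_pos.le, ← hP, ← hv]
    have h2 : P * v - (P * (B * C) / (B + C) + P / (B + C) * V) ≤
        P * (C - B) ^ 2 / (4 * (B + C)) := by
      rw [← hv2]
      have : P * v - (P * (B * C) / (B + C) + P / (B + C) * v ^ 2) =
          P * ((C - v) * (v - B)) / (B + C) := by
        field_simp
        ring
      rw [this, div_le_div_iff₀ hS (by positivity)]
      have h5 : 4 * ((C - v) * (v - B)) ≤ (C - B) ^ 2 := by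
        nlinarith [sq_nonneg (C + B - 2 * v)]
      nlinarith [mul_le_mul_of_nonneg_left h5 (mul_pos hP0 hS).le]
    have h3 : P * (C - B) ^ 2 / (4 * (B + C)) ≤ Real.pi * (c - b) ^ 2 / 8 / (C * (B + C)) := by
      rw [← hP2, ← hC2, ← hB2, div_div, div_le_div_iff₀ (by positivity) (by positivity)]
      have h6 : 2 * C ≤ P * (B + C) ^ 2 := by
        have h7 : 1.812 * C ≤ B + C := by linarith
        have h8 : (1.812 * C) ^ 2 ≤ (B + C) ^ 2 := pow_le_pow_left₀ (by positivity) h7 2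
        have h9 : 1.772 * (1.812 * C) ^ 2 ≤ P * (B + C) ^ 2 :=
          mul_le_mul hPl h8 (by positivity) hP0.le
        have h11 : 0.346 * C ≤ C * C := mul_le_mul_of_nonneg_right hCl hC0.le
        have h12 : 1.772 * (1.812 * C) ^ 2 = 5.818085568 * (C * C) := by ring
        rw [h12] at h9
        linarith
      have h10 : 0 ≤ P * (C - B) ^ 2 * (B + C) := by positivity
      have h13 : P ^ 2 * (C ^ 2 - B ^ 2) ^ 2 * (4 * (B + C)) -
          P * (C - B) ^ 2 * (8 * (C * (B + C))) =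
          4 * (P * (C - B) ^ 2 * (B + C) * (P * (B + C) ^ 2 - 2 * C)) := by ring
      have h14 := mul_nonneg h10 (sub_nonneg.2 h6)
      linarith
    rw [h1]
    linarith

end Vale.Agent.P232
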