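import Vale.Agent.P232.Defs

/-!
# P232, module N3: one end on the plateau (helper75)
-/

open MeasureTheory Set

namespace Vale.Agent.P232

theorem n3_int {p d : ℝ} (h : p ≤ d) :
    ∫ a in p..d, Real.sqrt (d - a) = 2 / 3 * ((d - p) * Real.sqrt (d - p)) := by
  rw [intervalIntegral.integral_comp_sub_left (fun x => Real.sqrt x) d, sub_self]
  simp only [Real.sqrt_eq_rpow]
  rw [integral_rpow (Or.inl (by norm_num))]
  have h0 : 0 ≤ d - p := by linarith
  rw [Real.zero_rpow (by norm_num), Real.rpow_add' h0 (by norm_num), Real.rpow_one]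
  ring

theorem n3_sqrt_chord {X Y x y t : ℝ} (ht : 0 ≤ t) (ht1 : t ≤ 1) (hX : X ≤ Real.sqrt x)
    (hY : Y ≤ Real.sqrt y) (hx : 0 ≤ x) (hy : 0 ≤ y) :
    (1 - t) * X + t * Y ≤ Real.sqrt ((1 - t) * x + t * y) := by
  have h1 : (1 - t) * X + t * Y ≤ (1 - t) * Real.sqrt x + t * Real.sqrt y := by
    have := mul_le_mul_of_nonneg_left hX (sub_nonneg.2 ht1)
    have := mul_le_mul_of_nonneg_left hY ht
    linarith
  refine h1.trans ?_
  apply Real.le_sqrt_of_sq_le
  have ex := Real.sq_sqrt hx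
  have ey := Real.sq_sqrt hy
  have : (1 - t) * x + t * y - ((1 - t) * Real.sqrt x + t * Real.sqrt y) ^ 2 =
      t * (1 - t) * (Real.sqrt x - Real.sqrt y) ^ 2 := by
    nth_rewrite 1 [← ex]
    nth_rewrite 1 [← ey]
    ring
  have h3 : 0 ≤ t * (1 - t) * (Real.sqrt x - Real.sqrt y) ^ 2 :=
    mul_nonneg (mul_nonneg ht (sub_nonneg.2 ht1)) (sq_nonneg _)
  linarith

/-- the chord of `I2` lies below `I2` -/
theorem n3_chord {b c : ℝ} (hb : 0 ≤ b) (hc : c ≤ 1) (hbc : b < c) {a : ℝ}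
    (ha : a ∈ Set.Icc b c) :
    I2 b + (I2 c - I2 b) / (c - b) * (a - b) ≤ I2 a := by
  obtain ⟨t, ht⟩ : ∃ t, t = (a - b) / (c - b) := ⟨_, rfl⟩
  have hcb : 0 < c - b := by linarith
  have ht0 : 0 ≤ t := by rw [ht]; exact div_nonneg (by linarith [ha.1]) hcb.le
  have ht1 : t ≤ 1 := by
    rw [ht, div_le_one hcb]
    linarith [ha.2]
  have ha' : a = (1 - t) * b + t * c := by
    rw [ht]
    field_simp
    ring
  have e : I2 b + (I2 c - I2 b) / (c - b) * (a - b) = (1 - t) * I2 b + t * I2 c := by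
    rw [ht]
    field_simp
    ring
  rw [e]
  have p0 := Real.pi_pos.le
  have b1 : I2 b ≤ Real.sqrt (Real.pi * b) := (min_le_left _ _).trans (min_le_left _ _)
  have b2 : I2 b ≤ 1 := (min_le_left _ _).trans (min_le_right _ _)
  have b3 : I2 b ≤ Real.sqrt (Real.pi * (1 - b)) := min_le_right _ _
  have c1 : I2 c ≤ Real.sqrt (Real.pi * c) := (min_le_left _ _).trans (min_le_left _ _)
  have c2 : I2 c ≤ 1 := (min_le_left _ _).trans (min_le_right _ _)
  have c3 : I2 c ≤ Real.sqrt (Real.pi * (1 - c)) := min_le_right _ _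
  have g : I2 a = min (min (Real.sqrt (Real.pi * a)) 1) (Real.sqrt (Real.pi * (1 - a))) := rfl
  rw [g]
  refine le_min (le_min ?_ ?_) ?_
  · have h := n3_sqrt_chord ht0 ht1 b1 c1 (mul_nonneg p0 hb) (mul_nonneg p0 (by linarith))
    have e2 : (1 - t) * (Real.pi * b) + t * (Real.pi * c) = Real.pi * a := by rw [ha']; ring
    rwa [e2] at h
  · have := mul_le_mul_of_nonneg_left b2 (sub_nonneg.2 ht1)
    have := mul_le_mul_of_nonneg_left c2 ht0
    linarith
  · have h := n3_sqrt_chord ht0 ht1 b3 c3 (mul_nonneg p0 (by linarith))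
      (mul_nonneg p0 (by linarith))
    have e2 : (1 - t) * (Real.pi * (1 - b)) + t * (Real.pi * (1 - c)) = Real.pi * (1 - a) := by
      rw [ha']; ring
    rwa [e2] at h

theorem n3_I2_one {a : ℝ} (h1 : 1 / Real.pi ≤ a) (h2 : a ≤ 1 - 1 / Real.pi) : I2 a = 1 := by
  have hp := Real.pi_pos
  have e1 : 1 ≤ Real.sqrt (Real.pi * a) := by
    rw [Real.one_le_sqrt]
    rw [div_le_iff₀ hp] at h1
    linarith
  have e2 : 1 ≤ Real.sqrt (Real.pi * (1 - a)) := by
    rw [Real.one_le_sqrt]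
    have h3 : 1 / Real.pi ≤ 1 - a := by linarith
    rw [div_le_iff₀ hp] at h3
    linarith
  unfold I2
  rw [min_eq_right e1, min_eq_left e2]

theorem n3_I2_cont : Continuous I2 := by
  unfold I2
  fun_prop

theorem n3_cal_nonneg {α κ b c : ℝ} (h : b ≤ c) : 0 ≤ cal I2 α κ b c :=
  intervalIntegral.integral_nonneg h fun _ _ => Real.sqrt_nonneg _

theorem n3_a {l : ℝ} (h : 0.98 ≤ l) (h5 : 0 ≤ 1 - l) : 1.98 * (1 - l) ≤ 1 - l ^ 2 := by
  nlinarith [mul_nonneg h5 (sub_nonneg.2 h)]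

theorem n3_b (x : ℝ) : 0.189 * (x - 0.0416) ≤ 1.98 * (2 / 3) * x ^ 2 := by
  nlinarith [sq_nonneg (x - 0.0716)]

theorem n3_c {x w : ℝ} (hx : 0.363 ≤ x) (hw : 0.602 ≤ w) : 0.145 ≤ 2 / 3 * (x * w) := by
  have := mul_le_mul hx hw (by norm_num) (by linarith)
  linarith

theorem n3_d {t : ℝ} (h0 : 0 < t) (h1 : t ≤ 0.1342) : t ^ 2 ≤ 1.69 * t * 0.145 := by
  nlinarith

theorem n3_e {E c V w x : ℝ} (hE : 0 ≤ E) (h5 : E * (c - V) ≤ 1.98 * (2 / 3) * (x * w)) :
    E ^ 2 * (c - V) / 1.98 ≤ E * (2 / 3 * (x * w)) := by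
  have h6 := mul_le_mul_of_nonneg_left h5 hE
  rw [div_le_iff₀ (by norm_num)]
  have e1 : E ^ 2 * (c - V) = E * (E * (c - V)) := by ring
  have e2 : E * (2 / 3 * (x * w)) * 1.98 = E * (1.98 * (2 / 3) * (x * w)) := by ring
  rw [e1, e2]
  exact h6

theorem n3_f {E w x c b η t : ℝ} (hE2 : E ^ 2 = 1.98 * η / (c - b)) (hw : w ^ 2 = x)
    (hcb : 0 < c - b) (hη : 0 < η) (ht2 : t ^ 2 = η) (ht0 : 0 < t) (ht1 : t ≤ 0.1342)
    (hx : x ≤ c - b) : E * w ≤ 0.189 := by
  have : (E * w) ^ 2 ≤ 0.189 ^ 2 := by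
    rw [mul_pow, hE2, hw]
    have h3 : 1.98 * η / (c - b) * x ≤ 1.98 * η := by
      rw [div_mul_eq_mul_div, div_le_iff₀ hcb]
      exact mul_le_mul_of_nonneg_left hx (by positivity)
    refine h3.trans ?_
    rw [← ht2]
    nlinarith
  exact le_of_sq_le_sq this (by norm_num)

theorem n3_g {E c b η t : ℝ} (hE0 : 0 ≤ E) (hE2 : E ^ 2 = 1.98 * η / (c - b))
    (hcb : 0 < c - b) (hcb1 : c - b ≤ 0.693) (hη : 0 < η) (ht2 : t ^ 2 = η) :
    1.69 * t ≤ E := by
  have : (1.69 * t) ^ 2 ≤ E ^ 2 := by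
    rw [mul_pow, ht2, hE2, le_div_iff₀ hcb]
    nlinarith
  exact le_of_sq_le_sq this hE0

theorem slab_plateau {V b c : ℝ} (hV : V ∈ Set.Icc (0.36 : ℝ) 0.64) (hb : 0.307 ≤ b)
    (hbV : b ≤ V) (hVc : V ≤ c) (hc1 : c ≤ 1) (hs : I2 b ≤ I2 c) :
    ∃ α κ : ℝ, (∀ a ∈ Set.Icc b c, 0 ≤ α + κ * a) ∧ (∀ a ∈ Set.Icc b c, α + κ * a ≤ I2 a) ∧
      1 ≤ α + κ * V + cal I2 α κ b c := by
  have hp := Real.pi_pos
  have hp3 := Real.pi_gt_d4
  have hp4 := Real.pi_lt_d4
  have ip1 : 1 / Real.pi ≤ 0.31834 := by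
    rw [div_le_iff₀ hp]
    linarith
  have ip2 : 0.3183 ≤ 1 / Real.pi := by
    rw [le_div_iff₀ hp]
    linarith
  have hI1 : ∀ a, I2 a ≤ 1 := fun a => (min_le_left _ _).trans (min_le_right _ _)
  by_cases hbp : 1 / Real.pi ≤ b
  · -- the constant function
    have hb1 : I2 b = 1 := n3_I2_one hbp (by linarith [hV.2])
    have hc1' : I2 c = 1 := le_antisymm (hI1 c) (hb1 ▸ hs)
    refine ⟨1, 0, fun a _ => by norm_num, ?_, ?_⟩
    · intro a ha
      rcases (hbV.trans hVc).eq_or_lt with h | h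
      · have : a = b := le_antisymm (h ▸ ha.2) ha.1
        rw [this, hb1]
        norm_num
      · have := n3_chord (by linarith) hc1 h ha
        rw [hb1, hc1'] at this
        simpa using this
    · have := n3_cal_nonneg (α := 1) (κ := 0) (hbV.trans hVc)
      linarith
  have hbp' := not_le.1 hbp
  obtain ⟨η, hη⟩ : ∃ η, η = 1 - Real.sqrt (Real.pi * b) := ⟨_, rfl⟩
  have hπb : Real.pi * b < 1 := by
    rw [lt_div_iff₀ hp] at hbp'
    linarith
  have hη0 : 0 < η := by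
    rw [hη]
    have : Real.sqrt (Real.pi * b) < 1 := by
      rw [Real.sqrt_lt' one_pos]
      linarith
    linarith
  have hη1 : η ≤ 0.018 := by
    rw [hη]
    have : 0.982 ≤ Real.sqrt (Real.pi * b) := by
      apply Real.le_sqrt_of_sq_le
      nlinarith
    linarith
  obtain ⟨t, ht⟩ : ∃ t, t = Real.sqrt η := ⟨_, rfl⟩
  have ht2 : t ^ 2 = η := by rw [ht]; exact Real.sq_sqrt hη0.le
  have ht0 : 0 < t := by rw [ht]; exact Real.sqrt_pos.2 hη0
  have ht1 : t ≤ 0.1342 := by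
    rw [ht]
    apply Real.sqrt_le_iff.2
    constructor
    · norm_num
    · norm_num
      linarith
  have hIb : I2 b = 1 - η := by
    have h1 : Real.sqrt (Real.pi * b) ≤ 1 := by rw [hη] at hη0; linarith
    have h2 : Real.sqrt (Real.pi * b) ≤ Real.sqrt (Real.pi * (1 - b)) := by
      apply Real.sqrt_le_sqrt
      nlinarith
    unfold I2
    rw [min_eq_left h1, min_eq_left h2, hη]
    ring
  have hbc : b < c := by linarith [hV.1]
  have hcb : 0 < c - b := by linarith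
  obtain ⟨γ, hγ⟩ : ∃ γ, γ = I2 c := ⟨_, rfl⟩
  have hγ1 : γ ≤ 1 := hγ ▸ hI1 c
  have hγ0 : 1 - η ≤ γ := by rw [hγ, ← hIb]; exact hs
  obtain ⟨κ, hκ⟩ : ∃ κ, κ = (γ - (1 - η)) / (c - b) := ⟨_, rfl⟩
  have hκ0 : 0 ≤ κ := by rw [hκ]; exact div_nonneg (by linarith) hcb.le
  have hκc : κ * (c - b) = γ - (1 - η) := by rw [hκ]; field_simp
  -- bounds of the chord
  have hl1 : ∀ a ∈ Set.Icc b c, 1 - η ≤ 1 - η - κ * b + κ * a := by
    intro a ha
    have := mul_le_mul_of_nonneg_left ha.1 hκ0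
    linarith
  have hl2 : ∀ a ∈ Set.Icc b c, η * (c - a) / (c - b) ≤ 1 - (1 - η - κ * b + κ * a) := by
    intro a ha
    rw [div_le_iff₀ hcb]
    have h1 : (1 - (1 - η - κ * b + κ * a)) * (c - b) =
        η * (c - b) - (κ * (c - b)) * (a - b) := by ring
    rw [h1, hκc]
    have h2 : (γ - (1 - η)) * (a - b) ≤ η * (a - b) :=
      mul_le_mul_of_nonneg_right (by linarith) (by linarith [ha.1])
    have h3 : η * (c - a) = η * (c - b) - η * (a - b) := by ring
    linarith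
  refine ⟨1 - η - κ * b, κ, fun a ha => by linarith [hl1 a ha], ?_, ?_⟩
  · intro a ha
    have := n3_chord (by linarith) hc1 hbc ha
    rw [hIb, ← hγ, ← hκ] at this
    linarith
  obtain ⟨d, hd⟩ : ∃ d, d = min c (1 - 1 / Real.pi) := ⟨_, rfl⟩
  have hdc : d ≤ c := hd ▸ min_le_left _ _
  have hdp : d ≤ 1 - 1 / Real.pi := hd ▸ min_le_right _ _
  have hpd : 1 / Real.pi + 0.04 ≤ d := by
    rw [hd]
    refine le_min ?_ ?_
    · linarith [hV.1]
    · linarith
  obtain ⟨x, hx⟩ : ∃ x, x = d - 1 / Real.pi := ⟨_, rfl⟩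
  have hx0 : 0.04 ≤ x := by linarith
  obtain ⟨E, hE⟩ : ∃ E, E = Real.sqrt (1.98 * η / (c - b)) := ⟨_, rfl⟩
  have hE2 : E ^ 2 = 1.98 * η / (c - b) := by rw [hE]; exact Real.sq_sqrt (by positivity)
  have hE0 : 0 < E := by rw [hE]; exact Real.sqrt_pos.2 (by positivity)
  have hf0 : ∀ a, 0 ≤ Real.sqrt (1 - ((1 - η - κ * b + κ * a) / I2 a) ^ 2) :=
    fun a => Real.sqrt_nonneg _
  have hIpos : ∀ a ∈ Set.Icc b c, a < 1 ∨ a = 1 := fun a ha => (ha.2.trans hc1).lt_or_eq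
  have hint : IntervalIntegrable (fun a => Real.sqrt (1 -
      ((1 - η - κ * b + κ * a) / I2 a) ^ 2)) volume b c := by
    have hpos : ∀ a ∈ Set.Icc b c, 0 < I2 a := by
      intro a ha
      have := n3_chord (by linarith) hc1 hbc ha
      rw [hIb, ← hγ, ← hκ] at this
      have h2 := hl1 a ha
      linarith
    apply ContinuousOn.intervalIntegrable
    rw [uIcc_of_le hbc.le]
    apply ContinuousOn.sqrt
    apply ContinuousOn.sub continuousOn_const
    apply ContinuousOn.pow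
    exact ContinuousOn.div (by fun_prop) n3_I2_cont.continuousOn fun a ha => (hpos a ha).ne'
  have hcal : E * (2 / 3 * (x * Real.sqrt x)) ≤ cal I2 (1 - η - κ * b) κ b c := by
    unfold cal
    have h1 : ∫ a in (1 / Real.pi)..d, Real.sqrt (1 - ((1 - η - κ * b + κ * a) / I2 a) ^ 2) ≤
        ∫ a in b..c, Real.sqrt (1 - ((1 - η - κ * b + κ * a) / I2 a) ^ 2) := by
      apply intervalIntegral.integral_mono_interval hbp'.le (by linarith) hdc
      · exact Filter.Eventually.of_forall fun a => hf0 a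
      · exact hint
    refine le_trans ?_ h1
    rw [hx, ← n3_int (by linarith), ← intervalIntegral.integral_const_mul]
    apply intervalIntegral.integral_mono_on (by linarith)
    · apply Continuous.intervalIntegrable
      fun_prop
    · apply hint.mono_set
      rw [uIcc_of_le (by linarith), uIcc_of_le hbc.le]
      exact Icc_subset_Icc hbp'.le hdc
    · intro a ha
      have haI : a ∈ Set.Icc b c := ⟨hbp'.le.trans ha.1, ha.2.trans hdc⟩
      rw [n3_I2_one ha.1 (ha.2.trans hdp), div_one, hE, ← Real.sqrt_mul (by positivity)]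
      apply Real.sqrt_le_sqrt
      have h2 := hl1 a haI
      have h3 := hl2 a haI
      obtain ⟨l, hl⟩ : ∃ l, l = 1 - η - κ * b + κ * a := ⟨_, rfl⟩
      rw [← hl] at h2 h3 ⊢
      have h4 : 1.98 * η / (c - b) * (d - a) ≤ 1.98 * (η * (c - a) / (c - b)) := by
        have : 1.98 * η / (c - b) * (d - a) = 1.98 * (η * (d - a) / (c - b)) := by ring
        rw [this]
        gcongr
      have h5 : 0 ≤ 1 - l := by
        refine le_trans ?_ h3
        exact div_nonneg (mul_nonneg hη0.le (by linarith [haI.2])) hcb.le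
      have h6 : 1.98 * (1 - l) ≤ 1 - l ^ 2 := n3_a (by linarith) h5
      linarith
  have hxs0 : 0 < Real.sqrt x := Real.sqrt_pos.2 (by linarith)
  have hxs2 : Real.sqrt x ^ 2 = x := Real.sq_sqrt (by linarith)
  obtain ⟨w, hw⟩ : ∃ w, w = Real.sqrt x := ⟨_, rfl⟩
  rw [← hw] at hcal hxs0 hxs2
  refine le_trans ?_ (add_le_add_right hcal _)
  rcases le_total c (1 - 1 / Real.pi) with hcase | hcase
  · -- `d = c`
    have hdc' : d = c := by rw [hd, min_eq_left hcase]
    have hγ' : γ = 1 := by rw [hγ]; exact n3_I2_one (by linarith [hV.1]) hcase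
    have h1 : 1 - (1 - η - κ * b + κ * V) = E ^ 2 * (c - V) / 1.98 := by
      rw [hE2, hκ, hγ']
      field_simp
      ring
    have h2 : E * w ≤ 0.189 :=
      n3_f hE2 hxs2 hcb hη0 ht2 ht0 ht1 (by linarith)
    have h3 : c - V ≤ x - 0.0416 := by linarith [hV.1]
    have h4 : E * w * (c - V) ≤ 1.98 * (2 / 3) * x ^ 2 := by
      have h5 : E * w * (c - V) ≤ 0.189 * (c - V) :=
        mul_le_mul_of_nonneg_right h2 (by linarith)
      have h6 := n3_b x
      have h7 : 0.189 * (c - V) ≤ 0.189 * (x - 0.0416) :=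
        mul_le_mul_of_nonneg_left h3 (by norm_num)
      linarith
    have h5 : E * (c - V) ≤ 1.98 * (2 / 3) * (x * w) := by
      have h6 : E * (c - V) * w ≤ 1.98 * (2 / 3) * (x * w) * w := by
        have e1 : 1.98 * (2 / 3) * (x * w) * w = 1.98 * (2 / 3) * x ^ 2 := by
          have : (x * w) * w = x ^ 2 := by rw [mul_assoc, ← sq, hxs2, sq]
          rw [mul_assoc, this]
        rw [e1]
        linarith
      exact le_of_mul_le_mul_right h6 hxs0
    have h7 := n3_e hE0.le h5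
    linarith
  · -- `d = 1 - 1/π`
    have hdc' : d = 1 - 1 / Real.pi := by rw [hd, min_eq_right hcase]
    have h1 := hl1 V ⟨hbV, hVc⟩
    have hx1 : 0.363 ≤ x := by linarith
    have hw1 : 0.602 ≤ w := by
      rw [hw]
      apply Real.le_sqrt_of_sq_le
      norm_num
      linarith
    have hE1 : 1.69 * t ≤ E := n3_g hE0.le hE2 hcb (by linarith) hη0 ht2
    have h2 : 0.145 ≤ 2 / 3 * (x * w) := n3_c hx1 hw1
    have h3 : 1.69 * t * 0.145 ≤ E * (2 / 3 * (x * w)) :=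
      mul_le_mul hE1 h2 (by norm_num) hE0.le
    have h4 : η ≤ 1.69 * t * 0.145 := by
      rw [← ht2]
      exact n3_d ht0 ht1
    linarith

end Vale.Agent.P232
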