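import Vale.Agent.P232.Defs

/-!
# P232, module N4: the one-dimensional inequality `ball_small`

The test line is the chord of `a ↦ √(π a)` over `[b, c]`.
-/

open MeasureTheory Set

namespace Vale.Agent.P232

/-- the calibration integrand of the chord -/
theorem N4_ident {w v a : ℝ} (hw : 0 ≤ w) (hv : 0 < v) (ha : 0 < a) :
    1 - ((Real.sqrt Real.pi * (w * v) / (w + v) + Real.sqrt Real.pi / (w + v) * a) /
      Real.sqrt (Real.pi * a)) ^ 2 = (a - w ^ 2) * (v ^ 2 - a) / ((w + v) ^ 2 * a) := by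
  have hp : 0 < Real.sqrt Real.pi := Real.sqrt_pos.mpr Real.pi_pos
  have hu : 0 < Real.sqrt a := Real.sqrt_pos.mpr ha
  have hua : Real.sqrt a ^ 2 = a := Real.sq_sqrt ha.le
  have hwv : 0 < w + v := by linarith
  rw [Real.sqrt_mul Real.pi_pos.le]
  generalize Real.sqrt Real.pi = p at *
  generalize Real.sqrt a = u at *
  subst hua
  field_simp
  ring

/-- pointwise lower bound for the calibration integrand -/
theorem N4_point {w v a : ℝ} (hw : 0 ≤ w) (hv : 0 < v) (ha : 0 < a) (h1 : w ^ 2 ≤ a)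
    (h2 : a ≤ v ^ 2) :
    (Real.sqrt (v ^ 2 - a) - (w ^ 2 * v) * a⁻¹ + w ^ 2 / (2 * v)) / (w + v) ≤
      Real.sqrt (1 - ((Real.sqrt Real.pi * (w * v) / (w + v) + Real.sqrt Real.pi / (w + v) * a) /
      Real.sqrt (Real.pi * a)) ^ 2) := by
  rw [N4_ident hw hv ha]
  have hwv : 0 < w + v := by linarith
  set s := Real.sqrt (v ^ 2 - a) with hs
  have hs0 : 0 ≤ s := Real.sqrt_nonneg _
  have hs2 : s ^ 2 = v ^ 2 - a := Real.sq_sqrt (by linarith)
  have hsv : s ≤ v - a / (2 * v) := by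
    rw [hs]
    apply Real.sqrt_le_iff.mpr
    constructor
    · rw [sub_nonneg, div_le_iff₀ (by positivity)]
      nlinarith
    · have : (v - a / (2 * v)) ^ 2 = v ^ 2 - a + (a / (2 * v)) ^ 2 := by
        field_simp
        ring
      rw [this]
      nlinarith [sq_nonneg (a / (2 * v))]
  have hy0 : 0 ≤ w ^ 2 * a⁻¹ := by positivity
  have hy1 : w ^ 2 * a⁻¹ ≤ 1 := by
    rw [← div_eq_mul_inv, div_le_one ha]
    exact h1
  have h3 : (s - (w ^ 2 * v) * a⁻¹ + w ^ 2 / (2 * v)) / (w + v) ≤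
      s * (1 - w ^ 2 * a⁻¹) / (w + v) := by
    apply div_le_div_of_nonneg_right _ hwv.le
    have h4 : w ^ 2 * a⁻¹ * s ≤ w ^ 2 * a⁻¹ * (v - a / (2 * v)) :=
      mul_le_mul_of_nonneg_left hsv hy0
    have h5 : w ^ 2 * a⁻¹ * (v - a / (2 * v)) = w ^ 2 * v * a⁻¹ - w ^ 2 / (2 * v) := by
      field_simp
    linarith
  refine h3.trans ?_
  apply Real.le_sqrt_of_sq_le
  have h6 : (a - w ^ 2) * (v ^ 2 - a) / ((w + v) ^ 2 * a) =
      s ^ 2 * (1 - w ^ 2 * a⁻¹) / (w + v) ^ 2 := by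
    rw [hs2]
    field_simp
  rw [h6, div_pow, mul_pow]
  apply div_le_div_of_nonneg_right _ (by positivity)
  apply mul_le_mul_of_nonneg_left _ (sq_nonneg s)
  nlinarith

/-- the integral of the square root -/
theorem N4_sqrt_int {b c : ℝ} (hbc : b ≤ c) :
    ∫ a in b..c, Real.sqrt (c - a) = 2 / 3 * (Real.sqrt (c - b)) ^ 3 := by
  rw [intervalIntegral.integral_comp_sub_left (fun x => Real.sqrt x) c]
  simp only [Real.sqrt_eq_rpow, sub_self]
  rw [integral_rpow (Or.inl (by norm_num))]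
  rw [← Real.rpow_natCast ((c - b) ^ (1 / 2 : ℝ)), ← Real.rpow_mul (by linarith)]
  rw [Real.zero_rpow (by norm_num)]
  norm_num
  ring

/-- the logarithm bound -/
theorem N4_log {z : ℝ} (hz : 0 < z) : Real.log z ≤ 0.13535 * z + 1 := by
  have h1 := Real.log_le_sub_one_of_pos (mul_pos hz (Real.exp_pos (-2)))
  rw [Real.log_mul hz.ne' (Real.exp_pos _).ne', Real.log_exp] at h1
  have h2 : Real.exp (-2) ≤ 0.13535 := by
    have h3 : Real.exp 2 = Real.exp 1 ^ 2 := by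
      rw [← Real.exp_nat_mul]
      norm_num
    have h4 := Real.exp_one_gt_d9
    rw [Real.exp_neg, h3]
    have h5 : (7.389 : ℝ) ≤ Real.exp 1 ^ 2 := by nlinarith
    calc (Real.exp 1 ^ 2)⁻¹ ≤ (7.389 : ℝ)⁻¹ := inv_anti₀ (by norm_num) h5
      _ ≤ 0.13535 := by norm_num
  nlinarith

/-- integrability of the calibration integrand -/
theorem N4_cal_int (α κ b c : ℝ) :
    IntervalIntegrable (fun a => Real.sqrt (1 - ((α + κ * a) / Real.sqrt (Real.pi * a)) ^ 2))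
      volume b c := by
  refine IntervalIntegrable.mono_fun' (intervalIntegrable_const (c := (1 : ℝ))) ?_ ?_
  · apply Measurable.aestronglyMeasurable
    fun_prop
  · refine Filter.Eventually.of_forall fun a => ?_
    simp only [Real.norm_eq_abs]
    rw [abs_of_nonneg (Real.sqrt_nonneg _)]
    apply Real.sqrt_le_one.mpr
    nlinarith [sq_nonneg ((α + κ * a) / Real.sqrt (Real.pi * a))]

/-- lower bound for the calibration integral -/
theorem N4_cal {w v : ℝ} (hw : 0 ≤ w) (hv : 0 < v) (hwv : w ≤ v) :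
    (2 / 3 * v ^ 3 - 5 / 2 * (v * w ^ 2) - 0.2707 * (w * v ^ 2) - w ^ 4 / (2 * v)) / (w + v) ≤
      cal (fun a => Real.sqrt (Real.pi * a)) (Real.sqrt Real.pi * (w * v) / (w + v))
        (Real.sqrt Real.pi / (w + v)) (w ^ 2) (v ^ 2) := by
  have hle : w ^ 2 ≤ v ^ 2 := by nlinarith
  have hws : 0 < w + v := by linarith
  unfold cal
  have hsq_int : IntervalIntegrable (fun a => Real.sqrt (v ^ 2 - a)) volume (w ^ 2) (v ^ 2) := by
    apply Continuous.intervalIntegrable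
    fun_prop
  rcases hw.eq_or_lt with h0 | hw0
  · subst h0
    have h1 : ∫ a in ((0 : ℝ) ^ 2)..(v ^ 2), Real.sqrt (v ^ 2 - a) / (0 + v) ≤
        ∫ a in ((0 : ℝ) ^ 2)..(v ^ 2), Real.sqrt (1 - ((Real.sqrt Real.pi * (0 * v) / (0 + v) +
          Real.sqrt Real.pi / (0 + v) * a) / Real.sqrt (Real.pi * a)) ^ 2) := by
      refine intervalIntegral.integral_mono_on_of_le_Ioo hle (hsq_int.div_const _)
        (N4_cal_int _ _ _ _) ?_
      intro a ha
      have ha0 : 0 < a := by have := ha.1; simpa using this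
      have := N4_point le_rfl hv ha0 (by simpa using ha0.le) ha.2.le
      simpa using this
    refine le_trans ?_ h1
    rw [intervalIntegral.integral_div, N4_sqrt_int hle]
    apply div_le_div_of_nonneg_right _ hws.le
    have : Real.sqrt (v ^ 2 - 0 ^ 2) = v := by
      rw [zero_pow two_ne_zero, sub_zero, Real.sqrt_sq hv.le]
    rw [this]
    norm_num
  · have hinv : IntervalIntegrable (fun a : ℝ => a⁻¹) volume (w ^ 2) (v ^ 2) := by
      apply intervalIntegral.intervalIntegrable_inv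
      · intro x hx
        rw [uIcc_of_le hle] at hx
        have : 0 < w ^ 2 := by positivity
        linarith [hx.1]
      · exact continuousOn_id
    have h1 : ∫ a in (w ^ 2)..(v ^ 2), (Real.sqrt (v ^ 2 - a) - (w ^ 2 * v) * a⁻¹ +
          w ^ 2 / (2 * v)) / (w + v) ≤
        ∫ a in (w ^ 2)..(v ^ 2), Real.sqrt (1 - ((Real.sqrt Real.pi * (w * v) / (w + v) +
          Real.sqrt Real.pi / (w + v) * a) / Real.sqrt (Real.pi * a)) ^ 2) := by
      refine intervalIntegral.integral_mono_on_of_le_Ioo hle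
        (((hsq_int.sub (hinv.const_mul _)).add intervalIntegrable_const).div_const _)
        (N4_cal_int _ _ _ _) ?_
      intro a ha
      have ha0 : 0 < a := lt_of_le_of_lt (sq_nonneg w) ha.1
      exact N4_point hw hv ha0 ha.1.le ha.2.le
    refine le_trans ?_ h1
    rw [intervalIntegral.integral_div, intervalIntegral.integral_add
      (hsq_int.sub (hinv.const_mul _)) intervalIntegrable_const,
      intervalIntegral.integral_sub hsq_int (hinv.const_mul _), N4_sqrt_int hle,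
      intervalIntegral.integral_const_mul, integral_inv_of_pos (by positivity) (by positivity),
      intervalIntegral.integral_const, smul_eq_mul]
    apply div_le_div_of_nonneg_right _ hws.le
    have hlog : Real.log (v ^ 2 / w ^ 2) = 2 * Real.log (v / w) := by
      rw [← div_pow, Real.log_pow]
      norm_num
    have hlog2 := N4_log (div_pos hv hw0)
    have hlog3 : w ^ 2 * v * Real.log (v ^ 2 / w ^ 2) ≤ 0.2707 * (w * v ^ 2) + 2 * (v * w ^ 2) := by
      rw [hlog]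
      calc w ^ 2 * v * (2 * Real.log (v / w)) ≤ w ^ 2 * v * (2 * (0.13535 * (v / w) + 1)) := by
            apply mul_le_mul_of_nonneg_left _ (by positivity)
            linarith
        _ = 0.2707 * (w * v ^ 2) + 2 * (v * w ^ 2) := by
            field_simp
            ring
    set s := Real.sqrt (v ^ 2 - w ^ 2) with hs
    have hs0 : 0 ≤ s := Real.sqrt_nonneg _
    have hs2 : s ^ 2 = v ^ 2 - w ^ 2 := Real.sq_sqrt (by linarith)
    have hsv : s ≤ v := by nlinarith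
    have hw2 : w ^ 2 = v ^ 2 - s ^ 2 := by linarith
    have hcube : v ^ 3 - 3 / 2 * (v * w ^ 2) ≤ s ^ 3 := by
      rw [hw2]
      nlinarith [mul_nonneg (mul_nonneg (sub_nonneg.mpr hsv) (sub_nonneg.mpr hsv)) hs0,
        mul_nonneg (mul_nonneg (sub_nonneg.mpr hsv) (sub_nonneg.mpr hsv)) hv.le]
    have h5 : (v ^ 2 - w ^ 2) * (w ^ 2 / (2 * v)) = v * w ^ 2 / 2 - w ^ 4 / (2 * v) := by
      field_simp
    rw [h5]
    linarith

/-- the polynomial inequality at the extreme parameter, ball range -/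
theorem N4_poly_ball {m v : ℝ} (hm : 0.542 ≤ m) (hm' : m ≤ 0.597) (hv : 0.34 ≤ v) :
    0 ≤ 2 / 3 * (v - m) ^ 2 * (v + 2 * m) +
      0.07072 * (1.45267 * v - 0.2707 * v ^ 2 - 2 * m ^ 2 - 0.0101) := by
  obtain ⟨d, rfl⟩ : ∃ d, v = m + d := ⟨v - m, by ring⟩
  have hd : -0.257 ≤ d := by linarith
  have h0 : 0.0478 ≤ 1.45267 * m - 2.2707 * m ^ 2 - 0.0101 := by
    nlinarith [mul_nonneg (sub_nonneg.mpr hm) (sub_nonneg.mpr hm')]
  have hq : 0.89 * d ^ 2 ≤ d ^ 2 * (2 * m + 2 / 3 * d - 0.019144) := by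
    nlinarith [sq_nonneg d, mul_nonneg (sq_nonneg d) (sub_nonneg.mpr hd),
      mul_nonneg (sq_nonneg d) (sub_nonneg.mpr hm)]
  have hL0 : 0 ≤ 0.07072 * (1.45267 - 0.5414 * m) := by nlinarith
  have hL1 : 0.07072 * (1.45267 - 0.5414 * m) ≤ 0.082 := by nlinarith
  set L := 0.07072 * (1.45267 - 0.5414 * m) with hL
  have hL2 : L ^ 2 ≤ 0.006724 := by nlinarith
  have h1 : 0 ≤ 0.89 * (d + L / 1.78) ^ 2 := by positivity
  have h2 : 2 / 3 * (m + d - m) ^ 2 * (m + d + 2 * m) +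
      0.07072 * (1.45267 * (m + d) - 0.2707 * (m + d) ^ 2 - 2 * m ^ 2 - 0.0101) =
      0.07072 * (1.45267 * m - 2.2707 * m ^ 2 - 0.0101) + L * d +
      d ^ 2 * (2 * m + 2 / 3 * d - 0.07072 * 0.2707) := by
    rw [hL]
    ring
  rw [h2]
  nlinarith [sq_nonneg d]

/-- the polynomial inequalities at the extreme parameters, tube range -/
theorem N4_poly_tube0 {n v : ℝ} (hn : 0.4 ≤ n) (hnv : n ≤ v) :
    0 ≤ 2 / 3 * v ^ 3 - 1.7725 * (n * (v - n)) := by
  rcases le_total v 0.8 with hv | hv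
  · have h1 : n * (v - n) ≤ 0.4 * (v - 0.4) := by nlinarith
    have h2 : 0 ≤ 2 / 3 * v ^ 3 - 0.709 * v + 0.2836 := by
      have : 0 ≤ (v - 0.5954) ^ 2 * (v + 1.1908) := mul_nonneg (sq_nonneg _) (by linarith)
      nlinarith
    nlinarith
  · have h1 : n * (v - n) ≤ v ^ 2 / 4 := by nlinarith [sq_nonneg (v - 2 * n)]
    have h2 : 0.8 * v ^ 2 ≤ v ^ 3 := by nlinarith [sq_nonneg v, mul_nonneg (sq_nonneg v) (sub_nonneg.mpr hv)]
    nlinarith

theorem N4_poly_tube {n v : ℝ} (hn : 0.4 ≤ n) (hnv : n ≤ v) :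
    0 ≤ 2 / 3 * v ^ 3 - 1.7725 * (n * (v - n)) +
      0.07072 * (1.7724 * (v - n) - 0.31973 * v - 0.2707 * v ^ 2 - 0.0101) := by
  rcases le_total v 0.729 with hv | hv
  · have h1 : n * (v + 0.07072 - n) ≤ 0.4 * (v + 0.07072 - 0.4) := by nlinarith
    have h2 : 0 ≤ 2 / 3 * v ^ 3 - 0.0192 * v ^ 2 - 0.60628 * v + 0.2327 := by
      have : 0 ≤ (v - 0.56) ^ 2 * (v + 1.12) := mul_nonneg (sq_nonneg _) (by linarith)
      nlinarith [sq_nonneg (v - 0.56)]
    nlinarith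
  · have h1 : n * (v + 0.07072 - n) ≤ (v + 0.07072) ^ 2 / 4 := by
      nlinarith [sq_nonneg (v + 0.07072 - 2 * n)]
    have h2 : 0 ≤ 2 / 3 * v ^ 3 - 0.4625 * v ^ 2 + 0.03 * v - 0.005 := by
      nlinarith [sq_nonneg v, mul_nonneg (sq_nonneg v) (sub_nonneg.mpr hv)]
    nlinarith

/-- from the extreme parameter to all parameters -/
theorem N4_interp {F0 X v w : ℝ} (hv : 0 ≤ v) (hw : 0 ≤ w) (hw' : w ≤ 0.07072) (h0 : 0 ≤ F0)
    (h1 : 0 ≤ F0 + 0.07072 * (X - 0.31973 * v - 0.0101)) :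
    0 ≤ F0 + w * X - 4.521 * (v * w ^ 2) - 2 * w ^ 3 := by
  have h2 : 4.521 * (v * w ^ 2) ≤ w * (0.31973 * v) := by
    have : w * (v * w) ≤ w * (v * 0.07072) :=
      mul_le_mul_of_nonneg_left (mul_le_mul_of_nonneg_left hw' hv) hw
    nlinarith [mul_nonneg hw hv]
  have h3 : 2 * w ^ 3 ≤ w * 0.0101 := by
    have h4 : w ^ 2 ≤ 0.07072 ^ 2 := by nlinarith
    nlinarith [mul_le_mul_of_nonneg_left h4 hw]
  have h5 : 0 ≤ F0 + w * (X - 0.31973 * v - 0.0101) := by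
    set G := X - 0.31973 * v - 0.0101 with hG
    rcases le_total 0 G with hG0 | hG0
    · have := mul_nonneg hw hG0
      linarith
    · nlinarith
  nlinarith

theorem N4_sqrt_pi : 1.7724 ≤ Real.sqrt Real.pi ∧ Real.sqrt Real.pi ≤ 1.7725 := by
  constructor
  · apply Real.le_sqrt_of_sq_le
    have := Real.pi_gt_d4
    norm_num at this ⊢
    linarith
  · apply Real.sqrt_le_iff.mpr
    refine ⟨by norm_num, ?_⟩
    have := Real.pi_lt_d4
    norm_num at this ⊢
    linarith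

theorem N4_ball_val {V : ℝ} (hV : 0 ≤ V) : ∃ m : ℝ, 0 ≤ m ∧
    m ^ 3 = 3 / 4 * (Real.sqrt Real.pi * V) ∧
    (9 * Real.pi / 2) ^ (1 / 3 : ℝ) * V ^ (2 / 3 : ℝ) = 2 * m ^ 2 := by
  have hp := Real.sqrt_nonneg Real.pi
  have hX : 0 ≤ 3 / 4 * (Real.sqrt Real.pi * V) := by positivity
  have hm3 : ((3 / 4 * (Real.sqrt Real.pi * V)) ^ (1 / 3 : ℝ)) ^ 3 =
      3 / 4 * (Real.sqrt Real.pi * V) := by
    rw [← Real.rpow_natCast, ← Real.rpow_mul hX]
    norm_num
  refine ⟨(3 / 4 * (Real.sqrt Real.pi * V)) ^ (1 / 3 : ℝ), Real.rpow_nonneg hX _, hm3, ?_⟩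
  have h9 : 0 ≤ 9 * Real.pi / 2 := by positivity
  refine (pow_left_inj₀ (by positivity) (by positivity) (three_ne_zero)).mp ?_
  rw [mul_pow, ← Real.rpow_natCast ((9 * Real.pi / 2) ^ (1 / 3 : ℝ)), ← Real.rpow_mul h9,
    ← Real.rpow_natCast (V ^ (2 / 3 : ℝ)), ← Real.rpow_mul hV]
  have e1 : (1 / 3 : ℝ) * ((3 : ℕ) : ℝ) = 1 := by norm_num
  have e2 : (2 / 3 : ℝ) * ((3 : ℕ) : ℝ) = ((2 : ℕ) : ℝ) := by norm_num
  rw [e1, e2, Real.rpow_one, Real.rpow_natCast]
  have e3 : (2 * ((3 / 4 * (Real.sqrt Real.pi * V)) ^ (1 / 3 : ℝ)) ^ 2) ^ 3 =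
      8 * (((3 / 4 * (Real.sqrt Real.pi * V)) ^ (1 / 3 : ℝ)) ^ 3) ^ 2 := by ring
  rw [e3, hm3]
  have hpi : Real.sqrt Real.pi ^ 2 = Real.pi := Real.sq_sqrt Real.pi_pos.le
  rw [mul_pow, mul_pow, hpi]
  ring

/-- the whole polynomial inequality -/
theorem N4_main {V w v : ℝ} (hV : V ∈ Set.Icc (0.12 : ℝ) 0.264) (hw : 0 ≤ w)
    (hw' : w ^ 2 ≤ 0.005) (hv0 : 0 < v) (hvV : V ≤ v ^ 2) :
    (w + v) * (Jh V + 2 * w ^ 2) ≤ Real.sqrt Real.pi * (V + w * v) + (2 / 3 * v ^ 3 -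
      5 / 2 * (v * w ^ 2) - 0.2707 * (w * v ^ 2) - w ^ 4 / (2 * v)) := by
  obtain ⟨hp1, hp2⟩ := N4_sqrt_pi
  have hw1 : w ≤ 0.07072 := by nlinarith
  have hVl := hV.1
  have hVu := hV.2
  have hv34 : 0.34 ≤ v := by nlinarith
  have h4 : w ^ 4 / (2 * v) ≤ 0.021 * (v * w ^ 2) := by
    rw [div_le_iff₀ (by positivity)]
    have h5 : w ^ 4 ≤ w ^ 2 * 0.005 := by nlinarith [sq_nonneg w]
    have h6 : w ^ 2 * 0.12 ≤ w ^ 2 * v ^ 2 := by
      apply mul_le_mul_of_nonneg_left _ (sq_nonneg w)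
      linarith
    nlinarith
  rcases le_total V 0.16 with hV6 | hV6
  · obtain ⟨m, hm0, hm3, hJ⟩ := N4_ball_val (V := V) (by linarith)
    have hJ' : Jh V ≤ 2 * m ^ 2 := by
      rw [← hJ]
      exact (min_le_left _ _).trans (min_le_left _ _)
    have hml : 0.542 ≤ m := by
      by_contra hcon
      push Not at hcon
      have h7 : m ^ 3 < 0.542 ^ 3 := by gcongr
      nlinarith
    have hmu : m ≤ 0.597 := by
      by_contra hcon
      push Not at hcon
      have h7 : (0.597 : ℝ) ^ 3 < m ^ 3 := by gcongr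
      nlinarith
    have hF0 : 0 ≤ 2 / 3 * (v - m) ^ 2 * (v + 2 * m) := by positivity
    have hP := N4_poly_ball hml hmu hv34
    have h8 := N4_interp (X := Real.sqrt Real.pi * v - 0.2707 * v ^ 2 - 2 * m ^ 2) hv0.le hw hw1
      hF0 (by nlinarith)
    have h9 : (w + v) * (Jh V + 2 * w ^ 2) ≤ (w + v) * (2 * m ^ 2 + 2 * w ^ 2) := by
      apply mul_le_mul_of_nonneg_left _ (by positivity)
      linarith
    refine h9.trans ?_
    have h10 : Real.sqrt Real.pi * V = 4 / 3 * m ^ 3 := by linarith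
    nlinarith
  · obtain ⟨n, hn0, hn2⟩ : ∃ n : ℝ, 0 ≤ n ∧ n ^ 2 = V :=
      ⟨Real.sqrt V, Real.sqrt_nonneg _, Real.sq_sqrt (by linarith)⟩
    have hJ' : Jh V ≤ Real.sqrt Real.pi * n := by
      have h7 : Real.sqrt (Real.pi * V) = Real.sqrt Real.pi * n := by
        rw [Real.sqrt_mul Real.pi_pos.le, ← hn2, Real.sqrt_sq hn0]
      rw [← h7]
      exact (min_le_left _ _).trans (min_le_right _ _)
    have hnl : 0.4 ≤ n := by nlinarith
    have hnv : n ≤ v := by nlinarith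
    have hF0 := N4_poly_tube0 hnl hnv
    have hP := N4_poly_tube hnl hnv
    have hnn : 0 ≤ n * (v - n) := mul_nonneg hn0 (by linarith)
    have h8 := N4_interp (X := Real.sqrt Real.pi * v - 0.2707 * v ^ 2 - Real.sqrt Real.pi * n)
      hv0.le hw hw1 hF0 (by nlinarith)
    have h9 : (w + v) * (Jh V + 2 * w ^ 2) ≤ (w + v) * (Real.sqrt Real.pi * n + 2 * w ^ 2) := by
      apply mul_le_mul_of_nonneg_left _ (by positivity)
      linarith
    refine h9.trans ?_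
    have h10 : Real.sqrt Real.pi * (n * (v - n)) ≤ 1.7725 * (n * (v - n)) :=
      mul_le_mul_of_nonneg_right hp2 hnn
    subst hn2
    nlinarith

/-- N4: small minimal slice, balls -/
theorem ball_small {V b c : ℝ} (hV : V ∈ Set.Icc (0.12 : ℝ) 0.264) (hb : 0 ≤ b) (hb' : b ≤ 0.005)
    (hc : V ≤ c) (_hc1 : c ≤ 1) :
    ∃ α κ : ℝ, (∀ a ∈ Set.Icc b c, 0 ≤ α + κ * a) ∧
      (∀ a ∈ Set.Icc b c, α + κ * a ≤ Real.sqrt (Real.pi * a)) ∧
      Jh V + 2 * b ≤ α + κ * V + cal (fun a => Real.sqrt (Real.pi * a)) α κ b c := by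
  have hVl := hV.1
  obtain ⟨w, hw, rfl⟩ : ∃ w : ℝ, 0 ≤ w ∧ w ^ 2 = b :=
    ⟨Real.sqrt b, Real.sqrt_nonneg _, Real.sq_sqrt hb⟩
  obtain ⟨v, hv, rfl⟩ : ∃ v : ℝ, 0 ≤ v ∧ v ^ 2 = c :=
    ⟨Real.sqrt c, Real.sqrt_nonneg _, Real.sq_sqrt (by linarith)⟩
  have hv0 : 0 < v := by
    rcases hv.eq_or_lt with h | h
    · subst h
      norm_num at hc
      linarith
    · exact h
  have hwv : w ≤ v := by nlinarith
  have hws : 0 < w + v := by linarith
  have hp : 0 < Real.sqrt Real.pi := Real.sqrt_pos.mpr Real.pi_pos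
  refine ⟨Real.sqrt Real.pi * (w * v) / (w + v), Real.sqrt Real.pi / (w + v), ?_, ?_, ?_⟩
  · intro a ha
    have : 0 ≤ a := (sq_nonneg w).trans ha.1
    positivity
  · intro a ha
    have ha0 : 0 ≤ a := (sq_nonneg w).trans ha.1
    obtain ⟨u, hu, rfl⟩ : ∃ u : ℝ, 0 ≤ u ∧ u ^ 2 = a :=
      ⟨Real.sqrt a, Real.sqrt_nonneg _, Real.sq_sqrt ha0⟩
    rw [Real.sqrt_mul Real.pi_pos.le, Real.sqrt_sq hu]
    have hwu : w ≤ u := by nlinarith [ha.1]
    have huv : u ≤ v := by nlinarith [ha.2]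
    have h1 : Real.sqrt Real.pi * (w * v) / (w + v) + Real.sqrt Real.pi / (w + v) * u ^ 2 =
        Real.sqrt Real.pi * ((w * v + u ^ 2) / (w + v)) := by
      field_simp
    rw [h1]
    apply mul_le_mul_of_nonneg_left _ hp.le
    rw [div_le_iff₀ hws]
    nlinarith [mul_nonneg (sub_nonneg.mpr hwu) (sub_nonneg.mpr huv)]
  · have h1 := N4_cal hw hv0 hwv
    refine le_trans ?_ (add_le_add_right h1 _)
    have h2 := N4_main hV hw hb' hv0 hc
    have h3 : Real.sqrt Real.pi * (w * v) / (w + v) + Real.sqrt Real.pi / (w + v) * V +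
        (2 / 3 * v ^ 3 - 5 / 2 * (v * w ^ 2) - 0.2707 * (w * v ^ 2) - w ^ 4 / (2 * v)) / (w + v) =
        (Real.sqrt Real.pi * (V + w * v) + (2 / 3 * v ^ 3 - 5 / 2 * (v * w ^ 2) -
          0.2707 * (w * v ^ 2) - w ^ 4 / (2 * v))) / (w + v) := by
      field_simp
      ring
    rw [h3, le_div_iff₀ hws]
    linarith

end Vale.Agent.P232
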