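import Vale.Agent.P232.NB1Def

/-!
# P232, module 2NB, outside the T-box: runs of the certified search
-/

namespace Vale.Agent.P232.NB1

/-- search tree -/
def tr5 : Tr :=
  (.C 661800 (.B 180500 (.C 492700 (.B 90250 (.C 408150 .L (.B 45125 (.B 22562 .L .L) (.B 67687
  .L .L))) (.C 408150 (.B 135375 .L .L) (.C 450425 (.B 135375 .L .L) (.B 135375 .L (.B 157937
  .L .L))))) (.B 90250 (.B 45125 (.C 577250 (.B 22562 (.C 534975 .L (.B 11281 .L .L)) (.B 33843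
  .L .L)) (.B 22562 (.B 11281 (.C 619525 (.C 598387 .L (.B 5640 .L .L)) (.B 5640 (.C 640662 (.B
  2820 .L .L) (.B 2820 (.B 1410 .L .L) .L)) .L)) (.B 16921 .L .L)) (.B 33843 .L .L))) (.C
  577250 (.C 534975 .L .L) (.C 619525 (.B 67687 .L .L) (.B 67687 .L .L)))) (.C 577250 (.B
  135375 (.C 534975 (.B 112812 .L .L) (.B 112812 .L .L)) (.C 534975 (.B 157937 .L (.B 169218 .L
  .L)) (.B 157937 .L .L))) (.B 135375 (.C 619525 (.B 112812 .L .L) (.B 112812 .L .L)) (.C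
  619525 (.B 157937 .L .L) (.B 157937 .L .L)))))) (.B 270750 (.C 492700 (.C 408150 (.C 365875
  .L (.B 225625 .L .L)) (.B 225625 (.C 450425 (.B 203062 .L .L) (.B 203062 .L .L)) (.C 450425
  .L (.B 248187 .L .L)))) (.B 225625 (.C 577250 (.C 534975 (.B 203062 .L .L) (.B 203062 .L .L))
  (.B 203062 (.B 191781 .L .L) .L)) (.C 577250 (.C 534975 (.B 248187 .L .L) .L) .L))) (.C
  492700 (.C 408150 (.B 315875 .L .L) (.B 315875 .L .L)) (.B 315875 (.C 577250 .L .L) .L))))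
  (.B 180500 (.B 90250 (.C 830900 (.B 45125 (.C 746350 (.B 22562 (.B 11281 (.C 704075 (.B 5640
  (.B 2820 (.C 682937 (.C 672368 .L (.B 1410 .L .L)) (.C 693506 (.B 1410 .L .L) (.B 1410 .L
  .L))) .L) .L) (.B 5640 (.B 2820 (.C 725212 (.C 714643 (.B 1410 .L .L) (.B 1410 .L .L)) (.C
  735781 (.B 1410 .L .L) (.B 1410 .L .L))) .L) .L)) .L) .L) (.B 22562 (.B 11281 (.B 5640 (.C
  788625 (.C 767487 (.B 2820 (.C 756918 (.B 1410 .L .L) (.B 1410 .L .L)) .L) (.B 2820 (.C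
  778056 .L .L) .L)) (.C 809762 (.B 2820 (.B 1410 .L .L) .L) (.B 2820 .L .L))) .L) .L) .L)) (.C
  746350 (.B 67687 .L .L) .L)) (.B 45125 (.C 915450 (.B 22562 (.B 11281 (.C 873175 (.B 5640 (.C
  852037 .L .L) .L) (.C 894312 .L .L)) .L) .L) (.B 22562 (.C 957725 (.B 11281 (.B 5640 .L .L)
  .L) (.C 978862 (.B 11281 .L .L) (.B 11281 (.C 989431 .L (.B 7000 (.C 993000 .L .S) .L)) .L)))
  .L)) (.C 915450 .L .L))) (.C 830900 (.B 135375 (.B 112812 .L .L) .L) (.B 135375 .L .L))) (.C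
  830900 (.B 270750 .L .L) .L)))

theorem run5 : chk tr5 0 361000 323600 1000000 323600 361000 = true := by
  decide +kernel

end Vale.Agent.P232.NB1
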