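import Vale.Agent.P232.Defs

/-!
# P232, module N5: the trapezoidal lower bound (real analysis)
-/

open MeasureTheory Set

namespace Vale.Agent.P232.N5

/-- convexity of the set `l² ≤ (1 - r²) w` -/
theorem seg_key {l0 l1 w0 w1 r0 r1 s t : ℝ} (hs : 0 ≤ s) (ht : 0 ≤ t) (hst : s + t = 1)
    (hw0 : 0 ≤ w0) (hw1 : 0 ≤ w1) (hr0 : r0 ^ 2 ≤ 1) (hr1 : r1 ^ 2 ≤ 1)
    (h0 : l0 ^ 2 ≤ (1 - r0 ^ 2) * w0) (h1 : l1 ^ 2 ≤ (1 - r1 ^ 2) * w1) :
    (s * l0 + t * l1) ^ 2 ≤ (1 - (s * r0 + t * r1) ^ 2) * (s * w0 + t * w1) := by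
  have a0 : 0 ≤ 1 - r0 ^ 2 := by linarith
  have a1 : 0 ≤ 1 - r1 ^ 2 := by linarith
  have e1 : s * (1 - r0 ^ 2) + t * (1 - r1 ^ 2) ≤ 1 - (s * r0 + t * r1) ^ 2 := by
    have e : 1 - (s * r0 + t * r1) ^ 2 - (s * (1 - r0 ^ 2) + t * (1 - r1 ^ 2)) =
        s * t * (r0 - r1) ^ 2 := by
      have ht' : t = 1 - s := by linarith
      rw [ht']; ring
    have : 0 ≤ s * t * (r0 - r1) ^ 2 := by positivity
    linarith
  generalize 1 - r0 ^ 2 = A0 at *
  generalize 1 - r1 ^ 2 = A1 at *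
  have p0 : 0 ≤ A0 * w1 := mul_nonneg a0 hw1
  have p1 : 0 ≤ A1 * w0 := mul_nonneg a1 hw0
  have e2 : 2 * (l0 * l1) ≤ A0 * w1 + A1 * w0 := by
    have h2 : (l0 * l1) ^ 2 ≤ (A0 * w1) * (A1 * w0) := by
      rw [mul_pow]
      calc l0 ^ 2 * l1 ^ 2 ≤ (A0 * w0) * (A1 * w1) :=
            mul_le_mul h0 h1 (sq_nonneg _) (mul_nonneg a0 hw0)
        _ = _ := by ring
    have h3 : (2 * (l0 * l1)) ^ 2 ≤ (A0 * w1 + A1 * w0) ^ 2 := by
      nlinarith [sq_nonneg (A0 * w1 - A1 * w0)]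
    exact (le_abs_self _).trans (abs_le_of_sq_le_sq h3 (by positivity))
  have e3 : (s * l0 + t * l1) ^ 2 ≤ (s * A0 + t * A1) * (s * w0 + t * w1) := by
    have q0 := mul_le_mul_of_nonneg_left h0 (mul_nonneg hs hs)
    have q1 := mul_le_mul_of_nonneg_left h1 (mul_nonneg ht ht)
    have q2 := mul_le_mul_of_nonneg_left e2 (mul_nonneg hs ht)
    nlinarith
  exact e3.trans (mul_le_mul_of_nonneg_right e1 (by positivity))

theorem le_I2 {l a : ℝ} (h1 : l ^ 2 ≤ Real.pi * a) (h2 : l ^ 2 ≤ 1)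
    (h3 : l ^ 2 ≤ Real.pi * (1 - a)) : l ≤ I2 a := by
  unfold I2
  refine le_min (le_min (Real.le_sqrt_of_sq_le h1) ?_) (Real.le_sqrt_of_sq_le h3)
  nlinarith [sq_nonneg (l - 1)]

theorem q_ge {l a ρ : ℝ} (ha : 0 ≤ a) (ha1 : a ≤ 1) (hρ : ρ ^ 2 ≤ 1)
    (h1 : l ^ 2 ≤ (1 - ρ ^ 2) * (Real.pi * a)) (h2 : l ^ 2 ≤ (1 - ρ ^ 2) * 1)
    (h3 : l ^ 2 ≤ (1 - ρ ^ 2) * (Real.pi * (1 - a))) :
    ρ ≤ Real.sqrt (1 - (l / I2 a) ^ 2) := by
  apply Real.le_sqrt_of_sq_le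
  have hpi := Real.pi_pos
  have key : (l / I2 a) ^ 2 ≤ 1 - ρ ^ 2 := by
    rw [div_pow]
    have hI : l ^ 2 ≤ (1 - ρ ^ 2) * (I2 a) ^ 2 := by
      unfold I2
      rcases min_choice (min (Real.sqrt (Real.pi * a)) 1) (Real.sqrt (Real.pi * (1 - a)))
        with h | h
      · rw [h]
        rcases min_choice (Real.sqrt (Real.pi * a)) 1 with h' | h'
        · rw [h', Real.sq_sqrt (by positivity)]; exact h1
        · rw [h', one_pow]; exact h2
      · rw [h, Real.sq_sqrt (mul_nonneg hpi.le (by linarith))]; exact h3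
    rcases (sq_nonneg (I2 a)).eq_or_lt with h | h
    · rw [← h, div_zero]; linarith
    · rw [div_le_iff₀ h]; exact hI
  linarith

/-- the node condition -/
structure NodeR (α κ x r : ℝ) : Prop where
  x0 : 0 ≤ x
  x1 : x ≤ 1
  r0 : 0 ≤ r
  r1 : r ≤ 1
  c1 : (α + κ * x) ^ 2 ≤ (1 - r ^ 2) * (Real.pi * x)
  c2 : (α + κ * x) ^ 2 ≤ (1 - r ^ 2) * 1
  c3 : (α + κ * x) ^ 2 ≤ (1 - r ^ 2) * (Real.pi * (1 - x))

theorem NodeR.seg {α κ x0 x1 r0 r1 s t : ℝ} (h0 : NodeR α κ x0 r0) (h1 : NodeR α κ x1 r1)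
    (hs : 0 ≤ s) (ht : 0 ≤ t) (hst : s + t = 1) :
    NodeR α κ (s * x0 + t * x1) (s * r0 + t * r1) := by
  have hpi := Real.pi_pos
  have hr0 : r0 ^ 2 ≤ 1 := by nlinarith [h0.r0, h0.r1]
  have hr1 : r1 ^ 2 ≤ 1 := by nlinarith [h1.r0, h1.r1]
  have el : α + κ * (s * x0 + t * x1) = s * (α + κ * x0) + t * (α + κ * x1) := by
    have : α = (s + t) * α := by rw [hst, one_mul]
    linear_combination this
  have h0x0 := h0.x0
  have h0x1 := h0.x1
  have h1x0 := h1.x0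
  have h1x1 := h1.x1
  have h0r0 := h0.r0
  have h0r1 := h0.r1
  have h1r0 := h1.r0
  have h1r1 := h1.r1
  refine ⟨by positivity, by nlinarith, by positivity, by nlinarith, ?_, ?_, ?_⟩
  · rw [el]
    have := seg_key hs ht hst (by positivity) (by positivity) hr0 hr1 h0.c1 h1.c1
    have e : Real.pi * (s * x0 + t * x1) = s * (Real.pi * x0) + t * (Real.pi * x1) := by ring
    rw [e]; exact this
  · rw [el]
    have := seg_key hs ht hst zero_le_one zero_le_one hr0 hr1 h0.c2 h1.c2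
    have e : (1 : ℝ) = s * 1 + t * 1 := by linarith
    calc _ ≤ _ := this
      _ = _ := by rw [← e]
  · rw [el]
    have := seg_key hs ht hst (mul_nonneg hpi.le (by linarith)) (mul_nonneg hpi.le (by linarith))
      hr0 hr1 h0.c3 h1.c3
    have e : Real.pi * (1 - (s * x0 + t * x1)) =
        s * (Real.pi * (1 - x0)) + t * (Real.pi * (1 - x1)) := by
      have ht' : t = 1 - s := by linarith
      rw [ht']; ring
    rw [e]; exact this

theorem exists_seg {x0 x1 a : ℝ} (ha : a ∈ Icc x0 x1) :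
    ∃ s t : ℝ, 0 ≤ s ∧ 0 ≤ t ∧ s + t = 1 ∧ a = s * x0 + t * x1 := by
  rcases (ha.1.trans ha.2).eq_or_lt with h | h
  · refine ⟨1, 0, zero_le_one, le_rfl, by norm_num, ?_⟩
    have h1 := ha.1
    have h2 := ha.2
    linarith
  · have hd : 0 < x1 - x0 := by linarith
    refine ⟨(x1 - a) / (x1 - x0), (a - x0) / (x1 - x0), div_nonneg (by linarith [ha.2]) hd.le,
      div_nonneg (by linarith [ha.1]) hd.le, ?_, ?_⟩
    · field_simp; ring
    · field_simp; ring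

theorem line_ok {α κ x0 x1 a : ℝ} (h0 : NodeR α κ x0 0) (h1 : NodeR α κ x1 0)
    (p0 : 0 ≤ α + κ * x0) (p1 : 0 ≤ α + κ * x1) (ha : a ∈ Icc x0 x1) :
    0 ≤ α + κ * a ∧ α + κ * a ≤ I2 a := by
  obtain ⟨s, t, hs, ht, hst, rfl⟩ := exists_seg ha
  have h := h0.seg h1 hs ht hst
  have el : α + κ * (s * x0 + t * x1) = s * (α + κ * x0) + t * (α + κ * x1) := by
    have : α = (s + t) * α := by rw [hst, one_mul]
    linear_combination this
  refine ⟨by rw [el]; positivity, le_I2 ?_ ?_ ?_⟩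
  · simpa using h.c1
  · simpa using h.c2
  · simpa using h.c3

/-- the integrand of `cal` -/
noncomputable def qf (α κ a : ℝ) : ℝ := Real.sqrt (1 - ((α + κ * a) / I2 a) ^ 2)

theorem qf_nonneg (α κ a : ℝ) : 0 ≤ qf α κ a := Real.sqrt_nonneg _

theorem qf_le_one (α κ a : ℝ) : qf α κ a ≤ 1 := by
  unfold qf
  exact Real.sqrt_le_one.mpr (by nlinarith [sq_nonneg ((α + κ * a) / I2 a)])

theorem I2_continuous : Continuous I2 := by
  unfold I2
  fun_prop

theorem qf_measurable (α κ : ℝ) : Measurable (qf α κ) := by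
  unfold qf
  have h1 : Measurable fun a : ℝ => (α + κ * a) / I2 a :=
    ((measurable_const.add (measurable_const.mul measurable_id))).div I2_continuous.measurable
  exact Real.continuous_sqrt.measurable.comp (measurable_const.sub (h1.pow_const 2))

theorem qf_int (α κ b c : ℝ) : IntervalIntegrable (qf α κ) volume b c := by
  refine IntervalIntegrable.mono_fun (intervalIntegrable_const (c := (1 : ℝ)))
    (qf_measurable α κ).aestronglyMeasurable (Filter.Eventually.of_forall fun a => ?_)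
  change ‖qf α κ a‖ ≤ ‖(1 : ℝ)‖
  rw [Real.norm_of_nonneg (qf_nonneg _ _ _), norm_one]
  exact qf_le_one _ _ _

theorem cal_eq (α κ b c : ℝ) : cal I2 α κ b c = ∫ a in b..c, qf α κ a := rfl

theorem int_nonneg {α κ b c : ℝ} (h : b ≤ c) : 0 ≤ ∫ a in b..c, qf α κ a :=
  intervalIntegral.integral_nonneg h fun a _ => qf_nonneg _ _ _

theorem int_seg {α κ x0 x1 r0 r1 : ℝ} (h0 : NodeR α κ x0 r0) (h1 : NodeR α κ x1 r1)
    (hx : x0 ≤ x1) : (x1 - x0) * (r0 + r1) / 2 ≤ ∫ a in x0..x1, qf α κ a := by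
  rcases hx.eq_or_lt with rfl | hlt
  · simp
  have hd : 0 < x1 - x0 := by linarith
  set m : ℝ := (r1 - r0) / (x1 - x0) with hm
  have e1 : ∫ a in x0..x1, ((r0 - m * x0) + m * a) = (x1 - x0) * (r0 + r1) / 2 := by
    rw [intervalIntegral.integral_add (by simp) (by
      apply Continuous.intervalIntegrable; fun_prop)]
    rw [intervalIntegral.integral_const, intervalIntegral.integral_const_mul, integral_id]
    rw [smul_eq_mul, hm]
    field_simp
    ring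
  rw [← e1]
  refine intervalIntegral.integral_mono_on hx ?_ (qf_int _ _ _ _) fun a ha => ?_
  · apply Continuous.intervalIntegrable; fun_prop
  · obtain ⟨s, t, hs, ht, hst, rfl⟩ := exists_seg ha
    have h := h0.seg h1 hs ht hst
    have er : (r0 - m * x0) + m * (s * x0 + t * x1) = s * r0 + t * r1 := by
      have hs' : s = 1 - t := by linarith
      have hm' : m * (x1 - x0) = r1 - r0 := by rw [hm]; field_simp
      rw [hs']
      linear_combination t * hm'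
    rw [er]
    exact q_ge h.x0 h.x1 (by nlinarith [h.r0, h.r1]) h.c1 h.c2 h.c3

theorem int_mono {α κ b c x y : ℝ} (hb : b ≤ x) (hxy : x ≤ y) (hc : y ≤ c) :
    ∫ a in x..y, qf α κ a ≤ ∫ a in b..c, qf α κ a :=
  intervalIntegral.integral_mono_interval hb hxy hc
    (Filter.Eventually.of_forall fun a => qf_nonneg _ _ _) (qf_int _ _ _ _)

/-! ### upper bounds of `Jh` -/

theorem Jh_le_sqrt (V : ℝ) : Jh V ≤ Real.sqrt (Real.pi * V) :=
  (min_le_left _ _).trans (min_le_right _ _)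

theorem Jh_le_tube {V τ : ℝ} (hV : 0 ≤ V) (hτ : 0 < τ) :
    Jh V ≤ (3.1416 * V / τ + τ) / 2 := by
  refine (Jh_le_sqrt V).trans ?_
  have hpi : Real.pi ≤ 3.1416 := Real.pi_lt_d4.le
  set y := Real.sqrt (Real.pi * V) with hy
  have hy2 : y ^ 2 = Real.pi * V := Real.sq_sqrt (mul_nonneg Real.pi_pos.le hV)
  have h1 : y ^ 2 ≤ 3.1416 * V := by rw [hy2]; exact mul_le_mul_of_nonneg_right hpi hV
  rw [le_div_iff₀ (by norm_num), ← sub_nonneg]
  have e : 3.1416 * V / τ + τ - y * 2 = ((3.1416 * V - y ^ 2) + (y - τ) ^ 2) / τ := by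
    field_simp
    ring
  rw [e]
  apply div_nonneg _ hτ.le
  nlinarith [sq_nonneg (y - τ)]

theorem Jh_le_ball {V τ : ℝ} (hV : 0 ≤ V) (hτ : 0 < τ) :
    Jh V ≤ 2.418 * (2 * V + τ ^ 3) / (3 * τ) := by
  refine ((min_le_left _ _).trans (min_le_left _ _)).trans ?_
  have hpi : Real.pi ≤ 3.1416 := Real.pi_lt_d4.le
  have h1 : (9 * Real.pi / 2) ^ (1 / 3 : ℝ) ≤ 2.418 := by
    have : (9 * Real.pi / 2) ≤ (2.418 : ℝ) ^ (3 : ℝ) := by
      rw [show (2.418 : ℝ) ^ (3 : ℝ) = (2.418 : ℝ) ^ (3 : ℕ) by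
        rw [← Real.rpow_natCast]; norm_num]
      norm_num
      linarith
    calc (9 * Real.pi / 2) ^ (1 / 3 : ℝ) ≤ ((2.418 : ℝ) ^ (3 : ℝ)) ^ (1 / 3 : ℝ) :=
          Real.rpow_le_rpow (by positivity) this (by norm_num)
      _ = 2.418 := by
          rw [← Real.rpow_mul (by norm_num)]; norm_num
  set y := V ^ (1 / 3 : ℝ) with hy
  have hy0 : 0 ≤ y := Real.rpow_nonneg hV _
  have hy3 : y ^ 3 = V := by
    rw [hy, ← Real.rpow_natCast, ← Real.rpow_mul hV]; norm_num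
  have hy2 : V ^ (2 / 3 : ℝ) = y ^ 2 := by
    rw [hy, ← Real.rpow_natCast, ← Real.rpow_mul hV]; norm_num
  rw [hy2]
  have h2 : y ^ 2 ≤ (2 * V + τ ^ 3) / (3 * τ) := by
    rw [le_div_iff₀ (by positivity), ← hy3]
    nlinarith [mul_nonneg (sq_nonneg (y - τ)) (by linarith : 0 ≤ 2 * y + τ)]
  calc (9 * Real.pi / 2) ^ (1 / 3 : ℝ) * y ^ 2
      ≤ 2.418 * ((2 * V + τ ^ 3) / (3 * τ)) :=
        mul_le_mul h1 h2 (sq_nonneg _) (by norm_num)
    _ = _ := by ring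

end Vale.Agent.P232.N5
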