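import Mathlib
import Vale.Agent.P232.TreeReal
import Vale.Agent.P232.Defs2

/-!
# P232: trapezoidal lower bounds for the two-zone functional (helper50)

`Adm k l r`: the profile value `k` allows the line value `l` with lower bound `r` of the integrand.
-/

open MeasureTheory Set

namespace Vale.Agent.P232.W

/-- `l ≤ √(1 - r²) k` -/
def Adm (k l r : ℝ) : Prop := l ≤ Real.sqrt (1 - r ^ 2) * k

theorem Adm.zero_iff {k l : ℝ} : Adm k l 0 ↔ l ≤ k := by
  unfold Adm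
  simp

theorem Adm.mono {k k' l r : ℝ} (h : Adm k l r) (hk : k ≤ k') : Adm k' l r :=
  le_trans h (mul_le_mul_of_nonneg_left hk (Real.sqrt_nonneg _))

theorem Adm.of_nonpos {k l r : ℝ} (hk : 0 ≤ k) (hl : l ≤ 0) : Adm k l r :=
  hl.trans (mul_nonneg (Real.sqrt_nonneg _) hk)

theorem Adm.of_sq {k l r : ℝ} (hk : 0 ≤ k) (h : l ^ 2 ≤ (1 - r ^ 2) * k ^ 2) : Adm k l r := by
  unfold Adm
  rcases hk.eq_or_lt with h0 | h0
  · rw [← h0] at h ⊢
    have : l ^ 2 ≤ 0 := by linarith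
    have h2 : l = 0 := by nlinarith
    rw [h2]
    simp
  · have hr : 0 ≤ 1 - r ^ 2 := by
      by_contra hc
      rw [not_le] at hc
      have : (1 - r ^ 2) * k ^ 2 < 0 := mul_neg_of_neg_of_pos hc (by positivity)
      nlinarith [sq_nonneg l]
    have h1 : |l| ≤ Real.sqrt (1 - r ^ 2) * k := by
      apply abs_le_of_sq_le_sq _ (mul_nonneg (Real.sqrt_nonneg _) hk)
      rw [mul_pow, Real.sq_sqrt hr]
      exact h
    exact (le_abs_self l).trans h1

theorem Adm.of_sqrt {w l r : ℝ} (hw : 0 ≤ w) (h : l ^ 2 ≤ (1 - r ^ 2) * w) :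
    Adm (Real.sqrt w) l r :=
  Adm.of_sq (Real.sqrt_nonneg _) (by rwa [Real.sq_sqrt hw])

theorem Adm.min {k k' l r : ℝ} (h : Adm k l r) (h' : Adm k' l r) : Adm (min k k') l r := by
  rcases min_choice k k' with e | e
  · rw [e]; exact h
  · rw [e]; exact h'

/-- concavity of `r ↦ √(1 - r²)` -/
theorem rho_conc {r0 r1 s t : ℝ} (hs : 0 ≤ s) (ht : 0 ≤ t) (hst : s + t = 1)
    (h0 : r0 ^ 2 ≤ 1) (h1 : r1 ^ 2 ≤ 1) :
    s * Real.sqrt (1 - r0 ^ 2) + t * Real.sqrt (1 - r1 ^ 2) ≤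
      Real.sqrt (1 - (s * r0 + t * r1) ^ 2) := by
  apply Real.le_sqrt_of_sq_le
  have e0 := Real.sq_sqrt (sub_nonneg.2 h0)
  have e1 := Real.sq_sqrt (sub_nonneg.2 h1)
  set p0 := Real.sqrt (1 - r0 ^ 2)
  set p1 := Real.sqrt (1 - r1 ^ 2)
  have h2 : p0 * p1 + r0 * r1 ≤ 1 := by nlinarith [sq_nonneg (p0 - p1), sq_nonneg (r0 - r1)]
  have h3 : 0 ≤ s * t := mul_nonneg hs ht
  have h5 := mul_le_mul_of_nonneg_left h2 h3
  have h6 : (s * p0 + t * p1) ^ 2 + (s * r0 + t * r1) ^ 2 ≤ 1 := by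
    have e : (s * p0 + t * p1) ^ 2 + (s * r0 + t * r1) ^ 2
        = s ^ 2 * (p0 ^ 2 + r0 ^ 2) + t ^ 2 * (p1 ^ 2 + r1 ^ 2)
          + 2 * (s * t * (p0 * p1 + r0 * r1)) := by ring
    have e2 : s ^ 2 + t ^ 2 + 2 * (s * t) = 1 := by
      have : s ^ 2 + t ^ 2 + 2 * (s * t) = (s + t) ^ 2 := by ring
      rw [this, hst, one_pow]
    rw [e, e0, e1]
    have e3 : 1 - r0 ^ 2 + r0 ^ 2 = 1 := by ring
    have e4 : 1 - r1 ^ 2 + r1 ^ 2 = 1 := by ring
    rw [e3, e4]
    linarith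
  linarith

/-- the profile is antitone and concave, the line is monotone -/
theorem Adm.anti {k0 k1 k l0 l1 r0 r1 s t : ℝ} (hs : 0 ≤ s) (ht : 0 ≤ t) (hst : s + t = 1)
    (hl : l0 ≤ l1) (hk : k1 ≤ k0) (hk1 : 0 ≤ k1) (h0 : r0 ^ 2 ≤ 1) (h1 : r1 ^ 2 ≤ 1)
    (a0 : Adm k0 l0 r0) (a1 : Adm k1 l1 r1) (hkk : s * k0 + t * k1 ≤ k) :
    Adm k (s * l0 + t * l1) (s * r0 + t * r1) := by
  unfold Adm at *
  have hr := rho_conc hs ht hst h0 h1
  have q0 : 0 ≤ Real.sqrt (1 - r0 ^ 2) := Real.sqrt_nonneg _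
  have q1 : 0 ≤ Real.sqrt (1 - r1 ^ 2) := Real.sqrt_nonneg _
  set p0 := Real.sqrt (1 - r0 ^ 2)
  set p1 := Real.sqrt (1 - r1 ^ 2)
  set p := Real.sqrt (1 - (s * r0 + t * r1) ^ 2)
  have hk0 : 0 ≤ k0 := hk1.trans hk
  have hK : 0 ≤ s * k0 + t * k1 := by positivity
  have hP : 0 ≤ s * p0 + t * p1 := by positivity
  have key : s * l0 + t * l1 ≤ (s * p0 + t * p1) * (s * k0 + t * k1) := by
    rcases le_total p0 p1 with h | h
    · have e : (s * p0 + t * p1) * (s * k0 + t * k1) - (s * (p0 * k0) + t * (p1 * k1))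
          = s * t * ((p1 - p0) * (k0 - k1)) := by
        have : s = 1 - t := by linarith
        rw [this]
        ring
      have e2 : 0 ≤ s * t * ((p1 - p0) * (k0 - k1)) :=
        mul_nonneg (mul_nonneg hs ht) (mul_nonneg (by linarith) (by linarith))
      have e3 := mul_le_mul_of_nonneg_left a0 hs
      have e4 := mul_le_mul_of_nonneg_left a1 ht
      linarith
    · have e1 : s * l0 + t * l1 ≤ l1 := by
        have := mul_le_mul_of_nonneg_left hl hs
        have h5 : l1 = s * l1 + t * l1 := by rw [← add_mul, hst, one_mul]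
        linarith
      have e2 : p1 ≤ s * p0 + t * p1 := by
        have := mul_le_mul_of_nonneg_left h hs
        have h5 : p1 = s * p1 + t * p1 := by rw [← add_mul, hst, one_mul]
        linarith
      have e3 : k1 ≤ s * k0 + t * k1 := by
        have := mul_le_mul_of_nonneg_left hk hs
        have h5 : k1 = s * k1 + t * k1 := by rw [← add_mul, hst, one_mul]
        linarith
      calc s * l0 + t * l1 ≤ l1 := e1
        _ ≤ p1 * k1 := a1
        _ ≤ (s * p0 + t * p1) * (s * k0 + t * k1) := mul_le_mul e2 e3 hk1 hP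
  calc s * l0 + t * l1 ≤ (s * p0 + t * p1) * (s * k0 + t * k1) := key
    _ ≤ p * k := mul_le_mul hr hkk hK (hP.trans hr)

/-- the profile is the square root of an affine function -/
theorem Adm.sqrt_seg {w0 w1 l0 l1 r0 r1 s t : ℝ} (hs : 0 ≤ s) (ht : 0 ≤ t) (hst : s + t = 1)
    (hw0 : 0 ≤ w0) (hw1 : 0 ≤ w1) (h0 : r0 ^ 2 ≤ 1) (h1 : r1 ^ 2 ≤ 1)
    (a0 : Adm (Real.sqrt w0) l0 r0) (a1 : Adm (Real.sqrt w1) l1 r1) :
    Adm (Real.sqrt (s * w0 + t * w1)) (s * l0 + t * l1) (s * r0 + t * r1) := by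
  have sq : ∀ {w l r : ℝ}, 0 ≤ w → r ^ 2 ≤ 1 → Adm (Real.sqrt w) l r →
      (max l 0) ^ 2 ≤ (1 - r ^ 2) * w := by
    intro w l r hw hr ha
    unfold Adm at ha
    have h2 : max l 0 ≤ Real.sqrt (1 - r ^ 2) * Real.sqrt w :=
      max_le ha (mul_nonneg (Real.sqrt_nonneg _) (Real.sqrt_nonneg _))
    have h3 : (max l 0) ^ 2 ≤ (Real.sqrt (1 - r ^ 2) * Real.sqrt w) ^ 2 :=
      pow_le_pow_left₀ (le_max_right _ _) h2 2
    rwa [mul_pow, Real.sq_sqrt (by linarith), Real.sq_sqrt hw] at h3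
  have key := N5.seg_key hs ht hst hw0 hw1 h0 h1 (sq hw0 h0 a0) (sq hw1 h1 a1)
  have h2 := Adm.of_sqrt (by positivity : 0 ≤ s * w0 + t * w1) key
  unfold Adm at h2 ⊢
  refine le_trans ?_ h2
  have e1 := mul_le_mul_of_nonneg_left (le_max_left l0 0) hs
  have e2 := mul_le_mul_of_nonneg_left (le_max_left l1 0) ht
  linarith

/-- lower bound of the integrand -/
theorem q2_ge {k1 k2 l1 l2 r : ℝ} (hk1 : 0 ≤ k1) (hk2 : 0 ≤ k2) (hl2 : 0 ≤ l2) (hr : r ^ 2 ≤ 1)
    (a1 : Adm k1 l1 r) (a2 : Adm k2 l2 r) :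
    r ≤ Real.sqrt (1 - (max (l1 / k1) (l2 / k2)) ^ 2) := by
  apply Real.le_sqrt_of_sq_le
  have q0 : 0 ≤ Real.sqrt (1 - r ^ 2) := Real.sqrt_nonneg _
  have e1 : l1 / k1 ≤ Real.sqrt (1 - r ^ 2) := div_le_of_le_mul₀ hk1 q0 a1
  have e2 : l2 / k2 ≤ Real.sqrt (1 - r ^ 2) := div_le_of_le_mul₀ hk2 q0 a2
  have e3 : 0 ≤ max (l1 / k1) (l2 / k2) := le_max_of_le_right (div_nonneg hl2 hk2)
  have e4 : (max (l1 / k1) (l2 / k2)) ^ 2 ≤ (Real.sqrt (1 - r ^ 2)) ^ 2 :=
    pow_le_pow_left₀ e3 (max_le e1 e2) 2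
  rw [Real.sq_sqrt (by linarith)] at e4
  linarith

/-! ### the integral -/

/-- the integrand of `cal2` -/
noncomputable def qf2 (K1 K2 : ℝ → ℝ) (α1 α2 κ a : ℝ) : ℝ :=
  Real.sqrt (1 - (max ((α1 + κ * a) / K1 a) ((α2 + κ * a) / K2 a)) ^ 2)

theorem cal2_eq (K1 K2 : ℝ → ℝ) (α1 α2 κ b c : ℝ) :
    cal2 K1 K2 α1 α2 κ b c = ∫ a in b..c, qf2 K1 K2 α1 α2 κ a := rfl

theorem qf2_nonneg (K1 K2 : ℝ → ℝ) (α1 α2 κ a : ℝ) : 0 ≤ qf2 K1 K2 α1 α2 κ a :=
  Real.sqrt_nonneg _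

theorem qf2_le_one (K1 K2 : ℝ → ℝ) (α1 α2 κ a : ℝ) : qf2 K1 K2 α1 α2 κ a ≤ 1 := by
  unfold qf2
  exact Real.sqrt_le_one.mpr (by
    nlinarith [sq_nonneg (max ((α1 + κ * a) / K1 a) ((α2 + κ * a) / K2 a))])

theorem qf2_meas {K1 K2 : ℝ → ℝ} (h1 : Measurable K1) (h2 : Measurable K2) (α1 α2 κ : ℝ) :
    Measurable (qf2 K1 K2 α1 α2 κ) := by
  unfold qf2
  have e1 : Measurable fun a : ℝ => (α1 + κ * a) / K1 a :=
    ((measurable_const.add (measurable_const.mul measurable_id))).div h1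
  have e2 : Measurable fun a : ℝ => (α2 + κ * a) / K2 a :=
    ((measurable_const.add (measurable_const.mul measurable_id))).div h2
  exact Real.continuous_sqrt.measurable.comp (measurable_const.sub ((e1.max e2).pow_const 2))

theorem qf2_int {K1 K2 : ℝ → ℝ} (h1 : Measurable K1) (h2 : Measurable K2) (α1 α2 κ b c : ℝ) :
    IntervalIntegrable (qf2 K1 K2 α1 α2 κ) volume b c := by
  refine IntervalIntegrable.mono_fun (intervalIntegrable_const (c := (1 : ℝ)))
    (qf2_meas h1 h2 α1 α2 κ).aestronglyMeasurable (Filter.Eventually.of_forall fun a => ?_)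
  change ‖qf2 K1 K2 α1 α2 κ a‖ ≤ ‖(1 : ℝ)‖
  rw [Real.norm_of_nonneg (qf2_nonneg _ _ _ _ _ _), norm_one]
  exact qf2_le_one _ _ _ _ _ _

theorem int2_nonneg {K1 K2 : ℝ → ℝ} {α1 α2 κ b c : ℝ} (h : b ≤ c) :
    0 ≤ ∫ a in b..c, qf2 K1 K2 α1 α2 κ a :=
  intervalIntegral.integral_nonneg h fun _ _ => qf2_nonneg _ _ _ _ _ _

theorem int2_mono {K1 K2 : ℝ → ℝ} (h1 : Measurable K1) (h2 : Measurable K2)
    {α1 α2 κ b c x y : ℝ} (hb : b ≤ x) (hxy : x ≤ y) (hc : y ≤ c) :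
    ∫ a in x..y, qf2 K1 K2 α1 α2 κ a ≤ ∫ a in b..c, qf2 K1 K2 α1 α2 κ a :=
  intervalIntegral.integral_mono_interval hb hxy hc
    (Filter.Eventually.of_forall fun _ => qf2_nonneg _ _ _ _ _ _) (qf2_int h1 h2 _ _ _ _ _)

/-- on a segment where `r` is affine and admissible for both lines -/
theorem int2_seg {K1 K2 : ℝ → ℝ} (m1 : Measurable K1) (m2 : Measurable K2)
    {α1 α2 κ x0 x1 r0 r1 : ℝ} (hx : x0 ≤ x1) (h0 : 0 ≤ r0 ∧ r0 ≤ 1) (h1 : 0 ≤ r1 ∧ r1 ≤ 1)
    (h : ∀ s t : ℝ, 0 ≤ s → 0 ≤ t → s + t = 1 →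
      0 ≤ K1 (s * x0 + t * x1) ∧ 0 ≤ K2 (s * x0 + t * x1) ∧ 0 ≤ α2 + κ * (s * x0 + t * x1) ∧
      Adm (K1 (s * x0 + t * x1)) (α1 + κ * (s * x0 + t * x1)) (s * r0 + t * r1) ∧
      Adm (K2 (s * x0 + t * x1)) (α2 + κ * (s * x0 + t * x1)) (s * r0 + t * r1)) :
    (x1 - x0) * (r0 + r1) / 2 ≤ ∫ a in x0..x1, qf2 K1 K2 α1 α2 κ a := by
  rcases hx.eq_or_lt with rfl | hlt
  · simp
  have hd : 0 < x1 - x0 := by linarith
  set m : ℝ := (r1 - r0) / (x1 - x0) with hm
  have e1 : ∫ a in x0..x1, ((r0 - m * x0) + m * a) = (x1 - x0) * (r0 + r1) / 2 := by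
    rw [intervalIntegral.integral_add (by simp) (by
      apply Continuous.intervalIntegrable; fun_prop)]
    rw [intervalIntegral.integral_const, intervalIntegral.integral_const_mul, integral_id]
    rw [smul_eq_mul, hm]
    field_simp
    ring
  rw [← e1]
  refine intervalIntegral.integral_mono_on hx ?_ (qf2_int m1 m2 _ _ _ _ _) fun a ha => ?_
  · apply Continuous.intervalIntegrable; fun_prop
  · obtain ⟨s, t, hs, ht, hst, rfl⟩ := N5.exists_seg ha
    obtain ⟨g1, g2, g3, g4, g5⟩ := h s t hs ht hst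
    have er : (r0 - m * x0) + m * (s * x0 + t * x1) = s * r0 + t * r1 := by
      have hs' : s = 1 - t := by linarith
      have hm' : m * (x1 - x0) = r1 - r0 := by rw [hm]; field_simp
      rw [hs']
      linear_combination t * hm'
    rw [er]
    refine q2_ge g1 g2 g3 ?_ g4 g5
    have q1 : 0 ≤ s * r0 + t * r1 := by
      have := mul_nonneg hs h0.1
      have := mul_nonneg ht h1.1
      linarith
    have q2 : s * r0 + t * r1 ≤ 1 := by
      have := mul_le_mul_of_nonneg_left h0.2 hs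
      have := mul_le_mul_of_nonneg_left h1.2 ht
      linarith
    nlinarith

/-! ### the profile `KT` -/

/-- the affine upper bounds of `KT` -/
noncomputable def LT (e a : ℝ) : ℝ := (1 - a) / e + Real.pi * e / 4

theorem KT_meas (T : ℝ) : Measurable (KT T) := by
  unfold KT
  apply Measurable.ite
  · exact measurableSet_le (measurable_const.sub measurable_id) measurable_const
  · exact Real.continuous_sqrt.measurable.comp
      (measurable_const.mul (measurable_const.sub measurable_id))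
  · exact ((measurable_const.sub measurable_id).div_const _).add_const _

theorem sqrt_le_LT {e a : ℝ} (he : 0 < e) (ha : a ≤ 1) :
    Real.sqrt (Real.pi * (1 - a)) ≤ LT e a := by
  unfold LT
  have hpi := Real.pi_pos
  have hm : 0 ≤ 1 - a := by linarith
  rw [Real.sqrt_le_left (by positivity)]
  have e1 : ((1 - a) / e + Real.pi * e / 4) ^ 2 - Real.pi * (1 - a)
      = ((1 - a) / e - Real.pi * e / 4) ^ 2 := by
    field_simp
    ring
  nlinarith [sq_nonneg ((1 - a) / e - Real.pi * e / 4)]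

/-- `KT` is below all its affine bounds -/
theorem KT_le_LT {T e a : ℝ} (he : 0 < e) (heT : e ≤ 1 - T) (ha : a ≤ 1) : KT T a ≤ LT e a := by
  unfold KT
  have hpi := Real.pi_pos
  split_ifs with h
  · exact sqrt_le_LT he ha
  · rw [not_le] at h
    unfold LT
    have hT : 0 < 1 - T := by linarith
    have e1 : (1 - a) / e + Real.pi * e / 4 - ((1 - a) / (1 - T) + Real.pi * (1 - T) / 4)
        = (1 - T - e) * ((1 - a) / (e * (1 - T)) - Real.pi / 4) := by
      field_simp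
      ring
    have e2 : 0 ≤ (1 - a) / (e * (1 - T)) - Real.pi / 4 := by
      rw [sub_nonneg, le_div_iff₀ (by positivity)]
      have : e * (1 - T) ≤ (1 - T) ^ 2 := by nlinarith
      nlinarith
    have := mul_nonneg (by linarith : 0 ≤ 1 - T - e) e2
    linarith

/-- and it is attained -/
theorem KT_eq_LT {T a : ℝ} (hT : T < 1) (ha : a < 1) :
    ∃ e, 0 < e ∧ e ≤ 1 - T ∧ KT T a = LT e a := by
  have hpi := Real.pi_pos
  have hm : 0 < 1 - a := by linarith
  have hT' : 0 < 1 - T := by linarith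
  by_cases h : 1 - a ≤ Real.pi * (1 - T) ^ 2 / 4
  · refine ⟨2 * Real.sqrt ((1 - a) / Real.pi), by positivity, ?_, ?_⟩
    · have : Real.sqrt ((1 - a) / Real.pi) ≤ (1 - T) / 2 := by
        rw [Real.sqrt_le_left (by linarith), div_le_iff₀ hpi]
        nlinarith
      linarith
    · unfold KT LT
      rw [if_pos h]
      have h1 : Real.sqrt (Real.pi * (1 - a)) = Real.pi * Real.sqrt ((1 - a) / Real.pi) := by
        rw [show Real.pi * (1 - a) = Real.pi ^ 2 * ((1 - a) / Real.pi) by field_simp,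
          Real.sqrt_mul (sq_nonneg _), Real.sqrt_sq hpi.le]
      have h2 : (1 - a) = Real.pi * (Real.sqrt ((1 - a) / Real.pi)) ^ 2 := by
        rw [Real.sq_sqrt (by positivity)]
        field_simp
      rw [h1]
      set q := Real.sqrt ((1 - a) / Real.pi) with hq
      have hq0 : 0 < q := Real.sqrt_pos.2 (by positivity)
      rw [h2]
      field_simp
      ring
  · refine ⟨1 - T, hT', le_rfl, ?_⟩
    unfold KT LT
    rw [if_neg h]

theorem KT_nonneg {T a : ℝ} (hT : T < 1) (ha : a ≤ 1) : 0 ≤ KT T a := by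
  unfold KT
  have hpi := Real.pi_pos
  split_ifs
  · exact Real.sqrt_nonneg _
  · have : 0 < 1 - T := by linarith
    have : 0 ≤ 1 - a := by linarith
    positivity

theorem KT_one {T : ℝ} (hT : T < 1) : KT T 1 = 0 := by
  unfold KT
  have hpi := Real.pi_pos
  have : 0 < 1 - T := by linarith
  rw [if_pos (by simp; positivity)]
  simp

theorem sqrt_le_KT {T a : ℝ} (hT : T < 1) (ha : a ≤ 1) :
    Real.sqrt (Real.pi * (1 - a)) ≤ KT T a := by
  unfold KT
  split_ifs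
  · exact le_rfl
  · exact sqrt_le_LT (by linarith) ha

/-- for sections with `m ≥ π e²/4` -/
theorem LT_le_KT {T a : ℝ} (h : Real.pi * (1 - T) ^ 2 / 4 ≤ 1 - a) (hT : T < 1) (ha : a ≤ 1) :
    LT (1 - T) a ≤ KT T a := by
  unfold KT
  split_ifs with h'
  · have he : 1 - a = Real.pi * (1 - T) ^ 2 / 4 := le_antisymm h' h
    have hpi := Real.pi_pos
    have hT' : 0 < 1 - T := by linarith
    unfold LT
    rw [he]
    have e1 : Real.pi * (Real.pi * (1 - T) ^ 2 / 4) = (Real.pi * (1 - T) / 2) ^ 2 := by ring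
    rw [e1, Real.sqrt_sq (by positivity)]
    apply le_of_eq
    field_simp
    ring
  · exact le_rfl

theorem KT_anti {T x y : ℝ} (hT : T < 1) (hxy : x ≤ y) (hy : y ≤ 1) : KT T y ≤ KT T x := by
  rcases hxy.eq_or_lt with rfl | hlt
  · exact le_rfl
  · obtain ⟨e, he, he', heq⟩ := KT_eq_LT hT (lt_of_lt_of_le hlt hy)
    rw [heq]
    refine (KT_le_LT he he' hy).trans ?_
    unfold LT
    have : (1 - y) / e ≤ (1 - x) / e := by
      apply div_le_div_of_nonneg_right _ he.le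
      linarith
    linarith

theorem KT_conc {T x0 x1 s t : ℝ} (hT : T < 1) (h0 : x0 ≤ 1) (h1 : x1 ≤ 1) (hs : 0 ≤ s)
    (ht : 0 ≤ t) (hst : s + t = 1) :
    s * KT T x0 + t * KT T x1 ≤ KT T (s * x0 + t * x1) := by
  have e0 := mul_le_mul_of_nonneg_left h0 hs
  have e1 := mul_le_mul_of_nonneg_left h1 ht
  have hx : s * x0 + t * x1 ≤ 1 := by linarith
  rcases hx.eq_or_lt with hx1 | hx1
  · have f0 : s * (1 - x0) = 0 := by nlinarith
    have f1 : t * (1 - x1) = 0 := by nlinarith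
    have g0 : s * KT T x0 = 0 := by
      rcases mul_eq_zero.1 f0 with h | h
      · rw [h, zero_mul]
      · rw [show x0 = 1 by linarith, KT_one hT, mul_zero]
    have g1 : t * KT T x1 = 0 := by
      rcases mul_eq_zero.1 f1 with h | h
      · rw [h, zero_mul]
      · rw [show x1 = 1 by linarith, KT_one hT, mul_zero]
    rw [g0, g1, add_zero]
    exact KT_nonneg hT hx
  · obtain ⟨e, he, he', heq⟩ := KT_eq_LT hT hx1
    rw [heq]
    have k0 := mul_le_mul_of_nonneg_left (KT_le_LT he he' h0) hs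
    have k1 := mul_le_mul_of_nonneg_left (KT_le_LT he he' h1) ht
    refine (add_le_add k0 k1).trans (le_of_eq ?_)
    unfold LT
    have : s = 1 - t := by linarith
    rw [this]
    field_simp
    ring

theorem KT_mono_T {T T' a : ℝ} (hTT : T ≤ T') (hT : T' < 1) (ha : a ≤ 1) :
    KT T a ≤ KT T' a := by
  rcases ha.eq_or_lt with rfl | hlt
  · rw [KT_one hT, KT_one (lt_of_le_of_lt hTT hT)]
  · obtain ⟨e, he, he', heq⟩ := KT_eq_LT hT hlt
    rw [heq]
    exact KT_le_LT he (by linarith) ha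

/-- admissibility for `KT` along a segment, `κ ≥ 0` -/
theorem Adm.KT_seg {T α κ x0 x1 r0 r1 s t : ℝ} (hT : T < 1) (hκ : 0 ≤ κ) (hx : x0 ≤ x1)
    (hx1 : x1 ≤ 1) (hs : 0 ≤ s) (ht : 0 ≤ t) (hst : s + t = 1) (h0 : r0 ^ 2 ≤ 1)
    (h1 : r1 ^ 2 ≤ 1) (a0 : Adm (KT T x0) (α + κ * x0) r0)
    (a1 : Adm (KT T x1) (α + κ * x1) r1) :
    Adm (KT T (s * x0 + t * x1)) (α + κ * (s * x0 + t * x1)) (s * r0 + t * r1) := by
  have el : α + κ * (s * x0 + t * x1) = s * (α + κ * x0) + t * (α + κ * x1) := by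
    have : α = (s + t) * α := by rw [hst, one_mul]
    linear_combination this
  rw [el]
  exact Adm.anti hs ht hst (by nlinarith [mul_le_mul_of_nonneg_left hx hκ]) (KT_anti hT hx hx1)
    (KT_nonneg hT hx1) h0 h1 a0 a1 (KT_conc hT (hx.trans hx1) hx1 hs ht hst)

/-! ### the profile `FB` -/

theorem FB_meas (T : ℝ) : Measurable (FB T) := by
  unfold FB
  fun_prop

theorem FB_nonneg (T a : ℝ) : 0 ≤ FB T a := by
  unfold FB
  exact le_min (le_min (Real.sqrt_nonneg _) (Real.sqrt_nonneg _))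
    (zero_le_one.trans (le_max_left _ _))

theorem FB_anti_T {T T' a : ℝ} (h : T ≤ T') : FB T' a ≤ FB T a := by
  unfold FB
  refine min_le_min le_rfl (max_le_max le_rfl ?_)
  have : (a - T') / 2.5 ≤ (a - T) / 2.5 := by
    apply div_le_div_of_nonneg_right _ (by norm_num)
    linarith
  linarith

theorem I2_le_FB (T a : ℝ) : I2 a ≤ FB T a := by
  unfold I2 FB
  refine le_min (le_min ?_ ?_) ?_
  · exact (min_le_left _ _).trans (min_le_left _ _)
  · exact min_le_right _ _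
  · exact ((min_le_left _ _).trans (min_le_right _ _)).trans (le_max_left _ _)

/-- the square root minorant to the right of `q = T + 0.0693` -/
theorem FB_third {T a : ℝ} (h : T + 0.0693 ≤ a) :
    Real.sqrt (1 + 0.82 * (a - (T + 0.0693))) ≤ max 1 ((a - T) / 2.5 + 0.9726) := by
  refine le_trans ?_ (le_max_right _ _)
  rw [Real.sqrt_le_left (by
    have : 0 ≤ (a - T) / 2.5 := div_nonneg (by linarith) (by norm_num)
    linarith)]
  have e : (a - T) / 2.5 = 0.4 * (a - T) := by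
    rw [div_eq_iff (by norm_num)]
    ring
  rw [e]
  set d := a - (T + 0.0693) with hd
  have e2 : a - T = d + 0.0693 := by rw [hd]; ring
  rw [e2]
  nlinarith [sq_nonneg (d - 0.0617)]

theorem Adm.FB {T a l r : ℝ} (h1 : Adm (Real.sqrt (Real.pi * a)) l r)
    (h2 : Adm (Real.sqrt (Real.pi * (1 - a))) l r)
    (h3 : Adm 1 l r ∨ (T + 0.0693 ≤ a ∧ Adm (Real.sqrt (1 + 0.82 * (a - (T + 0.0693)))) l r)) :
    Adm (FB T a) l r := by
  unfold Vale.Agent.P232.FB
  refine Adm.min (Adm.min h1 h2) ?_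
  rcases h3 with h3 | ⟨h, h3⟩
  · exact h3.mono (le_max_left _ _)
  · exact h3.mono (FB_third h)

/-- admissibility for `FB` along a segment on which the third function is `1` -/
theorem Adm.FB_seg_left {T α κ x0 x1 r0 r1 s t : ℝ} (h00 : 0 ≤ x0) (hx : x0 ≤ x1)
    (hx1 : x1 ≤ 1) (hs : 0 ≤ s) (ht : 0 ≤ t) (hst : s + t = 1) (h0 : r0 ^ 2 ≤ 1)
    (h1 : r1 ^ 2 ≤ 1)
    (a0 : Adm (Real.sqrt (Real.pi * x0)) (α + κ * x0) r0)
    (b0 : Adm (Real.sqrt (Real.pi * (1 - x0))) (α + κ * x0) r0)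
    (c0 : Adm 1 (α + κ * x0) r0)
    (a1 : Adm (Real.sqrt (Real.pi * x1)) (α + κ * x1) r1)
    (b1 : Adm (Real.sqrt (Real.pi * (1 - x1))) (α + κ * x1) r1)
    (c1 : Adm 1 (α + κ * x1) r1) :
    Adm (Vale.Agent.P232.FB T (s * x0 + t * x1)) (α + κ * (s * x0 + t * x1))
      (s * r0 + t * r1) := by
  have hpi := Real.pi_pos
  have h01 : 0 ≤ 1 - x1 := by linarith
  have h02 : 0 ≤ 1 - x0 := by linarith
  have h03 : 0 ≤ x1 := h00.trans hx
  have el : α + κ * (s * x0 + t * x1) = s * (α + κ * x0) + t * (α + κ * x1) := by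
    have : α = (s + t) * α := by rw [hst, one_mul]
    linear_combination this
  rw [el]
  have e1 := Adm.sqrt_seg hs ht hst (by positivity) (by positivity) h0 h1 a0 a1
  have e2 := Adm.sqrt_seg hs ht hst (mul_nonneg hpi.le h02) (mul_nonneg hpi.le h01) h0 h1 b0 b1
  have c0' : Adm (Real.sqrt 1) (α + κ * x0) r0 := by rwa [Real.sqrt_one]
  have c1' : Adm (Real.sqrt 1) (α + κ * x1) r1 := by rwa [Real.sqrt_one]
  have e3 := Adm.sqrt_seg hs ht hst zero_le_one zero_le_one h0 h1 c0' c1'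
  have i1 : s * (Real.pi * x0) + t * (Real.pi * x1) = Real.pi * (s * x0 + t * x1) := by ring
  have i2 : s * (Real.pi * (1 - x0)) + t * (Real.pi * (1 - x1))
      = Real.pi * (1 - (s * x0 + t * x1)) := by
    have : s = 1 - t := by linarith
    rw [this]; ring
  have i3 : s * 1 + t * 1 = (1 : ℝ) := by linarith
  rw [i1] at e1
  rw [i2] at e2
  rw [i3, Real.sqrt_one] at e3
  exact Adm.FB e1 e2 (Or.inl e3)

/-- admissibility for `FB` along a segment to the right of `T + 0.0693` -/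
theorem Adm.FB_seg_right {T α κ x0 x1 r0 r1 s t : ℝ} (h00 : 0 ≤ x0) (hx : x0 ≤ x1)
    (hx1 : x1 ≤ 1) (hq : T + 0.0693 ≤ x0) (hs : 0 ≤ s) (ht : 0 ≤ t) (hst : s + t = 1)
    (h0 : r0 ^ 2 ≤ 1) (h1 : r1 ^ 2 ≤ 1)
    (a0 : Adm (Real.sqrt (Real.pi * x0)) (α + κ * x0) r0)
    (b0 : Adm (Real.sqrt (Real.pi * (1 - x0))) (α + κ * x0) r0)
    (c0 : Adm (Real.sqrt (1 + 0.82 * (x0 - (T + 0.0693)))) (α + κ * x0) r0)
    (a1 : Adm (Real.sqrt (Real.pi * x1)) (α + κ * x1) r1)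
    (b1 : Adm (Real.sqrt (Real.pi * (1 - x1))) (α + κ * x1) r1)
    (c1 : Adm (Real.sqrt (1 + 0.82 * (x1 - (T + 0.0693)))) (α + κ * x1) r1) :
    Adm (Vale.Agent.P232.FB T (s * x0 + t * x1)) (α + κ * (s * x0 + t * x1))
      (s * r0 + t * r1) := by
  have hpi := Real.pi_pos
  have h01 : 0 ≤ 1 - x1 := by linarith
  have h02 : 0 ≤ 1 - x0 := by linarith
  have h03 : 0 ≤ x1 := h00.trans hx
  have el : α + κ * (s * x0 + t * x1) = s * (α + κ * x0) + t * (α + κ * x1) := by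
    have : α = (s + t) * α := by rw [hst, one_mul]
    linear_combination this
  rw [el]
  have e1 := Adm.sqrt_seg hs ht hst (by positivity) (by positivity) h0 h1 a0 a1
  have e2 := Adm.sqrt_seg hs ht hst (mul_nonneg hpi.le h02) (mul_nonneg hpi.le h01) h0 h1 b0 b1
  have e3 := Adm.sqrt_seg hs ht hst (by linarith) (by linarith) h0 h1 c0 c1
  have i1 : s * (Real.pi * x0) + t * (Real.pi * x1) = Real.pi * (s * x0 + t * x1) := by ring
  have i2 : s * (Real.pi * (1 - x0)) + t * (Real.pi * (1 - x1))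
      = Real.pi * (1 - (s * x0 + t * x1)) := by
    have : s = 1 - t := by linarith
    rw [this]; ring
  have i3 : s * (1 + 0.82 * (x0 - (T + 0.0693))) + t * (1 + 0.82 * (x1 - (T + 0.0693)))
      = 1 + 0.82 * ((s * x0 + t * x1) - (T + 0.0693)) := by
    have : s = 1 - t := by linarith
    rw [this]; ring
  rw [i1] at e1
  rw [i2] at e2
  rw [i3] at e3
  refine Adm.FB e1 e2 (Or.inr ⟨?_, e3⟩)
  have k0 := mul_le_mul_of_nonneg_left hq hs
  have k1 := mul_le_mul_of_nonneg_left (hq.trans hx) ht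
  have k2 : s * (T + 0.0693) + t * (T + 0.0693) = T + 0.0693 := by rw [← add_mul, hst, one_mul]
  linarith

end Vale.Agent.P232.W
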