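import Vale.Agent.P232.TreeLeaf
import Vale.Agent.P232.TwoReal
import Vale.Agent.P232.NB1Def

/-!
# P232, module 2NB, outside the T-box: soundness of the certified search
-/

open MeasureTheory Set

namespace Vale.Agent.P232.NB1

open Vale.Agent.P232.N5 (M exists_seg M_real kp ap line_val line_cast)
open Vale.Agent.P232.NB2 (fc mn mx isq)
open Vale.Agent.P232.W

theorem fc_eq {β : Type} (n : ℕ) (f : ℕ → β) : fc n f = f n := by cases n <;> rfl

theorem ble_false {a b : ℕ} (h : b < a) : Nat.ble a b = false := by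
  rw [Bool.eq_false_iff]
  intro h2
  have := Nat.le_of_ble_eq_true h2
  omega

theorem mn_eq (a b : ℕ) : mn a b = min a b := by
  unfold mn
  rcases le_total a b with h | h
  · rw [min_eq_left h]
    have : Nat.ble a b = true := Nat.ble_eq_true_of_le h
    rw [this, cond_true]
  · rw [min_eq_right h]
    rcases h.eq_or_lt with h' | h'
    · rw [h']; cases Nat.ble a a <;> rfl
    · rw [ble_false h', cond_false]

theorem mx_eq (a b : ℕ) : mx a b = max a b := by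
  unfold mx
  rcases le_total a b with h | h
  · rw [max_eq_right h]
    have : Nat.ble a b = true := Nat.ble_eq_true_of_le h
    rw [this, cond_true]
  · rw [max_eq_left h]
    rcases h.eq_or_lt with h' | h'
    · rw [h']; cases Nat.ble a a <;> rfl
    · rw [ble_false h', cond_false]

theorem KC_meas : Measurable KC := by
  unfold KC
  fun_prop

theorem I2_meas' : Measurable I2 := by
  unfold I2
  fun_prop

theorem KC_nonneg' (a : ℝ) : 0 ≤ KC a := Real.sqrt_nonneg _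

theorem I2_nonneg' (a : ℝ) : 0 ≤ I2 a := by
  unfold I2
  exact le_min (le_min (Real.sqrt_nonneg _) zero_le_one) (Real.sqrt_nonneg _)

/-- admissible node -/
structure Nd (α1 α2 κ x r : ℝ) : Prop where
  x0 : 0 ≤ x
  x1 : x ≤ 1
  r0 : 0 ≤ r
  r1 : r ≤ 1
  l2 : 0 ≤ α2 + κ * x
  k : Adm (Real.sqrt (Real.pi * (1 - x))) (α1 + κ * x) r
  a : Adm (Real.sqrt (Real.pi * x)) (α2 + κ * x) r
  b : Adm (Real.sqrt (Real.pi * (1 - x))) (α2 + κ * x) r
  c : Adm 1 (α2 + κ * x) r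

theorem Nd.seg {α1 α2 κ x0 x1 r0 r1 s t : ℝ} (h0 : Nd α1 α2 κ x0 r0)
    (h1 : Nd α1 α2 κ x1 r1) (hs : 0 ≤ s) (ht : 0 ≤ t) (hst : s + t = 1) :
    0 ≤ α2 + κ * (s * x0 + t * x1) ∧
      Adm (KC (s * x0 + t * x1)) (α1 + κ * (s * x0 + t * x1)) (s * r0 + t * r1) ∧
      Adm (I2 (s * x0 + t * x1)) (α2 + κ * (s * x0 + t * x1)) (s * r0 + t * r1) := by
  have hpi := Real.pi_pos
  have hr0 : r0 ^ 2 ≤ 1 := by nlinarith [h0.r0, h0.r1]
  have hr1 : r1 ^ 2 ≤ 1 := by nlinarith [h1.r0, h1.r1]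
  have el : ∀ α : ℝ, α + κ * (s * x0 + t * x1) = s * (α + κ * x0) + t * (α + κ * x1) := by
    intro α
    have : α = (s + t) * α := by rw [hst, one_mul]
    linear_combination this
  have g0 : 0 ≤ Real.pi * x0 := mul_nonneg hpi.le h0.x0
  have g1 : 0 ≤ Real.pi * x1 := mul_nonneg hpi.le h1.x0
  have g2 : 0 ≤ Real.pi * (1 - x0) := mul_nonneg hpi.le (by linarith [h0.x1])
  have g3 : 0 ≤ Real.pi * (1 - x1) := mul_nonneg hpi.le (by linarith [h1.x1])
  have i1 : s * (Real.pi * x0) + t * (Real.pi * x1) = Real.pi * (s * x0 + t * x1) := by ring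
  have i2 : s * (Real.pi * (1 - x0)) + t * (Real.pi * (1 - x1))
      = Real.pi * (1 - (s * x0 + t * x1)) := by
    have : s = 1 - t := by linarith
    rw [this]; ring
  have i3 : s * 1 + t * 1 = (1 : ℝ) := by linarith
  refine ⟨?_, ?_, ?_⟩
  · rw [el]
    exact add_nonneg (mul_nonneg hs h0.l2) (mul_nonneg ht h1.l2)
  · have e := Adm.sqrt_seg hs ht hst g2 g3 hr0 hr1 h0.k h1.k
    rw [i2] at e
    rw [el]
    exact e
  · rw [el]
    have e1 := Adm.sqrt_seg hs ht hst g0 g1 hr0 hr1 h0.a h1.a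
    have e2 := Adm.sqrt_seg hs ht hst g2 g3 hr0 hr1 h0.b h1.b
    have c0' : Adm (Real.sqrt 1) (α2 + κ * x0) r0 := by rw [Real.sqrt_one]; exact h0.c
    have c1' : Adm (Real.sqrt 1) (α2 + κ * x1) r1 := by rw [Real.sqrt_one]; exact h1.c
    have e3 := Adm.sqrt_seg hs ht hst zero_le_one zero_le_one hr0 hr1 c0' c1'
    rw [i1] at e1
    rw [i2] at e2
    rw [i3, Real.sqrt_one] at e3
    unfold I2
    exact Adm.min (Adm.min e1 e3) e2

theorem Nd.line {α1 α2 κ x0 x1 a : ℝ} (h0 : Nd α1 α2 κ x0 0)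
    (h1 : Nd α1 α2 κ x1 0) (ha : a ∈ Icc x0 x1) :
    0 ≤ α2 + κ * a ∧ α1 + κ * a ≤ KC a ∧ α2 + κ * a ≤ I2 a := by
  obtain ⟨s, t, hs, ht, hst, rfl⟩ := exists_seg ha
  obtain ⟨g1, g2, g3⟩ := Nd.seg h0 h1 hs ht hst
  have e0 : s * (0 : ℝ) + t * 0 = 0 := by ring
  rw [e0] at g2 g3
  exact ⟨g1, Adm.zero_iff.1 g2, Adm.zero_iff.1 g3⟩

theorem Nd.int {α1 α2 κ x0 x1 r0 r1 : ℝ} (hx : x0 ≤ x1)
    (h0 : Nd α1 α2 κ x0 r0) (h1 : Nd α1 α2 κ x1 r1) :
    (x1 - x0) * (r0 + r1) / 2 ≤ ∫ a in x0..x1, qf2 KC I2 α1 α2 κ a := by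
  refine int2_seg KC_meas I2_meas' hx ⟨h0.r0, h0.r1⟩ ⟨h1.r0, h1.r1⟩
    fun s t hs ht hst => ?_
  obtain ⟨g1, g2, g3⟩ := Nd.seg h0 h1 hs ht hst
  exact ⟨KC_nonneg' _, I2_nonneg' _, g1, g2, g3⟩

theorem ndOK_sound {b1 c2 la mu u X r : ℕ} (hbc : b1 < c2) (hcM : c2 ≤ M)
    (h : ndOK b1 c2 la mu u X r = true) :
    Nd (ap b1 c2 la mu + (u : ℝ) / 1000000) (ap b1 c2 la mu) (kp b1 c2 la mu)
      ((X : ℝ) / 1000000) ((r : ℝ) / 1000000) := by
  unfold ndOK ndC at h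
  simp only [fc_eq, Bool.and_eq_true, Nat.ble_eq] at h
  obtain ⟨hX1, hX2, hrM, k3, k1, k2, k4⟩ := h
  have hd : (0 : ℝ) < (c2 : ℝ) - b1 := by
    have : (b1 : ℝ) < c2 := by exact_mod_cast hbc
    linarith
  have hXM : X ≤ M := hX2.trans hcM
  have hXMr : (X : ℝ) ≤ 1000000 := by rw [← M_real]; exact_mod_cast hXM
  have hrMr : (r : ℝ) ≤ 1000000 := by rw [← M_real]; exact_mod_cast hrM
  have hX0 : (0 : ℝ) ≤ X := Nat.cast_nonneg X
  have hr0 : (0 : ℝ) ≤ r := Nat.cast_nonneg r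
  have hr2 : r * r ≤ M * M := Nat.mul_le_mul hrM hrM
  have hl := line_cast (la := la) (mu := mu) hX1 hX2
  generalize la * (c2 - X) + mu * (X - b1) = n at k1 k2 k3 k4 hl
  have hs : (((M * M - r * r) * ((c2 - b1) * (c2 - b1)) : ℕ) : ℝ) =
      (1000000 ^ 2 - (r : ℝ) ^ 2) * ((c2 : ℝ) - b1) ^ 2 := by
    push_cast [Nat.cast_sub hbc.le, Nat.cast_sub hr2, M_real]
    ring
  have hn1 : ((n + u * (c2 - b1) : ℕ) : ℝ) = (n : ℝ) + u * ((c2 : ℝ) - b1) := by
    push_cast [Nat.cast_sub hbc.le]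
    ring
  generalize (M * M - r * r) * ((c2 - b1) * (c2 - b1)) = s at k1 k2 k3 k4 hs
  generalize n + u * (c2 - b1) = n1 at k4 hn1
  set D : ℝ := (c2 : ℝ) - b1 with hD
  set L : ℝ := (la : ℝ) * (c2 - X) + mu * (X - b1) with hL
  have hv : ap b1 c2 la mu + kp b1 c2 la mu * ((X : ℝ) / 1000000) = L / (1000000 * D) :=
    line_val hbc X
  have hv1 : ap b1 c2 la mu + (u : ℝ) / 1000000 + kp b1 c2 la mu * ((X : ℝ) / 1000000) =
      (n1 : ℝ) / (1000000 * D) := by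
    rw [hn1, hl]
    have : (L + u * D) / (1000000 * D) = L / (1000000 * D) + (u : ℝ) / 1000000 := by
      field_simp
    rw [this, ← hv]
    ring
  have hA : 0 ≤ 1 - ((r : ℝ) / 1000000) ^ 2 := by
    have : ((r : ℝ) / 1000000) ^ 2 ≤ 1 := by
      rw [div_pow, div_le_one (by norm_num)]
      nlinarith
    linarith
  have hpi : (3.1415 : ℝ) ≤ Real.pi := Real.pi_gt_d4.le
  have hpi0 := Real.pi_pos
  have hle : ∀ (w : ℝ) (m : ℕ), (m : ℝ) ^ 2 ≤ w * s →
      ((m : ℝ) / (1000000 * D)) ^ 2 ≤ (1 - ((r : ℝ) / 1000000) ^ 2) * w := by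
    intro w m hw
    rw [div_pow, div_le_iff₀ (by positivity)]
    have e : (1 - ((r : ℝ) / 1000000) ^ 2) * w * (1000000 * D) ^ 2 =
        w * ((1000000 ^ 2 - (r : ℝ) ^ 2) * D ^ 2) := by ring
    rw [e, ← hs]
    exact hw
  have hnL : L = (n : ℝ) := hl.symm
  have hL0 : 0 ≤ L / (1000000 * D) := by
    rw [hnL]
    positivity
  have hx1 : (X : ℝ) / 1000000 ≤ 1 := by
    rw [div_le_one (by norm_num)]; exact hXMr
  have hs0 : (0 : ℝ) ≤ s := Nat.cast_nonneg s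
  have q1 : (0 : ℝ) ≤ 1 - (X : ℝ) / 1000000 := by linarith
  -- the bound by the second root for a line value `m`
  have hroot2 : ∀ m : ℕ, 10000000000 * (m * m) ≤ 31415 * (M - X) * s →
      ((m : ℝ) / (1000000 * D)) ^ 2 ≤
        (1 - ((r : ℝ) / 1000000) ^ 2) * (Real.pi * (1 - (X : ℝ) / 1000000)) := by
    intro m hm
    have hm' := (Nat.cast_le (α := ℝ)).mpr hm
    push_cast [Nat.cast_sub hXM, M_real] at hm'
    refine (hle (3.1415 * (1 - (X : ℝ) / 1000000)) m ?_).trans ?_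
    · have e : 3.1415 * (1 - (X : ℝ) / 1000000) * (s : ℝ) =
          31415 * (1000000 - X) * s / 10 ^ 10 := by ring
      rw [e, le_div_iff₀ (by positivity)]
      linarith
    · exact mul_le_mul_of_nonneg_left (mul_le_mul_of_nonneg_right hpi q1) hA
  refine ⟨by positivity, hx1, by positivity, ?_, ?_, ?_, ?_, ?_, ?_⟩
  · rw [div_le_one (by norm_num)]; exact hrMr
  · rw [hv]; exact hL0
  · rw [hv1]
    exact Adm.of_sqrt (mul_nonneg hpi0.le q1) (hroot2 n1 k4)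
  · -- first root
    rw [hv, hnL]
    refine Adm.of_sqrt (by positivity) ?_
    have hm' := (Nat.cast_le (α := ℝ)).mpr k1
    push_cast at hm'
    refine (hle (3.1415 * ((X : ℝ) / 1000000)) n ?_).trans ?_
    · have e : 3.1415 * ((X : ℝ) / 1000000) * (s : ℝ) = 31415 * X * s / 10 ^ 10 := by ring
      rw [e, le_div_iff₀ (by positivity)]
      linarith
    · exact mul_le_mul_of_nonneg_left (mul_le_mul_of_nonneg_right hpi (by positivity)) hA
  · rw [hv, hnL]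
    exact Adm.of_sqrt (mul_nonneg hpi0.le q1) (hroot2 n k2)
  · have k3' := (Nat.cast_le (α := ℝ)).mpr k3
    push_cast at k3'
    rw [hv, hnL]
    refine Adm.of_sq zero_le_one ?_
    rw [one_pow]
    exact hle 1 n (by nlinarith)

theorem cle {x y : ℕ} (h : x ≤ y) : (x : ℝ) / 1000000 ≤ (y : ℝ) / 1000000 := by
  have h2 : (x : ℝ) ≤ y := by exact_mod_cast h
  exact div_le_div_of_nonneg_right h2 (by norm_num)

theorem go_sound {b1 c2 la mu u lo hi : ℕ} (hbc : b1 < c2) (hcM : c2 ≤ M) :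
    ∀ (j X r acc : ℕ),
      Nd (ap b1 c2 la mu + (u : ℝ) / 1000000) (ap b1 c2 la mu) (kp b1 c2 la mu)
        ((X : ℝ) / 1000000) ((r : ℝ) / 1000000) → X ≤ hi →
      (go b1 c2 la mu u lo hi j X r acc : ℝ) ≤ acc + 2000000000000 *
        ∫ a in ((X : ℝ) / 1000000)..((hi : ℝ) / 1000000),
          qf2 KC I2 (ap b1 c2 la mu + (u : ℝ) / 1000000) (ap b1 c2 la mu)
            (kp b1 c2 la mu) a := by
  intro j
  induction j with
  | zero =>
    intro X r acc _ hX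
    have := int2_nonneg (K1 := KC) (K2 := I2) (α1 := ap b1 c2 la mu + (u : ℝ) / 1000000)
      (α2 := ap b1 c2 la mu) (κ := kp b1 c2 la mu) (cle hX)
    unfold go
    linarith
  | succ j ih =>
    intro X r acc hN hX
    have hpos := int2_nonneg (K1 := KC) (K2 := I2)
      (α1 := ap b1 c2 la mu + (u : ℝ) / 1000000)
      (α2 := ap b1 c2 la mu) (κ := kp b1 c2 la mu) (cle hX)
    have hacc : (0 : ℝ) ≤ acc := Nat.cast_nonneg acc
    unfold go
    simp only [fc_eq]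
    generalize nd lo hi (16 - j) = Y
    generalize rn b1 c2 la mu u Y = ρ
    cases hb : (ndOK b1 c2 la mu u Y ρ && (Nat.ble X Y && Nat.ble Y hi))
    · rw [cond_false]
      push_cast
      positivity
    · rw [cond_true]
      simp only [Bool.and_eq_true, Nat.ble_eq] at hb
      obtain ⟨hn, hXY, hYhi⟩ := hb
      have hN' := ndOK_sound hbc hcM hn
      have h1 := ih Y ρ (acc + (Y - X) * (r + ρ)) hN' hYhi
      have h2 := Nd.int (cle hXY) hN hN'
      have h3 := intervalIntegral.integral_add_adjacent_intervals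
        (qf2_int KC_meas I2_meas' (ap b1 c2 la mu + (u : ℝ) / 1000000) (ap b1 c2 la mu)
          (kp b1 c2 la mu) ((X : ℝ) / 1000000) ((Y : ℝ) / 1000000))
        (qf2_int KC_meas I2_meas' (ap b1 c2 la mu + (u : ℝ) / 1000000) (ap b1 c2 la mu)
          (kp b1 c2 la mu) ((Y : ℝ) / 1000000) ((hi : ℝ) / 1000000))
      rw [← h3]
      rw [Nat.cast_add, Nat.cast_mul, Nat.cast_sub hXY, Nat.cast_add] at h1
      have e : ((Y : ℝ) / 1000000 - (X : ℝ) / 1000000) * ((r : ℝ) / 1000000 + (ρ : ℝ) / 1000000) / 2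
          = ((Y : ℝ) - X) * (r + ρ) / 2000000000000 := by ring
      rw [e, div_le_iff₀ (by norm_num)] at h2
      linarith

theorem tt_sound {b1 b2 c1 c2 la mu u : ℕ} (hbc : b1 < c2) (hcM : c2 ≤ M) {b c : ℝ}
    (hb : b ≤ (b2 : ℝ) / 1000000) (hc : (c1 : ℝ) / 1000000 ≤ c) (h : b ≤ c) :
    (tt b1 c2 la mu u b2 c1 : ℝ) / 2000000000000 ≤
      cal2 KC I2 (ap b1 c2 la mu + (u : ℝ) / 1000000) (ap b1 c2 la mu) (kp b1 c2 la mu) b c := by
  rw [cal2_eq]
  have hpos := int2_nonneg (K1 := KC) (K2 := I2)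
      (α1 := ap b1 c2 la mu + (u : ℝ) / 1000000)
      (α2 := ap b1 c2 la mu) (κ := kp b1 c2 la mu) h
  unfold tt
  cases h1 : Nat.blt b2 c1
  · rw [cond_false]
    simpa using hpos
  · rw [cond_true]
    rw [Nat.blt_eq] at h1
    simp only [fc_eq]
    cases h2 : ndOK b1 c2 la mu u b2 (rn b1 c2 la mu u b2)
    · rw [cond_false]
      simpa using hpos
    · rw [cond_true]
      have hN := ndOK_sound hbc hcM h2
      have h3 := go_sound (lo := b2) (hi := c1) hbc hcM 16 b2 _ 0 hN h1.le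
      have h5 := int2_mono KC_meas I2_meas' (α1 := ap b1 c2 la mu + (u : ℝ) / 1000000)
        (α2 := ap b1 c2 la mu) (κ := kp b1 c2 la mu) hb (cle h1.le) hc
      rw [div_le_iff₀ (by norm_num)]
      push_cast at h3
      linarith

theorem t2_sound {b1 c2 la mu T Va Vb : ℕ} (hbc : b1 < c2) (ha1 : b1 ≤ Va)
    (ha2 : Va ≤ c2) (hb1 : b1 ≤ Vb) (hb2 : Vb ≤ c2)
    (h : t2 b1 c2 la mu T Va Vb = true) {v : ℝ} (hv : v ∈ Icc (Va : ℝ) Vb) :
    1 + 1 / 10 ^ 6 ≤
      (ap b1 c2 la mu + kp b1 c2 la mu * (v / 1000000)) + (T : ℝ) / 2000000000000 := by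
  rw [line_val hbc]
  have hD : (0 : ℝ) < (c2 : ℝ) - b1 := by
    have : (b1 : ℝ) < c2 := by exact_mod_cast hbc
    linarith
  have hv0 : 0 ≤ v := (Nat.cast_nonneg Va).trans hv.1
  have eva := N5.ev_cast (la := la) (mu := mu) (T := T) ha1 ha2
  have evb := N5.ev_cast (la := la) (mu := mu) (T := T) hb1 hb2
  have hsub : ((c2 - b1 : ℕ) : ℝ) = (c2 : ℝ) - b1 := Nat.cast_sub hbc.le
  set D : ℝ := (c2 : ℝ) - b1 with hDdef
  have key : ((la : ℝ) * (c2 - v) + mu * (v - b1)) / (1000000 * D) + (T : ℝ) / 2000000000000 =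
      (2000000 * ((la : ℝ) * (c2 - v) + mu * (v - b1)) + D * T) / (2000000000000 * D) := by
    field_simp
    ring
  rw [key, le_div_iff₀ (by positivity)]
  unfold t2 at h
  simp only [Bool.and_eq_true, Nat.ble_eq] at h
  obtain ⟨ka, kb⟩ := h
  have ka' := (Nat.cast_le (α := ℝ)).mpr ka
  have kb' := (Nat.cast_le (α := ℝ)).mpr kb
  push_cast [hsub, M_real, eva] at ka'
  push_cast [hsub, M_real, evb] at kb'
  have G := N5.aff (P := 2000000 * ((la : ℝ) * c2 - mu * b1) + D * T - 2000000 * 1000001 * D)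
    (Q := 2000000 * ((mu : ℝ) - la)) hv (by linarith) (by linarith)
  linarith

theorem t0_sound {b1 c2 la mu T Va Vb t : ℕ} (hbc : b1 < c2) (ha1 : b1 ≤ Va)
    (ha2 : Va ≤ c2) (hb1 : b1 ≤ Vb) (hb2 : Vb ≤ c2)
    (h : t0 b1 c2 la mu T Va Vb t = true) {v : ℝ} (hv : v ∈ Icc (Va : ℝ) Vb) :
    Jh (v / 1000000) + 1 / 10 ^ 6 ≤
      (ap b1 c2 la mu + kp b1 c2 la mu * (v / 1000000)) + (T : ℝ) / 2000000000000 := by
  rw [line_val hbc]
  have hD : (0 : ℝ) < (c2 : ℝ) - b1 := by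
    have : (b1 : ℝ) < c2 := by exact_mod_cast hbc
    linarith
  have hv0 : 0 ≤ v := (Nat.cast_nonneg Va).trans hv.1
  have eva := N5.ev_cast (la := la) (mu := mu) (T := T) ha1 ha2
  have evb := N5.ev_cast (la := la) (mu := mu) (T := T) hb1 hb2
  have hsub : ((c2 - b1 : ℕ) : ℝ) = (c2 : ℝ) - b1 := Nat.cast_sub hbc.le
  set D : ℝ := (c2 : ℝ) - b1 with hDdef
  have key : ((la : ℝ) * (c2 - v) + mu * (v - b1)) / (1000000 * D) + (T : ℝ) / 2000000000000 =
      (2000000 * ((la : ℝ) * (c2 - v) + mu * (v - b1)) + D * T) / (2000000000000 * D) := by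
    field_simp
    ring
  rw [key, le_div_iff₀ (by positivity)]
  unfold t0 at h
  simp only [Bool.and_eq_true, Nat.ble_eq] at h
  obtain ⟨ht1, ka, kb⟩ := h
  have htr : (0 : ℝ) < t := by exact_mod_cast ht1
  have ka' := (Nat.cast_le (α := ℝ)).mpr ka
  have kb' := (Nat.cast_le (α := ℝ)).mpr kb
  push_cast [hsub, M_real, eva] at ka'
  push_cast [hsub, M_real, evb] at kb'
  have G := N5.aff (P := (2000000 * ((la : ℝ) * c2 - mu * b1) + D * T) * 10000 * t
      - D * (t ^ 2 * 1000000 * 10000 + 20000 * 1000000 * t))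
      (Q := 2000000 * ((mu : ℝ) - la) * 10000 * t
      - D * (31416 * 1000000 ^ 2)) hv (by linarith) (by linarith)
  have J := N5.Jh_le_tube (V := v / 1000000) (τ := t / 1000000) (by positivity) (by positivity)
  have e : ((3.1416 * (v / 1000000) / ((t : ℝ) / 1000000) + t / 1000000) / 2 + 1 / 10 ^ 6) *
      (2000000000000 * D) =
      D * (31416 * v * 1000000 ^ 2 + t ^ 2 * 1000000 * 10000 + 20000 * 1000000 * t) /
        (10000 * t) := by
    field_simp
    ring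
  calc (Jh (v / 1000000) + 1 / 10 ^ 6) * (2000000000000 * D)
      ≤ ((3.1416 * (v / 1000000) / ((t : ℝ) / 1000000) + t / 1000000) / 2 + 1 / 10 ^ 6) *
      (2000000000000 * D) := mul_le_mul_of_nonneg_right (by linarith) (by positivity)
    _ = _ := e
    _ ≤ _ := by
      rw [div_le_iff₀ (by positivity)]
      linarith

/-- the conclusion -/
def Good (V b c : ℝ) : Prop :=
  ∃ α1 α2 κ : ℝ,
    (∀ a ∈ Set.Icc b c, 0 ≤ α1 + κ * a ∧ α1 + κ * a ≤ KC a) ∧
    (∀ a ∈ Set.Icc b c, 0 ≤ α2 + κ * a ∧ α2 + κ * a ≤ I2 a) ∧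
    Jh V + 1 / 10 ^ 6 ≤ α1 * 0.13 + α2 * (1 - 0.13) + κ * V + cal2 KC I2 α1 α2 κ b c

/-- `(V, b, c)` is in the box -/
structure In (b1 b2 c1 c2 V1 V2 : ℕ) (V b c : ℝ) : Prop where
  b1 : (b1 : ℝ) / 1000000 ≤ b
  b2 : b ≤ (b2 : ℝ) / 1000000
  c1 : (c1 : ℝ) / 1000000 ≤ c
  c2 : c ≤ (c2 : ℝ) / 1000000
  V1 : (V1 : ℝ) / 1000000 ≤ V
  V2 : V ≤ (V2 : ℝ) / 1000000
  hbV : b ≤ V
  hVc : V ≤ c

theorem lf1_sound {b1 b2 c1 c2 V1 V2 la mu u : ℕ}
    (h : lf1 b1 b2 c1 c2 la mu u (max V1 b1) (min V2 c2) = true) {V b c : ℝ}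
    (hI : In b1 b2 c1 c2 V1 V2 V b c) : Good V b c := by
  unfold lf1 at h
  simp only [fc_eq, Bool.and_eq_true, Nat.ble_eq, Nat.blt_eq, Bool.or_eq_true] at h
  obtain ⟨hbc, hcM, n1, n2, h⟩ := h
  have N1 := ndOK_sound hbc hcM n1
  have N2 := ndOK_sound hbc hcM n2
  rw [Nat.cast_zero, zero_div] at N1 N2
  have hline : ∀ a ∈ Icc b c, 0 ≤ ap b1 c2 la mu + kp b1 c2 la mu * a ∧
      ap b1 c2 la mu + (u : ℝ) / 1000000 + kp b1 c2 la mu * a ≤ KC a ∧
      ap b1 c2 la mu + kp b1 c2 la mu * a ≤ I2 a := fun a ha =>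
    Nd.line N1 N2 ⟨hI.b1.trans ha.1, ha.2.trans hI.c2⟩
  have hu : (0 : ℝ) ≤ (u : ℝ) / 1000000 := by positivity
  refine ⟨ap b1 c2 la mu + (u : ℝ) / 1000000, ap b1 c2 la mu, kp b1 c2 la mu,
    fun a ha => ⟨?_, (hline a ha).2.1⟩, fun a ha => ⟨(hline a ha).1, (hline a ha).2.2⟩, ?_⟩
  · have := (hline a ha).1
    linarith
  · set v : ℝ := V * 1000000 with hv
    have hVv : V = v / 1000000 := by rw [hv]; field_simp
    have hva : ((max V1 b1 : ℕ) : ℝ) ≤ v := by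
      rw [Nat.cast_max]
      apply max_le
      · have := hI.V1
        rw [div_le_iff₀ (by norm_num)] at this; exact this
      · have := hI.b1.trans hI.hbV
        rw [div_le_iff₀ (by norm_num)] at this; exact this
    have hvb : v ≤ ((min V2 c2 : ℕ) : ℝ) := by
      rw [Nat.cast_min]
      apply le_min
      · have := hI.V2
        rw [le_div_iff₀ (by norm_num)] at this; exact this
      · have := hI.hVc.trans hI.c2
        rw [le_div_iff₀ (by norm_num)] at this; exact this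
    have hab : max V1 b1 ≤ min V2 c2 := by exact_mod_cast hva.trans hvb
    have h2 := tt_sound (u := u) (la := la) (mu := mu) (b2 := b2) (c1 := c1) hbc hcM hI.b2
      hI.c1 (hI.hbV.trans hI.hVc)
    have key : Jh V + 1 / 10 ^ 6 ≤ ap b1 c2 la mu + kp b1 c2 la mu * V +
        ((tt b1 c2 la mu u b2 c1 + 260000 * u : ℕ) : ℝ) / 2000000000000 := by
      rcases h with h | h | h
      · exact absurd h (not_lt.mpr hab)
      · have h3 := t2_sound hbc (le_max_right V1 b1) (hab.trans (min_le_right _ _))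
          ((le_max_right V1 b1).trans hab) (min_le_right _ _) h ⟨hva, hvb⟩
        rw [← hVv] at h3
        have h4 : Jh V ≤ 1 := min_le_right _ _
        linarith
      · have h3 := t0_sound hbc (le_max_right V1 b1) (hab.trans (min_le_right _ _))
          ((le_max_right V1 b1).trans hab) (min_le_right _ _) h ⟨hva, hvb⟩
        rw [← hVv] at h3
        exact h3
    push_cast at key
    have e1 : ((tt b1 c2 la mu u b2 c1 : ℝ) + 260000 * u) / 2000000000000 =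
        (tt b1 c2 la mu u b2 c1 : ℝ) / 2000000000000 + 0.13 * ((u : ℝ) / 1000000) := by ring
    rw [e1] at key
    linarith

theorem leaf_sound {b1 b2 c1 c2 V1 V2 : ℕ} (h : leaf b1 b2 c1 c2 V1 V2 = true) {V b c : ℝ}
    (hI : In b1 b2 c1 c2 V1 V2 V b c) : Good V b c := by
  unfold leaf at h
  simp only [fc_eq, mn_eq, mx_eq] at h
  exact lf1_sound h hI

/-- the regions treated elsewhere -/
def Skip (V b c : ℝ) : Prop :=
  (b ≤ 0.001 ∧ 0.55 ≤ c ∧ c ≤ 0.82 ∧ 0.284 ≤ V ∧ V ≤ 0.3236) ∨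
  (0.3 ≤ V ∧ b ≤ 0.007 ∧ 0.993 ≤ c)

theorem sk_sound {b1 b2 c1 c2 V1 V2 : ℕ} (h : sk b1 b2 c1 c2 V1 V2 = true) {V b c : ℝ}
    (hI : In b1 b2 c1 c2 V1 V2 V b c) : Skip V b c := by
  unfold sk at h
  simp only [Bool.and_eq_true, Nat.ble_eq, Nat.blt_eq, Bool.or_eq_true] at h
  have hb1 := hI.b1
  have hb2 := hI.b2
  have hc1 := hI.c1
  have hc2 := hI.c2
  have hV1 := hI.V1
  have hV2 := hI.V2
  have hbV := hI.hbV
  have hVc := hI.hVc
  rcases h with h | h | h | h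
  · exfalso
    have h' : (c2 : ℝ) < V1 := by exact_mod_cast h
    have : (c2 : ℝ) / 1000000 < (V1 : ℝ) / 1000000 := div_lt_div_of_pos_right h' (by norm_num)
    linarith
  · exfalso
    have h' : (V2 : ℝ) < b1 := by exact_mod_cast h
    have : (V2 : ℝ) / 1000000 < (b1 : ℝ) / 1000000 := div_lt_div_of_pos_right h' (by norm_num)
    linarith
  · obtain ⟨g1, g2, g3, g4, g5⟩ := h
    have g1' : (b2 : ℝ) ≤ 1000 := by exact_mod_cast g1
    have g2' : (550000 : ℝ) ≤ c1 := by exact_mod_cast g2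
    have g3' : (c2 : ℝ) ≤ 820000 := by exact_mod_cast g3
    have g4' : (284000 : ℝ) ≤ V1 := by exact_mod_cast g4
    have g5' : (V2 : ℝ) ≤ 323600 := by exact_mod_cast g5
    refine Or.inl ⟨?_, ?_, ?_, ?_, ?_⟩ <;> norm_num <;> linarith
  · obtain ⟨g1, g2, g3⟩ := h
    have g1' : (300000 : ℝ) ≤ V1 := by exact_mod_cast g1
    have g2' : (b2 : ℝ) ≤ 7000 := by exact_mod_cast g2
    have g3' : (993000 : ℝ) ≤ c1 := by exact_mod_cast g3
    refine Or.inr ⟨?_, ?_, ?_⟩ <;> norm_num <;> linarith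

theorem chk_sound (t : Tr) : ∀ {b1 b2 c1 c2 V1 V2 : ℕ},
    chk t b1 b2 c1 c2 V1 V2 = true → ∀ {V b c : ℝ},
    In b1 b2 c1 c2 V1 V2 V b c → Good V b c ∨ Skip V b c := by
  induction t with
  | S =>
    intro b1 b2 c1 c2 V1 V2 h V b c hI
    exact Or.inr (sk_sound h hI)
  | L =>
    intro b1 b2 c1 c2 V1 V2 h V b c hI
    exact Or.inl (leaf_sound h hI)
  | B m l r hl hr =>
    intro b1 b2 c1 c2 V1 V2 h V b c hI
    unfold chk at h
    simp only [Bool.and_eq_true] at h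
    rcases le_total b ((m : ℝ) / 1000000) with hm | hm
    · exact hl h.1 { hI with b2 := hm }
    · exact hr h.2 { hI with b1 := hm }
  | C m l r hl hr =>
    intro b1 b2 c1 c2 V1 V2 h V b c hI
    unfold chk at h
    simp only [Bool.and_eq_true] at h
    rcases le_total c ((m : ℝ) / 1000000) with hm | hm
    · exact hl h.1 { hI with c2 := hm }
    · exact hr h.2 { hI with c1 := hm }
  | V m l r hl hr =>
    intro b1 b2 c1 c2 V1 V2 h V b c hI
    unfold chk at h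
    simp only [Bool.and_eq_true] at h
    rcases le_total V ((m : ℝ) / 1000000) with hm | hm
    · exact hl h.1 { hI with V2 := hm }
    · exact hr h.2 { hI with V1 := hm }

end Vale.Agent.P232.NB1
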