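import Vale.Agent.P232.NumT
import Vale.Agent.P232.TwoReal

/-!
# P232, module 2NB outside the T-box and the corner (helper91)
-/

open MeasureTheory Set

namespace Vale.Agent.P232

theorem NT_KC_meas : Measurable KC := by
  unfold KC
  fun_prop

theorem NT_I2_meas : Measurable I2 := by
  unfold I2
  fun_prop

/-- if `0 ≤ l ≤ K ≤ K'` then `l / K' ≤ l / K` -/
theorem NT_div_le' {l K K' : ℝ} (h0 : 0 ≤ l) (h1 : l ≤ K) (h2 : K ≤ K') : l / K' ≤ l / K := by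
  rcases (h0.trans h1).eq_or_lt with h | h
  · have hl : l = 0 := le_antisymm (by rw [h]; exact h1) h0
    rw [hl, zero_div, zero_div]
  · exact div_le_div_of_nonneg_left h0 h h2

/-- monotonicity of `cal2` in the profiles -/
theorem NT_cal2_mono {K1 K2 K1' K2' : ℝ → ℝ} {α1 α2 κ b c : ℝ} (m1 : Measurable K1)
    (m2 : Measurable K2) (m1' : Measurable K1') (m2' : Measurable K2') (hbc : b ≤ c)
    (h1 : ∀ a ∈ Icc b c, 0 ≤ α1 + κ * a ∧ α1 + κ * a ≤ K1 a)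
    (h2 : ∀ a ∈ Icc b c, 0 ≤ α2 + κ * a ∧ α2 + κ * a ≤ K2 a)
    (k1 : ∀ a ∈ Icc b c, K1 a ≤ K1' a) (k2 : ∀ a ∈ Icc b c, K2 a ≤ K2' a) :
    cal2 K1 K2 α1 α2 κ b c ≤ cal2 K1' K2' α1 α2 κ b c := by
  rw [W.cal2_eq, W.cal2_eq]
  refine intervalIntegral.integral_mono_on hbc (W.qf2_int m1 m2 _ _ _ _ _)
    (W.qf2_int m1' m2' _ _ _ _ _) fun a ha => ?_
  unfold W.qf2
  apply Real.sqrt_le_sqrt
  have e1 := NT_div_le' (h1 a ha).1 (h1 a ha).2 (k1 a ha)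
  have e2 := NT_div_le' (h2 a ha).1 (h2 a ha).2 (k2 a ha)
  have e0 : 0 ≤ (α1 + κ * a) / K1' a :=
    div_nonneg (h1 a ha).1 (((h1 a ha).1.trans (h1 a ha).2).trans (k1 a ha))
  have e3 := pow_le_pow_left₀ (le_max_of_le_left e0) (max_le_max e1 e2) 2
  linarith

/-- line 1 below `KC`, line 2 below `I2`, slack `10⁻⁶` -/
theorem num_B1_s {V b c : ℝ} (hV : V ∈ Set.Icc (0.263 : ℝ) 0.361) (hb : 0 ≤ b) (hbV : b ≤ V)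
    (hc : V ≤ c) (hc1 : c ≤ 1)
    (hbox : ¬ (b ≤ 0.001 ∧ 0.55 ≤ c ∧ c ≤ 0.82 ∧ 0.284 ≤ V ∧ V ≤ 0.3236))
    (hcor : ¬ (0.3 ≤ V ∧ b ≤ 0.007 ∧ 0.993 ≤ c)) :
    ∃ α1 α2 κ : ℝ, (∀ a ∈ Set.Icc b c, 0 ≤ α1 + κ * a ∧ α1 + κ * a ≤ KC a) ∧
      (∀ a ∈ Set.Icc b c, 0 ≤ α2 + κ * a ∧ α2 + κ * a ≤ I2 a) ∧
      Jh V + 1 / 10 ^ 6 ≤ α1 * 0.13 + α2 * (1 - 0.13) + κ * V + cal2 KC I2 α1 α2 κ b c := by
  rcases NT.allB hV hb hbV hc hc1 with (h | h) | ⟨α1, α2, κ, h1, h2, h3, h4⟩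
  · exact absurd h hbox
  · exact absurd h hcor
  · rw [NT.profC_iso] at h1 h4
    rw [NT.profI_iso] at h2 h4
    refine ⟨α1, α2, κ, fun a ha => ⟨?_, h1 a ha⟩, h2, h4⟩
    have := (h2 a ha).1
    have := h3 trivial
    linarith

/-- the second alternative of `num_B` outside the T-box and the corner, slack `10⁻⁶` -/
theorem num_B1_T {V b c T : ℝ} (hV : V ∈ Set.Icc (0.263 : ℝ) 0.361) (hb : 0 ≤ b) (hbV : b ≤ V)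
    (hc : V ≤ c) (hc1 : c ≤ 1)
    (hbox : ¬ (b ≤ 0.001 ∧ 0.55 ≤ c ∧ c ≤ 0.82 ∧ 0.284 ≤ V ∧ V ≤ 0.3236))
    (hcor : ¬ (0.3 ≤ V ∧ b ≤ 0.007 ∧ 0.993 ≤ c)) :
    ∃ α1 α2 κ : ℝ,
      (∀ a ∈ Set.Icc b c, 0 ≤ α1 + κ * a ∧ α1 + κ * a ≤ KT (min 0.9 (max 0 (T - 0.002))) a) ∧
      (∀ a ∈ Set.Icc b c, 0 ≤ α2 + κ * a ∧ α2 + κ * a ≤ FB T a) ∧
      Jh V + 1 / 10 ^ 6 ≤ α1 * 0.13 + α2 * (1 - 0.13) + κ * V +
        cal2 (KT (min 0.9 (max 0 (T - 0.002)))) (FB T) α1 α2 κ b c := by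
  obtain ⟨α1, α2, κ, h1, h2, h3⟩ := num_B1_s hV hb hbV hc hc1 hbox hcor
  have hT1 : min 0.9 (max 0 (T - 0.002)) < 1 := lt_of_le_of_lt (min_le_left _ _) (by norm_num)
  have k1 : ∀ a ∈ Icc b c, KC a ≤ KT (min 0.9 (max 0 (T - 0.002))) a := fun a ha =>
    W.sqrt_le_KT hT1 (ha.2.trans hc1)
  have k2 : ∀ a ∈ Icc b c, I2 a ≤ FB T a := fun a _ => W.I2_le_FB T a
  refine ⟨α1, α2, κ, fun a ha => ⟨(h1 a ha).1, (h1 a ha).2.trans (k1 a ha)⟩,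
    fun a ha => ⟨(h2 a ha).1, (h2 a ha).2.trans (k2 a ha)⟩, h3.trans ?_⟩
  have := NT_cal2_mono NT_KC_meas NT_I2_meas (W.KT_meas _) (W.FB_meas T) (hbV.trans hc) h1 h2
    k1 k2
  linarith

end Vale.Agent.P232
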