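import Vale.Agent.P232.TreeLeaf
import Vale.Agent.P232.TwoReal
import Vale.Agent.P232.NumB2Def

/-!
# P232, module 2NB, the T-box: soundness of the certified search
-/

open MeasureTheory Set

namespace Vale.Agent.P232.NB2

open Vale.Agent.P232.N5 (M exists_seg M_real kp ap line_val line_cast)
open Vale.Agent.P232.W

theorem fc_eq {β : Type} (n : ℕ) (f : ℕ → β) : fc n f = f n := by cases n <;> rfl

theorem mn_eq (a b : ℕ) : mn a b = min a b := by
  unfold mn
  rcases le_total a b with h | h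
  · rw [min_eq_left h]
    have : Nat.ble a b = true := Nat.ble_eq_true_of_le h
    rw [this, cond_true]
  · rw [min_eq_right h]
    rcases h.eq_or_lt with h' | h'
    · rw [h']; cases Nat.ble a a <;> rfl
    · have : Nat.ble a b = false := by
        rw [Bool.eq_false_iff]
        intro h2
        have := Nat.le_of_ble_eq_true h2
        omega
      rw [this, cond_false]

/-- admissible node: `S` is the parameter of `KT`, `R` the one of `FB` -/
structure Nd (S R α1 α2 κ x r : ℝ) : Prop where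
  x0 : 0 ≤ x
  x1 : x ≤ 1
  r0 : 0 ≤ r
  r1 : r ≤ 1
  l2 : 0 ≤ α2 + κ * x
  k : Adm (KT S x) (α1 + κ * x) r
  a : Adm (Real.sqrt (Real.pi * x)) (α2 + κ * x) r
  b : Adm (Real.sqrt (Real.pi * (1 - x))) (α2 + κ * x) r
  c : x ≤ R + 0.0693 → Adm 1 (α2 + κ * x) r
  d : R + 0.0693 ≤ x → Adm (Real.sqrt (1 + 0.82 * (x - (R + 0.0693)))) (α2 + κ * x) r

theorem Nd.seg {S R α1 α2 κ x0 x1 r0 r1 s t : ℝ} (hS : S < 1) (hκ : 0 ≤ κ) (hx : x0 ≤ x1)
    (hq : x1 ≤ R + 0.0693 ∨ R + 0.0693 ≤ x0) (h0 : Nd S R α1 α2 κ x0 r0)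
    (h1 : Nd S R α1 α2 κ x1 r1) (hs : 0 ≤ s) (ht : 0 ≤ t) (hst : s + t = 1) :
    0 ≤ α2 + κ * (s * x0 + t * x1) ∧
      Adm (KT S (s * x0 + t * x1)) (α1 + κ * (s * x0 + t * x1)) (s * r0 + t * r1) ∧
      Adm (FB R (s * x0 + t * x1)) (α2 + κ * (s * x0 + t * x1)) (s * r0 + t * r1) := by
  have hr0 : r0 ^ 2 ≤ 1 := by nlinarith [h0.r0, h0.r1]
  have hr1 : r1 ^ 2 ≤ 1 := by nlinarith [h1.r0, h1.r1]
  refine ⟨?_, Adm.KT_seg hS hκ hx h1.x1 hs ht hst hr0 hr1 h0.k h1.k, ?_⟩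
  · have el : α2 + κ * (s * x0 + t * x1) = s * (α2 + κ * x0) + t * (α2 + κ * x1) := by
      have : α2 = (s + t) * α2 := by rw [hst, one_mul]
      linear_combination this
    rw [el]
    exact add_nonneg (mul_nonneg hs h0.l2) (mul_nonneg ht h1.l2)
  · rcases hq with h | h
    · exact Adm.FB_seg_left h0.x0 hx h1.x1 hs ht hst hr0 hr1 h0.a h0.b (h0.c (hx.trans h))
        h1.a h1.b (h1.c h)
    · exact Adm.FB_seg_right h0.x0 hx h1.x1 h hs ht hst hr0 hr1 h0.a h0.b (h0.d h)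
        h1.a h1.b (h1.d (h.trans hx))

/-- the parameters: `S` bounds `T'` below, `R` bounds `T` above -/
structure Par (S R T' T κ : ℝ) : Prop where
  hS : S ≤ T'
  hT' : T' < 1
  hR : T ≤ R
  hκ : 0 ≤ κ

theorem Nd.line {S R T' T α1 α2 κ x0 x1 a : ℝ} (P : Par S R T' T κ)
    (hq : x1 ≤ R + 0.0693 ∨ R + 0.0693 ≤ x0) (h0 : Nd S R α1 α2 κ x0 0)
    (h1 : Nd S R α1 α2 κ x1 0) (ha : a ∈ Icc x0 x1) :
    0 ≤ α2 + κ * a ∧ α1 + κ * a ≤ KT T' a ∧ α2 + κ * a ≤ FB T a := by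
  obtain ⟨s, t, hs, ht, hst, rfl⟩ := exists_seg ha
  obtain ⟨g1, g2, g3⟩ := Nd.seg (lt_of_le_of_lt P.hS P.hT') P.hκ (ha.1.trans ha.2) hq h0 h1
    hs ht hst
  have e0 : s * (0 : ℝ) + t * 0 = 0 := by ring
  rw [e0] at g2 g3
  refine ⟨g1, ?_, ?_⟩
  · exact (Adm.zero_iff.1 g2).trans (KT_mono_T P.hS P.hT' (ha.2.trans h1.x1))
  · exact (Adm.zero_iff.1 g3).trans (FB_anti_T P.hR)

theorem Nd.int {S R T' T α1 α2 κ x0 x1 r0 r1 : ℝ} (P : Par S R T' T κ) (hx : x0 ≤ x1)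
    (hq : x1 ≤ R + 0.0693 ∨ R + 0.0693 ≤ x0) (h0 : Nd S R α1 α2 κ x0 r0)
    (h1 : Nd S R α1 α2 κ x1 r1) :
    (x1 - x0) * (r0 + r1) / 2 ≤ ∫ a in x0..x1, qf2 (KT T') (FB T) α1 α2 κ a := by
  refine int2_seg (KT_meas _) (FB_meas _) hx ⟨h0.r0, h0.r1⟩ ⟨h1.r0, h1.r1⟩
    fun s t hs ht hst => ?_
  obtain ⟨g1, g2, g3⟩ := Nd.seg (lt_of_le_of_lt P.hS P.hT') P.hκ hx hq h0 h1 hs ht hst
  have hx1 : s * x0 + t * x1 ≤ 1 := by
    have e0 := mul_le_mul_of_nonneg_left h0.x1 hs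
    have e1 := mul_le_mul_of_nonneg_left h1.x1 ht
    linarith
  exact ⟨KT_nonneg P.hT' hx1, FB_nonneg _ _, g1, g2.mono (KT_mono_T P.hS P.hT' hx1),
    g3.mono (FB_anti_T P.hR)⟩

/-- the data of a box -/
structure Box (q e b1 c2 la mu : ℕ) : Prop where
  hbc : b1 < c2
  hcM : c2 ≤ M
  hlm : la ≤ mu
  he0 : 0 < e
  heM : e ≤ M

theorem kl_le {e X : ℕ} (he0 : 0 < e) (hX : X ≤ M) :
    (kl e X : ℝ) / 1000000 ≤ W.LT ((e : ℝ) / 1000000) ((X : ℝ) / 1000000) := by
  unfold kl W.LT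
  have he : (0 : ℝ) < e := by exact_mod_cast he0
  have h1 : (((((M - X) * 40000000000 + 31415 * e * e) / (40000 * e) : ℕ)) : ℝ) ≤
      (((M - X) * 40000000000 + 31415 * e * e : ℕ) : ℝ) / ((40000 * e : ℕ) : ℝ) :=
    Nat.cast_div_le
  have h2 : (((M - X) * 40000000000 + 31415 * e * e : ℕ) : ℝ) / ((40000 * e : ℕ) : ℝ) =
      (1000000 - (X : ℝ)) * 1000000 / e + 31415 * e / 40000 := by
    push_cast [Nat.cast_sub hX, M_real]
    field_simp
    ring
  rw [h2] at h1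
  have hpi : (3.1415 : ℝ) ≤ Real.pi := Real.pi_gt_d4.le
  have h3 : (1 - (X : ℝ) / 1000000) / ((e : ℝ) / 1000000) = (1000000 - (X : ℝ)) / e := by
    field_simp
  rw [h3]
  have h4 : 3.1415 * ((e : ℝ) / 1000000) ≤ Real.pi * ((e : ℝ) / 1000000) :=
    mul_le_mul_of_nonneg_right hpi (by positivity)
  have h5 : ((1000000 - (X : ℝ)) * 1000000 / e + 31415 * e / 40000) / 1000000 =
      (1000000 - (X : ℝ)) / e + 3.1415 * ((e : ℝ) / 1000000) / 4 := by
    ring
  have h6 := div_le_div_of_nonneg_right h1 (by norm_num : (0 : ℝ) ≤ 1000000)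
  rw [h5] at h6
  linarith

theorem ndOK_sound {q e b1 c2 la mu u X r : ℕ} (B : Box q e b1 c2 la mu)
    (h : ndOK q e b1 c2 la mu u X r = true) :
    Nd (1 - (e : ℝ) / 1000000) ((q : ℝ) / 1000000 - 0.0693)
      (ap b1 c2 la mu + (u : ℝ) / 1000000) (ap b1 c2 la mu) (kp b1 c2 la mu)
      ((X : ℝ) / 1000000) ((r : ℝ) / 1000000) := by
  obtain ⟨hbc, hcM, hlm, he0, heM⟩ := B
  unfold ndOK ndC at h
  simp only [fc_eq, Bool.and_eq_true, Nat.ble_eq] at h
  obtain ⟨hX1, hX2, hrM, k3, k1, k2, k4⟩ := h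
  have hd : (0 : ℝ) < (c2 : ℝ) - b1 := by
    have : (b1 : ℝ) < c2 := by exact_mod_cast hbc
    linarith
  have he : (0 : ℝ) < e := by exact_mod_cast he0
  have hXM : X ≤ M := hX2.trans hcM
  have hXMr : (X : ℝ) ≤ 1000000 := by rw [← M_real]; exact_mod_cast hXM
  have hrMr : (r : ℝ) ≤ 1000000 := by rw [← M_real]; exact_mod_cast hrM
  have hX0 : (0 : ℝ) ≤ X := Nat.cast_nonneg X
  have hr0 : (0 : ℝ) ≤ r := Nat.cast_nonneg r
  have hr2 : r * r ≤ M * M := Nat.mul_le_mul hrM hrM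
  have hl := line_cast (la := la) (mu := mu) hX1 hX2
  generalize la * (c2 - X) + mu * (X - b1) = n at k1 k2 k3 k4 hl
  have hs : (((M * M - r * r) * ((c2 - b1) * (c2 - b1)) : ℕ) : ℝ) =
      (1000000 ^ 2 - (r : ℝ) ^ 2) * ((c2 : ℝ) - b1) ^ 2 := by
    push_cast [Nat.cast_sub hbc.le, Nat.cast_sub hr2, M_real]
    ring
  have hn1 : ((n + u * (c2 - b1) : ℕ) : ℝ) = (n : ℝ) + u * ((c2 : ℝ) - b1) := by
    push_cast [Nat.cast_sub hbc.le]
    ring
  generalize (M * M - r * r) * ((c2 - b1) * (c2 - b1)) = s at k1 k2 k3 k4 hs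
  generalize n + u * (c2 - b1) = n1 at k4 hn1
  set D : ℝ := (c2 : ℝ) - b1 with hD
  set L : ℝ := (la : ℝ) * (c2 - X) + mu * (X - b1) with hL
  have hv : ap b1 c2 la mu + kp b1 c2 la mu * ((X : ℝ) / 1000000) = L / (1000000 * D) :=
    line_val hbc X
  have hv1 : ap b1 c2 la mu + (u : ℝ) / 1000000 + kp b1 c2 la mu * ((X : ℝ) / 1000000) =
      (n1 : ℝ) / (1000000 * D) := by
    rw [hn1, hl]
    have : (L + u * D) / (1000000 * D) = L / (1000000 * D) + (u : ℝ) / 1000000 := by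
      field_simp
    rw [this, ← hv]
    ring
  have hA : 0 ≤ 1 - ((r : ℝ) / 1000000) ^ 2 := by
    have : ((r : ℝ) / 1000000) ^ 2 ≤ 1 := by
      rw [div_pow, div_le_one (by norm_num)]
      nlinarith
    linarith
  have hpi : (3.1415 : ℝ) ≤ Real.pi := Real.pi_gt_d4.le
  have hpi2 : Real.pi ≤ 3.1416 := Real.pi_lt_d4.le
  have hpi0 := Real.pi_pos
  have hle : ∀ (w : ℝ) (m : ℕ), (m : ℝ) ^ 2 ≤ w * s →
      ((m : ℝ) / (1000000 * D)) ^ 2 ≤ (1 - ((r : ℝ) / 1000000) ^ 2) * w := by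
    intro w m hw
    rw [div_pow, div_le_iff₀ (by positivity)]
    have e : (1 - ((r : ℝ) / 1000000) ^ 2) * w * (1000000 * D) ^ 2 =
        w * ((1000000 ^ 2 - (r : ℝ) ^ 2) * D ^ 2) := by ring
    rw [e, ← hs]
    exact hw
  have hnL : L = (n : ℝ) := hl.symm
  have hL0 : 0 ≤ L / (1000000 * D) := by
    rw [hnL]
    positivity
  have hx1 : (X : ℝ) / 1000000 ≤ 1 := by
    rw [div_le_one (by norm_num)]; exact hXMr
  have hs0 : (0 : ℝ) ≤ s := Nat.cast_nonneg s
  have q1 : (0 : ℝ) ≤ 1 - (X : ℝ) / 1000000 := by linarith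
  -- the bound by the second root for a line value `m`
  have hroot2 : ∀ m : ℕ, 10000000000 * (m * m) ≤ 31415 * (M - X) * s →
      ((m : ℝ) / (1000000 * D)) ^ 2 ≤
        (1 - ((r : ℝ) / 1000000) ^ 2) * (Real.pi * (1 - (X : ℝ) / 1000000)) := by
    intro m hm
    have hm' := (Nat.cast_le (α := ℝ)).mpr hm
    push_cast [Nat.cast_sub hXM, M_real] at hm'
    refine (hle (3.1415 * (1 - (X : ℝ) / 1000000)) m ?_).trans ?_
    · have e : 3.1415 * (1 - (X : ℝ) / 1000000) * (s : ℝ) =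
          31415 * (1000000 - X) * s / 10 ^ 10 := by ring
      rw [e, le_div_iff₀ (by positivity)]
      linarith
    · exact mul_le_mul_of_nonneg_left (mul_le_mul_of_nonneg_right hpi q1) hA
  refine ⟨by positivity, hx1, by positivity, ?_, ?_, ?_, ?_, ?_, ?_, ?_⟩
  · rw [div_le_one (by norm_num)]; exact hrMr
  · rw [hv]; exact hL0
  · -- `KT`
    have hS1 : (1 : ℝ) - (e : ℝ) / 1000000 < 1 := by
      have : (0 : ℝ) < (e : ℝ) / 1000000 := by positivity
      linarith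
    cases haf : af e X
    · rw [haf, cond_false, Nat.ble_eq] at k4
      rw [hv1]
      exact (Adm.of_sqrt (mul_nonneg hpi0.le q1) (hroot2 n1 k4)).mono (sqrt_le_KT hS1 hx1)
    · rw [haf, cond_true, Nat.ble_eq] at k4
      unfold af at haf
      rw [Nat.ble_eq] at haf
      have haf' := (Nat.cast_le (α := ℝ)).mpr haf
      push_cast [Nat.cast_sub hXM, M_real] at haf'
      have k4' := (Nat.cast_le (α := ℝ)).mpr k4
      push_cast at k4'
      rw [hv1]
      have e1 : (1 : ℝ) - (1 - (e : ℝ) / 1000000) = (e : ℝ) / 1000000 := by ring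
      have hc : Real.pi * (1 - (1 - (e : ℝ) / 1000000)) ^ 2 / 4 ≤ 1 - (X : ℝ) / 1000000 := by
        rw [e1]
        have : Real.pi * ((e : ℝ) / 1000000) ^ 2 ≤ 3.1416 * ((e : ℝ) / 1000000) ^ 2 :=
          mul_le_mul_of_nonneg_right hpi2 (by positivity)
        have e2 : 3.1416 * ((e : ℝ) / 1000000) ^ 2 / 4 =
            31416 * e * e / 40000000000000000 := by ring
        have e3 : 1 - (X : ℝ) / 1000000 =
            40000000000 * (1000000 - X) / 40000000000000000 := by ring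
        rw [e3]
        have e4 : 31416 * (e : ℝ) * e / 40000000000000000 ≤
            40000000000 * (1000000 - X) / 40000000000000000 := by
          apply div_le_div_of_nonneg_right haf' (by norm_num)
        rw [← e2] at e4
        linarith
      have hK := LT_le_KT hc hS1 hx1
      rw [e1] at hK
      have hk := (kl_le he0 hXM).trans hK
      refine (Adm.of_sq (by positivity) ?_ : Adm ((kl e X : ℝ) / 1000000) _ _).mono hk
      have := hle (((kl e X : ℝ) / 1000000) ^ 2) n1 (by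
        have e5 : ((kl e X : ℝ) / 1000000) ^ 2 * (s : ℝ) =
            s * ((kl e X : ℝ) * kl e X) / 1000000000000 := by ring
        rw [e5, le_div_iff₀ (by norm_num)]
        linarith)
      exact this
  · -- first root
    rw [hv, hnL]
    refine Adm.of_sqrt (by positivity) ?_
    have hm' := (Nat.cast_le (α := ℝ)).mpr k1
    push_cast at hm'
    refine (hle (3.1415 * ((X : ℝ) / 1000000)) n ?_).trans ?_
    · have e : 3.1415 * ((X : ℝ) / 1000000) * (s : ℝ) = 31415 * X * s / 10 ^ 10 := by ring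
      rw [e, le_div_iff₀ (by positivity)]
      linarith
    · exact mul_le_mul_of_nonneg_left (mul_le_mul_of_nonneg_right hpi (by positivity)) hA
  · rw [hv, hnL]
    exact Adm.of_sqrt (mul_nonneg hpi0.le q1) (hroot2 n k2)
  · intro hq
    have hq' : X ≤ q := by
      have : (X : ℝ) / 1000000 ≤ (q : ℝ) / 1000000 := by linarith
      have h2 : (X : ℝ) ≤ q := by
        rwa [div_le_div_iff_of_pos_right (by norm_num)] at this
      exact_mod_cast h2
    have ew : w3 q X = 100000000 := by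
      unfold w3
      omega
    rw [ew] at k3
    have k3' := (Nat.cast_le (α := ℝ)).mpr k3
    push_cast at k3'
    rw [hv, hnL]
    refine Adm.of_sq zero_le_one ?_
    rw [one_pow]
    exact hle 1 n (by nlinarith)
  · intro hq
    have hq' : q ≤ X := by
      have : (q : ℝ) / 1000000 ≤ (X : ℝ) / 1000000 := by linarith
      have h2 : (q : ℝ) ≤ X := by
        rwa [div_le_div_iff_of_pos_right (by norm_num)] at this
      exact_mod_cast h2
    have k3' := (Nat.cast_le (α := ℝ)).mpr k3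
    unfold w3 at k3'
    push_cast [Nat.cast_sub hq'] at k3'
    have hqr : (q : ℝ) ≤ X := by exact_mod_cast hq'
    rw [hv, hnL]
    have e0 : (q : ℝ) / 1000000 - 0.0693 + 0.0693 = (q : ℝ) / 1000000 := by ring
    rw [e0]
    have hw0 : (0 : ℝ) ≤ 1 + 0.82 * ((X : ℝ) / 1000000 - (q : ℝ) / 1000000) := by
      have : (q : ℝ) / 1000000 ≤ (X : ℝ) / 1000000 := by
        apply div_le_div_of_nonneg_right hqr (by norm_num)
      linarith
    refine Adm.of_sqrt hw0 (hle _ n ?_)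
    have e5 : (1 + 0.82 * ((X : ℝ) / 1000000 - (q : ℝ) / 1000000)) * (s : ℝ) =
        s * (100000000 + 82 * (X - q)) / 100000000 := by ring
    rw [e5, le_div_iff₀ (by norm_num)]
    linarith

/-- the parameters of a box and of a point in it -/
structure Ctx (q e b1 c2 la mu : ℕ) (T' T : ℝ) : Prop where
  B : Box q e b1 c2 la mu
  P : Par (1 - (e : ℝ) / 1000000) ((q : ℝ) / 1000000 - 0.0693) T' T (kp b1 c2 la mu)

theorem qle {q X : ℕ} (h : X ≤ q) : (X : ℝ) / 1000000 ≤ (q : ℝ) / 1000000 - 0.0693 + 0.0693 := by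
  have h2 : (X : ℝ) ≤ q := by exact_mod_cast h
  have : (X : ℝ) / 1000000 ≤ (q : ℝ) / 1000000 := div_le_div_of_nonneg_right h2 (by norm_num)
  linarith

theorem qge {q X : ℕ} (h : q ≤ X) : (q : ℝ) / 1000000 - 0.0693 + 0.0693 ≤ (X : ℝ) / 1000000 := by
  have h2 : (q : ℝ) ≤ X := by exact_mod_cast h
  have : (q : ℝ) / 1000000 ≤ (X : ℝ) / 1000000 := div_le_div_of_nonneg_right h2 (by norm_num)
  linarith

theorem cle {x y : ℕ} (h : x ≤ y) : (x : ℝ) / 1000000 ≤ (y : ℝ) / 1000000 := by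
  have h2 : (x : ℝ) ≤ y := by exact_mod_cast h
  exact div_le_div_of_nonneg_right h2 (by norm_num)

theorem go_sound {q e b1 c2 la mu u g n lo hi : ℕ} {T' T : ℝ} (C : Ctx q e b1 c2 la mu T' T) :
    ∀ (j X r acc : ℕ), (hi ≤ q ∨ q ≤ X) →
      Nd (1 - (e : ℝ) / 1000000) ((q : ℝ) / 1000000 - 0.0693)
        (ap b1 c2 la mu + (u : ℝ) / 1000000) (ap b1 c2 la mu) (kp b1 c2 la mu)
        ((X : ℝ) / 1000000) ((r : ℝ) / 1000000) → X ≤ hi →
      (go q e b1 c2 la mu u g n lo hi j X r acc : ℝ) ≤ acc + 2000000000000 *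
        ∫ a in ((X : ℝ) / 1000000)..((hi : ℝ) / 1000000),
          qf2 (KT T') (FB T) (ap b1 c2 la mu + (u : ℝ) / 1000000) (ap b1 c2 la mu)
            (kp b1 c2 la mu) a := by
  intro j
  induction j with
  | zero =>
    intro X r acc _ _ hX
    have := int2_nonneg (K1 := KT T') (K2 := FB T) (α1 := ap b1 c2 la mu + (u : ℝ) / 1000000)
      (α2 := ap b1 c2 la mu) (κ := kp b1 c2 la mu) (cle hX)
    unfold go
    linarith
  | succ j ih =>
    intro X r acc hq hN hX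
    have hpos := int2_nonneg (K1 := KT T') (K2 := FB T)
      (α1 := ap b1 c2 la mu + (u : ℝ) / 1000000)
      (α2 := ap b1 c2 la mu) (κ := kp b1 c2 la mu) (cle hX)
    have hacc : (0 : ℝ) ≤ acc := Nat.cast_nonneg acc
    unfold go
    simp only [fc_eq]
    generalize nd g n lo hi (n - j) = Y
    generalize rn q e b1 c2 la mu u Y = ρ
    cases hb : (ndOK q e b1 c2 la mu u Y ρ && (Nat.ble X Y && Nat.ble Y hi))
    · rw [cond_false]
      push_cast
      positivity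
    · rw [cond_true]
      simp only [Bool.and_eq_true, Nat.ble_eq] at hb
      obtain ⟨hn, hXY, hYhi⟩ := hb
      have hN' := ndOK_sound C.B hn
      have hq' : hi ≤ q ∨ q ≤ Y := hq.imp_right fun h => h.trans hXY
      have h1 := ih Y ρ (acc + (Y - X) * (r + ρ)) hq' hN' hYhi
      have h2 := Nd.int C.P (cle hXY) (hq.imp (fun h => qle (hYhi.trans h)) (fun h => qge h)) hN hN'
      have h3 := intervalIntegral.integral_add_adjacent_intervals
        (qf2_int (KT_meas T') (FB_meas T) (ap b1 c2 la mu + (u : ℝ) / 1000000) (ap b1 c2 la mu)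
          (kp b1 c2 la mu) ((X : ℝ) / 1000000) ((Y : ℝ) / 1000000))
        (qf2_int (KT_meas T') (FB_meas T) (ap b1 c2 la mu + (u : ℝ) / 1000000) (ap b1 c2 la mu)
          (kp b1 c2 la mu) ((Y : ℝ) / 1000000) ((hi : ℝ) / 1000000))
      rw [← h3]
      rw [Nat.cast_add, Nat.cast_mul, Nat.cast_sub hXY, Nat.cast_add] at h1
      have e : ((Y : ℝ) / 1000000 - (X : ℝ) / 1000000) * ((r : ℝ) / 1000000 + (ρ : ℝ) / 1000000) / 2
          = ((Y : ℝ) - X) * (r + ρ) / 2000000000000 := by ring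
      rw [e, div_le_iff₀ (by norm_num)] at h2
      linarith

theorem sg_sound {q e b1 c2 la mu u g n lo hi : ℕ} {T' T : ℝ} (C : Ctx q e b1 c2 la mu T' T)
    (hq : hi ≤ q ∨ q ≤ lo) (hlh : lo ≤ hi) :
    (sg q e b1 c2 la mu u g n lo hi : ℝ) ≤ 2000000000000 *
      ∫ a in ((lo : ℝ) / 1000000)..((hi : ℝ) / 1000000),
        qf2 (KT T') (FB T) (ap b1 c2 la mu + (u : ℝ) / 1000000) (ap b1 c2 la mu)
          (kp b1 c2 la mu) a := by
  have hpos := int2_nonneg (K1 := KT T') (K2 := FB T) (α1 := ap b1 c2 la mu + (u : ℝ) / 1000000)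
    (α2 := ap b1 c2 la mu) (κ := kp b1 c2 la mu) (cle hlh)
  unfold sg
  simp only [fc_eq]
  cases hb : (ndOK q e b1 c2 la mu u lo (rn q e b1 c2 la mu u lo) && Nat.ble lo hi)
  · rw [cond_false]
    push_cast
    positivity
  · rw [cond_true]
    simp only [Bool.and_eq_true, Nat.ble_eq] at hb
    have := go_sound (g := g) (n := n) (lo := lo) (hi := hi) C n lo _ 0 hq
      (ndOK_sound C.B hb.1) hlh
    simpa using this

theorem tt_sound {q e b1 b2 c1 c2 la mu u : ℕ} {T' T : ℝ} (C : Ctx q e b1 c2 la mu T' T)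
    {b c : ℝ} (hb : b ≤ (b2 : ℝ) / 1000000) (hc : (c1 : ℝ) / 1000000 ≤ c) (h : b ≤ c) :
    (tt q e b1 c2 la mu u b2 c1 : ℝ) / 2000000000000 ≤
      cal2 (KT T') (FB T) (ap b1 c2 la mu + (u : ℝ) / 1000000) (ap b1 c2 la mu)
        (kp b1 c2 la mu) b c := by
  rw [cal2_eq]
  have hpos := int2_nonneg (K1 := KT T') (K2 := FB T) (α1 := ap b1 c2 la mu + (u : ℝ) / 1000000)
    (α2 := ap b1 c2 la mu) (κ := kp b1 c2 la mu) h
  rw [div_le_iff₀ (by norm_num)]
  unfold tt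
  cases h1 : Nat.blt b2 c1
  · rw [cond_false]
    push_cast
    positivity
  · rw [cond_true]
    rw [Nat.blt_eq] at h1
    have hm := int2_mono (KT_meas T') (FB_meas T) (α1 := ap b1 c2 la mu + (u : ℝ) / 1000000)
      (α2 := ap b1 c2 la mu) (κ := kp b1 c2 la mu) hb (cle h1.le) hc
    cases h2 : Nat.ble c1 q
    · rw [cond_false]
      cases h3 : Nat.ble b2 q
      · rw [cond_false]
        push_cast
        positivity
      · rw [cond_true]
        rw [Nat.ble_eq] at h3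
        have h2' : q ≤ c1 := by
          by_contra hcon
          have : Nat.ble c1 q = true := Nat.ble_eq_true_of_le (by omega)
          rw [this] at h2
          exact Bool.noConfusion h2
        have s1 := sg_sound (g := 0) (n := 12) (u := u) (lo := b2) (hi := q) C (Or.inl le_rfl) h3
        have s2 := sg_sound (g := 1) (n := 12) (u := u) (lo := q) (hi := c1) C (Or.inr le_rfl) h2'
        have h3 := intervalIntegral.integral_add_adjacent_intervals
          (qf2_int (KT_meas T') (FB_meas T) (ap b1 c2 la mu + (u : ℝ) / 1000000) (ap b1 c2 la mu)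
            (kp b1 c2 la mu) ((b2 : ℝ) / 1000000) ((q : ℝ) / 1000000))
          (qf2_int (KT_meas T') (FB_meas T) (ap b1 c2 la mu + (u : ℝ) / 1000000) (ap b1 c2 la mu)
            (kp b1 c2 la mu) ((q : ℝ) / 1000000) ((c1 : ℝ) / 1000000))
        rw [← h3] at hm
        push_cast
        linarith
    · rw [cond_true]
      rw [Nat.ble_eq] at h2
      have s1 := sg_sound (g := 1) (n := 24) (u := u) (lo := b2) (hi := c1) C (Or.inl h2) h1.le
      linarith

/-- the conclusion -/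
def Good (V b c T : ℝ) : Prop :=
  ∃ α1 α2 κ : ℝ,
    (∀ a ∈ Set.Icc b c, 0 ≤ α1 + κ * a ∧ α1 + κ * a ≤ KT (min 0.9 (max 0 (T - 0.002))) a) ∧
    (∀ a ∈ Set.Icc b c, 0 ≤ α2 + κ * a ∧ α2 + κ * a ≤ FB T a) ∧
    Jh V + 1 / 10 ^ 6 ≤ α1 * 0.13 + α2 * (1 - 0.13) + κ * V +
      cal2 (KT (min 0.9 (max 0 (T - 0.002)))) (FB T) α1 α2 κ b c

/-- `(V, b, c, T)` is in the box -/
structure In (b1 b2 c1 c2 V1 V2 T1 T2 : ℕ) (V b c T : ℝ) : Prop where
  b1 : (b1 : ℝ) / 1000000 ≤ b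
  b2 : b ≤ (b2 : ℝ) / 1000000
  c1 : (c1 : ℝ) / 1000000 ≤ c
  c2 : c ≤ (c2 : ℝ) / 1000000
  V1 : (V1 : ℝ) / 1000000 ≤ V
  V2 : V ≤ (V2 : ℝ) / 1000000
  T1 : (T1 : ℝ) / 1000000 ≤ T
  T2 : T ≤ (T2 : ℝ) / 1000000

theorem lf1_sound {q e b1 b2 c1 c2 V1 V2 la mu u : ℕ} (he0 : 0 < e) (heM : e ≤ M)
    (h : lf1 q e b1 b2 c1 c2 V1 V2 la mu u = true) {V b c T : ℝ}
    (hb1 : (b1 : ℝ) / 1000000 ≤ b) (hb2 : b ≤ (b2 : ℝ) / 1000000)
    (hc1 : (c1 : ℝ) / 1000000 ≤ c) (hc2 : c ≤ (c2 : ℝ) / 1000000)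
    (hV1 : (V1 : ℝ) / 1000000 ≤ V) (hV2 : V ≤ (V2 : ℝ) / 1000000) (hbc' : b ≤ c)
    (hS : 1 - (e : ℝ) / 1000000 ≤ min 0.9 (max 0 (T - 0.002)))
    (hR : T ≤ (q : ℝ) / 1000000 - 0.0693) : Good V b c T := by
  unfold lf1 at h
  simp only [fc_eq, Bool.and_eq_true, Nat.ble_eq, Nat.blt_eq, Bool.or_eq_true] at h
  obtain ⟨hbc, hcM, hlm, hbV, hVV, hVc, n1, n2, n3, hT2, h⟩ := h
  set T' : ℝ := min 0.9 (max 0 (T - 0.002)) with hT'
  have hT'1 : T' < 1 := lt_of_le_of_lt (min_le_left _ _) (by norm_num)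
  have hD : (0 : ℝ) < (c2 : ℝ) - b1 := by
    have : (b1 : ℝ) < c2 := by exact_mod_cast hbc
    linarith
  have hlmr : (la : ℝ) ≤ mu := by exact_mod_cast hlm
  have hκ : 0 ≤ kp b1 c2 la mu := div_nonneg (by linarith) hD.le
  have C : Ctx q e b1 c2 la mu T' T := ⟨⟨hbc, hcM, hlm, he0, heM⟩, ⟨hS, hT'1, hR, hκ⟩⟩
  have N1 := ndOK_sound C.B n1
  have N2 := ndOK_sound C.B n2
  rw [Nat.cast_zero, zero_div] at N1 N2
  have hline : ∀ a ∈ Icc b c, 0 ≤ ap b1 c2 la mu + kp b1 c2 la mu * a ∧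
      ap b1 c2 la mu + (u : ℝ) / 1000000 + kp b1 c2 la mu * a ≤ KT T' a ∧
      ap b1 c2 la mu + kp b1 c2 la mu * a ≤ FB T a := by
    intro a ha
    have ha1 : (b1 : ℝ) / 1000000 ≤ a := hb1.trans ha.1
    have ha2 : a ≤ (c2 : ℝ) / 1000000 := ha.2.trans hc2
    rcases n3 with n3 | n3
    · exact Nd.line C.P (Or.inl (qle n3)) N1 N2 ⟨ha1, ha2⟩
    · have N3 := ndOK_sound C.B n3
      rw [Nat.cast_zero, zero_div] at N3
      rcases le_total a ((q : ℝ) / 1000000) with h1 | h1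
      · exact Nd.line C.P (Or.inl (qle le_rfl)) N1 N3 ⟨ha1, h1⟩
      · exact Nd.line C.P (Or.inr (qge le_rfl)) N3 N2 ⟨h1, ha2⟩
  have hu : (0 : ℝ) ≤ (u : ℝ) / 1000000 := by positivity
  refine ⟨ap b1 c2 la mu + (u : ℝ) / 1000000, ap b1 c2 la mu, kp b1 c2 la mu,
    fun a ha => ⟨?_, (hline a ha).2.1⟩, fun a ha => ⟨(hline a ha).1, (hline a ha).2.2⟩, ?_⟩
  · have := (hline a ha).1
    linarith
  · set v : ℝ := V * 1000000 with hv
    have hVv : V = v / 1000000 := by rw [hv]; field_simp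
    have hva : ((V1 : ℕ) : ℝ) ≤ v := by
      rw [div_le_iff₀ (by norm_num)] at hV1; exact hV1
    have hvb : v ≤ ((V2 : ℕ) : ℝ) := by
      rw [le_div_iff₀ (by norm_num)] at hV2; exact hV2
    have h2 := tt_sound (u := u) (b2 := b2) (c1 := c1) C hb2 hc1 hbc'
    have key : Jh V ≤ ap b1 c2 la mu + kp b1 c2 la mu * V +
        ((tt q e b1 c2 la mu u b2 c1 + 260000 * u - 2000000 : ℕ) : ℝ) / 2000000000000 := by
      rcases h with h | h
      · have h3 := N5.test_sound hbc hbV (hVV.trans hVc) (hbV.trans hVV) hVc h ⟨hva, hvb⟩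
        rw [← hVv] at h3
        have h4 : Jh V ≤ 1 := min_le_right _ _
        have h5 : N5.Tgt 2 V = 1 := by simp [N5.Tgt]
        rw [h5] at h3
        linarith
      · have h3 := N5.test_sound hbc hbV (hVV.trans hVc) (hbV.trans hVV) hVc h ⟨hva, hvb⟩
        rw [← hVv] at h3
        have h5 : N5.Tgt 0 V = Jh V := by simp [N5.Tgt]
        rw [h5] at h3
        exact h3
    rw [Nat.cast_sub hT2] at key
    push_cast at key
    have e1 : ((tt q e b1 c2 la mu u b2 c1 : ℝ) + 260000 * u - 2000000) / 2000000000000 =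
        (tt q e b1 c2 la mu u b2 c1 : ℝ) / 2000000000000 + 0.13 * ((u : ℝ) / 1000000) -
          1 / 10 ^ 6 := by ring
    rw [e1] at key
    rw [← hT']
    linarith

theorem leaf_sound {b1 b2 c1 c2 V1 V2 T1 T2 : ℕ}
    (h : leaf b1 b2 c1 c2 V1 V2 T1 T2 = true) {V b c T : ℝ}
    (hI : In b1 b2 c1 c2 V1 V2 T1 T2 V b c T) (hbc : b ≤ c) : Good V b c T := by
  unfold leaf at h
  simp only [fc_eq, mn_eq] at h
  refine lf1_sound ?_ ?_ h hI.b1 hI.b2 hI.c1 hI.c2 hI.V1 hI.V2 hbc ?_ ?_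
  · have : min 900000 (T1 - 2000) ≤ 900000 := min_le_left _ _
    unfold M
    omega
  · exact Nat.sub_le _ _
  · have h1 : min 900000 (T1 - 2000) ≤ M := (min_le_left _ _).trans (by unfold M; norm_num)
    rw [Nat.cast_sub h1, M_real, Nat.cast_min]
    have h2 : ((T1 - 2000 : ℕ) : ℝ) / 1000000 ≤ max 0 (T - 0.002) := by
      rcases le_total 2000 T1 with h3 | h3
      · rw [Nat.cast_sub h3]
        refine le_max_of_le_right ?_
        have := hI.T1
        push_cast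
        linarith
      · rw [Nat.sub_eq_zero_of_le h3]
        simp
    have h4 : (1 : ℝ) - (1000000 - min ((900000 : ℕ) : ℝ) ((T1 - 2000 : ℕ) : ℝ)) / 1000000 =
        min ((900000 : ℕ) : ℝ) ((T1 - 2000 : ℕ) : ℝ) / 1000000 := by ring
    rw [h4]
    refine le_min ?_ ?_
    · have := min_le_left ((900000 : ℕ) : ℝ) ((T1 - 2000 : ℕ) : ℝ)
      push_cast at this ⊢
      linarith
    · have := min_le_right ((900000 : ℕ) : ℝ) ((T1 - 2000 : ℕ) : ℝ)
      have h5 := div_le_div_of_nonneg_right this (by norm_num : (0 : ℝ) ≤ 1000000)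
      exact h5.trans h2
  · have := hI.T2
    push_cast
    linarith

theorem chk_sound (t : Tr) : ∀ {b1 b2 c1 c2 V1 V2 T1 T2 : ℕ},
    chk t b1 b2 c1 c2 V1 V2 T1 T2 = true → ∀ {V b c T : ℝ},
    In b1 b2 c1 c2 V1 V2 T1 T2 V b c T → b ≤ c → Good V b c T := by
  induction t with
  | L =>
    intro b1 b2 c1 c2 V1 V2 T1 T2 h V b c T hI hbc
    exact leaf_sound h hI hbc
  | B l r hl hr =>
    intro b1 b2 c1 c2 V1 V2 T1 T2 h V b c T hI hbc
    unfold chk at h
    simp only [fc_eq, Bool.and_eq_true] at h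
    rcases le_total b ((((b1 + b2) / 2 : ℕ) : ℝ) / 1000000) with hm | hm
    · exact hl h.1 { hI with b2 := hm } hbc
    · exact hr h.2 { hI with b1 := hm } hbc
  | C l r hl hr =>
    intro b1 b2 c1 c2 V1 V2 T1 T2 h V b c T hI hbc
    unfold chk at h
    simp only [fc_eq, Bool.and_eq_true] at h
    rcases le_total c ((((c1 + c2) / 2 : ℕ) : ℝ) / 1000000) with hm | hm
    · exact hl h.1 { hI with c2 := hm } hbc
    · exact hr h.2 { hI with c1 := hm } hbc
  | V l r hl hr =>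
    intro b1 b2 c1 c2 V1 V2 T1 T2 h V b c T hI hbc
    unfold chk at h
    simp only [fc_eq, Bool.and_eq_true] at h
    rcases le_total V ((((V1 + V2) / 2 : ℕ) : ℝ) / 1000000) with hm | hm
    · exact hl h.1 { hI with V2 := hm } hbc
    · exact hr h.2 { hI with V1 := hm } hbc
  | T l r hl hr =>
    intro b1 b2 c1 c2 V1 V2 T1 T2 h V b c T hI hbc
    unfold chk at h
    simp only [fc_eq, Bool.and_eq_true] at h
    rcases le_total T ((((T1 + T2) / 2 : ℕ) : ℝ) / 1000000) with hm | hm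
    · exact hl h.1 { hI with T2 := hm } hbc
    · exact hr h.2 { hI with T1 := hm } hbc

end Vale.Agent.P232.NB2
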