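import Vale.Agent.P232.NumC
import Vale.Agent.P232.Corner3

/-!
# P232, module CNC: `num_C` with a margin (helper91)
-/

open MeasureTheory Set

namespace Vale.Agent.P232

/-- K13 -/
theorem num_C_s {V b c : ℝ} (hV : V ∈ Set.Icc (0.263 : ℝ) 0.361) (hb : 0 ≤ b) (hb1 : b ≤ 0.13)
    (hc : V ≤ c) (hc1 : c ≤ 1) :
    ∃ α1 α2 κ : ℝ, (∀ a ∈ Set.Icc b c, α1 + κ * a ≤ I2 a) ∧
      (∀ a ∈ Set.Icc b c, 0 ≤ α2 + κ * a ∧ α2 + κ * a ≤ FA a) ∧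
      Jh V + min 1 (b + (1 - c)) / 10 ^ 7 ≤
        α1 * 0.13 + α2 * (1 - 0.13) + κ * V + cal2 I2 FA α1 α2 κ b c := by
  have hbV : b ≤ V := by linarith [hV.1]
  rcases NT.allC hV hb hb1 hc hc1 with ⟨g1, g2, g3⟩ | ⟨α1, α2, κ, h1, h2, _, h4⟩
  · obtain ⟨α, κ, h1, h2, h3⟩ := corner2_s (V := V) ⟨g1, by linarith [hV.2]⟩ hb g2 g3 hc1
    refine ⟨α, α, κ, h2, fun a ha => ⟨h1 a ha, (h2 a ha).trans (NT_I2_le_FA a)⟩, ?_⟩
    rw [NT_cal2_diag (hbV.trans hc) h1 h2 fun a _ => NT_I2_le_FA a]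
    have h5 : Jh V ≤ 1 := min_le_right _ _
    have h6 : min 1 (b + (1 - c)) / 10 ^ 7 ≤ (b + (1 - c)) / 10 ^ 7 :=
      div_le_div_of_nonneg_right (min_le_right _ _) (by norm_num)
    linarith
  · rw [NT.profI_iso, G.profA_iso] at h4
    rw [NT.profI_iso] at h1
    rw [G.profA_iso] at h2
    have h6 : min 1 (b + (1 - c)) / 10 ^ 7 ≤ 1 / 10 ^ 7 :=
      div_le_div_of_nonneg_right (min_le_left _ _) (by norm_num)
    exact ⟨α1, α2, κ, h1, h2, by linarith⟩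

end Vale.Agent.P232
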