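import Vale.Agent.P232.NumTDef

/-!
# P232: runs of the certified search for `num_B`
-/

namespace Vale.Agent.P232.NT

/-- search tree -/
def trB_c : Tr :=
  (.C (.B (.C (.C (.B (.L 1) (.L 1)) (.B (.B (.C (.L 1) (.L 1)) (.L 1)) (.C (.L 1) (.B (.L 1)
  (.C (.L 1) (.L 1)))))) (.B (.B (.C (.B (.C (.L 1) (.B (.L 1) (.L 1))) (.C (.L 1) (.L 1))) (.B
  (.B (.C (.C (.L 1) (.B (.L 1) (.L 1))) (.B (.C (.B (.C (.L 1) (.L 1)) (.L 1)) (.B (.C (.C (.L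
  1) (.L 1)) (.B (.C (.L 1) (.L 1)) (.L 1))) (.L 1))) (.L 1))) (.C (.L 1) (.L 1))) (.C (.L 1)
  (.L 1)))) (.C (.C (.L 1) (.C (.L 1) (.L 1))) (.C (.B (.L 1) (.L 1)) (.B (.L 1) (.L 1))))) (.C
  (.B (.C (.C (.L 1) (.L 1)) (.B (.C (.L 1) (.L 1)) (.C (.L 1) (.L 1)))) (.C (.C (.B (.L 1) (.L
  1)) (.B (.L 1) (.L 1))) (.B (.C (.L 1) (.L 1)) (.C (.C (.L 1) (.L 1)) (.C (.L 1) (.L 1))))))
  (.B (.C (.B (.C (.L 1) (.L 1)) (.C (.L 1) (.L 1))) (.B (.L 1) (.C (.L 1) (.L 1)))) (.C (.B (.C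
  (.L 1) (.L 1)) (.C (.L 1) (.L 1))) (.B (.C (.L 1) (.L 1)) (.L 1))))))) (.C (.C (.L 1) (.B (.C
  (.B (.L 1) (.L 1)) (.B (.B (.C (.L 1) (.L 1)) (.C (.L 1) (.L 1))) (.C (.L 1) (.L 1)))) (.B (.C
  (.L 1) (.L 1)) (.L 1)))) (.B (.C (.B (.C (.B (.C (.L 1) (.L 1)) (.C (.L 1) (.L 1))) (.B (.C
  (.L 1) (.L 1)) (.C (.L 1) (.L 1)))) (.C (.B (.L 1) (.L 1)) (.B (.L 1) (.L 1)))) (.B (.C (.B
  (.C (.L 1) (.L 1)) (.L 1)) (.B (.L 1) (.L 1))) (.B (.C (.L 1) (.L 1)) (.L 1)))) (.B (.C (.L 1)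
  (.L 1)) (.L 1))))) (.B (.B (.C (.B (.C (.B (.B (.C (.B (.B (.B (.B .S (.C (.L 1) (.L 1))) (.C
  (.L 1) (.L 1))) (.L 1)) (.L 1)) (.B (.B (.B (.B .S (.C (.L 0) (.L 0))) (.C (.L 0) (.L 0))) (.L
  0)) (.L 0))) (.C (.L 1) (.L 0))) (.C (.L 1) (.L 0))) (.B (.B (.B (.C (.B (.B (.B .S (.C (.L 0)
  (.L 0))) (.L 0)) (.L 0)) (.B (.C (.B (.B .S (.L 0)) (.L 0)) (.B (.B .S (.L 0)) (.L 0))) (.L
  0))) (.C (.L 0) (.L 0))) (.L 0)) (.L 0))) (.C (.B (.C (.L 1) (.L 0)) (.L 0)) (.L 0))) (.B (.C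
  (.B (.B (.C (.B (.C (.B (.C (.B (.L 0) (.L 0)) (.L 0)) (.L 0)) (.B (.C (.L 0) (.L 0)) (.L 0)))
  (.L 0)) (.C (.B (.L 0) (.L 0)) (.C (.L 0) (.L 0)))) (.L 0)) (.L 0)) (.B (.C (.B (.C (.L 0) (.L
  0)) (.L 0)) (.C (.C (.L 0) (.L 0)) (.C (.B (.L 0) (.L 0)) (.B (.C (.L 0) (.B .S (.L 0))) (.L
  0))))) (.L 0))) (.C (.L 0) (.L 0)))) (.C (.C (.B (.B (.L 0) (.L 0)) (.L 0)) (.L 0)) (.C (.L 0)
  (.L 0)))) (.B (.C (.B (.L 0) (.L 0)) (.L 0)) (.L 0))))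

theorem runB_c : chk lfB skB trB_c 0 361000 263000 1000000 300000 318400 = true := by
  decide +kernel

end Vale.Agent.P232.NT
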