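import Vale.Agent.P232.NumTSound
import Vale.Agent.P232.NumTRunC
import Vale.Agent.P232.NumTRunB1
import Vale.Agent.P232.NumTRunB2
import Vale.Agent.P232.NumTRunB3
import Vale.Agent.P232.NumA

/-!
# P232: the inequalities for `(I2, FA)` and `(KC, I2)`
-/

open MeasureTheory Set

namespace Vale.Agent.P232.NT

open Vale.Agent.P232.N5 (M M_real)
open Vale.Agent.P232.NB2 (fc_eq mn mn_eq)
open Vale.Agent.P232.G (Prof profA profA_iso profA_LB)

/-- the profile `I2` -/
noncomputable def profI : Prof where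
  A := ![0, 1, Real.pi]
  B := ![Real.pi, 0, -Real.pi]
  nn := by
    intro i a ha
    have := Real.pi_pos
    fin_cases i
    · simpa using mul_nonneg this.le ha.1
    · norm_num [Matrix.cons_val_one]
    · have h2 : a ≤ 1 := ha.2
      simp only [Fin.reduceFinMk, Matrix.cons_val]
      nlinarith

/-- the profile `KC` -/
noncomputable def profC : Prof where
  A := fun _ => Real.pi
  B := fun _ => -Real.pi
  nn := by
    intro i a ha
    have := Real.pi_pos
    have h2 : a ≤ 1 := ha.2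
    nlinarith

theorem profI_iso : profI.iso = I2 := by
  funext a
  unfold Prof.iso I2 profI
  simp only [Matrix.cons_val_zero, Matrix.cons_val_one, Matrix.cons_val, zero_add, zero_mul,
    add_zero, Real.sqrt_one]
  congr 2
  ring

theorem profC_iso : profC.iso = KC := by
  funext a
  unfold Prof.iso KC profC
  simp only [min_self]
  congr 1
  ring

theorem profI_LB : profI.LB wI := by
  intro i X hX
  have hpi : (3.1415 : ℝ) ≤ Real.pi := Real.pi_gt_d4.le
  have hX0 : (0 : ℝ) ≤ X := Nat.cast_nonneg X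
  have hXr : (X : ℝ) ≤ 1000000 := by rw [← M_real]; exact_mod_cast hX
  have h1 : wI X ≤ 31415 * X := by
    unfold wI; rw [mn_eq, mn_eq]; exact (min_le_left _ _).trans (min_le_left _ _)
  have h2 : wI X ≤ 31415 * (M - X) := by
    unfold wI; rw [mn_eq, mn_eq]; exact (min_le_left _ _).trans (min_le_right _ _)
  have h3 : wI X ≤ 10000000000 := by
    unfold wI; rw [mn_eq, mn_eq]; exact min_le_right _ _
  have h1' := (Nat.cast_le (α := ℝ)).mpr h1
  have h2' := (Nat.cast_le (α := ℝ)).mpr h2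
  have h3' := (Nat.cast_le (α := ℝ)).mpr h3
  push_cast [Nat.cast_sub hX, M_real] at h1' h2' h3'
  have k1 : 3.1415 * ((X : ℝ) / 1000000) ≤ Real.pi * ((X : ℝ) / 1000000) :=
    mul_le_mul_of_nonneg_right hpi (by positivity)
  have k2 : 3.1415 * (1 - (X : ℝ) / 1000000) ≤ Real.pi * (1 - (X : ℝ) / 1000000) :=
    mul_le_mul_of_nonneg_right hpi (by
      have : (X : ℝ) / 1000000 ≤ 1 := by
        rw [div_le_one (by norm_num)]; exact hXr
      linarith)
  unfold profI
  fin_cases i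
  · simp only [Fin.zero_eta, Matrix.cons_val_zero, zero_add]
    refine le_trans ?_ k1
    linarith
  · simp only [Fin.mk_one, Matrix.cons_val_one, Matrix.cons_val_zero, zero_mul, add_zero]
    linarith
  · simp only [Fin.reduceFinMk, Matrix.cons_val]
    linarith

theorem profC_LB : profC.LB wC := by
  intro i X hX
  have hpi : (3.1415 : ℝ) ≤ Real.pi := Real.pi_gt_d4.le
  have hX0 : (0 : ℝ) ≤ X := Nat.cast_nonneg X
  have hXr : (X : ℝ) ≤ 1000000 := by rw [← M_real]; exact_mod_cast hX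
  have k2 : 3.1415 * (1 - (X : ℝ) / 1000000) ≤ Real.pi * (1 - (X : ℝ) / 1000000) :=
    mul_le_mul_of_nonneg_right hpi (by
      have : (X : ℝ) / 1000000 ≤ 1 := by
        rw [div_le_one (by norm_num)]; exact hXr
      linarith)
  unfold profC wC
  push_cast [Nat.cast_sub hX, M_real]
  linarith

theorem wA_LB : profA.LB wA := by
  have e : wA = G.wmA := by
    funext X
    unfold wA G.wmA
    rw [mn_eq]
  rw [e]
  exact profA_LB

/-- the corner -/
def Cor (V b c : ℝ) : Prop := 0.3 ≤ V ∧ b ≤ 0.007 ∧ 0.993 ≤ c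

/-- the box of module NB2 -/
def TBox (V b c : ℝ) : Prop := b ≤ 0.001 ∧ 0.55 ≤ c ∧ c ≤ 0.82 ∧ 0.284 ≤ V ∧ V ≤ 0.3236

/-- result of the search for `num_C` -/
def QC (V b c : ℝ) : Prop := Cor V b c ∨ Good profI profA False V b c

/-- result of the search for `num_B` -/
def QB (V b c : ℝ) : Prop := (TBox V b c ∨ Cor V b c) ∨ Good profC profI True V b c

theorem cor_of {b1 b2 c1 c2 V1 V2 : ℕ} {V b c : ℝ} (hI : In b1 b2 c1 c2 V1 V2 V b c)
    (h1 : 300000 ≤ V1) (h2 : b2 ≤ 7000) (h3 : 993000 ≤ c1) : Cor V b c := by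
  have g1 : (300000 : ℝ) ≤ V1 := by exact_mod_cast h1
  have g2 : (b2 : ℝ) ≤ 7000 := by exact_mod_cast h2
  have g3 : (993000 : ℝ) ≤ c1 := by exact_mod_cast h3
  have k1 := hI.V1
  have k2 := hI.b2
  have k3 := hI.c1
  refine ⟨?_, ?_, ?_⟩ <;> linarith

theorem skC_sound (b1 b2 c1 c2 V1 V2 : ℕ) (h : skC b1 b2 c1 c2 V1 V2 = true) (V b c : ℝ)
    (hI : In b1 b2 c1 c2 V1 V2 V b c) (_ : b ≤ V) (_ : V ≤ c) : QC V b c := by
  unfold skC at h
  simp only [Bool.and_eq_true, Nat.ble_eq] at h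
  exact Or.inl (cor_of hI h.1 h.2.1 h.2.2)

theorem skB_sound (b1 b2 c1 c2 V1 V2 : ℕ) (h : skB b1 b2 c1 c2 V1 V2 = true) (V b c : ℝ)
    (hI : In b1 b2 c1 c2 V1 V2 V b c) (_ : b ≤ V) (_ : V ≤ c) : QB V b c := by
  unfold skB at h
  simp only [Bool.and_eq_true, Bool.or_eq_true, Nat.ble_eq] at h
  rcases h with ⟨h1, h2, h3, h4, h5⟩ | h
  · left; left
    have g1 : (b2 : ℝ) ≤ 1000 := by exact_mod_cast h1
    have g2 : (550000 : ℝ) ≤ c1 := by exact_mod_cast h2
    have g3 : (c2 : ℝ) ≤ 820000 := by exact_mod_cast h3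
    have g4 : (284000 : ℝ) ≤ V1 := by exact_mod_cast h4
    have g5 : (V2 : ℝ) ≤ 323600 := by exact_mod_cast h5
    have k1 := hI.b2
    have k2 := hI.c1
    have k3 := hI.c2
    have k4 := hI.V1
    have k5 := hI.V2
    refine ⟨?_, ?_, ?_, ?_, ?_⟩ <;> linarith
  · exact Or.inl (Or.inr (cor_of hI h.1 h.2.1 h.2.2))

theorem lfC_sound (k b1 b2 c1 c2 V1 V2 : ℕ) (h : lfC k b1 b2 c1 c2 V1 V2 = true) (V b c : ℝ)
    (hI : In b1 b2 c1 c2 V1 V2 V b c) (hbV : b ≤ V) (hVc : V ≤ c) : QC V b c := by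
  unfold lfC at h
  simp only [fc_eq] at h
  obtain ⟨α1, α2, κ, h1, h2, _, h4⟩ := lf_sound profI_LB wA_LB h hI hbV hVc
  exact Or.inr ⟨α1, α2, κ, h1, h2, False.elim, h4⟩

theorem lfB_sound (k b1 b2 c1 c2 V1 V2 : ℕ) (h : lfB k b1 b2 c1 c2 V1 V2 = true) (V b c : ℝ)
    (hI : In b1 b2 c1 c2 V1 V2 V b c) (hbV : b ≤ V) (hVc : V ≤ c) : QB V b c := by
  unfold lfB at h
  simp only [fc_eq] at h
  obtain ⟨α1, α2, κ, h1, h2, h3, h4⟩ := lf_sound profC_LB profI_LB h hI hbV hVc
  exact Or.inr ⟨α1, α2, κ, h1, h2, fun _ => h3 rfl, h4⟩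

theorem allC {V b c : ℝ} (hV : V ∈ Set.Icc (0.263 : ℝ) 0.361) (hb : 0 ≤ b) (hb1 : b ≤ 0.13)
    (hc : V ≤ c) (hc1 : c ≤ 1) : QC V b c := by
  obtain ⟨hV1, hV2⟩ := hV
  have hbV : b ≤ V := by linarith
  have key : ∀ (t : Tr) (V1 V2 : ℕ), chk lfC skC t 0 130000 263000 1000000 V1 V2 = true →
      (V1 : ℝ) / 1000000 ≤ V → V ≤ (V2 : ℝ) / 1000000 → QC V b c := by
    intro t V1 V2 h h1 h2
    refine chk_sound lfC_sound skC_sound t h ⟨?_, ?_, ?_, ?_, h1, h2⟩ hbV hc
    · simpa using hb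
    · norm_num at hb1 ⊢; linarith
    · norm_num at hV1 ⊢; linarith
    · norm_num; linarith
  rcases le_total V 0.3 with h | h
  · exact key _ _ _ runC_a (by norm_num at hV1 ⊢; linarith) (by norm_num at h ⊢; linarith)
  rcases le_total V 0.3184 with h' | h'
  · exact key _ _ _ runC_b (by norm_num at h ⊢; linarith) (by norm_num at h' ⊢; linarith)
  · exact key _ _ _ runC_c (by norm_num at h' ⊢; linarith) (by norm_num at hV2 ⊢; linarith)

theorem allB {V b c : ℝ} (hV : V ∈ Set.Icc (0.263 : ℝ) 0.361) (hb : 0 ≤ b) (hbV : b ≤ V)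
    (hc : V ≤ c) (hc1 : c ≤ 1) : QB V b c := by
  obtain ⟨hV1, hV2⟩ := hV
  have key : ∀ (t : Tr) (V1 V2 : ℕ), chk lfB skB t 0 361000 263000 1000000 V1 V2 = true →
      (V1 : ℝ) / 1000000 ≤ V → V ≤ (V2 : ℝ) / 1000000 → QB V b c := by
    intro t V1 V2 h h1 h2
    refine chk_sound lfB_sound skB_sound t h ⟨?_, ?_, ?_, ?_, h1, h2⟩ hbV hc
    · simpa using hb
    · norm_num at hV2 ⊢; linarith
    · norm_num at hV1 ⊢; linarith
    · norm_num; linarith
  rcases le_total V 0.284 with h | h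
  · exact key _ _ _ runB_a (by norm_num at hV1 ⊢; linarith) (by norm_num at h ⊢; linarith)
  rcases le_total V 0.3 with h' | h'
  · exact key _ _ _ runB_b (by norm_num at h ⊢; linarith) (by norm_num at h' ⊢; linarith)
  rcases le_total V 0.3184 with h'' | h''
  · exact key _ _ _ runB_c (by norm_num at h' ⊢; linarith) (by norm_num at h'' ⊢; linarith)
  rcases le_total V 0.3236 with h3 | h3
  · exact key _ _ _ runB_d (by norm_num at h'' ⊢; linarith) (by norm_num at h3 ⊢; linarith)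
  · exact key _ _ _ runB_e (by norm_num at h3 ⊢; linarith) (by norm_num at hV2 ⊢; linarith)

end Vale.Agent.P232.NT
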