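import Vale.Agent.P232.TreeLeaf
import Vale.Agent.P232.TwoReal
import Vale.Agent.P232.GSound
import Vale.Agent.P232.NumTDef
import Vale.Agent.P232.NumB2Sound

/-!
# P232: certified search in `(b, c, V)` for two concave profiles, soundness
-/

open MeasureTheory Set

namespace Vale.Agent.P232.NT

open Vale.Agent.P232.N5 (M exists_seg M_real kp ap line_val line_cast)
open Vale.Agent.P232.W
open Vale.Agent.P232.NB2 (fc fc_eq mn mn_eq mx isq cle)
open Vale.Agent.P232.G (Prof)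

theorem mx_eq (a b : ℕ) : mx a b = max a b := by
  unfold mx
  rcases le_total a b with h | h
  · rw [max_eq_right h]
    have : Nat.ble a b = true := Nat.ble_eq_true_of_le h
    rw [this, cond_true]
  · rw [max_eq_left h]
    rcases h.eq_or_lt with h' | h'
    · rw [h']; cases Nat.ble a a <;> rfl
    · have : Nat.ble a b = false := by
        rw [Bool.eq_false_iff]
        intro h2
        have := Nat.le_of_ble_eq_true h2
        omega
      rw [this, cond_false]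

/-- admissible for each of the three square roots -/
def AdmP (P : Prof) (x l r : ℝ) : Prop := ∀ i, Adm (Real.sqrt (P.A i + P.B i * x)) l r

theorem AdmP.adm {P : Prof} {x l r : ℝ} (h : AdmP P x l r) : Adm (P.iso x) l r :=
  Adm.min (Adm.min (h 0) (h 1)) (h 2)

theorem AdmP.seg {P : Prof} {α κ x0 x1 r0 r1 s t : ℝ} (h0x : x0 ∈ Icc (0 : ℝ) 1)
    (h1x : x1 ∈ Icc (0 : ℝ) 1) (hs : 0 ≤ s) (ht : 0 ≤ t) (hst : s + t = 1) (h0 : r0 ^ 2 ≤ 1)
    (h1 : r1 ^ 2 ≤ 1) (a0 : AdmP P x0 (α + κ * x0) r0) (a1 : AdmP P x1 (α + κ * x1) r1) :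
    AdmP P (s * x0 + t * x1) (α + κ * (s * x0 + t * x1)) (s * r0 + t * r1) := by
  intro i
  have el : α + κ * (s * x0 + t * x1) = s * (α + κ * x0) + t * (α + κ * x1) := by
    have : α = (s + t) * α := by rw [hst, one_mul]
    linear_combination this
  have e : P.A i + P.B i * (s * x0 + t * x1) =
      s * (P.A i + P.B i * x0) + t * (P.A i + P.B i * x1) := by
    have : P.A i = (s + t) * P.A i := by rw [hst, one_mul]
    linear_combination this
  rw [el, e]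
  exact Adm.sqrt_seg hs ht hst (P.nn i x0 h0x) (P.nn i x1 h1x) h0 h1 (a0 i) (a1 i)

/-- admissible node -/
structure Nd (P1 P2 : Prof) (α1 α2 κ x r : ℝ) : Prop where
  x0 : 0 ≤ x
  x1 : x ≤ 1
  r0 : 0 ≤ r
  r1 : r ≤ 1
  l2 : 0 ≤ α2 + κ * x
  a1 : AdmP P1 x (α1 + κ * x) r
  a2 : AdmP P2 x (α2 + κ * x) r

theorem Nd.seg {P1 P2 : Prof} {α1 α2 κ x0 x1 r0 r1 s t : ℝ} (h0 : Nd P1 P2 α1 α2 κ x0 r0)
    (h1 : Nd P1 P2 α1 α2 κ x1 r1) (hs : 0 ≤ s) (ht : 0 ≤ t) (hst : s + t = 1) :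
    Nd P1 P2 α1 α2 κ (s * x0 + t * x1) (s * r0 + t * r1) := by
  have h0x0 := h0.x0
  have h0x1 := h0.x1
  have h1x0 := h1.x0
  have h1x1 := h1.x1
  have h0r0 := h0.r0
  have h0r1 := h0.r1
  have h1r0 := h1.r0
  have h1r1 := h1.r1
  have hr0 : r0 ^ 2 ≤ 1 := by nlinarith
  have hr1 : r1 ^ 2 ≤ 1 := by nlinarith
  refine ⟨by positivity, by nlinarith, by positivity, by nlinarith, ?_,
    AdmP.seg ⟨h0x0, h0x1⟩ ⟨h1x0, h1x1⟩ hs ht hst hr0 hr1 h0.a1 h1.a1,
    AdmP.seg ⟨h0x0, h0x1⟩ ⟨h1x0, h1x1⟩ hs ht hst hr0 hr1 h0.a2 h1.a2⟩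
  have el : α2 + κ * (s * x0 + t * x1) = s * (α2 + κ * x0) + t * (α2 + κ * x1) := by
    have : α2 = (s + t) * α2 := by rw [hst, one_mul]
    linear_combination this
  rw [el]
  exact add_nonneg (mul_nonneg hs h0.l2) (mul_nonneg ht h1.l2)

theorem Nd.line {P1 P2 : Prof} {α1 α2 κ x0 x1 a : ℝ} (h0 : Nd P1 P2 α1 α2 κ x0 0)
    (h1 : Nd P1 P2 α1 α2 κ x1 0) (ha : a ∈ Icc x0 x1) :
    α1 + κ * a ≤ P1.iso a ∧ 0 ≤ α2 + κ * a ∧ α2 + κ * a ≤ P2.iso a := by
  obtain ⟨s, t, hs, ht, hst, rfl⟩ := exists_seg ha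
  have h := h0.seg h1 hs ht hst
  have e0 : s * (0 : ℝ) + t * 0 = 0 := by ring
  rw [e0] at h
  exact ⟨Adm.zero_iff.1 h.a1.adm, h.l2, Adm.zero_iff.1 h.a2.adm⟩

theorem iso_nonneg (P : Prof) (a : ℝ) : 0 ≤ P.iso a :=
  le_min (le_min (Real.sqrt_nonneg _) (Real.sqrt_nonneg _)) (Real.sqrt_nonneg _)

theorem Nd.int {P1 P2 : Prof} {α1 α2 κ x0 x1 r0 r1 : ℝ} (h0 : Nd P1 P2 α1 α2 κ x0 r0)
    (h1 : Nd P1 P2 α1 α2 κ x1 r1) (hx : x0 ≤ x1) :
    (x1 - x0) * (r0 + r1) / 2 ≤ ∫ a in x0..x1, qf2 P1.iso P2.iso α1 α2 κ a := by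
  refine int2_seg P1.iso_continuous.measurable P2.iso_continuous.measurable hx
    ⟨h0.r0, h0.r1⟩ ⟨h1.r0, h1.r1⟩ fun s t hs ht hst => ?_
  have h := h0.seg h1 hs ht hst
  exact ⟨iso_nonneg _ _, iso_nonneg _ _, h.l2, h.a1.adm, h.a2.adm⟩

/-- constant term of the first line -/
noncomputable def a1 (b1 c2 la mu u d : ℕ) : ℝ :=
  ap b1 c2 la mu + ((u : ℝ) - d) / 1000000

theorem ndOK_sound {P1 P2 : Prof} {wm1 wm2 : ℕ → ℕ} (hw1 : P1.LB wm1) (hw2 : P2.LB wm2)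
    {b1 c2 la mu u d X r : ℕ} (hbc : b1 < c2) (hcM : c2 ≤ M)
    (h : ndOK wm1 wm2 b1 c2 la mu u d X r = true) :
    Nd P1 P2 (a1 b1 c2 la mu u d) (ap b1 c2 la mu) (kp b1 c2 la mu)
      ((X : ℝ) / 1000000) ((r : ℝ) / 1000000) := by
  unfold ndOK at h
  simp only [fc_eq, Bool.and_eq_true, Nat.ble_eq] at h
  obtain ⟨hX1, hX2, hrM, k2, k1⟩ := h
  have hd : (0 : ℝ) < (c2 : ℝ) - b1 := by
    have : (b1 : ℝ) < c2 := by exact_mod_cast hbc
    linarith
  have hXM : X ≤ M := hX2.trans hcM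
  have hXMr : (X : ℝ) ≤ 1000000 := by rw [← M_real]; exact_mod_cast hXM
  have hrMr : (r : ℝ) ≤ 1000000 := by rw [← M_real]; exact_mod_cast hrM
  have hX0 : (0 : ℝ) ≤ X := Nat.cast_nonneg X
  have hr0 : (0 : ℝ) ≤ r := Nat.cast_nonneg r
  have hr2 : r * r ≤ M * M := Nat.mul_le_mul hrM hrM
  have hl := line_cast (la := la) (mu := mu) hX1 hX2
  generalize la * (c2 - X) + mu * (X - b1) = n at k1 k2 hl
  have hs : (((M * M - r * r) * ((c2 - b1) * (c2 - b1)) : ℕ) : ℝ) =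
      (1000000 ^ 2 - (r : ℝ) ^ 2) * ((c2 : ℝ) - b1) ^ 2 := by
    push_cast [Nat.cast_sub hbc.le, Nat.cast_sub hr2, M_real]
    ring
  have hn1 : (n : ℝ) + ((u : ℝ) - d) * ((c2 : ℝ) - b1) ≤
      ((n + u * (c2 - b1) - d * (c2 - b1) : ℕ) : ℝ) := by
    have h1 : (n + u * (c2 - b1) : ℕ) ≤
        (n + u * (c2 - b1) - d * (c2 - b1)) + d * (c2 - b1) := by omega
    have h2 := (Nat.cast_le (α := ℝ)).mpr h1
    rw [Nat.cast_add (n + u * (c2 - b1) - d * (c2 - b1))] at h2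
    have h3 : ((c2 - b1 : ℕ) : ℝ) = (c2 : ℝ) - b1 := Nat.cast_sub hbc.le
    rw [Nat.cast_add n, Nat.cast_mul, Nat.cast_mul, h3] at h2
    linarith
  generalize (M * M - r * r) * ((c2 - b1) * (c2 - b1)) = s at k1 k2 hs
  generalize n + u * (c2 - b1) - d * (c2 - b1) = n1 at k1 hn1
  set D : ℝ := (c2 : ℝ) - b1 with hD
  set L : ℝ := (la : ℝ) * (c2 - X) + mu * (X - b1) with hL
  have hv : ap b1 c2 la mu + kp b1 c2 la mu * ((X : ℝ) / 1000000) = L / (1000000 * D) :=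
    line_val hbc X
  have hv1 : a1 b1 c2 la mu u d + kp b1 c2 la mu * ((X : ℝ) / 1000000) ≤
      (n1 : ℝ) / (1000000 * D) := by
    unfold a1
    have h2 : L / (1000000 * D) + ((u : ℝ) - d) / 1000000 = (L + ((u : ℝ) - d) * D) /
        (1000000 * D) := by
      field_simp
    have h3 : ap b1 c2 la mu + ((u : ℝ) - d) / 1000000 + kp b1 c2 la mu * ((X : ℝ) / 1000000) =
        L / (1000000 * D) + ((u : ℝ) - d) / 1000000 := by
      rw [← hv]; ring
    rw [h3, h2]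
    apply div_le_div_of_nonneg_right _ (by positivity)
    rw [← hl]
    exact hn1
  have hA : 0 ≤ 1 - ((r : ℝ) / 1000000) ^ 2 := by
    have : ((r : ℝ) / 1000000) ^ 2 ≤ 1 := by
      rw [div_pow, div_le_one (by norm_num)]
      nlinarith
    linarith
  have hx1 : (X : ℝ) / 1000000 ≤ 1 := by
    rw [div_le_one (by norm_num)]; exact hXMr
  have hx0 : (0 : ℝ) ≤ (X : ℝ) / 1000000 := by positivity
  have hle : ∀ (P : Prof) (wm : ℕ → ℕ) (m : ℕ), P.LB wm → 10000000000 * (m * m) ≤ wm X * s →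
      AdmP P ((X : ℝ) / 1000000) ((m : ℝ) / (1000000 * D)) ((r : ℝ) / 1000000) := by
    intro P wm m hwm hm i
    have hm' := (Nat.cast_le (α := ℝ)).mpr hm
    push_cast at hm'
    refine Adm.of_sqrt (P.nn i _ ⟨hx0, hx1⟩) ?_
    have h1 : ((m : ℝ) / (1000000 * D)) ^ 2 ≤
        (1 - ((r : ℝ) / 1000000) ^ 2) * ((wm X : ℝ) / 10 ^ 10) := by
      rw [div_pow, div_le_iff₀ (by positivity)]
      have e : (1 - ((r : ℝ) / 1000000) ^ 2) * ((wm X : ℝ) / 10 ^ 10) * (1000000 * D) ^ 2 =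
          (wm X : ℝ) * ((1000000 ^ 2 - (r : ℝ) ^ 2) * D ^ 2) / 10 ^ 10 := by ring
      rw [e, ← hs, le_div_iff₀ (by positivity)]
      linarith
    exact h1.trans (mul_le_mul_of_nonneg_left (hwm i X hXM) hA)
  refine ⟨hx0, hx1, by positivity, ?_, ?_, ?_, ?_⟩
  · rw [div_le_one (by norm_num)]; exact hrMr
  · rw [hv, ← hl]
    positivity
  · intro i
    exact le_trans hv1 (hle P1 wm1 n1 hw1 k1 i)
  · rw [hv, ← hl]
    exact hle P2 wm2 n hw2 k2

section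
variable {P1 P2 : Prof} {wm1 wm2 : ℕ → ℕ}

theorem go_sound (hw1 : P1.LB wm1) (hw2 : P2.LB wm2)
    {b1 c2 la mu u d n lo hi : ℕ} (hbc : b1 < c2) (hcM : c2 ≤ M) :
    ∀ (j X r acc : ℕ),
      Nd P1 P2 (a1 b1 c2 la mu u d) (ap b1 c2 la mu) (kp b1 c2 la mu)
        ((X : ℝ) / 1000000) ((r : ℝ) / 1000000) → X ≤ hi →
      (go wm1 wm2 b1 c2 la mu u d n lo hi j X r acc : ℝ) ≤ acc + 2000000000000 *
        ∫ a in ((X : ℝ) / 1000000)..((hi : ℝ) / 1000000),
          qf2 P1.iso P2.iso (a1 b1 c2 la mu u d) (ap b1 c2 la mu) (kp b1 c2 la mu) a := by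
  intro j
  induction j with
  | zero =>
    intro X r acc _ hX
    have := int2_nonneg (K1 := P1.iso) (K2 := P2.iso) (α1 := a1 b1 c2 la mu u d)
      (α2 := ap b1 c2 la mu) (κ := kp b1 c2 la mu) (cle hX)
    unfold go
    linarith
  | succ j ih =>
    intro X r acc hN hX
    have hpos := int2_nonneg (K1 := P1.iso) (K2 := P2.iso) (α1 := a1 b1 c2 la mu u d)
      (α2 := ap b1 c2 la mu) (κ := kp b1 c2 la mu) (cle hX)
    have hacc : (0 : ℝ) ≤ acc := Nat.cast_nonneg acc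
    unfold go
    simp only [fc_eq]
    generalize nd n lo hi (n - j) = Y
    generalize rn wm1 wm2 b1 c2 la mu u d Y = ρ
    cases hb : (ndOK wm1 wm2 b1 c2 la mu u d Y ρ && (Nat.ble X Y && Nat.ble Y hi))
    · rw [cond_false]
      push_cast
      positivity
    · rw [cond_true]
      simp only [Bool.and_eq_true, Nat.ble_eq] at hb
      obtain ⟨hn, hXY, hYhi⟩ := hb
      have hN' := ndOK_sound hw1 hw2 hbc hcM hn
      have h1 := ih Y ρ (acc + (Y - X) * (r + ρ)) hN' hYhi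
      have h2 := Nd.int hN hN' (cle hXY)
      have h3 := intervalIntegral.integral_add_adjacent_intervals
        (qf2_int P1.iso_continuous.measurable P2.iso_continuous.measurable
          (a1 b1 c2 la mu u d) (ap b1 c2 la mu) (kp b1 c2 la mu)
          ((X : ℝ) / 1000000) ((Y : ℝ) / 1000000))
        (qf2_int P1.iso_continuous.measurable P2.iso_continuous.measurable
          (a1 b1 c2 la mu u d) (ap b1 c2 la mu) (kp b1 c2 la mu)
          ((Y : ℝ) / 1000000) ((hi : ℝ) / 1000000))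
      rw [← h3]
      rw [Nat.cast_add, Nat.cast_mul, Nat.cast_sub hXY, Nat.cast_add] at h1
      have e : ((Y : ℝ) / 1000000 - (X : ℝ) / 1000000) * ((r : ℝ) / 1000000 + (ρ : ℝ) / 1000000) / 2
          = ((Y : ℝ) - X) * (r + ρ) / 2000000000000 := by ring
      rw [e, div_le_iff₀ (by norm_num)] at h2
      linarith

theorem tt_sound (hw1 : P1.LB wm1) (hw2 : P2.LB wm2) {n b1 b2 c1 c2 la mu u d : ℕ}
    (hbc : b1 < c2) (hcM : c2 ≤ M)
    {b c : ℝ} (hb : b ≤ (b2 : ℝ) / 1000000) (hc : (c1 : ℝ) / 1000000 ≤ c) (h : b ≤ c) :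
    (tt wm1 wm2 n b1 c2 la mu u d b2 c1 : ℝ) / 2000000000000 ≤
      cal2 P1.iso P2.iso (a1 b1 c2 la mu u d) (ap b1 c2 la mu) (kp b1 c2 la mu) b c := by
  rw [cal2_eq]
  have hpos := int2_nonneg (K1 := P1.iso) (K2 := P2.iso) (α1 := a1 b1 c2 la mu u d)
    (α2 := ap b1 c2 la mu) (κ := kp b1 c2 la mu) h
  rw [div_le_iff₀ (by norm_num)]
  unfold tt
  cases h1 : Nat.blt b2 c1
  · rw [cond_false]
    push_cast
    positivity
  · rw [cond_true]
    rw [Nat.blt_eq] at h1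
    simp only [fc_eq]
    cases h2 : ndOK wm1 wm2 b1 c2 la mu u d b2 (rn wm1 wm2 b1 c2 la mu u d b2)
    · rw [cond_false]
      push_cast
      positivity
    · rw [cond_true]
      have hm := int2_mono P1.iso_continuous.measurable P2.iso_continuous.measurable
        (α1 := a1 b1 c2 la mu u d) (α2 := ap b1 c2 la mu) (κ := kp b1 c2 la mu) hb
        (cle h1.le) hc
      have h3 := go_sound hw1 hw2 (n := n) (lo := b2) (hi := c1) hbc hcM n b2 _ 0
        (ndOK_sound hw1 hw2 hbc hcM h2) h1.le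
      push_cast at h3
      linarith

/-- the conclusion -/
def Good (P1 P2 : Prof) (z : Prop) (V b c : ℝ) : Prop :=
  ∃ α1 α2 κ : ℝ, (∀ a ∈ Set.Icc b c, α1 + κ * a ≤ P1.iso a) ∧
    (∀ a ∈ Set.Icc b c, 0 ≤ α2 + κ * a ∧ α2 + κ * a ≤ P2.iso a) ∧ (z → α2 ≤ α1) ∧
    Jh V + 1 / 10 ^ 6 ≤
      α1 * 0.13 + α2 * (1 - 0.13) + κ * V + cal2 P1.iso P2.iso α1 α2 κ b c

/-- `(V, b, c)` is in the box -/
structure In (b1 b2 c1 c2 V1 V2 : ℕ) (V b c : ℝ) : Prop where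
  b1 : (b1 : ℝ) / 1000000 ≤ b
  b2 : b ≤ (b2 : ℝ) / 1000000
  c1 : (c1 : ℝ) / 1000000 ≤ c
  c2 : c ≤ (c2 : ℝ) / 1000000
  V1 : (V1 : ℝ) / 1000000 ≤ V
  V2 : V ≤ (V2 : ℝ) / 1000000

theorem lf_sound (hw1 : P1.LB wm1) (hw2 : P2.LB wm2) {n b1 b2 c1 c2 V1 V2 la mu u d : ℕ}
    (h : lf wm1 wm2 n b1 b2 c1 c2 V1 V2 la mu u d = true) {V b c : ℝ}
    (hI : In b1 b2 c1 c2 V1 V2 V b c) (hbV : b ≤ V) (hVc : V ≤ c) :
    Good P1 P2 (d = 0) V b c := by
  unfold lf at h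
  simp only [fc_eq, mn_eq, mx_eq, Bool.and_eq_true, Nat.ble_eq, Nat.blt_eq,
    Bool.or_eq_true] at h
  obtain ⟨hbc, hcM, n1, n2, h⟩ := h
  have hD : (0 : ℝ) < (c2 : ℝ) - b1 := by
    have : (b1 : ℝ) < c2 := by exact_mod_cast hbc
    linarith
  have N1 := ndOK_sound hw1 hw2 hbc hcM n1
  have N2 := ndOK_sound hw1 hw2 hbc hcM n2
  rw [Nat.cast_zero, zero_div] at N1 N2
  have hline : ∀ a ∈ Icc b c, a1 b1 c2 la mu u d + kp b1 c2 la mu * a ≤ P1.iso a ∧
      0 ≤ ap b1 c2 la mu + kp b1 c2 la mu * a ∧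
      ap b1 c2 la mu + kp b1 c2 la mu * a ≤ P2.iso a := fun a ha =>
    Nd.line N1 N2 ⟨hI.b1.trans ha.1, ha.2.trans hI.c2⟩
  refine ⟨a1 b1 c2 la mu u d, ap b1 c2 la mu, kp b1 c2 la mu, fun a ha => (hline a ha).1,
    fun a ha => (hline a ha).2, ?_, ?_⟩
  · intro hd0
    unfold a1
    rw [hd0]
    have : (0 : ℝ) ≤ ((u : ℝ) - ((0 : ℕ) : ℝ)) / 1000000 := by
      simp
      positivity
    linarith
  set v : ℝ := V * 1000000 with hv
  have hVv : V = v / 1000000 := by rw [hv]; field_simp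
  have hb1 := hI.b1
  have hc2 := hI.c2
  have hV1 := hI.V1
  have hV2 := hI.V2
  have hva : ((max V1 b1 : ℕ) : ℝ) ≤ v := by
    rw [Nat.cast_max]
    apply max_le
    · rw [div_le_iff₀ (by norm_num)] at hV1; exact hV1
    · have := hb1.trans hbV
      rw [div_le_iff₀ (by norm_num)] at this; exact this
  have hvb : v ≤ ((min V2 c2 : ℕ) : ℝ) := by
    rw [Nat.cast_min]
    apply le_min
    · rw [le_div_iff₀ (by norm_num)] at hV2; exact hV2
    · have := hVc.trans hc2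
      rw [le_div_iff₀ (by norm_num)] at this; exact this
  have hab : max V1 b1 ≤ min V2 c2 := by exact_mod_cast hva.trans hvb
  rcases h with h | h
  · exact absurd h (not_lt.mpr hab)
  · obtain ⟨hdT, h⟩ := h
    have h2 := tt_sound hw1 hw2 (n := n) (la := la) (mu := mu) (u := u) (d := d) hbc hcM
      hI.b2 hI.c1 (hbV.trans hVc)
    have key : Jh V ≤ ap b1 c2 la mu + kp b1 c2 la mu * V +
        ((tt wm1 wm2 n b1 c2 la mu u d b2 c1 + 260000 * u - (260000 * d + 2000000) : ℕ) : ℝ) /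
          2000000000000 := by
      rcases h with h | h
      · have h3 := N5.test_sound hbc (le_max_right V1 b1) (hab.trans (min_le_right _ _))
          ((le_max_right V1 b1).trans hab) (min_le_right _ _) h ⟨hva, hvb⟩
        rw [← hVv] at h3
        have h4 : Jh V ≤ 1 := min_le_right _ _
        have h5 : N5.Tgt 2 V = 1 := by simp [N5.Tgt]
        rw [h5] at h3
        linarith
      · have h3 := N5.test_sound hbc (le_max_right V1 b1) (hab.trans (min_le_right _ _))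
          ((le_max_right V1 b1).trans hab) (min_le_right _ _) h ⟨hva, hvb⟩
        rw [← hVv] at h3
        have h5 : N5.Tgt 0 V = Jh V := by simp [N5.Tgt]
        rw [h5] at h3
        exact h3
    rw [Nat.cast_sub hdT] at key
    push_cast at key
    have e1 : ((tt wm1 wm2 n b1 c2 la mu u d b2 c1 : ℝ) + 260000 * u -
        (260000 * d + 2000000)) / 2000000000000 =
        (tt wm1 wm2 n b1 c2 la mu u d b2 c1 : ℝ) / 2000000000000 +
          0.13 * (((u : ℝ) - d) / 1000000) - 1 / 10 ^ 6 := by ring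
    rw [e1] at key
    have e2 : a1 b1 c2 la mu u d * 0.13 + ap b1 c2 la mu * (1 - 0.13) =
        ap b1 c2 la mu + 0.13 * (((u : ℝ) - d) / 1000000) := by
      unfold a1
      ring
    rw [e2]
    linarith

end

theorem chk_sound {lf : ℕ → ℕ → ℕ → ℕ → ℕ → ℕ → ℕ → Bool}
    {sk : ℕ → ℕ → ℕ → ℕ → ℕ → ℕ → Bool} {Q : ℝ → ℝ → ℝ → Prop}
    (hlf : ∀ k b1 b2 c1 c2 V1 V2 : ℕ, lf k b1 b2 c1 c2 V1 V2 = true → ∀ V b c : ℝ,
      In b1 b2 c1 c2 V1 V2 V b c → b ≤ V → V ≤ c → Q V b c)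
    (hsk : ∀ b1 b2 c1 c2 V1 V2 : ℕ, sk b1 b2 c1 c2 V1 V2 = true → ∀ V b c : ℝ,
      In b1 b2 c1 c2 V1 V2 V b c → b ≤ V → V ≤ c → Q V b c) (t : Tr) :
    ∀ {b1 b2 c1 c2 V1 V2 : ℕ}, chk lf sk t b1 b2 c1 c2 V1 V2 = true → ∀ {V b c : ℝ},
    In b1 b2 c1 c2 V1 V2 V b c → b ≤ V → V ≤ c → Q V b c := by
  induction t with
  | L k =>
    intro b1 b2 c1 c2 V1 V2 h V b c hI hbV hVc
    exact hlf k _ _ _ _ _ _ h V b c hI hbV hVc
  | S =>
    intro b1 b2 c1 c2 V1 V2 h V b c hI hbV hVc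
    unfold chk at h
    simp only [Bool.or_eq_true, Nat.blt_eq] at h
    rcases h with h | h | h
    · exfalso
      have e : (c2 : ℝ) < V1 := by exact_mod_cast h
      have h1 := hI.c2
      have h2 := hI.V1
      have : (c2 : ℝ) / 1000000 < (V1 : ℝ) / 1000000 := by linarith
      linarith
    · exfalso
      have e : (V2 : ℝ) < b1 := by exact_mod_cast h
      have h1 := hI.b1
      have h2 := hI.V2
      have : (V2 : ℝ) / 1000000 < (b1 : ℝ) / 1000000 := by linarith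
      linarith
    · exact hsk _ _ _ _ _ _ h V b c hI hbV hVc
  | B l r hl hr =>
    intro b1 b2 c1 c2 V1 V2 h V b c hI hbV hVc
    unfold chk at h
    simp only [fc_eq, Bool.and_eq_true] at h
    rcases le_total b ((((b1 + b2) / 2 : ℕ) : ℝ) / 1000000) with hm | hm
    · exact hl h.1 { hI with b2 := hm } hbV hVc
    · exact hr h.2 { hI with b1 := hm } hbV hVc
  | C l r hl hr =>
    intro b1 b2 c1 c2 V1 V2 h V b c hI hbV hVc
    unfold chk at h
    simp only [fc_eq, Bool.and_eq_true] at h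
    rcases le_total c ((((c1 + c2) / 2 : ℕ) : ℝ) / 1000000) with hm | hm
    · exact hl h.1 { hI with c2 := hm } hbV hVc
    · exact hr h.2 { hI with c1 := hm } hbV hVc
  | V l r hl hr =>
    intro b1 b2 c1 c2 V1 V2 h V b c hI hbV hVc
    unfold chk at h
    simp only [fc_eq, Bool.and_eq_true] at h
    rcases le_total V ((((V1 + V2) / 2 : ℕ) : ℝ) / 1000000) with hm | hm
    · exact hl h.1 { hI with V2 := hm } hbV hVc
    · exact hr h.2 { hI with V1 := hm } hbV hVc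

end Vale.Agent.P232.NT
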