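import Mathlib
import Vale.Agent.P232.SDefs

open MeasureTheory Set Filter
open scoped Topology

namespace Vale.Agent.P232

theorem tn_nonneg (s : ℝ) : 0 ≤ tn s := abs_nonneg _

theorem tn_le_half (s : ℝ) : tn s ≤ 1 / 2 := abs_sub_round s

theorem SA_le (s : ℝ) (z : ℤ) : tn s ≤ |s - z| := round_le s z

theorem tn_le_abs (s : ℝ) : tn s ≤ |s| := by
  have := SA_le s 0
  simpa using this

theorem tn_add_int (s : ℝ) (n : ℤ) : tn (s + n) = tn s := by
  apply le_antisymm
  · refine (SA_le (s + n) (round s + n)).trans (le_of_eq ?_)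
    unfold tn
    congr 1
    push_cast
    ring
  · refine (SA_le s (round (s + n) - n)).trans (le_of_eq ?_)
    unfold tn
    congr 1
    push_cast
    ring

theorem SA_neg_le (s : ℝ) : tn (-s) ≤ tn s := by
  refine (SA_le (-s) (-round s)).trans (le_of_eq ?_)
  unfold tn
  rw [← abs_neg]
  congr 1
  push_cast
  ring

theorem tn_neg (s : ℝ) : tn (-s) = tn s := by
  apply le_antisymm (SA_neg_le s)
  have := SA_neg_le (-s)
  rwa [neg_neg] at this

theorem tn_eq_abs {s : ℝ} (h : |s| ≤ 1 / 2) : tn s = |s| := by
  apply le_antisymm (tn_le_abs s)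
  unfold tn
  by_cases h0 : round s = 0
  · rw [h0]; simp
  · have h1 : (1 : ℝ) ≤ |(round s : ℝ)| := by
      have : (1 : ℤ) ≤ |round s| := Int.one_le_abs h0
      exact_mod_cast this
    have h2 : |(round s : ℝ)| - |s| ≤ |s - round s| := by
      rw [abs_sub_comm]; exact abs_sub_abs_le_abs_sub _ _
    linarith

theorem tn_add_le (s r : ℝ) : tn (s + r) ≤ tn s + tn r := by
  refine (SA_le (s + r) (round s + round r)).trans ?_
  unfold tn
  refine le_trans (le_of_eq ?_) (abs_add_le _ _)
  congr 1
  push_cast
  ring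

theorem SA_lip (s r : ℝ) : |tn s - tn r| ≤ |s - r| := by
  rw [abs_le]
  have h1 := tn_add_le r (s - r)
  have h2 := tn_add_le s (r - s)
  have h3 := tn_le_abs (s - r)
  have h4 := tn_le_abs (r - s)
  rw [abs_sub_comm r s] at h4
  have e1 : r + (s - r) = s := by ring
  have e2 : s + (r - s) = r := by ring
  rw [e1] at h1
  rw [e2] at h2
  constructor <;> linarith

theorem tn_cont : Continuous tn := by
  have : LipschitzWith 1 tn := LipschitzWith.of_dist_le_mul fun s r => by
    rw [Real.dist_eq, Real.dist_eq]
    simpa using SA_lip s r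
  exact this.continuous

theorem SA_fr (a b t : ℝ) : tn (a - b) = tn (Int.fract (a - t) - Int.fract (b - t)) := by
  have h : a - b = (Int.fract (a - t) - Int.fract (b - t)) + ((⌊a - t⌋ - ⌊b - t⌋ : ℤ) : ℝ) := by
    unfold Int.fract
    push_cast
    ring
  rw [h, tn_add_int]

theorem SA_fr' (a b t : ℝ) :
    tn (a - (2 * t - b)) = tn (Int.fract (a - t) + Int.fract (b - t)) := by
  have h : a - (2 * t - b)
      = (Int.fract (a - t) + Int.fract (b - t)) + ((⌊a - t⌋ + ⌊b - t⌋ : ℤ) : ℝ) := by
    unfold Int.fract
    push_cast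
    ring
  rw [h, tn_add_int]

theorem tn_same {a b t : ℝ} (h : Int.fract (a - t) < 1 / 2 ↔ Int.fract (b - t) < 1 / 2) :
    tn (a - b) ≤ tn (a - (2 * t - b)) := by
  rw [SA_fr a b t, SA_fr' a b t]
  have a0 := Int.fract_nonneg (a - t)
  have b0 := Int.fract_nonneg (b - t)
  have a1 := Int.fract_lt_one (a - t)
  have b1 := Int.fract_lt_one (b - t)
  generalize Int.fract (a - t) = x at *
  generalize Int.fract (b - t) = y at *
  by_cases hx : x < 1 / 2
  · have hy := h.1 hx
    have e1 : tn (x - y) = |x - y| := tn_eq_abs (by rw [abs_le]; constructor <;> linarith)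
    rw [e1]
    by_cases hs : x + y ≤ 1 / 2
    · rw [tn_eq_abs (by rw [abs_le]; constructor <;> linarith), abs_of_nonneg (add_nonneg a0 b0)]
      rw [abs_le]; constructor <;> linarith
    · have e2 : tn (x + y) = tn (x + y - 1) := by
        have := tn_add_int (x + y - 1) 1
        rw [← this]; congr 1; push_cast; ring
      rw [e2, tn_eq_abs (by rw [abs_le]; constructor <;> linarith), abs_of_nonpos (by linarith : x + y - 1 ≤ 0)]
      rw [abs_le]; constructor <;> linarith
  · have hy : ¬ y < 1 / 2 := fun hh => hx (h.2 hh)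
    push Not at hx hy
    have e1 : tn (x - y) = |x - y| := tn_eq_abs (by rw [abs_le]; constructor <;> linarith)
    rw [e1]
    by_cases hs : x + y ≤ 3 / 2
    · have e2 : tn (x + y) = tn (x + y - 1) := by
        have := tn_add_int (x + y - 1) 1
        rw [← this]; congr 1; push_cast; ring
      rw [e2, tn_eq_abs (by rw [abs_le]; constructor <;> linarith), abs_of_nonneg (by linarith : 0 ≤ x + y - 1)]
      rw [abs_le]; constructor <;> linarith
    · have e2 : tn (x + y) = tn (x + y - 2) := by
        have := tn_add_int (x + y - 2) 2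
        rw [← this]; congr 1; push_cast; ring
      rw [e2, tn_eq_abs (by rw [abs_le]; constructor <;> linarith), abs_of_nonpos (by linarith : x + y - 2 ≤ 0)]
      rw [abs_le]; constructor <;> linarith

theorem tn_opp {a b t : ℝ} (h : ¬ (Int.fract (a - t) < 1 / 2 ↔ Int.fract (b - t) < 1 / 2)) :
    tn (a - (2 * t - b)) ≤ tn (a - b) := by
  rw [SA_fr a b t, SA_fr' a b t]
  have a0 := Int.fract_nonneg (a - t)
  have b0 := Int.fract_nonneg (b - t)
  have a1 := Int.fract_lt_one (a - t)
  have b1 := Int.fract_lt_one (b - t)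
  generalize Int.fract (a - t) = x at *
  generalize Int.fract (b - t) = y at *
  have e3 : tn (x + y) = tn (x + y - 1) := by
    have := tn_add_int (x + y - 1) 1
    rw [← this]; congr 1; push_cast; ring
  have e4 : tn (x + y - 1) = |x + y - 1| := by
    apply tn_eq_abs
    by_cases hx : x < 1 / 2
    · have hy : ¬ y < 1 / 2 := fun hh => h ⟨fun _ => hh, fun _ => hx⟩
      push Not at hy
      rw [abs_le]; constructor <;> linarith
    · have hy : y < 1 / 2 := by
        by_contra hh
        exact h ⟨fun h1 => absurd h1 hx, fun h1 => absurd h1 hh⟩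
      push Not at hx
      rw [abs_le]; constructor <;> linarith
  rw [e3, e4]
  by_cases hx : x < 1 / 2
  · have hy : ¬ y < 1 / 2 := fun hh => h ⟨fun _ => hh, fun _ => hx⟩
    push Not at hy
    by_cases hs : y - x ≤ 1 / 2
    · rw [tn_eq_abs (by rw [abs_le]; constructor <;> linarith), abs_of_nonpos (by linarith : x - y ≤ 0)]
      rw [abs_le]; constructor <;> linarith
    · have e2 : tn (x - y) = tn (x - y + 1) := by
        have := tn_add_int (x - y) 1
        rw [← this]; congr 1; push_cast; ring
      rw [e2, tn_eq_abs (by rw [abs_le]; constructor <;> linarith), abs_of_nonneg (by linarith : 0 ≤ x - y + 1)]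
      rw [abs_le]; constructor <;> linarith
  · have hy : y < 1 / 2 := by
      by_contra hh
      exact h ⟨fun h1 => absurd h1 hx, fun h1 => absurd h1 hh⟩
    push Not at hx
    by_cases hs : x - y ≤ 1 / 2
    · rw [tn_eq_abs (by rw [abs_le]; constructor <;> linarith), abs_of_nonneg (by linarith : 0 ≤ x - y)]
      rw [abs_le]; constructor <;> linarith
    · have e2 : tn (x - y) = tn (x - y - 1) := by
        have := tn_add_int (x - y - 1) 1
        rw [← this]; congr 1; push_cast; ring
      rw [e2, tn_eq_abs (by rw [abs_le]; constructor <;> linarith), abs_of_nonpos (by linarith : x - y - 1 ≤ 0)]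
      rw [abs_le]; constructor <;> linarith

end Vale.Agent.P232
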