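import Vale.Agent.P232.SliceArea
import Vale.Agent.P232.Fubini

/-! # P232, module COSC: oscillation of the slice areas -/

open MeasureTheory Set

namespace Vale.Agent.P232

private theorem cosc_cell_ae : (cell 2 : Set (Fin 2 → ℝ)) =ᵐ[volume] Set.Icc 0 1 := by
  unfold cell
  exact Measure.univ_pi_Ico_ae_eq_Icc (μ := fun _ : Fin 2 => (volume : Measure ℝ))
    (f := fun _ => (0 : ℝ)) (g := fun _ => (1 : ℝ))

private theorem cosc_int_cell {G : (Fin 2 → ℝ) → ℝ} (hG : Continuous G) :
    IntegrableOn G (cell 2) := by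
  refine (hG.continuousOn.integrableOn_compact (fub_isCompact 2)).mono_set ?_
  exact fub_cell_subset 2

private theorem cosc_cont {F : (Fin 3 → ℝ) → ℝ} (hF : Continuous F) (i : Fin 3) :
    Continuous fun z : ℝ => ∫ y in cell 2, F (i.insertNth z y) := by
  have h : (fun z : ℝ => ∫ y in cell 2, F (i.insertNth z y)) =
      fun z : ℝ => ∫ y in Set.Icc (0 : Fin 2 → ℝ) 1, F (i.insertNth z y) := by
    funext z
    exact setIntegral_congr_set cosc_cell_ae
  rw [h]
  exact continuous_parametric_integral_of_continuous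
    (f := fun (z : ℝ) (y : Fin 2 → ℝ) => F (i.insertNth z y))
    (hF.comp (fub_insertNth_continuous i)) isCompact_Icc

private theorem cosc_slice {F : (Fin 3 → ℝ) → ℝ} (hF : Continuous F) (i : Fin 3) (z : ℝ) :
    Continuous fun y : Fin 2 → ℝ => F (i.insertNth z y) :=
  (hF.comp (fub_insertNth_continuous i)).comp (continuous_const.prodMk continuous_id)

private theorem cosc_fd {w : (Fin 3 → ℝ) → ℝ} (hw : Nice w) (i : Fin 3) :
    Continuous fun x => |fderiv ℝ w x (Pi.single i 1)| :=
  ((hw.smooth.continuous_fderiv (by norm_num)).clm_apply continuous_const).abs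

private theorem cosc_D {w : (Fin 3 → ℝ) → ℝ} (hw : Nice w) (i : Fin 3) :
    ∫ t in (0:ℝ)..1, |deriv (sArea w i) t| ≤ ∫ x in cell 3, |fderiv ℝ w x (Pi.single i 1)| := by
  rw [fubini_slice (F := fun x => |fderiv ℝ w x (Pi.single i 1)|) (cosc_fd hw i) i]
  refine intervalIntegral.integral_mono_on zero_le_one ?_ ?_ fun t _ => sArea_deriv_le hw i t
  · exact (((sArea_contDiff hw i).continuous_deriv le_rfl).abs).intervalIntegrable _ _
  · exact (cosc_cont (cosc_fd hw i) i).intervalIntegrable _ _

private theorem cosc_gen {A : ℝ → ℝ} (hA : ContDiff ℝ 1 A) (hper : ∀ z, A (z + 1) = A z)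
    (z z' : ℝ) : A z - A z' ≤ (1 / 2) * ∫ t in (0:ℝ)..1, |deriv A t| := by
  have hP : Function.Periodic A 1 := hper
  have hd : Continuous (deriv A) := hA.continuous_deriv le_rfl
  have hdP : Function.Periodic (fun t => |deriv A t|) 1 := by
    intro t
    show |deriv A (t + 1)| = |deriv A t|
    have h1 : deriv (fun s => A (s + 1)) t = deriv A (t + 1) := deriv_comp_add_const A 1 t
    have h2 : (fun s => A (s + 1)) = A := funext hper
    rw [h2] at h1
    rw [h1]
  obtain ⟨y, hy, hy2⟩ := hP.exists_mem_Ico one_pos z' z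
  have hi : ∀ a b : ℝ, IntervalIntegrable (deriv A) volume a b := fun a b =>
    hd.intervalIntegrable a b
  have hia : ∀ a b : ℝ, IntervalIntegrable (fun t => |deriv A t|) volume a b := fun a b =>
    hd.abs.intervalIntegrable a b
  have hF : ∀ a b : ℝ, a ≤ b → |A b - A a| ≤ ∫ t in a..b, |deriv A t| := by
    intro a b hab
    rw [← intervalIntegral.integral_deriv_eq_sub
      (fun x _ => (hA.differentiable (by norm_num)) x) (hi a b)]
    exact intervalIntegral.abs_integral_le_integral_abs hab
  have h1 := abs_le.1 (hF z y hy.1)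
  have h2 := abs_le.1 (hF y (z + 1) hy.2.le)
  have h3 : (∫ t in z..y, |deriv A t|) + ∫ t in y..(z + 1), |deriv A t| =
      ∫ t in z..(z + 1), |deriv A t| :=
    intervalIntegral.integral_add_adjacent_intervals (hia _ _) (hia _ _)
  have h4 : ∫ t in z..(z + 1), |deriv A t| = ∫ t in (0:ℝ)..(0 + 1), |deriv A t| :=
    hdP.intervalIntegral_add_eq z 0
  rw [zero_add] at h4
  rw [hper] at h2
  rw [hy2]
  linarith [h1.1, h2.2]

theorem sArea_half {w : (Fin 3 → ℝ) → ℝ} (hw : Nice w) (k : Fin 3) (z z' : ℝ) :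
    sArea w k z - sArea w k z' ≤
      (1 / 2) * ∫ x in cell 3, |fderiv ℝ w x (Pi.single k 1)| := by
  have h1 := cosc_gen (sArea_contDiff hw k) (sArea_per hw k) z z'
  have h2 := cosc_D hw k
  linarith

theorem sArea_osc {w : (Fin 3 → ℝ) → ℝ} (hw : Nice w) (j : Fin 3) (z : ℝ) :
    |sArea w j z - ∫ x in cell 3, w x| ≤
      ∫ x in cell 3, |fderiv ℝ w x (Pi.single j 1)| := by
  have hD : 0 ≤ ∫ x in cell 3, |fderiv ℝ w x (Pi.single j 1)| :=
    integral_nonneg fun x => abs_nonneg _
  have hc : Continuous (sArea w j) := (sArea_contDiff hw j).continuous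
  have hfub : ∫ x in cell 3, w x = ∫ t in (0:ℝ)..1, sArea w j t :=
    fubini_slice hw.smooth.continuous j
  have h1 : ∫ t in (0:ℝ)..1, sArea w j t ≤ ∫ _t in (0:ℝ)..1,
      (sArea w j z + (1 / 2) * ∫ x in cell 3, |fderiv ℝ w x (Pi.single j 1)|) := by
    refine intervalIntegral.integral_mono_on zero_le_one (hc.intervalIntegrable _ _)
      (continuous_const.intervalIntegrable _ _) fun t _ => ?_
    linarith [sArea_half hw j t z]
  have h2 : ∫ _t in (0:ℝ)..1,
      (sArea w j z - (1 / 2) * ∫ x in cell 3, |fderiv ℝ w x (Pi.single j 1)|) ≤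
      ∫ t in (0:ℝ)..1, sArea w j t := by
    refine intervalIntegral.integral_mono_on zero_le_one
      (continuous_const.intervalIntegrable _ _) (hc.intervalIntegrable _ _) fun t _ => ?_
    linarith [sArea_half hw j z t]
  rw [intervalIntegral.integral_const, sub_zero, one_smul] at h1 h2
  rw [hfub, abs_le]
  constructor <;> linarith

theorem sArea_l1 {u w : (Fin 3 → ℝ) → ℝ} (hu : Nice u) (hw : Nice w) (i : Fin 3) :
    ∫ z in (0:ℝ)..1, |sArea u i z - sArea w i z| ≤ ∫ x in cell 3, |u x - w x| := by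
  have hc : Continuous fun x => |u x - w x| :=
    (hu.smooth.continuous.sub hw.smooth.continuous).abs
  rw [fubini_slice (F := fun x => |u x - w x|) hc i]
  refine intervalIntegral.integral_mono_on zero_le_one ?_ ?_ fun z _ => ?_
  · exact (((sArea_contDiff hu i).continuous.sub
      (sArea_contDiff hw i).continuous).abs).intervalIntegrable _ _
  · exact (cosc_cont hc i).intervalIntegrable _ _
  · unfold sArea slice
    rw [← integral_sub (cosc_int_cell (cosc_slice hu.smooth.continuous i z))
      (cosc_int_cell (cosc_slice hw.smooth.continuous i z))]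
    exact norm_integral_le_integral_norm (μ := volume.restrict (cell 2))
      (fun y : Fin 2 → ℝ => u (i.insertNth z y) - w (i.insertNth z y))

end Vale.Agent.P232
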