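import Vale.Agent.P232.SliceCommon
import Vale.Agent.P232.Slicing
import Vale.Agent.P232.HolderAvg
import Vale.Agent.P232.Holder
import Vale.Agent.P232.CutPlane

open MeasureTheory Set Filter Topology

namespace Vale.Agent.P232

/-- E5 : slicing after cutting in the two other directions -/
theorem slice_cut {f : (Fin 3 → ℝ) → ℝ} (hf : Nice f) (i : Fin 3) {α κ b c m : ℝ}
    (hb : ∀ z, b ≤ sArea f i z) (hc : ∀ z, sArea f i z ≤ c)
    (hb' : ∃ z, sArea f i z = b) (hc' : ∃ z, sArea f i z = c)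
    (hm : ∀ j, j ≠ i → ∃ z, sArea f j z ≤ m)
    (hl0 : ∀ a ∈ Set.Icc b c, 0 ≤ α + κ * a)
    (hl : ∀ a ∈ Set.Icc b c, α + κ * a ≤ Real.sqrt (Real.pi * a)) :
    α + κ * (∫ x in cell 3, f x) + cal (fun a => Real.sqrt (Real.pi * a)) α κ b c ≤
      hTV f + 2 * m + Real.sqrt (2 * Real.pi * ∫ x in cell 3, f x * (1 - f x)) := by
  obtain ⟨hb0, hc1⟩ := sl_bc hf i hb' hc'
  obtain ⟨t0, ht0⟩ := hm (i.succAbove 0) (Fin.succAbove_ne i 0)
  obtain ⟨t1, ht1⟩ := hm (i.succAbove 1) (Fin.succAbove_ne i 1)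
  have hpi : (1 : ℝ) ≤ Real.pi := by linarith [Real.pi_gt_three]
  have hsc : Continuous (fun a : ℝ => Real.sqrt (Real.pi * a)) := by fun_prop
  have h := slicing hf i (Iso := fun a => Real.sqrt (Real.pi * a)) (r := slBd f i t0 t1)
    (e := fun z => Real.sqrt (2 * Real.pi * slErr f i z)) (α := α) (κ := κ) (b := b) (c := c)
    ((slBd_cont1 hf i t0).add (slBd_cont2 hf i t1)) (fun z => slBd_nonneg hf i t0 t1 z)
    ((continuous_const.mul (slErr_cont hf i)).sqrt) (fun z => Real.sqrt_nonneg _)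
    (fun z => by
      have h1 := holder_avg (slice_nice hf i z) (F := fun a => Real.sqrt (Real.pi * a))
        (fun x y hx hx1 hy hy1 => sqrt_holder x y hx hx1 hy hy1)
      have h2 := cut_plane (slice_nice hf i z) ![t0, t1]
      have h3 : ∫ s in (0:ℝ)..1, Real.sqrt (Real.pi * lev (slice f i z) s) =
          Real.sqrt Real.pi * ∫ s in (0:ℝ)..1, Real.sqrt (lev (slice f i z) s) := by
        rw [← intervalIntegral.integral_const_mul]
        refine intervalIntegral.integral_congr fun s _ => ?_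
        exact Real.sqrt_mul Real.pi_pos.le _
      simp only [h3] at h1
      have h4 : hTV (slice f i z) + slBd f i t0 t1 z = hTV (slice f i z) +
          (∫ y in (0:ℝ)..1, slice f i z ![(![t0, t1] : Fin 2 → ℝ) 0, y]) +
          ∫ x in (0:ℝ)..1, slice f i z ![x, (![t0, t1] : Fin 2 → ℝ) 1] := by
        unfold slBd
        simp [add_assoc]
      rw [h4]
      exact h1.trans h2) hb hc hb' hc' hsc.continuousOn
    (sl_hq hsc hb0 hc1 (fun a ha => Real.sqrt_le_sqrt (by
        have h0 : 0 ≤ a := hb0.trans ha.1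
        nlinarith))
      (by simp) (Or.inr (by rw [mul_one]; exact Real.sqrt_pos.2 Real.pi_pos)) hl0 hl) hl0 hl
  have h3 := sl_err_int hf i
  have h4 : ∫ z in (0:ℝ)..1, slBd f i t0 t1 z ≤ 2 * m := by
    unfold slBd
    rw [intervalIntegral.integral_add ((slBd_cont1 hf i t0).intervalIntegrable _ _)
      ((slBd_cont2 hf i t1).intervalIntegrable _ _), (slice_swap hf i t0).1, (slice_swap hf i t1).2]
    linarith
  linarith

end Vale.Agent.P232
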