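import Vale.Agent.P232.TreeDef

/-!
# P232, module N5: the three certified searches (kernel computations)
-/

namespace Vale.Agent.P232.N5

theorem run1 : search 1 120000 155200 22 5000 155200 120000 1000000 = true := by decide +kernel

theorem run0 : search 0 155200 264000 22 5000 264000 155200 1000000 = true := by decide +kernel

theorem run2 : search 2 360000 640000 22 0 307000 360000 1000000 = true := by decide +kernel

end Vale.Agent.P232.N5
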