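import Vale.Agent.P232.TreeLeaf
import Vale.Agent.P232.TreeRun
import Vale.Agent.P232.N1
import Vale.Agent.P232.N3
import Vale.Agent.P232.SlabCorner

/-!
# P232, module N5: `tube_main` and `slab_main`
-/

open MeasureTheory Set

namespace Vale.Agent.P232

open N5

theorem tube_main {V b c : ℝ} (hV : V ∈ Set.Icc (0.12 : ℝ) 0.264) (hb : 0.005 ≤ b) (hbV : b ≤ V)
    (hc : V ≤ c) (hc1 : c ≤ 1) (hbc : b < c) :
    ∃ α κ : ℝ, (∀ a ∈ Set.Icc b c, 0 ≤ α + κ * a) ∧ (∀ a ∈ Set.Icc b c, α + κ * a ≤ I2 a) ∧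
      Jh V ≤ α + κ * V + cal I2 α κ b c := by
  have hskip : SkipR 0 b c ∨ SkipR 1 b c → ∃ α κ : ℝ, (∀ a ∈ Set.Icc b c, 0 ≤ α + κ * a) ∧
      (∀ a ∈ Set.Icc b c, α + κ * a ≤ I2 a) ∧ Jh V ≤ α + κ * V + cal I2 α κ b c := by
    intro h
    have h' : 0.66 * c ≤ b ∧ c ≤ 0.3183 := by
      rcases h with h | h
      · unfold SkipR at h
        rwa [if_neg (by norm_num)] at h
      · unfold SkipR at h
        rwa [if_neg (by norm_num)] at h
    have hcpi : c ≤ 1 / Real.pi := by
      rw [le_div_iff₀ Real.pi_pos]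
      have := Real.pi_lt_d4
      have := Real.pi_pos
      nlinarith [h'.2]
    obtain ⟨α, κ, h1, h2, h3⟩ := near_diag hV.1 hbV hc hcpi hbc h'.1
    exact ⟨α, κ, h1, h2, (Jh_le_sqrt V).trans h3⟩
  rcases le_total V 0.1552 with h | h
  · have := search_sound 1 120000 155200 (V := V) (by norm_num; linarith [hV.1])
      (by norm_num; linarith) hbV hc hbc 22 5000 155200 120000 1000000 run1
      (by norm_num; linarith) (by norm_num; linarith) (by norm_num; linarith [hV.1])
      (by norm_num; linarith)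
    rcases this with h' | h'
    · exact hskip (Or.inr h')
    · obtain ⟨α, κ, h1, h2, h3⟩ := h'
      unfold Tgt at h3
      rw [if_neg (by norm_num)] at h3
      exact ⟨α, κ, h1, h2, h3⟩
  · have := search_sound 0 155200 264000 (V := V) (by norm_num; linarith)
      (by norm_num; linarith [hV.2]) hbV hc hbc 22 5000 264000 155200 1000000 run0
      (by norm_num; linarith) (by norm_num; linarith [hV.2]) (by norm_num; linarith)
      (by norm_num; linarith)
    rcases this with h' | h'
    · exact hskip (Or.inl h')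
    · obtain ⟨α, κ, h1, h2, h3⟩ := h'
      unfold Tgt at h3
      rw [if_neg (by norm_num)] at h3
      exact ⟨α, κ, h1, h2, h3⟩

/-- the slab inequality under the assumption `I2 b ≤ I2 c` -/
theorem slab_half {V b c : ℝ} (hV : V ∈ Set.Icc (0.36 : ℝ) 0.64) (hb : 0 ≤ b) (hbV : b ≤ V)
    (hc : V ≤ c) (hc1 : c ≤ 1) (hbc : b < c) (hs : I2 b ≤ I2 c) :
    ∃ α κ : ℝ, (∀ a ∈ Set.Icc b c, 0 ≤ α + κ * a) ∧ (∀ a ∈ Set.Icc b c, α + κ * a ≤ I2 a) ∧
      1 ≤ α + κ * V + cal I2 α κ b c := by
  rcases le_total 0.307 b with h | h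
  · exact slab_plateau hV h hbV hc hc1 hs
  · have := search_sound 2 360000 640000 (V := V) (by norm_num; linarith [hV.1])
      (by norm_num; linarith [hV.2]) hbV hc hbc 22 0 307000 360000 1000000 run2
      (by norm_num; linarith) (by norm_num; linarith) (by norm_num; linarith [hV.1])
      (by norm_num; linarith)
    rcases this with h' | h'
    · unfold SkipR at h'
      rw [if_pos rfl] at h'
      rcases h' with h' | ⟨h', h''⟩ | ⟨h', h''⟩
      · exact slab_plateau hV h' hbV hc hc1 hs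
      · exact slab_corner hV hb h' h'' hc1 hs
      · exfalso
        have hpi := Real.pi_lt_d4
        have hpi0 := Real.pi_pos
        have hc2 : I2 c ≤ Real.sqrt (Real.pi * (1 - c)) := min_le_right _ _
        have hlt : Real.sqrt (Real.pi * (1 - c)) < I2 b := by
          unfold I2
          refine lt_min (lt_min ?_ ?_) ?_
          · apply Real.sqrt_lt_sqrt (mul_nonneg hpi0.le (by linarith))
            exact mul_lt_mul_of_pos_left (by linarith) hpi0
          · rw [Real.sqrt_lt' one_pos]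
            nlinarith
          · apply Real.sqrt_lt_sqrt (mul_nonneg hpi0.le (by linarith))
            exact mul_lt_mul_of_pos_left (by linarith) hpi0
        linarith
    · obtain ⟨α, κ, h1, h2, h3⟩ := h'
      unfold Tgt at h3
      rw [if_pos rfl] at h3
      exact ⟨α, κ, h1, h2, h3⟩

theorem I2_symm (a : ℝ) : I2 (1 - a) = I2 a := by
  unfold I2
  rw [sub_sub_cancel]
  generalize Real.sqrt (Real.pi * a) = x
  generalize Real.sqrt (Real.pi * (1 - a)) = y
  rw [min_right_comm, min_comm y x, min_right_comm]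

theorem slab_main {V b c : ℝ} (hV : V ∈ Set.Icc (0.36 : ℝ) 0.5) (hb : 0 ≤ b) (hbV : b ≤ V)
    (hc : V ≤ c) (hc1 : c ≤ 1) (hbc : b < c) :
    ∃ α κ : ℝ, (∀ a ∈ Set.Icc b c, 0 ≤ α + κ * a) ∧ (∀ a ∈ Set.Icc b c, α + κ * a ≤ I2 a) ∧
      1 ≤ α + κ * V + cal I2 α κ b c := by
  rcases le_total (I2 b) (I2 c) with hs | hs
  · exact slab_half ⟨hV.1, hV.2.trans (by norm_num)⟩ hb hbV hc hc1 hbc hs
  · obtain ⟨α, κ, h1, h2, h3⟩ := slab_half (V := 1 - V) (b := 1 - c) (c := 1 - b)
      ⟨by linarith [hV.2], by linarith [hV.1]⟩ (by linarith) (by linarith) (by linarith)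
      (by linarith) (by linarith) (by rw [I2_symm, I2_symm]; exact hs)
    refine ⟨α + κ, -κ, fun a ha => ?_, fun a ha => ?_, ?_⟩
    · have := h1 (1 - a) ⟨by linarith [ha.2], by linarith [ha.1]⟩
      linarith
    · have := h2 (1 - a) ⟨by linarith [ha.2], by linarith [ha.1]⟩
      rw [I2_symm] at this
      linarith
    · have e : cal I2 (α + κ) (-κ) b c = cal I2 α κ (1 - c) (1 - b) := by
        unfold cal
        rw [← intervalIntegral.integral_comp_sub_left
          (fun a => Real.sqrt (1 - ((α + κ * a) / I2 a) ^ 2)) (1 : ℝ)]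
        refine intervalIntegral.integral_congr fun a _ => ?_
        simp only [I2_symm]
        congr 4
        ring
      rw [e]
      linarith

end Vale.Agent.P232
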