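import Vale.Agent.P232.SmoothMain
import Vale.Agent.P232.SliceArea
import Vale.Agent.P232.SliceTorus
import Vale.Agent.P232.SliceCut
import Vale.Agent.P232.Fubini
import Vale.Agent.P232.N4
import Vale.Agent.P232.Tree

/-! # P232, module H1: the smooth inequality -/

open MeasureTheory Set

namespace Vale.Agent.P232

/-- the smooth inequality in the two ranges -/
theorem smooth_main {f : (Fin 3 → ℝ) → ℝ} (hf : Nice f) {V : ℝ} (hV : V = ∫ x in cell 3, f x)
    (h : V ∈ Set.Icc (0.12 : ℝ) 0.264 ∨ V ∈ Set.Icc (0.36 : ℝ) 0.5) :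
    Jh V ≤ hTV f + Real.sqrt (2 * Real.pi * ∫ x in cell 3, f x * (1 - f x)) :=
  smooth_main_of hf (fun i => (sArea_contDiff hf i).continuous)
    (fun i => fubini_slice hf.smooth.continuous i)
    (fun i _ _ _ _ hb hc hb' hc' h1 h2 => slice_torus hf i hb hc hb' hc' h1 h2)
    (fun i _ _ _ _ _ hb hc hb' hc' hm h1 h2 => slice_cut hf i hb hc hb' hc' hm h1 h2)
    (fun _ _ _ hV hb hb' hc hc1 => ball_small hV hb hb' hc hc1)
    (fun _ _ _ hV hb hbV hc hc1 hbc => tube_main hV hb hbV hc hc1 hbc)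
    (fun _ _ _ hV hb hbV hc hc1 hbc => slab_main hV hb hbV hc hc1 hbc) hV h

end Vale.Agent.P232
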