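import Vale.Agent.P232.Defs

/-!
# P232: assembly of the smooth inequality
-/

open MeasureTheory Set

namespace Vale.Agent.P232

private theorem sm_vol_cell (n : ℕ) : volume (cell n) = 1 := by
  unfold cell
  rw [Real.volume_pi_Ico]
  simp

private theorem sm_per {f : (Fin 3 → ℝ) → ℝ} (hf : Nice f) (i : Fin 3) :
    Function.Periodic (sArea f i) 1 := by
  intro z
  unfold sArea
  congr 1
  ext y
  unfold slice
  have h := hf.per (i.insertNth z y) (Pi.single i 1)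
  rw [← h]
  congr 1
  funext j
  rw [Pi.add_apply]
  rcases Fin.eq_self_or_eq_succAbove i j with hj | ⟨j', hj⟩
  · subst hj
    simp
  · subst hj
    simp [Fin.succAbove_ne]

private theorem sm_minmax {A : ℝ → ℝ} (hA : Continuous A) (hp : Function.Periodic A 1) :
    ∃ z₀ z₁, (∀ z, A z₀ ≤ A z) ∧ ∀ z, A z ≤ A z₁ := by
  obtain ⟨z₀, _, h0⟩ := isCompact_Icc.exists_isMinOn (s := Icc (0:ℝ) 1) ⟨0, by simp⟩ hA.continuousOn
  obtain ⟨z₁, _, h1⟩ := isCompact_Icc.exists_isMaxOn (s := Icc (0:ℝ) 1) ⟨0, by simp⟩ hA.continuousOn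
  refine ⟨z₀, z₁, fun z => ?_, fun z => ?_⟩
  · obtain ⟨y, hy, he⟩ := hp.exists_mem_Ico₀ one_pos z
    rw [he]
    exact h0 ⟨hy.1, hy.2.le⟩
  · obtain ⟨y, hy, he⟩ := hp.exists_mem_Ico₀ one_pos z
    rw [he]
    exact h1 ⟨hy.1, hy.2.le⟩

private theorem sm_nonneg {f : (Fin 3 → ℝ) → ℝ} (hf : Nice f) (i : Fin 3) (z : ℝ) :
    0 ≤ sArea f i z := by
  unfold sArea
  exact integral_nonneg fun y => hf.nonneg _

private theorem sm_le_one {f : (Fin 3 → ℝ) → ℝ} (hf : Nice f) (i : Fin 3) (z : ℝ) :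
    sArea f i z ≤ 1 := by
  unfold sArea
  have h := norm_setIntegral_le_of_norm_le_const (μ := volume) (s := cell 2) (C := 1)
    (f := slice f i z) (by rw [sm_vol_cell]; exact ENNReal.one_lt_top) (fun y _ => by
      show |f (i.insertNth z y)| ≤ 1
      rw [abs_of_nonneg (hf.nonneg _)]
      exact hf.le_one _)
  rw [measureReal_def, sm_vol_cell] at h
  simp only [ENNReal.toReal_one, mul_one] at h
  exact (le_abs_self _).trans h

private theorem sm_b {A : ℝ → ℝ} (hA : Continuous A) {b : ℝ} (hb : ∀ z, b ≤ A z) :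
    b ≤ ∫ z in (0:ℝ)..1, A z := by
  have h := intervalIntegral.integral_mono_on (a := 0) (b := 1) (f := fun _ => b) (g := A)
    (μ := volume) zero_le_one (by simp) (hA.intervalIntegrable _ _) (fun z _ => hb z)
  simpa using h

private theorem sm_c {A : ℝ → ℝ} (hA : Continuous A) {c : ℝ} (hc : ∀ z, A z ≤ c) :
    ∫ z in (0:ℝ)..1, A z ≤ c := by
  have h := intervalIntegral.integral_mono_on (a := 0) (b := 1) (f := A) (g := fun _ => c)
    (μ := volume) zero_le_one (hA.intervalIntegrable _ _) (by simp) (fun z _ => hc z)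
  simpa using h

private theorem sm_Jh {V : ℝ} (hV : V ≤ 1 / 2) : Jh V ≤ I2 V := by
  unfold Jh I2
  refine le_min (le_min ?_ ?_) ?_
  · exact (min_le_left _ _).trans (min_le_right _ _)
  · exact min_le_right _ _
  · refine ((min_le_left _ _).trans (min_le_right _ _)).trans (Real.sqrt_le_sqrt ?_)
    have := Real.pi_pos
    nlinarith

private theorem sm_I2 (V : ℝ) : 0 ≤ I2 V :=
  le_min (le_min (Real.sqrt_nonneg _) zero_le_one) (Real.sqrt_nonneg _)

/-- `smooth_main` from the slicing inequalities for `f` and the one-dimensional inequalities -/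
theorem smooth_main_of {f : (Fin 3 → ℝ) → ℝ} (hf : Nice f)
    (hcont : ∀ i, Continuous (sArea f i))
    (hfub : ∀ i, ∫ x in cell 3, f x = ∫ z in (0:ℝ)..1, sArea f i z)
    (slice_torus : ∀ (i : Fin 3) (α κ b c : ℝ), (∀ z, b ≤ sArea f i z) →
      (∀ z, sArea f i z ≤ c) → (∃ z, sArea f i z = b) → (∃ z, sArea f i z = c) →
      (∀ a ∈ Set.Icc b c, 0 ≤ α + κ * a) → (∀ a ∈ Set.Icc b c, α + κ * a ≤ I2 a) →
      α + κ * (∫ x in cell 3, f x) + cal I2 α κ b c ≤
        hTV f + Real.sqrt (2 * Real.pi * ∫ x in cell 3, f x * (1 - f x)))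
    (slice_cut : ∀ (i : Fin 3) (α κ b c m : ℝ), (∀ z, b ≤ sArea f i z) →
      (∀ z, sArea f i z ≤ c) → (∃ z, sArea f i z = b) → (∃ z, sArea f i z = c) →
      (∀ j, j ≠ i → ∃ z, sArea f j z ≤ m) → (∀ a ∈ Set.Icc b c, 0 ≤ α + κ * a) →
      (∀ a ∈ Set.Icc b c, α + κ * a ≤ Real.sqrt (Real.pi * a)) →
      α + κ * (∫ x in cell 3, f x) + cal (fun a => Real.sqrt (Real.pi * a)) α κ b c ≤
        hTV f + 2 * m + Real.sqrt (2 * Real.pi * ∫ x in cell 3, f x * (1 - f x)))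
    (ball_small : ∀ V b c : ℝ, V ∈ Set.Icc (0.12 : ℝ) 0.264 → 0 ≤ b → b ≤ 0.005 →
      V ≤ c → c ≤ 1 → ∃ α κ : ℝ, (∀ a ∈ Set.Icc b c, 0 ≤ α + κ * a) ∧
        (∀ a ∈ Set.Icc b c, α + κ * a ≤ Real.sqrt (Real.pi * a)) ∧
        Jh V + 2 * b ≤ α + κ * V + cal (fun a => Real.sqrt (Real.pi * a)) α κ b c)
    (tube_main : ∀ V b c : ℝ, V ∈ Set.Icc (0.12 : ℝ) 0.264 → 0.005 ≤ b → b ≤ V →
      V ≤ c → c ≤ 1 → b < c → ∃ α κ : ℝ, (∀ a ∈ Set.Icc b c, 0 ≤ α + κ * a) ∧
        (∀ a ∈ Set.Icc b c, α + κ * a ≤ I2 a) ∧ Jh V ≤ α + κ * V + cal I2 α κ b c)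
    (slab_main : ∀ V b c : ℝ, V ∈ Set.Icc (0.36 : ℝ) 0.5 → 0 ≤ b → b ≤ V →
      V ≤ c → c ≤ 1 → b < c → ∃ α κ : ℝ, (∀ a ∈ Set.Icc b c, 0 ≤ α + κ * a) ∧
        (∀ a ∈ Set.Icc b c, α + κ * a ≤ I2 a) ∧ 1 ≤ α + κ * V + cal I2 α κ b c)
    {V : ℝ} (hV : V = ∫ x in cell 3, f x)
    (h : V ∈ Set.Icc (0.12 : ℝ) 0.264 ∨ V ∈ Set.Icc (0.36 : ℝ) 0.5) :
    Jh V ≤ hTV f + Real.sqrt (2 * Real.pi * ∫ x in cell 3, f x * (1 - f x)) := by
  have hmm := fun i => sm_minmax (hcont i) (sm_per hf i)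
  choose p q hp hq using hmm
  -- the maximal minimum
  obtain ⟨i, hi⟩ : ∃ i : Fin 3, ∀ j, sArea f j (p j) ≤ sArea f i (p i) := by
    obtain ⟨i, _, hi⟩ := Finset.exists_max_image (Finset.univ : Finset (Fin 3))
      (fun j => sArea f j (p j)) ⟨0, Finset.mem_univ _⟩
    exact ⟨i, fun j => hi j (Finset.mem_univ _)⟩
  set b := sArea f i (p i) with hb
  set c := sArea f i (q i) with hc
  have hbV : b ≤ V := by
    rw [hV, hfub i]
    exact sm_b (hcont i) (hp i)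
  have hVc : V ≤ c := by
    rw [hV, hfub i]
    exact sm_c (hcont i) (hq i)
  have hb0 : 0 ≤ b := sm_nonneg hf i _
  have hc1 : c ≤ 1 := sm_le_one hf i _
  have hVh : V ≤ 1 / 2 := by
    rcases h with h | h
    · have := h.2
      norm_num at this ⊢
      linarith
    · have := h.2
      norm_num at this ⊢
      linarith
  -- the degenerate case
  have hdeg : ¬ b < c → Jh V ≤ hTV f +
      Real.sqrt (2 * Real.pi * ∫ x in cell 3, f x * (1 - f x)) := by
    intro hbc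
    have hbV' : b = V := by linarith
    have hcV' : c = V := by linarith
    have h1 := slice_torus i (I2 V) 0 b c (hp i) (hq i) ⟨p i, rfl⟩
      ⟨q i, rfl⟩ (fun a _ => by rw [zero_mul, add_zero]; exact sm_I2 V) (fun a ha => by
        have : a = V := by
          have h1 := ha.1
          have h2 := ha.2
          linarith
        rw [this, zero_mul, add_zero])
    have h2 : cal I2 (I2 V) 0 b c = 0 := by
      unfold cal
      rw [hbV', hcV', intervalIntegral.integral_same]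
    rw [h2, zero_mul, add_zero, add_zero] at h1
    exact (sm_Jh hVh).trans h1
  rcases h with h | h
  · by_cases hb5 : b ≤ 0.005
    · obtain ⟨α, κ, hl0, hl, h1⟩ := ball_small V b c h hb0 hb5 hVc hc1
      have h2 := slice_cut i α κ b c b (hp i) (hq i) ⟨p i, rfl⟩ ⟨q i, rfl⟩
        (fun j _ => ⟨p j, hi j⟩) hl0 hl
      rw [← hV] at h2
      linarith
    · by_cases hbc : b < c
      · obtain ⟨α, κ, hl0, hl, h1⟩ := tube_main V b c h (not_le.1 hb5).le hbV hVc hc1 hbc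
        have h2 := slice_torus i α κ b c (hp i) (hq i) ⟨p i, rfl⟩ ⟨q i, rfl⟩ hl0 hl
        rw [← hV] at h2
        linarith
      · exact hdeg hbc
  · by_cases hbc : b < c
    · obtain ⟨α, κ, hl0, hl, h1⟩ := slab_main V b c h hb0 hbV hVc hc1 hbc
      have h2 := slice_torus i α κ b c (hp i) (hq i) ⟨p i, rfl⟩ ⟨q i, rfl⟩ hl0 hl
      rw [← hV] at h2
      have h3 : Jh V ≤ 1 := min_le_right _ _
      linarith
    · exact hdeg hbc

end Vale.Agent.P232
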