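import Vale.Agent.P232.Defs2
import Vale.Agent.P232.SliceCommon
import Vale.Agent.P232.SliceArea
import Vale.Agent.P232.SliceSym

/-! # P232: slices of symmetric functions, common lemmas for the claims A, B, C (helper31) -/

open MeasureTheory Set Filter Topology

namespace Vale.Agent.P232

theorem CA_ins0 (i : Fin 3) (z t : ℝ) : (i.insertNth z ![1 / 2, t] : Fin 3 → ℝ) =
    Function.update (pt (i.succAbove 0) (i.succAbove 1) t) i z := by
  ext m
  fin_cases i <;> fin_cases m <;>
    simp [pt, Function.update, Fin.insertNth, Fin.succAboveCases, Fin.succAbove]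

theorem CA_ins1 (i : Fin 3) (z t : ℝ) : (i.insertNth z ![t, 1 / 2] : Fin 3 → ℝ) =
    Function.update (pt (i.succAbove 1) (i.succAbove 0) t) i z := by
  ext m
  fin_cases i <;> fin_cases m <;>
    simp [pt, Function.update, Fin.insertNth, Fin.succAboveCases, Fin.succAbove]

theorem CA_third {j k : Fin 3} (hjk : j ≠ k) : ∃ i : Fin 3,
    (i.succAbove 0 = j ∧ i.succAbove 1 = k) ∨ (i.succAbove 0 = k ∧ i.succAbove 1 = j) := by
  revert j k
  decide

theorem CA_pt_upd {i j k : Fin 3} (hj : i ≠ j) (hk : i ≠ k) (t : ℝ) :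
    Function.update (pt j k t) i 0 = pt j k t := by
  ext m
  by_cases hm : m = i
  · subst hm
    simp [pt, Function.update_of_ne hj, Function.update_of_ne hk]
  · simp [Function.update_of_ne hm]

theorem CA_le {w : (Fin 3 → ℝ) → ℝ} (hw : SymN w) (x : Fin 3 → ℝ) (i : Fin 3) {z : ℝ}
    (hz : |z| ≤ 1 / 2) : w (Function.update x i z) ≤ w (Function.update x i 0) := by
  have h1 : w (Function.update x i z) = w (Function.update x i |z|) := by
    rcases abs_choice z with h | h
    · rw [h]
    · have h2 := hw.even (Function.update x i z) i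
      simp only [Function.update_self, Function.update_idem] at h2
      rw [h, h2]
  rw [h1]
  exact hw.anti x i 0 |z| le_rfl (abs_nonneg z) hz

theorem CA_slice0 {w : (Fin 3 → ℝ) → ℝ} (hw : SymN w) (i : Fin 3) {z t : ℝ}
    (hz : |z| ≤ 1 / 2) : slice w i z ![1 / 2, t] ≤ w (pt (i.succAbove 0) (i.succAbove 1) t) := by
  unfold slice
  rw [CA_ins0]
  refine (CA_le hw _ i hz).trans_eq ?_
  rw [CA_pt_upd (Fin.succAbove_ne i 0).symm (Fin.succAbove_ne i 1).symm]

theorem CA_slice1 {w : (Fin 3 → ℝ) → ℝ} (hw : SymN w) (i : Fin 3) {z t : ℝ}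
    (hz : |z| ≤ 1 / 2) : slice w i z ![t, 1 / 2] ≤ w (pt (i.succAbove 1) (i.succAbove 0) t) := by
  unfold slice
  rw [CA_ins1]
  refine (CA_le hw _ i hz).trans_eq ?_
  rw [CA_pt_upd (Fin.succAbove_ne i 1).symm (Fin.succAbove_ne i 0).symm]

theorem CA_per {w : (Fin 3 → ℝ) → ℝ} (hw : Nice w) (i : Fin 3) (z : ℝ) :
    sArea w i (z - 1) = sArea w i z := by
  unfold sArea slice
  refine integral_congr_ae (Filter.Eventually.of_forall fun y => ?_)
  have h := hw.per (i.insertNth (z - 1) y) (Pi.single i 1)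
  have e : (i.insertNth (z - 1) y + fun m => ((Pi.single i (1 : ℤ) : Fin 3 → ℤ) m : ℝ)) =
      (i.insertNth z y : Fin 3 → ℝ) := by
    ext m
    rcases Fin.eq_self_or_eq_succAbove i m with rfl | ⟨k, rfl⟩
    · simp
    · simp [Fin.succAbove_ne]
  rw [e] at h
  exact h.symm

/-- `b ≤ V ≤ c` -/
theorem CA_bounds {w : (Fin 3 → ℝ) → ℝ} (hw : SymN w) (i : Fin 3) :
    sArea w i (1 / 2) ≤ ∫ x in cell 3, w x ∧ ∫ x in cell 3, w x ≤ sArea w i 0 := by
  have hb : ∀ z ∈ Set.Icc (0:ℝ) 1, sArea w i (1 / 2) ≤ sArea w i z ∧ sArea w i z ≤ sArea w i 0 := by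
    intro z hz
    rcases le_total z (1 / 2) with h | h
    · exact ⟨sArea_anti hw i hz.1 h le_rfl, sArea_anti hw i le_rfl hz.1 h⟩
    · have e : sArea w i z = sArea w i (1 - z) := by
        rw [← CA_per hw.toNice i z, ← sArea_even hw i (z - 1)]
        congr 1
        ring
      rw [e]
      exact ⟨sArea_anti hw i (by linarith [hz.2]) (by linarith) le_rfl,
        sArea_anti hw i le_rfl (by linarith [hz.2]) (by linarith)⟩
  have hc : Continuous (sArea w i) := (sArea_contDiff hw.toNice i).continuous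
  have hV : ∫ x in cell 3, w x = ∫ z in (0:ℝ)..1, sArea w i z :=
    fubini_slice hw.smooth.continuous i
  rw [hV]
  constructor
  · have := intervalIntegral.integral_mono_on (a := 0) (b := 1) zero_le_one
      (continuous_const.intervalIntegrable _ _ : IntervalIntegrable (fun _ => sArea w i (1 / 2)) volume 0 1)
      (hc.intervalIntegrable _ _) (fun z hz => (hb z hz).1)
    simpa using this
  · have := intervalIntegral.integral_mono_on (a := 0) (b := 1) zero_le_one
      (hc.intervalIntegrable _ _)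
      (continuous_const.intervalIntegrable _ _ : IntervalIntegrable (fun _ => sArea w i 0) volume 0 1)
      (fun z hz => (hb z hz).2)
    simpa using this

theorem CA_FA_cont : Continuous FA := by
  unfold FA
  fun_prop

theorem CA_FA_ge {a : ℝ} (h0 : 0 ≤ a) (h1 : a ≤ 1) : Real.sqrt (a * (1 - a)) ≤ FA a := by
  have hpi : (1 : ℝ) ≤ Real.pi := by linarith [Real.pi_gt_three]
  unfold FA
  refine le_min ?_ ?_
  · exact Real.sqrt_le_sqrt (by nlinarith)
  · have : Real.sqrt (a * (1 - a)) ≤ 1 := by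
      rw [Real.sqrt_le_one]
      nlinarith
    linarith

theorem CA_FA_zero : FA 0 = 0 := by
  unfold FA
  rw [mul_zero, Real.sqrt_zero]
  exact min_eq_left (by norm_num)

theorem CA_FA_one : 0 < FA 1 := by
  unfold FA
  have := Real.pi_pos
  refine lt_min (Real.sqrt_pos.2 (by linarith)) (by norm_num)

end Vale.Agent.P232
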