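import Vale.Agent.P232.TreeSound

/-!
# P232, module N5: soundness of the leaves and of the search
-/

open MeasureTheory Set

namespace Vale.Agent.P232.N5

theorem aff {P Q x y v : ℝ} (hv : v ∈ Icc x y) (hx : 0 ≤ P + Q * x) (hy : 0 ≤ P + Q * y) :
    0 ≤ P + Q * v := by
  obtain ⟨s, t, hs, ht, hst, rfl⟩ := exists_seg hv
  have e : P + Q * (s * x + t * y) = s * (P + Q * x) + t * (P + Q * y) := by
    have : P = (s + t) * P := by rw [hst, one_mul]
    linear_combination this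
  rw [e]
  positivity

theorem ev_cast {b1 c2 la mu T X : ℕ} (h1 : b1 ≤ X) (h2 : X ≤ c2) :
    (ev b1 c2 la mu T X : ℝ) =
      2000000 * ((la : ℝ) * (c2 - X) + mu * (X - b1)) + ((c2 : ℝ) - b1) * T := by
  unfold ev
  push_cast [Nat.cast_sub h1, Nat.cast_sub h2, Nat.cast_sub (h1.trans h2), M_real]
  ring

/-- the target of the one-dimensional inequality -/
noncomputable def Tgt (mode : ℕ) (V : ℝ) : ℝ := if mode = 2 then 1 else Jh V

/-- the conclusion -/
def Good (mode : ℕ) (V b c : ℝ) : Prop :=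
  ∃ α κ : ℝ, (∀ a ∈ Set.Icc b c, 0 ≤ α + κ * a) ∧ (∀ a ∈ Set.Icc b c, α + κ * a ≤ I2 a) ∧
    Tgt mode V ≤ α + κ * V + cal I2 α κ b c

/-- the regions treated elsewhere -/
def SkipR (mode : ℕ) (b c : ℝ) : Prop :=
  if mode = 2 then (0.307 ≤ b ∨ (b ≤ 0.0115 ∧ 0.9885 ≤ c) ∨ (0.69 ≤ c ∧ 1 - c < b))
  else (0.66 * c ≤ b ∧ c ≤ 0.3183)

/-- from the test to the inequality -/
theorem test_sound {mode b1 b2 c1 c2 la mu T Va Vb : ℕ} (hbc : b1 < c2) (ha1 : b1 ≤ Va)
    (ha2 : Va ≤ c2) (hb1 : b1 ≤ Vb) (hb2 : Vb ≤ c2)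
    (h : leafT mode b1 b2 c1 c2 Va Vb la mu T = true) {v : ℝ} (hv : v ∈ Icc (Va : ℝ) Vb) :
    Tgt mode (v / 1000000) ≤
      (ap b1 c2 la mu + kp b1 c2 la mu * (v / 1000000)) + (T : ℝ) / 2000000000000 := by
  rw [line_val hbc]
  have hD : (0 : ℝ) < (c2 : ℝ) - b1 := by
    have : (b1 : ℝ) < c2 := by exact_mod_cast hbc
    linarith
  have hv0 : 0 ≤ v := (Nat.cast_nonneg Va).trans hv.1
  have eva := ev_cast (la := la) (mu := mu) (T := T) ha1 ha2
  have evb := ev_cast (la := la) (mu := mu) (T := T) hb1 hb2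
  have hsub : ((c2 - b1 : ℕ) : ℝ) = (c2 : ℝ) - b1 := Nat.cast_sub hbc.le
  set D : ℝ := (c2 : ℝ) - b1 with hDdef
  have key : ((la : ℝ) * (c2 - v) + mu * (v - b1)) / (1000000 * D) + (T : ℝ) / 2000000000000 =
      (2000000 * ((la : ℝ) * (c2 - v) + mu * (v - b1)) + D * T) / (2000000000000 * D) := by
    field_simp
    ring
  rw [key, le_div_iff₀ (by positivity)]
  have h0 : ∀ t : ℕ, test0 b1 c2 la mu T Va Vb t = true →
      Jh (v / 1000000) * (2000000000000 * D) ≤
        2000000 * ((la : ℝ) * (c2 - v) + mu * (v - b1)) + D * T := by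
    intro t ht
    unfold test0 at ht
    simp only [Bool.and_eq_true, Nat.ble_eq] at ht
    obtain ⟨⟨ht1, ka⟩, kb⟩ := ht
    have htr : (0 : ℝ) < t := by exact_mod_cast ht1
    have ka' := (Nat.cast_le (α := ℝ)).mpr ka
    have kb' := (Nat.cast_le (α := ℝ)).mpr kb
    push_cast [hsub, M_real, eva] at ka'
    push_cast [hsub, M_real, evb] at kb'
    have G := aff (P := (2000000 * ((la : ℝ) * c2 - mu * b1) + D * T) * 10000 * t
        - D * (t ^ 2 * 1000000 * 10000)) (Q := 2000000 * ((mu : ℝ) - la) * 10000 * t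
        - D * (31416 * 1000000 ^ 2)) hv (by linarith) (by linarith)
    have J := Jh_le_tube (V := v / 1000000) (τ := t / 1000000) (by positivity) (by positivity)
    have e : (3.1416 * (v / 1000000) / ((t : ℝ) / 1000000) + t / 1000000) / 2 *
        (2000000000000 * D) = D * (31416 * v * 1000000 ^ 2 + t ^ 2 * 1000000 * 10000) /
          (10000 * t) := by
      field_simp
      ring
    calc Jh (v / 1000000) * (2000000000000 * D)
        ≤ (3.1416 * (v / 1000000) / ((t : ℝ) / 1000000) + t / 1000000) / 2 *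
        (2000000000000 * D) := mul_le_mul_of_nonneg_right J (by positivity)
      _ = _ := e
      _ ≤ _ := by
        rw [div_le_iff₀ (by positivity)]
        linarith
  have h1 : ∀ t : ℕ, test1 b1 c2 la mu T Va Vb t = true →
      Jh (v / 1000000) * (2000000000000 * D) ≤
        2000000 * ((la : ℝ) * (c2 - v) + mu * (v - b1)) + D * T := by
    intro t ht
    unfold test1 at ht
    simp only [Bool.and_eq_true, Nat.ble_eq] at ht
    obtain ⟨⟨ht1, ka⟩, kb⟩ := ht
    have htr : (0 : ℝ) < t := by exact_mod_cast ht1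
    have ka' := (Nat.cast_le (α := ℝ)).mpr ka
    have kb' := (Nat.cast_le (α := ℝ)).mpr kb
    push_cast [hsub, M_real, eva] at ka'
    push_cast [hsub, M_real, evb] at kb'
    have G := aff (P := (2000000 * ((la : ℝ) * c2 - mu * b1) + D * T) * 3000 * t * 1000000
        - D * (4836 * 1000000 * t ^ 3)) (Q := 2000000 * ((mu : ℝ) - la) * 3000 * t * 1000000
        - D * (4836 * 1000000 ^ 3 * 2)) hv (by linarith) (by linarith)
    have J := Jh_le_ball (V := v / 1000000) (τ := t / 1000000) (by positivity) (by positivity)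
    have e : 2.418 * (2 * (v / 1000000) + ((t : ℝ) / 1000000) ^ 3) / (3 * (t / 1000000)) *
        (2000000000000 * D) = D * (4836 * 1000000 ^ 3 * 2 * v + 4836 * 1000000 * t ^ 3) /
          (3000 * t * 1000000) := by
      field_simp
      ring
    calc Jh (v / 1000000) * (2000000000000 * D)
        ≤ 2.418 * (2 * (v / 1000000) + ((t : ℝ) / 1000000) ^ 3) / (3 * (t / 1000000)) *
        (2000000000000 * D) := mul_le_mul_of_nonneg_right J (by positivity)
      _ = _ := e
      _ ≤ _ := by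
        rw [div_le_iff₀ (by positivity)]
        linarith
  unfold leafT at h
  unfold Tgt
  by_cases hm : mode = 2
  · subst hm
    rw [if_pos rfl]
    have hb : Nat.beq 2 2 = true := rfl
    rw [hb, cond_true] at h
    unfold test2 at h
    simp only [Bool.and_eq_true, Nat.ble_eq] at h
    obtain ⟨ka, kb⟩ := h
    have ka' := (Nat.cast_le (α := ℝ)).mpr ka
    have kb' := (Nat.cast_le (α := ℝ)).mpr kb
    push_cast [hsub, M_real, eva] at ka'
    push_cast [hsub, M_real, evb] at kb'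
    have G := aff (P := 2000000 * ((la : ℝ) * c2 - mu * b1) + D * T - 2000000000000 * D)
      (Q := 2000000 * ((mu : ℝ) - la)) hv (by linarith) (by linarith)
    linarith
  · rw [if_neg hm]
    have hb : Nat.beq mode 2 = false :=
      Bool.eq_false_iff.mpr fun h' => hm (Nat.eq_of_beq_eq_true h')
    rw [hb, cond_false] at h
    rcases Bool.or_eq_true_iff.mp h with h | h
    · exact h0 _ h
    · rw [Bool.and_eq_true] at h
      exact h1 _ h.2

theorem leaf_sound {mode b1 b2 c1 c2 V1 V2 : ℕ} (h : leaf mode b1 b2 c1 c2 V1 V2 = true)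
    {V b c : ℝ} (hb1 : (b1 : ℝ) / 1000000 ≤ b) (hb2 : b ≤ (b2 : ℝ) / 1000000)
    (hc1 : (c1 : ℝ) / 1000000 ≤ c) (hc2 : c ≤ (c2 : ℝ) / 1000000)
    (hV1 : (V1 : ℝ) / 1000000 ≤ V) (hV2 : V ≤ (V2 : ℝ) / 1000000) (hbV : b ≤ V) (hVc : V ≤ c) :
    Good mode V b c := by
  unfold leaf at h
  simp only [Bool.and_eq_true, Nat.blt_eq, Bool.or_eq_true] at h
  obtain ⟨⟨⟨hn1, hn2⟩, hbc⟩, h⟩ := h
  set la := i2 b1
  set mu := i2 c2
  have N1 := nodeOK_sound hbc hn1
  have N2 := nodeOK_sound hbc hn2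
  rw [Nat.cast_zero, zero_div] at N1 N2
  have hD : (0 : ℝ) < (c2 : ℝ) - b1 := by
    have : (b1 : ℝ) < c2 := by exact_mod_cast hbc
    linarith
  have p1 : 0 ≤ ap b1 c2 la mu + kp b1 c2 la mu * ((b1 : ℝ) / 1000000) := by
    rw [line_val hbc]
    have : (la : ℝ) * (c2 - b1) + mu * ((b1 : ℝ) - b1) = la * ((c2 : ℝ) - b1) := by ring
    rw [this]
    positivity
  have p2 : 0 ≤ ap b1 c2 la mu + kp b1 c2 la mu * ((c2 : ℝ) / 1000000) := by
    rw [line_val hbc]
    have : (la : ℝ) * (c2 - c2) + mu * ((c2 : ℝ) - b1) = mu * ((c2 : ℝ) - b1) := by ring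
    rw [this]
    positivity
  have hline : ∀ a ∈ Icc b c, 0 ≤ ap b1 c2 la mu + kp b1 c2 la mu * a ∧
      ap b1 c2 la mu + kp b1 c2 la mu * a ≤ I2 a := fun a ha =>
    line_ok N1 N2 p1 p2 ⟨hb1.trans ha.1, ha.2.trans hc2⟩
  refine ⟨ap b1 c2 la mu, kp b1 c2 la mu, fun a ha => (hline a ha).1, fun a ha => (hline a ha).2,
    ?_⟩
  set v : ℝ := V * 1000000 with hv
  have hVv : V = v / 1000000 := by rw [hv]; field_simp
  have hva : ((max V1 b1 : ℕ) : ℝ) ≤ v := by
    rw [Nat.cast_max]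
    apply max_le
    · rw [div_le_iff₀ (by norm_num)] at hV1; exact hV1
    · have := hb1.trans hbV
      rw [div_le_iff₀ (by norm_num)] at this; exact this
  have hvb : v ≤ ((min V2 c2 : ℕ) : ℝ) := by
    rw [Nat.cast_min]
    apply le_min
    · rw [le_div_iff₀ (by norm_num)] at hV2; exact hV2
    · have := hVc.trans hc2
      rw [le_div_iff₀ (by norm_num)] at this; exact this
  have hab : max V1 b1 ≤ min V2 c2 := by exact_mod_cast hva.trans hvb
  rcases h with h | h
  · exact absurd h (not_lt.mpr hab)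
  · have := test_sound hbc (le_max_right V1 b1) (hab.trans (min_le_right _ _))
      ((le_max_right V1 b1).trans hab) (min_le_right _ _) h ⟨hva, hvb⟩
    rw [← hVv] at this
    refine this.trans ?_
    have h2 := tt_sound (b1 := b1) (b2 := b2) (c1 := c1) (c2 := c2) (la := la) (mu := mu) hbc
      hb2 hc1 (hbV.trans hVc)
    linarith

theorem skip_sound {mode b1 b2 c1 c2 : ℕ} (h : skip mode b1 b2 c1 c2 = true) {b c : ℝ}
    (hb1 : (b1 : ℝ) / 1000000 ≤ b) (hb2 : b ≤ (b2 : ℝ) / 1000000)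
    (hc1 : (c1 : ℝ) / 1000000 ≤ c) (hc2 : c ≤ (c2 : ℝ) / 1000000) : SkipR mode b c := by
  unfold skip at h
  unfold SkipR
  rw [div_le_iff₀ (by norm_num)] at hb1 hc1
  rw [le_div_iff₀ (by norm_num)] at hb2 hc2
  by_cases hm : mode = 2
  · subst hm
    rw [if_pos rfl]
    have hb : Nat.beq 2 2 = true := rfl
    rw [hb, cond_true] at h
    simp only [Bool.or_eq_true, Bool.and_eq_true, Nat.ble_eq, Nat.blt_eq] at h
    rcases h with (h | ⟨h, h'⟩) | ⟨h, h'⟩
    · left
      have : (307000 : ℝ) ≤ b1 := by exact_mod_cast h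
      linarith
    · right; left
      have e1 : (b2 : ℝ) ≤ 11500 := by exact_mod_cast h
      have e2 : (988500 : ℝ) ≤ c1 := by exact_mod_cast h'
      constructor <;> linarith
    · right; right
      have e1 : (690000 : ℝ) ≤ c1 := by exact_mod_cast h
      have e2 : M < b1 + c1 := by omega
      have e3 : (1000000 : ℝ) < b1 + c1 := by rw [← M_real]; exact_mod_cast e2
      constructor <;> linarith
  · rw [if_neg hm]
    have hb : Nat.beq mode 2 = false :=
      Bool.eq_false_iff.mpr fun h' => hm (Nat.eq_of_beq_eq_true h')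
    rw [hb, cond_false] at h
    simp only [Bool.and_eq_true, Nat.ble_eq] at h
    obtain ⟨h, h'⟩ := h
    have e1 : (66 : ℝ) * c2 ≤ 100 * b1 := by exact_mod_cast h
    have e2 : (c2 : ℝ) ≤ 318300 := by exact_mod_cast h'
    constructor <;> linarith

theorem search_sound (mode V1 V2 : ℕ) {V : ℝ} (hV1 : (V1 : ℝ) / 1000000 ≤ V)
    (hV2 : V ≤ (V2 : ℝ) / 1000000) {b c : ℝ} (hbV : b ≤ V) (hVc : V ≤ c) (hbc : b < c) :
    ∀ (k b1 b2 c1 c2 : ℕ), search mode V1 V2 k b1 b2 c1 c2 = true →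
      (b1 : ℝ) / 1000000 ≤ b → b ≤ (b2 : ℝ) / 1000000 → (c1 : ℝ) / 1000000 ≤ c →
      c ≤ (c2 : ℝ) / 1000000 → SkipR mode b c ∨ Good mode V b c := by
  have base : ∀ b1 b2 c1 c2 : ℕ, (Nat.blt c2 V1 || Nat.blt V2 b1 || Nat.ble c2 b1 ||
      skip mode b1 b2 c1 c2 || leaf mode b1 b2 c1 c2 V1 V2) = true →
      (b1 : ℝ) / 1000000 ≤ b → b ≤ (b2 : ℝ) / 1000000 → (c1 : ℝ) / 1000000 ≤ c →
      c ≤ (c2 : ℝ) / 1000000 → SkipR mode b c ∨ Good mode V b c := by
    intro b1 b2 c1 c2 h hb1 hb2 hc1 hc2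
    simp only [Bool.or_eq_true, Nat.blt_eq, Nat.ble_eq] at h
    rcases h with (((h | h) | h) | h) | h
    · exfalso
      have e : (c2 : ℝ) < V1 := by exact_mod_cast h
      have : (c2 : ℝ) / 1000000 < (V1 : ℝ) / 1000000 := by linarith
      linarith
    · exfalso
      have e : (V2 : ℝ) < b1 := by exact_mod_cast h
      have : (V2 : ℝ) / 1000000 < (b1 : ℝ) / 1000000 := by linarith
      linarith
    · exfalso
      have e : (c2 : ℝ) ≤ b1 := by exact_mod_cast h
      have : (c2 : ℝ) / 1000000 ≤ (b1 : ℝ) / 1000000 := by linarith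
      linarith
    · exact Or.inl (skip_sound h hb1 hb2 hc1 hc2)
    · exact Or.inr (leaf_sound h hb1 hb2 hc1 hc2 hV1 hV2 hbV hVc)
  intro k
  induction k with
  | zero =>
    intro b1 b2 c1 c2 h
    unfold search at h
    exact base b1 b2 c1 c2 h
  | succ k ih =>
    intro b1 b2 c1 c2 h hb1 hb2 hc1 hc2
    unfold search at h
    rcases Bool.or_eq_true_iff.mp h with h | h
    · exact base b1 b2 c1 c2 h hb1 hb2 hc1 hc2
    · rw [Bool.cond_eq_ite] at h
      split_ifs at h with hq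
      · rw [Bool.and_eq_true] at h
        rcases le_total b ((((b1 + b2) / 2 : ℕ) : ℝ) / 1000000) with hm | hm
        · exact ih _ _ _ _ h.1 hb1 hm hc1 hc2
        · exact ih _ _ _ _ h.2 hm hb2 hc1 hc2
      · rw [Bool.and_eq_true] at h
        rcases le_total c ((((c1 + c2) / 2 : ℕ) : ℝ) / 1000000) with hm | hm
        · exact ih _ _ _ _ h.1 hb1 hb2 hc1 hm
        · exact ih _ _ _ _ h.2 hb1 hb2 hm hc2

end Vale.Agent.P232.N5
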