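import Vale.Agent.P232.TreeReal
import Vale.Agent.P232.TreeDef

/-!
# P232, module N5: soundness of the certified search
-/

open MeasureTheory Set

namespace Vale.Agent.P232.N5

theorem M_real : ((M : ℕ) : ℝ) = 1000000 := by norm_num [M]

/-- slope of the line -/
noncomputable def kp (b1 c2 la mu : ℕ) : ℝ := ((mu : ℝ) - la) / ((c2 : ℝ) - b1)

/-- constant term of the line -/
noncomputable def ap (b1 c2 la mu : ℕ) : ℝ :=
  (la : ℝ) / 1000000 - kp b1 c2 la mu * ((b1 : ℝ) / 1000000)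

/-- value of the line -/
theorem line_val {b1 c2 la mu : ℕ} (h : b1 < c2) (v : ℝ) :
    ap b1 c2 la mu + kp b1 c2 la mu * (v / 1000000) =
      ((la : ℝ) * (c2 - v) + mu * (v - b1)) / (1000000 * ((c2 : ℝ) - b1)) := by
  have hd : (0 : ℝ) < (c2 : ℝ) - b1 := by
    have : (b1 : ℝ) < c2 := by exact_mod_cast h
    linarith
  unfold ap kp
  field_simp
  ring

theorem line_cast {b1 c2 la mu X : ℕ} (h1 : b1 ≤ X) (h2 : X ≤ c2) :
    ((la * (c2 - X) + mu * (X - b1) : ℕ) : ℝ) = (la : ℝ) * (c2 - X) + mu * (X - b1) := by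
  push_cast [Nat.cast_sub h1, Nat.cast_sub h2]
  ring

theorem nodeOK_sound {b1 c2 la mu X r : ℕ} (hbc : b1 < c2)
    (h : nodeOK b1 c2 la mu X r = true) :
    NodeR (ap b1 c2 la mu) (kp b1 c2 la mu) ((X : ℝ) / 1000000) ((r : ℝ) / 1000000) := by
  unfold nodeOK at h
  simp only [Bool.and_eq_true, Nat.ble_eq] at h
  obtain ⟨⟨⟨⟨⟨⟨hX1, hX2⟩, hcM⟩, hrM⟩, k2⟩, k1⟩, k3⟩ := h
  have hd : (0 : ℝ) < (c2 : ℝ) - b1 := by
    have : (b1 : ℝ) < c2 := by exact_mod_cast hbc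
    linarith
  have hXM : X ≤ M := hX2.trans hcM
  have hXMr : (X : ℝ) ≤ 1000000 := by rw [← M_real]; exact_mod_cast hXM
  have hrMr : (r : ℝ) ≤ 1000000 := by rw [← M_real]; exact_mod_cast hrM
  have hX0 : (0 : ℝ) ≤ X := Nat.cast_nonneg X
  have hr0 : (0 : ℝ) ≤ r := Nat.cast_nonneg r
  have hr2 : r ^ 2 ≤ M ^ 2 := Nat.pow_le_pow_left hrM 2
  -- cast the three inequalities
  have hl := line_cast (la := la) (mu := mu) hX1 hX2
  generalize la * (c2 - X) + mu * (X - b1) = n at k1 k2 k3 hl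
  have c2' : ((la : ℝ) * (c2 - X) + mu * (X - b1)) ^ 2 ≤
      (1000000 ^ 2 - (r : ℝ) ^ 2) * ((c2 : ℝ) - b1) ^ 2 := by
    have := (Nat.cast_le (α := ℝ)).mpr k2
    push_cast [Nat.cast_sub hbc.le, Nat.cast_sub hr2, M_real, hl] at this
    linarith
  have c1' : 10 ^ 10 * ((la : ℝ) * (c2 - X) + mu * (X - b1)) ^ 2 ≤
      31415 * X * (1000000 ^ 2 - (r : ℝ) ^ 2) * ((c2 : ℝ) - b1) ^ 2 := by
    have := (Nat.cast_le (α := ℝ)).mpr k1
    push_cast [Nat.cast_sub hbc.le, Nat.cast_sub hr2, M_real, hl] at this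
    linarith
  have c3' : 10 ^ 10 * ((la : ℝ) * (c2 - X) + mu * (X - b1)) ^ 2 ≤
      31415 * (1000000 - X) * (1000000 ^ 2 - (r : ℝ) ^ 2) * ((c2 : ℝ) - b1) ^ 2 := by
    have := (Nat.cast_le (α := ℝ)).mpr k3
    push_cast [Nat.cast_sub hbc.le, Nat.cast_sub hr2, Nat.cast_sub hXM, M_real, hl] at this
    linarith
  have hpi : (3.1415 : ℝ) ≤ Real.pi := Real.pi_gt_d4.le
  set D : ℝ := (c2 : ℝ) - b1 with hD
  set L : ℝ := (la : ℝ) * (c2 - X) + mu * (X - b1) with hL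
  have hv : ap b1 c2 la mu + kp b1 c2 la mu * ((X : ℝ) / 1000000) = L / (1000000 * D) :=
    line_val hbc X
  have hA : 0 ≤ 1 - ((r : ℝ) / 1000000) ^ 2 := by
    have : ((r : ℝ) / 1000000) ^ 2 ≤ 1 := by
      rw [div_pow, div_le_one (by norm_num)]
      nlinarith
    linarith
  have hle : ∀ w : ℝ, L ^ 2 ≤ w * (1000000 ^ 2 - (r : ℝ) ^ 2) * D ^ 2 →
      (L / (1000000 * D)) ^ 2 ≤ (1 - ((r : ℝ) / 1000000) ^ 2) * w := by
    intro w hw
    rw [div_pow, div_le_iff₀ (by positivity)]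
    have e : (1 - ((r : ℝ) / 1000000) ^ 2) * w * (1000000 * D) ^ 2 =
        w * (1000000 ^ 2 - (r : ℝ) ^ 2) * D ^ 2 := by ring
    rw [e]
    exact hw
  refine ⟨by positivity, ?_, by positivity, ?_, ?_, ?_, ?_⟩
  · rw [div_le_one (by norm_num)]; exact hXMr
  · rw [div_le_one (by norm_num)]; exact hrMr
  · rw [hv]
    refine (hle (3.1415 * ((X : ℝ) / 1000000)) ?_).trans ?_
    · have e : 3.1415 * ((X : ℝ) / 1000000) * (1000000 ^ 2 - (r : ℝ) ^ 2) * D ^ 2 =
          31415 * X * (1000000 ^ 2 - (r : ℝ) ^ 2) * D ^ 2 / 10 ^ 10 := by ring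
      rw [e, le_div_iff₀ (by positivity)]
      linarith
    · apply mul_le_mul_of_nonneg_left _ hA
      apply mul_le_mul_of_nonneg_right hpi (by positivity)
  · rw [hv]
    refine hle 1 ?_
    rw [one_mul]; exact c2'
  · rw [hv]
    refine (hle (3.1415 * (1 - (X : ℝ) / 1000000)) ?_).trans ?_
    · have e : 3.1415 * (1 - (X : ℝ) / 1000000) * (1000000 ^ 2 - (r : ℝ) ^ 2) * D ^ 2 =
          31415 * (1000000 - X) * (1000000 ^ 2 - (r : ℝ) ^ 2) * D ^ 2 / 10 ^ 10 := by ring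
      rw [e, le_div_iff₀ (by positivity)]
      linarith
    · apply mul_le_mul_of_nonneg_left _ hA
      apply mul_le_mul_of_nonneg_right hpi
      have : (X : ℝ) / 1000000 ≤ 1 := by
        rw [div_le_one (by norm_num)]; exact hXMr
      linarith

theorem go_sound {b1 c2 la mu lo hi : ℕ} (hbc : b1 < c2) :
    ∀ (j X r acc : ℕ), NodeR (ap b1 c2 la mu) (kp b1 c2 la mu) ((X : ℝ) / 1000000)
        ((r : ℝ) / 1000000) → X ≤ hi →
      (go b1 c2 la mu lo hi j X r acc : ℝ) ≤ acc + 2000000000000 *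
        ∫ a in ((X : ℝ) / 1000000)..((hi : ℝ) / 1000000),
          qf (ap b1 c2 la mu) (kp b1 c2 la mu) a := by
  intro j
  induction j with
  | zero =>
    intro X r acc _ hX
    have hX' : (X : ℝ) / 1000000 ≤ (hi : ℝ) / 1000000 := by
      have : (X : ℝ) ≤ hi := by exact_mod_cast hX
      linarith
    have := int_nonneg (α := ap b1 c2 la mu) (κ := kp b1 c2 la mu) hX'
    unfold go
    linarith
  | succ j ih =>
    intro X r acc hN hX
    have hX' : (X : ℝ) / 1000000 ≤ (hi : ℝ) / 1000000 := by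
      have : (X : ℝ) ≤ hi := by exact_mod_cast hX
      linarith
    have hpos := int_nonneg (α := ap b1 c2 la mu) (κ := kp b1 c2 la mu) hX'
    have hacc : (0 : ℝ) ≤ acc := Nat.cast_nonneg acc
    unfold go
    set Y := nd lo hi (16 - j) with hY
    set ρ := rnode b1 c2 la mu Y with hρ
    cases hb : (nodeOK b1 c2 la mu Y ρ && Nat.ble X Y && Nat.ble Y hi)
    · rw [cond_false]
      push_cast
      positivity
    · rw [cond_true]
      simp only [Bool.and_eq_true, Nat.ble_eq] at hb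
      obtain ⟨⟨hn, hXY⟩, hYhi⟩ := hb
      have hN' := nodeOK_sound hbc hn
      have h1 := ih Y ρ (acc + (Y - X) * (r + ρ)) hN' hYhi
      have hXYr : (X : ℝ) / 1000000 ≤ (Y : ℝ) / 1000000 := by
        have : (X : ℝ) ≤ Y := by exact_mod_cast hXY
        linarith
      have h2 := int_seg hN hN' hXYr
      have h3 := intervalIntegral.integral_add_adjacent_intervals
        (qf_int (ap b1 c2 la mu) (kp b1 c2 la mu) ((X : ℝ) / 1000000) ((Y : ℝ) / 1000000))
        (qf_int (ap b1 c2 la mu) (kp b1 c2 la mu) ((Y : ℝ) / 1000000) ((hi : ℝ) / 1000000))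
      rw [← h3]
      rw [Nat.cast_add, Nat.cast_mul, Nat.cast_sub hXY, Nat.cast_add] at h1
      have e : ((Y : ℝ) / 1000000 - (X : ℝ) / 1000000) * ((r : ℝ) / 1000000 + (ρ : ℝ) / 1000000) / 2
          = ((Y : ℝ) - X) * (r + ρ) / 2000000000000 := by ring
      rw [e, div_le_iff₀ (by norm_num)] at h2
      linarith

theorem tt_sound {b1 b2 c1 c2 la mu : ℕ} (hbc : b1 < c2) {b c : ℝ} (hb : b ≤ (b2 : ℝ) / 1000000)
    (hc : (c1 : ℝ) / 1000000 ≤ c) (h : b ≤ c) :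
    (tt b1 b2 c1 c2 la mu : ℝ) / 2000000000000 ≤
      cal I2 (ap b1 c2 la mu) (kp b1 c2 la mu) b c := by
  rw [cal_eq]
  have hpos := int_nonneg (α := ap b1 c2 la mu) (κ := kp b1 c2 la mu) h
  unfold tt
  cases hb' : (Nat.blt b2 c1 && nodeOK b1 c2 la mu b2 (rnode b1 c2 la mu b2))
  · rw [cond_false]
    simpa using hpos
  · rw [cond_true]
    simp only [Bool.and_eq_true, Nat.blt_eq] at hb'
    obtain ⟨h1, h2⟩ := hb'
    have hN := nodeOK_sound hbc h2
    have h3 := go_sound (lo := b2) (hi := c1) hbc 16 b2 _ 0 hN h1.le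
    have h4 : (b2 : ℝ) / 1000000 ≤ (c1 : ℝ) / 1000000 := by
      have : (b2 : ℝ) ≤ c1 := by exact_mod_cast h1.le
      linarith
    have h5 := int_mono (α := ap b1 c2 la mu) (κ := kp b1 c2 la mu) hb h4 hc
    rw [div_le_iff₀ (by norm_num)]
    push_cast at h3
    linarith

end Vale.Agent.P232.N5
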