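import Vale.Agent.P232.IBP

/-! # P232: upper bounds for the perimeter by test functions (helper41) -/

open MeasureTheory Set Filter Topology

namespace Vale.Agent.P232

private theorem upg_div_zero {ψ : (Fin 3 → ℝ) → (Fin 3 → ℝ)} (hψ : ContDiff ℝ 1 ψ)
    (hf : ∀ (i : Fin 3) (y : Fin 2 → ℝ), ψ (i.insertNth 1 y) i = ψ (i.insertNth 0 y) i) :
    ∫ x in cell 3, diverg ψ x = 0 := by
  rw [setIntegral_congr_set (cell_ae_eq 3)]
  have hd : ∀ x, HasFDerivAt ψ (fderiv ℝ ψ x) x := fun x =>
    (hψ.differentiable one_ne_zero x).hasFDerivAt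
  have h := integral_divergence_of_hasFDerivAt_off_countable (n := 2) (E := ℝ) 0 1
    (by intro i; simp) ψ (fderiv ℝ ψ) ∅ Set.countable_empty hψ.continuous.continuousOn
    (fun x _ => hd x)
    ((continuous_diverg hψ).continuousOn.integrableOn_compact isCompact_Icc)
  have h2 : (∫ x in Icc (0 : Fin 3 → ℝ) 1, diverg ψ x) =
      ∫ x in Icc (0 : Fin 3 → ℝ) 1, ∑ i, fderiv ℝ ψ x (Pi.single i 1) i := rfl
  rw [h2, h]
  refine Finset.sum_eq_zero fun i _ => ?_
  rw [sub_eq_zero]
  congr 1
  funext x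
  exact hf i x

theorem upg_integrable {g : (Fin 3 → ℝ) → ℝ} (hg : Continuous g) : IntegrableOn g (cell 3) :=
  (hg.continuousOn.integrableOn_compact isCompact_Icc).congr_set_ae (cell_ae_eq 3)

theorem upg_face {φ : (Fin 3 → ℝ) → (Fin 3 → ℝ)} (hφp : IsPer φ) (i : Fin 3) (y : Fin 2 → ℝ) :
    φ (i.insertNth 1 y) = φ (i.insertNth 0 y) := by
  have e : (i.insertNth (1 : ℝ) y : Fin 3 → ℝ) =
      (i.insertNth (0 : ℝ) y : Fin 3 → ℝ) +
        fun j => (((Pi.single i 1 : Fin 3 → ℤ) j : ℤ) : ℝ) := by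
    funext j
    by_cases hj : j = i
    · subst hj
      simp
    · obtain ⟨k, rfl⟩ := Fin.exists_succAbove_eq hj
      simp [Pi.single_apply, hj]
  rw [e, hφp]

private theorem upg_ibp {u : (Fin 3 → ℝ) → ℝ} {φ : (Fin 3 → ℝ) → (Fin 3 → ℝ)}
    (hu : ContDiff ℝ 1 u)
    (huf : ∀ (i : Fin 3) (y : Fin 2 → ℝ), u (i.insertNth 1 y) = u (i.insertNth 0 y))
    (hφ : ContDiff ℝ 1 φ) (hφp : IsPer φ) :
    ∫ x in cell 3, u x * diverg φ x =
      - ∫ x in cell 3, ∑ i, fderiv ℝ u x (Pi.single i 1) * φ x i := by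
  have hψ : ContDiff ℝ 1 (fun x => u x • φ x) := hu.smul hφ
  have h0 := upg_div_zero hψ (fun i y => by
    show (u (i.insertNth 1 y) • φ (i.insertNth 1 y)) i = (u (i.insertNth 0 y) • φ (i.insertNth 0 y)) i
    rw [huf, upg_face hφp])
  have hpt : ∀ x, diverg (fun x => u x • φ x) x =
      u x * diverg φ x + ∑ i, fderiv ℝ u x (Pi.single i 1) * φ x i := by
    intro x
    have hu' : HasFDerivAt u (fderiv ℝ u x) x := (hu.differentiable one_ne_zero x).hasFDerivAt
    have hφ' : HasFDerivAt φ (fderiv ℝ φ x) x := (hφ.differentiable one_ne_zero x).hasFDerivAt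
    have hf := (hu'.smul hφ').fderiv
    unfold diverg
    have hf' : fderiv ℝ (fun x => u x • φ x) x = u x • fderiv ℝ φ x + (fderiv ℝ u x).smulRight (φ x) := hf
    rw [hf', Finset.mul_sum, ← Finset.sum_add_distrib]
    refine Finset.sum_congr rfl fun i _ => ?_
    simp
  have hI : IntegrableOn (fun x => u x * diverg φ x) (cell 3) :=
    upg_integrable (hu.continuous.mul (continuous_diverg hφ))
  have hJ : IntegrableOn (fun x => ∑ i, fderiv ℝ u x (Pi.single i 1) * φ x i) (cell 3) := by
    apply upg_integrable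
    refine continuous_finsetSum _ fun i _ => ?_
    exact ((hu.continuous_fderiv one_ne_zero).clm_apply continuous_const).mul
      ((continuous_apply i).comp hφ.continuous)
  have h1 : ∫ x in cell 3, diverg (fun x => u x • φ x) x =
      (∫ x in cell 3, u x * diverg φ x) + ∫ x in cell 3, ∑ i, fderiv ℝ u x (Pi.single i 1) * φ x i := by
    rw [← integral_add hI hJ]
    exact integral_congr_ae (Filter.Eventually.of_forall hpt)
  linarith

private theorem upg_cs {u : (Fin 3 → ℝ) → ℝ} {φ : (Fin 3 → ℝ) → (Fin 3 → ℝ)}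
    (hφ1 : ∀ x, ∑ i, (φ x i) ^ 2 ≤ 1) (x : Fin 3 → ℝ) :
    -(∑ i, fderiv ℝ u x (Pi.single i 1) * φ x i) ≤ gradN u x := by
  have h1 := Finset.sum_mul_sq_le_sq_mul_sq Finset.univ
    (fun i => fderiv ℝ u x (Pi.single i 1)) (fun i => φ x i)
  have h2 : (∑ i, fderiv ℝ u x (Pi.single i 1) * φ x i) ^ 2 ≤
      ∑ i, (fderiv ℝ u x (Pi.single i 1)) ^ 2 := by
    refine h1.trans ?_
    have h3 : 0 ≤ ∑ i, (fderiv ℝ u x (Pi.single i 1)) ^ 2 :=
      Finset.sum_nonneg fun i _ => sq_nonneg _
    nlinarith [hφ1 x]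
  unfold gradN
  apply Real.le_sqrt_of_sq_le
  rw [neg_sq]
  exact h2

private theorem upg_gradN_cont {u : (Fin 3 → ℝ) → ℝ} (hu : ContDiff ℝ 1 u) :
    Continuous (gradN u) := by
  unfold gradN
  apply Real.continuous_sqrt.comp
  refine continuous_finsetSum _ fun i _ => ?_
  exact ((hu.continuous_fderiv one_ne_zero).clm_apply continuous_const).pow 2

theorem upg_bound {g : (Fin 3 → ℝ) → ℝ} (hg : Continuous g) :
    ∃ C, 0 ≤ C ∧ ∀ x ∈ cell 3, |g x| ≤ C := by
  obtain ⟨C, hC⟩ := (isCompact_Icc (a := (0 : Fin 3 → ℝ)) (b := 1)).exists_bound_of_continuousOn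
    hg.continuousOn
  refine ⟨max C 0, le_max_right _ _, fun x hx => (hC x ⟨fun i => (hx i trivial).1,
    fun i => (hx i trivial).2.le⟩).trans (le_max_left _ _)⟩

/-- upper bound for the perimeter by `C^1` functions close to the indicator function -/
theorem up_gen {E : Set (Fin 3 → ℝ)} (hE : MeasurableSet E) {K : ℝ}
    (h : ∀ ε > 0, ∃ u : (Fin 3 → ℝ) → ℝ, ContDiff ℝ 1 u ∧
      (∀ (i : Fin 3) (y : Fin 2 → ℝ), u (i.insertNth 1 y) = u (i.insertNth 0 y)) ∧
      (∫ x in cell 3, |E.indicator (fun _ => (1:ℝ)) x - u x|) ≤ ε ∧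
      (∫ x in cell 3, gradN u x) ≤ K + ε) :
    perimeter E ≤ ENNReal.ofReal K := by
  unfold perimeter
  refine iSup_le fun φ => iSup_le fun hφ => iSup_le fun hφp => iSup_le fun hφ1 => ?_
  apply ENNReal.ofReal_le_ofReal
  obtain ⟨C, hC0, hC⟩ := upg_bound (continuous_diverg hφ)
  refine le_of_forall_pos_le_add fun δ hδ => ?_
  obtain ⟨u, hu, huf, h1, h2⟩ := h (δ / (1 + C)) (by positivity)
  have hcm : MeasurableSet (cell 3) := MeasurableSet.univ_pi fun _ => measurableSet_Ico
  have hdi : IntegrableOn (diverg φ) (cell 3) := upg_integrable (continuous_diverg hφ)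
  have hui : IntegrableOn (fun x => u x * diverg φ x) (cell 3) :=
    upg_integrable (hu.continuous.mul (continuous_diverg hφ))
  have hfin : volume (cell 3) ≠ ⊤ := by
    rw [show volume (cell 3) = 1 by unfold cell; rw [Real.volume_pi_Ico]; simp]
    exact ENNReal.one_ne_top
  have hEi : IntegrableOn (E.indicator (fun _ => (1:ℝ))) (cell 3) := by
    refine (integrableOn_const hfin).indicator hE
  have hEd : IntegrableOn (fun x => E.indicator (fun _ => (1:ℝ)) x * diverg φ x) (cell 3) := by
    have h3 : (fun x => E.indicator (fun _ => (1:ℝ)) x * diverg φ x) =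
        E.indicator (diverg φ) := by
      funext x
      by_cases hx : x ∈ E
      · rw [indicator_of_mem hx, indicator_of_mem hx, one_mul]
      · rw [indicator_of_notMem hx, indicator_of_notMem hx, zero_mul]
    rw [h3]
    exact hdi.indicator hE
  have e1 : ∫ x in E ∩ cell 3, diverg φ x =
      ∫ x in cell 3, E.indicator (fun _ => (1:ℝ)) x * diverg φ x := by
    have h3 : (fun x => E.indicator (fun _ => (1:ℝ)) x * diverg φ x) =
        E.indicator (diverg φ) := by
      funext x
      by_cases hx : x ∈ E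
      · rw [indicator_of_mem hx, indicator_of_mem hx, one_mul]
      · rw [indicator_of_notMem hx, indicator_of_notMem hx, zero_mul]
    rw [h3, setIntegral_indicator hE, inter_comm]
  have e2 : ∫ x in cell 3, E.indicator (fun _ => (1:ℝ)) x * diverg φ x =
      (∫ x in cell 3, u x * diverg φ x) +
        ∫ x in cell 3, (E.indicator (fun _ => (1:ℝ)) x - u x) * diverg φ x := by
    have h4 : ∀ x, (E.indicator (fun _ => (1:ℝ)) x - u x) * diverg φ x =
        E.indicator (fun _ => (1:ℝ)) x * diverg φ x - u x * diverg φ x := fun x => by ring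
    simp only [h4]
    rw [integral_sub hEd hui]
    ring
  have hai : IntegrableOn (fun x => |E.indicator (fun _ => (1:ℝ)) x - u x|) (cell 3) :=
    (hEi.sub (upg_integrable hu.continuous)).abs
  have e3 : ∫ x in cell 3, (E.indicator (fun _ => (1:ℝ)) x - u x) * diverg φ x ≤
      C * (δ / (1 + C)) := by
    have h5 : ∫ x in cell 3, (E.indicator (fun _ => (1:ℝ)) x - u x) * diverg φ x ≤
        ∫ x in cell 3, C * |E.indicator (fun _ => (1:ℝ)) x - u x| := by
      refine setIntegral_mono_on ?_ (hai.const_mul C) hcm fun x hx => ?_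
      · have h4 : (fun x => (E.indicator (fun _ => (1:ℝ)) x - u x) * diverg φ x) =
          fun x => E.indicator (fun _ => (1:ℝ)) x * diverg φ x - u x * diverg φ x := by
            funext x; ring
        rw [h4]
        exact hEd.sub hui
      · refine (le_abs_self _).trans ?_
        rw [abs_mul, mul_comm]
        exact mul_le_mul_of_nonneg_right (hC x hx) (abs_nonneg _)
    refine h5.trans ?_
    rw [integral_const_mul]
    exact mul_le_mul_of_nonneg_left h1 hC0
  have e4 : ∫ x in cell 3, u x * diverg φ x ≤ K + δ / (1 + C) := by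
    rw [upg_ibp hu huf hφ hφp, ← integral_neg]
    refine le_trans ?_ h2
    refine setIntegral_mono_on ?_ (upg_integrable (upg_gradN_cont hu)) hcm
      fun x _ => upg_cs hφ1 x
    apply Integrable.neg
    apply upg_integrable
    refine continuous_finsetSum _ fun i _ => ?_
    exact ((hu.continuous_fderiv one_ne_zero).clm_apply continuous_const).mul
      ((continuous_apply i).comp hφ.continuous)
  rw [e1, e2]
  have e5 : δ / (1 + C) + C * (δ / (1 + C)) = δ := by
    field_simp
  linarith

/-- the perimeter of the complement -/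
theorem up_compl {E : Set (Fin 3 → ℝ)} (hE : MeasurableSet E) :
    perimeter Eᶜ ≤ perimeter E := by
  conv_lhs => unfold perimeter
  refine iSup_le fun φ => iSup_le fun hφ => iSup_le fun hφp => iSup_le fun hφ1 => ?_
  unfold perimeter
  refine le_iSup_of_le (fun x => -φ x) (le_iSup_of_le hφ.neg (le_iSup_of_le (fun x k => by
    show -φ _ = -φ x
    rw [hφp]) (le_iSup_of_le (fun x => by
      simp only [Pi.neg_apply, neg_sq]
      exact hφ1 x) ?_)))
  apply ENNReal.ofReal_le_ofReal
  have hcm : MeasurableSet (cell 3) := MeasurableSet.univ_pi fun _ => measurableSet_Ico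
  have hdi : IntegrableOn (diverg φ) (cell 3) := upg_integrable (continuous_diverg hφ)
  have h1 := int_diverg_zero hφ hφp
  have h2 : diverg (fun x => -φ x) = fun x => -diverg φ x := by
    funext x
    unfold diverg
    have : fderiv ℝ (fun x => -φ x) x = -fderiv ℝ φ x := fderiv_fun_neg
    rw [this]
    simp
  have h3 := setIntegral_union (f := diverg φ) (μ := volume) (s := E ∩ cell 3) (t := Eᶜ ∩ cell 3)
    (Set.disjoint_left.mpr fun x hx hx' => hx'.1 hx.1) (hE.compl.inter hcm)
    (hdi.mono_set inter_subset_right) (hdi.mono_set inter_subset_right)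
  have h4 : E ∩ cell 3 ∪ Eᶜ ∩ cell 3 = cell 3 := by
    rw [← union_inter_distrib_right, union_compl_self, univ_inter]
  rw [h4, h1] at h3
  rw [h2, integral_neg]
  linarith

end Vale.Agent.P232
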