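import Vale.Agent.P232.UpStep
import Vale.Agent.P232.UpGen

/-! # P232: upper bound for the perimeter of balls, tubes and slabs (helper41) -/

open MeasureTheory Set Filter Topology

namespace Vale.Agent.P232

/-- squared distance to the centre of the cell, in the variables of `S` -/
noncomputable def upq (S : Finset (Fin 3)) (x : Fin 3 → ℝ) : ℝ := ∑ i ∈ S, (x i - 1 / 2) ^ 2

/-- ball, tube or slab -/
def upSet (S : Finset (Fin 3)) (ρ : ℝ) : Set (Fin 3 → ℝ) :=
  {x | ∑ i ∈ S, (Int.fract (x i) - 1 / 2) ^ 2 < ρ}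

theorem upSet_meas (S : Finset (Fin 3)) (ρ : ℝ) : MeasurableSet (upSet S ρ) := by
  unfold upSet
  refine measurableSet_lt ?_ measurable_const
  refine Finset.measurable_sum _ fun i _ => ?_
  exact ((measurable_fract.comp (measurable_pi_apply i)).sub_const _).pow_const 2

theorem upSet_per (S : Finset (Fin 3)) (ρ : ℝ) : IsPerSet (upSet S ρ) := by
  intro x k
  unfold upSet
  simp only [mem_ofPred_eq, Pi.add_apply, Int.fract_add_intCast]

theorem upSet_cell {S : Finset (Fin 3)} {ρ : ℝ} {x : Fin 3 → ℝ} (hx : x ∈ cell 3) :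
    x ∈ upSet S ρ ↔ upq S x < ρ := by
  unfold upSet upq
  have h : ∀ i, Int.fract (x i) = x i := fun i =>
    Int.fract_eq_self.mpr ⟨(hx i trivial).1, (hx i trivial).2⟩
  simp only [mem_ofPred_eq, h]

theorem upSet_mono {S : Finset (Fin 3)} {ρ τ : ℝ} (h : ρ ≤ τ) : upSet S ρ ⊆ upSet S τ := by
  intro x hx
  exact lt_of_lt_of_le hx h

private theorem upq_nonneg (S : Finset (Fin 3)) (x : Fin 3 → ℝ) : 0 ≤ upq S x :=
  Finset.sum_nonneg fun i _ => sq_nonneg _

private theorem upq_contDiff (S : Finset (Fin 3)) : ContDiff ℝ 1 (upq S) := by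
  unfold upq
  refine ContDiff.sum fun i _ => ?_
  exact ((contDiff_apply ℝ ℝ i).sub contDiff_const).pow 2

private theorem upq_fderiv (S : Finset (Fin 3)) (x : Fin 3 → ℝ) (j : Fin 3) :
    fderiv ℝ (upq S) x (Pi.single j 1) = if j ∈ S then 2 * (x j - 1 / 2) else 0 := by
  have h : HasFDerivAt (upq S)
      (∑ i ∈ S, (2 * (x i - 1 / 2)) • (ContinuousLinearMap.proj (R := ℝ) (φ := fun _ : Fin 3 => ℝ) i)) x := by
    unfold upq
    refine HasFDerivAt.fun_sum fun i _ => ?_
    have h1 : HasFDerivAt (fun y : Fin 3 → ℝ => y i - 1 / 2)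
        (ContinuousLinearMap.proj (R := ℝ) (φ := fun _ : Fin 3 => ℝ) i) x :=
      (ContinuousLinearMap.proj (R := ℝ) (φ := fun _ : Fin 3 => ℝ) i).hasFDerivAt.sub_const _
    have h2 := h1.pow 2
    simpa using h2
  rw [h.fderiv]
  simp [Pi.single_apply]

private theorem up_face {S : Finset (Fin 3)} (i : Fin 3) (y : Fin 2 → ℝ) {a : ℝ}
    (ha : a = 0 ∨ a = 1) (hi : i ∈ S) : 1 / 4 ≤ upq S (i.insertNth a y) := by
  unfold upq
  have h := Finset.single_le_sum (f := fun j => ((i.insertNth a y : Fin 3 → ℝ) j - 1 / 2) ^ 2)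
    (fun j _ => sq_nonneg _) hi
  refine le_trans ?_ h
  simp only [Fin.insertNth_apply_same]
  rcases ha with h | h <;> rw [h] <;> norm_num

private theorem up_face' {S : Finset (Fin 3)} (i : Fin 3) (y : Fin 2 → ℝ) (hi : i ∉ S) :
    upq S (i.insertNth 1 y) = upq S (i.insertNth 0 y) := by
  unfold upq
  refine Finset.sum_congr rfl fun j hj => ?_
  have hji : j ≠ i := fun h => hi (h ▸ hj)
  obtain ⟨k, rfl⟩ := Fin.exists_succAbove_eq hji
  simp

/-- upper bound for the perimeter of the shapes -/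
theorem up_shape {S : Finset (Fin 3)} {ρ : ℝ} (hρ0 : 0 < ρ) (hρ : ρ < 1 / 4) {W : ℝ → ℝ} {W' : ℝ}
    (hW : ∀ t, 0 < t → t < 1 / 4 → (volume (upSet S t ∩ cell 3)).toReal = W t)
    (hW' : HasDerivAt W W' ρ) :
    perimeter (upSet S ρ) ≤ ENNReal.ofReal (2 * Real.sqrt ρ * W') := by
  have hcm : MeasurableSet (cell 3) := MeasurableSet.univ_pi fun _ => measurableSet_Ico
  have hc1 : volume (cell 3) = 1 := by unfold cell; rw [Real.volume_pi_Ico]; simp
  have hfin : volume (cell 3) ≠ ⊤ := by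
    rw [hc1]
    exact ENNReal.one_ne_top
  refine up_gen (upSet_meas S ρ) fun ε hε => ?_
  -- choice of δ
  have hl1 : Tendsto (fun δ : ℝ => W (ρ + δ) - W ρ) (𝓝[>] 0) (𝓝 0) := by
    have h1 : ContinuousAt W ρ := hW'.continuousAt
    have h2 : Tendsto (fun δ : ℝ => ρ + δ) (𝓝[>] 0) (𝓝 ρ) := by
      have : Tendsto (fun δ : ℝ => ρ + δ) (𝓝 0) (𝓝 (ρ + 0)) :=
        (continuous_const.add continuous_id).tendsto 0
      rw [add_zero] at this
      exact this.mono_left nhdsWithin_le_nhds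
    have h3 := (h1.tendsto.comp h2).sub_const (W ρ)
    rw [sub_self] at h3
    exact h3
  have hl2 : Tendsto (fun δ : ℝ => ((1 + δ) * (2 * Real.sqrt (ρ + δ))) *
      (δ⁻¹ • (W (ρ + δ) - W ρ))) (𝓝[>] 0) (𝓝 (2 * Real.sqrt ρ * W')) := by
    have h1 := (hasDerivAt_iff_tendsto_slope_zero.mp hW').mono_left
      (nhdsWithin_mono (0:ℝ) (fun x (hx : x ∈ Ioi (0:ℝ)) => (ne_of_gt hx : x ≠ 0)))
    have h2 : Tendsto (fun δ : ℝ => (1 + δ) * (2 * Real.sqrt (ρ + δ))) (𝓝[>] 0)
        (𝓝 (2 * Real.sqrt ρ)) := by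
      have : Continuous (fun δ : ℝ => (1 + δ) * (2 * Real.sqrt (ρ + δ))) := by fun_prop
      have h3 := this.tendsto 0
      simp only [add_zero, one_mul] at h3
      exact h3.mono_left nhdsWithin_le_nhds
    exact h2.mul h1
  have he1 : ∀ᶠ δ in 𝓝[>] (0:ℝ), W (ρ + δ) - W ρ < ε := hl1.eventually_lt_const hε
  have he2 : ∀ᶠ δ in 𝓝[>] (0:ℝ), ((1 + δ) * (2 * Real.sqrt (ρ + δ))) *
      (δ⁻¹ • (W (ρ + δ) - W ρ)) < 2 * Real.sqrt ρ * W' + ε :=
    hl2.eventually_lt_const (by linarith)
  have he3 : ∀ᶠ δ in 𝓝[>] (0:ℝ), δ < 1 / 4 - ρ := by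
    apply mem_of_superset (Ioo_mem_nhdsGT (show (0:ℝ) < 1 / 4 - ρ by linarith))
    intro x hx
    exact hx.2
  have he4 : ∀ᶠ δ in 𝓝[>] (0:ℝ), 0 < δ := self_mem_nhdsWithin
  obtain ⟨δ, ⟨⟨h1, h2⟩, h3⟩, hδ⟩ := (((he1.and he2).and he3).and he4).exists
  obtain ⟨s, hs, hs0, hs1, hs01, hsd, hsz⟩ := up_step hδ
  -- the shell
  set A : Set (Fin 3 → ℝ) := (upSet S (ρ + δ) ∩ cell 3) \ (upSet S ρ ∩ cell 3) with hA
  have hAm : MeasurableSet A := ((upSet_meas S _).inter hcm).diff ((upSet_meas S _).inter hcm)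
  have hAc : A ⊆ cell 3 := fun x hx => hx.1.2
  have hfin2 : ∀ t, volume (upSet S t ∩ cell 3) ≠ ⊤ := fun t =>
    ne_top_of_le_ne_top hfin (measure_mono inter_subset_right)
  have hAv : (volume A).toReal = W (ρ + δ) - W ρ := by
    rw [hA, measure_sdiff (inter_subset_inter_left _ (upSet_mono (by linarith)))
      ((upSet_meas S _).inter hcm).nullMeasurableSet (hfin2 _),
      ENNReal.toReal_sub_of_le (measure_mono (inter_subset_inter_left _ (upSet_mono (by linarith))))
      (hfin2 _), hW _ (by linarith) (by linarith), hW _ hρ0 hρ]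
  have hAint : ∀ c : ℝ, ∫ x in cell 3, A.indicator (fun _ => c) x = c * (W (ρ + δ) - W ρ) := by
    intro c
    rw [setIntegral_indicator hAm, inter_eq_self_of_subset_right hAc, setIntegral_const,
      measureReal_def, hAv, smul_eq_mul, mul_comm]
  have hAi : ∀ c : ℝ, IntegrableOn (A.indicator (fun _ => c)) (cell 3) := fun c =>
    (integrableOn_const hfin).indicator hAm
  have hmemA : ∀ x ∈ cell 3, x ∈ A ↔ ρ ≤ upq S x ∧ upq S x < ρ + δ := by
    intro x hx
    rw [hA]
    simp only [Set.mem_sdiff, Set.mem_inter_iff, hx, and_true, upSet_cell hx, not_lt]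
    exact and_comm
  -- the function
  set u : (Fin 3 → ℝ) → ℝ := fun x => 1 - s ((upq S x - ρ) / δ) with hu
  have huC : ContDiff ℝ 1 u :=
    contDiff_const.sub (hs.comp (((upq_contDiff S).sub contDiff_const).div_const δ))
  have hu0 : ∀ x, ρ + δ ≤ upq S x → u x = 0 := by
    intro x hx
    have : s ((upq S x - ρ) / δ) = 1 := hs1 _ (by rw [le_div_iff₀ hδ]; linarith)
    rw [hu]
    show 1 - s ((upq S x - ρ) / δ) = 0
    rw [this, sub_self]
  have hu1 : ∀ x, upq S x ≤ ρ → u x = 1 := by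
    intro x hx
    have : s ((upq S x - ρ) / δ) = 0 := hs0 _ (div_nonpos_of_nonpos_of_nonneg (by linarith) hδ.le)
    rw [hu]
    show 1 - s ((upq S x - ρ) / δ) = 1
    rw [this, sub_zero]
  refine ⟨u, huC, fun i y => ?_, ?_, ?_⟩
  · by_cases hi : i ∈ S
    · rw [hu0 _ (by linarith [up_face i y (a := 1) (Or.inr rfl) hi]),
        hu0 _ (by linarith [up_face i y (a := 0) (Or.inl rfl) hi])]
    · rw [hu]
      show 1 - s ((upq S (i.insertNth 1 y) - ρ) / δ) = 1 - s ((upq S (i.insertNth 0 y) - ρ) / δ)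
      rw [up_face' i y hi]
  · have h5 : ∫ x in cell 3, |(upSet S ρ).indicator (fun _ => (1:ℝ)) x - u x| ≤
        ∫ x in cell 3, A.indicator (fun _ => (1:ℝ)) x := by
      refine setIntegral_mono_on ?_ (hAi 1) hcm fun x hx => ?_
      · exact (((integrableOn_const hfin).indicator (upSet_meas S ρ)).sub
          (upg_integrable huC.continuous)).abs
      · by_cases hq1 : upq S x < ρ
        · rw [indicator_of_mem ((upSet_cell hx).mpr hq1), hu1 x hq1.le, sub_self, abs_zero]
          exact indicator_nonneg (fun _ _ => zero_le_one) _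
        · rw [indicator_of_notMem (fun h => hq1 ((upSet_cell hx).mp h)), zero_sub, abs_neg]
          by_cases hq2 : upq S x < ρ + δ
          · rw [indicator_of_mem ((hmemA x hx).mpr ⟨not_lt.mp hq1, hq2⟩)]
            have h6 := hs01 ((upq S x - ρ) / δ)
            show |1 - s ((upq S x - ρ) / δ)| ≤ 1
            rw [abs_le]
            constructor <;> linarith [h6.1, h6.2]
          · rw [hu0 x (not_lt.mp hq2), abs_zero]
            exact indicator_nonneg (fun _ _ => zero_le_one) _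
    refine h5.trans ?_
    rw [hAint, one_mul]
    exact h1.le
  · set c : ℝ := (1 + δ) * (2 * Real.sqrt (ρ + δ)) * δ⁻¹ with hc
    have hgr : ∀ x, gradN u x = |deriv s ((upq S x - ρ) / δ)| * δ⁻¹ * (2 * Real.sqrt (upq S x)) := by
      intro x
      have hd1 : HasFDerivAt u (-(deriv s ((upq S x - ρ) / δ) • (δ⁻¹ • fderiv ℝ (upq S) x))) x := by
        have hd2 : HasFDerivAt (upq S) (fderiv ℝ (upq S) x) x :=
          ((upq_contDiff S).differentiable one_ne_zero x).hasFDerivAt
        have hd3 : HasFDerivAt (fun x => (upq S x - ρ) / δ) (δ⁻¹ • fderiv ℝ (upq S) x) x := by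
          have := (hd2.sub_const ρ).mul_const δ⁻¹
          simpa only [div_eq_mul_inv] using this
        have hd4 : HasDerivAt s (deriv s ((upq S x - ρ) / δ)) ((upq S x - ρ) / δ) :=
          (hs.differentiable one_ne_zero _).hasDerivAt
        exact (hd4.comp_hasFDerivAt x hd3).const_sub 1
      unfold gradN
      rw [hd1.fderiv]
      have h7 : ∀ j, ((-(deriv s ((upq S x - ρ) / δ) • (δ⁻¹ • fderiv ℝ (upq S) x))) (Pi.single j 1)) ^ 2
          = (deriv s ((upq S x - ρ) / δ) * δ⁻¹ * 2) ^ 2 * (if j ∈ S then (x j - 1 / 2) ^ 2 else 0) := by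
        intro j
        rw [neg_apply, smul_apply,
          smul_apply, upq_fderiv, smul_eq_mul, smul_eq_mul]
        split_ifs
        · ring
        · ring
      simp only [h7]
      rw [← Finset.mul_sum, Finset.sum_ite_mem, Finset.univ_inter]
      have h8 : ∑ i ∈ S, (x i - 1 / 2) ^ 2 = upq S x := rfl
      rw [h8, Real.sqrt_mul (sq_nonneg _), Real.sqrt_sq_eq_abs, abs_mul, abs_mul, abs_two,
        abs_of_nonneg (inv_nonneg.mpr hδ.le)]
      ring
    have h5 : ∫ x in cell 3, gradN u x ≤ ∫ x in cell 3, A.indicator (fun _ => c) x := by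
      have hgc : Continuous (gradN u) := by
        unfold gradN
        apply Real.continuous_sqrt.comp
        refine continuous_finsetSum _ fun i _ => ?_
        exact ((huC.continuous_fderiv one_ne_zero).clm_apply continuous_const).pow 2
      refine setIntegral_mono_on (upg_integrable hgc) (hAi c) hcm fun x hx => ?_
      rw [hgr]
      by_cases hxA : x ∈ A
      · rw [indicator_of_mem hxA]
        obtain ⟨h6, h7⟩ := (hmemA x hx).mp hxA
        have h8 : Real.sqrt (upq S x) ≤ Real.sqrt (ρ + δ) := Real.sqrt_le_sqrt h7.le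
        have h9 := hsd ((upq S x - ρ) / δ)
        have h10 : |deriv s ((upq S x - ρ) / δ)| * δ⁻¹ * (2 * Real.sqrt (upq S x)) ≤
            (1 + δ) * δ⁻¹ * (2 * Real.sqrt (ρ + δ)) := by
          gcongr
        refine h10.trans (le_of_eq ?_)
        rw [hc]
        ring
      · rw [indicator_of_notMem hxA]
        have h6 : deriv s ((upq S x - ρ) / δ) = 0 := by
          apply hsz
          intro h7
          apply hxA
          rw [hmemA x hx]
          obtain ⟨h8, h9⟩ := h7
          rw [lt_div_iff₀ hδ] at h8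
          rw [div_lt_iff₀ hδ] at h9
          constructor <;> linarith
        rw [h6, abs_zero, zero_mul, zero_mul]
    refine h5.trans ?_
    rw [hAint, hc]
    have h6 : (1 + δ) * (2 * Real.sqrt (ρ + δ)) * δ⁻¹ * (W (ρ + δ) - W ρ) =
      ((1 + δ) * (2 * Real.sqrt (ρ + δ))) * (δ⁻¹ • (W (ρ + δ) - W ρ)) := by
      rw [smul_eq_mul]
      ring
    rw [h6]
    exact h2.le

end Vale.Agent.P232
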