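import Mathlib

/-! # P232: a `C^1` step function with slope at most `1 + η` (helper41) -/

open MeasureTheory Set Filter Topology

namespace Vale.Agent.P232

private noncomputable def upk (n : ℕ) (c t : ℝ) : ℝ := c * max 0 (1 - (2 * t - 1) ^ (2 * n))

private theorem upk_cont (n : ℕ) (c : ℝ) : Continuous (upk n c) := by
  unfold upk
  fun_prop

private theorem upk_pow (n : ℕ) (t : ℝ) : 0 ≤ (2 * t - 1) ^ (2 * n) := by
  rw [pow_mul]
  positivity

private theorem upk_le {n : ℕ} {c : ℝ} (hc : 0 ≤ c) (t : ℝ) : upk n c t ≤ c := by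
  unfold upk
  have h1 : max 0 (1 - (2 * t - 1) ^ (2 * n)) ≤ 1 :=
    max_le zero_le_one (by linarith [upk_pow n t])
  nlinarith

private theorem upk_nonneg {n : ℕ} {c : ℝ} (hc : 0 ≤ c) (t : ℝ) : 0 ≤ upk n c t :=
  mul_nonneg hc (le_max_left _ _)

private theorem upk_zero {n : ℕ} {c t : ℝ} (ht : t ≤ 0 ∨ 1 ≤ t) : upk n c t = 0 := by
  unfold upk
  have h1 : 1 ≤ (2 * t - 1) ^ 2 := by
    rcases ht with h | h
    · nlinarith
    · nlinarith
  have h2 : 1 ≤ (2 * t - 1) ^ (2 * n) := by
    rw [pow_mul]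
    exact one_le_pow₀ h1
  rw [max_eq_left (by linarith), mul_zero]

private theorem upk_int {n : ℕ} : ∫ t in (0:ℝ)..1, (1 - (2 * t - 1) ^ (2 * n)) =
    1 - 1 / (2 * n + 1) := by
  have h1 : ∫ t in (0:ℝ)..1, (2 * t - 1) ^ (2 * n) = 1 / (2 * n + 1) := by
    have := intervalIntegral.integral_comp_mul_sub (a := 0) (b := 1)
      (fun x : ℝ => x ^ (2 * n)) (c := 2) two_ne_zero 1
    rw [this, integral_pow]
    have e1 : ((2 * 1 - 1 : ℝ)) ^ (2 * n + 1) = 1 := by norm_num
    have e2 : ((2 * 0 - 1 : ℝ)) ^ (2 * n + 1) = -1 := by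
      rw [mul_zero, zero_sub, pow_succ, pow_mul]
      norm_num
    rw [e1, e2]
    push_cast
    rw [smul_eq_mul]
    have : (2 * (n : ℝ) + 1) ≠ 0 := by positivity
    field_simp
    ring
  rw [intervalIntegral.integral_sub (by simp) (Continuous.intervalIntegrable (by fun_prop) _ _), h1]
  simp

/-- a `C^1` step function with slope at most `1 + η` -/
theorem up_step {η : ℝ} (hη : 0 < η) : ∃ s : ℝ → ℝ, ContDiff ℝ 1 s ∧ (∀ t ≤ 0, s t = 0) ∧
    (∀ t, 1 ≤ t → s t = 1) ∧ (∀ t, 0 ≤ s t ∧ s t ≤ 1) ∧ (∀ t, |deriv s t| ≤ 1 + η) ∧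
    (∀ t, t ∉ Set.Ioo (0:ℝ) 1 → deriv s t = 0) := by
  obtain ⟨n, hn⟩ := exists_nat_gt (1 / η)
  have hn0 : 0 < (n : ℝ) := lt_trans (by positivity) hn
  set c : ℝ := 1 + 1 / (2 * n) with hc
  have hc0 : 0 ≤ c := by positivity
  have hcη : c ≤ 1 + η := by
    have h1 : 1 / (2 * (n : ℝ)) ≤ η := by
      rw [div_lt_iff₀ hη] at hn
      rw [div_le_iff₀ (by positivity)]
      nlinarith
    rw [hc]
    linarith
  have hcont := upk_cont n c
  have hd : ∀ t, HasDerivAt (fun t => ∫ u in (0:ℝ)..t, upk n c u) (upk n c t) t := fun t =>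
    intervalIntegral.integral_hasDerivAt_right (hcont.intervalIntegrable _ _)
      (hcont.stronglyMeasurableAtFilter _ _) hcont.continuousAt
  have hderiv : deriv (fun t => ∫ u in (0:ℝ)..t, upk n c u) = upk n c :=
    funext fun t => (hd t).deriv
  have hone : ∫ u in (0:ℝ)..1, upk n c u = 1 := by
    have h1 : ∫ u in (0:ℝ)..1, upk n c u = ∫ u in (0:ℝ)..1, c * (1 - (2 * u - 1) ^ (2 * n)) := by
      refine intervalIntegral.integral_congr fun u hu => ?_
      rw [uIcc_of_le zero_le_one] at hu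
      unfold upk
      have h2 : (2 * u - 1) ^ (2 * n) ≤ 1 := by
        rw [pow_mul]
        apply pow_le_one₀ (sq_nonneg _)
        nlinarith [hu.1, hu.2]
      show c * max 0 (1 - (2 * u - 1) ^ (2 * n)) = c * (1 - (2 * u - 1) ^ (2 * n))
      rw [max_eq_right (by linarith)]
    rw [h1, intervalIntegral.integral_const_mul, upk_int, hc]
    field_simp
    ring
  have hmono : Monotone (fun t => ∫ u in (0:ℝ)..t, upk n c u) := by
    apply monotone_of_deriv_nonneg (fun t => (hd t).differentiableAt)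
    intro t
    rw [hderiv]
    exact upk_nonneg hc0 t
  have hz : ∀ t ≤ 0, ∫ u in (0:ℝ)..t, upk n c u = 0 := by
    intro t ht
    have h1 : ∫ u in (0:ℝ)..t, upk n c u = ∫ _ in (0:ℝ)..t, (0:ℝ) := by
      refine intervalIntegral.integral_congr fun u hu => ?_
      rw [uIcc_of_ge ht] at hu
      exact upk_zero (Or.inl hu.2)
    rw [h1]
    simp
  have ho : ∀ t, 1 ≤ t → ∫ u in (0:ℝ)..t, upk n c u = 1 := by
    intro t ht
    have h1 : ∫ u in (1:ℝ)..t, upk n c u = ∫ _ in (1:ℝ)..t, (0:ℝ) := by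
      refine intervalIntegral.integral_congr fun u hu => ?_
      rw [uIcc_of_le ht] at hu
      exact upk_zero (Or.inr hu.1)
    rw [← intervalIntegral.integral_add_adjacent_intervals (hcont.intervalIntegrable 0 1)
      (hcont.intervalIntegrable 1 t), hone, h1]
    simp
  refine ⟨fun t => ∫ u in (0:ℝ)..t, upk n c u, ?_, hz, ho, ?_, ?_, ?_⟩
  · rw [contDiff_one_iff_deriv]
    refine ⟨fun t => (hd t).differentiableAt, ?_⟩
    rw [hderiv]
    exact hcont
  · intro t
    constructor
    · rcases le_total t 0 with h | h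
      · exact (hz t h).ge
      · have := hmono h
        simp only [intervalIntegral.integral_same] at this
        exact this
    · rcases le_total t 1 with h | h
      · have := hmono h
        simp only [hone] at this
        exact this
      · exact (ho t h).le
  · intro t
    rw [hderiv, abs_of_nonneg (upk_nonneg hc0 t)]
    exact (upk_le hc0 t).trans hcη
  · intro t ht
    rw [hderiv]
    apply upk_zero
    by_contra hcon
    push Not at hcon
    exact ht ⟨hcon.1, hcon.2⟩

end Vale.Agent.P232
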