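import Vale.Agent.P232.UpShape

/-! # P232, module 2UP: balls, tubes and slabs of every volume (helper41) -/

open MeasureTheory Set Filter Topology

namespace Vale.Agent.P232

private theorem up_cell_iff {x : Fin 3 → ℝ} : x ∈ cell 3 ↔ ∀ i, 0 ≤ x i ∧ x i < 1 := by
  unfold cell
  simp only [Set.mem_pi, Set.mem_univ, true_implies, Set.mem_Ico]

private theorem up_ball2 {r : ℝ} (hr : 0 < r) :
    volume {y : Fin 2 → ℝ | ∑ i, (y i - 1 / 2) ^ 2 < r ^ 2} = ENNReal.ofReal (Real.pi * r ^ 2) := by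
  have h1 := PiLp.volume_preserving_toLp (Fin 2)
  have h2 : {y : Fin 2 → ℝ | ∑ i, (y i - 1 / 2) ^ 2 < r ^ 2} =
      (@WithLp.toLp 2 (Fin 2 → ℝ)) ⁻¹' (Metric.ball (WithLp.toLp 2 (fun _ => (1 / 2 : ℝ))) r) := by
    ext y
    rw [mem_preimage, Metric.mem_ball, EuclideanSpace.dist_eq, Real.sqrt_lt' hr]
    simp only [mem_ofPred_eq, Real.dist_eq, sq_abs]
  rw [h2, h1.measure_preimage measurableSet_ball.nullMeasurableSet,
    EuclideanSpace.volume_ball_fin_two, ← ENNReal.ofReal_pow hr.le, ← ENNReal.ofReal_mul (by positivity)]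
  congr 1
  ring

private theorem up_ball3 {r : ℝ} (hr : 0 < r) :
    volume {y : Fin 3 → ℝ | ∑ i, (y i - 1 / 2) ^ 2 < r ^ 2} =
      ENNReal.ofReal (4 / 3 * Real.pi * r ^ 3) := by
  have h1 := PiLp.volume_preserving_toLp (Fin 3)
  have h2 : {y : Fin 3 → ℝ | ∑ i, (y i - 1 / 2) ^ 2 < r ^ 2} =
      (@WithLp.toLp 2 (Fin 3 → ℝ)) ⁻¹' (Metric.ball (WithLp.toLp 2 (fun _ => (1 / 2 : ℝ))) r) := by
    ext y
    rw [mem_preimage, Metric.mem_ball, EuclideanSpace.dist_eq, Real.sqrt_lt' hr]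
    simp only [mem_ofPred_eq, Real.dist_eq, sq_abs]
  rw [h2, h1.measure_preimage measurableSet_ball.nullMeasurableSet,
    EuclideanSpace.volume_ball_fin_three, ← ENNReal.ofReal_pow hr.le,
    ← ENNReal.ofReal_mul (by positivity)]
  congr 1
  ring

private theorem up_mem_of_sq {y t : ℝ} (ht : t < 1 / 4) (h : (y - 1 / 2) ^ 2 < t) :
    0 ≤ y ∧ y < 1 := by
  constructor <;> nlinarith

/-- volume of the ball -/
private theorem up_vol3 {t : ℝ} (ht0 : 0 < t) (ht : t < 1 / 4) :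
    volume (upSet Finset.univ t ∩ cell 3) = ENNReal.ofReal (4 / 3 * Real.pi * (Real.sqrt t) ^ 3) := by
  rw [← up_ball3 (Real.sqrt_pos.mpr ht0)]
  congr 1
  ext x
  constructor
  · rintro ⟨h1, h2⟩
    have := (upSet_cell h2).mp h1
    rw [mem_ofPred_eq, Real.sq_sqrt ht0.le]
    exact this
  · intro h
    rw [mem_ofPred_eq, Real.sq_sqrt ht0.le] at h
    have h2 : x ∈ cell 3 := by
      rw [up_cell_iff]
      intro i
      refine up_mem_of_sq ht (lt_of_le_of_lt ?_ h)
      exact Finset.single_le_sum (f := fun j => (x j - 1 / 2) ^ 2) (fun j _ => sq_nonneg _)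
        (Finset.mem_univ i)
    exact ⟨(upSet_cell h2).mpr h, h2⟩

/-- volume of the tube -/
private theorem up_vol2 {t : ℝ} (ht0 : 0 < t) (ht : t < 1 / 4) :
    volume (upSet {0, 1} t ∩ cell 3) = ENNReal.ofReal (Real.pi * t) := by
  have h1 := volume_preserving_piFinSuccAbove (fun _ : Fin 3 => ℝ) 2
  have h3 : upSet {0, 1} t ∩ cell 3 = (MeasurableEquiv.piFinSuccAbove (fun _ : Fin 3 => ℝ) 2) ⁻¹'
      (Set.Ico (0:ℝ) 1 ×ˢ {y : Fin 2 → ℝ | ∑ i, (y i - 1 / 2) ^ 2 < (Real.sqrt t) ^ 2}) := by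
    ext x
    have e1 : (MeasurableEquiv.piFinSuccAbove (fun _ : Fin 3 => ℝ) 2) x =
        (x 2, fun j => x ((2 : Fin 3).succAbove j)) := rfl
    rw [mem_preimage, e1, mem_prod, mem_ofPred_eq, Real.sq_sqrt ht0.le, Fin.sum_univ_two]
    have e2 : ((2 : Fin 3).succAbove 0) = 0 := rfl
    have e3 : ((2 : Fin 3).succAbove 1) = 1 := rfl
    simp only [e2, e3]
    have e4 : upq {0, 1} x = (x 0 - 1 / 2) ^ 2 + (x 1 - 1 / 2) ^ 2 := by
      unfold upq
      rw [Finset.sum_pair (by decide)]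
    constructor
    · rintro ⟨h4, h5⟩
      have h6 := (upSet_cell h5).mp h4
      rw [e4] at h6
      exact ⟨⟨(up_cell_iff.mp h5 2).1, (up_cell_iff.mp h5 2).2⟩, h6⟩
    · rintro ⟨h4, h5⟩
      have h6 : x ∈ cell 3 := by
        rw [up_cell_iff]
        have h7 : 0 ≤ x 0 ∧ x 0 < 1 :=
          up_mem_of_sq ht (by linarith [sq_nonneg (x 1 - 1 / 2)])
        have h8 : 0 ≤ x 1 ∧ x 1 < 1 :=
          up_mem_of_sq ht (by linarith [sq_nonneg (x 0 - 1 / 2)])
        intro i
        fin_cases i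
        · exact h7
        · exact h8
        · exact ⟨h4.1, h4.2⟩
      exact ⟨(upSet_cell h6).mpr (by rw [e4]; exact h5), h6⟩
  rw [h3, h1.measure_preimage_equiv]
  have h4 : (volume : Measure (ℝ × (Fin 2 → ℝ))) = (volume : Measure ℝ).prod volume := rfl
  have h5 := up_ball2 (Real.sqrt_pos.mpr ht0)
  rw [h4, Measure.prod_prod, h5, Real.volume_Ico, Real.sq_sqrt ht0.le]
  simp

/-- volume of the slab -/
private theorem up_vol1 {t : ℝ} (ht0 : 0 < t) (ht : t < 1 / 4) :
    volume (upSet {0} t ∩ cell 3) = ENNReal.ofReal (2 * Real.sqrt t) := by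
  have hs := Real.sq_sqrt ht0.le
  have hs0 := Real.sqrt_pos.mpr ht0
  have h1 : upSet {0} t ∩ cell 3 = Set.pi Set.univ (fun i : Fin 3 =>
      if i = 0 then Set.Ioo (1 / 2 - Real.sqrt t) (1 / 2 + Real.sqrt t) else Set.Ico (0:ℝ) 1) := by
    ext x
    have e4 : upq {0} x = (x 0 - 1 / 2) ^ 2 := by
      unfold upq
      rw [Finset.sum_singleton]
    simp only [Set.mem_pi, Set.mem_univ, true_implies]
    constructor
    · rintro ⟨h4, h5⟩ i
      have h6 := (upSet_cell h5).mp h4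
      rw [e4] at h6
      by_cases hi : i = 0
      · rw [if_pos hi, hi]
        have h7 : |x 0 - 1 / 2| < Real.sqrt t := by
          apply Real.lt_sqrt_of_sq_lt
          rw [sq_abs]
          exact h6
        rw [abs_lt] at h7
        exact ⟨by linarith [h7.1], by linarith [h7.2]⟩
      · rw [if_neg hi]
        exact ⟨(up_cell_iff.mp h5 i).1, (up_cell_iff.mp h5 i).2⟩
    · intro h
      have h0 := h 0
      rw [if_pos rfl] at h0
      have h7 : (x 0 - 1 / 2) ^ 2 < t := by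
        have h8 : |x 0 - 1 / 2| < Real.sqrt t := by
          rw [abs_lt]
          exact ⟨by linarith [h0.1], by linarith [h0.2]⟩
        have h9 := Real.lt_sqrt (abs_nonneg (x 0 - 1 / 2)) |>.mp h8
        rwa [sq_abs] at h9
      have h6 : x ∈ cell 3 := by
        rw [up_cell_iff]
        intro i
        by_cases hi : i = 0
        · rw [hi]
          exact up_mem_of_sq ht h7
        · have h8 := h i
          rw [if_neg hi] at h8
          exact ⟨h8.1, h8.2⟩
      exact ⟨(upSet_cell h6).mpr (by rw [e4]; exact h7), h6⟩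
  rw [h1, volume_pi_pi]
  rw [Fin.prod_univ_three, if_pos rfl, if_neg (by decide), if_neg (by decide), Real.volume_Ioo,
    Real.volume_Ico]
  simp only [sub_zero, ENNReal.ofReal_one, mul_one]
  congr 1
  ring

/-- tubes -/
private theorem up_tube {v : ℝ} (hv0 : 0 < v) (hv : v ≤ 1 / 2) :
    ∃ E : Set (Fin 3 → ℝ), MeasurableSet E ∧ IsPerSet E ∧
      volume (E ∩ cell 3) = ENNReal.ofReal v ∧
      perimeter E ≤ ENNReal.ofReal (2 * Real.sqrt (Real.pi * v)) := by
  have hpi := Real.pi_pos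
  have hpi3 := Real.pi_gt_three
  have hρ : v / Real.pi < 1 / 4 := by
    rw [div_lt_iff₀ hpi]
    linarith
  refine ⟨upSet {0, 1} (v / Real.pi), upSet_meas _ _, upSet_per _ _, ?_, ?_⟩
  · rw [up_vol2 (by positivity) hρ]
    congr 1
    field_simp
  · have h := up_shape (S := {0, 1}) (ρ := v / Real.pi) (W := fun t => Real.pi * t)
      (W' := Real.pi) (by positivity) hρ (fun t h1 h2 => by
        rw [up_vol2 h1 h2, ENNReal.toReal_ofReal (by positivity)])
      (by simpa using (hasDerivAt_id (v / Real.pi)).const_mul Real.pi)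
    refine h.trans (le_of_eq ?_)
    congr 1
    have h5 : Real.sqrt (Real.pi * v) = Real.sqrt (v / Real.pi) * Real.pi := by
      rw [show Real.pi * v = (v / Real.pi) * Real.pi ^ 2 by field_simp,
        Real.sqrt_mul (by positivity), Real.sqrt_sq hpi.le]
    rw [h5]
    ring

/-- slabs -/
private theorem up_slab {v : ℝ} (hv0 : 0 < v) (hv : v ≤ 1 / 2) :
    ∃ E : Set (Fin 3 → ℝ), MeasurableSet E ∧ IsPerSet E ∧
      volume (E ∩ cell 3) = ENNReal.ofReal v ∧ perimeter E ≤ ENNReal.ofReal 2 := by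
  have hρ0 : 0 < (v / 2) ^ 2 := by positivity
  have hρ : (v / 2) ^ 2 < 1 / 4 := by nlinarith
  have hs : Real.sqrt ((v / 2) ^ 2) = v / 2 := Real.sqrt_sq (by positivity)
  refine ⟨upSet {0} ((v / 2) ^ 2), upSet_meas _ _, upSet_per _ _, ?_, ?_⟩
  · rw [up_vol1 hρ0 hρ, hs]
    congr 1
    ring
  · have h := up_shape (S := {0}) (ρ := (v / 2) ^ 2) (W := fun t => 2 * Real.sqrt t)
      (W' := 2 * (1 / (2 * Real.sqrt ((v / 2) ^ 2)))) hρ0 hρ (fun t h1 h2 => by
        rw [up_vol1 h1 h2, ENNReal.toReal_ofReal (by positivity)])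
      ((Real.hasDerivAt_sqrt hρ0.ne').const_mul 2)
    refine h.trans (le_of_eq ?_)
    congr 1
    rw [hs]
    field_simp

/-- balls -/
private theorem up_ball {v : ℝ} (hv0 : 0 < v) (hv : v ≤ 1 / 2) :
    ∃ E : Set (Fin 3 → ℝ), MeasurableSet E ∧ IsPerSet E ∧
      volume (E ∩ cell 3) = ENNReal.ofReal v ∧
      perimeter E ≤ ENNReal.ofReal (2 * ((9 * Real.pi / 2) ^ (1 / 3 : ℝ) * v ^ (2 / 3 : ℝ))) := by
  have hpi := Real.pi_pos
  have hpi3 := Real.pi_gt_three
  -- radius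
  obtain ⟨r, hr0, hr3⟩ : ∃ r : ℝ, 0 < r ∧ r ^ 3 = 3 * v / (4 * Real.pi) := by
    refine ⟨(3 * v / (4 * Real.pi)) ^ (1 / 3 : ℝ), Real.rpow_pos_of_pos (by positivity) _, ?_⟩
    rw [← Real.rpow_natCast, ← Real.rpow_mul (by positivity)]
    norm_num
  have hr : r < 1 / 2 := by
    by_contra hcon
    push Not at hcon
    have h1 : (1 / 2 : ℝ) ^ 3 ≤ r ^ 3 := by gcongr
    rw [hr3, le_div_iff₀ (by positivity)] at h1
    nlinarith
  have hρ0 : 0 < r ^ 2 := by positivity
  have hρ : r ^ 2 < 1 / 4 := by nlinarith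
  have hs : Real.sqrt (r ^ 2) = r := Real.sqrt_sq hr0.le
  refine ⟨upSet Finset.univ (r ^ 2), upSet_meas _ _, upSet_per _ _, ?_, ?_⟩
  · rw [up_vol3 hρ0 hρ, hs, hr3]
    congr 1
    field_simp
  · have h := up_shape (S := Finset.univ) (ρ := r ^ 2)
      (W := fun t => 4 / 3 * Real.pi * (Real.sqrt t) ^ 3)
      (W' := 4 / 3 * Real.pi * (3 * (Real.sqrt (r ^ 2)) ^ 2 * (1 / (2 * Real.sqrt (r ^ 2)))))
      hρ0 hρ (fun t h1 h2 => by
        rw [up_vol3 h1 h2, ENNReal.toReal_ofReal (by positivity)])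
      (by
        have := ((Real.hasDerivAt_sqrt hρ0.ne').pow 3).const_mul (4 / 3 * Real.pi)
        simpa using this)
    refine h.trans (le_of_eq ?_)
    congr 1
    rw [hs]
    have h5 : 2 * r * (4 / 3 * Real.pi * (3 * r ^ 2 * (1 / (2 * r)))) = 2 * (2 * Real.pi * r ^ 2) := by
      field_simp
      ring
    rw [h5]
    congr 1
    refine (pow_left_inj₀ (by positivity) (by positivity) (three_ne_zero)).mp ?_
    have h9 : 0 ≤ 9 * Real.pi / 2 := by positivity
    rw [mul_pow ((9 * Real.pi / 2) ^ (1 / 3 : ℝ)) (v ^ (2 / 3 : ℝ)),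
      ← Real.rpow_natCast ((9 * Real.pi / 2) ^ (1 / 3 : ℝ)), ← Real.rpow_mul h9,
      ← Real.rpow_natCast (v ^ (2 / 3 : ℝ)), ← Real.rpow_mul hv0.le]
    have e1 : (1 / 3 : ℝ) * ((3 : ℕ) : ℝ) = 1 := by norm_num
    have e2 : (2 / 3 : ℝ) * ((3 : ℕ) : ℝ) = ((2 : ℕ) : ℝ) := by norm_num
    rw [e1, e2, Real.rpow_one, Real.rpow_natCast]
    have h6 : v = 4 / 3 * Real.pi * r ^ 3 := by
      rw [hr3]
      field_simp
    rw [h6]
    ring

/-- for every volume `v ≤ 1/2` there is a ball, tube or slab of volume `v` with perimeter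
at most `2 Jh v` -/
theorem upper {v : ℝ} (hv0 : 0 < v) (hv : v ≤ 1 / 2) :
    ∃ E : Set (Fin 3 → ℝ), MeasurableSet E ∧ IsPerSet E ∧
      volume (E ∩ cell 3) = ENNReal.ofReal v ∧ perimeter E ≤ ENNReal.ofReal (2 * Jh v) := by
  unfold Jh
  rcases min_choice (min ((9 * Real.pi / 2) ^ (1 / 3 : ℝ) * v ^ (2 / 3 : ℝ))
    (Real.sqrt (Real.pi * v))) 1 with h | h
  · rw [h]
    rcases min_choice ((9 * Real.pi / 2) ^ (1 / 3 : ℝ) * v ^ (2 / 3 : ℝ))
      (Real.sqrt (Real.pi * v)) with h' | h'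
    · rw [h']
      exact up_ball hv0 hv
    · rw [h']
      exact up_tube hv0 hv
  · rw [h, mul_one]
    exact up_slab hv0 hv

/-- the same for volumes greater than `1/2`, by passing to the complement -/
theorem upper_all {V : ℝ} (hV0 : 0 < V) (hV1 : V < 1) :
    ∃ E : Set (Fin 3 → ℝ), MeasurableSet E ∧ IsPerSet E ∧
      volume (E ∩ cell 3) = ENNReal.ofReal V ∧
      perimeter E ≤ ENNReal.ofReal (2 * Jh (min V (1 - V))) := by
  rcases le_total V (1 - V) with h | h
  · rw [min_eq_left h]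
    exact upper hV0 (by linarith)
  · rw [min_eq_right h]
    obtain ⟨E, hE, hper, hvol, hP⟩ := upper (v := 1 - V) (by linarith) (by linarith)
    refine ⟨Eᶜ, hE.compl, fun x k => ?_, ?_, (up_compl hE).trans hP⟩
    · rw [mem_compl_iff, mem_compl_iff, hper x k]
    · have hcm : MeasurableSet (cell 3) := MeasurableSet.univ_pi fun _ => measurableSet_Ico
      have hc1 : volume (cell 3) = 1 := by unfold cell; rw [Real.volume_pi_Ico]; simp
      have h1 : Eᶜ ∩ cell 3 = cell 3 \ (E ∩ cell 3) := by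
        ext x
        simp only [Set.mem_inter_iff, Set.mem_compl_iff, Set.mem_sdiff]
        tauto
      rw [h1, measure_sdiff inter_subset_right (hE.inter hcm).nullMeasurableSet
        (by rw [hvol]; exact ENNReal.ofReal_ne_top), hvol, hc1, ← ENNReal.ofReal_one,
        ← ENNReal.ofReal_sub _ (by linarith)]
      congr 1
      ring

end Vale.Agent.P232
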