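import Vale.Agent.P232.Defs2
import Vale.Agent.P232.UpperAux

/-!
# P232, wave 2, module WS: choice of a good window of levels (helper57)
-/

open MeasureTheory Set

namespace Vale.Agent.P232

namespace WS

open UpperPart (w tr)

/-- value of the truncation beyond the ramp -/
theorem tr_val {s₀ δ s : ℝ} (hδ : 0 < δ) (hs : s₀ + δ ≤ s) :
    tr s₀ δ s = s - s₀ - δ / 2 := by
  have h1 : tr s₀ δ s = (∫ t in s₀..(s₀ + δ), w s₀ δ t) + ∫ t in (s₀ + δ)..s, w s₀ δ t :=
    (intervalIntegral.integral_add_adjacent_intervals (UpperPart.w_cont.intervalIntegrable _ _)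
      (UpperPart.w_cont.intervalIntegrable _ _)).symm
  have h2 : ∫ t in s₀..(s₀ + δ), w s₀ δ t = ∫ t in s₀..(s₀ + δ), (t - s₀) / δ := by
    apply intervalIntegral.integral_congr
    intro t ht
    rw [uIcc_of_le (by linarith)] at ht
    have e1 : 0 ≤ (t - s₀) / δ := div_nonneg (by linarith [ht.1]) hδ.le
    have e2 : (t - s₀) / δ ≤ 1 := by
      rw [div_le_one hδ]
      linarith [ht.2]
    show min 1 (max 0 ((t - s₀) / δ)) = (t - s₀) / δ
    rw [max_eq_right e1, min_eq_right e2]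
  have h3 : ∫ t in (s₀ + δ)..s, w s₀ δ t = ∫ t in (s₀ + δ)..s, (1 : ℝ) := by
    apply intervalIntegral.integral_congr
    intro t ht
    rw [uIcc_of_le hs] at ht
    exact UpperPart.w_eq_one hδ ht.1
  have h4 : ∫ t in s₀..(s₀ + δ), (t - s₀) / δ = δ / 2 := by
    rw [intervalIntegral.integral_div, intervalIntegral.integral_comp_sub_right (fun x => x) s₀,
      integral_id]
    field_simp
    ring
  rw [h1, h2, h3, h4]
  simp only [intervalIntegral.integral_const, smul_eq_mul, mul_one]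
  ring

/-- a `C^1` step function -/
theorem exists_step {a b η : ℝ} (hab : a < b) (hη : 0 < η) :
    ∃ ψ ψ' : ℝ → ℝ, ContDiff ℝ 1 ψ ∧ (∀ s, HasDerivAt ψ (ψ' s) s) ∧ Monotone ψ ∧
      (∀ s, s ≤ a → ψ s = 0) ∧ (∀ s, b ≤ s → ψ s = 1) ∧ (∀ s, 0 ≤ ψ' s) ∧
      (∀ s, ψ' s ≤ (1 + η) / (b - a)) ∧ (∀ s, s ≤ a → ψ' s = 0) ∧ (∀ s, b ≤ s → ψ' s = 0) := by
  set d : ℝ := (b - a) * η / (1 + η) with hd
  have hba : 0 < b - a := sub_pos.2 hab
  have hd0 : 0 < d := by positivity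
  have hdb : (1 + η) * d = (b - a) * η := by
    rw [hd]
    field_simp
  have hbd : 0 < b - a - d := by nlinarith
  set c : ℝ := (1 + η) / (b - a) with hc
  have hc0 : 0 < c := by positivity
  have hcd : c * (b - a - d) = 1 := by
    rw [hc, div_mul_eq_mul_div, div_eq_one_iff_eq hba.ne']
    nlinarith
  have hd' : ∀ s, HasDerivAt (fun s => c * (tr a d s - tr (b - d) d s))
      (c * (w a d s - w (b - d) d s)) s := fun s =>
    ((UpperPart.tr_hasDeriv s).sub (UpperPart.tr_hasDeriv s)).const_mul c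
  have hww : ∀ s, w (b - d) d s ≤ w a d s := by
    intro s
    refine min_le_min le_rfl (max_le_max le_rfl ?_)
    exact div_le_div_of_nonneg_right (by linarith) hd0.le
  have hnn : ∀ s, 0 ≤ c * (w a d s - w (b - d) d s) := fun s =>
    mul_nonneg hc0.le (sub_nonneg.2 (hww s))
  refine ⟨fun s => c * (tr a d s - tr (b - d) d s), fun s => c * (w a d s - w (b - d) d s),
    contDiff_const.mul (UpperPart.tr_contDiff.sub UpperPart.tr_contDiff), hd', ?_, ?_, ?_, hnn,
    ?_, ?_, ?_⟩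
  · apply monotone_of_deriv_nonneg (fun s => (hd' s).differentiableAt)
    intro s
    rw [(hd' s).deriv]
    exact hnn s
  · intro s hs
    show c * (tr a d s - tr (b - d) d s) = 0
    rw [UpperPart.tr_eq_zero hd0 hs, UpperPart.tr_eq_zero hd0 (by linarith)]
    simp
  · intro s hs
    show c * (tr a d s - tr (b - d) d s) = 1
    rw [tr_val hd0 (by linarith), tr_val hd0 (by linarith), ← hcd]
    ring
  · intro s
    have h1 := UpperPart.w_le_one (s₀ := a) (δ := d) s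
    have h2 := UpperPart.w_nonneg (s₀ := b - d) (δ := d) s
    show c * (w a d s - w (b - d) d s) ≤ c
    nlinarith
  · intro s hs
    show c * (w a d s - w (b - d) d s) = 0
    rw [UpperPart.w_eq_zero hd0 hs, UpperPart.w_eq_zero hd0 (by linarith)]
    simp
  · intro s hs
    show c * (w a d s - w (b - d) d s) = 0
    rw [UpperPart.w_eq_one hd0 (by linarith), UpperPart.w_eq_one hd0 (by linarith)]
    simp

/-- choice of the window by averaging -/
theorem pick {M : Type} [Fintype M] {ε : ℝ} (hε : 0 < ε) (hε1 : ε ≤ 1) {N : ℕ}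
    (hN : (9 / ε) * (Fintype.card M / ε + 2) < N) {D : ℕ → ℝ} (hD : ∀ n, 0 ≤ D n) {H : ℝ}
    (hH0 : 0 ≤ H) (hH : H ≤ 2) (hs : ∑ n ∈ Finset.range N, D n ≤ H) {G : M → ℕ → ℝ}
    (hG : ∀ m n, G m (n + 1) ≤ G m n) (hG1 : ∀ m, G m 0 - G m N ≤ 1) :
    ∃ n, 1 ≤ n ∧ n + 2 ≤ N ∧ N * D n ≤ H + ε / 4 ∧ ∀ m, G m n - G m (n + 1) < ε := by
  by_contra hcon
  push Not at hcon
  have hHe : 0 < H + ε / 4 := by positivity
  have hN0 : (0 : ℝ) < N := lt_trans (by positivity) hN
  have hNn : 0 < N := by exact_mod_cast hN0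
  have hsum0 : ∀ n, 0 ≤ ∑ m, (G m n - G m (n + 1)) / ε := fun n =>
    Finset.sum_nonneg fun m _ => div_nonneg (sub_nonneg.2 (hG m n)) hε.le
  have hone : ∀ n ∈ Finset.range N, (1 : ℝ) ≤ N * D n / (H + ε / 4) +
      ∑ m, (G m n - G m (n + 1)) / ε + (if n = 0 then 1 else 0) +
        (if n = N - 1 then 1 else 0) := by
    intro n hn
    rw [Finset.mem_range] at hn
    have a1 : 0 ≤ N * D n / (H + ε / 4) := div_nonneg (mul_nonneg hN0.le (hD n)) hHe.le
    have a2 := hsum0 n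
    have a3 : (0 : ℝ) ≤ if n = 0 then 1 else 0 := by split_ifs <;> norm_num
    have a4 : (0 : ℝ) ≤ if n = N - 1 then 1 else 0 := by split_ifs <;> norm_num
    by_cases h0 : n = 0
    · rw [if_pos h0]
      rw [if_pos h0] at a3
      linarith
    by_cases h1 : n = N - 1
    · rw [if_pos h1]
      linarith
    rcases le_or_gt (N * D n) (H + ε / 4) with h2 | h2
    · obtain ⟨m, hm⟩ := hcon n (by omega) (by omega) h2
      have h3 : (1 : ℝ) ≤ (G m n - G m (n + 1)) / ε := by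
        rw [le_div_iff₀ hε]
        linarith
      have h4 : (G m n - G m (n + 1)) / ε ≤ ∑ m, (G m n - G m (n + 1)) / ε :=
        Finset.single_le_sum (f := fun m => (G m n - G m (n + 1)) / ε)
          (fun m _ => div_nonneg (sub_nonneg.2 (hG m n)) hε.le) (Finset.mem_univ m)
      linarith
    · have h3 : (1 : ℝ) ≤ N * D n / (H + ε / 4) := by
        rw [le_div_iff₀ hHe]
        linarith
      linarith
  have hsum := Finset.sum_le_sum hone
  rw [Finset.sum_add_distrib, Finset.sum_add_distrib, Finset.sum_add_distrib] at hsum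
  have e0 : ∑ _n ∈ Finset.range N, (1 : ℝ) = N := by simp
  have e1 : ∑ n ∈ Finset.range N, (N * D n / (H + ε / 4)) ≤ N * H / (H + ε / 4) := by
    rw [← Finset.sum_div, ← Finset.mul_sum]
    exact div_le_div_of_nonneg_right (mul_le_mul_of_nonneg_left hs hN0.le) hHe.le
  have e2 : ∑ n ∈ Finset.range N, ∑ m, (G m n - G m (n + 1)) / ε ≤ Fintype.card M / ε := by
    rw [Finset.sum_comm]
    have : ∀ m : M, ∑ n ∈ Finset.range N, (G m n - G m (n + 1)) / ε ≤ 1 / ε := by
      intro m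
      rw [← Finset.sum_div, Finset.sum_range_sub']
      exact div_le_div_of_nonneg_right (hG1 m) hε.le
    calc ∑ m, ∑ n ∈ Finset.range N, (G m n - G m (n + 1)) / ε
        ≤ ∑ _m : M, 1 / ε := Finset.sum_le_sum fun m _ => this m
      _ = Fintype.card M / ε := by
          rw [Finset.sum_const, Finset.card_univ, nsmul_eq_mul]
          ring
  have e3 : ∑ n ∈ Finset.range N, (if n = 0 then (1 : ℝ) else 0) ≤ 1 := by
    rw [Finset.sum_ite_eq' (Finset.range N) 0 (fun _ => (1 : ℝ))]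
    split_ifs <;> norm_num
  have e4 : ∑ n ∈ Finset.range N, (if n = N - 1 then (1 : ℝ) else 0) ≤ 1 := by
    rw [Finset.sum_ite_eq' (Finset.range N) (N - 1) (fun _ => (1 : ℝ))]
    split_ifs <;> norm_num
  rw [e0] at hsum
  have h5 : (N : ℝ) ≤ N * H / (H + ε / 4) + Fintype.card M / ε + 2 := by linarith
  have h6 : (N : ℝ) * H / (H + ε / 4) = N - N * (ε / 4) / (H + ε / 4) := by
    field_simp
    ring
  have h7 : (N : ℝ) * (ε / 9) ≤ N * (ε / 4) / (H + ε / 4) := by
    rw [le_div_iff₀ hHe]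
    have : (ε / 9) * (H + ε / 4) ≤ ε / 4 := by nlinarith
    nlinarith
  have h8 : (N : ℝ) * (ε / 9) ≤ Fintype.card M / ε + 2 := by linarith
  have h9 : (9 / ε) * (Fintype.card M / ε + 2) ≥ (9 / ε) * (N * (ε / 9)) :=
    mul_le_mul_of_nonneg_left h8 (by positivity)
  have h10 : (9 / ε) * (N * (ε / 9)) = (N : ℝ) := by
    field_simp
  linarith

variable {n : ℕ} {g : (Fin n → ℝ) → ℝ}

theorem gradN_comp' (hg : Nice g) {ψ ψ' : ℝ → ℝ} (hψ : ∀ s, HasDerivAt ψ (ψ' s) s)
    (h0 : ∀ s, 0 ≤ ψ' s) (x : Fin n → ℝ) :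
    gradN (fun x => ψ (g x)) x = ψ' (g x) * gradN g x := by
  unfold gradN
  have hd : DifferentiableAt ℝ g x := (hg.smooth.differentiable (by norm_num)) x
  have h1 : HasFDerivAt (fun x => ψ (g x)) (ψ' (g x) • fderiv ℝ g x) x :=
    (hψ (g x)).comp_hasFDerivAt x hd.hasFDerivAt
  rw [h1.fderiv]
  have h2 : ∑ i, ((ψ' (g x) • fderiv ℝ g x) (Pi.single i 1)) ^ 2
      = (ψ' (g x)) ^ 2 * ∑ i, (fderiv ℝ g x (Pi.single i 1)) ^ 2 := by
    rw [Finset.mul_sum]
    refine Finset.sum_congr rfl fun i _ => ?_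
    rw [smul_apply, smul_eq_mul]
    ring
  rw [h2, Real.sqrt_mul (sq_nonneg _), Real.sqrt_sq (h0 _)]

/-- the part of the total variation between two levels -/
noncomputable def DD (g : (Fin n → ℝ) → ℝ) (a b : ℝ) : ℝ :=
  (1 / 2) * ∫ x in cell n, {x | a < g x ∧ g x < b}.indicator (gradN g) x

theorem DD_meas (hg : Nice g) (a b : ℝ) : MeasurableSet {x | a < g x ∧ g x < b} :=
  (measurableSet_lt measurable_const hg.smooth.continuous.measurable).inter
    (measurableSet_lt hg.smooth.continuous.measurable measurable_const)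

theorem DD_nonneg (a b : ℝ) : 0 ≤ DD g a b := by
  unfold DD
  refine mul_nonneg (by norm_num) (integral_nonneg fun x => ?_)
  exact indicator_nonneg (fun x _ => UpperPart.gradN_nonneg x) x

theorem DD_sum (hg : Nice g) {N : ℕ} (hN : 0 < N) :
    ∑ m ∈ Finset.range N, DD g ((m : ℝ) / N) (((m : ℝ) + 1) / N) ≤ hTV g := by
  have hN0 : (0 : ℝ) < N := by exact_mod_cast hN
  have hint : ∀ a b : ℝ, IntegrableOn ({x | a < g x ∧ g x < b}.indicator (gradN g)) (cell n) :=
    fun a b => (UpperPart.cont_int (UpperPart.gradN_cont hg.smooth)).indicator (DD_meas hg a b)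
  unfold DD hTV
  rw [← Finset.mul_sum, ← integral_finsetSum _ (fun m _ => hint _ _)]
  refine mul_le_mul_of_nonneg_left ?_ (by norm_num)
  refine setIntegral_mono_on (integrable_finsetSum _ (fun m _ => hint _ _))
    (UpperPart.cont_int (UpperPart.gradN_cont hg.smooth)) UpperPart.cell_meas fun x _ => ?_
  have hg0 := UpperPart.gradN_nonneg (g := g) x
  simp only [indicator_apply, mem_ofPred_eq]
  rw [Finset.sum_ite, Finset.sum_const, Finset.sum_const_zero, add_zero, nsmul_eq_mul]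
  have hcard : (Finset.filter (fun m : ℕ => (m : ℝ) / N < g x ∧ g x < ((m : ℝ) + 1) / N)
      (Finset.range N)).card ≤ 1 := by
    rw [Finset.card_le_one]
    intro m hm m' hm'
    rw [Finset.mem_filter] at hm hm'
    obtain ⟨_, a1, a2⟩ := hm
    obtain ⟨_, b1, b2⟩ := hm'
    rw [div_lt_iff₀ hN0] at a1 b1
    rw [lt_div_iff₀ hN0] at a2 b2
    have c1 : (m : ℝ) < m' + 1 := by linarith
    have c2 : (m' : ℝ) < m + 1 := by linarith
    have d1 : m < m' + 1 := by exact_mod_cast c1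
    have d2 : m' < m + 1 := by exact_mod_cast c2
    omega
  have hcard' : ((Finset.filter (fun m : ℕ => (m : ℝ) / N < g x ∧ g x < ((m : ℝ) + 1) / N)
      (Finset.range N)).card : ℝ) ≤ 1 := by exact_mod_cast hcard
  nlinarith

/-- total variation of a step of `g` -/
theorem hTV_step (hg : Nice g) {a b c : ℝ} {ψ ψ' : ℝ → ℝ} (hψ1 : ContDiff ℝ 1 ψ)
    (hψ : ∀ s, HasDerivAt ψ (ψ' s) s) (h0 : ∀ s, 0 ≤ ψ' s) (hc : ∀ s, ψ' s ≤ c)
    (ha : ∀ s, s ≤ a → ψ' s = 0) (hb : ∀ s, b ≤ s → ψ' s = 0) :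
    hTV (fun x => ψ (g x)) ≤ c * DD g a b := by
  unfold hTV DD
  have e : c * ((1 / 2) * ∫ x in cell n, {x | a < g x ∧ g x < b}.indicator (gradN g) x) =
      (1 / 2) * ∫ x in cell n, c * {x | a < g x ∧ g x < b}.indicator (gradN g) x := by
    rw [integral_const_mul]
    ring
  rw [e]
  refine mul_le_mul_of_nonneg_left ?_ (by norm_num)
  have hcd : ContDiff ℝ 1 (fun x => ψ (g x)) := hψ1.comp hg.smooth
  refine setIntegral_mono_on (UpperPart.cont_int (UpperPart.gradN_cont hcd))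
    (((UpperPart.cont_int (UpperPart.gradN_cont hg.smooth)).indicator
      (DD_meas hg a b)).const_mul c) UpperPart.cell_meas fun x _ => ?_
  rw [gradN_comp' hg hψ h0]
  have hg0 := UpperPart.gradN_nonneg (g := g) x
  by_cases hx : a < g x ∧ g x < b
  · rw [indicator_of_mem (show x ∈ {x | a < g x ∧ g x < b} from hx)]
    exact mul_le_mul_of_nonneg_right (hc _) hg0
  · rw [indicator_of_notMem (show x ∉ {x | a < g x ∧ g x < b} from hx), mul_zero]
    rw [not_and_or, not_lt, not_lt] at hx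
    rcases hx with hx | hx
    · rw [ha _ hx, zero_mul]
    · rw [hb _ hx, zero_mul]

/-- symmetric functions are stable under increasing maps -/
theorem symN_comp (hg : SymN g) {ψ : ℝ → ℝ} (hψ1 : ContDiff ℝ 1 ψ) (hm : Monotone ψ)
    (h0 : ∀ s, 0 ≤ ψ s) (h1 : ∀ s, ψ s ≤ 1) : SymN (fun x => ψ (g x)) where
  smooth := hψ1.comp hg.smooth
  per := fun x k => by
    show ψ (g (x + fun i => (k i : ℝ))) = ψ (g x)
    rw [hg.per x k]
  nonneg := fun x => h0 _
  le_one := fun x => h1 _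
  even := fun x i => by
    show ψ (g (Function.update x i (-(x i)))) = ψ (g x)
    rw [hg.even x i]
  anti := fun x i s r hs hsr hr => hm (hg.anti x i s r hs hsr hr)

/-- the extent of the superlevel set -/
def SS (u : (Fin 3 → ℝ) → ℝ) (i j k : Fin 3) (l : ℝ) : Set ℝ :=
  {t | 0 ≤ t ∧ t ≤ 1 / 2 ∧ (t = 0 ∨ l < u (pt3 i j k t 0.065))}

noncomputable def TT (u : (Fin 3 → ℝ) → ℝ) (i j k : Fin 3) (l : ℝ) : ℝ := sSup (SS u i j k l)

variable {u : (Fin 3 → ℝ) → ℝ} {i j k : Fin 3}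

theorem SS_zero (l : ℝ) : (0 : ℝ) ∈ SS u i j k l := ⟨le_rfl, by norm_num, Or.inl rfl⟩

theorem SS_bdd (l : ℝ) : BddAbove (SS u i j k l) := ⟨1 / 2, fun _ ht => ht.2.1⟩

theorem TT_nonneg (l : ℝ) : 0 ≤ TT u i j k l := le_csSup (SS_bdd l) (SS_zero l)

theorem TT_le (l : ℝ) : TT u i j k l ≤ 1 / 2 := csSup_le ⟨0, SS_zero l⟩ fun _ ht => ht.2.1

theorem TT_anti {l l' : ℝ} (h : l ≤ l') : TT u i j k l' ≤ TT u i j k l :=
  csSup_le_csSup (SS_bdd l) ⟨0, SS_zero l'⟩ fun _ ht =>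
    ⟨ht.1, ht.2.1, ht.2.2.imp id fun h1 => lt_of_le_of_lt h h1⟩

theorem pt3_anti_j (hu : SymN u) (hjk : j ≠ k) {s r z : ℝ} (hs : 0 ≤ s) (hsr : s ≤ r)
    (hr : r ≤ 1 / 2) : u (pt3 i j k r z) ≤ u (pt3 i j k s z) := by
  have e : ∀ t : ℝ, pt3 i j k t z = Function.update
      (Function.update (Function.update (fun _ => (0 : ℝ)) i (1 / 2)) k z) j t := fun t => by
    unfold pt3
    rw [Function.update_comm hjk]
  rw [e, e]
  exact hu.anti _ j s r hs hsr hr

theorem pt3_anti_k (hu : SymN u) {t s r : ℝ} (hs : 0 ≤ s) (hsr : s ≤ r)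
    (hr : r ≤ 1 / 2) : u (pt3 i j k t r) ≤ u (pt3 i j k t s) := by
  unfold pt3
  exact hu.anti _ k s r hs hsr hr

theorem pt3_abs (hu : SymN u) (t z : ℝ) : u (pt3 i j k t |z|) = u (pt3 i j k t z) := by
  rcases abs_choice z with h | h
  · rw [h]
  · have := hu.even (pt3 i j k t z) k
    rw [h]
    rw [← this]
    congr 1
    unfold pt3
    rw [Function.update_self, Function.update_idem]

theorem trace_of (hu : SymN u) (hjk : j ≠ k) {a b ε : ℝ} {ψ : ℝ → ℝ}
    (ha : ∀ s, s ≤ a → ψ s = 0) (hb : ∀ s, b ≤ s → ψ s = 1)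
    (hT : TT u i j k a - TT u i j k b < ε) :
    Trace (fun x => ψ (u x)) i j k (TT u i j k a) ε := by
  constructor
  · intro t z ht0 ht hz
    have h1 : t < TT u i j k b := by linarith
    obtain ⟨t', ht', htt'⟩ := exists_lt_of_lt_csSup ⟨0, SS_zero b⟩ h1
    obtain ⟨c1, c2, c3⟩ := ht'
    have hne : t' ≠ 0 := by
      intro h
      linarith
    have h2 : b < u (pt3 i j k t' 0.065) := c3.resolve_left hne
    have h3 : u (pt3 i j k t' 0.065) ≤ u (pt3 i j k t 0.065) := pt3_anti_j hu hjk ht0 htt'.le c2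
    have h4 : u (pt3 i j k t 0.065) ≤ u (pt3 i j k t |z|) :=
      pt3_anti_k hu (abs_nonneg z) hz (by norm_num)
    rw [pt3_abs hu] at h4
    exact hb _ (by linarith)
  · intro t z ht ht1 hz hz1
    have h0 : 0 ≤ TT u i j k a := TT_nonneg a
    have h1 : u (pt3 i j k t 0.065) ≤ a := by
      by_contra hcon
      push Not at hcon
      have : t ≤ TT u i j k a := le_csSup (SS_bdd a) ⟨by linarith, ht1, Or.inr hcon⟩
      linarith
    have h2 : u (pt3 i j k t z) ≤ u (pt3 i j k t 0.065) :=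
      pt3_anti_k hu (by norm_num) hz hz1
    exact ha _ (h2.trans h1)

/-- pointwise comparison of the step with `u` -/
theorem step_close {N : ℕ} {m : ℕ} (h1 : 1 ≤ m) (h2 : m + 2 ≤ N) {ψ : ℝ → ℝ}
    (h0 : ∀ s, 0 ≤ ψ s) (h01 : ∀ s, ψ s ≤ 1)
    (ha : ∀ s, s ≤ (m : ℝ) / N → ψ s = 0) (hb : ∀ s, ((m : ℝ) + 1) / N ≤ s → ψ s = 1)
    {s : ℝ} (hs0 : 0 ≤ s) (hs1 : s ≤ 1) :
    |ψ s - s| ≤ 2 * N * (s * (1 - s)) ∧ ψ s * (1 - ψ s) ≤ 2 * N * (s * (1 - s)) := by
  have hNn : 3 ≤ N := by omega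
  have hN3 : (3 : ℝ) ≤ N := by exact_mod_cast hNn
  have hN0 : (0 : ℝ) < N := by linarith
  have hm1 : (1 : ℝ) ≤ m := by exact_mod_cast h1
  have hm2 : (m : ℝ) + 2 ≤ N := by exact_mod_cast h2
  have hss : 0 ≤ s * (1 - s) := mul_nonneg hs0 (by linarith)
  rcases le_or_gt s ((m : ℝ) / N) with h | h
  · rw [ha s h]
    have e1 : s * N ≤ m := by rwa [le_div_iff₀ hN0] at h
    have e2 : 1 ≤ 2 * N * (1 - s) := by nlinarith
    constructor
    · rw [zero_sub, abs_neg, abs_of_nonneg hs0]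
      nlinarith
    · rw [zero_mul]
      positivity
  · rcases le_or_gt (((m : ℝ) + 1) / N) s with h' | h'
    · rw [hb s h']
      have e1 : (m : ℝ) + 1 ≤ s * N := by rwa [div_le_iff₀ hN0] at h'
      have e2 : 1 ≤ 2 * N * s := by nlinarith
      constructor
      · rw [abs_of_nonneg (by linarith)]
        nlinarith
      · rw [sub_self, mul_zero]
        positivity
    · have e1 : (m : ℝ) < s * N := by rwa [div_lt_iff₀ hN0] at h
      have e2 : s * N < m + 1 := by rwa [lt_div_iff₀ hN0] at h'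
      have e3 : 1 ≤ s * N := by linarith
      have e4 : 1 ≤ (1 - s) * N := by nlinarith
      have e5 : 1 ≤ 2 * N * (s * (1 - s)) := by
        rcases le_total s (1 / 2) with h3 | h3
        · nlinarith
        · nlinarith
      constructor
      · refine le_trans ?_ e5
        rw [abs_le]
        constructor <;> linarith [h0 s, h01 s]
      · refine le_trans ?_ e5
        nlinarith [h0 s, h01 s]

end WS

open WS in
/-- WS : choice of a good window of levels -/
theorem window {ε : ℝ} (hε : 0 < ε) : ∃ δ > 0, ∀ u : (Fin 3 → ℝ) → ℝ, SymN u → hTV u ≤ 2 →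
    ∫ x in cell 3, u x * (1 - u x) ≤ δ → ∃ w : (Fin 3 → ℝ) → ℝ, SymN w ∧
      |(∫ x in cell 3, w x) - ∫ x in cell 3, u x| ≤ ε ∧ ∫ x in cell 3, w x * (1 - w x) ≤ ε ∧
      hTV w ≤ hTV u + ε ∧
      (∀ j k, j ≠ k → w (pt j k 0.065) = 0 ∨ w (pt j k 0.065) = 1) ∧
      (∀ i j k, i ≠ j → j ≠ k → i ≠ k → ∃ τ, 0 ≤ τ ∧ τ ≤ 1 / 2 ∧ Trace w i j k τ ε) := by
  classical
  -- reduction to `ε ≤ 1`
  wlog hε1 : ε ≤ 1 generalizing ε
  · obtain ⟨δ, hδ, H⟩ := this one_pos le_rfl
    push Not at hε1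
    refine ⟨δ, hδ, fun u hu h2 h3 => ?_⟩
    obtain ⟨w, hw, a1, a2, a3, a4, a5⟩ := H u hu h2 h3
    refine ⟨w, hw, a1.trans hε1.le, a2.trans hε1.le, by linarith, a4, fun i j k h1 h2 h3 => ?_⟩
    obtain ⟨τ, b1, b2, b3, b4⟩ := a5 i j k h1 h2 h3
    exact ⟨τ, b1, b2, fun t z c1 c2 c3 => b3 t z c1 (by linarith) c3, b4⟩
  obtain ⟨N, hN⟩ := exists_nat_gt
    ((9 / ε) * (Fintype.card ((Fin 3 × Fin 3) ⊕ (Fin 3 × Fin 3 × Fin 3)) / ε + 2))
  have hN0 : (0 : ℝ) < N := lt_trans (by positivity) hN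
  have hNn : 0 < N := by exact_mod_cast hN0
  refine ⟨ε / (2 * N), by positivity, fun u hu hTV2 hδ => ?_⟩
  have hH0 : 0 ≤ hTV u := mul_nonneg (by norm_num)
    (integral_nonneg fun x => UpperPart.gradN_nonneg x)
  set G : (Fin 3 × Fin 3) ⊕ (Fin 3 × Fin 3 × Fin 3) → ℕ → ℝ := fun q m =>
    match q with
    | Sum.inl (j, k) => if (m : ℝ) / N < u (pt j k 0.065) then 1 else 0
    | Sum.inr (i, j, k) => TT u i j k ((m : ℝ) / N) with hG
  have hstep : ∀ m : ℕ, (m : ℝ) / N ≤ ((m + 1 : ℕ) : ℝ) / N := fun m =>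
    div_le_div_of_nonneg_right (by push_cast; linarith) hN0.le
  have hGa : ∀ q m, G q (m + 1) ≤ G q m := by
    rintro (⟨j, k⟩ | ⟨i, j, k⟩) m
    · show (if ((m + 1 : ℕ) : ℝ) / N < u (pt j k 0.065) then (1 : ℝ) else 0) ≤
        if (m : ℝ) / N < u (pt j k 0.065) then (1 : ℝ) else 0
      have := hstep m
      split_ifs with h1 h2 <;> first | norm_num | skip
      exact absurd (lt_of_le_of_lt this h1) h2
    · exact TT_anti (hstep m)
  have hG1 : ∀ q, G q 0 - G q N ≤ 1 := by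
    rintro (⟨j, k⟩ | ⟨i, j, k⟩)
    · show (if ((0 : ℕ) : ℝ) / N < u (pt j k 0.065) then (1 : ℝ) else 0) -
        (if (N : ℝ) / N < u (pt j k 0.065) then (1 : ℝ) else 0) ≤ 1
      split_ifs <;> norm_num
    · show TT u i j k _ - TT u i j k _ ≤ 1
      have h1 := TT_le (u := u) (i := i) (j := j) (k := k) (((0 : ℕ) : ℝ) / N)
      have h2 := TT_nonneg (u := u) (i := i) (j := j) (k := k) ((N : ℝ) / N)
      linarith
  obtain ⟨m, hm1, hm2, hm3, hm4⟩ := pick hε hε1 hN
    (D := fun m => DD u ((m : ℝ) / N) (((m : ℝ) + 1) / N)) (fun m => DD_nonneg _ _)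
    hH0 hTV2 (DD_sum hu.toNice hNn) hGa hG1
  have hab : (m : ℝ) / N < ((m : ℝ) + 1) / N :=
    div_lt_div_of_pos_right (by linarith) hN0
  obtain ⟨ψ, ψ', hψ1, hψd, hψm, hψa, hψb, hψ0, hψc, hψa', hψb'⟩ :=
    exists_step hab (show 0 < ε / 8 by positivity)
  have hp0 : ∀ s, 0 ≤ ψ s := fun s => by
    have h1 := hψm (min_le_left s ((m : ℝ) / N))
    rw [hψa _ (min_le_right _ _)] at h1
    exact h1
  have hp1 : ∀ s, ψ s ≤ 1 := fun s => by
    have h1 := hψm (le_max_left s (((m : ℝ) + 1) / N))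
    rw [hψb _ (le_max_right _ _)] at h1
    exact h1
  have hw : SymN (fun x => ψ (u x)) := symN_comp hu hψ1 hψm hp0 hp1
  have hcl := fun x : Fin 3 → ℝ => step_close hm1 hm2 hp0 hp1 hψa hψb (hu.nonneg x) (hu.le_one x)
  have huc : Continuous u := hu.smooth.continuous
  have hwc : Continuous (fun x => ψ (u x)) := hw.smooth.continuous
  have hI1 : IntegrableOn (fun x => 2 * N * (u x * (1 - u x))) (cell 3) :=
    UpperPart.cont_int (by fun_prop)
  have hI2 : ∫ x in cell 3, 2 * N * (u x * (1 - u x)) ≤ ε := by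
    rw [integral_const_mul]
    calc 2 * (N : ℝ) * ∫ x in cell 3, u x * (1 - u x) ≤ 2 * N * (ε / (2 * N)) :=
          mul_le_mul_of_nonneg_left hδ (by positivity)
      _ = ε := by field_simp
  refine ⟨fun x => ψ (u x), hw, ?_, ?_, ?_, ?_, ?_⟩
  · rw [← integral_sub (UpperPart.cont_int hwc) (UpperPart.cont_int huc)]
    refine abs_integral_le_integral_abs.trans (le_trans ?_ hI2)
    exact setIntegral_mono_on (UpperPart.cont_int (hwc.sub huc).abs) hI1 UpperPart.cell_meas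
      fun x _ => (hcl x).1
  · refine le_trans ?_ hI2
    exact setIntegral_mono_on (UpperPart.cont_int (hwc.mul (continuous_const.sub hwc))) hI1
      UpperPart.cell_meas fun x _ => (hcl x).2
  · have h1 := hTV_step hu.toNice hψ1 hψd hψ0 hψc hψa' hψb'
    have h2 : ((m : ℝ) + 1) / N - (m : ℝ) / N = 1 / N := by
      rw [← sub_div]
      ring
    rw [h2] at h1
    have h3 : (1 + ε / 8) / (1 / (N : ℝ)) * DD u ((m : ℝ) / N) (((m : ℝ) + 1) / N) =
        (1 + ε / 8) * (N * DD u ((m : ℝ) / N) (((m : ℝ) + 1) / N)) := by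
      field_simp
    rw [h3] at h1
    have h4 : (1 + ε / 8) * (N * DD u ((m : ℝ) / N) (((m : ℝ) + 1) / N)) ≤
        (1 + ε / 8) * (hTV u + ε / 4) := mul_le_mul_of_nonneg_left hm3 (by positivity)
    have h5 : (1 + ε / 8) * (hTV u + ε / 4) ≤ hTV u + ε := by nlinarith
    linarith
  · intro j k _
    have h1 := hm4 (Sum.inl (j, k))
    have h2 : (if (m : ℝ) / N < u (pt j k 0.065) then (1 : ℝ) else 0) -
        (if ((m + 1 : ℕ) : ℝ) / N < u (pt j k 0.065) then (1 : ℝ) else 0) < ε := h1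
    by_cases h3 : (m : ℝ) / N < u (pt j k 0.065)
    · right
      rw [if_pos h3] at h2
      by_cases h4 : ((m + 1 : ℕ) : ℝ) / N < u (pt j k 0.065)
      · push_cast at h4
        exact hψb _ h4.le
      · rw [if_neg h4] at h2
        linarith
    · left
      exact hψa _ (not_lt.1 h3)
  · intro i j k _ hjk _
    refine ⟨TT u i j k ((m : ℝ) / N), TT_nonneg _, TT_le _, ?_⟩
    have h1 := hm4 (Sum.inr (i, j, k))
    have h2 : TT u i j k ((m : ℝ) / N) - TT u i j k (((m + 1 : ℕ) : ℝ) / N) < ε := h1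
    push_cast at h2
    exact trace_of hu hjk hψa hψb h2

end Vale.Agent.P232
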